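import Vale.Agent.P282.AProj

set_option linter.unusedSectionVars false

open scoped ENNReal TensorProduct Topology
open Filter MeasureTheory

noncomputable section

namespace Vale.Agent.P282

theorem AEmb0_tr {A R K ι : Type} [CommRing A] [IsDomain A] [IsIntegrallyClosed A] [CharZero A]
    [CommRing R] [IsDomain R] [Field K] [Algebra R K] [IsFractionRing R K] (ψ : A →+* R)
    (hi : Function.Injective ψ) (hf : ψ.Finite) (φ : ι → K →+* AlgebraicClosure K)
    (h1 : Function.Injective φ) (h2 : ∀ f : K →+* AlgebraicClosure K, (∃ i, φ i = f) ↔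
      ∀ a, f (algebraMap R K (ψ a)) = algebraMap K _ (algebraMap R K (ψ a))) :
    Finite ι ∧ (∀ x : K, ∃ P Q : A, Q ≠ 0 ∧
      (∑ᶠ i, φ i x) * algebraMap K _ (algebraMap R K (ψ Q)) =
        algebraMap K _ (algebraMap R K (ψ P))) ∧
      ∀ r : R, ∃ P : A, ∑ᶠ i, φ i (algebraMap R K r) = algebraMap K _ (algebraMap R K (ψ P)) := by
  let : Algebra A R := ψ.toAlgebra
  have : Module.Finite A R := hf
  have : FaithfulSMul A R := (faithfulSMul_iff_algebraMap_injective A R).2 hi
  let : Algebra A K := ((algebraMap R K).comp ψ).toAlgebra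
  have : IsScalarTower A R K := .of_algebraMap_eq fun _ => rfl
  have : FaithfulSMul A K := (faithfulSMul_iff_algebraMap_injective A K).2
    ((IsFractionRing.injective R K).comp hi)
  let : Algebra (FractionRing A) K := FractionRing.liftAlgebra A K
  have : IsScalarTower A (FractionRing A) K := FractionRing.isScalarTower_liftAlgebra A K
  have : Module.Finite (FractionRing A) K :=
    Module.Finite.of_isLocalization A R (nonZeroDivisors A)
  have al : ∀ a : A, algebraMap (FractionRing A) (AlgebraicClosure K)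
      (algebraMap A (FractionRing A) a) = algebraMap K _ (algebraMap R K (ψ a)) := fun a => by
    rw [IsScalarTower.algebraMap_apply (FractionRing A) K (AlgebraicClosure K),
      ← IsScalarTower.algebraMap_apply A (FractionRing A) K]
    rfl
  have com : ∀ i, (φ i).comp (algebraMap (FractionRing A) K) =
      algebraMap (FractionRing A) (AlgebraicClosure K) := fun i =>
    IsFractionRing.ringHom_ext (A := A) fun a => by
      rw [al, RingHom.comp_apply, ← IsScalarTower.algebraMap_apply A (FractionRing A) K]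
      exact (h2 _).1 ⟨i, rfl⟩ a
  let e : ι → K →ₐ[FractionRing A] AlgebraicClosure K := fun i =>
    { φ i with commutes' := fun c => RingHom.congr_fun (com i) c }
  have hb : Function.Bijective e := by
    refine ⟨fun i j h => h1 (congrArg AlgHom.toRingHom h), fun f => ?_⟩
    obtain ⟨i, hi'⟩ := (h2 f.toRingHom).2 fun a => by
      rw [← al]
      exact (congrArg f (IsScalarTower.algebraMap_apply A (FractionRing A) K a)).trans
        (f.commutes _)
    exact ⟨i, AlgHom.coe_ringHom_injective hi'⟩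
  have tr : ∀ x : K, ∑ᶠ i, φ i x = algebraMap (FractionRing A) (AlgebraicClosure K)
      (Algebra.trace (FractionRing A) K x) := fun x => by
    rw [trace_eq_sum_embeddings, ← finsum_eq_sum_of_fintype]
    exact finsum_eq_of_bijective e hb fun _ => rfl
  refine ⟨Finite.of_injective e hb.1, fun x => ?_, fun r => ?_⟩
  · obtain ⟨P, Q, hQ, h⟩ := IsFractionRing.div_surjective A (Algebra.trace (FractionRing A) K x)
    have hQ' := nonZeroDivisors.ne_zero hQ
    refine ⟨P, Q, hQ', ?_⟩
    rw [tr, ← h, ← al, ← al, ← map_mul, div_mul_cancel₀]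
    exact fun h0 => hQ' (IsFractionRing.injective A (FractionRing A) (h0.trans (map_zero _).symm))
  · have hr : IsIntegral A (algebraMap R K r) := (Algebra.IsIntegral.isIntegral r).algebraMap
    obtain ⟨P, hP⟩ := IsIntegrallyClosed.isIntegral_iff.1
      (Algebra.isIntegral_trace (L := FractionRing A) hr)
    exact ⟨P, by rw [tr, ← hP, al]⟩

variable {R K : Type} [CommRing R] [IsDomain R] [Algebra ℂ R] [Algebra.FiniteType ℂ R]
  [IsIntegrallyClosed R] [Field K] [Algebra R K] [IsFractionRing R K] [Algebra ℂ K]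
  [IsScalarTower ℂ R K] {n : ℕ}

theorem AEmb0_io (r : R) : io K r = algebraMap K (Cl K) (algebraMap R K r) := rfl

theorem AEmb0_io_inj : Function.Injective (io K : R →ₐ[ℂ] Cl K) :=
  (algebraMap K (Cl K)).injective.comp (IsFractionRing.injective R K)

namespace Proj
variable (π : Proj R n)

theorem AEmb0_y {σ : R →ₐ[ℂ] Cl K} (h : σ ∈ π.Emb K) (P : MvPolynomial (Fin n) ℂ) :
    σ (MvPolynomial.aeval π.y P) = io K (MvPolynomial.aeval π.y P) := by
  have : σ.comp (MvPolynomial.aeval π.y) = (io K).comp (MvPolynomial.aeval π.y) :=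
    MvPolynomial.algHom_ext fun i => by simpa using h i
  exact AlgHom.congr_fun this P

theorem AEmb0_inj {σ : R →ₐ[ℂ] Cl K} (h : σ ∈ π.Emb K) : Function.Injective σ := by
  rw [injective_iff_map_eq_zero]
  intro r hr
  by_contra h0
  obtain ⟨N, s, h1, h2⟩ := π.norm ⊥ (r := r) (by simpa using h0)
  rw [Ideal.mem_bot, sub_eq_zero] at h2
  refine h1 (Ideal.mem_bot.2 (AEmb0_io_inj (K := K) ?_))
  rw [← π.AEmb0_y h, h2, map_mul, hr, zero_mul, map_zero]

theorem AEmb0_ext (σ : π.Emb K) : ∃ φ : K →ₐ[ℂ] Cl K, ∀ r, φ (algebraMap R K r) = σ.1 r :=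
  ⟨IsFractionRing.liftAlgHom (π.AEmb0_inj σ.2), fun r =>
    IsFractionRing.lift_algebraMap (g := σ.1.toRingHom) (π.AEmb0_inj σ.2) r⟩

theorem AEmb0_key (φ : π.Emb K → K →ₐ[ℂ] Cl K) (hφ : ∀ σ r, φ σ (algebraMap R K r) = σ.1 r) :
    Finite (π.Emb K) ∧ (∀ a : K, ∃ P Q : MvPolynomial (Fin n) ℂ, Q ≠ 0 ∧
      (∑ᶠ σ, φ σ a) * io K (MvPolynomial.aeval π.y Q) = io K (MvPolynomial.aeval π.y P)) ∧
      ∀ r : R, ∃ P : MvPolynomial (Fin n) ℂ,
        ∑ᶠ σ, φ σ (algebraMap R K r) = io K (MvPolynomial.aeval π.y P) := by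
  refine AEmb0_tr (MvPolynomial.aeval π.y : MvPolynomial (Fin n) ℂ →ₐ[ℂ] R).toRingHom π.ind π.fin
    (fun σ => (φ σ).toRingHom) (fun σ τ h => Subtype.ext (AlgHom.ext fun r => ?_)) fun f => ?_
  · rw [← hφ, ← hφ]
    exact RingHom.congr_fun h _
  · constructor
    · rintro ⟨σ, rfl⟩ P
      exact (hφ σ _).trans (π.AEmb0_y σ.2 P)
    · intro h
      let σ : R →ₐ[ℂ] Cl K :=
        { f.comp (algebraMap R K) with
          commutes' := fun c => by
            have := h (MvPolynomial.C c)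
            simp only [AlgHom.toRingHom_eq_coe, RingHom.coe_coe, MvPolynomial.aeval_C] at this
            exact this.trans ((io K).commutes c) }
      have hσ : σ ∈ π.Emb K := fun i => by
        have := h (MvPolynomial.X i)
        simp only [AlgHom.toRingHom_eq_coe, RingHom.coe_coe, MvPolynomial.aeval_X] at this
        exact this
      exact ⟨⟨σ, hσ⟩, IsFractionRing.ringHom_ext (A := R) fun r => hφ ⟨σ, hσ⟩ r⟩

theorem emb_finite : (π.Emb K).Finite := by
  choose φ hφ using π.AEmb0_ext (K := K)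
  exact (π.AEmb0_key φ hφ).1

theorem io_mem : io K ∈ π.Emb K := fun _ => rfl

theorem emb_inj {σ : R →ₐ[ℂ] Cl K} (h : σ ∈ π.Emb K) : Function.Injective σ := π.AEmb0_inj h

theorem rt_fg : Algebra.FiniteType ℂ (π.Rt K) := by
  obtain ⟨s, hs⟩ := (inferInstance : Algebra.FiniteType ℂ R).out
  rw [← Subalgebra.fg_iff_finiteType, Subalgebra.fg_def]
  refine ⟨⋃ σ ∈ π.Emb K, σ '' s, π.emb_finite.biUnion fun σ _ => s.finite_toSet.image _,
    le_antisymm (Algebra.adjoin_mono (Set.iUnion₂_mono fun σ _ => Set.image_subset_range _ _))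
      (Algebra.adjoin_le ?_)⟩
  intro x hx
  obtain ⟨σ, hσ, r, rfl⟩ := Set.mem_iUnion₂.1 hx
  have h1 : σ r ∈ (Algebra.adjoin ℂ (s : Set R)).map σ := ⟨r, hs ▸ Algebra.mem_top, rfl⟩
  rw [AlgHom.map_adjoin] at h1
  exact Algebra.adjoin_mono (Set.subset_biUnion_of_mem (u := fun σ : R →ₐ[ℂ] Cl K => σ '' s) hσ) h1

theorem AEmb0_int (x : Cl K) (hx : x ∈ π.Rt K) :
    ((io K).comp (MvPolynomial.aeval π.y)).toRingHom.IsIntegralElem x := by
  induction hx using Algebra.adjoin_induction with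
  | mem x hx =>
    obtain ⟨σ, hσ, r, rfl⟩ := Set.mem_iUnion₂.1 hx
    obtain ⟨p, hp, h⟩ := RingHom.Finite.to_isIntegral π.fin r
    refine ⟨p, hp, ?_⟩
    have e : ((io K).comp (MvPolynomial.aeval π.y)).toRingHom = σ.toRingHom.comp
        (MvPolynomial.aeval π.y : MvPolynomial (Fin n) ℂ →ₐ[ℂ] R).toRingHom :=
      RingHom.ext fun P => (π.AEmb0_y hσ P).symm
    rw [e]
    exact (Polynomial.hom_eval₂ p _ σ.toRingHom r).symm.trans (by rw [h, map_zero])
  | algebraMap c =>
    rw [← ((io K).comp (MvPolynomial.aeval π.y)).commutes c]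
    exact RingHom.isIntegralElem_map _
  | add x y _ _ hx hy => exact hx.add _ hy
  | mul x y _ _ hx hy => exact hx.mul _ hy

theorem em_integral (σ : π.Emb K) : (π.em K σ).toRingHom.IsIntegral := by
  intro x
  obtain ⟨p, hp, h⟩ := π.AEmb0_int x.1 x.2
  refine ⟨p.map (MvPolynomial.aeval π.y : MvPolynomial (Fin n) ℂ →ₐ[ℂ] R).toRingHom, hp.map _,
    Subtype.ext ?_⟩
  rw [Polynomial.eval₂_map]
  refine (Polynomial.hom_eval₂ p _ (π.Rt K).val.toRingHom x).trans ?_
  have e : (π.Rt K).val.toRingHom.comp ((π.em K σ).toRingHom.comp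
      (MvPolynomial.aeval π.y : MvPolynomial (Fin n) ℂ →ₐ[ℂ] R).toRingHom) =
      ((io K).comp (MvPolynomial.aeval π.y)).toRingHom :=
    RingHom.ext fun P => π.AEmb0_y σ.2 P
  rw [e]
  exact h

theorem em_y (σ σ' : π.Emb K) (P : MvPolynomial (Fin n) ℂ) :
    π.em K σ (MvPolynomial.aeval π.y P) = π.em K σ' (MvPolynomial.aeval π.y P) :=
  Subtype.ext ((π.AEmb0_y σ.2 P).trans (π.AEmb0_y σ'.2 P).symm)

theorem AEmb0_em_inj (σ : π.Emb K) : Function.Injective (π.em K σ) := fun _ _ h =>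
  π.emb_inj σ.2 (congrArg Subtype.val h)

theorem rt_trdeg : Algebra.trdeg ℂ (π.Rt K) = n := by
  have := π.rt_fg (K := K)
  let f := π.em K ⟨io K, π.io_mem⟩
  have h1 : f.toRingHom.FiniteType := by
    refine RingHom.FiniteType.of_comp_finiteType (f := algebraMap ℂ R) ?_
    rw [show f.toRingHom.comp (algebraMap ℂ R) = algebraMap ℂ (π.Rt K) from f.comp_algebraMap]
    exact RingHom.finiteType_algebraMap.2 inferInstance
  have h2 : f.Finite := (π.em_integral _).to_finite h1
  refine Proj.trdeg ⟨f ∘ π.y, π.ind.map' (π.AEmb0_em_inj _), ?_⟩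
  have e : (MvPolynomial.aeval (f ∘ π.y) : MvPolynomial (Fin n) ℂ →ₐ[ℂ] π.Rt K) =
      f.comp (MvPolynomial.aeval π.y) := MvPolynomial.algHom_ext fun i => by simp
  rw [e]
  exact h2.comp π.fin

/-- every prime of `R` is induced by the canonical embedding -/
theorem exists_over (p : Ideal R) [p.IsPrime] : ∃ q : Ideal (π.Rt K), q.IsPrime ∧
    q.comap (π.em K ⟨io K, π.io_mem⟩) = p := by
  let : Algebra R (π.Rt K) := (π.em K ⟨io K, π.io_mem⟩).toRingHom.toAlgebra
  have : Algebra.IsIntegral R (π.Rt K) := ⟨π.em_integral _⟩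
  refine Ideal.exists_ideal_over_prime_of_isIntegral_of_isDomain p fun r hr => ?_
  have : r = 0 := π.AEmb0_em_inj ⟨io K, π.io_mem⟩ (Eq.trans hr (map_zero _).symm)
  exact this ▸ p.zero_mem

theorem exists_pt_over (x : Pt R) : ∃ x' : Pt (π.Rt K), ⟨io K, π.io_mem⟩ ∈ π.EmbAt K x x' := by
  have := π.rt_fg (K := K)
  obtain ⟨q, hq, h⟩ := π.exists_over (K := K) x.m
  have : q.IsMaximal := Ideal.isMaximal_of_isIntegral_of_isMaximal_comap' _
    (π.em_integral ⟨io K, π.io_mem⟩) q (by
      rw [show q.comap (π.em K ⟨io K, π.io_mem⟩).toRingHom = x.m from h]; infer_instance)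
  obtain ⟨x', hx'⟩ := exists_pt q
  refine ⟨x', fun r => ?_⟩
  have h1 : r - algebraMap ℂ R (x r) ∈ x.m := by
    rw [Pt.mem_m, map_sub, AlgHomClass.commutes]
    exact sub_self _
  rw [← h, Ideal.mem_comap, ← hx', Pt.mem_m, map_sub, map_sub, AlgHomClass.commutes,
    AlgHomClass.commutes, sub_eq_zero] at h1
  exact h1

/-- extension of an embedding to the function field -/
theorem exists_ext (σ : π.Emb K) : ∃ φ : K →ₐ[ℂ] Cl K, ∀ r, φ (algebraMap R K r) = σ.1 r :=
  π.AEmb0_ext σ

/-- an element of the function field fixed by all embeddings is a rational function of `y`, and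
the sum of the conjugates of an element is a rational function -/
theorem trace_mem (φ : π.Emb K → K →ₐ[ℂ] Cl K) (hφ : ∀ σ r, φ σ (algebraMap R K r) = σ.1 r)
    (a : K) : ∃ P Q : MvPolynomial (Fin n) ℂ, Q ≠ 0 ∧
      (∑ᶠ σ, φ σ a) * io K (MvPolynomial.aeval π.y Q) = io K (MvPolynomial.aeval π.y P) :=
  (π.AEmb0_key φ hφ).2.1 a

theorem trace_mem_R (r : R) : ∃ P : MvPolynomial (Fin n) ℂ,
    (∑ᶠ σ : π.Emb K, σ.1 r) = io K (MvPolynomial.aeval π.y P) := by
  choose φ hφ using π.AEmb0_ext (K := K)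
  simpa only [hφ] using (π.AEmb0_key φ hφ).2.2 r

end Proj

end Vale.Agent.P282
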