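import Vale.Agent.P282.AVal

set_option linter.unusedSectionVars false

open scoped ENNReal TensorProduct Topology
open Filter MeasureTheory

noncomputable section

namespace Vale.Agent.P282

variable {R K : Type} [CommRing R] [IsDomain R] [Algebra ℂ R] [Algebra.FiniteType ℂ R]
  [IsIntegrallyClosed R] [Field K] [Algebra R K] [IsFractionRing R K] [Algebra ℂ K]
  [IsScalarTower ℂ R K] {n : ℕ}

namespace MK

/-- the underlying germ -/
def QBas_germ : MK →+* Germ (𝓝[≠] (0 : ℂ)) ℂ := Mer.subtype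

theorem QBas_rep {a : MK} {f : ℂ → ℂ} :
    a.Rep f ↔ (f : Germ (𝓝[≠] (0 : ℂ)) ℂ) = QBas_germ a := Iff.rfl

theorem exists_rep (a : MK) : ∃ f, MeromorphicAt f 0 ∧ a.Rep f := (show Mer from a).2
theorem rep_mk (f : ℂ → ℂ) (hf : MeromorphicAt f 0) : (MK.mk f hf).Rep f := rfl
theorem Rep.unique {a : MK} {f g : ℂ → ℂ} (h : a.Rep f) (h' : a.Rep g) : f =ᶠ[𝓝[≠] 0] g :=
  Germ.coe_eq.1 (Eq.trans h (Eq.symm h'))
theorem Rep.congr {a : MK} {f g : ℂ → ℂ} (h : a.Rep f) (h' : f =ᶠ[𝓝[≠] 0] g) : a.Rep g :=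
  Eq.trans (Germ.coe_eq.2 h'.symm) h
theorem Rep.ext {a b : MK} {f : ℂ → ℂ} (h : a.Rep f) (h' : b.Rep f) : a = b :=
  Subtype.ext (Eq.trans (Eq.symm h) h')
theorem Rep.add {a b : MK} {f g : ℂ → ℂ} (h : a.Rep f) (h' : b.Rep g) :
    (a + b).Rep fun t => f t + g t := by
  rw [QBas_rep] at *
  rw [map_add, ← h, ← h']
  rfl
theorem Rep.mul {a b : MK} {f g : ℂ → ℂ} (h : a.Rep f) (h' : b.Rep g) :
    (a * b).Rep fun t => f t * g t := by
  rw [QBas_rep] at *
  rw [map_mul, ← h, ← h']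
  rfl
theorem Rep.neg {a : MK} {f : ℂ → ℂ} (h : a.Rep f) : (-a).Rep fun t => -f t := by
  rw [QBas_rep] at *
  rw [map_neg, ← h]
  rfl
theorem QBas_rep_zero : (0 : MK).Rep fun _ => 0 := rfl
theorem QBas_rep_one : (1 : MK).Rep fun _ => 1 := rfl
theorem Rep.inv {a : MK} {f : ℂ → ℂ} (h : a.Rep f) : a⁻¹.Rep fun t => (f t)⁻¹ := by
  by_cases ha : a = 0
  · subst ha
    rw [inv_zero]
    refine QBas_rep_zero.congr ?_
    filter_upwards [h.unique QBas_rep_zero] with t ht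
    rw [ht, inv_zero]
  · obtain ⟨g, -, hg⟩ := exists_rep a⁻¹
    have h1 := h.mul hg
    rw [mul_inv_cancel₀ ha] at h1
    refine hg.congr ?_
    filter_upwards [h1.unique QBas_rep_one] with t ht
    exact eq_inv_of_mul_eq_one_right ht
theorem Rep.sum {ι : Type*} (s : Finset ι) {a : ι → MK} {f : ι → ℂ → ℂ}
    (h : ∀ i ∈ s, (a i).Rep (f i)) : (∑ i ∈ s, a i).Rep fun t => ∑ i ∈ s, f i t := by
  classical
  induction s using Finset.induction_on with
  | empty => exact QBas_rep_zero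
  | insert j s hj ih =>
    simp only [Finset.sum_insert hj]
    exact (h j (Finset.mem_insert_self _ _)).add
      (ih fun i hi => h i (Finset.mem_insert_of_mem hi))
theorem QBas_rep_prod {ι : Type*} (s : Finset ι) {a : ι → MK} {f : ι → ℂ → ℂ}
    (h : ∀ i ∈ s, (a i).Rep (f i)) : (∏ i ∈ s, a i).Rep fun t => ∏ i ∈ s, f i t := by
  classical
  induction s using Finset.induction_on with
  | empty => exact QBas_rep_one
  | insert j s hj ih =>
    simp only [Finset.prod_insert hj]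
    exact (h j (Finset.mem_insert_self _ _)).mul
      (ih fun i hi => h i (Finset.mem_insert_of_mem hi))
theorem rep_const (c : ℂ) : (algebraMap ℂ MK c).Rep fun _ => c := rfl
theorem Rep.ne {a : MK} {f : ℂ → ℂ} (h : a.Rep f) (ha : a ≠ 0) : ∀ᶠ t in 𝓝[≠] 0, f t ≠ 0 := by
  obtain ⟨g, -, hg⟩ := exists_rep a⁻¹
  have h1 := h.mul hg
  rw [mul_inv_cancel₀ ha] at h1
  filter_upwards [h1.unique QBas_rep_one] with t ht
  exact left_ne_zero_of_mul_eq_one ht
theorem Rep.det {k : ℕ} {B : Matrix (Fin k) (Fin k) MK} {f : ℂ → Matrix (Fin k) (Fin k) ℂ}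
    (h : ∀ i j, (B i j).Rep fun t => f t i j) : B.det.Rep fun t => (f t).det := by
  simp only [Matrix.det_apply']
  refine Rep.sum _ fun σ _ => Rep.mul ?_ (QBas_rep_prod _ fun i _ => h _ _)
  rw [← map_intCast (algebraMap ℂ MK)]
  exact rep_const _
theorem QBas_rep_pow {a : MK} {f : ℂ → ℂ} (h : a.Rep f) (k : ℕ) :
    (a ^ k).Rep fun t => f t ^ k := by
  induction k with
  | zero => simpa only [pow_zero] using QBas_rep_one
  | succ k ih => simpa only [pow_succ] using ih.mul h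
theorem QBas_rep_zpow {a : MK} {f : ℂ → ℂ} (h : a.Rep f) (k : ℤ) :
    (a ^ k).Rep fun t => f t ^ k := by
  cases k with
  | ofNat k => simpa only [Int.ofNat_eq_natCast, zpow_natCast] using QBas_rep_pow h k
  | negSucc k => simpa only [zpow_negSucc] using (QBas_rep_pow h (k + 1)).inv

theorem HasVal.unique {a : MK} {c d : ℂ} (h : a.HasVal c) (h' : a.HasVal d) : c = d := by
  obtain ⟨f, hf, h1, rfl⟩ := h
  obtain ⟨g, hg, h2, rfl⟩ := h'
  exact tendsto_nhds_unique
    ((hf.continuousAt.tendsto.mono_left nhdsWithin_le_nhds).congr' (h1.unique h2))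
    (hg.continuousAt.tendsto.mono_left nhdsWithin_le_nhds)
theorem HasVal.add {a b : MK} {c d : ℂ} (h : a.HasVal c) (h' : b.HasVal d) :
    (a + b).HasVal (c + d) := by
  obtain ⟨f, hf, h1, rfl⟩ := h
  obtain ⟨g, hg, h2, rfl⟩ := h'
  exact ⟨_, hf.add hg, h1.add h2, rfl⟩
theorem HasVal.mul {a b : MK} {c d : ℂ} (h : a.HasVal c) (h' : b.HasVal d) :
    (a * b).HasVal (c * d) := by
  obtain ⟨f, hf, h1, rfl⟩ := h
  obtain ⟨g, hg, h2, rfl⟩ := h'
  exact ⟨_, hf.mul hg, h1.mul h2, rfl⟩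
theorem HasVal.neg {a : MK} {c : ℂ} (h : a.HasVal c) : (-a).HasVal (-c) := by
  obtain ⟨f, hf, h1, rfl⟩ := h
  exact ⟨_, hf.neg, h1.neg, rfl⟩
theorem QBas_val_const (c : ℂ) : (algebraMap ℂ MK c).HasVal c :=
  ⟨fun _ => c, analyticAt_const, rep_const c, rfl⟩
theorem QBas_val_zero : (0 : MK).HasVal 0 := by
  simpa only [map_zero] using QBas_val_const 0
theorem QBas_val_one : (1 : MK).HasVal 1 := by
  simpa only [map_one] using QBas_val_const 1
theorem HasVal.smul {a : MK} {c : ℂ} (h : a.HasVal c) (d : ℂ) : (d • a).HasVal (d * c) := by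
  rw [Algebra.smul_def]
  exact (QBas_val_const d).mul h
theorem HasVal.sum {ι : Type*} (s : Finset ι) {a : ι → MK} {c : ι → ℂ}
    (h : ∀ i ∈ s, (a i).HasVal (c i)) : (∑ i ∈ s, a i).HasVal (∑ i ∈ s, c i) := by
  classical
  induction s using Finset.induction_on with
  | empty => exact QBas_val_zero
  | insert j s hj ih =>
    simp only [Finset.sum_insert hj]
    exact (h j (Finset.mem_insert_self _ _)).add
      (ih fun i hi => h i (Finset.mem_insert_of_mem hi))
theorem QBas_val_prod {ι : Type*} (s : Finset ι) {a : ι → MK} {c : ι → ℂ}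
    (h : ∀ i ∈ s, (a i).HasVal (c i)) : (∏ i ∈ s, a i).HasVal (∏ i ∈ s, c i) := by
  classical
  induction s using Finset.induction_on with
  | empty => exact QBas_val_one
  | insert j s hj ih =>
    simp only [Finset.prod_insert hj]
    exact (h j (Finset.mem_insert_self _ _)).mul
      (ih fun i hi => h i (Finset.mem_insert_of_mem hi))
theorem QBas_val_pow {a : MK} {c : ℂ} (h : a.HasVal c) (k : ℕ) : (a ^ k).HasVal (c ^ k) := by
  induction k with
  | zero => simpa only [pow_zero] using QBas_val_one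
  | succ k ih => simpa only [pow_succ] using ih.mul h
theorem QBas_val_det {k : ℕ} {B : Matrix (Fin k) (Fin k) MK} {C : Matrix (Fin k) (Fin k) ℂ}
    (h : ∀ i j, (B i j).HasVal (C i j)) : B.det.HasVal C.det := by
  simp only [Matrix.det_apply']
  refine HasVal.sum _ fun σ _ => HasVal.mul ?_ (QBas_val_prod _ fun i _ => h _ _)
  rw [← map_intCast (algebraMap ℂ MK)]
  exact QBas_val_const _
theorem hasVal_const (c : ℂ) : (algebraMap ℂ MK c).HasVal c := QBas_val_const c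
theorem HasVal.inv {a : MK} {c : ℂ} (h : a.HasVal c) (hc : c ≠ 0) : a⁻¹.HasVal c⁻¹ := by
  obtain ⟨f, hf, h1, rfl⟩ := h
  exact ⟨_, hf.inv hc, h1.inv, rfl⟩

/-- the germ of the coordinate -/
def T : MK := MK.mk (fun t => t) analyticAt_id.meromorphicAt

theorem QBas_T_rep : T.Rep fun t => t := rfl
theorem T_ne : T ≠ 0 := by
  intro h
  have h1 := QBas_T_rep
  rw [h] at h1
  obtain ⟨t, ht, ht'⟩ := ((h1.unique QBas_rep_zero).and self_mem_nhdsWithin).exists
  exact ht' ht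
theorem T_val : T.HasVal 0 := ⟨fun t => t, analyticAt_id, QBas_T_rep, rfl⟩
/-- every nonzero germ is a power of `T` times a unit -/
theorem exists_ord {a : MK} (ha : a ≠ 0) : ∃ (k : ℤ) (c : ℂ), c ≠ 0 ∧ (a * T ^ k).HasVal c := by
  obtain ⟨f, hf, h⟩ := exists_rep a
  obtain ⟨g, hg, hg0, he⟩ := (meromorphicOrderAt_ne_top_iff hf).1
    ((meromorphicOrderAt_ne_top_iff_eventually_ne_zero hf).2 (h.ne ha))
  refine ⟨-(meromorphicOrderAt f 0).untop₀, g 0, hg0, g, hg,
    (h.mul (QBas_rep_zpow QBas_T_rep _)).congr ?_, rfl⟩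
  filter_upwards [he, self_mem_nhdsWithin] with t ht ht0
  have ht1 : t ≠ 0 := ht0
  rw [ht, sub_zero, smul_eq_mul, zpow_neg]
  have := zpow_ne_zero (meromorphicOrderAt f 0).untop₀ ht1
  field_simp
theorem QBas_shift {a : MK} {k l : ℤ} {c : ℂ} (h : (a * T ^ k).HasVal c) (hl : k ≤ l) :
    (a * T ^ l).HasVal (c * 0 ^ (l - k).toNat) := by
  have h1 := h.mul (QBas_val_pow T_val (l - k).toNat)
  rwa [mul_assoc, ← zpow_natCast T, ← zpow_add₀ T_ne, Int.toNat_of_nonneg (by omega),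
    add_sub_cancel] at h1
theorem HasVal.div {a : MK} (h : a.HasVal 0) : ∃ c, (a * T⁻¹).HasVal c := by
  by_cases ha : a = 0
  · exact ⟨0, by rw [ha, zero_mul]; exact QBas_val_zero⟩
  · obtain ⟨k, c, hc, hk⟩ := exists_ord ha
    rcases le_or_gt 0 k with h0 | h0
    · have h1 : (a * T ^ (0 : ℤ)).HasVal 0 := by rwa [zpow_zero, mul_one]
      have h2 := (QBas_shift h1 h0).unique hk
      rw [zero_mul] at h2
      exact absurd h2.symm hc
    · rw [← zpow_neg_one]
      exact ⟨_, QBas_shift hk (by omega)⟩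
/-- normalization of a finite family -/
theorem exists_norm {ι : Type*} [Finite ι] (a : ι → MK) (h : ∃ i, a i ≠ 0) :
    ∃ β : MK, (∀ i, ∃ c, (β * a i).HasVal c) ∧ ∃ i c, c ≠ 0 ∧ (β * a i).HasVal c := by
  obtain ⟨i0, hi0⟩ := h
  have : Nonempty {i // a i ≠ 0} := ⟨⟨i0, hi0⟩⟩
  choose k c hc hk using fun i : {i // a i ≠ 0} => exists_ord i.2
  obtain ⟨j, hj⟩ := Finite.exists_max k
  refine ⟨T ^ k j, fun i => ?_, j.1, c j, hc j, by rw [mul_comm]; exact hk j⟩
  by_cases hi : a i = 0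
  · exact ⟨0, by rw [hi, mul_zero]; exact QBas_val_zero⟩
  · exact ⟨_, by rw [mul_comm]; exact QBas_shift (hk ⟨i, hi⟩) (hj ⟨i, hi⟩)⟩
theorem QBas_pole (a : MK) {u : MK} (hu : u.HasVal 0) :
    ∃ M₀ : ℕ, ∀ M ≥ M₀, (a * u ^ M).HasVal 0 := by
  by_cases ha : a = 0
  · exact ⟨0, fun M _ => by rw [ha, zero_mul]; exact QBas_val_zero⟩
  · obtain ⟨k, c, -, hk⟩ := exists_ord ha
    obtain ⟨d, hd⟩ := hu.div
    refine ⟨k.toNat + 1, fun M hM => ?_⟩
    have h1 := (QBas_shift hk (l := M) (by omega)).mul (QBas_val_pow hd M)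
    rw [zero_pow (by omega), mul_zero, zero_mul, zpow_natCast, mul_assoc, ← mul_pow,
      mul_left_comm, mul_inv_cancel₀ T_ne, mul_one] at h1
    exact h1
/-- a perturbation of high order does not kill a determinant -/
theorem det_pert {k : ℕ} (B H : Matrix (Fin k) (Fin k) MK) (hB : B.det ≠ 0) (u : Fin k → MK)
    (hu : ∀ i, (u i).HasVal 0) : ∃ M₀ : ℕ, ∀ M ≥ M₀, ∀ c : ℂ,
      (B + Matrix.of fun i j => c • (u i ^ M * H i j)).det ≠ 0 := by
  choose m hm using fun p : Fin k × Fin k × Fin k =>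
    QBas_pole (B⁻¹ p.1 p.2.1 * H p.2.1 p.2.2) (hu p.2.1)
  refine ⟨Finset.univ.sup m, fun M hM c => ?_⟩
  have hB' : IsUnit B.det := isUnit_iff_ne_zero.2 hB
  have e : B + Matrix.of (fun i j => c • (u i ^ M * H i j)) =
      B * (1 + B⁻¹ * Matrix.of fun i j => c • (u i ^ M * H i j)) := by
    rw [mul_add, mul_one, Matrix.mul_nonsing_inv_cancel_left _ _ hB']
  rw [e, Matrix.det_mul]
  refine mul_ne_zero hB fun h0 => ?_
  have h1 : (1 + B⁻¹ * Matrix.of fun i j => c • (u i ^ M * H i j)).det.HasVal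
      (1 : Matrix (Fin k) (Fin k) ℂ).det := by
    refine QBas_val_det fun i j => ?_
    rw [Matrix.add_apply, Matrix.mul_apply, ← add_zero ((1 : Matrix (Fin k) (Fin k) ℂ) i j)]
    refine HasVal.add ?_ ?_
    · by_cases hij : i = j
      · rw [hij, Matrix.one_apply_eq, Matrix.one_apply_eq]
        exact QBas_val_one
      · rw [Matrix.one_apply_ne hij, Matrix.one_apply_ne hij]
        exact QBas_val_zero
    · have h2 := HasVal.sum Finset.univ (c := fun _ => 0) fun l _ =>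
        (by
          have h3 := (hm (i, l, j) M
            ((Finset.le_sup (f := m) (Finset.mem_univ _)).trans hM)).smul c
          rw [mul_zero] at h3
          convert h3 using 1
          simp only [Matrix.of_apply, Algebra.smul_def]
          ring : (B⁻¹ i l * Matrix.of (fun i j => c • (u i ^ M * H i j)) l j).HasVal 0)
      rwa [Finset.sum_const_zero] at h2
  rw [h0, Matrix.det_one] at h1
  exact one_ne_zero (h1.unique QBas_val_zero)

end MK

omit [IsDomain R] [Algebra.FiniteType ℂ R] [IsIntegrallyClosed R]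

theorem QBas_tmul_mul (a b : MK) (r s : R) : (a ⊗ₜ r : RK R) * (b ⊗ₜ s) = (a * b) ⊗ₜ (r * s) :=
  @Algebra.TensorProduct.tmul_mul_tmul _ _ _ _ (_) (_) (_) (_) (_) (_) (_) (_) _ _ _ _
theorem QBas_neg_tmul (a : MK) (r : R) : ((-a) ⊗ₜ r : RK R) = -(a ⊗ₜ r) :=
  eq_neg_of_add_eq_zero_left
    (by rw [← TensorProduct.add_tmul, neg_add_cancel, TensorProduct.zero_tmul])

theorem Arc.hom_rep (a : Arc R) (r : R) : (a.hom r).Rep fun t => a.γ t r := rfl
theorem Arc.hom_val (a : Arc R) (r : R) : (a.hom r).HasVal (a.γ 0 r) :=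
  ⟨_, a.an r, a.hom_rep r, rfl⟩
theorem Arc.ev_tmul (a : Arc R) (c : MK) (r : R) : a.ev (c ⊗ₜ r) = c * a.hom r :=
  Algebra.TensorProduct.lift_tmul _ _ _ _ _
theorem QBas_mem_m (a : Arc R) {x : RK R} : x ∈ a.m ↔ a.ev x = 0 := Iff.rfl
theorem Arc.yq_mem (a : Arc R) (r : R) : a.yq r ∈ a.m := by
  rw [QBas_mem_m, Arc.yq, map_sub, a.ev_tmul, a.ev_tmul, map_one, one_mul, mul_one, sub_self]
theorem Arc.m_eq (a : Arc R) {S : Set R} (hS : Algebra.adjoin ℂ S = ⊤) :
    a.m = Ideal.span (a.yq '' S) := by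
  refine le_antisymm ?_ (Ideal.span_le.2 (by rintro _ ⟨r, -, rfl⟩; exact a.yq_mem r))
  have h1 : ∀ r, a.yq r ∈ Ideal.span (a.yq '' S) := by
    intro r
    have hr : r ∈ Algebra.adjoin ℂ S := hS ▸ Algebra.mem_top
    induction hr using Algebra.adjoin_induction with
    | mem r hr => exact Ideal.subset_span ⟨r, hr, rfl⟩
    | algebraMap c =>
      have : a.yq (algebraMap ℂ R c) = 0 := by
        rw [Arc.yq, AlgHom.commutes, Algebra.algebraMap_eq_smul_one, Algebra.algebraMap_eq_smul_one,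
          TensorProduct.smul_tmul, sub_self]
      rw [this]
      exact Ideal.zero_mem _
    | add r s _ _ hr hs =>
      have : a.yq (r + s) = a.yq r + a.yq s := by
        simp only [Arc.yq, map_add, TensorProduct.tmul_add, TensorProduct.add_tmul]
        ring
      rw [this]
      exact Ideal.add_mem _ hr hs
    | mul r s _ _ hr hs =>
      have : a.yq (r * s) = (1 ⊗ₜ r) * a.yq s + (a.hom s ⊗ₜ 1) * a.yq r := by
        simp only [Arc.yq, map_mul, mul_sub, QBas_tmul_mul, mul_one, one_mul,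
          mul_comm (a.hom s)]
        ring
      rw [this]
      exact Ideal.add_mem _ (Ideal.mul_mem_left _ _ hs) (Ideal.mul_mem_left _ _ hr)
  have h2 : ∀ x : RK R, x - algebraMap MK (RK R) (a.ev x) ∈ Ideal.span (a.yq '' S) := by
    intro x
    induction x using TensorProduct.induction_on with
    | zero => simp
    | tmul c r =>
      have : (c ⊗ₜ r : RK R) - algebraMap MK (RK R) (a.ev (c ⊗ₜ r)) = (c ⊗ₜ 1) * a.yq r := by
        simp only [Arc.yq, a.ev_tmul, mul_sub, QBas_tmul_mul, mul_one,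
          one_mul, Algebra.TensorProduct.algebraMap_apply, Algebra.algebraMap_self, RingHom.id_apply]
      rw [this]
      exact Ideal.mul_mem_left _ _ (h1 r)
    | add x y hx hy =>
      rw [map_add, map_add, ← sub_add_sub_comm]
      exact Ideal.add_mem _ hx hy
  intro x hx
  have h3 := h2 x
  rwa [(QBas_mem_m a).1 hx, map_zero, sub_zero] at h3
theorem Arc.m_max (a : Arc R) : a.m.IsMaximal :=
  RingHom.ker_isMaximal_of_surjective a.ev fun c => ⟨algebraMap MK (RK R) c, a.ev.commutes c⟩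
theorem Arc.sub_ev_mem (a : Arc R) (x : RK R) : x - algebraMap MK (RK R) (a.ev x) ∈ a.m := by
  rw [QBas_mem_m, map_sub, AlgHom.commutes]
  exact sub_self _
/-- pull back of an arc -/
def Arc.comap {S : Type} [CommRing S] [Algebra ℂ S] (a : Arc R) (φ : S →ₐ[ℂ] R) : Arc S where
  γ t := (a.γ t).hom.comp φ
  an r := a.an (φ r)
theorem Arc.comap_hom {S : Type} [CommRing S] [Algebra ℂ S] (a : Arc R) (φ : S →ₐ[ℂ] R) (r : S) :
    (a.comap φ).hom r = a.hom (φ r) := rfl

theorem QBas_lim {ι : Type} [Fintype ι] {a : ι → MK} {c : ι → ℂ} (u : ι → R)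
    (h : ∀ i, (a i).HasVal (c i)) : Lim (∑ i, a i ⊗ₜ u i) (∑ i, c i • u i) :=
  ⟨_, fun j => a ((Fintype.equivFin ι).symm j), fun j => c ((Fintype.equivFin ι).symm j),
    fun j => u ((Fintype.equivFin ι).symm j), fun _ => h _,
    (Equiv.sum_comp (Fintype.equivFin ι).symm fun i => (a i ⊗ₜ u i : RK R)).symm,
    (Equiv.sum_comp (Fintype.equivFin ι).symm fun i => c i • u i).symm⟩
theorem QBas_lim_tmul {a : MK} {c : ℂ} (h : a.HasVal c) (r : R) : Lim (a ⊗ₜ r) (c • r) :=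
  ⟨1, fun _ => a, fun _ => c, fun _ => r, fun _ => h, by simp, by simp⟩
theorem Lim.add {x y : RK R} {r s : R} (h : Lim x r) (h' : Lim y s) : Lim (x + y) (r + s) := by
  obtain ⟨k, a, c, u, h1, rfl, rfl⟩ := h
  obtain ⟨k', a', c', u', h2, rfl, rfl⟩ := h'
  have := QBas_lim (a := Sum.elim a a') (c := Sum.elim c c') (Sum.elim u u')
    (by rintro (i | i); exacts [h1 i, h2 i])
  simpa only [Fintype.sum_sum_type, Sum.elim_inl, Sum.elim_inr] using this
theorem Lim.mul {x y : RK R} {r s : R} (h : Lim x r) (h' : Lim y s) : Lim (x * y) (r * s) := by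
  obtain ⟨k, a, c, u, h1, rfl, rfl⟩ := h
  obtain ⟨k', a', c', u', h2, rfl, rfl⟩ := h'
  have := QBas_lim (a := fun p : Fin k × Fin k' => a p.1 * a' p.2)
    (c := fun p => c p.1 * c' p.2) (fun p => u p.1 * u' p.2) fun p => (h1 p.1).mul (h2 p.2)
  simpa only [Fintype.sum_prod_type, Finset.sum_mul_sum, QBas_tmul_mul,
    smul_mul_smul_comm] using this
theorem QBas_smul (a : MK) (x : RK R) : a • x = (a ⊗ₜ 1) * x := by
  rw [Algebra.smul_def]
  rfl
theorem Lim.smul {x : RK R} {r : R} {a : MK} {c : ℂ} (h : Lim x r) (ha : a.HasVal c) :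
    Lim (a • x) (c • r) := by
  have := (QBas_lim_tmul ha (1 : R)).mul h
  rwa [← QBas_smul, smul_one_mul] at this
theorem Lim.one_tmul (r : R) : Lim (1 ⊗ₜ r) r := by
  simpa only [one_smul] using QBas_lim_tmul MK.QBas_val_one r
theorem Lim.zero : Lim (0 : RK R) 0 := by
  simpa only [TensorProduct.tmul_zero] using Lim.one_tmul (0 : R)
theorem Lim.yq (a : Arc R) (r : R) : Lim (a.yq r) (r - algebraMap ℂ R (a.γ 0 r)) := by
  have := (Lim.one_tmul r).add (QBas_lim_tmul (a.hom_val r).neg (1 : R))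
  rwa [QBas_neg_tmul, neg_smul, ← sub_eq_add_neg, ← sub_eq_add_neg,
    ← Algebra.algebraMap_eq_smul_one] at this

/-- the family `F` represents `x` -/
def Rp (x : RK R) (F : ℂ → R) : Prop :=
  ∃ (k : ℕ) (a : Fin k → MK) (f : Fin k → ℂ → ℂ) (u : Fin k → R), (∀ i, (a i).Rep (f i)) ∧
    x = ∑ i, a i ⊗ₜ u i ∧ ∀ᶠ t in 𝓝[≠] 0, F t = ∑ i, f i t • u i

theorem QBas_rp {ι : Type} [Fintype ι] {a : ι → MK} {f : ι → ℂ → ℂ} (u : ι → R)
    (h : ∀ i, (a i).Rep (f i)) : Rp (∑ i, a i ⊗ₜ u i) fun t => ∑ i, f i t • u i :=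
  ⟨_, fun j => a ((Fintype.equivFin ι).symm j), fun j => f ((Fintype.equivFin ι).symm j),
    fun j => u ((Fintype.equivFin ι).symm j), fun _ => h _,
    (Equiv.sum_comp (Fintype.equivFin ι).symm fun i => (a i ⊗ₜ u i : RK R)).symm,
    .of_forall fun t => (Equiv.sum_comp (Fintype.equivFin ι).symm fun i => f i t • u i).symm⟩

/-- constant germs -/
def QBas_cst : R →+ Germ (𝓝[≠] (0 : ℂ)) R where
  toFun r := ((fun _ => r : ℂ → R) : Germ (𝓝[≠] (0 : ℂ)) R)
  map_zero' := rfl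
  map_add' _ _ := rfl

/-- the bilinear map -/
def QBas_bil : MK →+ R →+ Germ (𝓝[≠] (0 : ℂ)) R :=
  AddMonoidHom.mk' (fun a => AddMonoidHom.mk' (fun r => MK.QBas_germ a • QBas_cst r)
    fun r s => by rw [map_add, smul_add]) fun a b => by
      ext r
      simp only [AddMonoidHom.mk'_apply, AddMonoidHom.add_apply, map_add, add_smul]

theorem QBas_bil_eq {a : MK} {f : ℂ → ℂ} (ha : a.Rep f) (r : R) :
    QBas_bil a r = ((fun t => f t • r : ℂ → R) : Germ (𝓝[≠] (0 : ℂ)) R) := by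
  simp only [QBas_bil, AddMonoidHom.mk'_apply]
  rw [← MK.QBas_rep.1 ha]
  rfl

/-- the germ of a family -/
def QBas_phi : RK R →+ Germ (𝓝[≠] (0 : ℂ)) R :=
  TensorProduct.liftAddHom QBas_bil (by
    intro c a r
    obtain ⟨f, -, hf⟩ := a.exists_rep
    have h1 := (MK.rep_const c).mul hf
    rw [← Algebra.smul_def] at h1
    rw [QBas_bil_eq h1, QBas_bil_eq hf]
    simp only [mul_smul, smul_comm c])

theorem QBas_phi_tmul {a : MK} {f : ℂ → ℂ} (ha : a.Rep f) (r : R) :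
    QBas_phi (a ⊗ₜ r) = ((fun t => f t • r : ℂ → R) : Germ (𝓝[≠] (0 : ℂ)) R) := by
  rw [QBas_phi, TensorProduct.liftAddHom_tmul, QBas_bil_eq ha]

theorem QBas_phi_eq {x : RK R} {F : ℂ → R} (h : Rp x F) :
    (F : Germ (𝓝[≠] (0 : ℂ)) R) = QBas_phi x := by
  obtain ⟨k, a, f, u, h1, rfl, h2⟩ := h
  rw [map_sum, Germ.coe_eq.2 h2]
  simp only [QBas_phi_tmul (h1 _)]
  rw [← Germ.coe_coeRingHom, ← map_sum]
  congr 1
  funext t
  simp

theorem QBas_rp_tmul {a : MK} {f : ℂ → ℂ} (ha : a.Rep f) (r : R) :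
    Rp (a ⊗ₜ r) fun t => f t • r :=
  ⟨1, fun _ => a, fun _ => f, fun _ => r, fun _ => ha, by simp, by simp⟩
theorem QBas_rp_congr {x : RK R} {F F' : ℂ → R} (h : Rp x F) (h' : F =ᶠ[𝓝[≠] 0] F') :
    Rp x F' := by
  obtain ⟨k, a, f, u, h1, h2, h3⟩ := h
  refine ⟨k, a, f, u, h1, h2, ?_⟩
  filter_upwards [h', h3] with t ht ht'
  rw [← ht, ht']
theorem QBas_rp_add {x y : RK R} {F F' : ℂ → R} (h : Rp x F) (h' : Rp y F') :
    Rp (x + y) fun t => F t + F' t := by
  obtain ⟨k, a, f, u, h1, rfl, h3⟩ := h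
  obtain ⟨k', a', f', u', h2, rfl, h4⟩ := h'
  have := QBas_rp (a := Sum.elim a a') (f := Sum.elim f f') (Sum.elim u u')
    (by rintro (i | i); exacts [h1 i, h2 i])
  simp only [Fintype.sum_sum_type, Sum.elim_inl, Sum.elim_inr] at this
  refine QBas_rp_congr this ?_
  filter_upwards [h3, h4] with t ht ht'
  rw [ht, ht']
theorem QBas_rp_one_tmul (r : R) : Rp (1 ⊗ₜ r) fun _ => r := by
  simpa only [one_smul] using QBas_rp_tmul MK.QBas_rep_one r
theorem QBas_rp_zero : Rp (0 : RK R) fun _ => 0 := by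
  simpa only [TensorProduct.tmul_zero] using QBas_rp_one_tmul (0 : R)
theorem QBas_rp_one : Rp (1 : RK R) fun _ => 1 := QBas_rp_one_tmul 1

theorem exists_rp (x : RK R) : ∃ F, Rp x F := by
  induction x using TensorProduct.induction_on with
  | zero => exact ⟨_, QBas_rp_zero⟩
  | tmul a r =>
    obtain ⟨f, -, hf⟩ := a.exists_rep
    exact ⟨_, QBas_rp_tmul hf r⟩
  | add x y hx hy =>
    obtain ⟨F, hF⟩ := hx
    obtain ⟨F', hF'⟩ := hy
    exact ⟨_, QBas_rp_add hF hF'⟩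
theorem Rp.unique {x : RK R} {F F' : ℂ → R} (h : Rp x F) (h' : Rp x F') : F =ᶠ[𝓝[≠] 0] F' :=
  Germ.coe_eq.1 ((QBas_phi_eq h).trans (QBas_phi_eq h').symm)
theorem Rp.congr {x : RK R} {F F' : ℂ → R} (h : Rp x F) (h' : F =ᶠ[𝓝[≠] 0] F') : Rp x F' :=
  QBas_rp_congr h h'
theorem Rp.add {x y : RK R} {F F' : ℂ → R} (h : Rp x F) (h' : Rp y F') :
    Rp (x + y) fun t => F t + F' t := QBas_rp_add h h'
theorem QBas_rp_mul {x y : RK R} {F F' : ℂ → R} (h : Rp x F) (h' : Rp y F') :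
    Rp (x * y) fun t => F t * F' t := by
  obtain ⟨k, a, f, u, h1, rfl, h3⟩ := h
  obtain ⟨k', a', f', u', h2, rfl, h4⟩ := h'
  have := QBas_rp (a := fun p : Fin k × Fin k' => a p.1 * a' p.2)
    (f := fun p t => f p.1 t * f' p.2 t) (fun p => u p.1 * u' p.2) fun p => (h1 p.1).mul (h2 p.2)
  rw [Finset.sum_mul_sum]
  simp only [Fintype.sum_prod_type, QBas_tmul_mul] at this ⊢
  refine this.congr ?_
  filter_upwards [h3, h4] with t ht ht'
  simp only [ht, ht', Finset.sum_mul_sum, smul_mul_smul_comm]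
theorem QBas_rp_smul {x : RK R} {F : ℂ → R} {a : MK} {f : ℂ → ℂ} (h : Rp x F) (ha : a.Rep f) :
    Rp (a • x) fun t => f t • F t := by
  have := QBas_rp_mul (QBas_rp_tmul ha (1 : R)) h
  rw [← QBas_smul] at this
  simpa only [smul_one_mul] using this
theorem Rp.sub {x y : RK R} {F F' : ℂ → R} (h : Rp x F) (h' : Rp y F') :
    Rp (x - y) fun t => F t - F' t := by
  simpa only [neg_smul, one_smul, ← sub_eq_add_neg] using
    h.add (QBas_rp_smul h' MK.QBas_rep_one.neg)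
theorem Rp.mul {x y : RK R} {F F' : ℂ → R} (h : Rp x F) (h' : Rp y F') :
    Rp (x * y) fun t => F t * F' t := QBas_rp_mul h h'
theorem Rp.pow {x : RK R} {F : ℂ → R} (h : Rp x F) (k : ℕ) : Rp (x ^ k) fun t => F t ^ k := by
  induction k with
  | zero => simpa only [pow_zero] using QBas_rp_one
  | succ k ih => simpa only [pow_succ] using ih.mul h
theorem Rp.smul {x : RK R} {F : ℂ → R} {a : MK} {f : ℂ → ℂ} (h : Rp x F) (ha : a.Rep f) :
    Rp (a • x) fun t => f t • F t := QBas_rp_smul h ha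
theorem Rp.sum {ι : Type*} (s : Finset ι) {x : ι → RK R} {F : ι → ℂ → R}
    (h : ∀ i ∈ s, Rp (x i) (F i)) : Rp (∑ i ∈ s, x i) fun t => ∑ i ∈ s, F i t := by
  classical
  induction s using Finset.induction_on with
  | empty => exact QBas_rp_zero
  | insert j s hj ih =>
    simp only [Finset.sum_insert hj]
    exact (h j (Finset.mem_insert_self _ _)).add
      (ih fun i hi => h i (Finset.mem_insert_of_mem hi))
theorem Rp.prod {ι : Type*} (s : Finset ι) {x : ι → RK R} {F : ι → ℂ → R}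
    (h : ∀ i ∈ s, Rp (x i) (F i)) : Rp (∏ i ∈ s, x i) fun t => ∏ i ∈ s, F i t := by
  classical
  induction s using Finset.induction_on with
  | empty => exact QBas_rp_one
  | insert j s hj ih =>
    simp only [Finset.prod_insert hj]
    exact (h j (Finset.mem_insert_self _ _)).mul
      (ih fun i hi => h i (Finset.mem_insert_of_mem hi))
theorem Rp.tmul {a : MK} {f : ℂ → ℂ} (ha : a.Rep f) (r : R) : Rp (a ⊗ₜ r) fun t => f t • r :=
  QBas_rp_tmul ha r
theorem Rp.yq (a : Arc R) (r : R) : Rp (a.yq r) fun t => r - algebraMap ℂ R (a.γ t r) := by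
  simpa only [Algebra.algebraMap_eq_smul_one, Arc.yq] using
    (QBas_rp_one_tmul r).sub (Rp.tmul (a.hom_rep r) (1 : R))
theorem Rp.ev (a : Arc R) {x : RK R} {F : ℂ → R} (h : Rp x F) :
    (a.ev x).Rep fun t => a.γ t (F t) := by
  obtain ⟨k, b, f, u, h1, rfl, h2⟩ := h
  simp only [map_sum, a.ev_tmul]
  refine (MK.Rep.sum _ fun i _ => (h1 i).mul (a.hom_rep (u i))).congr ?_
  filter_upwards [h2] with t ht
  simp only [ht, map_sum, map_smul, smul_eq_mul]
theorem Lim.fam {x : RK R} {r : R} (h : Lim x r) : ∃ F, AFam F ∧ F 0 = r ∧ Rp x F := by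
  obtain ⟨k, a, c, u, h1, rfl, rfl⟩ := h
  choose f hf hr h0 using h1
  exact ⟨fun t => ∑ i, f i t • u i, ⟨k, f, u, hf, fun _ => rfl⟩, by simp only [h0], QBas_rp u hr⟩
theorem QBas_pow_mem (a : Arc R) (N : ℕ) {x : RK R} (hx : x ∈ a.m ^ N) :
    ∀ F, Rp x F → ∀ᶠ t in 𝓝[≠] 0, F t ∈ (a.γ t).m ^ N := by
  induction N generalizing x with
  | zero => exact fun F _ => .of_forall fun t => by simp
  | succ N ih =>
    rw [pow_succ] at hx
    refine Submodule.mul_induction_on hx (fun y hy z hz F hF => ?_) fun y z hy hz F hF => ?_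
    · obtain ⟨Y, hY⟩ := exists_rp y
      obtain ⟨Z, hZ⟩ := exists_rp z
      have h1 := hZ.ev a
      rw [(QBas_mem_m a).1 hz] at h1
      filter_upwards [hF.unique (hY.mul hZ), ih hy Y hY, h1.unique MK.QBas_rep_zero]
        with t ht h2 h3
      rw [ht, pow_succ]
      exact Ideal.mul_mem_mul h2 (Pt.mem_m.2 h3)
    · obtain ⟨Y, hY⟩ := exists_rp y
      obtain ⟨Z, hZ⟩ := exists_rp z
      filter_upwards [hF.unique (hY.add hZ), hy Y hY, hz Z hZ] with t ht h2 h3
      rw [ht]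
      exact Ideal.add_mem _ h2 h3
/-- specialization of ideal membership -/
theorem Rp.mem {k : ℕ} {g : Fin k → RK R} {Γ : Fin k → ℂ → R} (hg : ∀ i, Rp (g i) (Γ i))
    (a : Arc R) (N : ℕ) {x : RK R} {F : ℂ → R} (h : Rp x F)
    (hx : x ∈ Ideal.span (Set.range g) ⊔ a.m ^ N) : ∀ᶠ t in 𝓝[≠] 0,
      F t ∈ Ideal.span (Set.range fun i => Γ i t) ⊔ (a.γ t).m ^ N := by
  obtain ⟨y, hy, z, hz, rfl⟩ := Submodule.mem_sup.1 hx
  obtain ⟨c, rfl⟩ := Ideal.mem_span_range_iff_exists_fun.1 hy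
  choose C hC using fun i => exists_rp (c i)
  obtain ⟨Z, hZ⟩ := exists_rp z
  have h1 := (Rp.sum Finset.univ fun i _ => (hC i).mul (hg i)).add hZ
  filter_upwards [h.unique h1, QBas_pow_mem a N hz Z hZ] with t ht h2
  rw [ht]
  exact Submodule.add_mem_sup (Ideal.mem_span_range_iff_exists_fun.2 ⟨fun i => C i t, rfl⟩) h2

end Vale.Agent.P282
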