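import Vale.Agent.P282.AProj
import Vale.Agent.P282.QBas

set_option linter.unusedSectionVars false

open scoped ENNReal TensorProduct Topology
open Filter MeasureTheory

noncomputable section

namespace Vale.Agent.P282

section Aux

variable {R : Type} [CommRing R] [Algebra ℂ R] {n : ℕ}

theorem AEmb2_mv {Ω : Type} [AddCommGroup Ω] [Module ℂ Ω] [Module R Ω] (d : Derivation ℂ R Ω)
    (y : Fin n → R) (a : MvPolynomial (Fin n) ℂ) :
    d (MvPolynomial.aeval y a) ∈ Submodule.span R (Set.range fun j => d (y j)) := by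
  induction a using MvPolynomial.induction_on with
  | C c => rw [MvPolynomial.aeval_C, d.map_algebraMap]; exact zero_mem _
  | add p q hp hq => rw [map_add, map_add]; exact add_mem hp hq
  | mul_X p i hp =>
    rw [map_mul, MvPolynomial.aeval_X, d.leibniz]
    exact add_mem (Submodule.smul_mem _ _ (Submodule.subset_span ⟨i, rfl⟩))
      (Submodule.smul_mem _ _ hp)

theorem AEmb2_poly {Ω : Type} [AddCommGroup Ω] [Module ℂ Ω] [Module R Ω] (d : Derivation ℂ R Ω)
    (y : Fin n → R) (θ : R) (H : Polynomial (MvPolynomial (Fin n) ℂ)) :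
    d (H.eval₂ (MvPolynomial.aeval y).toRingHom θ) -
      H.derivative.eval₂ (MvPolynomial.aeval y).toRingHom θ • d θ ∈
        Submodule.span R (Set.range fun j => d (y j)) := by
  induction H using Polynomial.induction_on' with
  | add p q hp hq =>
    rw [Polynomial.eval₂_add, map_add, map_add, Polynomial.eval₂_add, add_smul, add_sub_add_comm]
    exact add_mem hp hq
  | monomial k a =>
    rw [Polynomial.derivative_monomial, Polynomial.eval₂_monomial, Polynomial.eval₂_monomial,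
      d.leibniz, d.leibniz_pow, map_mul, map_natCast, mul_smul, mul_smul, Nat.cast_smul_eq_nsmul,
      add_sub_cancel_left]
    exact Submodule.smul_mem _ _ (AEmb2_mv d y a)

theorem AEmb2_der {Ω : Type} [AddCommGroup Ω] [Module ℂ Ω] [Module R Ω] (d : Derivation ℂ R Ω)
    {π : Proj R n} {θ δ : R} {P : Polynomial (MvPolynomial (Fin n) ℂ)} (h : π.EtW θ P δ) (r : R) :
    δ ^ 2 • d r ∈ Submodule.span R (Set.range fun j => d (π.y j)) := by
  have h1 := AEmb2_poly d π.y θ P
  rw [h.root, map_zero, zero_sub, ← h.der, neg_mem_iff] at h1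
  have h2 : ∀ H : Polynomial (MvPolynomial (Fin n) ℂ),
      δ • d (H.eval₂ (MvPolynomial.aeval π.y).toRingHom θ) ∈
        Submodule.span R (Set.range fun j => d (π.y j)) := by
    intro H
    have h3 := add_mem (Submodule.smul_mem _ δ (AEmb2_poly d π.y θ H))
      (Submodule.smul_mem _ (H.derivative.eval₂ (MvPolynomial.aeval π.y).toRingHom θ) h1)
    rwa [smul_sub, smul_comm δ _ (d θ), sub_add_cancel] at h3
  obtain ⟨H, hH⟩ := h.gen r
  have h4 := h2 H
  have h5 := h2 P.derivative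
  rw [← h.der] at h5
  rw [← hH, d.leibniz, smul_add, smul_comm δ r (d δ)] at h4
  have h6 := sub_mem h4 (Submodule.smul_mem _ r h5)
  rwa [add_sub_cancel_right, ← mul_smul, ← sq] at h6

theorem AEmb2_hom {Q : Type} [CommRing Q] {π : Proj R n} {θ δ : R}
    {P : Polynomial (MvPolynomial (Fin n) ℂ)} (h : π.EtW θ P δ) (α β : R →+* Q)
    (hc : ∀ c : ℂ, α (algebraMap ℂ R c) = β (algebraMap ℂ R c))
    (hy : ∀ i, α (π.y i) = β (π.y i)) (hn : IsNilpotent (α θ - β θ)) (hu : IsUnit (β δ))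
    (r : R) : α r = β r := by
  obtain ⟨-, hroot, hder, hgen⟩ := h
  set φ : MvPolynomial (Fin n) ℂ →+* R :=
    (MvPolynomial.aeval π.y : MvPolynomial (Fin n) ℂ →ₐ[ℂ] R).toRingHom with hφ
  have hA : α.comp φ = β.comp φ := by
    refine MvPolynomial.ringHom_ext (fun c => ?_) fun i => ?_
    · simpa [hφ] using hc c
    · simpa [hφ] using hy i
  have e1 : ∀ H : Polynomial (MvPolynomial (Fin n) ℂ),
      α (H.eval₂ φ θ) = (H.map (β.comp φ)).eval (α θ) := fun H => by
    rw [Polynomial.hom_eval₂, hA, Polynomial.eval_map]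
  have e2 : ∀ H : Polynomial (MvPolynomial (Fin n) ℂ),
      β (H.eval₂ φ θ) = (H.map (β.comp φ)).eval (β θ) := fun H => by
    rw [Polynomial.hom_eval₂, Polynomial.eval_map]
  have hθ : α θ = β θ := by
    obtain ⟨k, hk⟩ := (P.map (β.comp φ)).binomExpansion (β θ) (α θ - β θ)
    rw [add_sub_cancel, ← e1, ← e2, hroot, map_zero, map_zero, Polynomial.derivative_map, ← e2,
      ← hder, zero_add] at hk
    have hu' : IsUnit (β δ + k * (α θ - β θ)) :=
      (Commute.isNilpotent_mul_left (Commute.all _ _) hn).isUnit_add_left_of_commute hu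
        (Commute.all _ _)
    have : (β δ + k * (α θ - β θ)) * (α θ - β θ) = 0 := by rw [hk]; ring
    exact sub_eq_zero.1 (hu'.mul_right_eq_zero.1 this)
  have e3 : ∀ H : Polynomial (MvPolynomial (Fin n) ℂ),
      α (H.eval₂ φ θ) = β (H.eval₂ φ θ) := fun H => by rw [e1, e2, hθ]
  obtain ⟨H, hH⟩ := hgen r
  have h1 := e3 H
  have h2 := e3 P.derivative
  rw [← hder] at h2
  rw [← hH, map_mul, map_mul, h2] at h1
  exact hu.mul_left_cancel h1

theorem AEmb2_tmul {F : Type} [Field F] [Algebra ℂ F] (a b : F) (r s : R) :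
    (a ⊗ₜ r * b ⊗ₜ s : F ⊗[ℂ] R) = (a * b) ⊗ₜ (r * s) :=
  Algebra.TensorProduct.tmul_mul_tmul _ _ _ _

theorem AEmb2_nil {B : Type} [CommRing B] (I m : Ideal B) (N : ℕ) {x : B} (hx : x ∈ m) :
    IsNilpotent (Ideal.Quotient.mk (I ⊔ m ^ N) x) :=
  ⟨N, by
    rw [← map_pow, Ideal.Quotient.eq_zero_iff_mem]
    exact Ideal.mem_sup_right (Ideal.pow_mem_pow hx N)⟩

end Aux

variable {R K : Type} [CommRing R] [IsDomain R] [Algebra ℂ R] [Algebra.FiniteType ℂ R]
  [IsIntegrallyClosed R] [Field K] [Algebra R K] [IsFractionRing R K] [Algebra ℂ K]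
  [IsScalarTower ℂ R K] {n : ℕ}

theorem AEmb2_rho (G : WS R K n) {π : Proj R n} {θ δ : R}
    {P : Polynomial (MvPolynomial (Fin n) ℂ)} (h : π.EtW θ P δ) (hδ : δ ≠ 0) (f : Fin n → R) :
    ∃ (k : ℕ) (e : R), δ ^ k * G.ρ f = e * G.ρ π.y := by
  have inj := IsFractionRing.injective R K
  have hδ' : algebraMap R K δ ≠ 0 := (map_ne_zero_iff _ inj).2 hδ
  have h1 : ∀ i, ∃ c : Fin n → R, ∑ j, c j • KaehlerDifferential.D ℂ K (algebraMap R K (π.y j)) =
      δ ^ 2 • KaehlerDifferential.D ℂ K (algebraMap R K (f i)) := fun i =>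
    (Submodule.mem_span_range_iff_exists_fun R).1
      (AEmb2_der ((KaehlerDifferential.D ℂ K).compAlgebraMap R) h (f i))
  choose c hc using h1
  have h2 := G.ω.jac_of_eq (fun i => algebraMap R K (f i))
    (fun i => algebraMap R K (π.y i))
    ((algebraMap R K δ ^ 2)⁻¹ • (algebraMap R K).mapMatrix (Matrix.of c)) (fun i => by
      have e := congrArg (fun v => (algebraMap R K δ ^ 2)⁻¹ • v) (hc i)
      simp only [Finset.smul_sum] at e
      rw [← algebraMap_smul K (δ ^ 2), map_pow, inv_smul_smul₀ (pow_ne_zero 2 hδ')] at e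
      rw [← e]
      refine Finset.sum_congr rfl fun j _ => ?_
      rw [← algebraMap_smul K (c i j), smul_smul]
      rfl)
  rw [Matrix.det_smul, ← RingHom.map_det, Fintype.card_fin] at h2
  refine ⟨2 * n * G.ω.m, (Matrix.of c).det ^ G.ω.m, inj ?_⟩
  rw [map_mul, map_mul, G.ρ_eq, G.ρ_eq, PForm.rho, PForm.rho, h2, map_pow, map_pow, pow_mul,
    pow_mul, ← mul_div_assoc, ← mul_div_assoc, ← mul_pow, ← mul_pow, ← mul_assoc, ← mul_assoc,
    ← mul_pow, mul_inv_cancel₀ (pow_ne_zero 2 hδ'), one_pow, one_mul]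

/-- at an etale prime `ρ` does not vanish -/
theorem rho_notMem (G : WS R K n) {π : Proj R n} {θ δ : R}
    {P : Polynomial (MvPolynomial (Fin n) ℂ)} (h : π.EtW θ P δ) (p : Ideal R) [p.IsPrime]
    (hp : δ ∉ p) : G.ρ π.y ∉ p := by
  intro hm
  have : IsNoetherianRing R := Algebra.FiniteType.isNoetherianRing ℂ R
  obtain ⟨q, hq, hqp⟩ := Ideal.exists_minimalPrimes_le
    ((Ideal.span_singleton_le_iff_mem p).2 hm)
  have hpr : q.IsPrime := hq.isPrime
  have hρ : G.ρ π.y ∈ q := (Ideal.span_singleton_le_iff_mem q).1 hq.1.2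
  have h1 := Ideal.height_le_one_of_isPrincipal_of_mem_minimalPrimes _ q hq
  have h2 : 1 ≤ q.height := by
    rw [Order.one_le_iff_ne_zero, Ne, Ideal.height_eq_zero_iff_eq_bot]
    rintro rfl
    exact G.ρ_ne π hρ
  obtain ⟨f, hf⟩ := G.gen q hpr (le_antisymm h1 h2)
  obtain ⟨k, e, he⟩ := AEmb2_rho G h (fun h0 => hp (h0 ▸ p.zero_mem)) f
  have h3 : δ ^ k * G.ρ f ∈ q := he ▸ q.mul_mem_left e hρ
  exact (hpr.mem_or_mem h3).elim (fun h4 => hp (hqp (hpr.mem_of_pow_mem k h4))) hf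

omit [IsIntegrallyClosed R] in
/-- at an etale point with values in a field the coordinates generate the maximal ideal -/
theorem etW_arc {π : Proj R n} {θ δ : R} {P : Polynomial (MvPolynomial (Fin n) ℂ)}
    (h : π.EtW θ P δ) (a : Arc R) (ha : a.hom δ ≠ 0) (N : ℕ) (x : RK R) :
    x - algebraMap MK (RK R) (a.ev x) ∈
      Ideal.span (Set.range fun i => a.yq (π.y i)) ⊔ a.m ^ N := by
  set J := Ideal.span (Set.range fun i => a.yq (π.y i)) ⊔ a.m ^ N with hJ
  have key : ∀ r : R, a.yq r ∈ J := by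
    intro r
    have := AEmb2_hom h
      ((Ideal.Quotient.mk J).comp
        (Algebra.TensorProduct.includeRight : R →ₐ[ℂ] RK R).toRingHom)
      ((Ideal.Quotient.mk J).comp ((algebraMap MK (RK R)).comp a.hom.toRingHom))
      (fun c => ?_) (fun i => ?_) ?_ ?_ r
    · exact Ideal.Quotient.eq.1 this
    · show Ideal.Quotient.mk J (Algebra.TensorProduct.includeRight (algebraMap ℂ R c)) =
        Ideal.Quotient.mk J (algebraMap MK (RK R) (a.hom (algebraMap ℂ R c)))
      rw [AlgHom.commutes, AlgHom.commutes, ← IsScalarTower.algebraMap_apply]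
    · exact Ideal.Quotient.eq.2 (Ideal.mem_sup_left (Ideal.subset_span ⟨i, rfl⟩))
    · exact AEmb2_nil _ _ N (a.yq_mem θ)
    · exact ((isUnit_iff_ne_zero.2 ha).map (algebraMap MK (RK R))).map (Ideal.Quotient.mk J)
  induction x using TensorProduct.induction_on with
  | zero => simp
  | add x y hx hy =>
    rw [map_add, map_add, add_sub_add_comm]
    exact add_mem hx hy
  | tmul c r =>
    have := J.mul_mem_left (c ⊗ₜ 1) (key r)
    have e1 : (c ⊗ₜ 1 * 1 ⊗ₜ r : RK R) = (c * 1) ⊗ₜ (1 * r) :=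
      AEmb2_tmul _ _ _ _
    have e2 : (c ⊗ₜ 1 * a.hom r ⊗ₜ 1 : RK R) = (c * a.hom r) ⊗ₜ (1 * 1) :=
      AEmb2_tmul _ _ _ _
    rw [Arc.yq, mul_sub, e1, e2, mul_one, one_mul, mul_one] at this
    rw [a.ev_tmul]
    exact this

omit [IsIntegrallyClosed R] in
theorem etW_pt {π : Proj R n} {θ δ : R} {P : Polynomial (MvPolynomial (Fin n) ℂ)}
    (h : π.EtW θ P δ) (x : Pt R) (hx : x δ ≠ 0) :
    x.m ≤ Ideal.span (Set.range fun i => π.y i - algebraMap ℂ R (x (π.y i))) ⊔ x.m ^ 2 := by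
  intro r hr
  set J := Ideal.span (Set.range fun i => π.y i - algebraMap ℂ R (x (π.y i))) ⊔ x.m ^ 2 with hJ
  have := AEmb2_hom h (Ideal.Quotient.mk J)
    ((Ideal.Quotient.mk J).comp ((algebraMap ℂ R).comp x.hom.toRingHom))
    (fun c => ?_) (fun i => ?_) ?_ ?_ r
  · have e : x.hom r = 0 := hr
    have h1 : r - algebraMap ℂ R (x.hom r) ∈ J := Ideal.Quotient.eq.1 this
    rwa [e, map_zero, sub_zero] at h1
  · show Ideal.Quotient.mk J (algebraMap ℂ R c) =
      Ideal.Quotient.mk J (algebraMap ℂ R (x.hom (algebraMap ℂ R c)))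
    rw [AlgHom.commutes]
    rfl
  · exact Ideal.Quotient.eq.2 (Ideal.mem_sup_left (Ideal.subset_span ⟨i, rfl⟩))
  · refine AEmb2_nil _ _ 2 (x := θ - algebraMap ℂ R (x.hom θ)) ?_
    show x.hom _ = 0
    rw [map_sub, AlgHom.commutes]
    exact sub_self _
  · exact ((isUnit_iff_ne_zero.2 hx).map (algebraMap ℂ R)).map (Ideal.Quotient.mk J)

end Vale.Agent.P282
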