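import Vale.Agent.P282.AEmb0
import Vale.Agent.P282.AEmb2

set_option linter.unusedSectionVars false

open scoped ENNReal TensorProduct Topology
open Filter MeasureTheory

noncomputable section

namespace Vale.Agent.P282

open Polynomial in
theorem AEmb1_core {A R F K L : Type} [CommRing A] [IsDomain A] [IsIntegrallyClosed A]
    [CommRing R] [IsDomain R] [Algebra A R] [FaithfulSMul A R] [Module.Finite A R] [Field F]
    [CharZero F] [Algebra A F] [IsFractionRing A F] [Field K] [Algebra R K] [IsFractionRing R K]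
    [Algebra A K] [Algebra F K] [IsScalarTower A R K] [IsScalarTower A F K] [Field L]
    [IsAlgClosed L] [Algebra F L] (θ : R) (φ : K →ₐ[F] L) (S : Submonoid L) (h0 : (0 : L) ∉ S)
    (h : ∀ ψ : K →ₐ[F] L, ψ ≠ φ → φ (algebraMap R K θ) - ψ (algebraMap R K θ) ∈ S) :
    (∀ r, ∃ H : A[X], aeval θ (derivative (minpoly A θ)) * r = aeval θ H) ∧
      φ (algebraMap R K (aeval θ (derivative (minpoly A θ)))) ∈ S := by
  classical
  haveI : FiniteDimensional F K := .of_isLocalization A R (nonZeroDivisors A)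
  have hθ : IsIntegral A θ := Algebra.IsIntegral.isIntegral θ
  have hR : ∀ r : R, IsIntegral A (algebraMap R K r) := fun r =>
    (Algebra.IsIntegral.isIntegral r).map (IsScalarTower.toAlgHom A R K)
  have hx : IsIntegral F (algebraMap R K θ) := Algebra.IsIntegral.isIntegral _
  have e1 : algebraMap R K (aeval θ (derivative (minpoly A θ))) =
      aeval (algebraMap R K θ) (derivative (minpoly F (algebraMap R K θ))) := by
    rw [minpoly.isIntegrallyClosed_eq_field_fractions F K hθ, derivative_map,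
      aeval_map_algebraMap, aeval_algebraMap_apply]
  have h1 : φ (algebraMap R K (aeval θ (derivative (minpoly A θ)))) ∈ S := by
    have hm := (minpoly.monic hx).map (algebraMap F L)
    have hroot : ∀ a, a ∈ ((minpoly F (algebraMap R K θ)).map (algebraMap F L)).roots ↔
        ∃ ψ : K →ₐ[F] L, ψ (algebraMap R K θ) = a := fun a => by
      have := Set.ext_iff.1 (Algebra.IsAlgebraic.range_eval_eq_rootSet_minpoly (F := F) L
        (algebraMap R K θ)) a
      rw [rootSet_def, Finset.mem_coe, Multiset.mem_toFinset] at this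
      exact this.symm
    rw [e1, ← aeval_algHom_apply, ← eval_map_algebraMap, ← derivative_map,
      (IsAlgClosed.splits _).eval_root_derivative hm ((hroot _).2 ⟨φ, rfl⟩)]
    refine S.multiset_prod_mem _ fun b hb => ?_
    obtain ⟨a, ha, rfl⟩ := Multiset.mem_map.1 hb
    rw [(nodup_roots (Separable.map (Algebra.IsSeparable.isSeparable F _))).mem_erase_iff] at ha
    obtain ⟨ψ, rfl⟩ := (hroot a).1 ha.2
    exact h ψ fun e => ha.1 (by rw [e])
  refine ⟨fun r => ?_, h1⟩
  have h2 : Algebra.adjoin F {algebraMap R K θ} = ⊤ := by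
    rw [← IntermediateField.adjoin_simple_toSubalgebra_of_isAlgebraic hx.isAlgebraic,
      (Field.primitive_element_iff_algHom_eq_of_eval F L (fun _ => IsAlgClosed.splits _) _ φ).2
        fun ψ e => by_contra fun hne => h0 (by simpa [e] using h ψ (Ne.symm hne))]
    rfl
  have h3 : algebraMap R K r ∈ (Algebra.traceForm F K).dualSubmodule
      (Subalgebra.toSubmodule (Algebra.adjoin A {algebraMap R K θ})) := by
    intro y hy
    have h4 : IsIntegral A y := adjoin_le_integralClosure (hR θ) hy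
    obtain ⟨a, ha⟩ := IsIntegrallyClosed.isIntegral_iff.1
      (Algebra.isIntegral_trace (L := F) ((hR r).mul h4))
    exact Submodule.mem_one.2 ⟨a, ha⟩
  rw [traceForm_dualSubmodule_adjoin A F h2 (hR θ), ← e1] at h3
  obtain ⟨b, hb, e2⟩ := (Submodule.mem_smul_pointwise_iff_exists _ _ _).1 h3
  rw [Subalgebra.mem_toSubmodule, Algebra.adjoin_singleton_eq_range_aeval] at hb
  obtain ⟨H, rfl⟩ := hb
  refine ⟨H, IsFractionRing.injective R K ?_⟩
  have h5 : algebraMap R K (aeval θ (derivative (minpoly A θ))) ≠ 0 := fun e => by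
    rw [e, map_zero] at h1
    exact h0 h1
  rw [map_mul, ← e2, smul_eq_mul, mul_inv_cancel_left₀ h5, ← aeval_algebraMap_apply]
  rfl

variable {R K : Type} [CommRing R] [IsDomain R] [Algebra ℂ R] [Algebra.FiniteType ℂ R]
  [IsIntegrallyClosed R] [Field K] [Algebra R K] [IsFractionRing R K] [Algebra ℂ K]
  [IsScalarTower ℂ R K] {n : ℕ}

namespace Proj
variable (π : Proj R n)

/-- an embedding that is alone in its class modulo `q` is etale there -/
theorem se (q : Ideal (π.Rt K)) [q.IsPrime] (σ₁ : π.Emb K)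
    (h : ∀ σ, σ ≠ σ₁ → ∃ r, π.em K σ r - π.em K σ₁ r ∉ q) :
    ∃ θ P δ, π.EtW θ P δ ∧ π.em K σ₁ δ ∉ q := by
  haveI : Finite (π.Emb K) := π.emb_finite
  obtain ⟨θ, hθ⟩ : ∃ θ, ∀ σ, σ ≠ σ₁ → π.em K σ₁ θ - π.em K σ θ ∉ q := by
    by_contra hc
    push Not at hc
    obtain ⟨σ, hσ⟩ := Subspace.exists_eq_top_of_iUnion_eq_univ (ι := {σ // σ ≠ σ₁})
      (p := fun σ => (q.restrictScalars ℂ).comap
        ((π.em K σ₁).toLinearMap - (π.em K σ.1).toLinearMap))
      (Set.eq_univ_of_forall fun r => by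
        obtain ⟨σ, h1, h2⟩ := hc r
        exact Set.mem_iUnion.2 ⟨⟨σ, h1⟩, h2⟩)
    obtain ⟨r, hr⟩ := h σ.1 σ.2
    have h1 : π.em K σ₁ r - π.em K σ.1 r ∈ q := (Submodule.eq_top_iff'.1 hσ r :)
    exact hr (by simpa using q.neg_mem h1)
  letI : Algebra (MvPolynomial (Fin n) ℂ) R := (MvPolynomial.aeval π.y).toRingHom.toAlgebra
  letI : Algebra (MvPolynomial (Fin n) ℂ) K :=
    ((algebraMap R K).comp (algebraMap (MvPolynomial (Fin n) ℂ) R)).toAlgebra
  haveI : IsScalarTower (MvPolynomial (Fin n) ℂ) R K := .of_algebraMap_eq fun _ => rfl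
  have hinj : Function.Injective (algebraMap (MvPolynomial (Fin n) ℂ) R) :=
    algebraicIndependent_iff_injective_aeval.1 π.ind
  haveI : FaithfulSMul (MvPolynomial (Fin n) ℂ) R :=
    (faithfulSMul_iff_algebraMap_injective _ _).2 hinj
  haveI : FaithfulSMul (MvPolynomial (Fin n) ℂ) K :=
    (faithfulSMul_iff_algebraMap_injective _ _).2 ((IsFractionRing.injective R K).comp hinj)
  haveI : Module.Finite (MvPolynomial (Fin n) ℂ) R := π.fin
  letI : Algebra (FractionRing (MvPolynomial (Fin n) ℂ)) K := FractionRing.liftAlgebra _ _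
  haveI : IsScalarTower (MvPolynomial (Fin n) ℂ) (FractionRing (MvPolynomial (Fin n) ℂ)) K :=
    FractionRing.isScalarTower_liftAlgebra _ _
  have e0 : ∀ a, algebraMap (FractionRing (MvPolynomial (Fin n) ℂ)) K
      (algebraMap (MvPolynomial (Fin n) ℂ) _ a) = algebraMap R K (MvPolynomial.aeval π.y a) :=
    fun a => (IsScalarTower.algebraMap_apply _ _ _ a).symm
  have e1 : ∀ a, algebraMap (FractionRing (MvPolynomial (Fin n) ℂ)) (Cl K)
      (algebraMap (MvPolynomial (Fin n) ℂ) _ a) = io K (MvPolynomial.aeval π.y a) := fun a => by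
    rw [IsScalarTower.algebraMap_apply _ K, e0]
    rfl
  obtain ⟨φ₀, hφ₀⟩ := π.exists_ext σ₁
  let φ : K →ₐ[FractionRing (MvPolynomial (Fin n) ℂ)] Cl K :=
    { φ₀.toRingHom with
      commutes' := fun f => RingHom.congr_fun (IsLocalization.ringHom_ext
        (nonZeroDivisors (MvPolynomial (Fin n) ℂ))
        (j := φ₀.toRingHom.comp (algebraMap (FractionRing (MvPolynomial (Fin n) ℂ)) K))
        (k := algebraMap _ (Cl K)) (RingHom.ext fun a => by
          refine ((congrArg φ₀ (e0 a)).trans (hφ₀ _)).trans (Eq.trans ?_ (e1 a).symm)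
          exact congrArg Subtype.val (π.em_y σ₁ ⟨io K, π.io_mem⟩ a))) f }
  obtain ⟨h1, h2⟩ := AEmb1_core (A := MvPolynomial (Fin n) ℂ) θ φ
    (q.primeCompl.map (π.Rt K).val) (by
      rintro ⟨b, hb, e⟩
      exact hb ((show b = 0 from Subtype.ext e) ▸ q.zero_mem)) (by
      intro ψ hψ
      have e2 : ∀ a, ψ (algebraMap R K (MvPolynomial.aeval π.y a)) =
          io K (MvPolynomial.aeval π.y a) := fun a => by rw [← e0, ψ.commutes, e1]
      let σ : R →ₐ[ℂ] Cl K :=
        { ψ.toRingHom.comp (algebraMap R K) with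
          commutes' := fun c => by
            have := e2 (algebraMap ℂ _ c)
            rw [AlgHom.commutes, AlgHom.commutes] at this
            exact this }
      have hσ : σ ∈ π.Emb K := fun i => by
        have := e2 (MvPolynomial.X i)
        rw [MvPolynomial.aeval_X] at this
        exact this
      refine ⟨_, hθ ⟨σ, hσ⟩ fun e => hψ ?_, congrArg (· - σ θ) (hφ₀ θ).symm⟩
      refine AlgHom.coe_ringHom_injective (IsLocalization.ringHom_ext (nonZeroDivisors R)
        (RingHom.ext fun r => ?_))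
      exact (AlgHom.congr_fun (congrArg Subtype.val e) r).trans (hφ₀ r).symm)
  have hi : IsIntegral (MvPolynomial (Fin n) ℂ) θ := Algebra.IsIntegral.isIntegral θ
  refine ⟨θ, minpoly (MvPolynomial (Fin n) ℂ) θ, _,
    ⟨minpoly.monic hi, minpoly.aeval _ θ, rfl, h1⟩, ?_⟩
  obtain ⟨b, hb, e⟩ := h2
  intro h3
  exact hb ((show π.em K σ₁ _ = b from Subtype.ext (e.trans (hφ₀ _)).symm) ▸ h3)

end Proj

/-- a singular point has local degree at least two -/
theorem two_emb (π : Proj R n) (x : Pt R) (hs : ¬ IsRegularLocalRing (Localization.AtPrime x.m))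
    (x' : Pt (π.Rt K)) (σ₁ : π.Emb K) (h : σ₁ ∈ π.EmbAt K x x') :
    ∃ σ₂ ∈ π.EmbAt K x x', σ₂ ≠ σ₁ := by
  by_contra hc
  obtain ⟨θ, P, δ, h1, h2⟩ := π.se x'.m σ₁ fun σ hσ => by
    by_contra h3
    push Not at h3
    refine hc ⟨σ, fun r => ?_, hσ⟩
    have h4 := Pt.mem_m.1 (h3 r)
    rw [map_sub, sub_eq_zero] at h4
    exact h4.trans (h r)
  refine hs (regular_of_gen π x _ (fun i => ?_) (etW_pt h1 x fun e => h2 (Pt.mem_m.2 ?_)))
  · rw [Pt.mem_m, map_sub, AlgHomClass.commutes, sub_eq_zero]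
    rfl
  · exact (h δ).trans e

end Vale.Agent.P282
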