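import Vale.Agent.P282.AVal

set_option linter.unusedSectionVars false

open scoped ENNReal TensorProduct Topology
open Filter MeasureTheory

noncomputable section

namespace Vale.Agent.P282

section aux

variable {R K : Type} [CommRing R] [IsDomain R] [IsNoetherianRing R] [IsIntegrallyClosed R]
  [Field K] [Algebra R K] [IsFractionRing R K]

variable (R) in
/-- The ideal of denominators. -/
def AHart_den (x : K) : Ideal R where
  carrier := {r | ∃ k : R, x * algebraMap R K r = algebraMap R K k}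
  add_mem' := by
    rintro a b ⟨k, hk⟩ ⟨l, hl⟩
    exact ⟨k + l, by rw [map_add, mul_add, hk, hl, map_add]⟩
  zero_mem' := ⟨0, by simp⟩
  smul_mem' := by
    rintro c a ⟨k, hk⟩
    exact ⟨c * k, by rw [smul_eq_mul, map_mul, map_mul, ← hk]; ring⟩

theorem AHart_mem_den {x : K} {r : R} :
    r ∈ AHart_den R x ↔ ∃ k : R, x * algebraMap R K r = algebraMap R K k := Iff.rfl

theorem AHart_den_mul {x : K} {s r : R} :
    r ∈ AHart_den R (x * algebraMap R K s) ↔ s * r ∈ AHart_den R x := by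
  rw [AHart_mem_den, AHart_mem_den, map_mul, mul_assoc]

theorem AHart_den_ne (x : K) : AHart_den R x ≠ ⊥ := by
  obtain ⟨a, b, hb, rfl⟩ := IsFractionRing.div_surjective R x
  have hb0 : b ≠ 0 := nonZeroDivisors.ne_zero hb
  refine (Submodule.ne_bot_iff _).2 ⟨b, ⟨a, ?_⟩, hb0⟩
  rw [div_mul_cancel₀ _ ((map_ne_zero_iff _ (IsFractionRing.injective R K)).2 hb0)]

theorem AHart_prime (y : K) (p : Ideal R) [hp : p.IsPrime] (h : AHart_den R y ≤ p) :
    ∃ t : R, (AHart_den R (y * algebraMap R K t)).IsPrime ∧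
      AHart_den R (y * algebraMap R K t) ≤ p := by
  obtain ⟨_, ⟨t, rfl, ht⟩, hmax⟩ := set_has_maximal_iff_noetherian.2 (inferInstance :
    IsNoetherian R R) {I | ∃ t : R, I = AHart_den R (y * algebraMap R K t) ∧ I ≤ p}
    ⟨_, 1, rfl, by simpa using h⟩
  refine ⟨t, ?_, ht⟩
  have key : ∀ s : R, AHart_den R (y * algebraMap R K t * algebraMap R K s) ≤ p →
      AHart_den R (y * algebraMap R K t * algebraMap R K s) ≤
        AHart_den R (y * algebraMap R K t) := fun s hs => by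
    by_contra hc
    refine hmax _ ⟨t * s, by rw [map_mul, mul_assoc], hs⟩ (lt_of_le_not_ge (fun r hr => ?_) hc)
    exact AHart_den_mul.2 (Ideal.mul_mem_left _ s hr)
  refine ⟨fun e => hp.ne_top (top_le_iff.1 (e ▸ ht)), fun {r r'} hr => ?_⟩
  by_contra hc
  rw [not_or] at hc
  have h1 : ¬ AHart_den R (y * algebraMap R K t * algebraMap R K r) ≤ p := fun e =>
    hc.2 (key r e (AHart_den_mul.2 hr))
  obtain ⟨s, hs, hsp⟩ := Set.not_subset.1 h1
  refine hc.1 (key s (fun z hz => ?_) (AHart_den_mul.2 ?_))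
  · exact (hp.mem_or_mem (ht (AHart_den_mul.1 hz))).resolve_left hsp
  · rw [mul_comm s r]
    exact AHart_den_mul.1 hs

theorem AHart_key (x : K) (hp : (AHart_den R x).IsPrime) : ∃ u ∈ AHart_den R x,
    ∃ s, s ∉ AHart_den R x ∧ ∀ r ∈ AHart_den R x, ∃ k, s * r = k * u := by
  have hinj := IsFractionRing.injective R K
  by_cases hx : ∀ y ∈ Submodule.map (Algebra.linearMap R K) (AHart_den R x),
      x • y ∈ Submodule.map (Algebra.linearMap R K) (AHart_den R x)
  · exfalso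
    obtain ⟨b, hb, hb0⟩ := (Submodule.ne_bot_iff _).1 (AHart_den_ne (R := R) x)
    have h1 := isIntegral_of_smul_mem_submodule
      (Submodule.map (Algebra.linearMap R K) (AHart_den R x)) ((Submodule.ne_bot_iff _).2
      ⟨_, Submodule.mem_map_of_mem hb, (map_ne_zero_iff _ hinj).2 hb0⟩)
      (Submodule.FG.map _ (IsNoetherian.noetherian _)) x hx
    obtain ⟨y, hy⟩ := IsIntegrallyClosed.algebraMap_eq_of_integral h1
    exact hp.ne_top ((Ideal.eq_top_iff_one _).2 ⟨y, by rw [map_one, mul_one, hy]⟩)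
  · push Not at hx
    obtain ⟨_, ⟨u, hu, rfl⟩, h1⟩ := hx
    obtain ⟨s, hs⟩ := AHart_mem_den.1 hu
    refine ⟨u, hu, s, fun hc => h1 ⟨s, hc, hs.symm⟩, fun r ⟨k, hk⟩ => ⟨k, hinj ?_⟩⟩
    rw [map_mul, map_mul, ← hs, ← hk]
    ring

theorem AHart_height (p : Ideal R) [hp : p.IsPrime] (h0 : p ≠ ⊥) {u s : R} (hu : u ∈ p)
    (hs : s ∉ p) (h : ∀ r ∈ p, ∃ k, s * r = k * u) : p.height = 1 := by
  have h1 : p ∈ (Ideal.span {u}).minimalPrimes := by
    refine ⟨⟨hp, (Ideal.span_singleton_le_iff_mem _).2 hu⟩, fun q hq hqp r hr => ?_⟩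
    obtain ⟨k, hk⟩ := h r hr
    have h2 : s * r ∈ q := hk ▸ q.mul_mem_left k ((Ideal.span_singleton_le_iff_mem _).1 hq.2)
    exact (hq.1.mem_or_mem h2).resolve_left fun e => hs (hqp e)
  refine le_antisymm (Ideal.height_le_one_of_isPrincipal_of_mem_minimalPrimes _ p h1) ?_
  exact Order.one_le_iff_ne_zero.2 fun e => h0 (Ideal.height_eq_zero_iff_eq_bot.1 e)

theorem AHart_hartogs {a : K} (h : ∀ p : Ideal R, p.IsPrime → p.height = 1 → InLoc p a) :
    ∃ r : R, algebraMap R K r = a := by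
  by_cases h1 : AHart_den R a = ⊤
  · obtain ⟨k, hk⟩ := AHart_mem_den.1 ((Ideal.eq_top_iff_one _).1 h1)
    exact ⟨k, by rw [← hk, map_one, mul_one]⟩
  · obtain ⟨m, hm, hle⟩ := Ideal.exists_le_maximal _ h1
    obtain ⟨t, ht, _⟩ := AHart_prime a m hle
    obtain ⟨u, hu, s, hs, hk⟩ := AHart_key _ ht
    obtain ⟨r, s', hs', e⟩ := h _ ht (AHart_height _ (AHart_den_ne _) hu hs hk)
    exact absurd (AHart_den_mul.2 (Ideal.mul_mem_left _ t ⟨r, e⟩)) hs'

theorem AHart_unif (p : Ideal R) [hp : p.IsPrime] (h : p.height = 1) :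
    ∃ u ∈ p, u ≠ 0 ∧ ∃ s, s ∉ p ∧ ∀ r ∈ p, ∃ k, s * r = k * u := by
  obtain ⟨c, hc, hc0⟩ := (Submodule.ne_bot_iff _).1 (Ideal.ne_bot_of_height_eq_one h)
  have hinj := IsFractionRing.injective R (FractionRing R)
  have hc1 := (map_ne_zero_iff _ hinj).2 hc0
  obtain ⟨t, ht, hle⟩ := AHart_prime (algebraMap R (FractionRing R) c)⁻¹ p fun r ⟨k, hk⟩ => by
    rw [inv_mul_eq_iff_eq_mul₀ hc1, ← map_mul] at hk
    exact hinj hk ▸ p.mul_mem_right k hc
  have he : AHart_den R ((algebraMap R (FractionRing R) c)⁻¹ * algebraMap R _ t) = p := by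
    by_contra hne
    have h1 := Ideal.height_add_one_le_of_lt_of_isPrime (lt_of_le_of_ne hle hne)
    rw [h] at h1
    have h2 := Order.one_le_iff_ne_zero.2 fun e =>
      AHart_den_ne (R := R) ((algebraMap R (FractionRing R) c)⁻¹ * algebraMap R _ t)
        (Ideal.height_eq_zero_iff_eq_bot.1 e)
    exact absurd ((add_le_add_left h2 1).trans h1) (by decide)
  obtain ⟨u, hu, s, hs, hk⟩ := AHart_key _ ht
  rw [he] at hu hs hk
  refine ⟨u, hu, fun e => ?_, s, hs, hk⟩
  obtain ⟨k, hk'⟩ := hk c hc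
  rw [e, mul_zero] at hk'
  exact mul_ne_zero (fun e' : s = 0 => hs (e' ▸ p.zero_mem)) hc0 hk'

variable {p : Ideal R} [hp : p.IsPrime]

theorem AHart_alg (r : R) : InLoc p (algebraMap R K r) :=
  ⟨r, 1, (Ideal.ne_top_iff_one _).1 hp.ne_top, by simp⟩

theorem AHart_mul {a b : K} (ha : InLoc p a) (hb : InLoc p b) : InLoc p (a * b) := by
  obtain ⟨r, s, hs, e⟩ := ha
  obtain ⟨r', s', hs', e'⟩ := hb
  refine ⟨r * r', s * s', fun h => (hp.mem_or_mem h).elim hs hs', ?_⟩
  rw [map_mul, map_mul, ← e, ← e']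
  ring

theorem AHart_add {a b : K} (ha : InLoc p a) (hb : InLoc p b) : InLoc p (a + b) := by
  obtain ⟨r, s, hs, e⟩ := ha
  obtain ⟨r', s', hs', e'⟩ := hb
  refine ⟨r * s' + r' * s, s * s', fun h => (hp.mem_or_mem h).elim hs hs', ?_⟩
  rw [map_add, map_mul, map_mul, map_mul, ← e, ← e']
  ring

theorem AHart_ne {s : R} (hs : s ∉ p) : algebraMap R K s ≠ 0 :=
  (map_ne_zero_iff _ (IsFractionRing.injective R K)).2 fun e => hs (e ▸ p.zero_mem)

theorem AHart_inv {s : R} (hs : s ∉ p) : InLoc p (algebraMap R K s)⁻¹ :=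
  ⟨1, s, hs, by rw [inv_mul_cancel₀ (AHart_ne hs), map_one]⟩

theorem AHart_zpow (u : R) {k : ℤ} (hk : 0 ≤ k) : InLoc p (algebraMap R K u ^ k) := by
  obtain ⟨l, rfl⟩ := Int.eq_ofNat_of_zero_le hk
  rw [zpow_natCast, ← map_pow]
  exact AHart_alg _

/-- `a` is a unit times the `k`-th power of `u`. -/
def AHart_ord (p : Ideal R) (u : R) (a : K) (k : ℤ) : Prop :=
  InLoc p (a * algebraMap R K u ^ (-k)) ∧ InLoc p (a * algebraMap R K u ^ (-k))⁻¹

variable {u : R}

theorem AHart_ord_mul (h0 : u ≠ 0) {a b : K} {k l : ℤ} (ha : AHart_ord p u a k)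
    (hb : AHart_ord p u b l) : AHart_ord p u (a * b) (k + l) := by
  have h1 := (map_ne_zero_iff _ (IsFractionRing.injective R K)).2 h0
  have e : a * b * algebraMap R K u ^ (-(k + l)) =
      (a * algebraMap R K u ^ (-k)) * (b * algebraMap R K u ^ (-l)) := by
    rw [neg_add, zpow_add₀ h1]
    ring
  refine ⟨e ▸ AHart_mul ha.1 hb.1, ?_⟩
  rw [e, mul_inv]
  exact AHart_mul ha.2 hb.2

theorem AHart_ord_inv {a : K} {k : ℤ} (ha : AHart_ord p u a k) : AHart_ord p u a⁻¹ (-k) := by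
  have e : a⁻¹ * algebraMap R K u ^ (- -k) = (a * algebraMap R K u ^ (-k))⁻¹ := by
    rw [mul_inv, ← zpow_neg]
  refine ⟨e ▸ ha.2, ?_⟩
  rw [e, inv_inv]
  exact ha.1

theorem AHart_ord_pow (h0 : u ≠ 0) (k : ℤ) : AHart_ord p u (algebraMap R K u ^ k) k := by
  have h1 := (map_ne_zero_iff _ (IsFractionRing.injective R K)).2 h0
  have e : algebraMap R K u ^ k * algebraMap R K u ^ (-k) = algebraMap R K 1 := by
    rw [← zpow_add₀ h1, add_neg_cancel, zpow_zero, map_one]
  refine ⟨e ▸ AHart_alg 1, ?_⟩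
  rw [e, map_one, inv_one, ← map_one (algebraMap R K)]
  exact AHart_alg 1

theorem AHart_ord_unit {s : R} (hs : s ∉ p) : AHart_ord p u (algebraMap R K s) 0 := by
  unfold AHart_ord
  rw [neg_zero, zpow_zero, mul_one]
  exact ⟨AHart_alg s, AHart_inv hs⟩

theorem AHart_ord_iff (hu : u ∈ p) (h0 : u ≠ 0) {a : K} (ha : a ≠ 0) {k : ℤ}
    (h : AHart_ord p u a k) : InLoc p a ↔ 0 ≤ k := by
  have hinj := IsFractionRing.injective R K
  have h1 := (map_ne_zero_iff _ hinj).2 h0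
  constructor
  · intro h2
    by_contra hc
    obtain ⟨r, s, hs, e⟩ := AHart_mul (AHart_mul h2 h.2) (AHart_zpow u (k := -k - 1) (by omega))
    have e1 : a * (a * algebraMap R K u ^ (-k))⁻¹ * algebraMap R K u ^ (-k - 1) =
        (algebraMap R K u)⁻¹ := by
      rw [zpow_sub_one₀ h1]
      have := zpow_ne_zero (-k) h1
      field_simp
    rw [e1, inv_mul_eq_iff_eq_mul₀ h1, ← map_mul] at e
    exact hs (hinj e ▸ p.mul_mem_right r hu)
  · intro hk
    have h2 := AHart_mul h.1 (AHart_zpow u hk)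
    rwa [mul_assoc, ← zpow_add₀ h1, neg_add_cancel, zpow_zero, mul_one] at h2

theorem AHart_ord_le (hu : u ∈ p) (h0 : u ≠ 0) {a : K} (ha : a ≠ 0) {k : ℤ}
    (h : AHart_ord p u a k) (l : ℤ) : InLoc p (a * algebraMap R K u ^ (-l)) ↔ l ≤ k := by
  have h1 := (map_ne_zero_iff _ (IsFractionRing.injective R K)).2 h0
  rw [AHart_ord_iff hu h0 (mul_ne_zero ha (zpow_ne_zero _ h1))
    (AHart_ord_mul h0 h (AHart_ord_pow h0 (-l)))]
  omega

theorem AHart_ord_uniq (hu : u ∈ p) (h0 : u ≠ 0) {a : K} (ha : a ≠ 0) {k l : ℤ}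
    (h : AHart_ord p u a k) (h' : AHart_ord p u a l) : k = l :=
  le_antisymm ((AHart_ord_le hu h0 ha h' k).1 h.1) ((AHart_ord_le hu h0 ha h l).1 h'.1)

/-- Saturation of a principal ideal. -/
def AHart_sat (p : Ideal R) [hp : p.IsPrime] (r : R) : Ideal R where
  carrier := {z | ∃ b, b ∉ p ∧ ∃ y, z * b = r * y}
  add_mem' := by
    rintro z z' ⟨b, hb, y, e⟩ ⟨b', hb', y', e'⟩
    exact ⟨b * b', fun h => (hp.mem_or_mem h).elim hb hb', y * b' + y' * b, by
      linear_combination b' * e + b * e'⟩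
  zero_mem' := ⟨1, (Ideal.ne_top_iff_one _).1 hp.ne_top, 0, by simp⟩
  smul_mem' := by
    rintro c z ⟨b, hb, y, e⟩
    exact ⟨b, hb, c * y, by rw [smul_eq_mul]; linear_combination c * e⟩

theorem AHart_ord_ex0 (hu : u ∈ p) (h0 : u ≠ 0) {s : R} (hs : s ∉ p)
    (h : ∀ r ∈ p, ∃ k, s * r = k * u) (r : R) (hr : r ≠ 0) :
    ∃ k, AHart_ord p u (algebraMap R K r) k := by
  induction hI : AHart_sat p r using (wellFounded_gt (α := Ideal R)).induction generalizing r with
  | _ I ih =>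
    subst hI
    by_cases h1 : r ∈ p
    · obtain ⟨r', e⟩ := h r h1
      have hs0 : s ≠ 0 := fun e' => hs (e' ▸ p.zero_mem)
      have hr' : r' ≠ 0 := fun e' => mul_ne_zero hs0 hr (by rw [e, e', zero_mul])
      have hlt : AHart_sat p r < AHart_sat p r' := by
        refine lt_of_le_not_ge ?_ fun hc => ?_
        · rintro z ⟨b, hb, y, e'⟩
          exact ⟨b * s, fun h => (hp.mem_or_mem h).elim hb hs, u * y, by
            linear_combination s * e' + y * e⟩
        · obtain ⟨b, hb, y, e'⟩ := hc (show r' ∈ AHart_sat p r' from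
            ⟨1, (Ideal.ne_top_iff_one _).1 hp.ne_top, 1, rfl⟩)
          have e2 : s * b = u * y := mul_left_cancel₀ hr' (by linear_combination s * e' + y * e)
          exact (hp.mem_or_mem (e2 ▸ p.mul_mem_right y hu)).elim hs hb
      obtain ⟨k, hk⟩ := ih _ hlt r' hr' rfl
      have h2 := AHart_ord_mul h0 (AHart_ord_mul h0 hk (AHart_ord_pow h0 1))
        (AHart_ord_inv (AHart_ord_unit hs))
      rw [zpow_one, ← map_mul, ← e, map_mul, mul_comm (algebraMap R K s),
        mul_inv_cancel_right₀ (AHart_ne hs)] at h2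
      exact ⟨_, h2⟩
    · exact ⟨0, AHart_ord_unit h1⟩

theorem AHart_ord_ex (hu : u ∈ p) (h0 : u ≠ 0) {s : R} (hs : s ∉ p)
    (h : ∀ r ∈ p, ∃ k, s * r = k * u) (a : K) (ha : a ≠ 0) : ∃ k, AHart_ord p u a k := by
  obtain ⟨x, y, hy, rfl⟩ := IsFractionRing.div_surjective R a
  obtain ⟨k, hk⟩ := AHart_ord_ex0 (K := K) hu h0 hs h x fun e => ha (by simp [e])
  obtain ⟨l, hl⟩ := AHart_ord_ex0 (K := K) hu h0 hs h y (nonZeroDivisors.ne_zero hy)
  exact ⟨_, div_eq_mul_inv (algebraMap R K x) _ ▸ AHart_ord_mul h0 hk (AHart_ord_inv hl)⟩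

end aux

variable {R K : Type} [CommRing R] [IsDomain R] [Algebra ℂ R] [Algebra.FiniteType ℂ R]
  [IsIntegrallyClosed R] [Field K] [Algebra R K] [IsFractionRing R K] [Algebra ℂ K]
  [IsScalarTower ℂ R K] {n : ℕ}

/-- a normal noetherian domain is the intersection of its localizations at primes of height one -/
theorem hartogs {a : K} (h : ∀ p : Ideal R, p.IsPrime → p.height = 1 → InLoc p a) :
    ∃ r : R, algebraMap R K r = a :=
  haveI := Algebra.FiniteType.isNoetherianRing ℂ R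
  AHart_hartogs h

/-- the order of vanishing along a prime divisor -/
theorem exists_ord (p : Ideal R) [p.IsPrime] (hp : p.height = 1) : ∃ w : RVal K,
    w.CenteredAt p ∧ (∀ a, InLoc p a ↔ w.Ge a 0) ∧
      (∃ u : R, u ≠ 0 ∧ w.v (algebraMap R K u) = 1) ∧ ∀ a, a ≠ 0 → ∃ k : ℤ, w.v a = k := by
  classical
  have := Algebra.FiniteType.isNoetherianRing ℂ R
  obtain ⟨u, hu, h0, s, hs, h⟩ := AHart_unif p hp
  have hinj := IsFractionRing.injective R K
  have h1 := (map_ne_zero_iff _ hinj).2 h0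
  choose! o ho using AHart_ord_ex (K := K) hu h0 hs h
  have hun : ∀ {a : K} {k : ℤ}, a ≠ 0 → AHart_ord p u a k → o a = k := fun ha hk =>
    AHart_ord_uniq hu h0 ha (ho _ ha) hk
  let w : RVal K :=
    { v := fun a => o a
      mul := fun a b ha hb => by
        rw [hun (mul_ne_zero ha hb) (AHart_ord_mul h0 (ho a ha) (ho b hb)), Int.cast_add]
      add := fun a b ha hb hab => by
        have e1 := (AHart_ord_le hu h0 ha (ho a ha) _).2 (min_le_left (o a) (o b))
        have e2 := (AHart_ord_le hu h0 hb (ho b hb) _).2 (min_le_right (o a) (o b))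
        have e3 := AHart_add e1 e2
        rw [← add_mul, AHart_ord_le hu h0 hab (ho _ hab)] at e3
        exact_mod_cast e3
      const := fun c hc => by
        have e1 : algebraMap ℂ R c ∉ p := fun e =>
          Ideal.IsPrime.ne_top ‹_› (p.eq_top_of_isUnit_mem e ((IsUnit.mk0 c hc).map _))
        rw [IsScalarTower.algebraMap_apply ℂ R K, hun (AHart_ne e1) (AHart_ord_unit e1),
          Int.cast_zero] }
  have h3 : ∀ a, InLoc p a ↔ w.Ge a 0 := fun a => by
    by_cases ha : a = 0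
    · refine ⟨fun _ => Or.inl ha, fun _ => ?_⟩
      rw [ha, ← map_zero (algebraMap R K)]
      exact AHart_alg 0
    · rw [AHart_ord_iff hu h0 ha (ho a ha)]
      refine ⟨fun e => Or.inr ?_, fun e => ?_⟩
      · change (0 : ℝ) ≤ o a
        exact_mod_cast e
      · have e1 : (0 : ℝ) ≤ o a := e.resolve_left ha
        exact_mod_cast e1
  refine ⟨w, ⟨fun r => (h3 _).1 (AHart_alg r), fun r hr => ?_⟩, h3, ⟨u, h0, ?_⟩,
    fun a _ => ⟨o a, rfl⟩⟩
  · change (0 : ℝ) < o (algebraMap R K r) ↔ _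
    rw [Int.cast_pos, Int.lt_iff_add_one_le, zero_add, ← AHart_ord_le hu h0 hr (ho _ hr),
      zpow_neg_one]
    constructor
    · rintro ⟨r', s', hs', e⟩
      rw [mul_right_comm, mul_inv_eq_iff_eq_mul₀ h1, ← map_mul, ← map_mul] at e
      exact (Ideal.IsPrime.mem_or_mem ‹_› (hinj e ▸ p.mul_mem_left r' hu)).resolve_right hs'
    · intro e
      obtain ⟨k, hk⟩ := h r e
      refine ⟨k, s, hs, ?_⟩
      rw [mul_right_comm, mul_inv_eq_iff_eq_mul₀ h1, ← map_mul, ← map_mul, mul_comm r, hk]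
  · change ((o (algebraMap R K u) : ℤ) : ℝ) = 1
    have e := AHart_ord_pow (K := K) (p := p) h0 1
    rw [zpow_one] at e
    rw [hun h1 e, Int.cast_one]

theorem locGen_one (p : Ideal R) [p.IsPrime] (hp : p.height = 1) : LocGen p 1 := by
  have := Algebra.FiniteType.isNoetherianRing ℂ R
  obtain ⟨u, hu, _, s, hs, h⟩ := AHart_unif p hp
  refine ⟨fun _ => u, fun _ => hu, fun r hr => ⟨s, hs, ?_⟩⟩
  obtain ⟨k, hk⟩ := h r hr
  rw [hk]
  exact Ideal.mul_mem_left _ k (Ideal.subset_span ⟨0, rfl⟩)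

theorem AHart_jac (G : WS R K n) {w : RVal K} (hw : w.OnSpec R) (g : Fin n → R) :
    w.Ge (G.ω.jac fun i => algebraMap R K (g i)) (w.v G.ω.h / G.ω.m) := by
  by_cases hj : (G.ω.jac fun i => algebraMap R K (g i)) = 0
  · exact Or.inl hj
  · have h1 := hw (G.ρ g)
    rw [G.ρ_eq, PForm.rho] at h1
    have h2 := h1.resolve_left (div_ne_zero (pow_ne_zero _ hj) G.ω.h_ne)
    rw [w.v_div _ _ (pow_ne_zero _ hj) G.ω.h_ne, w.v_pow _ hj] at h2
    have hm : (0 : ℝ) < G.ω.m := Nat.cast_pos.2 G.ω.m_pos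
    refine Or.inr ?_
    rw [div_le_iff₀ hm]
    linarith

theorem AHart_det (G : WS R K n) {w : RVal K} (hw : w.OnSpec R) {u : R}
    (h0 : algebraMap R K u ≠ 0) (h1 : w.v (algebraMap R K u) = 1)
    (y : Fin n → KaehlerDifferential ℂ K)
    (hy : ∀ i, y i = (algebraMap R K u)⁻¹ • KaehlerDifferential.D ℂ K (algebraMap R K u) ∨
      ∃ r : R, y i = KaehlerDifferential.D ℂ K (algebraMap R K r)) :
    w.Ge (G.ω.b.det y) (w.v G.ω.h / G.ω.m - 1) := by
  classical
  by_cases h2 : ∃ i, y i = (algebraMap R K u)⁻¹ • KaehlerDifferential.D ℂ K (algebraMap R K u)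
  · obtain ⟨i, hi⟩ := h2
    by_cases h3 : ∃ j, j ≠ i ∧
        y j = (algebraMap R K u)⁻¹ • KaehlerDifferential.D ℂ K (algebraMap R K u)
    · obtain ⟨j, hj, e⟩ := h3
      exact Or.inl (G.ω.b.det.map_eq_zero_of_eq y (e.trans hi.symm) hj)
    · have h4 : ∀ j, ∃ r : R, y j = (if j = i then (algebraMap R K u)⁻¹ else 1) •
          KaehlerDifferential.D ℂ K (algebraMap R K r) := fun j => by
        by_cases e : j = i
        · exact ⟨u, by rw [if_pos e, e, hi]⟩
        · obtain ⟨r, hr⟩ := (hy j).resolve_left fun e' => h3 ⟨j, e, e'⟩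
          exact ⟨r, by rw [if_neg e, one_smul, hr]⟩
      choose g hg using h4
      rw [funext hg, AlternatingMap.map_smul_univ, Finset.prod_ite_eq', if_pos (Finset.mem_univ _),
        smul_eq_mul]
      have h5 := (RVal.Ge.self (w := w) (algebraMap R K u)⁻¹).mul (AHart_jac G hw g)
      rw [w.v_inv _ h0, h1] at h5
      exact h5.mono (by linarith)
  · choose g hg using fun i => (hy i).resolve_left fun e => h2 ⟨i, e⟩
    rw [funext hg]
    exact (AHart_jac G hw g).mono (by linarith)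

theorem AHart_dlog {p : Ideal R} [p.IsPrime] {w : RVal K} (hw : w.CenteredAt p) {u : R}
    (h0 : algebraMap R K u ≠ 0) (h1 : w.v (algebraMap R K u) = 1)
    (h2 : ∀ a, a ≠ 0 → ∃ k : ℤ, w.v a = k) (h3 : ∀ a, InLoc p a ↔ w.Ge a 0) (f : K) (hf : f ≠ 0) :
    ∃ (c : Fin 3 → K) (y : Fin 3 → KaehlerDifferential ℂ K), (∀ j, w.Ge (c j) 0) ∧
      (∀ j, y j = (algebraMap R K u)⁻¹ • KaehlerDifferential.D ℂ K (algebraMap R K u) ∨
        ∃ r : R, y j = KaehlerDifferential.D ℂ K (algebraMap R K r)) ∧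
      KaehlerDifferential.D ℂ K f = f • ∑ j, c j • y j := by
  have := Algebra.FiniteType.isNoetherianRing ℂ R
  obtain ⟨k, hk⟩ := h2 f hf
  have hz := zpow_ne_zero (-k) h0
  have he : w.v (f * algebraMap R K u ^ (-k)) = 0 := by
    rw [w.mul _ _ hf hz, w.v_zpow _ h0, h1, hk]
    push_cast
    ring
  obtain ⟨r, s, hs, e⟩ := (h3 _).2 (Or.inr he.ge)
  have hs0 : algebraMap R K s ≠ 0 := AHart_ne hs
  have hr0 : algebraMap R K r ≠ 0 := e ▸ mul_ne_zero (mul_ne_zero hf hz) hs0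
  have hvs : w.v (algebraMap R K s) = 0 :=
    le_antisymm (not_lt.1 fun h => hs ((hw.2 s hs0).1 h)) ((hw.1 s).resolve_left hs0)
  have hvr : w.v (algebraMap R K r) = 0 := by
    rw [← e, w.mul _ _ (mul_ne_zero hf hz) hs0, he, hvs, add_zero]
  refine ⟨![(k : K), (algebraMap R K r)⁻¹, -(algebraMap R K s)⁻¹],
    ![(algebraMap R K u)⁻¹ • KaehlerDifferential.D ℂ K (algebraMap R K u),
      KaehlerDifferential.D ℂ K (algebraMap R K r), KaehlerDifferential.D ℂ K (algebraMap R K s)],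
    fun j => ?_, fun j => ?_, ?_⟩
  · fin_cases j
    · have := RVal.Ge.const (w := w) (k : ℂ)
      rwa [map_intCast] at this
    · exact Or.inr (by change (0 : ℝ) ≤ w.v (algebraMap R K r)⁻¹; rw [w.v_inv _ hr0, hvr, neg_zero])
    · exact RVal.Ge.neg (Or.inr (by rw [w.v_inv _ hs0, hvs, neg_zero]))
  · fin_cases j
    · exact Or.inl rfl
    · exact Or.inr ⟨r, rfl⟩
    · exact Or.inr ⟨s, rfl⟩
  · have e1 : f = algebraMap R K r * (algebraMap R K s)⁻¹ * algebraMap R K u ^ k := by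
      rw [← e, zpow_neg]
      have := zpow_ne_zero k h0
      field_simp
    generalize algebraMap R K r = a at hr0 e1
    generalize algebraMap R K s = b at hs0 e1
    generalize algebraMap R K u = t at h0 e1
    subst e1
    rw [Derivation.leibniz, Derivation.leibniz, Derivation.leibniz_inv, Derivation.leibniz_zpow,
      Fin.sum_univ_three, zpow_sub_one₀ h0, ← Int.cast_smul_eq_zsmul K]
    simp only [Matrix.cons_val_zero, Matrix.cons_val_one, Matrix.cons_val_two, Matrix.head_cons,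
      Matrix.tail_cons]
    match_scalars <;> field_simp

/-- the order along a prime divisor has log discrepancy at most one -/
theorem A_ord_le (G : WS R K n) (p : Ideal R) [p.IsPrime] (hp : p.height = 1) {w : RVal K}
    (hw : w.CenteredAt p) (h1 : ∃ u : R, u ≠ 0 ∧ w.v (algebraMap R K u) = 1)
    (h2 : ∀ a, a ≠ 0 → ∃ k : ℤ, w.v a = k) (h3 : ∀ a, InLoc p a ↔ w.Ge a 0) :
    G.ω.A w ≤ (1 : ℝ) := by
  classical
  obtain ⟨u, hu, h1⟩ := h1
  have h0 := (map_ne_zero_iff _ (IsFractionRing.injective R K)).2 hu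
  refine iSup_le fun ⟨f, hf, hj⟩ => EReal.coe_le_coe_iff.2 ?_
  choose c y hc hy e using fun i => AHart_dlog hw h0 h1 h2 h3 (f i) (hf i)
  have e1 : G.ω.jac f = (∏ i, f i) * ∑ ρ : Fin n → Fin 3,
      (∏ i, c i (ρ i)) * G.ω.b.det fun i => y i (ρ i) := by
    unfold PForm.jac
    rw [funext e, AlternatingMap.map_smul_univ, smul_eq_mul]
    congr 1
    refine (G.ω.b.det.toMultilinearMap.map_sum fun i j => c i j • y i j).trans
      (Finset.sum_congr rfl fun ρ _ => ?_)
    exact G.ω.b.det.map_smul_univ _ _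
  have e2 : w.Ge (G.ω.jac f) (∑ i, w.v (f i) + (w.v G.ω.h / G.ω.m - 1)) := by
    rw [e1]
    refine (RVal.Ge.prod fun i _ => RVal.Ge.self (f i)).mul (RVal.Ge.sum fun ρ _ => ?_)
    have := (RVal.Ge.prod (s := Finset.univ) fun i _ => hc i (ρ i)).mul
      (AHart_det G hw.1 h0 h1 _ fun i => hy i (ρ i))
    simpa using this
  have e3 := e2.resolve_left hj
  have hm : (0 : ℝ) < G.ω.m := Nat.cast_pos.2 G.ω.m_pos
  change ∑ i, w.v (f i) - w.v (G.ω.jac f ^ G.ω.m / G.ω.h) / G.ω.m ≤ 1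
  rw [w.v_div _ _ (pow_ne_zero _ hj) G.ω.h_ne, w.v_pow _ hj, sub_div,
    mul_div_cancel_left₀ _ hm.ne']
  linarith

end Vale.Agent.P282
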