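import Vale.Agent.P282.AJac0

set_option linter.unusedSectionVars false

open scoped ENNReal TensorProduct Topology
open Filter MeasureTheory

noncomputable section

namespace Vale.Agent.P282

variable {R K : Type} [CommRing R] [IsDomain R] [Algebra ℂ R] [Algebra.FiniteType ℂ R]
  [IsIntegrallyClosed R] [Field K] [Algebra R K] [IsFractionRing R K] [Algebra ℂ K]
  [IsScalarTower ℂ R K] {n : ℕ}

/-- the differentials of a transcendence basis form a basis -/
theorem AJac_basis {ι : Type} {x : ι → K} (hx : IsTranscendenceBasis ℂ x) :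
    ∃ B : Module.Basis ι K (KaehlerDifferential ℂ K), ∀ i, B i = KaehlerDifferential.D ℂ K (x i) := by
  let : Algebra (MvPolynomial ι ℂ) K :=
    (MvPolynomial.aeval x : MvPolynomial ι ℂ →ₐ[ℂ] K).toRingHom.toAlgebra
  have hm : ∀ p, algebraMap (MvPolynomial ι ℂ) K p = MvPolynomial.aeval x p := fun _ => rfl
  have : IsScalarTower ℂ (MvPolynomial ι ℂ) K := .of_algebraMap_eq fun c => by
    rw [hm, AlgHom.commutes]
  have : FaithfulSMul (MvPolynomial ι ℂ) K :=
    (faithfulSMul_iff_algebraMap_injective _ _).2 hx.1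
  have : Algebra.IsAlgebraic (MvPolynomial ι ℂ) K := by
    have := hx.isAlgebraic
    refine Algebra.IsAlgebraic.of_ringHom_of_comp_eq
      (hx.1.aevalEquiv : MvPolynomial ι ℂ →+* Algebra.adjoin ℂ (Set.range x)) (RingHom.id K)
      hx.1.aevalEquiv.surjective Function.injective_id ?_
    ext <;> simp [hm]
  let := FractionRing.liftAlgebra (MvPolynomial ι ℂ) K
  have := FractionRing.isScalarTower_liftAlgebra (MvPolynomial ι ℂ) K
  have : Algebra.IsAlgebraic (FractionRing (MvPolynomial ι ℂ)) K :=
    Algebra.IsAlgebraic.extendScalars (R := MvPolynomial ι ℂ) (IsFractionRing.injective _ _)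
  have : Algebra.FormallyEtale (FractionRing (MvPolynomial ι ℂ)) K :=
    Algebra.FormallyEtale.of_isSeparable _ _
  have : Algebra.FormallyEtale (MvPolynomial ι ℂ) (FractionRing (MvPolynomial ι ℂ)) :=
    Algebra.FormallyEtale.of_isLocalization (nonZeroDivisors _)
  have : Algebra.FormallyEtale (MvPolynomial ι ℂ) K :=
    Algebra.FormallyEtale.comp _ (FractionRing (MvPolynomial ι ℂ)) _
  refine ⟨((KaehlerDifferential.mvPolynomialBasis ℂ ι).baseChange K).map
    (KaehlerDifferential.tensorKaehlerEquivOfFormallyEtale ℂ (MvPolynomial ι ℂ) K), fun i => ?_⟩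
  rw [Module.Basis.map_apply, Module.Basis.baseChange_apply,
    KaehlerDifferential.mvPolynomialBasis_apply, ← LinearEquiv.eq_symm_apply,
    ← KaehlerDifferential.tensorKaehlerEquivOfFormallyEtale_symm_D_algebraMap ℂ _ K, hm,
    MvPolynomial.aeval_X]

/-- the transcendence degree is the dimension of the module of differentials -/
theorem AJac_trdeg (b : Module.Basis (Fin n) K (KaehlerDifferential ℂ K)) :
    Algebra.trdeg ℂ K = n := by
  obtain ⟨s, hs⟩ := exists_isTranscendenceBasis ℂ K
  obtain ⟨B, -⟩ := AJac_basis hs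
  rw [← hs.cardinalMk_eq_trdeg, B.mk_eq_rank'', ← b.mk_eq_rank'']
  simp

theorem AJac_D_aeval (f : Fin n → K) (P : MvPolynomial (Fin n) ℂ) :
    KaehlerDifferential.D ℂ K (MvPolynomial.aeval f P) =
      ∑ i, MvPolynomial.aeval f (MvPolynomial.pderiv i P) • KaehlerDifferential.D ℂ K (f i) := by
  induction P using MvPolynomial.induction_on with
  | C c => simp
  | add p q hp hq => simp [hp, hq, add_smul, Finset.sum_add_distrib]
  | mul_X p j hp =>
    simp only [map_mul, MvPolynomial.aeval_X, Derivation.leibniz, hp, smul_eq_mul, map_add,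
      add_smul, Finset.sum_add_distrib, MvPolynomial.pderiv_X, Finset.smul_sum, smul_smul]
    congr 1
    rw [Finset.sum_eq_single j]
    · simp
    · intro i _ hi
      simp [Pi.single_eq_of_ne' hi]
    · simp

theorem AJac_ind (f : Fin n → K)
    (h : ∀ P : MvPolynomial (Fin n) ℂ, MvPolynomial.aeval f P = 0 →
      ∀ i, MvPolynomial.aeval f (MvPolynomial.pderiv i P) = 0)
    (d : ℕ) (m : Fin n →₀ ℕ) (hm : m.degree = d) (P : MvPolynomial (Fin n) ℂ)
    (hP : MvPolynomial.aeval f P = 0) (hd : ∀ m' ∈ P.support, m'.degree ≤ d) : P.coeff m = 0 := by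
  induction d generalizing m P with
  | zero =>
    have h0 : P = MvPolynomial.C (P.coeff 0) := by
      ext m'
      rw [MvPolynomial.coeff_C]
      split_ifs with hh
      · rw [hh]
      · by_contra hc
        have := hd m' (MvPolynomial.mem_support_iff.2 hc)
        exact hh ((Finsupp.degree_eq_zero_iff m').1 (by omega)).symm
    rw [h0, MvPolynomial.aeval_C, map_eq_zero] at hP
    rw [(Finsupp.degree_eq_zero_iff m).1 hm, hP]
  | succ d ih =>
    have h1 : m ≠ 0 := by
      rintro rfl
      simp at hm
    obtain ⟨i, hi⟩ := Finsupp.ne_iff.1 h1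
    have h2 : m - Finsupp.single i 1 + Finsupp.single i 1 = m :=
      tsub_add_cancel_of_le (Finsupp.single_le_iff.2 (Nat.pos_of_ne_zero hi))
    have h3 := ih (m - Finsupp.single i 1) (by
      have := congrArg Finsupp.degree h2
      rw [map_add, Finsupp.degree_single, hm] at this
      omega) (MvPolynomial.pderiv i P) (h P hP i) fun m' hm' => by
      have h4 := MvPolynomial.mem_support_iff.1 hm'
      rw [MvPolynomial.coeff_pderiv] at h4
      have := hd _ (MvPolynomial.mem_support_iff.2 (left_ne_zero_of_mul h4))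
      rw [map_add, Finsupp.degree_single] at this
      omega
    rw [MvPolynomial.coeff_pderiv, h2] at h3
    exact (mul_eq_zero.1 h3).resolve_right (Nat.cast_add_one_ne_zero _)

namespace PForm
variable (ω : PForm K n)

/-- `jac f ≠ 0` if and only if `f` is algebraically independent -/
theorem jac_ne_iff (f : Fin n → K) [Algebra.EssFiniteType ℂ K] :
    ω.jac f ≠ 0 ↔ AlgebraicIndependent ℂ f := by
  constructor
  · intro hj
    have hl : LinearIndependent K fun i => KaehlerDifferential.D ℂ K (f i) :=
      ((ω.b.is_basis_iff_det).2 (isUnit_iff_ne_zero.2 hj)).1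
    rw [algebraicIndependent_iff]
    intro P hP
    by_contra h0
    obtain ⟨m, hm, hmax⟩ := Finset.exists_max_image P.support (fun m => m.degree)
      (MvPolynomial.support_nonempty.2 h0)
    refine MvPolynomial.mem_support_iff.1 hm (AJac_ind f (fun Q hQ => ?_) _ m rfl P hP hmax)
    refine Fintype.linearIndependent_iff.1 hl _ ?_
    rw [← AJac_D_aeval, hQ, map_zero]
  · intro hf
    obtain ⟨B, hB⟩ := AJac_basis (hf.isTranscendenceBasis_of_trdeg_le_of_finite
      (by rw [AJac_trdeg ω.b]; simp))
    have : (fun i => KaehlerDifferential.D ℂ K (f i)) = B := funext fun i => (hB i).symm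
    unfold jac
    rw [this]
    exact (ω.b.isUnit_det B).ne_zero

end PForm

end Vale.Agent.P282
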