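import Vale.Agent.P282.AVal

set_option linter.unusedSectionVars false

open scoped ENNReal TensorProduct Topology
open Filter MeasureTheory

noncomputable section

namespace Vale.Agent.P282

variable {R K : Type} [CommRing R] [IsDomain R] [Algebra ℂ R] [Algebra.FiniteType ℂ R]
  [IsIntegrallyClosed R] [Field K] [Algebra R K] [IsFractionRing R K] [Algebra ℂ K]
  [IsScalarTower ℂ R K] {n : ℕ}

namespace PForm
variable (ω : PForm K n)

theorem AJac0_min (w : RVal K) {ι : Type*} [Fintype ι] (T : ι → K) (h : ∑ s, T s ≠ 0) :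
    ∃ s, T s ≠ 0 ∧ w.v (T s) ≤ w.v (∑ s, T s) := by
  classical
  obtain ⟨s0, -, h0⟩ := Finset.exists_ne_zero_of_sum_ne_zero h
  obtain ⟨s, hs, hm⟩ := Finset.exists_min_image (Finset.univ.filter fun s => T s ≠ 0)
    (fun s => w.v (T s)) ⟨s0, by simpa using h0⟩
  refine ⟨s, by simpa using hs, ?_⟩
  have : w.Ge (∑ s, T s) (w.v (T s)) := RVal.Ge.sum fun i _ => by
    by_cases hi : T i = 0
    · exact Or.inl hi
    · exact Or.inr (hm i (by simpa using hi))
  exact this.resolve_left h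

theorem AJac0_log (f : Fin n → K) :
    (ω.b.det fun i => (f i)⁻¹ • KaehlerDifferential.D ℂ K (f i)) = (∏ i, f i)⁻¹ * ω.jac f := by
  rw [AlternatingMap.map_smul_univ, Finset.prod_inv_distrib, smul_eq_mul]
  rfl

theorem AJac0_wt (w : RVal K) (f : Fin n → K) (hf : ∀ i, f i ≠ 0) (hj : ω.jac f ≠ 0) :
    ω.wt w f = -w.v ((∏ i, f i)⁻¹ * ω.jac f) + w.v ω.h / ω.m := by
  have hp : ∏ i, f i ≠ 0 := Finset.prod_ne_zero_iff.2 fun i _ => hf i
  have hm : (ω.m : ℝ) ≠ 0 := by exact_mod_cast ω.m_pos.ne'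
  unfold wt rho
  rw [w.mul _ _ (inv_ne_zero hp) hj, w.v_inv _ hp, w.v_prod _ _ fun i _ => hf i,
    w.v_div _ _ (pow_ne_zero _ hj) ω.h_ne, w.v_pow _ hj]
  field_simp
  ring

theorem AJac0_dlog (a b : K) (ha : a ≠ 0) (hb : b ≠ 0) :
    (a / b)⁻¹ • KaehlerDifferential.D ℂ K (a / b) =
      a⁻¹ • KaehlerDifferential.D ℂ K a + -(b⁻¹ • KaehlerDifferential.D ℂ K b) := by
  rw [Derivation.leibniz_div, smul_smul, smul_sub, smul_smul, smul_smul, sub_eq_add_neg]
  congr 2
  · field_simp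
  · congr 1
    field_simp

/-- logarithmic forms of regular functions suffice -/
theorem exists_wt_R (w : RVal K) (g : Fin n → K) (hg : ∀ i, g i ≠ 0) (hj : ω.jac g ≠ 0)
    {S : Type} [CommRing S] [Algebra S K] (h : ∀ i, ∃ a b : S, g i = algebraMap S K a / algebraMap S K b) :
    ∃ f : Fin n → S, (∀ i, algebraMap S K (f i) ≠ 0) ∧ (ω.jac fun i => algebraMap S K (f i)) ≠ 0 ∧
      ω.wt w g ≤ ω.wt w fun i => algebraMap S K (f i) := by
  classical
  choose a b hab using h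
  have ha : ∀ i, algebraMap S K (a i) ≠ 0 := fun i h0 => hg i (by rw [hab i, h0, zero_div])
  have hb : ∀ i, algebraMap S K (b i) ≠ 0 := fun i h0 => hg i (by rw [hab i, h0, div_zero])
  have hp : ∏ i, g i ≠ 0 := Finset.prod_ne_zero_iff.2 fun i _ => hg i
  set u : Fin n → KaehlerDifferential ℂ K := fun i =>
    (algebraMap S K (a i))⁻¹ • KaehlerDifferential.D ℂ K (algebraMap S K (a i)) with hu
  set v : Fin n → KaehlerDifferential ℂ K := fun i =>
    -((algebraMap S K (b i))⁻¹ • KaehlerDifferential.D ℂ K (algebraMap S K (b i))) with hv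
  have e1 : (∏ i, g i)⁻¹ * ω.jac g = ∑ s : Finset (Fin n), ω.b.det (s.piecewise u v) := by
    rw [← AJac0_log]
    have : (fun i => (g i)⁻¹ • KaehlerDifferential.D ℂ K (g i)) = u + v := by
      funext i
      rw [hab i, AJac0_dlog _ _ (ha i) (hb i)]
      rfl
    rw [this]
    exact ω.b.det.toMultilinearMap.map_add_univ u v
  obtain ⟨s, s1, s2⟩ := AJac0_min w (fun s : Finset (Fin n) => ω.b.det (s.piecewise u v))
    (by rw [← e1]; exact mul_ne_zero (inv_ne_zero hp) hj)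
  have hf : ∀ i, algebraMap S K (s.piecewise a b i) ≠ 0 := fun i => by
    by_cases hi : i ∈ s
    · rw [Finset.piecewise_eq_of_mem _ _ _ hi]; exact ha i
    · rw [Finset.piecewise_eq_of_notMem _ _ _ hi]; exact hb i
  have e2 : ω.b.det (s.piecewise u v) = algebraMap ℂ K (∏ i, if i ∈ s then 1 else -1) *
      ((∏ i, algebraMap S K (s.piecewise a b i))⁻¹ *
        ω.jac fun i => algebraMap S K (s.piecewise a b i)) := by
    rw [← AJac0_log, map_prod, ← smul_eq_mul, ← AlternatingMap.map_smul_univ]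
    congr 1
    funext i
    by_cases hi : i ∈ s <;> simp [hi, hu, hv]
  have c0 : (∏ i, if i ∈ s then 1 else -1 : ℂ) ≠ 0 :=
    Finset.prod_ne_zero_iff.2 fun i _ => by split_ifs <;> simp
  rw [e2] at s1 s2
  have s3 := right_ne_zero_of_mul s1
  have s4 := right_ne_zero_of_mul s3
  refine ⟨s.piecewise a b, hf, s4, ?_⟩
  rw [w.mul _ _ (left_ne_zero_of_mul s1) s3, w.const _ c0, zero_add, ← e1] at s2
  rw [AJac0_wt ω w g hg hj, AJac0_wt ω w _ hf s4]
  linarith

theorem A_le (w : RVal K) {a : ℝ} (h : ∀ f : Fin n → R, (∀ i, f i ≠ 0) →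
    (ω.jac fun i => algebraMap R K (f i)) ≠ 0 → (ω.wt w fun i => algebraMap R K (f i)) ≤ a) :
    ω.A w ≤ a := by
  refine iSup_le fun g => ?_
  obtain ⟨f, f1, f2, f3⟩ := ω.exists_wt_R w g.1 g.2.1 g.2.2 (S := R) fun i => by
    obtain ⟨a, b, -, e⟩ := IsFractionRing.div_surjective (A := R) (g.1 i)
    exact ⟨a, b, e.symm⟩
  exact_mod_cast f3.trans (h f (fun i h0 => f1 i (by rw [h0, map_zero])) f2)

theorem le_A (w : RVal K) (f : Fin n → K) (hf : ∀ i, f i ≠ 0) (hj : ω.jac f ≠ 0) :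
    (ω.wt w f : EReal) ≤ ω.A w :=
  le_iSup (fun f : {f : Fin n → K // (∀ i, f i ≠ 0) ∧ ω.jac f ≠ 0} => (ω.wt w f.1 : EReal))
    ⟨f, hf, hj⟩

theorem rho_ne {f : Fin n → K} (hj : ω.jac f ≠ 0) : ω.rho f ≠ 0 :=
  div_ne_zero (pow_ne_zero _ hj) ω.h_ne

/-- chain rule -/
theorem jac_of_eq (f g : Fin n → K) (c : Matrix (Fin n) (Fin n) K)
    (h : ∀ i, KaehlerDifferential.D ℂ K (f i) = ∑ j, c i j • KaehlerDifferential.D ℂ K (g j)) :
    ω.jac f = c.det * ω.jac g := by
  unfold jac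
  rw [Module.Basis.det_apply, Module.Basis.det_apply, ← Matrix.det_transpose c, mul_comm,
    ← Matrix.det_mul]
  congr 1
  ext i j
  simp [Module.Basis.toMatrix_apply, h, Matrix.mul_apply, mul_comm]

end PForm

end Vale.Agent.P282
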