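import Vale.Agent.P282.AEmb
import Vale.Agent.P282.QBas

set_option linter.unusedSectionVars false

open scoped ENNReal TensorProduct Topology
open Filter MeasureTheory

noncomputable section

namespace Vale.Agent.P282

theorem ALd_det {X L : Type} [Field L] {k : ℕ} (f : Fin k → X → L) (hf : LinearIndependent L f) :
    ∃ r : Fin k → X, (Matrix.of fun j i => f i (r j)).det ≠ 0 := by
  by_contra hc
  have hc' : ∀ r : Fin k → X, (Matrix.of fun j i => f i (r j)).det = 0 := fun r => by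
    by_contra h
    exact hc ⟨r, h⟩
  have hs := span_flip_eq_top_iff_linearIndependent.2 hf
  have h0 : (Matrix.detRowAlternating (n := Fin k) (R := L)).toMultilinearMap = 0 :=
    MultilinearMap.ext_of_span_eq_top (γ := fun _ => X) (g := fun {_} x => flip f x)
      (fun _ => hs) fun j => hc' j
  have h1 := DFunLike.congr_fun h0 (1 : Matrix (Fin k) (Fin k) L)
  have h2 : (1 : Matrix (Fin k) (Fin k) L).det = 0 := h1
  rw [Matrix.det_one] at h2
  exact one_ne_zero h2

theorem ALd_det0 {T : Type} [CommRing T] {k : ℕ} (w : Fin k → Fin (k + 1) → T)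
    (v : Fin (k + 1) → Fin (k + 1) → T) (hv : ∀ j, v j ∈ Submodule.span T (Set.range w)) :
    (Matrix.of v).det = 0 := by
  choose c hc using fun j => (Submodule.mem_span_range_iff_exists_fun T).1 (hv j)
  have e : Matrix.of v = Matrix.of (fun j => (Fin.cons 0 (c j) : Fin (k + 1) → T)) *
      Matrix.of (Fin.cons 0 w : Fin (k + 1) → Fin (k + 1) → T) := by
    ext j i
    rw [Matrix.mul_apply, Fin.sum_univ_succ, Matrix.of_apply, ← hc j, Finset.sum_apply]
    simp
  rw [e, Matrix.det_mul, Matrix.det_eq_zero_of_row_eq_zero (A := Matrix.of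
    (Fin.cons 0 w : Fin (k + 1) → Fin (k + 1) → T)) 0 (fun _ => rfl), mul_zero]

theorem ALd_mul {A T ι : Type} [CommRing A] [CommRing T] (Φ : A →+* (ι → T)) (x : A) (v : ι → T)
    (hv : v ∈ Submodule.span T (Set.range Φ)) : Φ x * v ∈ Submodule.span T (Set.range Φ) := by
  induction hv using Submodule.span_induction with
  | mem v hv =>
    obtain ⟨y, rfl⟩ := hv
    exact Submodule.subset_span ⟨x * y, map_mul Φ x y⟩
  | zero => rw [mul_zero]; exact Submodule.zero_mem _
  | add u v _ _ hu hv => rw [mul_add]; exact Submodule.add_mem _ hu hv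
  | smul t v _ hv => rw [mul_smul_comm]; exact Submodule.smul_mem _ t hv

theorem ALd_mul' {A T ι : Type} [CommRing A] [CommRing T] (Φ : A →+* (ι → T)) (q : Ideal T)
    (x : A) (v : ι → T) (hv : v ∈ q • Submodule.span T (Set.range Φ)) :
    Φ x * v ∈ q • Submodule.span T (Set.range Φ) := by
  refine Submodule.smul_induction_on (p := fun v => Φ x * v ∈ q • Submodule.span T (Set.range Φ))
    hv (fun t ht v hv => ?_) fun u v hu hv => ?_
  · rw [mul_smul_comm]
    exact Submodule.smul_mem_smul ht (ALd_mul Φ x v hv)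
  · rw [mul_add]
    exact Submodule.add_mem _ hu hv

theorem ALd_nil {A T ι : Type} [CommRing A] [CommRing T] [Fintype ι] (Φ : A →+* (ι → T))
    (q : Ideal T) (x : A) (hx : ∀ i, Φ x i ∈ q) :
    Φ (x ^ Fintype.card ι) ∈ q • Submodule.span T (Set.range Φ) := by
  classical
  have key : ∀ s : Finset ι, ∏ i ∈ s, (Φ x - Φ x i • 1) ∈ Submodule.span T (Set.range Φ) ∧
      Φ x ^ s.card - ∏ i ∈ s, (Φ x - Φ x i • 1) ∈ q • Submodule.span T (Set.range Φ) := by
    intro s
    induction s using Finset.induction_on with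
    | empty =>
      refine ⟨Submodule.subset_span ⟨1, ?_⟩, ?_⟩
      · rw [map_one, Finset.prod_empty]
      · rw [Finset.card_empty, pow_zero, Finset.prod_empty, sub_self]
        exact Submodule.zero_mem _
    | insert a s ha ih =>
      rw [Finset.prod_insert ha, Finset.card_insert_of_notMem ha]
      refine ⟨?_, ?_⟩
      · rw [sub_mul, smul_one_mul]
        exact Submodule.sub_mem _ (ALd_mul Φ x _ ih.1) (Submodule.smul_mem _ _ ih.1)
      · have e : Φ x ^ (s.card + 1) - (Φ x - Φ x a • 1) * ∏ i ∈ s, (Φ x - Φ x i • 1) =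
            Φ x * (Φ x ^ s.card - ∏ i ∈ s, (Φ x - Φ x i • 1)) +
              Φ x a • ∏ i ∈ s, (Φ x - Φ x i • 1) := by
          rw [sub_mul, smul_one_mul]
          ring
        rw [e]
        exact Submodule.add_mem _ (ALd_mul' Φ q x _ ih.2) (Submodule.smul_mem_smul (hx a) ih.1)
  have h0 : ∏ i, (Φ x - Φ x i • 1) = 0 := by
    funext j
    rw [Finset.prod_apply]
    exact Finset.prod_eq_zero (Finset.mem_univ j) (by simp)
  have h := (key Finset.univ).2
  rw [h0, sub_zero, Finset.card_univ] at h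
  rw [map_pow]
  exact h

theorem ALd_core {A T : Type} [CommRing A] [CommRing T] {k : ℕ} (Φ : A →+* (Fin (k + 1) → T))
    (q : Ideal T) (hq : q ≠ ⊤) (m Y : Ideal A) (hm : m.FG) (hmq : ∀ x ∈ m, ∀ i, Φ x i ∈ q)
    (G : Set A) (hY : Y = Ideal.span G) (hG : ∀ g ∈ G, ∃ s ∈ q, Φ g = s • 1)
    (hfin : (Submodule.span T (Set.range Φ)).FG) (Z : Fin k → A)
    (hZ : ∀ (N : ℕ) (x : A), ∃ z : A, Φ z ∈ Submodule.span T (Set.range fun l => Φ (Z l)) ∧
      x - z ∈ Y ⊔ m ^ N) (r : Fin (k + 1) → A)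
    (hr : ∀ t : T, t * (Matrix.of fun j => Φ (r j)).det = 0 → t = 0) : False := by
  let J : Ideal A :=
    { carrier := {x | Φ x ∈ q • Submodule.span T (Set.range Φ)}
      add_mem' := fun {a b} ha hb => by
        change Φ (a + b) ∈ q • Submodule.span T (Set.range Φ)
        rw [map_add]
        exact Submodule.add_mem _ ha hb
      zero_mem' := by
        change Φ 0 ∈ q • Submodule.span T (Set.range Φ)
        rw [map_zero]
        exact Submodule.zero_mem _
      smul_mem' := fun c x hx => by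
        change Φ (c * x) ∈ q • Submodule.span T (Set.range Φ)
        rw [map_mul]
        exact ALd_mul' Φ q c _ hx }
  have hYJ : Y ≤ J := by
    rw [hY, Ideal.span_le]
    intro g hg
    obtain ⟨s, hs, e⟩ := hG g hg
    change Φ g ∈ q • Submodule.span T (Set.range Φ)
    rw [e]
    exact Submodule.smul_mem_smul hs (Submodule.subset_span ⟨1, map_one Φ⟩)
  have hmJ : m ≤ J.radical := fun x hx => ⟨_, ALd_nil Φ q x (hmq x hx)⟩
  obtain ⟨N, hN⟩ := Ideal.exists_pow_le_of_le_radical_of_fg hmJ hm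
  have hle : Submodule.span T (Set.range Φ) ≤ Submodule.span T (Set.range fun l => Φ (Z l)) ⊔
      q • Submodule.span T (Set.range Φ) := by
    rw [Submodule.span_le]
    rintro _ ⟨x, rfl⟩
    obtain ⟨z, hz, hxz⟩ := hZ N x
    have h1 : Φ (x - z) ∈ q • Submodule.span T (Set.range Φ) := sup_le hYJ hN hxz
    have e : Φ x = Φ z + Φ (x - z) := by rw [← map_add, add_sub_cancel]
    rw [e]
    exact Submodule.add_mem_sup hz h1
  obtain ⟨t, ht, htl⟩ := Submodule.exists_sub_one_mem_and_smul_le_of_fg_of_le_sup hfin le_rfl hle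
  have h0 := ALd_det0 (fun l => Φ (Z l)) (fun j => t • Φ (r j)) fun j =>
    htl (Submodule.smul_mem_pointwise_smul _ _ _ (Submodule.subset_span ⟨r j, rfl⟩))
  have e : (Matrix.of fun j => t • Φ (r j)) = t • Matrix.of fun j => Φ (r j) := rfl
  rw [e, Matrix.det_smul] at h0
  have h1 := hr _ h0
  have h2 : Ideal.Quotient.mk q t = 1 := by
    rw [← map_one (Ideal.Quotient.mk q), Ideal.Quotient.eq]
    exact ht
  have h3 := congrArg (Ideal.Quotient.mk q) h1
  rw [map_pow, h2, one_pow, map_zero] at h3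
  exact hq (Ideal.Quotient.zero_eq_one_iff.1 h3.symm)

variable {R K : Type} [CommRing R] [IsDomain R] [Algebra ℂ R] [Algebra.FiniteType ℂ R]
  [IsIntegrallyClosed R] [Field K] [Algebra R K] [IsFractionRing R K] [Algebra ℂ K]
  [IsScalarTower ℂ R K] {n : ℕ}

theorem ALd_tm0 {F S : Type} [Field F] [Algebra ℂ F] [CommRing S] [Algebra ℂ S] (a c : F)
    (s t : S) : (a ⊗ₜ s : F ⊗[ℂ] S) * c ⊗ₜ t = (a * c) ⊗ₜ (s * t) :=
  Algebra.TensorProduct.tmul_mul_tmul a c s t

theorem ALd_tm {S : Type} [CommRing S] [Algebra ℂ S] (a c : MK) (s t : S) :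
    (a ⊗ₜ s : RK S) * c ⊗ₜ t = (a * c) ⊗ₜ (s * t) := ALd_tm0 a c s t

theorem ALd_nzd0 {F S : Type} [Field F] [Algebra ℂ F] [CommRing S] [IsDomain S] [Algebra ℂ S]
    {d : S} (hd : d ≠ 0) (t : F ⊗[ℂ] S) (h : t * 1 ⊗ₜ d = 0) : t = 0 := by
  have hi : Function.Injective (LinearMap.mulRight ℂ d) := mul_left_injective₀ hd
  have h1 := Module.Flat.lTensor_preserves_injective_linearMap (M := F) _ hi
  have e : ∀ u : F ⊗[ℂ] S, (LinearMap.mulRight ℂ d).lTensor F u = u * 1 ⊗ₜ d := by
    intro u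
    induction u using TensorProduct.induction_on with
    | zero => rw [map_zero, zero_mul]
    | tmul a s => simp
    | add u v hu hv => rw [map_add, add_mul, hu, hv]
  apply h1
  rw [e, h, map_zero]

theorem ALd_nzd {S : Type} [CommRing S] [IsDomain S] [Algebra ℂ S] {d : S} (hd : d ≠ 0)
    (t : RK S) (h : t * 1 ⊗ₜ d = 0) : t = 0 := ALd_nzd0 hd t h

theorem ALd_fin {S ι : Type} [CommRing S] [Algebra ℂ S] (π : Proj R n) (φ : ι → R →ₐ[ℂ] S)
    (s : MvPolynomial (Fin n) ℂ → S) (hs : ∀ i P, φ i (MvPolynomial.aeval π.y P) = s P) :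
    (Submodule.span (RK S) (Set.range (Pi.ringHom fun i =>
      (Algebra.TensorProduct.map (AlgHom.id MK MK) (φ i)).toRingHom))).FG := by
  classical
  set Φ : RK R →+* (ι → RK S) := Pi.ringHom fun i =>
    (Algebra.TensorProduct.map (AlgHom.id MK MK) (φ i)).toRingHom with hΦ
  have hΦt : ∀ (c : MK) (r : R) (i : ι), Φ (c ⊗ₜ r) i = c ⊗ₜ φ i r := fun _ _ _ => rfl
  letI : Algebra (MvPolynomial (Fin n) ℂ) R := (MvPolynomial.aeval π.y).toRingHom.toAlgebra
  have hf : Module.Finite (MvPolynomial (Fin n) ℂ) R := π.fin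
  obtain ⟨E, hE⟩ := hf.fg_top
  refine ⟨E.image fun e => Φ (1 ⊗ₜ e), le_antisymm (Submodule.span_mono ?_) ?_⟩
  · intro v hv
    obtain ⟨e, -, rfl⟩ := Finset.mem_image.1 (Finset.mem_coe.1 hv)
    exact ⟨_, rfl⟩
  · rw [Submodule.span_le]
    rintro _ ⟨x, rfl⟩
    have h1 : ∀ r : R, Φ (1 ⊗ₜ r) ∈ Submodule.span (RK S)
        ((E.image fun e => Φ (1 ⊗ₜ e) : Finset (ι → RK S)) : Set (ι → RK S)) := by
      intro r
      have hr : r ∈ Submodule.span (MvPolynomial (Fin n) ℂ) (E : Set R) := by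
        rw [hE]; exact Submodule.mem_top
      induction hr using Submodule.span_induction with
      | mem e he =>
        exact Submodule.subset_span (Finset.mem_coe.2 (Finset.mem_image.2 ⟨e, he, rfl⟩))
      | zero => rw [TensorProduct.tmul_zero, map_zero]; exact Submodule.zero_mem _
      | add u v _ _ hu hv => rw [TensorProduct.tmul_add, map_add]; exact Submodule.add_mem _ hu hv
      | smul P v _ hv =>
        have e : Φ (1 ⊗ₜ (P • v)) = (1 ⊗ₜ s P : RK S) • Φ (1 ⊗ₜ v) := by
          funext i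
          have e1 : P • v = MvPolynomial.aeval π.y P * v := rfl
          rw [Pi.smul_apply, hΦt, hΦt, e1, map_mul, hs, smul_eq_mul, ALd_tm, one_mul]
        rw [e]
        exact Submodule.smul_mem _ _ hv
    induction x using TensorProduct.induction_on with
    | zero => rw [map_zero]; exact Submodule.zero_mem _
    | tmul c r =>
      have e : Φ (c ⊗ₜ r) = (c ⊗ₜ 1 : RK S) • Φ (1 ⊗ₜ r) := by
        funext i
        rw [Pi.smul_apply, hΦt, hΦt, smul_eq_mul, ALd_tm, one_mul, mul_one]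
      rw [e]
      exact Submodule.smul_mem _ _ (h1 r)
    | add u v hu hv => rw [map_add]; exact Submodule.add_mem _ hu hv

theorem ALd_gen {S : Type} [CommRing S] [IsDomain S] [Algebra ℂ S] (π : Proj R n) (b : Arc S)
    (a : Arc R) {k : ℕ} (φ : Fin (k + 1) → R →ₐ[ℂ] S)
    (hs : ∀ i (P : MvPolynomial (Fin n) ℂ), φ i (MvPolynomial.aeval π.y P) =
      φ 0 (MvPolynomial.aeval π.y P))
    (h : ∀ i r, b.hom (φ i r) = a.hom r) (r : Fin (k + 1) → R)
    (hr : (Matrix.of fun j i => φ i (r j)).det ≠ 0) (Z : Fin k → RK R) :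
    ¬ ∀ (N : ℕ) (x : RK R), ∃ c : Fin k → MK, x - ∑ i, c i • Z i ∈
      Ideal.span (Set.range fun i => a.yq (π.y i)) ⊔ a.m ^ N := by
  intro hZ
  have hfin := ALd_fin π φ _ hs
  set Φ : RK R →+* (Fin (k + 1) → RK S) := Pi.ringHom fun i =>
    (Algebra.TensorProduct.map (AlgHom.id MK MK) (φ i)).toRingHom with hΦ
  have hΦt : ∀ (c : MK) (r : R) i, Φ (c ⊗ₜ r) i = c ⊗ₜ φ i r := fun _ _ _ => rfl
  have hΦs : ∀ (c : MK) (x : RK R), Φ (c • x) = (c ⊗ₜ 1 : RK S) • Φ x := by
    intro c x
    funext i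
    have e : Φ (c • x) i = c • Φ x i :=
      map_smul (Algebra.TensorProduct.map (AlgHom.id MK MK) (φ i)) c x
    rw [e, Pi.smul_apply, smul_eq_mul, Algebra.smul_def]
    rfl
  have hev : ∀ x i, b.ev (Φ x i) = a.ev x := by
    intro x i
    induction x using TensorProduct.induction_on with
    | zero => rw [map_zero, Pi.zero_apply, map_zero, map_zero]
    | tmul c r => rw [hΦt, Arc.ev_tmul, Arc.ev_tmul, h]
    | add u v hu hv => rw [map_add, Pi.add_apply, map_add, map_add, hu, hv]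
  haveI : IsNoetherianRing (RK R) := Algebra.FiniteType.isNoetherianRing MK (RK R)
  refine ALd_core Φ b.m b.m_max.ne_top a.m _ (IsNoetherian.noetherian _)
    (fun x hx i => ?_) (Set.range fun i => a.yq (π.y i)) rfl ?_ hfin Z (fun N x => ?_) (fun j => 1 ⊗ₜ r j) fun t ht => ?_
  · change b.ev (Φ x i) = 0
    rw [hev]
    exact hx
  · rintro _ ⟨j, rfl⟩
    refine ⟨b.yq (φ 0 (π.y j)), b.yq_mem _, ?_⟩
    funext i
    have e := hs i (MvPolynomial.X j)
    rw [MvPolynomial.aeval_X] at e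
    simp only [Arc.yq, map_sub, Pi.sub_apply, hΦt, Pi.smul_apply, Pi.one_apply, smul_eq_mul,
      mul_one, map_one, e, h]
  · obtain ⟨c, hc⟩ := hZ N x
    refine ⟨_, ?_, hc⟩
    rw [map_sum]
    refine Submodule.sum_mem _ fun l _ => ?_
    rw [hΦs]
    exact Submodule.smul_mem _ _ (Submodule.subset_span ⟨l, rfl⟩)
  · refine ALd_nzd hr t ?_
    have e := RingHom.map_det (Algebra.TensorProduct.includeRight (R := ℂ) (A := MK)
      (B := S)).toRingHom (Matrix.of fun j i => φ i (r j))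
    have e1 : (1 ⊗ₜ (Matrix.of fun j i => φ i (r j)).det : RK S) =
        (Matrix.of fun j => Φ (1 ⊗ₜ r j)).det := e
    rw [e1]
    exact ht

/-- the length of the fibre at an arc is at least the number of embeddings that induce the arc -/
theorem ld (π : Proj R n) (b : Arc (π.Rt K)) (a : Arc R) {k : ℕ} (σ : Fin (k + 1) → π.Emb K)
    (hσ : Function.Injective σ) (h : ∀ i r, b.hom (π.em K (σ i) r) = a.hom r) (Z : Fin k → RK R) :
    ¬ ∀ (N : ℕ) (x : RK R), ∃ c : Fin k → MK, x - ∑ i, c i • Z i ∈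
      Ideal.span (Set.range fun i => a.yq (π.y i)) ⊔ a.m ^ N := by
  have hli : LinearIndependent (Cl K) fun i => ((σ i).1 : R → Cl K) :=
    (linearIndependent_monoidHom R (Cl K)).comp (fun i => ((σ i).1 : R →* Cl K)) fun i j hij =>
      hσ (Subtype.ext (AlgHom.ext fun r => DFunLike.congr_fun hij r))
  obtain ⟨r, hr⟩ := ALd_det _ hli
  refine ALd_gen π b a (fun i => π.em K (σ i)) (fun i P => π.em_y _ _ P) h r (fun h0 => hr ?_) Z
  have e := RingHom.map_det (π.Rt K).val.toRingHom (Matrix.of fun j i => π.em K (σ i) (r j))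
  rw [h0, map_zero] at e
  exact e.symm

end Vale.Agent.P282
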