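import Vale.Agent.P282.Base2

set_option linter.unusedSectionVars false

open scoped ENNReal TensorProduct Topology
open Filter MeasureTheory

noncomputable section

namespace Vale.Agent.P282

variable {R K : Type} [CommRing R] [IsDomain R] [Algebra ℂ R] [Algebra.FiniteType ℂ R]
  [IsIntegrallyClosed R] [Field K] [Algebra R K] [IsFractionRing R K] [Algebra ℂ K]
  [IsScalarTower ℂ R K] {n : ℕ}

theorem num_gain (hn : 2 ≤ n) : ∃ k : ℕ, 3 ≤ k ∧
    ((n : ℝ) - 1 - 1 / k) ^ n / (1 - 1 / k) < ((n : ℝ) - 1) ^ n := by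
  refine ⟨n + 1, by omega, ?_⟩
  have h2 : (2 : ℝ) ≤ n := by exact_mod_cast hn
  obtain ⟨N, hN⟩ : ∃ N : ℝ, N = (n : ℝ) - 1 := ⟨_, rfl⟩
  have hN1 : 1 ≤ N := by linarith
  obtain ⟨a, ha⟩ : ∃ a : ℝ, a = 1 / (((n : ℝ) + 1) * N) := ⟨_, rfl⟩
  have ha0 : 0 < a := by rw [ha]; positivity
  have e1 : N * a = 1 / ((n : ℝ) + 1) := by rw [ha]; field_simp
  have e2 : ((n : ℝ) + 1) * (N * a) = 1 := by rw [e1]; field_simp
  have ha1 : a ≤ 1 := by
    rw [ha, div_le_one (by positivity)]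
    nlinarith
  have h3 : (1 - a) ^ n * (1 + n * a) ≤ 1 :=
    calc (1 - a) ^ n * (1 + n * a) ≤ (1 - a) ^ n * (1 + a) ^ n :=
          mul_le_mul_of_nonneg_left (one_add_mul_le_pow (by linarith) n)
            (pow_nonneg (by linarith) n)
      _ = ((1 - a) * (1 + a)) ^ n := (mul_pow _ _ _).symm
      _ ≤ 1 := pow_le_one₀ (mul_nonneg (by linarith) (by linarith)) (by nlinarith)
  have h4 : 1 < (1 - N * a) * (1 + n * a) := by
    have : (1 - N * a) * (1 + n * a) = 1 + a * (n - N - n * (N * a)) := by ring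
    rw [this]
    have h5 : 0 < n - N - n * (N * a) := by nlinarith [mul_pos (by linarith : 0 < N) ha0]
    nlinarith [mul_pos ha0 h5]
  have h5 : (1 - a) ^ n < 1 - N * a := lt_of_mul_lt_mul_right (h3.trans_lt h4) (by positivity)
  have h6 : 0 < 1 - N * a := (pow_nonneg (by linarith) n).trans_lt h5
  push_cast
  rw [← e1, ← hN, div_lt_iff₀ h6, show N - N * a = N * (1 - a) by ring, mul_pow]
  exact mul_lt_mul_of_pos_left h5 (by positivity)

theorem num_half (hn : 3 ≤ n) : (n : ℝ) ^ n / 2 < 2 * ((n : ℝ) - 1) ^ n := by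
  rcases hn.eq_or_lt with rfl | h
  · norm_num
  obtain ⟨N, rfl⟩ : ∃ N, n = N + 1 := ⟨n - 1, by omega⟩
  have h3 : (3 : ℝ) ≤ N := by exact_mod_cast Nat.le_of_lt_succ h
  have h0 : (0 : ℝ) < N := by linarith
  have h1 : (1 / (N : ℝ) + 1) ^ N ≤ Real.exp 1 := by
    refine (pow_le_pow_left₀ (by positivity) (Real.add_one_le_exp _) N).trans (le_of_eq ?_)
    rw [← Real.exp_nat_mul, mul_one_div_cancel h0.ne']
  have h2 : ((N : ℝ) + 1) ^ N = (N : ℝ) ^ N * (1 / (N : ℝ) + 1) ^ N := by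
    rw [← mul_pow]
    congr 1
    field_simp
    ring
  have h4 : ((N : ℝ) + 1) ^ N ≤ (N : ℝ) ^ N * 2.8 := by
    rw [h2]
    exact mul_le_mul_of_nonneg_left (h1.trans (by linarith [Real.exp_one_lt_d9])) (by positivity)
  have h5 : (0 : ℝ) < (N : ℝ) ^ N := by positivity
  push_cast
  rw [add_sub_cancel_right, pow_succ, pow_succ]
  nlinarith [mul_le_mul_of_nonneg_right h4 (by positivity : (0 : ℝ) ≤ N + 1),
    mul_le_mul_of_nonneg_left h3 h5.le]

theorem bd_eq (hn : 1 ≤ n) : bd n = ENNReal.ofReal (2 * ((n : ℝ) - 1) ^ n) := by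
  have h : (n : ℝ) - 1 = ((n - 1 : ℕ) : ℝ) := by rw [Nat.cast_sub hn, Nat.cast_one]
  rw [bd, h, ENNReal.ofReal_mul (by norm_num), ENNReal.ofReal_pow (Nat.cast_nonneg _),
    ENNReal.ofReal_natCast, ENNReal.ofReal_ofNat]

/-- from the output of `mg` to a bound for `nv` -/
theorem nv_le (G : WS R K n) (m : Ideal R) [m.IsMaximal] (hm : m ≠ ⊥) {w : RVal K}
    (hw : w.CenteredAt m) {τ a V : ℝ} (hτ : 0 < τ) (hV : 0 ≤ V)
    (hA : G.ω.A w ≤ ((a * τ : ℝ) : EReal)) (hv : vol m n w ≤ ENNReal.ofReal (V / τ ^ n)) :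
    0 < a ∧ G.ω.A w ≠ ⊤ ∧ nv G.ω m w ≤ ENNReal.ofReal (V * a ^ n) := by
  obtain ⟨r, hr, hr0⟩ := Submodule.exists_mem_ne_zero_of_ne_bot hm
  have hr1 : algebraMap R K r ≠ 0 := fun h =>
    hr0 (IsFractionRing.injective R K (h.trans (map_zero _).symm))
  have h0 : 0 < G.ω.A w := G.klt w ⟨_, hr1, ((hw.2 r hr1).2 hr).ne'⟩ hw.1
  have h1 : 0 < a * τ := EReal.coe_pos.1 (h0.trans_le hA)
  have ha : 0 < a := (mul_pos_iff_of_pos_right hτ).1 h1
  have ht : G.ω.A w ≠ ⊤ := ne_top_of_le_ne_top (EReal.coe_ne_top _) hA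
  have h2 : (G.ω.A w).toReal ≤ a * τ := by
    simpa only [EReal.toReal_coe] using EReal.toReal_le_toReal hA h0.ne_bot (EReal.coe_ne_top _)
  refine ⟨ha, ht, ?_⟩
  calc nv G.ω m w ≤ ENNReal.ofReal ((a * τ) ^ n) * ENNReal.ofReal (V / τ ^ n) :=
        mul_le_mul' (ENNReal.ofReal_le_ofReal
          (pow_le_pow_left₀ (EReal.toReal_nonneg h0.le) h2 n)) hv
    _ = _ := by
        rw [← ENNReal.ofReal_mul (by positivity), mul_pow]
        congr 1
        field_simp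

end Vale.Agent.P282
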