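import Vale.Agent.P282.AJac

set_option linter.unusedSectionVars false

open scoped ENNReal TensorProduct Topology
open Filter MeasureTheory

noncomputable section

namespace Vale.Agent.P282

variable {R K : Type} [CommRing R] [IsDomain R] [Algebra ℂ R] [Algebra.FiniteType ℂ R]
  [IsIntegrallyClosed R] [Field K] [Algebra R K] [IsFractionRing R K] [Algebra ℂ K]
  [IsScalarTower ℂ R K] {n : ℕ}

theorem AProj0_tr {A B : Type} [CommRing A] [IsDomain A] [CommRing B] [IsDomain B] [Algebra ℂ A]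
    [Algebra ℂ B] (g : A →ₐ[ℂ] B) (hg : Function.Injective g) (hf : g.Finite) :
    Algebra.trdeg ℂ B = Algebra.trdeg ℂ A := by
  let : Algebra A B := g.toRingHom.toAlgebra
  have : IsScalarTower ℂ A B := .of_algebraMap_eq fun c => (g.commutes c).symm
  have : FaithfulSMul A B := (faithfulSMul_iff_algebraMap_injective _ _).2 hg
  have : Module.Finite A B := hf
  rw [← trdeg_add_eq ℂ A (A := B), trdeg_eq_zero (R := A) (A := B), add_zero]

theorem AProj0_mv (s : ℕ) : Algebra.trdeg ℂ (MvPolynomial (Fin s) ℂ) = s := by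
  rw [MvPolynomial.trdeg_of_isDomain]
  simp

theorem trdeg_eq (ω : PForm K n) (R : Type) [CommRing R] [IsDomain R] [Algebra ℂ R]
    [Algebra.FiniteType ℂ R] [Algebra R K] [IsFractionRing R K] [IsScalarTower ℂ R K] :
    Algebra.trdeg ℂ R = n := by
  have : Algebra.IsAlgebraic R K := IsLocalization.isAlgebraic K (nonZeroDivisors R)
  rw [← AJac_trdeg ω.b, ← trdeg_add_eq ℂ R (A := K), trdeg_eq_zero (R := R) (A := K), add_zero]

omit [IsIntegrallyClosed R] in
theorem exists_proj' (h : Algebra.trdeg ℂ R = n) : Nonempty (Proj R n) := by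
  obtain ⟨s, g, g1, g2⟩ := exists_finite_inj_algHom_of_fg ℂ R
  have e := AProj0_tr g g1 g2
  rw [h, AProj0_mv, Nat.cast_inj] at e
  subst e
  have e2 : MvPolynomial.aeval (fun i => g (MvPolynomial.X i)) = g := by
    ext i
    simp
  refine ⟨⟨fun i => g (MvPolynomial.X i), ?_, by rw [e2]; exact g2⟩⟩
  unfold AlgebraicIndependent
  rw [e2]
  exact g1

omit [IsIntegrallyClosed R] in
theorem Proj.trdeg (π : Proj R n) : Algebra.trdeg ℂ R = n := by
  rw [AProj0_tr _ π.ind π.fin, AProj0_mv]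

omit [IsIntegrallyClosed R] in
theorem ind_of_fin (h : Algebra.trdeg ℂ R = n) (y : Fin n → R)
    (hy : (MvPolynomial.aeval y : MvPolynomial (Fin n) ℂ →ₐ[ℂ] R).Finite) :
    AlgebraicIndependent ℂ y := by
  have : Algebra.IsIntegral (Algebra.adjoin ℂ (Set.range y)) R := ⟨fun r => by
    obtain ⟨p, p1, p2⟩ := RingHom.Finite.to_isIntegral hy r
    let φ : MvPolynomial (Fin n) ℂ →ₐ[ℂ] Algebra.adjoin ℂ (Set.range y) :=
      MvPolynomial.aeval fun i => ⟨y i, Algebra.subset_adjoin ⟨i, rfl⟩⟩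
    refine ⟨p.map φ.toRingHom, p1.map _, ?_⟩
    rw [Polynomial.eval₂_map, ← p2]
    congr 1
    ext <;> simp [φ]⟩
  exact (Algebra.IsAlgebraic.isTranscendenceBasis_of_le_trdeg_of_finite ℂ y
    (by rw [h]; simp)).1

theorem Proj.jac_ne (π : Proj R n) (ω : PForm K n) :
    (ω.jac fun i => algebraMap R K (π.y i)) ≠ 0 := by
  have : Algebra.EssFiniteType R K := Algebra.EssFiniteType.of_isLocalization K (nonZeroDivisors R)
  have : Algebra.EssFiniteType ℂ K := Algebra.EssFiniteType.comp ℂ R K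
  exact (ω.jac_ne_iff _).2
    (π.ind.map' (f := IsScalarTower.toAlgHom ℂ R K) (IsFractionRing.injective R K))

theorem WS.ρ_ne (G : WS R K n) (π : Proj R n) : G.ρ π.y ≠ 0 := fun h =>
  G.ω.rho_ne (π.jac_ne G.ω) (by rw [← G.ρ_eq, h, map_zero])

end Vale.Agent.P282
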