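import Vale.Agent.P282.AProj0

set_option linter.unusedSectionVars false

open scoped ENNReal TensorProduct Topology
open Filter MeasureTheory

noncomputable section

namespace Vale.Agent.P282

section Aux

variable {R : Type} [CommRing R] [Algebra ℂ R] {n : ℕ}

theorem AProj1_fin_iff {P : Type} [CommRing P] [Algebra ℂ P] (φ : P →ₐ[ℂ] R) :
    φ.Finite ↔ Module.Finite φ.range R := by
  constructor
  · intro h
    have e : φ = φ.range.val.comp φ.rangeRestrict := rfl
    rw [e] at h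
    exact AlgHom.Finite.of_comp_finite h
  · intro h
    have h' : φ.range.val.Finite := h
    exact h'.comp (AlgHom.Finite.of_surjective _ φ.rangeRestrict_surjective)

/-- The generators of degree at most `d`. -/
def AProj1_gen (y : Fin n → R) (B : Finset R) (d : ℕ) : Set R :=
  {x | ∃ α : Fin n → ℕ, ∃ b ∈ B, ∑ i, α i ≤ d ∧ x = (∏ i, y i ^ α i) * b}

/-- The degree filtration. -/
def AProj1_F (y : Fin n → R) (B : Finset R) (d : ℕ) : Submodule ℂ R :=
  Submodule.span ℂ (AProj1_gen y B d)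

theorem AProj1_gen_fin (y : Fin n → R) (B : Finset R) (d : ℕ) : (AProj1_gen y B d).Finite := by
  have h : ((Set.pi Set.univ fun _ : Fin n => Set.Iic d) ×ˢ (B : Set R)).Finite :=
    (Set.Finite.pi fun _ => Set.finite_Iic d).prod B.finite_toSet
  refine (h.image fun p => (∏ i, y i ^ p.1 i) * p.2).subset ?_
  rintro x ⟨α, b, hb, hα, rfl⟩
  refine ⟨(α, b), ⟨fun i _ => ?_, hb⟩, rfl⟩
  exact (Finset.single_le_sum (f := α) (fun _ _ => Nat.zero_le _) (Finset.mem_univ i)).trans hα

theorem AProj1_mono (y : Fin n → R) (B : Finset R) {d d' : ℕ} (h : d ≤ d') :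
    AProj1_F y B d ≤ AProj1_F y B d' :=
  Submodule.span_mono fun _ ⟨α, b, hb, hα, e⟩ => ⟨α, b, hb, hα.trans h, e⟩

theorem AProj1_mul (y : Fin n → R) (B : Finset R) {d d' : ℕ} {g : R}
    (h : ∀ x ∈ AProj1_gen y B d, g * x ∈ AProj1_F y B d') :
    ∀ x ∈ AProj1_F y B d, g * x ∈ AProj1_F y B d' := by
  intro x hx
  induction hx using Submodule.span_induction with
  | mem x hx => exact h x hx
  | zero => simp
  | add x z _ _ h1 h2 => rw [mul_add]; exact add_mem h1 h2
  | smul c x _ h1 => rw [mul_smul_comm]; exact Submodule.smul_mem _ _ h1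

theorem AProj1_mon (y : Fin n → R) (B : Finset R) (d : ℕ) (β : Fin n → ℕ) :
    ∀ x ∈ AProj1_F y B d, (∏ i, y i ^ β i) * x ∈ AProj1_F y B (∑ i, β i + d) := by
  refine AProj1_mul y B ?_
  rintro x ⟨α, b, hb, hα, rfl⟩
  refine Submodule.subset_span ⟨β + α, b, hb, ?_, ?_⟩
  · simp only [Pi.add_apply, Finset.sum_add_distrib]
    omega
  · simp only [Pi.add_apply, pow_add, Finset.prod_mul_distrib, mul_assoc]

theorem AProj1_single (y : Fin n → R) (i : Fin n) (M : ℕ) :
    ∏ j, y j ^ (Pi.single i M : Fin n → ℕ) j = y i ^ M := by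
  rw [Finset.prod_eq_single i]
  · simp
  · intro j _ hj
    simp [hj]
  · simp

theorem AProj1_poly (y : Fin n → R) (B : Finset R) (p : MvPolynomial (Fin n) ℂ) :
    ∀ (d : ℕ), ∀ x ∈ AProj1_F y B d, ∃ d', MvPolynomial.aeval y p * x ∈ AProj1_F y B d' := by
  induction p using MvPolynomial.induction_on with
  | C c =>
    intro d x hx
    refine ⟨d, ?_⟩
    rw [MvPolynomial.aeval_C, ← Algebra.smul_def]
    exact Submodule.smul_mem _ _ hx
  | add p q hp hq =>
    intro d x hx
    obtain ⟨d1, h1⟩ := hp d x hx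
    obtain ⟨d2, h2⟩ := hq d x hx
    refine ⟨max d1 d2, ?_⟩
    rw [map_add, add_mul]
    exact add_mem (AProj1_mono y B (le_max_left _ _) h1) (AProj1_mono y B (le_max_right _ _) h2)
  | mul_X p i hp =>
    intro d x hx
    have h1 := AProj1_mon y B d (Pi.single i 1) x hx
    rw [AProj1_single, pow_one] at h1
    obtain ⟨d', h2⟩ := hp _ _ h1
    refine ⟨d', ?_⟩
    rw [map_mul, MvPolynomial.aeval_X, mul_assoc]
    exact h2

theorem AProj1_exh (y : Fin n → R) (B : Finset R)
    (hB : Submodule.span (MvPolynomial.aeval y : MvPolynomial (Fin n) ℂ →ₐ[ℂ] R).range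
      (B : Set R) = ⊤) (r : R) : ∃ d, r ∈ AProj1_F y B d := by
  have hr : r ∈ Submodule.span (MvPolynomial.aeval y : MvPolynomial (Fin n) ℂ →ₐ[ℂ] R).range
      (B : Set R) := hB ▸ Submodule.mem_top
  induction hr using Submodule.span_induction with
  | mem x hx => exact ⟨0, Submodule.subset_span ⟨0, x, hx, by simp, by simp⟩⟩
  | zero => exact ⟨0, zero_mem _⟩
  | add x z _ _ h1 h2 =>
    obtain ⟨d1, h1⟩ := h1
    obtain ⟨d2, h2⟩ := h2
    exact ⟨max d1 d2,
      add_mem (AProj1_mono y B (le_max_left _ _) h1) (AProj1_mono y B (le_max_right _ _) h2)⟩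
  | smul c x _ h1 =>
    obtain ⟨d, h1⟩ := h1
    obtain ⟨_, p, rfl⟩ := c
    exact AProj1_poly y B p d x h1

theorem AProj1_pert (y : Fin n → R)
    (hy : (MvPolynomial.aeval y : MvPolynomial (Fin n) ℂ →ₐ[ℂ] R).Finite) (g : Fin n → R) :
    ∃ M₀ : ℕ, ∀ M ≥ M₀, (MvPolynomial.aeval (fun i => g i + y i ^ M) :
      MvPolynomial (Fin n) ℂ →ₐ[ℂ] R).Finite := by
  obtain ⟨⟨B, hB⟩⟩ := (AProj1_fin_iff _).1 hy
  choose dd hdd using AProj1_exh y B hB
  obtain ⟨D, hD⟩ : ∃ D, ∀ i, ∀ b ∈ B, g i * b ∈ AProj1_F y B D := by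
    refine ⟨(Finset.univ ×ˢ B).sup fun p : Fin n × R => dd (g p.1 * p.2), fun i b hb => ?_⟩
    exact AProj1_mono y B (Finset.le_sup (f := fun p : Fin n × R => dd (g p.1 * p.2))
      (b := (i, b)) (by simp [hb])) (hdd _)
  have hg : ∀ i d, ∀ x ∈ AProj1_F y B d, g i * x ∈ AProj1_F y B (d + D) := by
    intro i d
    refine AProj1_mul y B ?_
    rintro x ⟨α, b, hb, hα, rfl⟩
    rw [mul_left_comm]
    exact AProj1_mono y B (by omega) (AProj1_mon y B D α _ (hD i b hb))
  refine ⟨D + 1, fun M hM => (AProj1_fin_iff _).2 ?_⟩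
  set A := (MvPolynomial.aeval (fun i => g i + y i ^ M) :
      MvPolynomial (Fin n) ℂ →ₐ[ℂ] R).range with hA
  have key : ∀ d, ∀ x ∈ AProj1_F y B d, x ∈ Submodule.span A (AProj1_gen y B (n * M)) := by
    intro d
    induction d using Nat.strong_induction_on with
    | _ d ih =>
      intro x hx
      induction hx using Submodule.span_induction with
      | zero => exact zero_mem _
      | add x z _ _ h1 h2 => exact add_mem h1 h2
      | smul c x _ h1 =>
        have := Submodule.smul_mem _ (algebraMap ℂ A c) h1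
        rwa [algebraMap_smul] at this
      | mem x hx =>
        obtain ⟨α, b, hb, hα, rfl⟩ := hx
        by_cases hs : ∑ i, α i ≤ n * M
        · exact Submodule.subset_span ⟨α, b, hb, hs, rfl⟩
        · obtain ⟨i, hi⟩ : ∃ i, M ≤ α i := by
            by_contra hcon
            push Not at hcon
            apply hs
            calc ∑ i, α i ≤ ∑ _i : Fin n, M := Finset.sum_le_sum fun i _ => (hcon i).le
              _ = n * M := by simp
          obtain ⟨β, hβ⟩ : ∃ β : Fin n → ℕ, α = Pi.single i M + β := by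
            refine ⟨α - Pi.single i M, funext fun j => ?_⟩
            by_cases hj : j = i
            · subst hj
              simp only [Pi.add_apply, Pi.sub_apply, Pi.single_eq_same]
              omega
            · simp [hj]
          have hsum : ∑ j, α j = M + ∑ j, β j := by
            rw [hβ]
            simp [Finset.sum_add_distrib]
          have hu : (∏ j, y j ^ β j) * b ∈ AProj1_F y B (d - M) :=
            Submodule.subset_span ⟨β, b, hb, by omega, rfl⟩
          have e : (∏ j, y j ^ α j) * b = (g i + y i ^ M) * ((∏ j, y j ^ β j) * b) -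
              g i * ((∏ j, y j ^ β j) * b) := by
            rw [hβ]
            simp only [Pi.add_apply, pow_add, Finset.prod_mul_distrib, AProj1_single]
            ring
          rw [e]
          refine sub_mem ?_ (ih (d - M + D) (by omega) _ (hg i _ _ hu))
          have hm : g i + y i ^ M ∈ A := ⟨MvPolynomial.X i, by simp⟩
          exact Submodule.smul_mem _ (⟨_, hm⟩ : A) (ih (d - M) (by omega) _ hu)
  refine ⟨Submodule.fg_def.2 ⟨_, AProj1_gen_fin y B (n * M), ?_⟩⟩
  exact eq_top_iff.2 fun r _ => key _ r (hdd r)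

end Aux

variable {R K : Type} [CommRing R] [IsDomain R] [Algebra ℂ R] [Algebra.FiniteType ℂ R]
  [IsIntegrallyClosed R] [Field K] [Algebra R K] [IsFractionRing R K] [Algebra ℂ K]
  [IsScalarTower ℂ R K] {n : ℕ}

omit [IsIntegrallyClosed R] in
/-- perturbation of a finite projection -/
theorem Proj.pert (π : Proj R n) (g : Fin n → R) : ∃ M₀ : ℕ, ∀ M ≥ M₀, ∃ π' : Proj R n,
    ∀ i, π'.y i = g i + π.y i ^ M := by
  obtain ⟨M₀, h⟩ := AProj1_pert π.y π.fin g
  exact ⟨M₀, fun M hM => ⟨⟨_, ind_of_fin π.trdeg _ (h M hM), h M hM⟩, fun _ => rfl⟩⟩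

omit [IsIntegrallyClosed R] in
/-- affine changes of coordinates -/
theorem Proj.lin (π : Proj R n) (B : Matrix (Fin n) (Fin n) ℂ) (hB : B.det ≠ 0) (c : Fin n → ℂ) :
    ∃ π' : Proj R n, ∀ i, π'.y i = ∑ j, B i j • π.y j + algebraMap ℂ R (c i) := by
  have hfin : (MvPolynomial.aeval (fun i => ∑ j, B i j • π.y j + algebraMap ℂ R (c i)) :
      MvPolynomial (Fin n) ℂ →ₐ[ℂ] R).Finite := by
    refine AlgHom.Finite.of_comp_finite (f := (MvPolynomial.aeval fun j => ∑ i, B⁻¹ j i •
      (MvPolynomial.X i - MvPolynomial.C (c i)) :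
        MvPolynomial (Fin n) ℂ →ₐ[ℂ] MvPolynomial (Fin n) ℂ)) ?_
    convert π.fin using 1
    ext j
    simp only [AlgHom.comp_apply, MvPolynomial.aeval_X, map_sum, map_smul, map_sub,
      MvPolynomial.aeval_C, add_sub_cancel_right, Finset.smul_sum, smul_smul]
    rw [Finset.sum_comm]
    have h1 : B⁻¹ * B = 1 := Matrix.nonsing_inv_mul B (isUnit_iff_ne_zero.2 hB)
    have h2 : ∀ k, ∑ i, (B⁻¹ j i * B i k) • π.y k = (1 : Matrix (Fin n) (Fin n) ℂ) j k • π.y k := by
      intro k
      rw [← Finset.sum_smul, ← h1, Matrix.mul_apply]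
    simp only [h2, Matrix.one_apply, ite_smul, one_smul, zero_smul, Finset.sum_ite_eq,
      Finset.mem_univ, if_true]
  exact ⟨⟨_, ind_of_fin π.trdeg _ hfin, hfin⟩, fun _ => rfl⟩

omit [IsIntegrallyClosed R] in
/-- every nonzero element divides a nonzero polynomial, also modulo a prime -/
theorem Proj.norm (π : Proj R n) (p : Ideal R) [p.IsPrime] {r : R} (hr : r ∉ p) :
    ∃ (N : MvPolynomial (Fin n) ℂ) (s : R), MvPolynomial.aeval π.y N ∉ p ∧
      MvPolynomial.aeval π.y N - r * s ∈ p := by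
  have hf := (AProj1_fin_iff _).1 π.fin
  have hlt := Ideal.comap_lt_comap_of_integral_mem_sdiff
    (R := (MvPolynomial.aeval π.y : MvPolynomial (Fin n) ℂ →ₐ[ℂ] R).range) (I := p)
    (J := p ⊔ Ideal.span {r}) le_sup_left (x := r)
    ⟨Ideal.mem_sup_right (Ideal.subset_span rfl), hr⟩ (IsIntegral.of_finite _ r)
  obtain ⟨⟨_, N, rfl⟩, h1, h2⟩ := SetLike.exists_of_lt hlt
  obtain ⟨q, hq, z, hz, e⟩ := Submodule.mem_sup.1 (Ideal.mem_comap.1 h1)
  obtain ⟨s, rfl⟩ := Ideal.mem_span_singleton.1 hz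
  refine ⟨N, s, h2, ?_⟩
  have e' : q + r * s = MvPolynomial.aeval π.y N := e
  rw [← e', add_sub_cancel_right]
  exact hq

omit [IsIntegrallyClosed R] in
theorem exists_pt (m : Ideal R) [m.IsMaximal] : ∃ x : Pt R, x.m = m := by
  let _ := Ideal.Quotient.field m
  have : Module.Finite ℂ (R ⧸ m) := finite_of_finite_type_of_isJacobsonRing ℂ (R ⧸ m)
  let e : ℂ ≃ₐ[ℂ] R ⧸ m := AlgEquiv.ofBijective (Algebra.ofId ℂ (R ⧸ m))
    IsAlgClosed.algebraMap_bijective_of_isIntegral
  refine ⟨(e.symm : R ⧸ m →ₐ[ℂ] ℂ).comp (Ideal.Quotient.mkₐ ℂ m), ?_⟩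
  ext r
  change e.symm (Ideal.Quotient.mk m r) = 0 ↔ r ∈ m
  rw [map_eq_zero_iff _ e.symm.injective, Ideal.Quotient.eq_zero_iff_mem]

end Vale.Agent.P282
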