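import Vale.Agent.P282.AProj0

set_option linter.unusedSectionVars false

open scoped ENNReal TensorProduct Topology
open Filter MeasureTheory

noncomputable section

namespace Vale.Agent.P282

theorem AProj2_poly (n : ℕ) (P : Ideal (MvPolynomial (Fin n) ℂ)) [P.IsMaximal] :
    P.height = n := by
  induction n with
  | zero =>
    have h := Ideal.height_le_ringKrullDim_of_isPrime (I := P)
    rw [MvPolynomial.ringKrullDim_of_isNoetherianRing] at h
    simpa using h
  | succ n ih =>
    let e := (MvPolynomial.finSuccEquiv ℂ n).toRingEquiv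
    have h1 : (P.map e).IsMaximal := Ideal.map_isMaximal_of_equiv e
    have h2 : ((P.map e).under (MvPolynomial (Fin n) ℂ)).IsMaximal :=
      Polynomial.isMaximal_comap_C_of_isJacobsonRing (P.map e)
    have h3 : (P.map e).LiesOver ((P.map e).under (MvPolynomial (Fin n) ℂ)) := ⟨rfl⟩
    rw [← e.height_map P, Polynomial.height_eq_height_add_one
      ((P.map e).under (MvPolynomial (Fin n) ℂ)) (P.map e), ih]
    simp

theorem AProj2_int {S R : Type} [CommRing S] [CommRing R] [IsDomain R] [Algebra S R]
    [IsNoetherianRing S] [IsNoetherianRing R] [FaithfulSMul S R] [Algebra.IsIntegral S R]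
    [IsIntegrallyClosed S] (P : Ideal R) [P.IsPrime] : P.height = (P.under S).height := by
  refine le_antisymm ?_ ?_
  · have h : StrictMono (PrimeSpectrum.comap (algebraMap S R)) := fun a b hab =>
      Ideal.IsIntegral.comap_lt_comap (R := S) (I := a.asIdeal) (J := b.asIdeal) hab
    have h1 := Order.height_le_height_apply_of_strictMono _ h ⟨P, inferInstance⟩
    rw [← PrimeSpectrum.height_eq_orderHeight, ← PrimeSpectrum.height_eq_orderHeight] at h1
    exact h1
  · rw [Ideal.height_eq_height_add_of_liesOver_of_hasGoingDown (P.under S) P]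
    exact le_self_add

variable {R K : Type} [CommRing R] [IsDomain R] [Algebra ℂ R] [Algebra.FiniteType ℂ R]
  [IsIntegrallyClosed R] [Field K] [Algebra R K] [IsFractionRing R K] [Algebra ℂ K]
  [IsScalarTower ℂ R K] {n : ℕ}

theorem height_pt (π : Proj R n) (x : Pt R) : x.m.height = n := by
  have hN : IsNoetherianRing R := Algebra.FiniteType.isNoetherianRing ℂ R
  let _ : Algebra (MvPolynomial (Fin n) ℂ) R :=
    (MvPolynomial.aeval π.y : MvPolynomial (Fin n) ℂ →ₐ[ℂ] R).toRingHom.toAlgebra
  have h1 : Module.Finite (MvPolynomial (Fin n) ℂ) R := π.fin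
  have h2 : FaithfulSMul (MvPolynomial (Fin n) ℂ) R :=
    (faithfulSMul_iff_algebraMap_injective _ _).2 π.ind
  have h3 : (x.m.under (MvPolynomial (Fin n) ℂ)).IsMaximal :=
    Ideal.IsMaximal.under (MvPolynomial (Fin n) ℂ) x.m
  rw [AProj2_int (S := MvPolynomial (Fin n) ℂ), AProj2_poly]

theorem AProj2_dim (π : Proj R n) (x : Pt R) :
    ringKrullDim (Localization.AtPrime x.m) = n := by
  rw [IsLocalization.AtPrime.ringKrullDim_eq_height x.m, height_pt π x]
  rfl

theorem regular_of_gen (π : Proj R n) (x : Pt R) (z : Fin n → R) (hz : ∀ i, z i ∈ x.m)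
    (h : x.m ≤ Ideal.span (Set.range z) ⊔ x.m ^ 2) :
    IsRegularLocalRing (Localization.AtPrime x.m) := by
  have hN : IsNoetherianRing R := Algebra.FiniteType.isNoetherianRing ℂ R
  refine IsRegularLocalRing.of_spanFinrank_maximalIdeal_le _ ?_
  rw [AProj2_dim π x]
  have h1 := Ideal.map_mono (f := algebraMap R (Localization.AtPrime x.m)) h
  rw [Ideal.map_sup, Ideal.map_pow, Localization.AtPrime.map_eq_maximalIdeal, Ideal.map_span,
    ← Set.range_comp, pow_two, ← smul_eq_mul] at h1
  have h2 := Submodule.le_of_le_smul_of_le_jacobson_bot (IsNoetherian.noetherian _)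
    (IsLocalRing.maximalIdeal_le_jacobson ⊥) h1
  have h3 : IsLocalRing.maximalIdeal (Localization.AtPrime x.m) =
      Ideal.span (Set.range (algebraMap R (Localization.AtPrime x.m) ∘ z)) := by
    refine le_antisymm h2 (Ideal.span_le.2 ?_)
    rintro _ ⟨i, rfl⟩
    rw [← Localization.AtPrime.map_eq_maximalIdeal]
    exact Ideal.mem_map_of_mem _ (hz i)
  rw [h3]
  have h4 := Submodule.spanFinrank_span_le_ncard_of_finite (R := Localization.AtPrime x.m)
    (Set.finite_range (algebraMap R (Localization.AtPrime x.m) ∘ z))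
  have h5 : (Set.range (algebraMap R (Localization.AtPrime x.m) ∘ z)).ncard ≤ n := by
    rw [← Set.image_univ]
    refine (Set.ncard_image_le Set.finite_univ).trans (le_of_eq ?_)
    rw [Set.ncard_univ, Nat.card_eq_fintype_card, Fintype.card_fin]
  exact_mod_cast h4.trans h5

theorem gen_of_regular (π : Proj R n) (x : Pt R)
    (h : IsRegularLocalRing (Localization.AtPrime x.m)) :
    ∃ z : Fin n → R, (∀ i, z i ∈ x.m) ∧ x.m ≤ Ideal.span (Set.range z) ⊔ x.m ^ 2 := by
  have h1 := h.spanFinrank_maximalIdeal
  rw [AProj2_dim π x] at h1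
  have h2 : (IsLocalRing.maximalIdeal (Localization.AtPrime x.m)).spanFinrank = n := by
    exact_mod_cast h1
  obtain ⟨s, hs, hs'⟩ := Submodule.FG.exists_span_finset_card_eq_spanFinrank
    (IsNoetherian.noetherian (IsLocalRing.maximalIdeal (Localization.AtPrime x.m)))
  let e : s ≃ Fin n := s.equivFinOfCardEq (hs.trans h2)
  have h3 : ∀ i : Fin n, ∃ a : R, ∃ t : x.m.primeCompl,
      IsLocalization.mk' (Localization.AtPrime x.m) a t = (e.symm i : Localization.AtPrime x.m) :=
    fun i => IsLocalization.exists_mk'_eq x.m.primeCompl _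
  choose z t hzt using h3
  refine ⟨z, fun i => ?_, fun r hr => ?_⟩
  · rw [← IsLocalization.AtPrime.mk'_mem_maximal_iff (Localization.AtPrime x.m) x.m (z i) (t i),
      hzt, ← hs']
    exact Submodule.subset_span (e.symm i).2
  · have h4 : IsLocalRing.maximalIdeal (Localization.AtPrime x.m) ≤
        (Ideal.span (Set.range z)).map (algebraMap R (Localization.AtPrime x.m)) := by
      rw [← hs']
      refine Submodule.span_le.2 fun a ha => ?_
      have h5 := hzt (e ⟨a, ha⟩)
      rw [e.symm_apply_apply] at h5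
      have h6 : a = _ := h5.symm
      rw [h6, IsLocalization.mk'_eq_mul_mk'_one]
      exact Ideal.mul_mem_right _ _ (Ideal.mem_map_of_mem _ (Ideal.subset_span ⟨_, rfl⟩))
    have h5 : algebraMap R (Localization.AtPrime x.m) r ∈
        IsLocalRing.maximalIdeal (Localization.AtPrime x.m) := by
      rw [← Localization.AtPrime.map_eq_maximalIdeal]
      exact Ideal.mem_map_of_mem _ hr
    obtain ⟨u, hu, hur⟩ := (IsLocalization.algebraMap_mem_map_algebraMap_iff x.m.primeCompl
      (Localization.AtPrime x.m) _ r).1 (h4 h5)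
    obtain ⟨a, b, hb, hab⟩ := Ideal.IsMaximal.exists_inv (inferInstance : x.m.IsMaximal) hu
    have h6 : r = a * (u * r) + b * r := by rw [← mul_assoc, ← add_mul, hab, one_mul]
    rw [h6, pow_two]
    exact Submodule.add_mem_sup (Ideal.mul_mem_left _ _ hur) (Ideal.mul_mem_mul hb hr)

end Vale.Agent.P282
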