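import Vale.Agent.P282.ATd

set_option linter.unusedSectionVars false

open scoped ENNReal TensorProduct Topology
open Filter MeasureTheory

noncomputable section

namespace Vale.Agent.P282

variable {R K : Type} [CommRing R] [IsDomain R] [Algebra ℂ R] [Algebra.FiniteType ℂ R]
  [IsIntegrallyClosed R] [Field K] [Algebra R K] [IsFractionRing R K] [Algebra ℂ K]
  [IsScalarTower ℂ R K] {n : ℕ}

theorem ARed_gens {A S : Type} [CommRing A] [CommRing S] (f : A →+* S) (hf : f.Finite) :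
    ∃ (r : ℕ) (u : Fin r → S), ∀ x, ∃ P : Fin r → A, ∑ l, f (P l) * u l = x := by
  let _ := f.toAlgebra
  have : Module.Finite A S := hf
  obtain ⟨r, u, hu⟩ := Module.Finite.exists_fin (R := A) (M := S)
  refine ⟨r, u, fun x => ?_⟩
  have : x ∈ Submodule.span A (Set.range u) := hu ▸ Submodule.mem_top
  exact (Submodule.mem_span_range_iff_exists_fun A).1 this

theorem ARed_span (π : Proj R n) (q : Ideal R) (p : Fin n → Prop) [DecidablePred p]
    (hy : ∀ i, p i → π.y i ∈ q) : ∃ r : ℕ, ∀ j : ℕ, ∃ F : ({i // p i} → Fin j) × Fin r → R,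
      Submodule.span (Algebra.adjoin ℂ (π.y '' {i | ¬p i})) (Set.range F) ⊔
        (q ^ j).restrictScalars (Algebra.adjoin ℂ (π.y '' {i | ¬p i})) = ⊤ := by
  obtain ⟨r, u, hu⟩ := ARed_gens _ π.fin
  refine ⟨r, fun j => ⟨fun a => (∏ i : {i // p i}, π.y i ^ (a.1 i : ℕ)) * u a.2, ?_⟩⟩
  rw [eq_top_iff]
  intro x _
  obtain ⟨P, rfl⟩ := hu x
  refine Submodule.sum_mem _ fun l _ => ?_
  show MvPolynomial.aeval π.y (P l) * u l ∈ _
  induction P l using MvPolynomial.induction_on' with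
  | add P Q h1 h2 =>
    rw [map_add, add_mul]
    exact Submodule.add_mem _ h1 h2
  | monomial γ c =>
    rw [MvPolynomial.aeval_monomial, Finsupp.prod_fintype _ _ fun i => pow_zero _]
    by_cases hγ : ∀ i, p i → γ i < j
    · refine Submodule.mem_sup_left ?_
      have hb : algebraMap ℂ R c * ∏ i ∈ Finset.univ.filter fun i => ¬p i, π.y i ^ γ i ∈
          Algebra.adjoin ℂ (π.y '' {i | ¬p i}) :=
        mul_mem (Subalgebra.algebraMap_mem _ c) (prod_mem fun i hi =>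
          pow_mem (Algebra.subset_adjoin
            (Set.mem_image_of_mem π.y (Finset.mem_filter.1 hi).2)) _)
      have := Submodule.smul_mem _ (⟨_, hb⟩ : Algebra.adjoin ℂ (π.y '' {i | ¬p i}))
        (Submodule.subset_span (R := Algebra.adjoin ℂ (π.y '' {i | ¬p i}))
          (Set.mem_range_self (f := fun a : ({i // p i} → Fin j) × Fin r =>
            (∏ i : {i // p i}, π.y i ^ (a.1 i : ℕ)) * u a.2) (fun i => ⟨γ i, hγ i.1 i.2⟩, l)))
      rw [← Finset.prod_filter_mul_prod_filter_not Finset.univ p,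
        Finset.prod_subtype (p := p) (Finset.univ.filter p) (by simp)]
      refine (congrArg (· ∈ _) ?_).mp this
      show _ * _ = _
      ring
    · refine Submodule.mem_sup_right ?_
      obtain ⟨i, hi⟩ := not_forall.1 hγ
      obtain ⟨h1, h2⟩ := Classical.not_imp.1 hi
      show _ ∈ q ^ j
      refine Ideal.mul_mem_right _ _ (Ideal.mul_mem_left _ _ ?_)
      rw [← Finset.mul_prod_erase _ _ (Finset.mem_univ i)]
      exact Ideal.mul_mem_right _ _
        (Ideal.pow_le_pow_right (not_lt.1 h2) (Ideal.pow_mem_pow (hy i h1) _))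

theorem ARed_mon {ι : Type} [Fintype ι] {q : Ideal R} {z : ι → R} (hz : ∀ i, z i ∈ q)
    (e : ι → ℕ) : ∏ i, z i ^ e i ∈ q ^ ∑ i, e i := by
  rw [← Finset.prod_pow_eq_pow_sum]
  exact Ideal.prod_mem_prod fun i _ => Ideal.pow_mem_pow (hz i) _

theorem ARed_rel (B : Subalgebra ℂ R) (q : Ideal R) {T : Type} [Fintype T] [DecidableEq T]
    {r m : ℕ} (hm : Fintype.card T ≤ m) (hs : ∀ j : ℕ, ∃ F : (T → Fin j) × Fin r → R,
      Submodule.span B (Set.range F) ⊔ (q ^ j).restrictScalars B = ⊤)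
    (z : Fin (m + 1) → R) (hz : ∀ i, z i ∈ q) :
    ∃ (ι : Type) (S : Finset ι) (e : ι → Fin (m + 1) → ℕ) (b : ι → R) (d : ℕ),
      Function.Injective e ∧ (∀ β, b β ∈ B) ∧ (∃ β ∈ S, b β ≠ 0) ∧ (∀ β ∈ S, ∑ i, e β i = d) ∧
      ∑ β ∈ S, b β * ∏ i, z i ^ e β i ∈ q ^ (d + 1) := by
  classical
  obtain ⟨t, ht⟩ : ∃ t, t = r * (m + 1) ^ m + 1 := ⟨_, rfl⟩
  have t0 : 0 < t := by omega
  obtain ⟨F, hF⟩ := hs ((m + 1) * t)
  set N := (q ^ ((m + 1) * t)).restrictScalars B with hN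
  have hli : ¬LinearIndependent B fun β : Fin (m + 1) → Fin t =>
      N.mkQ (∏ i, z i ^ (β i : ℕ)) := by
    intro hl
    have h1 : Submodule.span B (Set.range (N.mkQ ∘ F)) = ⊤ := by
      rw [Set.range_comp, ← Submodule.map_span, Submodule.map_mkQ_eq_top, sup_comm, hF]
    have h2 := (linearIndependent_le_span_aux' _ hl (Set.range (N.mkQ ∘ F))
      (by rw [h1]; exact fun _ _ => Submodule.mem_top)).trans (Fintype.card_range_le _)
    simp only [Fintype.card_fun, Fintype.card_fin, Fintype.card_prod] at h2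
    have h3 : ((m + 1) * t) ^ Fintype.card T ≤ ((m + 1) * t) ^ m :=
      Nat.pow_le_pow_right (Nat.mul_pos (by omega) t0) hm
    have h4 := h2.trans (Nat.mul_le_mul_right r h3)
    rw [mul_pow, pow_succ, mul_right_comm, mul_comm _ (t ^ m)] at h4
    have h5 := Nat.le_of_mul_le_mul_left h4 (Nat.pow_pos t0)
    rw [mul_comm] at h5
    omega
  obtain ⟨g, g1, β0, g2⟩ := Fintype.not_linearIndependent_iff.1 hli
  obtain ⟨β1, b1, b2⟩ := Finset.exists_min_image (Finset.univ.filter fun β => g β ≠ 0)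
    (fun β => ∑ i, (β i : ℕ)) ⟨β0, Finset.mem_filter.2 ⟨Finset.mem_univ _, g2⟩⟩
  have g3 : ∑ β, (g β : R) * ∏ i, z i ^ (β i : ℕ) ∈ q ^ ((m + 1) * t) := by
    have : N.mkQ (∑ β, g β • ∏ i, z i ^ (β i : ℕ)) = 0 := by
      rw [map_sum, ← g1]
      exact Finset.sum_congr rfl fun β _ => map_smul _ _ _
    exact (Submodule.Quotient.mk_eq_zero N).1 this
  have hd : ∑ i, (β1 i : ℕ) + 1 ≤ (m + 1) * t := by
    have : ∑ i, (β1 i : ℕ) < ∑ _i : Fin (m + 1), t :=
      Finset.sum_lt_sum_of_nonempty Finset.univ_nonempty fun i _ => (β1 i).2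
    simpa using this
  refine ⟨Fin (m + 1) → Fin t, Finset.univ.filter fun β => ∑ i, (β i : ℕ) = ∑ i, (β1 i : ℕ),
    fun β i => β i, fun β => g β, ∑ i, (β1 i : ℕ),
    fun β β' h => funext fun i => Fin.ext (congrFun h i), fun β => (g β).2,
    ⟨β1, Finset.mem_filter.2 ⟨Finset.mem_univ _, rfl⟩,
      fun h => (Finset.mem_filter.1 b1).2 (Subtype.ext h)⟩,
    fun β hβ => (Finset.mem_filter.1 hβ).2, ?_⟩
  have g4 := Ideal.pow_le_pow_right hd g3
  rw [← Finset.sum_filter_add_sum_filter_not Finset.univ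
    fun β : Fin (m + 1) → Fin t => ∑ i, (β i : ℕ) = ∑ i, (β1 i : ℕ)] at g4
  refine (Ideal.add_mem_iff_left _ (Ideal.sum_mem _ fun β hβ => ?_)).1 g4
  by_cases h0 : g β = 0
  · rw [h0, ZeroMemClass.coe_zero, zero_mul]
    exact Ideal.zero_mem _
  · have k1 := b2 β (Finset.mem_filter.2 ⟨Finset.mem_univ _, h0⟩)
    have k2 := (Finset.mem_filter.1 hβ).2
    exact Ideal.mul_mem_left _ _ (Ideal.pow_le_pow_right (by omega) (ARed_mon hz fun i => β i))

theorem ARed_pt {ι σ : Type} [Fintype σ] {S : Finset ι} {e : ι → σ → ℕ} {b : ι → R}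
    (he : Function.Injective e) (hb : ∃ β ∈ S, b β ≠ 0) :
    ∃ c : σ → ℂ, (∀ i, c i ≠ 0) ∧ ∑ β ∈ S, b β * ∏ i, algebraMap ℂ R (c i) ^ e β i ≠ 0 := by
  classical
  by_contra hn
  obtain ⟨β0, h1, h2⟩ := hb
  have hinf : (algebraMap ℂ R '' {0}ᶜ).Infinite :=
    (Set.finite_singleton 0).infinite_compl.image (algebraMap ℂ R).injective.injOn
  have h0 : ∑ β ∈ S, MvPolynomial.monomial (Finsupp.equivFunOnFinite.symm (e β)) (b β) = 0 := by
    refine MvPolynomial.funext_set (fun _ => algebraMap ℂ R '' {0}ᶜ) (fun _ => hinf)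
      fun x hx => ?_
    choose c c1 c2 using fun i => hx i (Set.mem_univ i)
    rw [map_zero, map_sum]
    by_contra h3
    refine hn ⟨c, c1, fun h4 => h3 (Eq.trans (Finset.sum_congr rfl fun β _ => ?_) h4)⟩
    rw [MvPolynomial.eval_monomial, Finsupp.prod_fintype _ _ fun i => pow_zero _]
    simp only [c2]
    rfl
  have h5 := congrArg (MvPolynomial.coeff (Finsupp.equivFunOnFinite.symm (e β0))) h0
  rw [MvPolynomial.coeff_sum, Finset.sum_eq_single_of_mem β0 h1 fun β _ hne => by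
    rw [MvPolynomial.coeff_monomial, if_neg fun h => hne (he (Equiv.injective _ h))],
    MvPolynomial.coeff_monomial, if_pos rfl] at h5
  exact h2 h5

theorem ARed_prod {w : RVal K} {ι : Type} (s : Finset ι) {a b : ι → K} {τ : ι → ℝ} {η : ℝ}
    (ha : ∀ i ∈ s, w.Ge (a i) (τ i)) (hb : ∀ i ∈ s, w.Ge (b i) (τ i))
    (h : ∀ i ∈ s, w.Ge (a i - b i) (τ i + η)) :
    w.Ge (∏ i ∈ s, a i - ∏ i ∈ s, b i) (∑ i ∈ s, τ i + η) := by
  classical
  induction s using Finset.induction_on with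
  | empty => exact Or.inl (sub_self _)
  | insert i s hi ih =>
    have m := Finset.mem_insert_self i s
    have k1 := (ha i m).mul (ih (fun j hj => ha j (Finset.mem_insert_of_mem hj))
      (fun j hj => hb j (Finset.mem_insert_of_mem hj))
      fun j hj => h j (Finset.mem_insert_of_mem hj))
    have k2 := (h i m).mul (RVal.Ge.prod fun j hj => hb j (Finset.mem_insert_of_mem hj))
    rw [Finset.prod_insert hi, Finset.prod_insert hi, Finset.sum_insert hi,
      show a i * ∏ j ∈ s, a j - b i * ∏ j ∈ s, b j =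
        a i * (∏ j ∈ s, a j - ∏ j ∈ s, b j) + (a i - b i) * ∏ j ∈ s, b j by ring]
    exact (k1.mono (le_of_eq (by ring))).add (k2.mono (le_of_eq (by ring)))

theorem ARed_pow {w : RVal K} {a b : K} {τ η : ℝ} (ha : w.Ge a τ) (hb : w.Ge b τ)
    (h : w.Ge (a - b) (τ + η)) (m : ℕ) : w.Ge (a ^ m - b ^ m) (m * τ + η) := by
  have := ARed_prod (Finset.range m) (fun _ _ => ha) (fun _ _ => hb) fun _ _ => h
  simpa using this

theorem ARed_gap {w : RVal K} {ι : Type} [Finite ι] {a : ι → K} {τ : ℝ} (hτ : 0 < τ)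
    (h : ∀ i, a i = 0 ∨ τ < w.v (a i)) : ∃ η, 0 < η ∧ η ≤ τ ∧ ∀ i, w.Ge (a i) (τ + η) := by
  have h1 : ∀ i, ∀ᶠ η in 𝓝[>] (0 : ℝ), w.Ge (a i) (τ + η) := by
    intro i
    rcases h i with h0 | h0
    · exact .of_forall fun _ => Or.inl h0
    · filter_upwards [Ioo_mem_nhdsGT (sub_pos.2 h0)] with η hη
      exact Or.inr (by linarith [hη.2])
  obtain ⟨η, h2, h3⟩ := ((eventually_all.2 h1).and (Ioo_mem_nhdsGT hτ)).exists
  exact ⟨η, h3.1, h3.2.le, h2⟩

/-- uniform version of `IsRed` -/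
def ARed_U (K : Type) [Field K] [Algebra R K] [Algebra ℂ K] {k : ℕ} (q : Ideal R)
    (y : Fin k → R) : Prop :=
  (∀ i, y i ∈ q) ∧ ∀ w : RVal K, w.CenteredAt q → ∃ i, algebraMap R K (y i) ≠ 0 ∧
    ∀ r ∈ q, w.Ge (algebraMap R K r) (w.v (algebraMap R K (y i)))

theorem ARed_down {q : Ideal R} {m : ℕ} {z : Fin (m + 1) → R} (hz : ARed_U K q z) {ι : Type}
    {S : Finset ι} {e : ι → Fin (m + 1) → ℕ} {b : ι → R} {d : ℕ} {c : Fin (m + 1) → ℂ}
    (hc : c 0 ≠ 0) (hd : ∀ β ∈ S, ∑ i, e β i = d)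
    (h1 : ∑ β ∈ S, b β * ∏ i, z i ^ e β i ∈ q ^ (d + 1))
    (h2 : ∑ β ∈ S, b β * ∏ i, algebraMap ℂ R (c i) ^ e β i ∉ q) :
    ARed_U K q fun i : Fin m => z i.succ - algebraMap ℂ R (c i.succ / c 0) * z 0 := by
  refine ⟨fun i => q.sub_mem (hz.1 _) (q.mul_mem_left _ (hz.1 0)), fun w hw => ?_⟩
  obtain ⟨i0, i1, i2⟩ := hz.2 w hw
  have t0 := (hw.2 _ i1).2 (hz.1 i0)
  generalize hτ : w.v (algebraMap R K (z i0)) = τ at i2 t0
  by_contra hn
  obtain ⟨η, e0, e1, e2⟩ := ARed_gap (w := w) (a := fun i : Fin m =>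
      algebraMap R K (z i.succ - algebraMap ℂ R (c i.succ / c 0) * z 0)) t0 fun i => by
    by_contra h
    obtain ⟨h3, h4⟩ := not_or.1 h
    exact hn ⟨i, h3, fun r hr => (i2 r hr).mono (not_lt.1 h4)⟩
  obtain ⟨T, hT⟩ : ∃ T, T = algebraMap ℂ K (c 0)⁻¹ * algebraMap R K (z 0) := ⟨_, rfl⟩
  have cm : ∀ (a : ℂ) {x : K} {s : ℝ}, w.Ge x s → w.Ge (algebraMap ℂ K a * x) s :=
    fun a x s hx => ((RVal.Ge.const a).mul hx).mono (zero_add s).ge
  have T1 : w.Ge T τ := hT ▸ cm _ (i2 _ (hz.1 0))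
  have df : ∀ i, w.Ge (algebraMap R K (z i) - algebraMap ℂ K (c i) * T) (τ + η) := by
    intro i
    refine Fin.cases (Or.inl ?_) (fun j => ?_) i
    · rw [hT, ← mul_assoc, ← map_mul, mul_inv_cancel₀ hc, map_one, one_mul, sub_self]
    · have := e2 j
      rwa [map_sub, map_mul, ← IsScalarTower.algebraMap_apply, div_eq_mul_inv, map_mul, mul_assoc,
        ← hT] at this
  have T2 : T ≠ 0 ∧ w.v T ≤ τ := by
    by_contra h
    obtain ⟨η', f0, -, f2⟩ := ARed_gap (w := w) (a := fun _ : Unit => T) t0 fun _ => by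
      by_cases h0 : T = 0
      · exact Or.inl h0
      · exact Or.inr (not_le.1 fun h5 => h ⟨h0, h5⟩)
    have k := ((df i0).mono (add_le_add_right (min_le_left η η') τ)).add
      ((cm (c i0) (f2 ())).mono (add_le_add_right (min_le_right η η') τ))
    rw [sub_add_cancel] at k
    have := lt_min e0 f0
    rcases k with k | k
    · exact i1 k
    · linarith
  have p1 : w.Ge (algebraMap R K (∑ β ∈ S, b β * ∏ i, z i ^ e β i)) (d * τ + η) :=
    (RVal.Ge.of_pow hw.1 i2 (d + 1) h1).mono (by push_cast; linarith)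
  have p2 : w.Ge (algebraMap R K (∑ β ∈ S, b β * ∏ i, z i ^ e β i) -
      algebraMap R K (∑ β ∈ S, b β * ∏ i, algebraMap ℂ R (c i) ^ e β i) * T ^ d) (d * τ + η) := by
    rw [map_sum, map_sum, Finset.sum_mul, ← Finset.sum_sub_distrib]
    refine RVal.Ge.sum fun β hβ => ?_
    have k := (hw.1 (b β)).mul (ARed_prod Finset.univ
      (fun i _ => (i2 _ (hz.1 i)).pow (e β i)) (fun i _ => (cm (c i) T1).pow (e β i))
      fun i _ => ARed_pow (i2 _ (hz.1 i)) (cm (c i) T1) (df i) (e β i))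
    rw [zero_add, ← Finset.sum_mul, ← Nat.cast_sum, hd β hβ] at k
    simp only [mul_pow, Finset.prod_mul_distrib, Finset.prod_pow_eq_pow_sum, hd β hβ] at k
    simp only [map_mul, map_prod, map_pow, ← IsScalarTower.algebraMap_apply]
    rwa [mul_assoc, ← mul_sub]
  have p3 := p1.sub p2
  rw [sub_sub_cancel] at p3
  have n1 : algebraMap R K (∑ β ∈ S, b β * ∏ i, algebraMap ℂ R (c i) ^ e β i) ≠ 0 := fun h =>
    h2 ((IsFractionRing.to_map_eq_zero_iff.1 h) ▸ q.zero_mem)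
  have n2 := not_lt.1 fun h => h2 ((hw.2 _ n1).1 h)
  rcases p3 with p3 | p3
  · exact mul_ne_zero n1 (pow_ne_zero d T2.1) p3
  · rw [w.mul _ _ n1 (pow_ne_zero d T2.1), w.v_pow _ T2.1] at p3
    have := mul_le_mul_of_nonneg_left T2.2 (Nat.cast_nonneg (α := ℝ) d)
    linarith

theorem ARed_start (K : Type) [Field K] [Algebra R K] [IsFractionRing R K] [Algebra ℂ K]
    [IsScalarTower ℂ R K] (q : Ideal R) (hq : q ≠ ⊥) (k : ℕ) :
    ∃ (l : ℕ) (z : Fin (k + l) → R), ARed_U K q z := by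
  classical
  have : IsNoetherianRing R := Algebra.FiniteType.isNoetherianRing ℂ R
  obtain ⟨l, u, hu⟩ := Submodule.fg_iff_exists_fin_generating_family.1
    (IsNoetherian.noetherian q)
  have hu' : ∀ i, u i ∈ q := fun i => hu ▸ Submodule.subset_span (Set.mem_range_self i)
  refine ⟨l, Fin.append 0 u, fun i => ?_, fun w hw => ?_⟩
  · refine Fin.addCases (fun j => ?_) (fun j => ?_) i
    · rw [Fin.append_left]
      exact q.zero_mem
    · rw [Fin.append_right]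
      exact hu' j
  · have hne : (Finset.univ.filter fun i => algebraMap R K (u i) ≠ 0).Nonempty := by
      by_contra h
      refine hq (hu ▸ Submodule.span_eq_bot.2 ?_)
      rintro _ ⟨i, rfl⟩
      by_contra h0
      exact h ⟨i, Finset.mem_filter.2 ⟨Finset.mem_univ _,
        fun h1 => h0 (IsFractionRing.to_map_eq_zero_iff.1 h1)⟩⟩
    obtain ⟨i, i1, i2⟩ := Finset.exists_min_image _ (fun i => w.v (algebraMap R K (u i))) hne
    refine ⟨Fin.natAdd k i, ?_⟩
    rw [Fin.append_right]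
    refine ⟨(Finset.mem_filter.1 i1).2, fun r hr =>
      RVal.Ge.of_span hw.1 (S := Set.range u) ?_ (hu ▸ hr : r ∈ Submodule.span R (Set.range u))⟩
    rintro _ ⟨j, rfl⟩
    by_cases h0 : algebraMap R K (u j) = 0
    · exact Or.inl h0
    · exact Or.inr (i2 j (Finset.mem_filter.2 ⟨Finset.mem_univ _, h0⟩))

theorem ARed_cap (π : Proj R n) (q : Ideal R) {k : ℕ}
    (h3 : q.comap (MvPolynomial.aeval π.y : MvPolynomial (Fin n) ℂ →ₐ[ℂ] R) =
      Ideal.span {P | ∃ i : Fin n, (i : ℕ) < k ∧ P = MvPolynomial.X i}) {b : R}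
    (hb : b ∈ Algebra.adjoin ℂ (π.y '' {i | ¬(i : ℕ) < k})) (hq : b ∈ q) : b = 0 := by
  let κ : MvPolynomial (Fin n) ℂ →ₐ[ℂ] MvPolynomial (Fin n) ℂ :=
    MvPolynomial.aeval fun i => if (i : ℕ) < k then 0 else MvPolynomial.X i
  have h1 : Algebra.adjoin ℂ (π.y '' {i | ¬(i : ℕ) < k}) ≤
      (AlgHom.equalizer κ (AlgHom.id ℂ _)).map (MvPolynomial.aeval π.y) := by
    refine Algebra.adjoin_le ?_
    rintro _ ⟨i, hi, rfl⟩
    refine ⟨MvPolynomial.X i, ?_, MvPolynomial.aeval_X _ _⟩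
    show κ (MvPolynomial.X i) = MvPolynomial.X i
    rw [MvPolynomial.aeval_X, if_neg hi]
  obtain ⟨P, p1, rfl⟩ := h1 hb
  have p2 : P ∈ Ideal.span {P | ∃ i : Fin n, (i : ℕ) < k ∧ P = MvPolynomial.X i} := h3 ▸ hq
  have p3 : Ideal.span {P | ∃ i : Fin n, (i : ℕ) < k ∧ P = MvPolynomial.X i} ≤ RingHom.ker κ := by
    rw [Ideal.span_le]
    rintro _ ⟨i, hi, rfl⟩
    show κ (MvPolynomial.X i) = 0
    rw [MvPolynomial.aeval_X, if_pos hi]
  have p4 : P = 0 := (show κ P = P from p1).symm.trans (p3 p2)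
  rw [p4, map_zero]

theorem ARed_exists (K : Type) [Field K] [Algebra R K] [IsFractionRing R K] [Algebra ℂ K]
    [IsScalarTower ℂ R K] (π : Proj R n) (q : Ideal R) {k : ℕ} (hk0 : 0 < k) (hk : k ≤ n)
    (h2 : ∀ i : Fin n, (i : ℕ) < k → π.y i ∈ q)
    (h3 : q.comap (MvPolynomial.aeval π.y : MvPolynomial (Fin n) ℂ →ₐ[ℂ] R) =
      Ideal.span {P | ∃ i : Fin n, (i : ℕ) < k ∧ P = MvPolynomial.X i}) :
    ∃ g : Fin k → R, ARed_U K q g := by
  have hq : q ≠ ⊥ := fun h => π.ind.ne_zero ⟨0, by omega⟩ (by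
    have := h2 ⟨0, by omega⟩ hk0
    rwa [h] at this)
  obtain ⟨r, hr⟩ := ARed_span π q (fun i => (i : ℕ) < k) h2
  have hc : Fintype.card {i : Fin n // (i : ℕ) < k} ≤ k := by
    refine (Fintype.card_le_of_injective
      (fun i : {i : Fin n // (i : ℕ) < k} => (⟨i.1, i.2⟩ : Fin k)) ?_).trans (Fintype.card_fin k).le
    intro i j h
    exact Subtype.ext (Fin.ext (congrArg Fin.val h :))
  obtain ⟨l, z, hz⟩ := ARed_start K q hq k
  induction l with
  | zero => exact ⟨z, hz⟩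
  | succ l ih =>
    obtain ⟨ι, S, e, b, d, a1, a2, a3, a4, a5⟩ :=
      ARed_rel _ q (m := k + l) (hc.trans (Nat.le_add_right _ _)) hr z hz.1
    obtain ⟨c, c1, c2⟩ := ARed_pt a1 a3
    exact ih _ (ARed_down (m := k + l) hz (c1 0) a4 a5 fun h => c2 (ARed_cap π q h3
      (sum_mem fun β _ => mul_mem (a2 β) (prod_mem fun i _ =>
        pow_mem (Subalgebra.algebraMap_mem _ _) _)) h))

/-- a projection adapted to `q` whose first `k` coordinates are a reduction of `q` -/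
theorem exists_red_adapted (K : Type) [Field K] [Algebra R K] [IsFractionRing R K] [Algebra ℂ K]
    [IsScalarTower ℂ R K] (h : Algebra.trdeg ℂ R = n) (x : Pt R) (q : Ideal R) [q.IsPrime]
    (hq : q ≤ x.m) {k : ℕ} (hk0 : 0 < k) (hk : k ≤ n)
    (hd : Algebra.trdeg ℂ (R ⧸ q) = (n - k : ℕ)) :
    ∃ π : Proj R n, (∀ i, π.y i ∈ x.m) ∧ IsRed K q (fun i : Fin k => π.y (Fin.castLE hk i)) ∧
      q.comap (MvPolynomial.aeval π.y : MvPolynomial (Fin n) ℂ →ₐ[ℂ] R) =
        Ideal.span {P | ∃ i : Fin n, (i : ℕ) < k ∧ P = MvPolynomial.X i} := by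
  classical
  obtain ⟨π, h1, h2, h3⟩ := exists_proj_adapted h x q hq hk hd
  obtain ⟨g, hg⟩ := ARed_exists K π q hk0 hk h2 h3
  obtain ⟨M₀, hM⟩ := π.pert fun i => if h : (i : ℕ) < k then g ⟨i, h⟩ else 0
  obtain ⟨π', hπ⟩ := hM (M₀ + 2) (by omega)
  have e : ∀ i : Fin k, π'.y (Fin.castLE hk i) = g i + π.y (Fin.castLE hk i) ^ (M₀ + 2) := by
    intro i
    rw [hπ, dif_pos (show ((Fin.castLE hk i : Fin n) : ℕ) < k from i.2)]
    rfl
  have hy : ∀ i : Fin k, π.y (Fin.castLE hk i) ∈ q := fun i => h2 _ i.2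
  have hq' : ∀ i : Fin k, π'.y (Fin.castLE hk i) ∈ q := fun i => by
    rw [e]
    exact q.add_mem (hg.1 i) (q.pow_mem_of_mem (hy i) _ (by omega))
  refine ⟨π', fun i => ?_, ⟨hq', fun w hw r hr => ?_⟩, ?_⟩
  · rw [hπ]
    refine x.m.add_mem ?_ (x.m.pow_mem_of_mem (h1 i) _ (by omega))
    split_ifs
    · exact hq (hg.1 _)
    · exact x.m.zero_mem
  · obtain ⟨i, i1, i2⟩ := hg.2 w hw
    have t0 := (hw.2 _ i1).2 (hg.1 i)
    have k := w.v_add_of_lt i1 ((i2 _ (hy i)).pow (M₀ + 2)) (by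
      push_cast
      nlinarith [mul_nonneg (Nat.cast_nonneg (α := ℝ) M₀) t0.le])
    refine ⟨i, ?_⟩
    simp only [e]
    rw [map_add, map_pow, k.2]
    exact ⟨k.1, i2 r hr⟩
  · have a1 := td_comap _ π.fin.to_isIntegral q
    have a2 := td_comap _ π'.fin.to_isIntegral q
    rw [← h3]
    by_contra hne
    have hle : q.comap (MvPolynomial.aeval π.y : MvPolynomial (Fin n) ℂ →ₐ[ℂ] R) ≤
        q.comap (MvPolynomial.aeval π'.y : MvPolynomial (Fin n) ℂ →ₐ[ℂ] R) := by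
      rw [h3, Ideal.span_le]
      rintro _ ⟨i, hi, rfl⟩
      show MvPolynomial.aeval π'.y (MvPolynomial.X i) ∈ q
      rw [MvPolynomial.aeval_X]
      exact hq' ⟨i, hi⟩
    have := td_lt (lt_of_le_of_ne hle (Ne.symm hne))
    rw [a1, a2] at this
    exact lt_irrefl _ this

theorem exists_red (K : Type) [Field K] [Algebra R K] [IsFractionRing R K] [Algebra ℂ K]
    [IsScalarTower ℂ R K] (hn : 0 < n) (h : Algebra.trdeg ℂ R = n) (x : Pt R) :
    ∃ π : Proj R n, IsRed K x.m π.y := by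
  obtain ⟨π, -, h2, -⟩ := exists_red_adapted K h x x.m le_rfl hn le_rfl (by
    rw [td_pt, Nat.sub_self, Nat.cast_zero])
  exact ⟨π, h2⟩

end Vale.Agent.P282
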