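import Vale.Agent.P282.ATd0

set_option linter.unusedSectionVars false

open scoped ENNReal TensorProduct Topology
open Filter MeasureTheory

noncomputable section

namespace Vale.Agent.P282

section Aux

open Polynomial in
/-- the top coefficient of a product of linear polynomials -/
theorem ATd_prod {σ B : Type} [CommRing B] (w x : σ → B) (s : σ → ℕ) (t : Finset σ) :
    (∏ i ∈ t, (C (w i) + C (x i) * X) ^ s i).natDegree ≤ ∑ i ∈ t, s i ∧
      (∏ i ∈ t, (C (w i) + C (x i) * X) ^ s i).coeff (∑ i ∈ t, s i) = ∏ i ∈ t, x i ^ s i := by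
  classical
  induction t using Finset.induction_on with
  | empty => simp
  | insert a t ha ih =>
    have h1 : (C (w a) + C (x a) * X).natDegree ≤ 1 := by
      rw [add_comm]; exact natDegree_linear_le
    have h2 : ((C (w a) + C (x a) * X) ^ s a).natDegree ≤ s a := by
      simpa using natDegree_pow_le_of_le (s a) h1
    have h3 : ((C (w a) + C (x a) * X) ^ s a).coeff (s a) = x a ^ s a := by
      have := coeff_pow_of_natDegree_le (m := s a) h1
      rw [mul_one] at this
      rw [this]; simp [coeff_C]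
    rw [Finset.prod_insert ha, Finset.sum_insert ha, Finset.prod_insert ha]
    exact ⟨natDegree_mul_le.trans (add_le_add h2 ih.1),
      by rw [coeff_mul_add_eq_of_natDegree_le h2 ih.1, h3, ih.2]⟩

open Polynomial in
/-- the top coefficient after a linear substitution -/
theorem ATd_top {σ B : Type} [CommRing B] [Algebra ℂ B] (w : σ → B) (x : σ → ℂ)
    (f : MvPolynomial σ ℂ) :
    (MvPolynomial.aeval (fun i => C (w i) + C (algebraMap ℂ B (x i)) * X) f : B[X]).natDegree ≤
      f.totalDegree ∧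
    (MvPolynomial.aeval (fun i => C (w i) + C (algebraMap ℂ B (x i)) * X) f : B[X]).coeff
      f.totalDegree = algebraMap ℂ B
        (MvPolynomial.eval x (MvPolynomial.homogeneousComponent f.totalDegree f)) := by
  have hm : ∀ (s : σ →₀ ℕ) (a : ℂ),
      (MvPolynomial.aeval (fun i => C (w i) + C (algebraMap ℂ B (x i)) * X)
        (MvPolynomial.monomial s a) : B[X]).natDegree ≤ s.degree ∧
      (MvPolynomial.aeval (fun i => C (w i) + C (algebraMap ℂ B (x i)) * X)
        (MvPolynomial.monomial s a) : B[X]).coeff s.degree =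
        algebraMap ℂ B (MvPolynomial.eval x (MvPolynomial.monomial s a)) := by
    intro s a
    obtain ⟨h1, h2⟩ := ATd_prod w (fun i => algebraMap ℂ B (x i)) s s.support
    rw [MvPolynomial.aeval_monomial, MvPolynomial.eval_monomial, Polynomial.algebraMap_apply]
    refine ⟨(natDegree_C_mul_le _ _).trans h1, ?_⟩
    rw [coeff_C_mul, map_mul, Finsupp.prod, Finsupp.prod, map_prod]
    simp only [map_pow]
    exact congrArg _ h2
  have hd : ∀ s ∈ f.support, s.degree ≤ f.totalDegree := fun s hs => MvPolynomial.le_totalDegree hs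
  rw [MvPolynomial.homogeneousComponent_apply]
  generalize f.totalDegree = d at hd
  constructor
  · rw [f.as_sum, map_sum]
    exact natDegree_sum_le_of_forall_le _ _ fun s hs => (hm s _).1.trans (hd s hs)
  · conv_lhs => rw [f.as_sum, map_sum]
    rw [finsetSum_coeff, Finset.sum_filter, map_sum, map_sum]
    refine Finset.sum_congr rfl fun s hs => ?_
    split_ifs with h
    · rw [← h]; exact (hm s _).2
    · rw [map_zero, map_zero]
      exact coeff_eq_zero_of_natDegree_lt ((hm s _).1.trans_lt (lt_of_le_of_ne (hd s hs) h))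

theorem ATd_pt {σ : Type} {f : MvPolynomial σ ℂ} (hf : f ≠ 0) (i : σ) : ∃ x : σ → ℂ, x i ≠ 0 ∧
    MvPolynomial.eval x (MvPolynomial.homogeneousComponent f.totalDegree f) ≠ 0 := by
  have h1 : MvPolynomial.homogeneousComponent f.totalDegree f ≠ 0 := by
    obtain ⟨s, hs, e⟩ := Finset.exists_mem_eq_sup f.support (MvPolynomial.support_nonempty.2 hf)
      fun s => s.sum fun _ e => e
    intro h
    have h2 := MvPolynomial.coeff_homogeneousComponent f.totalDegree f s
    rw [h, if_pos (show s.degree = f.totalDegree from e.symm)] at h2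
    exact MvPolynomial.mem_support_iff.1 hs h2.symm
  by_contra h
  refine mul_ne_zero (MvPolynomial.X_ne_zero (R := ℂ) i) h1 (MvPolynomial.funext fun x => ?_)
  rw [map_mul, MvPolynomial.eval_X, map_zero]
  by_contra h2
  exact h ⟨x, left_ne_zero_of_mul h2, right_ne_zero_of_mul h2⟩

variable {R : Type} [CommRing R] [Algebra ℂ R]

/-- elimination of one variable -/
theorem ATd_elim {σ : Type} (u : σ → R) (hu : ¬ AlgebraicIndependent ℂ u) (i₀ : σ) :
    ∃ (x : σ → ℂ) (a : ℂ), u i₀ - x i₀ • (a • u i₀) = 0 ∧ ∀ B : Subalgebra ℂ R,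
      (∀ i, u i - x i • (a • u i₀) ∈ B) → ∀ i, IsIntegral B (u i) := by
  rw [algebraicIndependent_iff] at hu
  push Not at hu
  obtain ⟨f, hf, hf0⟩ := hu
  obtain ⟨x, hx, hx'⟩ := ATd_pt hf0 i₀
  refine ⟨x, (x i₀)⁻¹, by rw [smul_smul, mul_inv_cancel₀ hx, one_smul, sub_self], fun B hB => ?_⟩
  generalize (x i₀)⁻¹ • u i₀ = t at hB
  obtain ⟨h1, h2⟩ := ATd_top (B := B) (fun i => ⟨_, hB i⟩) x f
  generalize MvPolynomial.eval x (MvPolynomial.homogeneousComponent f.totalDegree f) = c at hx' h2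
  have h3 : Polynomial.aeval t (MvPolynomial.aeval (fun i => Polynomial.C (⟨_, hB i⟩ : B) +
      Polynomial.C (algebraMap ℂ B (x i)) * Polynomial.X) f : Polynomial B) = 0 := by
    rw [← hf]
    refine (MvPolynomial.comp_aeval_apply _ ((Polynomial.aeval t).restrictScalars ℂ) f).trans ?_
    refine congrArg (fun y : σ → R => MvPolynomial.aeval y f) (funext fun i => ?_)
    simp [Algebra.smul_def]
  have ht : IsIntegral B t := by
    refine ⟨Polynomial.C (algebraMap ℂ B c⁻¹) * _, Polynomial.monic_of_natDegree_le_of_coeff_eq_one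
      f.totalDegree ((Polynomial.natDegree_C_mul_le _ _).trans h1) ?_, ?_⟩
    · rw [Polynomial.coeff_C_mul, h2, ← map_mul, inv_mul_cancel₀ hx', map_one]
    · rw [← Polynomial.aeval_def, map_mul, h3, mul_zero]
  intro i
  have e : u i = algebraMap B R ⟨_, hB i⟩ + algebraMap B R (algebraMap ℂ B (x i)) * t := by
    simp [Algebra.smul_def]
  rw [e]
  exact isIntegral_algebraMap.add (isIntegral_algebraMap.mul ht)

theorem ATd_map {S : Type} [CommRing S] [Algebra ℂ S] (φ : R →ₐ[ℂ] S) {s : Set R}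
    {B : Subalgebra ℂ S} (h : ∀ a ∈ s, IsIntegral B (φ a)) {r : R}
    (hr : IsIntegral (Algebra.adjoin ℂ s) r) : IsIntegral B (φ r) := by
  have h1 : Algebra.adjoin ℂ s ≤ ((integralClosure B S).restrictScalars ℂ).comap φ :=
    Algebra.adjoin_le fun a ha => h a ha
  let ψ : Algebra.adjoin ℂ s →+* integralClosure B S :=
    ((φ : R →+* S).comp (Algebra.adjoin ℂ s).val.toRingHom).codRestrict
      (integralClosure B S).toSubring fun a => h1 a.2
  exact isIntegral_trans (A := integralClosure B S) _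
    (IsIntegral.map_of_comp_eq ψ (φ : R →+* S) (RingHom.ext fun _ => rfl) hr)

theorem ATd_mem {B : Subalgebra ℂ R} {r : R} (h : r ∈ B) : IsIntegral B r :=
  isIntegral_algebraMap (x := (⟨r, h⟩ : B))

theorem ATd_int {σ : Type} {y : σ → R}
    (h : (MvPolynomial.aeval y : MvPolynomial σ ℂ →ₐ[ℂ] R).Finite) (r : R) :
    IsIntegral (Algebra.adjoin ℂ (Set.range y)) r := by
  obtain ⟨p, hp, h0⟩ := RingHom.Finite.to_isIntegral h r
  let ψ : MvPolynomial σ ℂ →+* Algebra.adjoin ℂ (Set.range y) :=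
    (MvPolynomial.aeval y : MvPolynomial σ ℂ →ₐ[ℂ] R).toRingHom.codRestrict
      (Algebra.adjoin ℂ (Set.range y)).toSubring fun a => by
        rw [Algebra.adjoin_range_eq_range_aeval]; exact ⟨a, rfl⟩
  exact ⟨p.map ψ, hp.map ψ, by rw [Polynomial.eval₂_map]; exact h0⟩

theorem ATd_fin [Algebra.FiniteType ℂ R] {σ : Type} {y : σ → R}
    (h : ∀ r : R, IsIntegral (Algebra.adjoin ℂ (Set.range y)) r) :
    (MvPolynomial.aeval y : MvPolynomial σ ℂ →ₐ[ℂ] R).Finite := by
  refine RingHom.IsIntegral.to_finite ?_ ?_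
  · let ψ : MvPolynomial σ ℂ →+* Algebra.adjoin ℂ (Set.range y) :=
      (MvPolynomial.aeval y : MvPolynomial σ ℂ →ₐ[ℂ] R).toRingHom.codRestrict
        (Algebra.adjoin ℂ (Set.range y)).toSubring fun a => by
          rw [Algebra.adjoin_range_eq_range_aeval]; exact ⟨a, rfl⟩
    have hψ : Function.Surjective ψ := by
      rintro ⟨a, ha⟩
      rw [Algebra.adjoin_range_eq_range_aeval] at ha
      obtain ⟨P, rfl⟩ := ha
      exact ⟨P, rfl⟩
    exact RingHom.IsIntegral.trans ψ (algebraMap _ R) (RingHom.isIntegral_of_surjective ψ hψ) h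
  · refine RingHom.FiniteType.of_comp_finiteType (f := algebraMap ℂ (MvPolynomial σ ℂ)) ?_
    rw [AlgHom.toRingHom_eq_coe, AlgHom.comp_algebraMap]
    exact RingHom.finiteType_algebraMap.2 inferInstance

/-- `m` elements of `q` and `d` other elements over which the ring is integral -/
def ATd_P (q : Ideal R) (d m : ℕ) : Prop :=
  ∃ (w : Fin m → R) (z : Fin d → R), (∀ i, w i ∈ q) ∧
    ∀ r : R, IsIntegral (Algebra.adjoin ℂ (Set.range w ∪ Set.range z)) r

theorem ATd_step {q : Ideal R} {d m : ℕ} (h : Algebra.trdeg ℂ R ≤ (m + d : ℕ))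
    (H : ATd_P q d (m + 1)) : ATd_P q d m := by
  obtain ⟨w, z, hw, hr⟩ := H
  have hu : ¬ AlgebraicIndependent ℂ (Sum.elim w z) := fun hu => by
    have h1 := hu.cardinalMk_le_trdeg.trans h
    rw [Cardinal.mk_fintype, Nat.cast_le, Fintype.card_sum, Fintype.card_fin,
      Fintype.card_fin] at h1
    omega
  obtain ⟨x, a, h0, hB⟩ := ATd_elim _ hu (Sum.inl 0)
  rw [Sum.elim_inl] at h0 hB
  refine ⟨fun i => w i.succ - x (.inl i.succ) • (a • w 0), fun j => z j - x (.inr j) • (a • w 0),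
    fun i => q.sub_mem (hw _) (Submodule.smul_of_tower_mem _ _
      (Submodule.smul_of_tower_mem _ _ (hw 0))), fun r => ?_⟩
  have h1 := hB (Algebra.adjoin ℂ
    (Set.range (fun i : Fin m => w i.succ - x (.inl i.succ) • (a • w 0)) ∪
      Set.range fun j => z j - x (.inr j) • (a • w 0))) (by
    rintro (i | j)
    · refine Fin.cases ?_ (fun i => ?_) i
      · rw [Sum.elim_inl, h0]; exact zero_mem _
      · exact Algebra.subset_adjoin (Or.inl ⟨i, rfl⟩)
    · exact Algebra.subset_adjoin (Or.inr ⟨j, rfl⟩))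
  refine ATd_map (AlgHom.id ℂ R) ?_ (hr r)
  rintro _ (⟨i, rfl⟩ | ⟨j, rfl⟩)
  · exact h1 (.inl i)
  · exact h1 (.inr j)

theorem ATd_start {q : Ideal R} {d m : ℕ} (π : Proj R m) (π' : Proj (R ⧸ q) d) (hq : q ≠ ⊤) :
    ATd_P q d m := by
  have : Nontrivial (R ⧸ q) := Ideal.Quotient.nontrivial_iff.2 hq
  choose z hz using fun j => Ideal.Quotient.mk_surjective (π'.y j)
  choose p hp h0 using fun i => RingHom.Finite.to_isIntegral π'.fin (Ideal.Quotient.mk q (π.y i))
  have e : (Ideal.Quotient.mk q).comp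
      (MvPolynomial.aeval z : MvPolynomial (Fin d) ℂ →ₐ[ℂ] R).toRingHom =
      (MvPolynomial.aeval π'.y : MvPolynomial (Fin d) ℂ →ₐ[ℂ] R ⧸ q).toRingHom := by
    refine RingHom.ext fun P => ?_
    refine (MvPolynomial.comp_aeval_apply _ (Ideal.Quotient.mkₐ ℂ q) P).trans ?_
    exact congrArg (fun y : Fin d → R ⧸ q => MvPolynomial.aeval y P) (funext hz)
  refine ⟨fun i => (p i).eval₂
    (MvPolynomial.aeval z : MvPolynomial (Fin d) ℂ →ₐ[ℂ] R).toRingHom (π.y i), z, fun i => ?_,
    fun r => ATd_map (AlgHom.id ℂ R) ?_ (ATd_int π.fin r)⟩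
  · rw [← Ideal.Quotient.eq_zero_iff_mem, Polynomial.hom_eval₂, e]
    exact h0 i
  · rintro _ ⟨i, rfl⟩
    generalize hB : Algebra.adjoin ℂ (Set.range (fun i => (p i).eval₂
      (MvPolynomial.aeval z : MvPolynomial (Fin d) ℂ →ₐ[ℂ] R).toRingHom (π.y i)) ∪
        Set.range z) = B
    have h1 : Algebra.adjoin ℂ (Set.range z) ≤ B := hB ▸ Algebra.adjoin_mono Set.subset_union_right
    have h2 : (p i).eval₂ (MvPolynomial.aeval z : MvPolynomial (Fin d) ℂ →ₐ[ℂ] R).toRingHom
      (π.y i) ∈ B := hB ▸ Algebra.subset_adjoin (Or.inl ⟨i, rfl⟩)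
    let ψ : MvPolynomial (Fin d) ℂ →+* B :=
      (MvPolynomial.aeval z : MvPolynomial (Fin d) ℂ →ₐ[ℂ] R).toRingHom.codRestrict
        B.toSubring fun a => h1 (by rw [Algebra.adjoin_range_eq_range_aeval]; exact ⟨a, rfl⟩)
    have h3 : (p i).natDegree ≠ 0 := fun h => by
      have h4 := h0 i
      rw [(hp i).natDegree_eq_zero.1 h, Polynomial.eval₂_one] at h4
      exact one_ne_zero h4
    rcases subsingleton_or_nontrivial B with hs | hs
    · exact ⟨1, Polynomial.monic_one, by
        rw [Polynomial.eval₂_one, ← map_one (algebraMap B R), Subsingleton.elim (1 : B) 0, map_zero]⟩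
    refine IsIntegral.of_aeval_monic ((hp i).map ψ) (by rwa [(hp i).natDegree_map]) ?_
    rw [Polynomial.aeval_def, Polynomial.eval₂_map]
    exact ATd_mem h2

end Aux

variable {R K : Type} [CommRing R] [IsDomain R] [Algebra ℂ R] [Algebra.FiniteType ℂ R]
  [IsIntegrallyClosed R] [Field K] [Algebra R K] [IsFractionRing R K] [Algebra ℂ K]
  [IsScalarTower ℂ R K] {n : ℕ}

omit [IsIntegrallyClosed R] in
/-- Noether normalization adapted to a prime `q` of codimension `k` inside a point -/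
theorem exists_proj_adapted (h : Algebra.trdeg ℂ R = n) (x : Pt R) (q : Ideal R) [q.IsPrime]
    (hq : q ≤ x.m) {k : ℕ} (hk : k ≤ n) (hd : Algebra.trdeg ℂ (R ⧸ q) = (n - k : ℕ)) :
    ∃ π : Proj R n, (∀ i, π.y i ∈ x.m) ∧ (∀ i : Fin n, (i : ℕ) < k → π.y i ∈ q) ∧
      q.comap (MvPolynomial.aeval π.y : MvPolynomial (Fin n) ℂ →ₐ[ℂ] R) =
        Ideal.span {P | ∃ i : Fin n, (i : ℕ) < k ∧ P = MvPolynomial.X i} := by
  obtain ⟨d, rfl⟩ := Nat.exists_eq_add_of_le hk
  rw [Nat.add_sub_cancel_left] at hd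
  obtain ⟨π₀⟩ := exists_proj' h
  obtain ⟨π₁⟩ := exists_proj' hd
  have hP : ∀ j, ATd_P q d (k + j) → ATd_P q d k := fun j => by
    induction j with
    | zero => exact id
    | succ j ih => exact fun H => ih (ATd_step (h.le.trans (Nat.cast_le.2 (by omega))) H)
  obtain ⟨w, z₀, hw, hr⟩ := hP d (ATd_start π₀ π₁ Ideal.IsPrime.ne_top')
  obtain ⟨z, hz⟩ : ∃ z : Fin d → R, ∀ j, z j = z₀ j - algebraMap ℂ R (x (z₀ j)) :=
    ⟨_, fun _ => rfl⟩
  have hint : ∀ r : R, IsIntegral (Algebra.adjoin ℂ (Set.range (Fin.append w z))) r := fun r => by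
    refine ATd_map (AlgHom.id ℂ R) ?_ (hr r)
    rintro _ (⟨i, rfl⟩ | ⟨j, rfl⟩)
    · exact ATd_mem (Algebra.subset_adjoin ⟨Fin.castAdd d i, Fin.append_left _ _ _⟩)
    · refine ATd_mem ?_
      rw [AlgHom.id_apply, ← sub_add_cancel (z₀ j) (algebraMap ℂ R (x (z₀ j))), ← hz]
      exact add_mem (Algebra.subset_adjoin ⟨Fin.natAdd k j, Fin.append_right _ _ _⟩)
        (Subalgebra.algebraMap_mem _ _)
  have hind : AlgebraicIndependent ℂ fun j => Ideal.Quotient.mkₐ ℂ q (z j) := by
    refine ind_of_fin hd _ (ATd_fin fun r => ?_)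
    obtain ⟨r, rfl⟩ := Ideal.Quotient.mkₐ_surjective ℂ q r
    refine ATd_map (Ideal.Quotient.mkₐ ℂ q) ?_ (hint r)
    rintro _ ⟨i, rfl⟩
    refine ATd_mem (Fin.addCases (fun i => ?_) (fun j => ?_) i)
    · rw [Fin.append_left, Ideal.Quotient.mkₐ_eq_mk, Ideal.Quotient.eq_zero_iff_mem.2 (hw i)]
      exact zero_mem _
    · rw [Fin.append_right]
      exact Algebra.subset_adjoin ⟨j, rfl⟩
  have hq' : ∀ i : Fin (k + d), (i : ℕ) < k → Fin.append w z i ∈ q := fun i =>
    Fin.addCases (fun i _ => by rw [Fin.append_left]; exact hw i)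
      (fun j hj => absurd hj (by simp)) i
  refine ⟨⟨Fin.append w z, ind_of_fin h _ (ATd_fin hint), ATd_fin hint⟩, fun i => ?_, hq', ?_⟩
  · refine Fin.addCases (fun i => ?_) (fun j => ?_) i
    · exact hq (hq' _ (by simp))
    · show Fin.append w z (Fin.natAdd k j) ∈ x.m
      rw [Fin.append_right, hz, Pt.mem_m, map_sub, AlgHomClass.commutes]
      exact sub_self _
  refine le_antisymm (fun P hP => ?_) (Ideal.span_le.2 ?_)
  swap
  · rintro _ ⟨i, hi, rfl⟩
    show MvPolynomial.aeval (Fin.append w z) (MvPolynomial.X i) ∈ q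
    rw [MvPolynomial.aeval_X]
    exact hq' i hi
  generalize hI : Ideal.span {P : MvPolynomial (Fin (k + d)) ℂ |
    ∃ i : Fin (k + d), (i : ℕ) < k ∧ P = MvPolynomial.X i} = I
  let φ : MvPolynomial (Fin (k + d)) ℂ →ₐ[ℂ] MvPolynomial (Fin d) ℂ :=
    MvPolynomial.aeval (Fin.append (fun _ : Fin k => 0) MvPolynomial.X)
  have e1 : (MvPolynomial.aeval fun j => Ideal.Quotient.mkₐ ℂ q (z j)).comp φ =
      (Ideal.Quotient.mkₐ ℂ q).comp (MvPolynomial.aeval (Fin.append w z)) := by
    refine MvPolynomial.algHom_ext fun i => Fin.addCases (fun i => ?_) (fun j => ?_) i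
    · simp [φ, Ideal.Quotient.eq_zero_iff_mem.2 (hw i)]
    · simp [φ]
  have e2 : (MvPolynomial.aeval fun j => Ideal.Quotient.mkₐ ℂ I
      (MvPolynomial.X (Fin.natAdd k j))).comp φ = Ideal.Quotient.mkₐ ℂ I := by
    refine MvPolynomial.algHom_ext fun i => Fin.addCases (fun i => ?_) (fun j => ?_) i
    · have : MvPolynomial.X (Fin.castAdd d i) ∈ I := hI ▸ Ideal.subset_span ⟨_, by simp, rfl⟩
      simp [φ, Ideal.Quotient.eq_zero_iff_mem.2 this]
    · simp [φ]
  have h0 : φ P = 0 := by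
    refine algebraicIndependent_iff.1 hind _ ?_
    rw [← AlgHom.comp_apply, e1]
    exact Ideal.Quotient.eq_zero_iff_mem.2 hP
  rw [← Ideal.Quotient.eq_zero_iff_mem, ← Ideal.Quotient.mkₐ_eq_mk ℂ, ← e2, AlgHom.comp_apply, h0,
    map_zero]

end Vale.Agent.P282
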