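import Vale.Agent.P282.AProj

set_option linter.unusedSectionVars false

open scoped ENNReal TensorProduct Topology
open Filter MeasureTheory

noncomputable section

namespace Vale.Agent.P282

variable {R K : Type} [CommRing R] [IsDomain R] [Algebra ℂ R] [Algebra.FiniteType ℂ R]
  [IsIntegrallyClosed R] [Field K] [Algebra R K] [IsFractionRing R K] [Algebra ℂ K]
  [IsScalarTower ℂ R K] {n : ℕ}

theorem ATd0_lt {A B : Type} [CommRing A] [IsDomain A] [Algebra ℂ A] [CommRing B] [IsDomain B]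
    [Algebra ℂ B] [Algebra.FiniteType ℂ B] (f : A →ₐ[ℂ] B) (hf : Function.Surjective f) {a : A}
    (ha : a ≠ 0) (hfa : f a = 0) : Algebra.trdeg ℂ B < Algebra.trdeg ℂ A := by
  obtain ⟨ι, s, hs⟩ := exists_isTranscendenceBasis' ℂ B
  choose t ht using fun i => hf (s i)
  have hft : f ∘ t = s := funext ht
  have hti : AlgebraicIndependent ℂ t := AlgebraicIndependent.of_comp f (hft ▸ hs.1)
  have htr : Transcendental (Algebra.adjoin ℂ (Set.range t)) a := by
    intro halg
    obtain ⟨r, hr, hdvd⟩ := halg.exists_nonzero_dvd (mem_nonZeroDivisors_of_ne_zero ha)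
    obtain ⟨r, hr'⟩ := r
    have hr2 := hr'
    rw [Algebra.adjoin_range_eq_range_aeval] at hr2
    obtain ⟨F, hF⟩ := hr2
    have hF' : MvPolynomial.aeval t F = r := hF
    obtain ⟨c, hc⟩ := hdvd
    have hc' : r = a * c := hc
    have h0 : MvPolynomial.aeval s F = 0 := by
      have h1 : MvPolynomial.aeval s F = f (MvPolynomial.aeval t F) := by
        rw [MvPolynomial.comp_aeval_apply]
        simp only [ht]
      rw [h1, hF', hc', map_mul, hfa, zero_mul]
    have hF0 : F = 0 := algebraicIndependent_iff.1 hs.1 F h0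
    apply hr
    apply Subtype.ext
    change r = 0
    rw [← hF', hF0, map_zero]
  have hopt := (hti.option_iff_transcendental a).2 htr
  have hle := hopt.cardinalMk_le_trdeg
  rw [Cardinal.mk_option, hs.cardinalMk_eq_trdeg] at hle
  have hfin : Algebra.trdeg ℂ B < Cardinal.aleph0 := trdeg_lt_aleph0_of_finiteType
  obtain ⟨m, hm⟩ := Cardinal.lt_aleph0.1 hfin
  refine lt_of_lt_of_le ?_ hle
  rw [hm]
  exact_mod_cast Nat.lt_succ_self m

theorem ATd0_int {A B : Type} [CommRing A] [Algebra ℂ A] [CommRing B] [IsDomain B]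
    [Algebra ℂ B] (f : A →ₐ[ℂ] B) (hf : Function.Injective f) (hi : f.toRingHom.IsIntegral) :
    Algebra.trdeg ℂ A = Algebra.trdeg ℂ B := by
  let : Algebra A B := f.toRingHom.toAlgebra
  have : IsScalarTower ℂ A B := IsScalarTower.of_algebraMap_eq fun c => (f.commutes c).symm
  have : IsDomain A := hf.isDomain f.toRingHom
  have : FaithfulSMul A B := (faithfulSMul_iff_algebraMap_injective A B).2 hf
  have : Algebra.IsIntegral A B := ⟨hi⟩
  have h := trdeg_add_eq ℂ A (A := B)
  have h0 : Algebra.trdeg A B = 0 := trdeg_eq_zero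
  rw [h0, add_zero] at h
  exact h

theorem ATd0_comap {R S : Type} [CommRing R] [Algebra ℂ R] [CommRing S] [Algebra ℂ S]
    (φ : S →ₐ[ℂ] R) (hφ : φ.toRingHom.IsIntegral) (p : Ideal R) [p.IsPrime] :
    Algebra.trdeg ℂ (S ⧸ p.comap φ) = Algebra.trdeg ℂ (R ⧸ p) := by
  refine ATd0_int (Ideal.quotientMapₐ p φ le_rfl) ?_ ?_
  · exact Ideal.quotientMap_injective (f := φ.toRingHom)
  · exact RingHom.IsIntegral.quotient φ.toRingHom hφ

theorem ATd0_lt' {R : Type} [CommRing R] [Algebra ℂ R] [Algebra.FiniteType ℂ R]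
    {p q : Ideal R} [p.IsPrime] [q.IsPrime] (h : p < q) :
    Algebra.trdeg ℂ (R ⧸ q) < Algebra.trdeg ℂ (R ⧸ p) := by
  obtain ⟨a, haq, hap⟩ := SetLike.exists_of_lt h
  refine ATd0_lt (Ideal.Quotient.factorₐ ℂ h.le) (Ideal.Quotient.factor_surjective h.le)
    (a := Ideal.Quotient.mk p a) ?_ ?_
  · rwa [Ne, Ideal.Quotient.eq_zero_iff_mem]
  · change Ideal.Quotient.mk q a = 0
    rwa [Ideal.Quotient.eq_zero_iff_mem]

theorem ATd0_ne_bot {R : Type} [CommRing R] [IsDomain R] [Algebra ℂ R] [Algebra.FiniteType ℂ R]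
    {p : Ideal R} [p.IsPrime] (h : p ≠ ⊥) :
    Algebra.trdeg ℂ (R ⧸ p) < Algebra.trdeg ℂ R := by
  obtain ⟨a, hap, ha⟩ := Submodule.exists_mem_ne_zero_of_ne_bot h
  refine ATd0_lt (Ideal.Quotient.mkₐ ℂ p) (Ideal.Quotient.mkₐ_surjective ℂ p) ha ?_
  change Ideal.Quotient.mk p a = 0
  rwa [Ideal.Quotient.eq_zero_iff_mem]

theorem ATd0_hyp {n : ℕ} {Q : MvPolynomial (Fin (n + 1)) ℂ} (hQ : Prime Q) :
    Algebra.trdeg ℂ (MvPolynomial (Fin (n + 1)) ℂ ⧸ Ideal.span {Q}) = n := by
  have : (Ideal.span {Q}).IsPrime := (Ideal.span_singleton_prime hQ.ne_zero).2 hQ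
  apply le_antisymm
  · have h := ATd0_ne_bot (p := Ideal.span {Q}) (by
      rw [Ne, Ideal.span_singleton_eq_bot]; exact hQ.ne_zero)
    rw [MvPolynomial.trdeg_of_isDomain, Cardinal.lift_id, Cardinal.mk_fin, Nat.cast_succ,
      ← Cardinal.succ_natCast, Order.lt_succ_iff] at h
    exact h
  · have hv : Q.vars.Nonempty := by
      rw [Finset.nonempty_iff_ne_empty, Ne, MvPolynomial.vars_eq_empty_iff_eq_C]
      intro hC
      apply hQ.not_isUnit
      have h0 : Q.coeff 0 ≠ 0 := by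
        intro h0
        apply hQ.ne_zero
        rw [hC, h0, map_zero]
      rw [hC]
      exact (IsUnit.mk0 _ h0).map MvPolynomial.C
    obtain ⟨i, hi⟩ := hv
    have hind : AlgebraicIndependent ℂ fun j : Fin n =>
        Ideal.Quotient.mkₐ ℂ (Ideal.span {Q}) (MvPolynomial.X (i.succAbove j)) := by
      rw [algebraicIndependent_iff]
      intro F hF
      have h1 : MvPolynomial.aeval (fun j : Fin n =>
          Ideal.Quotient.mkₐ ℂ (Ideal.span {Q}) (MvPolynomial.X (i.succAbove j))) F =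
          Ideal.Quotient.mkₐ ℂ (Ideal.span {Q}) (MvPolynomial.rename i.succAbove F) := by
        have : MvPolynomial.aeval (fun j : Fin n =>
          Ideal.Quotient.mkₐ ℂ (Ideal.span {Q}) (MvPolynomial.X (i.succAbove j))) =
          (Ideal.Quotient.mkₐ ℂ (Ideal.span {Q})).comp (MvPolynomial.rename i.succAbove) := by
          ext j
          simp
        rw [this]
        rfl
      rw [h1] at hF
      have h2 : MvPolynomial.rename i.succAbove F ∈ Ideal.span {Q} :=
        Ideal.Quotient.eq_zero_iff_mem.1 hF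
      obtain ⟨G, hG⟩ := Ideal.mem_span_singleton.1 h2
      by_cases hG0 : G = 0
      · rw [hG0, mul_zero] at hG
        exact MvPolynomial.rename_injective _ Fin.succAbove_right_injective
          (hG.trans (map_zero _).symm)
      · exfalso
        have h3 : i ∈ (MvPolynomial.rename i.succAbove F).vars := by
          rw [MvPolynomial.mem_vars_iff_degreeOf_ne_zero, hG,
            MvPolynomial.degreeOf_mul_eq hQ.ne_zero hG0]
          have := MvPolynomial.mem_vars_iff_degreeOf_ne_zero.1 hi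
          omega
        obtain ⟨j, -, hj⟩ := MvPolynomial.mem_vars_rename _ _ h3
        exact Fin.succAbove_ne i j hj
    have := hind.cardinalMk_le_trdeg
    rwa [Cardinal.mk_fin] at this

theorem ATd0_ht {R : Type} [CommRing R] [IsDomain R] [Algebra ℂ R] [Algebra.FiniteType ℂ R]
    {n : ℕ} (h : Algebra.trdeg ℂ R = (n + 1 : ℕ)) {p : Ideal R} [p.IsPrime] (hp0 : p ≠ ⊥)
    (hp : p.height ≤ 1) : Algebra.trdeg ℂ (R ⧸ p) = n := by
  obtain ⟨π⟩ := exists_proj' h
  have : IsNoetherianRing R := Algebra.FiniteType.isNoetherianRing ℂ R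
  set φ : MvPolynomial (Fin (n + 1)) ℂ →ₐ[ℂ] R := MvPolynomial.aeval π.y with hφ
  have hint : φ.toRingHom.IsIntegral := RingHom.Finite.to_isIntegral π.fin
  have hinj : Function.Injective φ := π.ind
  rw [← ATd0_comap φ hint p]
  let : Algebra (MvPolynomial (Fin (n + 1)) ℂ) R := φ.toRingHom.toAlgebra
  have : FaithfulSMul (MvPolynomial (Fin (n + 1)) ℂ) R :=
    (faithfulSMul_iff_algebraMap_injective _ _).2 hinj
  have : Algebra.IsIntegral (MvPolynomial (Fin (n + 1)) ℂ) R := ⟨hint⟩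
  set P : Ideal (MvPolynomial (Fin (n + 1)) ℂ) := p.comap φ with hP
  have : P.IsPrime := Ideal.comap_isPrime φ p
  have : p.LiesOver P := ⟨rfl⟩
  have hP0 : P ≠ ⊥ := fun h0 => hp0 (Ideal.eq_bot_of_comap_eq_bot h0)
  have hht := Ideal.height_eq_height_add_of_liesOver_of_hasGoingDown P p
  have hP1 : P.height = 1 := by
    apply le_antisymm
    · exact le_trans (hht ▸ le_self_add) hp
    · rw [Order.one_le_iff_ne_zero, Ne, Ideal.height_eq_zero_iff_eq_bot]
      exact hP0
  obtain ⟨Q, hQP, hQ⟩ := Ideal.IsPrime.exists_mem_prime_of_ne_bot ‹P.IsPrime› hP0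
  have hPQ : P = Ideal.span {Q} := P.eq_span_singleton_of_height_eq_one hP1 hQP hQ
  rw [(Ideal.quotientEquivAlgOfEq ℂ hPQ).trdeg_eq]
  exact ATd0_hyp hQ

omit [IsIntegrallyClosed R] in
/-- principal ideal theorem for the transcendence degree -/
theorem td_pit (h : Algebra.trdeg ℂ R = (n + 1 : ℕ)) {g : R} (hg : g ≠ 0) {p : Ideal R}
    (hp : p ∈ (Ideal.span {g}).minimalPrimes) : Algebra.trdeg ℂ (R ⧸ p) = n := by
  have : p.IsPrime := hp.isPrime
  have : IsNoetherianRing R := Algebra.FiniteType.isNoetherianRing ℂ R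
  refine ATd0_ht h ?_ (Ideal.height_le_one_of_isPrincipal_of_mem_minimalPrimes _ p hp)
  intro h0
  have : g ∈ p := hp.le (Ideal.mem_span_singleton_self g)
  rw [h0] at this
  exact hg this

omit [IsIntegrallyClosed R] in
theorem td_lt {p q : Ideal R} [p.IsPrime] [q.IsPrime] (h : p < q) :
    Algebra.trdeg ℂ (R ⧸ q) < Algebra.trdeg ℂ (R ⧸ p) := ATd0_lt' h

omit [IsIntegrallyClosed R] in
theorem height_one_iff (h : Algebra.trdeg ℂ R = (n + 1 : ℕ)) (p : Ideal R) [p.IsPrime] :
    p.height = 1 ↔ Algebra.trdeg ℂ (R ⧸ p) = n := by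
  have : IsNoetherianRing R := Algebra.FiniteType.isNoetherianRing ℂ R
  constructor
  · intro h1
    exact ATd0_ht h (p.ne_bot_of_height_eq_one h1) h1.le
  · intro ht
    have hp0 : p ≠ ⊥ := by
      rintro rfl
      rw [(AlgEquiv.quotientBot ℂ R).trdeg_eq, h] at ht
      have : n + 1 = n := by exact_mod_cast ht
      omega
    obtain ⟨g, hgp, hg⟩ := Submodule.exists_mem_ne_zero_of_ne_bot hp0
    obtain ⟨q, hq, hqp⟩ := Ideal.exists_minimalPrimes_le
      (show Ideal.span {g} ≤ p from (Ideal.span_singleton_le_iff_mem _).2 hgp)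
    have : q.IsPrime := hq.isPrime
    have hqt := td_pit h hg hq
    have hqe : q = p := by
      by_contra hne
      have := td_lt (lt_of_le_of_ne hqp hne)
      rw [hqt, ht] at this
      exact lt_irrefl _ this
    subst hqe
    apply le_antisymm (Ideal.height_le_one_of_isPrincipal_of_mem_minimalPrimes _ q hq)
    rw [Order.one_le_iff_ne_zero, Ne, Ideal.height_eq_zero_iff_eq_bot]
    exact hp0

omit [IsIntegrallyClosed R] in
theorem td_pt (x : Pt R) : Algebra.trdeg ℂ (R ⧸ x.m) = 0 := by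
  have h := trdeg_le_of_injective (Ideal.kerLiftAlg x.hom) (Ideal.kerLiftAlg_injective x.hom)
  have h0 : Algebra.trdeg ℂ ℂ = 0 := trdeg_eq_zero
  rw [h0] at h
  exact le_antisymm h bot_le

omit [IsIntegrallyClosed R] in
theorem td_comap {S : Type} [CommRing S] [Algebra ℂ S] (φ : S →ₐ[ℂ] R) (hφ : φ.toRingHom.IsIntegral)
    (p : Ideal R) [p.IsPrime] :
    Algebra.trdeg ℂ (S ⧸ p.comap φ) = Algebra.trdeg ℂ (R ⧸ p) := ATd0_comap φ hφ p

end Vale.Agent.P282
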