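import Vale.Agent.P282.Base2

set_option linter.unusedSectionVars false

open scoped ENNReal TensorProduct Topology
open Filter MeasureTheory

noncomputable section

namespace Vale.Agent.P282

variable {R K : Type} [CommRing R] [IsDomain R] [Algebra ℂ R] [Algebra.FiniteType ℂ R]
  [IsIntegrallyClosed R] [Field K] [Algebra R K] [IsFractionRing R K] [Algebra ℂ K]
  [IsScalarTower ℂ R K] {n : ℕ}

namespace RVal
variable (w : RVal K)

theorem v_one : w.v 1 = 0 := by simpa using w.const 1 one_ne_zero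
theorem v_neg (a : K) (ha : a ≠ 0) : w.v (-a) = w.v a := by
  have h := w.const (-1) (by simp)
  rw [map_neg, map_one] at h
  rw [← neg_one_mul, w.mul _ _ (by simp) ha, h, zero_add]
theorem v_inv (a : K) (ha : a ≠ 0) : w.v a⁻¹ = -w.v a := by
  have h := w.mul a a⁻¹ ha (inv_ne_zero ha)
  rw [mul_inv_cancel₀ ha, v_one] at h
  linarith
theorem v_div (a b : K) (ha : a ≠ 0) (hb : b ≠ 0) : w.v (a / b) = w.v a - w.v b := by
  rw [div_eq_mul_inv, w.mul _ _ ha (inv_ne_zero hb), v_inv w b hb, sub_eq_add_neg]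
theorem v_pow (a : K) (ha : a ≠ 0) (k : ℕ) : w.v (a ^ k) = k * w.v a := by
  induction k with
  | zero => simp [v_one]
  | succ k ih =>
    rw [pow_succ, w.mul _ _ (pow_ne_zero _ ha) ha, ih]
    push_cast
    ring
theorem v_zpow (a : K) (ha : a ≠ 0) (k : ℤ) : w.v (a ^ k) = k * w.v a := by
  rcases Int.eq_nat_or_neg k with ⟨m, rfl | rfl⟩
  · simpa using v_pow w a ha m
  · rw [zpow_neg, zpow_natCast, v_inv w _ (pow_ne_zero _ ha), v_pow w a ha]
    push_cast
    ring
theorem v_prod {ι : Type*} (s : Finset ι) (f : ι → K) (h : ∀ i ∈ s, f i ≠ 0) :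
    w.v (∏ i ∈ s, f i) = ∑ i ∈ s, w.v (f i) := by
  classical
  induction s using Finset.induction_on with
  | empty => simp [v_one]
  | insert a s ha ih =>
    rw [Finset.prod_insert ha, Finset.sum_insert ha,
      w.mul _ _ (h a (Finset.mem_insert_self _ _))
        (Finset.prod_ne_zero_iff.2 fun i hi => h i (Finset.mem_insert_of_mem hi)),
      ih fun i hi => h i (Finset.mem_insert_of_mem hi)]
theorem v_smul (c : ℂ) (hc : c ≠ 0) (a : K) (ha : a ≠ 0) : w.v (c • a) = w.v a := by
  rw [Algebra.smul_def, w.mul _ _ ((map_ne_zero _).2 hc) ha, w.const c hc, zero_add]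
theorem v_add_of_lt {a b : K} (ha : a ≠ 0) {t : ℝ} (hb : w.Ge b t) (h : w.v a < t) :
    a + b ≠ 0 ∧ w.v (a + b) = w.v a := by
  by_cases hb0 : b = 0
  · simp [hb0, ha]
  have hb1 : w.v a < w.v b := h.trans_le (hb.resolve_left hb0)
  have hab : a + b ≠ 0 := by
    intro h0
    rw [eq_neg_of_add_eq_zero_right h0, v_neg w a ha] at hb1
    exact lt_irrefl _ hb1
  refine ⟨hab, le_antisymm ?_ ?_⟩
  · have h1 := w.add (a + b) (-b) hab (neg_ne_zero.2 hb0) (by simpa using ha)
    rw [add_neg_cancel_right, v_neg w b hb0] at h1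
    rcases min_le_iff.1 h1 with h2 | h2
    · exact h2
    · exact absurd h2 (not_le.2 hb1)
  · have h1 := w.add a b ha hb0 hab
    rwa [min_eq_left hb1.le] at h1
variable {w}
theorem Ge.self (a : K) : w.Ge a (w.v a) := Or.inr le_rfl
theorem Ge.zero (t : ℝ) : w.Ge 0 t := Or.inl rfl
theorem Ge.mono {a : K} {s t : ℝ} (h : w.Ge a t) (hs : s ≤ t) : w.Ge a s :=
  Or.imp id hs.trans h
theorem Ge.add {a b : K} {t : ℝ} (ha : w.Ge a t) (hb : w.Ge b t) : w.Ge (a + b) t := by
  by_cases h : a + b = 0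
  · exact Or.inl h
  by_cases ha0 : a = 0
  · simpa [ha0] using hb
  by_cases hb0 : b = 0
  · simpa [hb0] using ha
  exact Or.inr ((le_min (ha.resolve_left ha0) (hb.resolve_left hb0)).trans (w.add a b ha0 hb0 h))
theorem Ge.neg {a : K} {t : ℝ} (ha : w.Ge a t) : w.Ge (-a) t := by
  by_cases ha0 : a = 0
  · exact Or.inl (by simp [ha0])
  · exact Or.inr (by rw [v_neg w a ha0]; exact ha.resolve_left ha0)
theorem Ge.sub {a b : K} {t : ℝ} (ha : w.Ge a t) (hb : w.Ge b t) : w.Ge (a - b) t := by
  rw [sub_eq_add_neg]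
  exact ha.add hb.neg
theorem Ge.mul {a b : K} {s t : ℝ} (ha : w.Ge a s) (hb : w.Ge b t) : w.Ge (a * b) (s + t) := by
  by_cases ha0 : a = 0
  · exact Or.inl (by simp [ha0])
  by_cases hb0 : b = 0
  · exact Or.inl (by simp [hb0])
  exact Or.inr (by
    rw [w.mul a b ha0 hb0]
    exact add_le_add (ha.resolve_left ha0) (hb.resolve_left hb0))
theorem Ge.pow {a : K} {t : ℝ} (ha : w.Ge a t) (k : ℕ) : w.Ge (a ^ k) (k * t) := by
  induction k with
  | zero => exact Or.inr (by simp [v_one])
  | succ k ih =>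
    rw [pow_succ]
    refine (ih.mul ha).mono (le_of_eq ?_)
    push_cast
    ring
theorem Ge.smul {a : K} {t : ℝ} (ha : w.Ge a t) (c : ℂ) : w.Ge (c • a) t := by
  by_cases hc : c = 0
  · exact Or.inl (by simp [hc])
  by_cases ha0 : a = 0
  · exact Or.inl (by simp [ha0])
  exact Or.inr (by rw [v_smul w c hc a ha0]; exact ha.resolve_left ha0)
theorem Ge.const (c : ℂ) : w.Ge (algebraMap ℂ K c) 0 := by
  by_cases hc : c = 0
  · exact Or.inl (by simp [hc])
  · exact Or.inr (w.const c hc).ge
theorem Ge.sum {ι : Type*} {s : Finset ι} {f : ι → K} {t : ℝ} (h : ∀ i ∈ s, w.Ge (f i) t) :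
    w.Ge (∑ i ∈ s, f i) t :=
  Finset.sum_induction f (fun a => w.Ge a t) (fun _ _ => Ge.add) (Ge.zero t) h
theorem Ge.prod {ι : Type*} {s : Finset ι} {f : ι → K} {t : ι → ℝ}
    (h : ∀ i ∈ s, w.Ge (f i) (t i)) : w.Ge (∏ i ∈ s, f i) (∑ i ∈ s, t i) := by
  classical
  induction s using Finset.induction_on with
  | empty => exact Or.inr (by simp [v_one])
  | insert a s ha ih =>
    rw [Finset.prod_insert ha, Finset.sum_insert ha]
    exact (h a (Finset.mem_insert_self _ _)).mul
      (ih fun i hi => h i (Finset.mem_insert_of_mem hi))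
/-- weighted integral dependence -/
theorem Ge.of_monic {a : K} {t : ℝ} {k : ℕ} {e : Fin (k + 1) → K}
    (he : ∀ i : Fin (k + 1), w.Ge (e i) (((i : ℕ) + 1) * t))
    (h : a ^ (k + 1) = ∑ i : Fin (k + 1), e i * a ^ (k - (i : ℕ))) : w.Ge a t := by
  by_cases ha : a = 0
  · exact Or.inl ha
  refine Or.inr (not_lt.1 fun hlt => ?_)
  have h1 : w.Ge (a ^ (k + 1)) (t + k * w.v a) := by
    rw [h]
    refine Ge.sum fun i _ => ((he i).mul ((Ge.self a).pow _)).mono ?_
    have hi : (i : ℕ) ≤ k := Nat.lt_succ_iff.1 i.2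
    rw [Nat.cast_sub hi]
    have : (0 : ℝ) ≤ (i : ℕ) * (t - w.v a) := mul_nonneg (Nat.cast_nonneg _) (by linarith)
    linarith
  have h2 := h1.resolve_left (pow_ne_zero _ ha)
  rw [v_pow w a ha] at h2
  push_cast at h2
  linarith
theorem Ge.of_span (hw : w.OnSpec R) {S : Set R} {t : ℝ}
    (h : ∀ r ∈ S, w.Ge (algebraMap R K r) t) {r : R} (hr : r ∈ Ideal.span S) :
    w.Ge (algebraMap R K r) t := by
  induction hr using Submodule.span_induction with
  | mem x hx => exact h x hx
  | zero => simpa using Ge.zero t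
  | add x y _ _ hx hy => simpa using hx.add hy
  | smul c x _ hx => simpa using (hw c).mul hx
theorem Ge.of_pow (hw : w.OnSpec R) {I : Ideal R} {t : ℝ}
    (h : ∀ r ∈ I, w.Ge (algebraMap R K r) t) (k : ℕ) {r : R} (hr : r ∈ I ^ k) :
    w.Ge (algebraMap R K r) (k * t) := by
  induction k generalizing r with
  | zero => simpa using hw r
  | succ k ih =>
    rw [pow_succ] at hr
    refine Submodule.mul_induction_on hr (fun a ha b hb => ?_) fun a b ha hb => ?_
    · rw [map_mul]
      refine ((ih ha).mul (h b hb)).mono (le_of_eq ?_)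
      push_cast
      ring
    · simpa using ha.add hb
theorem onSpec_of_proj (π : Proj R n) (h : ∀ i, w.Ge (algebraMap R K (π.y i)) 0) :
    w.OnSpec R := by
  intro r
  have hP : ∀ P : MvPolynomial (Fin n) ℂ,
      w.Ge (algebraMap R K (MvPolynomial.aeval π.y P)) 0 := by
    intro P
    induction P using MvPolynomial.induction_on with
    | C c =>
      rw [MvPolynomial.aeval_C, ← IsScalarTower.algebraMap_apply]
      exact Ge.const c
    | add p q hp hq => simpa using hp.add hq
    | mul_X p i hp => simpa using hp.mul (h i)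
  obtain ⟨p, hp, h0⟩ := RingHom.Finite.to_isIntegral π.fin r
  by_cases hr : algebraMap R K r = 0
  · exact Or.inl hr
  refine Or.inr (not_lt.1 fun hlt => ?_)
  rw [Polynomial.eval₂_eq_sum_range, Finset.sum_range_succ, hp.coeff_natDegree, map_one,
    one_mul] at h0
  have h1 := congrArg (algebraMap R K) h0
  rw [map_add, map_zero, map_pow, map_sum] at h1
  have h2 : w.Ge (∑ i ∈ Finset.range p.natDegree, algebraMap R K
      ((MvPolynomial.aeval π.y : MvPolynomial (Fin n) ℂ →ₐ[ℂ] R).toRingHom (p.coeff i) * r ^ i))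
      (((p.natDegree : ℝ) - 1) * w.v (algebraMap R K r)) := by
    refine Ge.sum fun i hi => ?_
    rw [map_mul, map_pow]
    refine ((hP _).mul ((Ge.self _).pow i)).mono ?_
    have hi' : (i : ℝ) + 1 ≤ p.natDegree := by exact_mod_cast Finset.mem_range.1 hi
    nlinarith
  have h3 := (v_add_of_lt w (pow_ne_zero p.natDegree hr) h2 (by
    rw [v_pow w _ hr]
    linarith)).1
  exact h3 (by rw [add_comm]; exact h1)
/-- a centred valuation is bounded below on the maximal ideal -/
theorem exists_pos {m : Ideal R} (hw : w.CenteredAt m) :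
    ∃ t : ℝ, 0 < t ∧ ∀ r ∈ m, w.Ge (algebraMap R K r) t := by
  have : IsNoetherianRing R := Algebra.FiniteType.isNoetherianRing ℂ R
  obtain ⟨S, hS⟩ := (IsNoetherian.noetherian m : m.FG)
  have h1 : ∀ T : Finset R, (∀ r ∈ T, r ∈ m) →
      ∃ t : ℝ, 0 < t ∧ ∀ r ∈ T, w.Ge (algebraMap R K r) t := by
    classical
    intro T
    induction T using Finset.induction_on with
    | empty => exact fun _ => ⟨1, one_pos, by simp⟩
    | insert a T _ ih =>
      intro hT
      obtain ⟨t, ht, h⟩ := ih fun r hr => hT r (Finset.mem_insert_of_mem hr)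
      by_cases ha : algebraMap R K a = 0
      · refine ⟨t, ht, fun r hr => ?_⟩
        rcases Finset.mem_insert.1 hr with rfl | hr
        · exact Or.inl ha
        · exact h r hr
      · refine ⟨min t (w.v (algebraMap R K a)),
          lt_min ht ((hw.2 a ha).2 (hT a (Finset.mem_insert_self _ _))), fun r hr => ?_⟩
        rcases Finset.mem_insert.1 hr with rfl | hr
        · exact Or.inr (min_le_right _ _)
        · exact (h r hr).mono (min_le_left _ _)
  obtain ⟨t, ht, h⟩ := h1 S fun r hr => hS ▸ Ideal.subset_span hr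
  exact ⟨t, ht, fun r hr => Ge.of_span hw.1 (S := S) h (by rw [← hS] at hr; exact hr)⟩
/-- the centre -/
theorem exists_center (hw : w.OnSpec R) : ∃ p : Ideal R, p.IsPrime ∧ w.CenteredAt p := by
  let p : Ideal R :=
    { carrier := {r | ∃ t : ℝ, 0 < t ∧ w.Ge (algebraMap R K r) t}
      add_mem' := by
        rintro a b ⟨s, hs, ha⟩ ⟨t, ht, hb⟩
        refine ⟨min s t, lt_min hs ht, ?_⟩
        rw [map_add]
        exact (ha.mono (min_le_left _ _)).add (hb.mono (min_le_right _ _))
      zero_mem' := ⟨1, one_pos, by simpa using Ge.zero 1⟩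
      smul_mem' := by
        rintro c a ⟨s, hs, ha⟩
        exact ⟨s, hs, by simpa using (hw c).mul ha⟩ }
  have hp : ∀ r : R, algebraMap R K r ≠ 0 → (0 < w.v (algebraMap R K r) ↔ r ∈ p) := fun r hr =>
    ⟨fun h => ⟨_, h, Ge.self _⟩, fun ⟨t, ht, h⟩ => ht.trans_le (h.resolve_left hr)⟩
  refine ⟨p, ⟨?_, fun {a b} hab => ?_⟩, hw, hp⟩
  · rw [Ideal.ne_top_iff_one, ← hp 1 (by simp), map_one, v_one]
    exact lt_irrefl _
  · by_cases ha : algebraMap R K a = 0
    · exact Or.inl ⟨1, one_pos, Or.inl ha⟩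
    by_cases hb : algebraMap R K b = 0
    · exact Or.inr ⟨1, one_pos, Or.inl hb⟩
    rw [← hp _ (by rw [map_mul]; exact mul_ne_zero ha hb), map_mul, w.mul _ _ ha hb] at hab
    rw [← hp a ha, ← hp b hb]
    by_contra hc
    rw [not_or, not_lt, not_lt] at hc
    linarith [hc.1, hc.2]
theorem centeredAt_of_le (hw : w.OnSpec R) {m : Ideal R} [m.IsMaximal] {t : ℝ} (ht : 0 < t)
    (h : ∀ r ∈ m, w.Ge (algebraMap R K r) t) : w.CenteredAt m := by
  obtain ⟨p, hp, hc⟩ := exists_center hw
  have hle : m ≤ p := by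
    intro r hr
    by_cases h0 : algebraMap R K r = 0
    · rw [(IsFractionRing.to_map_eq_zero_iff).1 h0]
      exact p.zero_mem
    · exact (hc.2 r h0).1 (ht.trans_le ((h r hr).resolve_left h0))
  rwa [Ideal.IsMaximal.eq_of_le ‹_› hp.ne_top hle]

variable (w)
/-- the valuation ring -/
def ring : ValuationSubring K where
  carrier := {a | w.Ge a 0}
  mul_mem' := fun ha hb => by simpa using Ge.mul ha hb
  add_mem' := Ge.add
  one_mem' := Or.inr (by rw [v_one])
  zero_mem' := Ge.zero 0
  neg_mem' := Ge.neg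
  mem_or_inv_mem' := fun a => by
    by_cases ha : a = 0
    · exact Or.inl (Or.inl ha)
    rcases le_total 0 (w.v a) with h | h
    · exact Or.inl (Or.inr h)
    · exact Or.inr (Or.inr (by rw [v_inv w a ha]; linarith))

/-- restriction along a field embedding -/
def comap {L : Type} [Field L] [Algebra ℂ L] (φ : L →ₐ[ℂ] K) : RVal L where
  v a := w.v (φ a)
  mul a b ha hb := by rw [map_mul]; exact w.mul _ _ ((map_ne_zero φ).2 ha) ((map_ne_zero φ).2 hb)
  add a b ha hb h := by
    rw [map_add]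
    exact w.add _ _ ((map_ne_zero φ).2 ha) ((map_ne_zero φ).2 hb)
      (by rw [← map_add]; exact (map_ne_zero φ).2 h)
  const c hc := by rw [φ.commutes]; exact w.const c hc

variable (R) in
/-- the elements of `R` of value at least `t` -/
def sub (t : ℝ) : Submodule ℂ R where
  carrier := {r | w.Ge (algebraMap R K r) t}
  add_mem' := fun ha hb => by simpa using Ge.add ha hb
  zero_mem' := by simpa using Ge.zero t
  smul_mem' := fun c r hr => by
    have h : algebraMap R K (c • r) = c • algebraMap R K r := by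
      rw [Algebra.smul_def, map_mul, ← IsScalarTower.algebraMap_apply, Algebra.smul_def]
    show w.Ge _ t
    rw [h]
    exact Ge.smul hr c

end RVal

end Vale.Agent.P282
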