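import Vale.Agent.P282.AVal

set_option linter.unusedSectionVars false

open scoped ENNReal TensorProduct Topology
open Filter MeasureTheory

noncomputable section

namespace Vale.Agent.P282

variable {R K : Type} [CommRing R] [IsDomain R] [Algebra ℂ R] [Algebra.FiniteType ℂ R]
  [IsIntegrallyClosed R] [Field K] [Algebra R K] [IsFractionRing R K] [Algebra ℂ K]
  [IsScalarTower ℂ R K] {n : ℕ}

theorem AVol_toK (m : Ideal R) [m.IsPrime] (r : R) :
    toK (K := K) m (algebraMap R (Localization.AtPrime m) r) = algebraMap R K r :=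
  IsLocalization.lift_eq _ _

theorem AVol_ge (m : Ideal R) [m.IsPrime] {w : RVal K} (hw : w.CenteredAt m)
    (a : Localization.AtPrime m) : w.Ge (toK m a) 0 := by
  obtain ⟨⟨r, s⟩, h⟩ := IsLocalization.surj m.primeCompl a
  have h1 := congrArg (toK (K := K) m) h
  rw [map_mul, AVol_toK, AVol_toK] at h1
  have hs : algebraMap R K s ≠ 0 :=
    IsFractionRing.to_map_ne_zero_of_mem_nonZeroDivisors (m.primeCompl_le_nonZeroDivisors s.2)
  have h2 : w.v (algebraMap R K s) ≤ 0 := not_lt.1 fun hh => s.2 ((hw.2 _ hs).1 hh)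
  have h3 : w.Ge (algebraMap R K s)⁻¹ 0 := Or.inr (by rw [w.v_inv _ hs]; linarith)
  have h4 := (hw.1 r).mul h3
  rw [(eq_mul_inv_iff_mul_eq₀ hs).2 h1]
  simpa using h4

theorem AVol_mem (m : Ideal R) [m.IsPrime] {w : RVal K} (hw : w.CenteredAt m) (t : ℝ)
    (f : Localization.AtPrime m) : f ∈ valIdeal m w t ↔ w.Ge (toK m f) t := by
  refine ⟨fun h => ?_, fun h => Ideal.subset_span h⟩
  induction h using Submodule.span_induction with
  | mem a ha => exact ha
  | zero => rw [map_zero]; exact RVal.Ge.zero t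
  | add a b _ _ ha hb => rw [map_add]; exact ha.add hb
  | smul a b _ hb =>
    rw [smul_eq_mul, map_mul]
    simpa using (AVol_ge m hw a).mul hb

theorem AVol_pow (m : Ideal R) [m.IsPrime] {w : RVal K} (hw : w.CenteredAt m) (t : ℝ) :
    ∃ N : ℕ, 0 < N ∧ ∀ r ∈ m ^ N, algebraMap R (Localization.AtPrime m) r ∈ valIdeal m w t := by
  obtain ⟨t0, h0, h1⟩ := RVal.exists_pos hw
  obtain ⟨N, hN⟩ := exists_nat_gt (t / t0)
  refine ⟨N + 1, N.succ_pos, fun r hr => (AVol_mem m hw t _).2 ?_⟩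
  rw [AVol_toK]
  refine (RVal.Ge.of_pow hw.1 h1 _ hr).mono ?_
  rw [div_lt_iff₀ h0] at hN
  push_cast
  linarith

theorem AVol_res0 (O : Type) [CommRing O] [IsLocalRing O] [Algebra ℂ O]
    (h : ∀ a : O, ∃ c : ℂ, algebraMap ℂ O c - a ∈ IsLocalRing.maximalIdeal O) :
    Module.length (IsLocalRing.ResidueField ℂ) (IsLocalRing.ResidueField O) = 1 := by
  have hs : Function.Surjective
      (algebraMap (IsLocalRing.ResidueField ℂ) (IsLocalRing.ResidueField O)) := fun a => by
    obtain ⟨a, rfl⟩ := IsLocalRing.residue_surjective a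
    obtain ⟨c, hc⟩ := h a
    refine ⟨IsLocalRing.residue ℂ c, ?_⟩
    rw [IsLocalRing.ResidueField.algebraMap_residue]
    exact (Ideal.Quotient.eq (I := IsLocalRing.maximalIdeal O)).2 hc
  rw [Module.length_eq_of_surjective hs]
  exact Module.length_eq_one _ _

theorem AVol_res1 (x : Pt R) (a : Localization.AtPrime x.m) : ∃ c : ℂ,
    algebraMap ℂ (Localization.AtPrime x.m) c - a ∈
      IsLocalRing.maximalIdeal (Localization.AtPrime x.m) := by
  obtain ⟨⟨r, s⟩, h⟩ := IsLocalization.surj x.m.primeCompl a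
  have hs : x s ≠ 0 := s.2
  refine ⟨x r / x s, ?_⟩
  have hu : algebraMap R (Localization.AtPrime x.m) s ∉
      IsLocalRing.maximalIdeal (Localization.AtPrime x.m) := fun hh =>
    s.2 ((IsLocalization.AtPrime.to_map_mem_maximal_iff _ x.m _).1 hh)
  refine ((IsLocalRing.maximalIdeal.isMaximal _).isPrime.mem_or_mem
    (y := algebraMap R (Localization.AtPrime x.m) s) ?_).resolve_right hu
  have h1 : algebraMap ℂ R (x r / x s) * s - r ∈ x.m := by
    rw [Pt.mem_m, map_sub, map_mul, AlgHomClass.commutes]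
    simp [hs]
  have h2 := (IsLocalization.AtPrime.to_map_mem_maximal_iff (Localization.AtPrime x.m) x.m _).2 h1
  simp only at h
  rw [map_sub, map_mul, ← h, ← IsScalarTower.algebraMap_apply, ← sub_mul] at h2
  exact h2

theorem AVol_mono {w : RVal K} {s t : ℝ} [FiniteDimensional ℂ (R ⧸ w.sub R t)]
    (h : s ≤ t) : Module.finrank ℂ (R ⧸ w.sub R s) ≤ Module.finrank ℂ (R ⧸ w.sub R t) := by
  have h1 : w.sub R t ≤ w.sub R s := fun r hr => RVal.Ge.mono hr h
  exact LinearMap.finrank_le_finrank_of_surjective (f := Submodule.factor h1)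
    (Submodule.factor_surjective h1)

/-- the length in the definition of `vol` is a dimension -/
theorem len_eq (x : Pt R) {w : RVal K} (hw : w.CenteredAt x.m) (t : ℝ) :
    FiniteDimensional ℂ (R ⧸ w.sub R t) ∧
    Module.length (Localization.AtPrime x.m) (Localization.AtPrime x.m ⧸ valIdeal x.m w t) =
      (Module.finrank ℂ (R ⧸ w.sub R t) : ℕ∞) := by
  obtain ⟨N, hN0, hN⟩ := AVol_pow x.m hw t
  let ψ : R →ₐ[ℂ] Localization.AtPrime x.m ⧸ valIdeal x.m w t :=
    (Ideal.Quotient.mkₐ ℂ _).comp (IsScalarTower.toAlgHom ℂ R _)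
  have hψ : ∀ r, ψ r = Ideal.Quotient.mk _ (algebraMap R (Localization.AtPrime x.m) r) :=
    fun _ => rfl
  have hs : Function.Surjective ψ := fun a => by
    obtain ⟨a, rfl⟩ := Ideal.Quotient.mk_surjective a
    obtain ⟨⟨r, s⟩, h⟩ := IsLocalization.surj x.m.primeCompl a
    obtain ⟨y, i, hi, e⟩ := Ideal.IsMaximal.exists_inv_pow x.m (x := s.1) s.2 N
    refine ⟨r * y, ?_⟩
    rw [hψ, eq_comm, Ideal.Quotient.eq]
    have e1 := congrArg (algebraMap R (Localization.AtPrime x.m)) e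
    rw [map_add, map_mul, map_one] at e1
    have e2 : a - algebraMap R _ (r * y) = a * algebraMap R _ i := by
      simp only at h
      rw [map_mul, ← h]
      linear_combination (-a) * e1
    rw [e2]
    exact Ideal.mul_mem_left _ _ (hN i hi)
  have hk : w.sub R t = LinearMap.ker ψ.toLinearMap := by
    ext r
    rw [LinearMap.mem_ker, AlgHom.toLinearMap_apply, hψ, Ideal.Quotient.eq_zero_iff_mem,
      AVol_mem x.m hw, AVol_toK]
    rfl
  have e : (R ⧸ w.sub R t) ≃ₗ[ℂ] Localization.AtPrime x.m ⧸ valIdeal x.m w t :=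
    (Submodule.quotEquivOfEq _ _ hk).trans (ψ.toLinearMap.quotKerEquivOfSurjective hs)
  have hft : Algebra.FiniteType ℂ (Localization.AtPrime x.m ⧸ valIdeal x.m w t) :=
    Algebra.FiniteType.of_surjective ψ hs
  have hint : Algebra.IsIntegral ℂ (Localization.AtPrime x.m ⧸ valIdeal x.m w t) := by
    refine ⟨fun a => ?_⟩
    obtain ⟨r, rfl⟩ := hs a
    refine ⟨(Polynomial.X - Polynomial.C (x r)) ^ N, (Polynomial.monic_X_sub_C _).pow N, ?_⟩
    have h1 : r - algebraMap ℂ R (x r) ∈ x.m := by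
      rw [Pt.mem_m, map_sub, AlgHomClass.commutes]
      simp
    rw [Polynomial.eval₂_pow, Polynomial.eval₂_sub, Polynomial.eval₂_X, Polynomial.eval₂_C,
      ← ψ.commutes, ← map_sub, ← map_pow, hψ, Ideal.Quotient.eq_zero_iff_mem]
    exact hN _ (Ideal.pow_mem_pow h1 N)
  have hfin : Module.Finite ℂ (Localization.AtPrime x.m ⧸ valIdeal x.m w t) :=
    Algebra.IsIntegral.finite
  refine ⟨Module.Finite.equiv e.symm, ?_⟩
  have h1 := IsLocalRing.length_restrictScalars ℂ (Localization.AtPrime x.m)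
    (Localization.AtPrime x.m ⧸ valIdeal x.m w t)
  rw [AVol_res0 _ (AVol_res1 x), mul_one, Module.length_eq_finrank] at h1
  rw [← h1, e.finrank_eq]

theorem vol_eq (x : Pt R) {w : RVal K} (hw : w.CenteredAt x.m) : vol x.m n w =
    limsup (fun t : ℝ => ENNReal.ofReal
      (n.factorial * Module.finrank ℂ (R ⧸ w.sub R t) / t ^ n)) atTop := by
  unfold vol
  refine limsup_congr ?_
  filter_upwards [eventually_gt_atTop (0 : ℝ)] with t ht
  rw [(len_eq x hw t).2, ENNReal.ofReal_div_of_pos (pow_pos ht n),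
    ENNReal.ofReal_mul (Nat.cast_nonneg _), ENNReal.ofReal_natCast, ENNReal.ofReal_natCast,
    ENat.toENNReal_coe]

/-- upper bound for the volume from a bound along an arithmetic progression -/
theorem vol_le (x : Pt R) {w : RVal K} (hw : w.CenteredAt x.m) {τ V C : ℝ} (hτ : 0 < τ)
    (hV : 0 ≤ V) (h : ∀ j : ℕ, (n.factorial : ℝ) * Module.finrank ℂ (R ⧸ w.sub R (j * τ)) ≤
      V * (j + C) ^ n) (hC : 0 ≤ C) : vol x.m n w ≤ ENNReal.ofReal (V / τ ^ n) := by
  have h1 : Tendsto (fun t : ℝ => ENNReal.ofReal (V * (τ⁻¹ + (1 + C) * t⁻¹) ^ n)) atTop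
      (𝓝 (ENNReal.ofReal (V / τ ^ n))) := by
    refine ENNReal.tendsto_ofReal ?_
    have h2 := (((tendsto_inv_atTop_zero (𝕜 := ℝ)).const_mul (1 + C)).const_add τ⁻¹).pow n
    rw [mul_zero, add_zero, inv_pow] at h2
    exact h2.const_mul V
  rw [vol_eq x hw, ← h1.limsup_eq]
  refine limsup_le_limsup ?_
  filter_upwards [eventually_gt_atTop (0 : ℝ)] with t ht
  refine ENNReal.ofReal_le_ofReal ?_
  have := (len_eq x hw (⌈t / τ⌉₊ * τ)).1
  have h2 : Module.finrank ℂ (R ⧸ w.sub R t) ≤ Module.finrank ℂ (R ⧸ w.sub R (⌈t / τ⌉₊ * τ)) :=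
    AVol_mono ((div_le_iff₀ hτ).1 (Nat.le_ceil _))
  have h3 := (Nat.ceil_lt_add_one (div_pos ht hτ).le).le
  rw [div_le_iff₀ (pow_pos ht n), mul_assoc, ← mul_pow]
  have h4 : (τ⁻¹ + (1 + C) * t⁻¹) * t = t / τ + 1 + C := by
    field_simp
    ring
  rw [h4]
  calc (n.factorial : ℝ) * Module.finrank ℂ (R ⧸ w.sub R t)
      ≤ n.factorial * Module.finrank ℂ (R ⧸ w.sub R (⌈t / τ⌉₊ * τ)) := by gcongr
    _ ≤ V * (⌈t / τ⌉₊ + C) ^ n := h _
    _ ≤ V * (t / τ + 1 + C) ^ n := by gcongr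

/-- eventual bound from the volume -/
theorem le_of_vol (x : Pt R) {w : RVal K} (hw : w.CenteredAt x.m) {V : ℝ}
    (h : vol x.m n w < ENNReal.ofReal V) : ∀ᶠ t : ℝ in atTop,
      (n.factorial : ℝ) * Module.finrank ℂ (R ⧸ w.sub R t) ≤ V * t ^ n := by
  rw [vol_eq x hw] at h
  filter_upwards [eventually_lt_of_limsup_lt h, eventually_gt_atTop (0 : ℝ)] with t h1 ht
  have h2 := (ENNReal.ofReal_lt_ofReal_iff_of_nonneg (by positivity)).1 h1
  exact ((div_lt_iff₀ (pow_pos ht n)).1 h2).le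

end Vale.Agent.P282
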