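import Vale.Agent.P282.Defs
import Vale.Agent.P271.HDefs

/-! Problem P282: working definitions. -/

open scoped ENNReal TensorProduct Topology
open Filter MeasureTheory

noncomputable section

namespace Vale.Agent.P282

abbrev E (n : ℕ) := Fin n → ℂ

/-- Complex points. -/
def Pt (R : Type) [CommRing R] [Algebra ℂ R] : Type := R →ₐ[ℂ] ℂ

section Pt

variable {R : Type} [CommRing R] [Algebra ℂ R]

instance : FunLike (Pt R) R ℂ := inferInstanceAs (FunLike (R →ₐ[ℂ] ℂ) R ℂ)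
instance : AlgHomClass (Pt R) ℂ R ℂ := inferInstanceAs (AlgHomClass (R →ₐ[ℂ] ℂ) ℂ R ℂ)
instance : TopologicalSpace (Pt R) := TopologicalSpace.induced (fun p => (p : R → ℂ)) inferInstance
instance : MeasurableSpace (Pt R) := borel _
instance : BorelSpace (Pt R) := ⟨rfl⟩
instance : T2Space (Pt R) :=
  (Topology.IsEmbedding.mk ⟨rfl⟩ DFunLike.coe_injective :
    Topology.IsEmbedding fun p : Pt R => (p : R → ℂ)).t2Space

theorem Pt.cont (r : R) : Continuous fun p : Pt R => p r :=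
  (continuous_apply r).comp continuous_induced_dom

/-- The point as an algebra map. -/
def Pt.hom (x : Pt R) : R →ₐ[ℂ] ℂ := x

/-- The maximal ideal of a point. -/
def Pt.m (x : Pt R) : Ideal R := RingHom.ker x.hom

theorem Pt.mem_m {x : Pt R} {r : R} : r ∈ x.m ↔ x r = 0 := Iff.rfl

instance (x : Pt R) : x.m.IsMaximal :=
  RingHom.ker_isMaximal_of_surjective x.hom fun c => ⟨algebraMap ℂ R c, x.hom.commutes c⟩

end Pt

/-- A finite projection to affine space. -/
structure Proj (R : Type) [CommRing R] [Algebra ℂ R] (n : ℕ) where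
  y : Fin n → R
  ind : AlgebraicIndependent ℂ y
  fin : (MvPolynomial.aeval y : MvPolynomial (Fin n) ℂ →ₐ[ℂ] R).Finite

/-- The working set-up: a generator of the canonical sheaf, klt for all real valuations. -/
structure WS (R K : Type) [CommRing R] [Field K] [Algebra R K] [Algebra ℂ K] (n : ℕ) where
  ω : PForm K n
  ρ : (Fin n → R) → R
  ρ_eq : ∀ f, algebraMap R K (ρ f) = ω.rho fun i => algebraMap R K (f i)
  gen : ∀ p : Ideal R, p.IsPrime → p.height = 1 → ∃ f, ρ f ∉ p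
  klt : ∀ w : RVal K, (∃ a, a ≠ 0 ∧ w.v a ≠ 0) → w.OnSpec R → 0 < ω.A w

section An

variable {R : Type} [CommRing R] [Algebra ℂ R] {n : ℕ}

/-- The image of a point in affine space. -/
def Proj.at (π : Proj R n) (p : Pt R) : E n := fun i => p (π.y i)

/-- The points over the complement of the zeros of `Δ`. -/
abbrev Proj.W (π : Proj R n) (Δ : MvPolynomial (Fin n) ℂ) : Type :=
  {p : Pt R // MvPolynomial.eval (π.at p) Δ ≠ 0}

/-- `δ = P'(θ)` for a monic equation `P` of `θ`, with `δ R ⊆ ℂ[y, θ]`. -/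
structure Proj.EtW (π : Proj R n) (θ : R) (P : Polynomial (MvPolynomial (Fin n) ℂ)) (δ : R) :
    Prop where
  monic : P.Monic
  root : P.eval₂ (MvPolynomial.aeval π.y).toRingHom θ = 0
  der : δ = P.derivative.eval₂ (MvPolynomial.aeval π.y).toRingHom θ
  gen : ∀ r, ∃ H : Polynomial (MvPolynomial (Fin n) ℂ),
    δ * r = H.eval₂ (MvPolynomial.aeval π.y).toRingHom θ

/-- The analytic model: the part of the variety over `Δ ≠ 0` as an etale domain. -/
structure An (π : Proj R n) (g : R) where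
  Δ : MvPolynomial (Fin n) ℂ
  Δ_ne : Δ ≠ 0
  S : Fuj.Sheets (E n) (π.W Δ) volume
  π_eq : ∀ p, S.π p = π.at p.1
  τ_eq : ∀ i p, S.τ i p = 1
  hol : ∀ r : R, S.HolS fun p => p.1 r
  g_ne : ∀ p : π.W Δ, p.1 g ≠ 0
  θ : R
  P : Polynomial (MvPolynomial (Fin n) ℂ)
  δ : R
  et : π.EtW θ P δ
  δ_ne : ∀ p : π.W Δ, p.1 δ ≠ 0
  root : ∀ z, MvPolynomial.eval z Δ ≠ 0 → ∀ c, P.eval₂ (MvPolynomial.eval z) c = 0 →
    ∃ p : π.W Δ, π.at p.1 = z ∧ p.1 θ = c

/-- `1 + |z|²`. -/
def gr (z : E n) : ℝ := 1 + ∑ i, ‖z i‖ ^ 2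

/-- The density `|ρ|^(-2/m) (1 + |y|²)^(-M)`. -/
def dens {K : Type} [Field K] [Algebra R K] [Algebra ℂ K] (G : WS R K n) (π : Proj R n) (M : ℝ)
    (p : Pt R) : ℝ := (‖p (G.ρ π.y)‖ ^ 2) ^ (-(1 / G.ω.m : ℝ)) * gr (π.at p) ^ (-M)

end An

section Germ

/-- Germs of meromorphic functions at the origin. -/
def Mer : Subring (Germ (𝓝[≠] (0 : ℂ)) ℂ) where
  carrier := {g | ∃ f : ℂ → ℂ, MeromorphicAt f 0 ∧ (f : Germ (𝓝[≠] (0 : ℂ)) ℂ) = g}
  mul_mem' := by
    rintro _ _ ⟨f, hf, rfl⟩ ⟨g, hg, rfl⟩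
    exact ⟨f * g, hf.mul hg, rfl⟩
  add_mem' := by
    rintro _ _ ⟨f, hf, rfl⟩ ⟨g, hg, rfl⟩
    exact ⟨f + g, hf.add hg, rfl⟩
  one_mem' := ⟨fun _ => 1, MeromorphicAt.const 1 0, rfl⟩
  zero_mem' := ⟨fun _ => 0, MeromorphicAt.const 0 0, rfl⟩
  neg_mem' := by
    rintro _ ⟨f, hf, rfl⟩
    exact ⟨-f, hf.neg, rfl⟩

theorem Mer.isField : IsField Mer where
  exists_pair_ne := ⟨0, 1, zero_ne_one⟩
  mul_comm := mul_comm
  mul_inv_cancel := by
    rintro ⟨_, f, hf, rfl⟩ h
    refine ⟨⟨_, f⁻¹, hf.inv, rfl⟩, Subtype.ext ?_⟩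
    rcases hf.eventually_eq_zero_or_eventually_ne_zero with h0 | h0
    · exact absurd (Subtype.ext (Germ.coe_eq.2 h0)) h
    · exact Germ.coe_eq.2 (h0.mono fun t ht => mul_inv_cancel₀ ht)

/-- The field of meromorphic germs. -/
def MK : Type := Mer

instance : Field MK := Mer.isField.toField

/-- The germ of a meromorphic function. -/
def MK.mk (f : ℂ → ℂ) (hf : MeromorphicAt f 0) : MK := (⟨_, f, hf, rfl⟩ : Mer)

/-- Constant germs. -/
def MK.const : ℂ →+* MK where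
  toFun c := MK.mk (fun _ => c) (MeromorphicAt.const c 0)
  map_one' := rfl
  map_mul' _ _ := rfl
  map_zero' := rfl
  map_add' _ _ := rfl

instance : Algebra ℂ MK := MK.const.toAlgebra

/-- The function `f` represents the germ `a`. -/
def MK.Rep (a : MK) (f : ℂ → ℂ) : Prop :=
  (f : Germ (𝓝[≠] (0 : ℂ)) ℂ) = (show Mer from a).1

/-- The germ `a` is holomorphic at the origin with value `c`. -/
def MK.HasVal (a : MK) (c : ℂ) : Prop := ∃ f, AnalyticAt ℂ f 0 ∧ a.Rep f ∧ f 0 = c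

variable {R : Type} [CommRing R] [Algebra ℂ R]

/-- Holomorphic arcs. -/
structure Arc (R : Type) [CommRing R] [Algebra ℂ R] where
  γ : ℂ → Pt R
  an : ∀ r, AnalyticAt ℂ (fun t => γ t r) 0

/-- The arc as a point with values in the field of germs. -/
def Arc.hom (a : Arc R) : R →ₐ[ℂ] MK where
  toFun r := MK.mk (fun t => a.γ t r) (a.an r).meromorphicAt
  map_one' := Subtype.ext (Germ.coe_eq.2 (.of_forall fun t => map_one (a.γ t)))
  map_mul' r s := Subtype.ext (Germ.coe_eq.2 (.of_forall fun t => map_mul (a.γ t) r s))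
  map_zero' := Subtype.ext (Germ.coe_eq.2 (.of_forall fun t => map_zero (a.γ t)))
  map_add' r s := Subtype.ext (Germ.coe_eq.2 (.of_forall fun t => map_add (a.γ t) r s))
  commutes' c := Subtype.ext (Germ.coe_eq.2 (.of_forall fun t => AlgHomClass.commutes (a.γ t) c))

/-- The coordinate ring over the field of germs. -/
abbrev RK (R : Type) [CommRing R] [Algebra ℂ R] : Type := MK ⊗[ℂ] R

/-- Evaluation at the arc. -/
def Arc.ev (a : Arc R) : RK R →ₐ[MK] MK :=
  Algebra.TensorProduct.lift (AlgHom.id MK MK) a.hom fun _ _ => Commute.all _ _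

/-- The maximal ideal of the arc. -/
def Arc.m (a : Arc R) : Ideal (RK R) := RingHom.ker a.ev

/-- `x` is a family that is holomorphic at the origin with value `r`. -/
def Lim (x : RK R) (r : R) : Prop :=
  ∃ (k : ℕ) (a : Fin k → MK) (c : Fin k → ℂ) (u : Fin k → R),
    (∀ i, (a i).HasVal (c i)) ∧ x = ∑ i, a i ⊗ₜ u i ∧ r = ∑ i, c i • u i

end Germ

end Vale.Agent.P282
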