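import Vale.Agent.P282.Base

/-! Problem P282: weighted filtrations at arcs, embeddings, the cases. -/

open scoped ENNReal TensorProduct Topology
open Filter MeasureTheory

noncomputable section

namespace Vale.Agent.P282

section Lev

variable {R : Type} [CommRing R] [Algebra ℂ R] {n : ℕ} [NeZero n]

/-- An arc with weighted coordinates. -/
structure WArc (R : Type) [CommRing R] [Algebra ℂ R] (n : ℕ) extends Arc R where
  B : Matrix (Fin n) (Fin n) MK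
  B_det : B.det ≠ 0
  c : Fin n → MK
  w : Fin n → ℕ
  w_pos : ∀ j, 0 < w j
  l : ℕ
  Z : Fin l → RK R
  g : ℕ
  der : Bool
  ξ : RK R →ₗ[MK] MK

/-- `y - q(t)`. -/
def Arc.yq (a : Arc R) (y : R) : RK R := 1 ⊗ₜ y - a.hom y ⊗ₜ 1

namespace WArc

variable (a : WArc R n) (π : Proj R n)

/-- The linear coordinates. -/
def lin (j : Fin n) : RK R := ∑ k, a.B j k • a.toArc.yq (π.y k)

/-- The weighted coordinates. -/
def s (j : Fin n) : RK R := if j = 0 then a.lin π 0 else a.lin π j + a.c j • a.lin π 0 ^ 2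

/-- The elements of weight at least `j`. -/
def lev (j : ℕ) : Ideal (RK R) :=
  ⨅ N : ℕ, Ideal.span {x | ∃ α : Fin n → ℕ, j ≤ ∑ k, a.w k * α k ∧ x = ∏ k, a.s π k ^ α k} ⊔
    a.toArc.m ^ N

/-- Integral dependence on the level `j`. -/
def IC (x : RK R) (j : ℕ) : Prop :=
  ∃ (k : ℕ) (e : Fin (k + 1) → RK R), (∀ i : Fin (k + 1), e i ∈ a.lev π (((i : ℕ) + 1) * j)) ∧
    x ^ (k + 1) = ∑ i : Fin (k + 1), e i * x ^ (k - (i : ℕ))

/-- The order of the functional. -/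
def mu : ℕ := if a.der then a.w 0 else 0

/-- The hypotheses on a weighted arc. -/
structure Good {K : Type} [Field K] [Algebra R K] [Algebra ℂ K] (G : WS R K n) (c₀ : ℝ) :
    Prop where
  col : ∀ (N : ℕ) (x : RK R), ∃ b : Fin a.l → MK,
    x - ∑ i, b i • a.Z i ∈ Ideal.span (Set.range (a.s π)) ⊔ a.toArc.m ^ N
  gain : (1 ⊗ₜ G.ρ π.y : RK R) ∈ Ideal.span {x | a.IC π x (G.ω.m * a.g)}
  ev : a.der = false → ∀ x, a.ξ x = a.toArc.ev x
  dr : a.der = true → ∀ x,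
    x - algebraMap MK (RK R) (a.toArc.ev x) - a.ξ x • a.s π 0 ∈ a.lev π (a.w 0 + 1)
  bd : (∑ k, a.w k : ℕ) + (a.mu : ℝ) ≤ c₀ + a.g

end WArc

/-- The limits of the elements of level `j` at all arcs. -/
def LimLev {r : ℕ} (a : Fin r → WArc R n) (π : Proj R n) (j : ℕ) : Set R :=
  {u | ∃ x, (∀ i, x ∈ (a i).lev π j) ∧ Lim x u}

end Lev

section Fam

variable {R K : Type} [CommRing R] [Algebra ℂ R] [Field K] [Algebra R K] [Algebra ℂ K] {n : ℕ}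

/-- Holomorphic families of elements of `R`. -/
def AFam (F : ℂ → R) : Prop :=
  ∃ (k : ℕ) (a : Fin k → ℂ → ℂ) (u : Fin k → R), (∀ i, AnalyticAt ℂ (a i) 0) ∧
    ∀ t, F t = ∑ i, a i t • u i

/-- The regularized sum of squares. -/
def rs (π : Proj R n) (j : ℕ → ℕ) (s : ℕ → R) (L N D : ℕ) (ε : ℝ) (p : Pt R) : ℝ :=
  ∑ l ∈ Finset.range L, (‖p (s l)‖ ^ 2) ^ (N / j l) + ε * gr (π.at p) ^ D

/-- The estimate away from the origin. -/
def QHyp (G : WS R K n) (π : Proj R n) (A : An π (G.ρ π.y)) (c₀ : ℝ) (j : ℕ → ℕ)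
    (F : ℕ → ℂ → R) (ξ : ℂ → R →ₗ[ℂ] ℂ) : Prop :=
  ∀ (L N D : ℕ) (c M : ℝ) (V : Submodule ℂ R), FiniteDimensional ℂ V → 0 < N →
    (∀ l < L, j l ∣ N) → c₀ < c → ∃ᶠ δ in 𝓝[>] (0 : ℝ), ∃ κ C : ℝ, 0 < κ ∧
      ∀ t : ℂ, δ ≤ ‖t‖ → ‖t‖ ≤ 2 * δ → ∀ ε : ℝ, 0 < ε → ε ≤ 1 → ∀ h ∈ V,
        ENNReal.ofReal (‖ξ t h‖ ^ 2) ≤ ENNReal.ofReal (C * ε ^ κ) *
          ∫⁻ p, ENNReal.ofReal (‖p.1 h‖ ^ 2 *
            rs π j (fun l => F l t) L N D ε p.1 ^ (-(c / N)) * dens G π M p.1) ∂A.S.μ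

end Fam

section Cases

variable {R K : Type} [CommRing R] [IsDomain R] [Algebra ℂ R] [Field K] [Algebra R K]
  [IsFractionRing R K] [Algebra ℂ K] {n : ℕ}

/-- `A(w)^n vol(w)`. -/
def nv (ω : PForm K n) (m : Ideal R) [m.IsPrime] (w : RVal K) : ℝ≥0∞ :=
  ENNReal.ofReal ((ω.A w).toReal ^ n) * vol m n w

/-- The bound. -/
def bd (n : ℕ) : ℝ≥0∞ := 2 * ((n - 1 : ℕ) : ℝ≥0∞) ^ n

/-- Some valuation beats the bound. -/
def Strict (ω : PForm K n) (m : Ideal R) [m.IsPrime] : Prop :=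
  ∃ w : RVal K, w.CenteredAt m ∧ ω.A w ≠ ⊤ ∧ nv ω m w < bd n

/-- The tangent cone is a nondegenerate quadric. -/
def DP (n : ℕ) (m : Ideal R) : Prop :=
  ∃ z : Fin (n + 1) → R, (∀ i, z i ∈ m) ∧ m ≤ Ideal.span (Set.range z) ⊔ m ^ 2 ∧
    ∑ i, z i ^ 2 ∈ m ^ 3

/-- `y` is a reduction of `m`, tested on valuations. -/
def IsRed (K : Type) [Field K] [Algebra R K] [Algebra ℂ K] {k : ℕ} (m : Ideal R) (y : Fin k → R) :
    Prop :=
  (∀ i, y i ∈ m) ∧ ∀ w : RVal K, w.CenteredAt m → ∀ r ∈ m, ∃ i,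
    algebraMap R K (y i) ≠ 0 ∧ w.Ge (algebraMap R K r) (w.v (algebraMap R K (y i)))

/-- `q R_q` is generated by `k` elements. -/
def LocGen (q : Ideal R) (k : ℕ) : Prop :=
  ∃ g : Fin k → R, (∀ i, g i ∈ q) ∧ ∀ r ∈ q, ∃ s, s ∉ q ∧ s * r ∈ Ideal.span (Set.range g)

/-- The fibre of the projection has length at most two at `m`. -/
def Len2 (π : Proj R n) (m : Ideal R) : Prop :=
  ∃ z ∈ m, m ≤ Ideal.span (insert z (Set.range π.y)) ⊔ m ^ 2 ∧
    z ^ 2 ∈ Ideal.span (Set.range π.y) ⊔ m ^ 3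

variable [IsScalarTower ℂ R K] (K)

/-- The algebraic closure of the function field. -/
abbrev Cl : Type := AlgebraicClosure K

/-- The canonical embedding. -/
def io : R →ₐ[ℂ] Cl K := (IsScalarTower.toAlgHom ℂ K (Cl K)).comp (IsScalarTower.toAlgHom ℂ R K)

/-- The conjugate embeddings. -/
def Proj.Emb (π : Proj R n) : Set (R →ₐ[ℂ] Cl K) := {σ | ∀ i, σ (π.y i) = io K (π.y i)}

/-- The ring generated by all conjugates. -/
def Proj.Rt (π : Proj R n) : Subalgebra ℂ (Cl K) :=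
  Algebra.adjoin ℂ (⋃ σ ∈ π.Emb K, Set.range σ)

/-- A conjugate embedding as a map to that ring. -/
def Proj.em (π : Proj R n) (σ : π.Emb K) : R →ₐ[ℂ] π.Rt K :=
  σ.1.codRestrict _ fun r =>
    Algebra.subset_adjoin (Set.mem_biUnion σ.2 (Set.mem_range_self r))

/-- The embeddings that agree with the point `x` at the point `x'`. -/
def Proj.EmbAt (π : Proj R n) (x : Pt R) (x' : Pt (π.Rt K)) : Set (π.Emb K) :=
  {σ | ∀ r, x' (π.em K σ r) = x r}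

end Cases

end Vale.Agent.P282
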