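import Vale.Agent.P282.AEmb

/-! Problem P282: tools for the case of singularities in codimension two. -/

open scoped ENNReal TensorProduct Topology
open Filter

noncomputable section

namespace Vale.Agent.P282

section Alg

variable {A F : Type} [CommRing A] [Field F] [Algebra F A]

theorem CSig_inv {m : Ideal A} (hm : m.IsMaximal) {S : A} (hS : S ∉ m) (N : ℕ) :
    ∃ U, U * S - 1 ∈ m ^ N := by
  have h1 : Ideal.span {S} ⊔ m = ⊤ := by
    by_contra h
    exact hS (hm.eq_of_le h le_sup_right ▸ Ideal.mem_sup_left (Ideal.mem_span_singleton_self S))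
  have h2 := Ideal.sup_pow_eq_top (n := N) h1
  obtain ⟨a, ha, b, hb, e⟩ := Submodule.mem_sup.1 (h2 ▸ Submodule.mem_top : (1 : A) ∈ _)
  obtain ⟨U, rfl⟩ := Ideal.mem_span_singleton'.1 ha
  refine ⟨U, ?_⟩
  rw [← e, sub_add_cancel_left]
  exact neg_mem hb

theorem CSig_cancel {m J : Ideal A} (hm : m.IsMaximal) {S x : A} (hS : S ∉ m) {N : ℕ}
    (hJ : m ^ N ≤ J) (hx : S * x ∈ J) : x ∈ J := by
  obtain ⟨U, hU⟩ := CSig_inv hm hS N
  have e : x = U * (S * x) - (U * S - 1) * x := by ring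
  rw [e]
  exact J.sub_mem (J.mul_mem_left _ hx) (J.mul_mem_right _ (hJ hU))

theorem CSig_col (ev : A →ₐ[F] F) (hm : (RingHom.ker ev).IsMaximal) {I Q : Ideal A} {Z S : A}
    (hS : S ∉ RingHom.ker ev)
    (hA : ∀ (N : ℕ) x, x - algebraMap F A (ev x) ∈ (I ⊔ RingHom.ker ev ^ N) ⊔ Q)
    (h1 : Ideal.span {S} * Q ≤ Ideal.span {Z} ⊔ I) (h2 : S * Z ^ 2 ∈ I) (N : ℕ) :
    (∀ x, ∃ b c : F, x - (b • 1 + c • Z) ∈ I ⊔ RingHom.ker ev ^ N) ∧
      RingHom.ker ev ^ 2 ≤ I ⊔ RingHom.ker ev ^ N := by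
  set J := I ⊔ RingHom.ker ev ^ N with hJ
  have hQ : Q ≤ J ⊔ Ideal.span {Z} := fun r hr =>
    CSig_cancel hm hS (le_sup_right.trans le_sup_left)
      ((sup_le le_sup_right (le_sup_left.trans le_sup_left) : _ ≤ J ⊔ Ideal.span {Z})
        (h1 (Ideal.mul_mem_mul (Ideal.mem_span_singleton_self S) hr)))
  have hZ2 : Z ^ 2 ∈ J := CSig_cancel hm hS le_sup_right (Ideal.mem_sup_left h2)
  have hB : ∀ x, ∃ c, x - algebraMap F A (ev x) - c * Z ∈ J := by
    intro x
    obtain ⟨a, ha, b, hb, e⟩ := Submodule.mem_sup.1 ((sup_le le_sup_left hQ) (hA N x))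
    obtain ⟨c, rfl⟩ := Ideal.mem_span_singleton'.1 hb
    exact ⟨c, by rw [← e, add_sub_cancel_right]; exact ha⟩
  constructor
  · intro x
    obtain ⟨c, hc⟩ := hB x
    obtain ⟨d, hd⟩ := hB c
    refine ⟨ev x, ev c, ?_⟩
    have e : x - (ev x • 1 + ev c • Z) = (x - algebraMap F A (ev x) - c * Z) +
        (c - algebraMap F A (ev c) - d * Z) * Z + d * Z ^ 2 := by
      simp only [Algebra.smul_def]
      ring
    rw [e]
    exact J.add_mem (J.add_mem hc (J.mul_mem_right _ hd)) (J.mul_mem_left _ hZ2)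
  · rw [sq]
    refine Ideal.mul_le.2 fun x hx y hy => ?_
    obtain ⟨c, hc⟩ := hB x
    obtain ⟨d, hd⟩ := hB y
    rw [RingHom.mem_ker] at hx hy
    rw [hx, map_zero, sub_zero] at hc
    rw [hy, map_zero, sub_zero] at hd
    have e : x * y = (x - c * Z) * y + c * Z * (y - d * Z) + c * d * Z ^ 2 := by ring
    rw [e]
    exact J.add_mem (J.add_mem (J.mul_mem_right _ hc) (J.mul_mem_left _ hd))
      (J.mul_mem_left _ hZ2)

end Alg

section Lev

variable {R : Type} [CommRing R] [Algebra ℂ R] {n : ℕ} [NeZero n] (a : WArc R n) (π : Proj R n)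

theorem CSig_lev_mul (i j : ℕ) : a.lev π i * a.lev π j ≤ a.lev π (i + j) := by
  refine le_iInf fun N => (Ideal.mul_mono (iInf_le _ N) (iInf_le _ N)).trans ?_
  rw [Ideal.sup_mul, Ideal.mul_sup]
  refine sup_le (sup_le (le_sup_of_le_left ?_) (le_sup_of_le_right Ideal.mul_le_right))
    (le_sup_of_le_right Ideal.mul_le_left)
  rw [Ideal.span_mul_span']
  refine Ideal.span_mono ?_
  rintro _ ⟨_, ⟨α, hα, rfl⟩, _, ⟨β, hβ, rfl⟩, rfl⟩
  refine ⟨α + β, ?_, ?_⟩
  · simp only [Pi.add_apply, mul_add, Finset.sum_add_distrib]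
    omega
  · simp only [Pi.add_apply, pow_add, Finset.prod_mul_distrib]

theorem CSig_s_mem (k : Fin n) {j : ℕ} (hj : j ≤ a.w k) : a.s π k ∈ a.lev π j := by
  refine Ideal.mem_iInf.2 fun N => Ideal.mem_sup_left (Ideal.subset_span ⟨Pi.single k 1, ?_, ?_⟩)
  · rw [Finset.sum_eq_single k (fun b _ hb => by simp [hb]) (by simp)]
    simpa using hj
  · rw [Finset.prod_eq_single k (fun b _ hb => by simp [hb]) (by simp)]
    simp

theorem CSig_lev_one (h : ∀ N : ℕ, a.toArc.m ^ 2 ≤ Ideal.span (Set.range (a.s π)) ⊔ a.toArc.m ^ N) :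
    a.toArc.m ^ 2 ≤ a.lev π 1 := by
  refine le_iInf fun N => (h N).trans (sup_le ?_ le_sup_right)
  rw [Ideal.span_le]
  rintro _ ⟨k, rfl⟩
  exact (iInf_le _ N : a.lev π 1 ≤ _) (CSig_s_mem a π k (a.w_pos k))

theorem CSig_IC_of_mem {x : RK R} {j : ℕ} (h : x ∈ a.lev π j) : a.IC π x j :=
  ⟨0, fun _ => x, fun i => by simpa using h, by simp⟩

theorem CSig_IC_two {x b c : RK R} {j : ℕ} (hb : b ∈ a.lev π j) (hc : c ∈ a.lev π (2 * j))
    (h : x ^ 2 = b * x + c) : a.IC π x j := by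
  refine ⟨1, ![b, c], fun i => ?_, ?_⟩
  · fin_cases i
    · simpa using hb
    · simpa using hc
  · simp [h]

end Lev

section Quot

variable {R : Type} [CommRing R] [Algebra ℂ R] [Algebra.FiniteType ℂ R]

/-- an arc inside a subvariety -/
theorem CSig_arc (a : Arc R) (q : Ideal R) (h0 : ∀ r ∈ q, a.γ 0 r = 0)
    (h : ∀ r ∈ q, a.hom r = 0) :
    ∃ b : Arc (R ⧸ q), ∀ r, b.hom (Ideal.Quotient.mk q r) = a.hom r := by
  classical
  have : IsNoetherianRing R := Algebra.FiniteType.isNoetherianRing ℂ R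
  obtain ⟨S, hS⟩ := (IsNoetherian.noetherian q : q.FG)
  have e1 : ∀ᶠ t in 𝓝 (0 : ℂ), ∀ r ∈ q, a.γ t r = 0 := by
    rw [← nhdsNE_sup_pure, eventually_sup]
    refine ⟨?_, h0⟩
    have e2 : ∀ᶠ t in 𝓝[≠] (0 : ℂ), ∀ r ∈ S, a.γ t r = 0 := by
      refine (eventually_all_finset S).2 fun r hr => ?_
      have h1 := a.hom_rep r
      rw [h r (hS ▸ Ideal.subset_span hr), ← map_zero (algebraMap ℂ MK)] at h1
      exact MK.Rep.unique h1 (MK.rep_const 0)
    filter_upwards [e2] with t ht r hr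
    have : q ≤ (a.γ t).m := by
      rw [← hS, Ideal.span_le]
      exact fun r hr => ht r hr
    exact this hr
  let γ : ℂ → Pt (R ⧸ q) := fun t =>
    if ht : ∀ r ∈ q, a.γ t r = 0 then Ideal.Quotient.liftₐ q (a.γ t).hom ht
    else Ideal.Quotient.liftₐ q (a.γ 0).hom h0
  have e3 : ∀ r, (fun t => a.γ t r) =ᶠ[𝓝 0] fun t => γ t (Ideal.Quotient.mk q r) := by
    intro r
    filter_upwards [e1] with t ht
    have : γ t = Ideal.Quotient.liftₐ q (a.γ t).hom ht := dif_pos ht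
    rw [this]
    rfl
  refine ⟨⟨γ, fun r => ?_⟩, fun r => ?_⟩
  · obtain ⟨r, rfl⟩ := Ideal.Quotient.mk_surjective r
    exact (a.an r).congr (e3 r)
  · exact MK.Rep.ext (Arc.hom_rep _ _) ((a.hom_rep r).congr ((e3 r).filter_mono nhdsWithin_le_nhds))

/-- the subvariety is etale at the arc -/
theorem CSig_et {k : ℕ} (a : Arc R) (q : Ideal R) [q.IsPrime] (h0 : ∀ r ∈ q, a.γ 0 r = 0)
    (h : ∀ r ∈ q, a.hom r = 0) {π : Proj (R ⧸ q) k} {y : Fin k → R}
    (hy : ∀ i, π.y i = Ideal.Quotient.mk q (y i)) {θ : R ⧸ q} {δ : R}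
    {P : Polynomial (MvPolynomial (Fin k) ℂ)} (he : π.EtW θ P (Ideal.Quotient.mk q δ))
    (hδ : a.hom δ ≠ 0) (N : ℕ) (x : RK R) :
    x - algebraMap MK (RK R) (a.ev x) ∈
      (Ideal.span (Set.range fun i => a.yq (y i)) ⊔ a.m ^ N) ⊔
        q.map (Algebra.TensorProduct.includeRight : R →ₐ[ℂ] RK R) := by
  obtain ⟨b, hb⟩ := CSig_arc a q h0 h
  let Φ : RK R →ₐ[MK] RK (R ⧸ q) :=
    Algebra.TensorProduct.map (AlgHom.id MK MK) (Ideal.Quotient.mkₐ ℂ q)
  have hs : Function.Surjective Φ :=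
    Algebra.TensorProduct.map_surjective _ _ Function.surjective_id Ideal.Quotient.mk_surjective
  have hk : RingHom.ker Φ = q.map (Algebra.TensorProduct.includeRight : R →ₐ[ℂ] RK R) := by
    rw [Algebra.TensorProduct.map_ker _ _ Function.surjective_id Ideal.Quotient.mk_surjective,
      (RingHom.injective_iff_ker_eq_bot _).1 Function.injective_id, Ideal.map_bot, bot_sup_eq]
    exact congrArg _ (Ideal.Quotient.mkₐ_ker ℂ q)
  have hev : ∀ x, b.ev (Φ x) = a.ev x := by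
    intro x
    induction x using TensorProduct.induction_on with
    | zero => simp
    | tmul c r =>
      rw [Algebra.TensorProduct.map_tmul, Arc.ev_tmul, Arc.ev_tmul]
      exact congrArg (c * ·) (hb r)
    | add x y hx hy => rw [map_add, map_add, map_add, hx, hy]
  have h1 := etW_arc he b (by rwa [hb]) N (Φ x)
  have h2 : Ideal.span (Set.range fun i => b.yq (π.y i)) ⊔ b.m ^ N ≤
      (Ideal.span (Set.range fun i => a.yq (y i)) ⊔ a.m ^ N).map Φ := by
    rw [Ideal.map_sup, Ideal.map_pow]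
    refine sup_le_sup ?_ (Ideal.pow_right_mono ?_ N)
    · rw [Ideal.span_le]
      rintro _ ⟨i, rfl⟩
      have : b.yq (π.y i) = Φ (a.yq (y i)) := by
        simp only [Arc.yq, map_sub, hy, hb, Φ, Algebra.TensorProduct.map_tmul, AlgHom.id_apply,
          map_one]
        rfl
      simp only [this]
      exact Ideal.mem_map_of_mem _ (Ideal.subset_span ⟨i, rfl⟩)
    · intro u hu
      obtain ⟨u, rfl⟩ := hs u
      refine Ideal.mem_map_of_mem _ ?_
      change a.ev u = 0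
      rw [← hev]
      exact hu
  rw [← hk, RingHom.ker_eq_comap_bot, ← Ideal.comap_map_of_surjective Φ hs, Ideal.mem_comap,
    map_sub, AlgHom.commutes, ← hev]
  exact h2 h1

end Quot

end Vale.Agent.P282
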