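import Vale.Agent.P282.QOne

set_option linter.unusedSectionVars false

open scoped ENNReal TensorProduct Topology
open Filter MeasureTheory

noncomputable section

namespace Vale.Agent.P282

variable {R K : Type} [CommRing R] [IsDomain R] [Algebra ℂ R] [Algebra.FiniteType ℂ R]
  [IsIntegrallyClosed R] [Field K] [Algebra R K] [IsFractionRing R K] [Algebra ℂ K]
  [IsScalarTower ℂ R K] {n : ℕ}

omit [IsDomain R] [Algebra.FiniteType ℂ R] [IsIntegrallyClosed R] in
/-- representatives of linear maps to germs -/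
theorem exists_rep_lin (l : R →ₗ[ℂ] MK) : ∃ ξ : ℂ → R →ₗ[ℂ] ℂ, (∀ u, (l u).Rep fun t => ξ t u) ∧
    ((∀ u, ∃ c, (l u).HasVal c) → ∀ u, AnalyticAt ℂ (fun t => ξ t u) 0) := by
  let b := Module.Basis.ofVectorSpace ℂ R
  have hex : ∀ a : MK, ∃ f, a.Rep f ∧ ((∃ c, a.HasVal c) → AnalyticAt ℂ f 0) := by
    intro a
    by_cases h : ∃ c, a.HasVal c
    · obtain ⟨c, f, h1, h2, -⟩ := h
      exact ⟨f, h2, fun _ => h1⟩
    · obtain ⟨f, -, hf⟩ := a.exists_rep
      exact ⟨f, hf, fun h' => absurd h' h⟩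
  choose f hf hf' using hex
  refine ⟨fun t => b.constr ℂ fun i => f (l (b i)) t, fun u => ?_, fun h u => ?_⟩
  · induction b.mem_span u using Submodule.span_induction with
    | mem x hx =>
      obtain ⟨i, rfl⟩ := hx
      simpa only [Module.Basis.constr_basis] using hf (l (b i))
    | zero => simpa only [map_zero] using MK.QBas_rep_zero
    | add x y _ _ h1 h2 => simpa only [map_add] using h1.add h2
    | smul c x _ h1 =>
      simp only [map_smul]
      rw [Algebra.smul_def]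
      exact (MK.rep_const c).mul h1
  · induction b.mem_span u using Submodule.span_induction with
    | mem x hx =>
      obtain ⟨i, rfl⟩ := hx
      simpa only [Module.Basis.constr_basis] using hf' (l (b i)) (h _)
    | zero => simpa only [map_zero] using analyticAt_const
    | add x y _ _ h1 h2 => simpa only [map_add] using h1.fun_add h2
    | smul c x _ h1 => simpa only [map_smul, smul_eq_mul] using analyticAt_const.fun_mul h1

theorem QHy_sum {r : ℕ} {x : ℂ} {b y : Fin r → ℂ} {B C : Fin r → ℝ} {e : ℝ} {I : ℝ≥0∞}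
    (hx : x = ∑ i, b i * y i) (hb : ∀ i, ‖b i‖ ≤ B i) (hC : ∀ i, 0 ≤ C i) (he : 0 ≤ e)
    (hy : ∀ i, ENNReal.ofReal (‖y i‖ ^ 2) ≤ ENNReal.ofReal (C i * e) * I) :
    ENNReal.ofReal (‖x‖ ^ 2) ≤ ENNReal.ofReal ((∑ i, r * B i ^ 2 * C i) * e) * I := by
  have h1 : ‖x‖ ≤ ∑ i, B i * ‖y i‖ := by
    rw [hx]
    refine (norm_sum_le _ _).trans (Finset.sum_le_sum fun i _ => ?_)
    rw [norm_mul]
    exact mul_le_mul_of_nonneg_right (hb i) (norm_nonneg _)
  have h2 : ‖x‖ ^ 2 ≤ ∑ i, r * B i ^ 2 * ‖y i‖ ^ 2 := by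
    refine (pow_le_pow_left₀ (norm_nonneg _) h1 2).trans (sq_sum_le_card_mul_sum_sq.trans ?_)
    rw [Finset.card_univ, Fintype.card_fin, Finset.mul_sum]
    exact le_of_eq (Finset.sum_congr rfl fun i _ => by ring)
  refine (ENNReal.ofReal_le_ofReal h2).trans ?_
  rw [Finset.sum_mul, ENNReal.ofReal_sum_of_nonneg fun i _ => by positivity,
    ENNReal.ofReal_sum_of_nonneg fun i _ => by have := hC i; positivity, Finset.sum_mul]
  refine Finset.sum_le_sum fun i _ => ?_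
  have h3 : (0 : ℝ) ≤ r * B i ^ 2 := by positivity
  rw [ENNReal.ofReal_mul h3, mul_assoc _ (C i), ENNReal.ofReal_mul h3, mul_assoc]
  exact mul_le_mul_right (hy i) _

theorem q_hyp [NeZero n] (G : WS R K n) (π : Proj R n) (A : An π (G.ρ π.y)) {r : ℕ}
    (a : Fin r → WArc R n) {c₀ : ℝ} (hc : 0 ≤ c₀) (ha : ∀ i, (a i).Good π G c₀) (β : Fin r → MK)
    (j : ℕ → ℕ) (F : ℕ → ℂ → R) (hA : ∀ l, AFam (F l)) (x : ℕ → RK R)
    (hx : ∀ i l, x l ∈ (a i).lev π (j l)) (hF : ∀ l, Rp (x l) (F l)) (ξ : ℂ → R →ₗ[ℂ] ℂ)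
    (hξ : ∀ u, (∑ i, β i * (a i).ξ (1 ⊗ₜ u)).Rep fun t => ξ t u) : QHyp G π A c₀ j F ξ := by
  intro L N D c M V hV hN hj hc'
  choose ζ hζ _ using fun i =>
    exists_rep_lin (((a i).ξ.restrictScalars ℂ).comp (TensorProduct.mk ℂ MK R 1))
  have hζ' : ∀ i u, ((a i).ξ (1 ⊗ₜ u)).Rep fun t => ζ i t u := hζ
  choose b _ hb using fun i => (β i).exists_rep
  have h1 : ∀ u, ∀ᶠ t in 𝓝[≠] (0 : ℂ), ξ t u = ∑ i, b i t * ζ i t u := fun u =>
    (hξ u).unique (MK.Rep.sum _ fun i _ => (hb i).mul (hζ' i u))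
  have h2 : ∀ᶠ t in 𝓝[≠] (0 : ℂ), ∀ h ∈ V, ξ t h = ∑ i, b i t * ζ i t h := by
    obtain ⟨S, rfl⟩ := (Submodule.fg_iff_finiteDimensional V).2 hV
    filter_upwards [(eventually_all_finset S).2 fun u _ => h1 u] with t ht h hh
    induction hh using Submodule.span_induction with
    | mem x hx => exact ht x hx
    | zero => simp only [map_zero, mul_zero, Finset.sum_const_zero]
    | add x y _ _ e1 e2 => simp only [map_add, mul_add, Finset.sum_add_distrib, e1, e2]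
    | smul d x _ e1 => simp only [map_smul, smul_eq_mul, e1, Finset.mul_sum, mul_left_comm]
  refine Eventually.frequently ?_
  filter_upwards [Ann.of_ev h2, eventually_all.2 fun i => Ann.rep (hb i), eventually_all.2 fun i =>
    q_one G π A (a i) hc (ha i) j F hA x (hx i) hF (ζ i) (hζ' i) D M V hN hj hc'] with δ d1 d2 d3
  obtain ⟨-, -, -, -, -, d1⟩ := d1
  choose B _ _ _ _ d2 using d2
  choose κ C hκ hC d3 using d3
  obtain ⟨κ₀, e1, e2⟩ := ((eventually_all.2 fun i => Ioc_mem_nhdsGT (hκ i)).and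
    (self_mem_nhdsWithin : Set.Ioi (0 : ℝ) ∈ 𝓝[>] 0)).exists
  refine ⟨κ₀, ∑ i, r * B i ^ 2 * C i, e2, fun t t1 t2 ε ε1 ε2 h hh => ?_⟩
  refine QHy_sum (d1 t t1 t2 h hh) (fun i => d2 i t t1 t2) (fun i => (hC i).le)
    (Real.rpow_nonneg ε1.le _) fun i => (d3 i t t1 t2 ε ε1 ε2 h hh).trans ?_
  exact mul_le_mul_left (ENNReal.ofReal_le_ofReal (mul_le_mul_of_nonneg_left
    (Real.rpow_le_rpow_of_exponent_ge ε1 ε2 (e1 i).2) (hC i).le)) _

end Vale.Agent.P282
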