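import Vale.Agent.P282.QDefs

set_option linter.unusedSectionVars false

open scoped ENNReal TensorProduct Topology
open Filter MeasureTheory

noncomputable section

namespace Vale.Agent.P282

theorem QCol_stab {F A : Type} [Field F] [CommRing A] [Algebra F A] {J m : Ideal A} {κ : Type}
    [Fintype κ] (e : κ → A) (h : ∀ (N : ℕ) (x : A), ∃ b : κ → F, x - ∑ l, b l • e l ∈ J ⊔ m ^ N)
    (N : ℕ) : m ^ Fintype.card κ ≤ J ⊔ m ^ N := by
  let U : ℕ → Submodule F (κ → F) := fun k =>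
    ((J ⊔ m ^ k).restrictScalars F).comap (Fintype.linearCombination F e)
  have hU : ∀ k b, b ∈ U k ↔ ∑ l, b l • e l ∈ J ⊔ m ^ k := fun k b => by
    simp only [U, Submodule.mem_comap, Submodule.restrictScalars_mem,
      Fintype.linearCombination_apply]
  have hd : ∀ k, J ⊔ m ^ (k + 1) ≤ J ⊔ m ^ k := fun k =>
    sup_le_sup_left (Ideal.pow_le_pow_right (Nat.le_succ k)) _
  obtain ⟨k, hk, hk'⟩ : ∃ k ≤ Fintype.card κ, U k ≤ U (k + 1) := by
    by_contra hc
    push Not at hc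
    have h1 : ∀ k ≤ Fintype.card κ + 1, Module.finrank F (U k) + k ≤ Fintype.card κ := by
      intro k
      induction k with
      | zero =>
        intro _
        have h2 := Submodule.finrank_le (U 0)
        rwa [Module.finrank_fintype_fun_eq_card] at h2
      | succ k ih =>
        intro hk
        have h2 : U (k + 1) < U k :=
          lt_of_le_not_ge (fun b hb => (hU k b).2 (hd k ((hU _ b).1 hb))) (hc k (by omega))
        have h3 := Submodule.finrank_lt_finrank_of_lt h2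
        have h4 := ih (by omega)
        omega
    have h2 := h1 _ le_rfl
    omega
  have h1 : m ^ k ≤ J ⊔ m ^ (k + 1) := fun x hx => by
    obtain ⟨b, hb⟩ := h (k + 1) x
    have h2 : ∑ l, b l • e l ∈ J ⊔ m ^ k := by
      have h3 := Submodule.sub_mem _ (Ideal.mem_sup_right hx) (hd k hb)
      rwa [sub_sub_cancel] at h3
    have h3 := Submodule.add_mem _ hb ((hU _ b).1 (hk' ((hU k b).2 h2)))
    rwa [sub_add_cancel] at h3
  have h2 : ∀ i, m ^ k ≤ J ⊔ m ^ (k + i) := by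
    intro i
    induction i with
    | zero => exact le_sup_right
    | succ i ih =>
      refine h1.trans (sup_le le_sup_left ?_)
      rw [pow_succ, ← add_assoc, pow_succ]
      refine (Ideal.mul_mono_left ih).trans ?_
      rw [Ideal.sup_mul]
      exact sup_le_sup_right Ideal.mul_le_left _
  exact (Ideal.pow_le_pow_right hk).trans ((h2 N).trans
    (sup_le_sup_left (Ideal.pow_le_pow_right (Nat.le_add_left _ _)) _))

theorem QCol_single {A : Type} [CommRing A] {n : ℕ} (s : Fin n → A) (α : Fin n → ℕ) (i : Fin n) :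
    ∏ k, s k ^ (α + Pi.single i 1 : Fin n → ℕ) k = s i * ∏ k, s k ^ α k := by
  simp only [Pi.add_apply, pow_add, Finset.prod_mul_distrib]
  rw [mul_comm, Finset.prod_eq_single i (fun k _ hk => by simp [hk]) (by simp)]
  simp

theorem QCol_wt {n : ℕ} (w α : Fin n → ℕ) (i : Fin n) :
    ∑ k, w k * (α + Pi.single i 1 : Fin n → ℕ) k = ∑ k, w k * α k + w i := by
  simp only [Pi.add_apply, mul_add, Finset.sum_add_distrib]
  rw [Finset.sum_eq_single (f := fun k => w k * (Pi.single i 1 : Fin n → ℕ) k) i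
    (fun k _ hk => by simp [hk]) (by simp)]
  simp

theorem QCol_span {F A : Type} [Field F] [CommRing A] [Algebra F A] {n : ℕ} {ι : Type} [Fintype ι]
    (s : Fin n → A) (w : Fin n → ℕ) (hw : ∀ i, 0 < w i) (Z : ι → A) (M : Ideal A)
    (h : ∀ x : A, ∃ b : ι → F, x - ∑ i, b i • Z i ∈ Ideal.span (Set.range s) ⊔ M) (j : ℕ)
    (T : Finset (Fin n → ℕ)) (hT : ∀ α, ∑ i, w i * α i < j → α ∈ T) (x : A) :
    ∃ b : ι × T → F, x - ∑ l, b l • (Z l.1 * ∏ i, s i ^ l.2.1 i) ∈
      Ideal.span {x | ∃ α : Fin n → ℕ, j ≤ ∑ k, w k * α k ∧ x = ∏ k, s k ^ α k} ⊔ M := by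
  set I := Ideal.span {x | ∃ α : Fin n → ℕ, j ≤ ∑ k, w k * α k ∧ x = ∏ k, s k ^ α k} ⊔ M with hI
  let U : Submodule F A :=
    Submodule.span F (Set.range fun l : ι × T => Z l.1 * ∏ i, s i ^ l.2.1 i) ⊔ I.restrictScalars F
  have h0 : ∀ (α : Fin n → ℕ) (x : A), j ≤ ∑ k, w k * α k → x * ∏ k, s k ^ α k ∈ U :=
    fun α x hα => Submodule.mem_sup_right (show _ ∈ I from
      Ideal.mem_sup_left (Ideal.mul_mem_left _ _ (Ideal.subset_span ⟨α, hα, rfl⟩)))
  have h1 : ∀ (d : ℕ) (α : Fin n → ℕ) (x : A), j ≤ ∑ k, w k * α k + d →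
      x * ∏ k, s k ^ α k ∈ U := by
    intro d
    induction d with
    | zero => exact h0
    | succ d ih =>
      intro α x hα
      by_cases h2 : j ≤ ∑ k, w k * α k
      · exact h0 α x h2
      obtain ⟨b, hb⟩ := h x
      obtain ⟨u, hu, y, hy, h3⟩ := Submodule.mem_sup.1 hb
      obtain ⟨c, rfl⟩ := Ideal.mem_span_range_iff_exists_fun.1 hu
      have h4 : x * ∏ k, s k ^ α k = ∑ i, b i • (Z i * ∏ k, s k ^ α k) +
          (∑ i, c i * ∏ k, s k ^ (α + Pi.single i 1 : Fin n → ℕ) k + y * ∏ k, s k ^ α k) := by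
        rw [eq_sub_iff_add_eq] at h3
        rw [← h3, add_mul, add_mul, Finset.sum_mul, Finset.sum_mul, add_comm]
        simp only [QCol_single, smul_mul_assoc, mul_assoc]
      rw [h4]
      refine U.add_mem (U.sum_mem fun i _ => U.smul_mem _ (Submodule.mem_sup_left
        (Submodule.subset_span ⟨(i, ⟨α, hT α (not_le.1 h2)⟩), rfl⟩)))
        (U.add_mem (U.sum_mem fun i _ => ih _ _ ?_) (Submodule.mem_sup_right (show _ ∈ I from
          Ideal.mem_sup_right (Ideal.mul_mem_right _ _ hy))))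
      rw [QCol_wt]
      have := hw i
      omega
  have h2 := h1 j 0 x (by simp)
  simp only [Pi.zero_apply, pow_zero, Finset.prod_const_one, mul_one] at h2
  obtain ⟨u, hu, y, hy, rfl⟩ := Submodule.mem_sup.1 h2
  obtain ⟨b, rfl⟩ := (Submodule.mem_span_range_iff_exists_fun F).1 hu
  exact ⟨b, by rwa [add_sub_cancel_left]⟩

variable {R K : Type} [CommRing R] [IsDomain R] [Algebra ℂ R] [Algebra.FiniteType ℂ R]
  [IsIntegrallyClosed R] [Field K] [Algebra R K] [IsFractionRing R K] [Algebra ℂ K]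
  [IsScalarTower ℂ R K] {n : ℕ}

variable [NeZero n] {π : Proj R n} {a : WArc R n} {k : ℕ} {z : Fin k → R} {S : Fin n → ℂ → R}


omit [IsDomain R] [Algebra.FiniteType ℂ R] [IsIntegrallyClosed R]

/-- a descending chain of bounded codimension is stationary -/
theorem stab {J m : Ideal (RK R)} {κ : Type} [Fintype κ] (e : κ → RK R)
    (h : ∀ (N : ℕ) (x : RK R), ∃ b : κ → MK, x - ∑ l, b l • e l ∈ J ⊔ m ^ N) (N : ℕ) :
    m ^ Fintype.card κ ≤ J ⊔ m ^ N := QCol_stab e h N

theorem WArc.Col.pow (h : a.Col π) (N : ℕ) :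
    a.toArc.m ^ a.l ≤ Ideal.span (Set.range (a.s π)) ⊔ a.toArc.m ^ N := by
  have h1 := stab a.Z h N
  rwa [Fintype.card_fin] at h1

theorem WArc.Col.pow_lev (h : a.Col π) : a.toArc.m ^ a.l ≤ a.lev π 1 := by
  refine le_iInf fun N => (h.pow N).trans (sup_le_sup_right (Ideal.span_mono ?_) _)
  rintro _ ⟨i, rfl⟩
  refine ⟨0 + Pi.single i 1, ?_, ?_⟩
  · rw [QCol_wt]
    have := a.w_pos i
    omega
  · rw [QCol_single]
    simp

theorem WArc.lev_le (a : WArc R n) (π : Proj R n) (j N : ℕ) :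
    a.lev π j ≤ a.mon π j ⊔ a.toArc.m ^ N := iInf_le _ N

theorem WArc.Col.span_lev (h : a.Col π) (j : ℕ) (T : Finset (Fin n → ℕ))
    (hT : ∀ α, ∑ i, a.w i * α i < j → α ∈ T) (x : RK R) : ∃ b : Fin a.l × T → MK,
      x - ∑ l, b l • (a.Z l.1 * ∏ i, a.s π i ^ l.2.1 i) ∈ a.lev π j := by
  have h1 := fun N => QCol_span (a.s π) a.w a.w_pos a.Z (a.toArc.m ^ N) (h N) j T hT
  obtain ⟨b, hb⟩ := h1 (Fintype.card (Fin a.l × T)) x
  exact ⟨b, (Submodule.mem_iInf _).2 fun N => sup_le le_sup_left (stab _ h1 N) hb⟩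

end Vale.Agent.P282
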