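import Vale.Agent.P282.QCnt
import Vale.Agent.P282.QCol
import Vale.Agent.P282.AVol

set_option linter.unusedSectionVars false

open scoped ENNReal TensorProduct Topology
open Filter MeasureTheory

noncomputable section

namespace Vale.Agent.P282

variable {R K : Type} [CommRing R] [IsDomain R] [Algebra ℂ R] [Algebra.FiniteType ℂ R]
  [IsIntegrallyClosed R] [Field K] [Algebra R K] [IsFractionRing R K] [Algebra ℂ K]
  [IsScalarTower ℂ R K] {n : ℕ}

variable [NeZero n] {π : Proj R n} {r : ℕ} {a : Fin r → WArc R n}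

omit [IsDomain R] [Algebra.FiniteType ℂ R] [IsIntegrallyClosed R] in
theorem QLim_pow {x : RK R} {u : R} (h : Lim x u) (k : ℕ) : Lim (x ^ k) (u ^ k) := by
  induction k with
  | zero => rw [pow_zero, pow_zero]; exact Lim.one_tmul 1
  | succ k ih => rw [pow_succ, pow_succ]; exact ih.mul h

omit [IsDomain R] [Algebra.FiniteType ℂ R] [IsIntegrallyClosed R] in
theorem QLim_prod {ι : Type} (s : Finset ι) {x : ι → RK R} {u : ι → R} (h : ∀ i, Lim (x i) (u i)) :
    Lim (∏ i ∈ s, x i) (∏ i ∈ s, u i) := by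
  classical
  induction s using Finset.induction_on with
  | empty => rw [Finset.prod_empty, Finset.prod_empty]; exact Lim.one_tmul 1
  | insert j s hj ih => rw [Finset.prod_insert hj, Finset.prod_insert hj]; exact (h j).mul ih

/-- the limits form an ideal -/
def QLim_id (a : Fin r → WArc R n) (π : Proj R n) (k : ℕ) : Ideal R where
  carrier := LimLev a π k
  zero_mem' := ⟨0, fun _ => zero_mem _, Lim.zero⟩
  add_mem' := fun ⟨x, h1, h2⟩ ⟨y, h3, h4⟩ => ⟨x + y, fun i => add_mem (h1 i) (h3 i), h2.add h4⟩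
  smul_mem' := fun c _ ⟨_, h1, h2⟩ =>
    ⟨_, fun i => Ideal.mul_mem_left _ _ (h1 i), (Lim.one_tmul c).mul h2⟩

theorem pow_mem_limLev {x : Pt R} (hx : ∀ i, (a i).γ 0 = x) (h : ∀ i, (a i).Col π) {u : R}
    (hu : u ∈ x.m) : u ^ (∑ i, (a i).l) ∈ LimLev a π 1 := by
  refine ⟨∏ i, (a i).toArc.yq u ^ (a i).l, fun i => ?_, ?_⟩
  · rw [← Finset.mul_prod_erase _ _ (Finset.mem_univ i)]
    exact Ideal.mul_mem_right _ _ ((h i).pow_lev (Ideal.pow_mem_pow ((a i).toArc.yq_mem u) _))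
  · rw [← Finset.prod_pow_eq_pow_sum]
    refine QLim_prod _ fun i => QLim_pow ?_ _
    have h1 := Lim.yq (a i).toArc u
    rwa [hx i, Pt.mem_m.1 hu, map_zero, sub_zero] at h1

/-- an enumeration of generators -/
theorem exists_enum (h : ∃ u ∈ LimLev a π 1, u ≠ 0) : ∃ (j : ℕ → ℕ) (F : ℕ → ℂ → R) (x : ℕ → RK R),
    (∀ l, 0 < j l) ∧ (∀ l, AFam (F l)) ∧ F 0 0 ≠ 0 ∧ (∀ i l, x l ∈ (a i).lev π (j l)) ∧
    (∀ l, Rp (x l) (F l)) ∧ ∀ k, 0 < k → ∀ u ∈ LimLev a π k,
      u ∈ Ideal.span {v | ∃ l, j l = k ∧ v = F l 0} := by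
  obtain ⟨u₀, hu₀, hne⟩ := h
  have := Algebra.FiniteType.isNoetherianRing ℂ R
  have h1 : ∀ k, ∃ g : ℕ → R, (∀ i, g i ∈ LimLev a π k) ∧
      ∀ u ∈ LimLev a π k, u ∈ Ideal.span (Set.range g) := by
    intro k
    obtain ⟨s, hs⟩ := IsNoetherian.noetherian (QLim_id a π k)
    obtain ⟨g, hg⟩ := (s.countable_toSet.insert 0).exists_eq_range (Set.insert_nonempty _ _)
    refine ⟨g, fun i => ?_, fun u hu => ?_⟩
    · have h2 : g i ∈ insert (0 : R) (s : Set R) := hg ▸ Set.mem_range_self i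
      change g i ∈ QLim_id a π k
      rcases h2 with h2 | h2
      · rw [h2]; exact zero_mem _
      · rw [← hs]; exact Submodule.subset_span h2
    · have h2 : u ∈ QLim_id a π k := hu
      rw [← hs] at h2
      rw [← hg]
      exact Submodule.span_mono (Set.subset_insert _ _) h2
  choose g hg hg' using h1
  let j : ℕ → ℕ := fun l => Nat.casesOn l 1 fun l => l.unpair.1 + 1
  let v : ℕ → R := fun l => Nat.casesOn l u₀ fun l => g (l.unpair.1 + 1) l.unpair.2
  have h2 : ∀ l, v l ∈ LimLev a π (j l) := by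
    rintro (_ | l)
    exacts [hu₀, hg _ _]
  choose x hx hx' using h2
  choose F hF hF0 hFx using fun l => (hx' l).fam
  refine ⟨j, F, x, ?_, hF, by rw [hF0]; exact hne, fun i l => hx l i, hFx, fun k hk u hu => ?_⟩
  · rintro (_ | l)
    exacts [one_pos, Nat.succ_pos _]
  · obtain ⟨k, rfl⟩ : ∃ k', k = k' + 1 := ⟨k - 1, by omega⟩
    refine Ideal.span_mono ?_ (hg' _ u hu)
    rintro _ ⟨i, rfl⟩
    refine ⟨Nat.pair k i + 1, ?_, ?_⟩
    · simp only [j, Nat.unpair_pair]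
    · simp only [hF0, v, Nat.unpair_pair]

theorem vol_le_lim (x : Pt R) (h : ∀ i, (a i).Col π) {w : RVal K} (hw : w.CenteredAt x.m) {τ : ℝ}
    (hτ : 0 < τ) (hl : ∀ j : ℕ, ∀ u ∈ LimLev a π j, w.Ge (algebraMap R K u) (j * τ)) :
    vol x.m n w ≤ ENNReal.ofReal ((∑ i, ((a i).l : ℝ) / ∏ k, ((a i).w k : ℝ)) / τ ^ n) := by
  refine vol_le x hw (C := ∑ i, ∑ k, ((a i).w k : ℝ)) hτ (by positivity) (fun j => ?_)
    (by positivity)
  choose T hT hT' using fun i => cnt_le (a i).w (a i).w_pos j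
  have h1 := lim_codim (I := fun i => ((a i).lev π j).restrictScalars MK)
    (κ := fun i => Fin (a i).l × T i) (fun i l => (a i).Z l.1 * ∏ k, (a i).s π k ^ l.2.1 k)
    (fun i y => (h i).span_lev j (T i) (hT i) y) (w.sub R (j * τ))
    (fun y u hy hu => hl j u ⟨y, hy, hu⟩)
  have h2 : (Module.finrank ℂ (R ⧸ w.sub R (j * τ)) : ℝ) ≤ ∑ i, ((a i).l : ℝ) * (T i).card := by
    simp only [Fintype.card_prod, Fintype.card_fin, Fintype.card_coe] at h1
    exact_mod_cast h1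
  refine (mul_le_mul_of_nonneg_left h2 (Nat.cast_nonneg _)).trans ?_
  rw [Finset.mul_sum, Finset.sum_mul]
  refine Finset.sum_le_sum fun i _ => ?_
  have h3 : ∑ k, ((a i).w k : ℝ) ≤ ∑ i, ∑ k, ((a i).w k : ℝ) :=
    Finset.single_le_sum (f := fun i => ∑ k, ((a i).w k : ℝ)) (fun i _ => by positivity)
      (Finset.mem_univ i)
  rw [mul_left_comm, div_mul_eq_mul_div, mul_div_assoc]
  refine mul_le_mul_of_nonneg_left ((hT' i).trans ?_) (Nat.cast_nonneg _)
  gcongr

end Vale.Agent.P282
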