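import Vale.Agent.P282.SAn0
import Vale.Agent.P271.HMeas
import Vale.Agent.P271.HSh1

set_option linter.unusedSectionVars false

open scoped ENNReal TensorProduct Topology
open Filter MeasureTheory

noncomputable section

namespace Vale.Agent.P282

variable {R K : Type} [CommRing R] [IsDomain R] [Algebra ℂ R] [Algebra.FiniteType ℂ R]
  [IsIntegrallyClosed R] [Field K] [Algebra R K] [IsFractionRing R K] [Algebra ℂ K]
  [IsScalarTower ℂ R K] {n : ℕ}

omit [IsIntegrallyClosed R] in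
theorem SAn1_etW (π : Proj R n) : ∃ θ P δ, π.EtW θ P δ ∧ δ ≠ 0 ∧
    ∀ H : Polynomial (MvPolynomial (Fin n) ℂ),
      H.eval₂ (MvPolynomial.aeval π.y).toRingHom θ = 0 → P ∣ H := by
  let : Algebra (MvPolynomial (Fin n) ℂ) R := (MvPolynomial.aeval π.y).toRingHom.toAlgebra
  have : Module.Finite (MvPolynomial (Fin n) ℂ) R := π.fin
  have : FaithfulSMul (MvPolynomial (Fin n) ℂ) R :=
    (faithfulSMul_iff_algebraMap_injective _ _).2 π.ind
  obtain ⟨θ, h1, h2⟩ := SAn0_prim (A := MvPolynomial (Fin n) ℂ) (B := R)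
  exact ⟨θ, minpoly _ θ, _, ⟨minpoly.monic (Algebra.IsIntegral.isIntegral θ), minpoly.aeval _ θ,
    rfl, h2⟩, h1, fun H hH =>
      minpoly.isIntegrallyClosed_dvd (Algebra.IsIntegral.isIntegral θ) hH⟩

/-- evaluation of a polynomial with polynomial coefficients -/
def SAn1_ev (H : Polynomial (MvPolynomial (Fin n) ℂ)) (u : E n × ℂ) : ℂ :=
  H.eval₂ (MvPolynomial.eval u.1) u.2

theorem SAn1_an (H : Polynomial (MvPolynomial (Fin n) ℂ)) (u : E n × ℂ) :
    AnalyticAt ℂ (SAn1_ev H) u := by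
  have e : SAn1_ev H = fun u : E n × ℂ => ∑ i ∈ Finset.range (H.natDegree + 1),
      MvPolynomial.eval u.1 (H.coeff i) * u.2 ^ i := by
    funext u
    exact Polynomial.eval₂_eq_sum_range _ _
  rw [e]
  refine Finset.analyticAt_fun_sum _ fun i _ => AnalyticAt.mul ?_ (analyticAt_snd.pow i)
  exact (AnalyticOnNhd.eval_mvPolynomial (H.coeff i) u.1 (Set.mem_univ _)).comp analyticAt_fst

theorem SAn1_aeval (π : Proj R n) (p : Pt R) (N : MvPolynomial (Fin n) ℂ) :
    p (MvPolynomial.aeval π.y N) = MvPolynomial.eval (π.at p) N := by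
  have h := MvPolynomial.comp_aeval_apply π.y p.hom N
  rw [← MvPolynomial.coe_aeval_eq_eval]
  exact h

theorem SAn1_pt (π : Proj R n) (p : Pt R) (θ : R) (H : Polynomial (MvPolynomial (Fin n) ℂ)) :
    p (H.eval₂ (MvPolynomial.aeval π.y).toRingHom θ) = SAn1_ev H (π.at p, p θ) := by
  have h := Polynomial.hom_eval₂ H (MvPolynomial.aeval π.y).toRingHom p.hom.toRingHom θ
  refine h.trans ?_
  rw [SAn1_ev]
  congr 1
  exact RingHom.ext fun N => SAn1_aeval π p N

theorem SAn1_root (π : Proj R n) {θ : R} {P : Polynomial (MvPolynomial (Fin n) ℂ)}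
    (hmin : ∀ H : Polynomial (MvPolynomial (Fin n) ℂ),
      H.eval₂ (MvPolynomial.aeval π.y).toRingHom θ = 0 → P ∣ H) {z : E n} {c : ℂ}
    (h : SAn1_ev P (z, c) = 0) : ∃ p : Pt R, π.at p = z ∧ p θ = c := by
  let ψ : Polynomial (MvPolynomial (Fin n) ℂ) →+* R :=
    Polynomial.eval₂RingHom (MvPolynomial.aeval π.y).toRingHom θ
  let χ : Polynomial (MvPolynomial (Fin n) ℂ) →+* ℂ :=
    Polynomial.eval₂RingHom (MvPolynomial.eval z) c
  have hψ : ψ.IsIntegral := by
    refine RingHom.IsIntegral.tower_top Polynomial.C ψ ?_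
    have e : ψ.comp Polynomial.C = (MvPolynomial.aeval π.y).toRingHom :=
      RingHom.ext fun N => Polynomial.eval₂_C _ _
    rw [e]
    exact RingHom.Finite.to_isIntegral π.fin
  let := ψ.toAlgebra
  have : Algebra.IsIntegral (Polynomial (MvPolynomial (Fin n) ℂ)) R := ⟨hψ⟩
  have : (RingHom.ker χ).IsMaximal := RingHom.ker_isMaximal_of_surjective χ fun a =>
    ⟨Polynomial.C (MvPolynomial.C a), by simp [χ]⟩
  obtain ⟨Q, hQ, hc⟩ := Ideal.exists_ideal_over_maximal_of_isIntegral (S := R) (RingHom.ker χ) (by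
    intro H hH
    obtain ⟨G, rfl⟩ := hmin H hH
    rw [RingHom.mem_ker, map_mul]
    exact mul_eq_zero_of_left h _)
  obtain ⟨x, hx⟩ := exists_pt Q
  have key : ∀ H, χ H = 0 → x (ψ H) = 0 := fun H hH => by
    rw [← Pt.mem_m, hx]
    have : H ∈ Q.comap (algebraMap _ R) := hc ▸ hH
    exact this
  have h2 : ∀ H, χ H = 0 → SAn1_ev H (π.at x, x θ) = 0 := fun H hH =>
    (SAn1_pt π x θ H).symm.trans (key H hH)
  refine ⟨x, funext fun i => ?_, ?_⟩
  · have := h2 (Polynomial.C (MvPolynomial.X i - MvPolynomial.C (z i))) (by simp [χ])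
    simpa [SAn1_ev, sub_eq_zero] using this
  · have := h2 (Polynomial.X - Polynomial.C (MvPolynomial.C c)) (by simp [χ])
    simpa [SAn1_ev, sub_eq_zero] using this

theorem SAn1_uniq {π : Proj R n} {θ δ : R} {P : Polynomial (MvPolynomial (Fin n) ℂ)}
    (et : π.EtW θ P δ) {p q : Pt R} (h1 : π.at p = π.at q) (h2 : p θ = q θ) (hδ : p δ ≠ 0) :
    p = q := by
  refine DFunLike.ext _ _ fun r => ?_
  obtain ⟨H, hH⟩ := et.gen r
  have e1 : p δ = q δ := by rw [et.der, SAn1_pt, SAn1_pt, h1, h2]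
  have e2 : p (δ * r) = q (δ * r) := by rw [hH, SAn1_pt, SAn1_pt, h1, h2]
  rw [map_mul, map_mul, ← e1] at e2
  exact mul_left_cancel₀ hδ e2

theorem SAn1_inv (P : Polynomial (MvPolynomial (Fin n) ℂ)) (u : E n × ℂ)
    (h : SAn1_ev P.derivative u ≠ 0) :
    (fderiv ℂ (SAn1_ev P) u ∘L ContinuousLinearMap.inr ℂ (E n) ℂ).IsInvertible := by
  have h1 : HasFDerivAt (fun c : ℂ => SAn1_ev P (u.1, c))
      (fderiv ℂ (SAn1_ev P) u ∘L ContinuousLinearMap.inr ℂ (E n) ℂ) u.2 :=
    HasFDerivAt.comp (f := fun c : ℂ => (u.1, c)) u.2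
      (SAn1_an P u).differentiableAt.hasFDerivAt (hasFDerivAt_prodMk_right u.1 u.2)
  have h2 : HasDerivAt (fun c : ℂ => SAn1_ev P (u.1, c)) (SAn1_ev P.derivative u) u.2 := by
    have := (P.map (MvPolynomial.eval u.1)).hasDerivAt u.2
    simpa only [Polynomial.derivative_map, Polynomial.eval_map, SAn1_ev] using this
  rw [h1.unique h2.hasFDerivAt]
  refine ⟨ContinuousLinearEquiv.unitsEquivAut ℂ (Units.mk0 _ h), ?_⟩
  ext
  simp

theorem SAn1_chart {π : Proj R n} {θ δ : R} {P : Polynomial (MvPolynomial (Fin n) ℂ)}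
    (et : π.EtW θ P δ) {Δ : MvPolynomial (Fin n) ℂ} (hδ : ∀ p : π.W Δ, p.1 δ ≠ 0)
    (hroot : ∀ z, MvPolynomial.eval z Δ ≠ 0 → ∀ c, SAn1_ev P (z, c) = 0 →
      ∃ p : π.W Δ, π.at p.1 = z ∧ p.1 θ = c) (p₀ : π.W Δ) :
    ∃ e : OpenPartialHomeomorph (π.W Δ) (E n), p₀ ∈ e.source ∧ (∀ p, e p = π.at p.1) ∧
      ∀ r, DifferentiableOn ℂ (fun z => (e.symm z).1 r) e.target := by
  classical
  have hP : ∀ p : Pt R, SAn1_ev P (π.at p, p θ) = 0 := fun p => by
    rw [← SAn1_pt, et.root, map_zero]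
  have hD : ∀ p : Pt R, p δ = SAn1_ev P.derivative (π.at p, p θ) := fun p => by
    rw [← SAn1_pt, ← et.der]
  have cdf : ContDiffAt ℂ 1 (SAn1_ev P) (π.at p₀.1, p₀.1 θ) := (SAn1_an P _).contDiffAt
  have hi := SAn1_inv P (π.at p₀.1, p₀.1 θ) (hD p₀.1 ▸ hδ p₀)
  have a1 := cdf.eventually_apply_eq_iff_implicitFunction one_ne_zero hi
  have a2 := cdf.eventually_apply_implicitFunction one_ne_zero hi
  have a3 := cdf.contDiffAt_implicitFunction one_ne_zero hi
  have a4 := cdf.implicitFunction_apply_self one_ne_zero hi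
  set T := cdf.implicitFunction one_ne_zero hi
  rw [hP] at a1 a2
  obtain ⟨U₁, hU₁, V₁, hV₁, hUV⟩ := mem_nhds_prod_iff.1 a1
  obtain ⟨V, hVV, hVo, hV⟩ := mem_nhds_iff.1 hV₁
  have b1 : ∀ᶠ z in 𝓝 (π.at p₀.1), T z ∈ V :=
    a3.continuousAt.preimage_mem_nhds (by rw [a4]; exact hVo.mem_nhds hV)
  have b2 : ∀ᶠ z in 𝓝 (π.at p₀.1), DifferentiableAt ℂ T z :=
    (a3.eventually (by simp)).mono fun z hz => hz.differentiableAt one_ne_zero
  have b3 : ∀ᶠ z in 𝓝 (π.at p₀.1), MvPolynomial.eval z Δ ≠ 0 :=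
    (MvPolynomial.continuous_eval Δ).continuousAt.eventually_ne p₀.2
  obtain ⟨U, hUU, hUo, hU⟩ := eventually_nhds_iff.1
    ((((b1.and b2).and b3).and a2).and (show ∀ᶠ z in 𝓝 (π.at p₀.1), z ∈ U₁ from hU₁))
  have hq : ∀ z, ∃ p : π.W Δ, z ∈ U → π.at p.1 = z ∧ p.1 θ = T z := fun z => by
    by_cases hz : z ∈ U
    · obtain ⟨p, hp⟩ := hroot z (hUU z hz).1.1.2 (T z) (hUU z hz).1.2
      exact ⟨p, fun _ => hp⟩
    · exact ⟨p₀, fun h => absurd h hz⟩
  choose q hq using hq
  have hdiff : ∀ r, DifferentiableOn ℂ (fun z => (q z).1 r) U := by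
    intro r
    obtain ⟨H, hH⟩ := et.gen r
    have d1 : ∀ (G : Polynomial (MvPolynomial (Fin n) ℂ)), ∀ z ∈ U,
        DifferentiableAt ℂ (fun z => SAn1_ev G (z, T z)) z := fun G z hz =>
      (SAn1_an G _).differentiableAt.comp z (differentiableAt_id.prodMk (hUU z hz).1.1.1.2)
    have d2 : ∀ z ∈ U, (q z).1 δ = SAn1_ev P.derivative (z, T z) := fun z hz => by
      rw [hD, (hq z hz).1, (hq z hz).2]
    refine DifferentiableOn.congr (f := fun z => SAn1_ev H (z, T z) / SAn1_ev P.derivative (z, T z))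
      (fun z hz => ?_) fun z hz => ?_
    · simp only [div_eq_mul_inv]
      exact ((d1 H z hz).mul ((d1 _ z hz).inv (d2 z hz ▸ hδ _))).differentiableWithinAt
    rw [eq_div_iff (d2 z hz ▸ hδ _), ← d2 z hz, mul_comm, ← map_mul, hH, SAn1_pt, (hq z hz).1,
      (hq z hz).2]
  have hc : Continuous fun p : π.W Δ => π.at p.1 :=
    continuous_pi fun i => (Pt.cont _).comp continuous_subtype_val
  refine ⟨{ toFun := fun p => π.at p.1
            invFun := q
            source := {p | π.at p.1 ∈ U ∧ p.1 θ ∈ V}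
            target := U
            map_source' := fun p hp => hp.1
            map_target' := fun z hz => ?_
            left_inv' := fun p hp => ?_
            right_inv' := fun z hz => (hq z hz).1
            open_source := (hUo.preimage hc).inter
              (hVo.preimage ((Pt.cont θ).comp continuous_subtype_val))
            open_target := hUo
            continuousOn_toFun := hc.continuousOn
            continuousOn_invFun := ?_ }, ⟨hU, hV⟩, fun _ => rfl, hdiff⟩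
  · show π.at (q z).1 ∈ U ∧ (q z).1 θ ∈ V
    rw [(hq z hz).1, (hq z hz).2]
    exact ⟨hz, (hUU z hz).1.1.1.1⟩
  · refine Subtype.ext (SAn1_uniq et (hq _ hp.1).1 ?_ (hδ _))
    rw [(hq _ hp.1).2]
    exact (hUV (Set.mk_mem_prod (hUU _ hp.1).2 (hVV hp.2))).1 (hP p.1)
  · refine Topology.IsInducing.subtypeVal.continuousOn_iff.2 ?_
    refine (Topology.IsInducing.induced fun p : Pt R => (p : R → ℂ)).continuousOn_iff.2 ?_
    exact continuousOn_pi.2 fun r => (hdiff r).continuousOn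

theorem exists_an (π : Proj R n) {g : R} (hg : g ≠ 0) : Nonempty (An π g) := by
  obtain ⟨θ, P, δ, et, hδ, hmin⟩ := SAn1_etW π
  obtain ⟨Δ, s, hΔ, hs⟩ := π.norm ⊥ (r := δ * g) (by simpa using ⟨hδ, hg⟩)
  rw [Ideal.mem_bot, sub_eq_zero] at hs
  have hne : ∀ p : π.W Δ, p.1 δ ≠ 0 ∧ p.1 g ≠ 0 := fun p => by
    have h := p.2
    rw [← SAn1_aeval, hs, map_mul, map_mul] at h
    exact mul_ne_zero_iff.1 (left_ne_zero_of_mul h)
  have hroot : ∀ z, MvPolynomial.eval z Δ ≠ 0 → ∀ c, SAn1_ev P (z, c) = 0 →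
      ∃ p : π.W Δ, π.at p.1 = z ∧ p.1 θ = c := fun z hz c hc => by
    obtain ⟨p, h1, h2⟩ := SAn1_root π hmin hc
    exact ⟨⟨p, h1 ▸ hz⟩, h1, h2⟩
  choose e he1 he2 he3 using SAn1_chart et (fun p => (hne p).1) hroot
  have := Pt.secondCountable (R := R)
  have : SecondCountableTopology (π.W Δ) := Topology.IsInducing.subtypeVal.secondCountableTopology
  obtain ⟨s, hs1, hs2⟩ := TopologicalSpace.countable_cover_nhds (f := fun p => (e p).source)
    fun p => (e p).open_source.mem_nhds (he1 p)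
  have : Countable s := hs1.to_subtype
  obtain ⟨μ, hμ⟩ := Fuj.exists_sheet_measure (vol := (volume : Measure (E n)))
    (fun p : π.W Δ => π.at p.1) (fun i : s => e i.1) fun i p _ => he2 _ p
  exact ⟨{
    Δ := Δ
    Δ_ne := fun h => hΔ (by simp [h])
    S :=
      { ι := s
        cnt := inferInstance
        π := fun p => π.at p.1
        e := fun i => e i.1
        e_eq := fun i p _ => he2 _ p
        cover := fun p => by
          obtain ⟨i, hi, hp⟩ := Set.mem_iUnion₂.1 (hs2 ▸ Set.mem_univ p)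
          exact ⟨⟨i, hi⟩, hp⟩
        τ := fun _ _ => 1
        τ_meas := fun _ => measurable_const
        τ_ne := fun _ _ _ => one_ne_zero
        hol := fun _ _ => differentiableOn_const _
        μ := μ
        μ_eq := hμ }
    π_eq := fun _ => rfl
    τ_eq := fun _ _ => rfl
    hol := fun r i => (he3 i.1 r).congr fun z _ => one_mul _
    g_ne := fun p => (hne p).2
    θ := θ
    P := P
    δ := δ
    et := et
    δ_ne := fun p => (hne p).1
    root := hroot }⟩

end Vale.Agent.P282
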