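import Vale.Agent.P282.SNiv
import Vale.Agent.P282.QHy
import Vale.Agent.P282.QLim
import Vale.Agent.P282.SAn1
import Vale.Agent.P282.AProj0

set_option linter.unusedSectionVars false

open scoped ENNReal TensorProduct Topology
open Filter MeasureTheory

noncomputable section

namespace Vale.Agent.P282

variable {R K : Type} [CommRing R] [IsDomain R] [Algebra ℂ R] [Algebra.FiniteType ℂ R]
  [IsIntegrallyClosed R] [Field K] [Algebra R K] [IsFractionRing R K] [Algebra ℂ K]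
  [IsScalarTower ℂ R K] {n : ℕ}

omit [IsDomain R] [Algebra.FiniteType ℂ R] [IsIntegrallyClosed R] in
theorem QMg_ne [NeZero n] (π : Proj R n) (x : Pt R) : ∃ u ∈ x.m, u ≠ 0 := by
  refine ⟨π.y 0 - algebraMap ℂ R (x (π.y 0)), ?_, fun h => ?_⟩
  · rw [Pt.mem_m, map_sub, AlgHomClass.commutes]
    exact sub_self _
  · refine π.ind.transcendental 0 ?_
    rw [sub_eq_zero.mp h]
    exact isAlgebraic_algebraMap _

omit [IsDomain R] [Algebra.FiniteType ℂ R] [IsIntegrallyClosed R] in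
/-- The linear map defined by the functionals. -/
def QMg_lin {r : ℕ} (a : Fin r → WArc R n) (β : Fin r → MK) : R →ₗ[ℂ] MK where
  toFun u := ∑ i, β i * (a i).ξ (1 ⊗ₜ u)
  map_add' u v := by
    rw [← Finset.sum_add_distrib]
    refine Finset.sum_congr rfl fun i _ => ?_
    rw [TensorProduct.tmul_add, map_add, mul_add]
  map_smul' c u := by
    rw [RingHom.id_apply, Finset.smul_sum]
    refine Finset.sum_congr rfl fun i _ => ?_
    rw [TensorProduct.tmul_smul, LinearMap.map_smul_of_tower, mul_smul_comm]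

theorem QMg_root {w : RVal K} {a : K} {L : ℕ} {τ : ℝ} (hτ : 0 < τ) (h : w.Ge (a ^ L) τ) :
    w.Ge a (τ / (L + 1)) := by
  by_cases ha : a = 0
  · exact Or.inl ha
  right
  have h1 := h.resolve_left (pow_ne_zero _ ha)
  rw [w.v_pow a ha] at h1
  have h2 : (0 : ℝ) ≤ L := Nat.cast_nonneg L
  have h3 : 0 ≤ w.v a := by
    by_contra h4
    have h5 := mul_nonneg h2 (neg_nonneg.mpr (not_le.mp h4).le)
    linarith
  rw [div_le_iff₀ (by linarith)]
  linarith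

/-- collisions of weighted arcs -/
theorem mg [NeZero n] (G : WS R K n) (π : Proj R n) (x : Pt R) {r : ℕ} (a : Fin r → WArc R n)
    (hx : ∀ i, (a i).γ 0 = x) {c₀ : ℝ} (hc : 0 ≤ c₀) (ha : ∀ i, (a i).Good π G c₀)
    (β : Fin r → MK) (hξ : ∀ u : R, ∃ c, (∑ i, β i * (a i).ξ (1 ⊗ₜ u)).HasVal c) {f : R} {c : ℂ}
    (hc0 : c ≠ 0) (hf : (∑ i, β i * (a i).ξ (1 ⊗ₜ f)).HasVal c) :
    ∃ (w : RVal K) (τ : ℝ), 0 < τ ∧ w.CenteredAt x.m ∧
      (∀ j : ℕ, ∀ u ∈ LimLev a π j, w.Ge (algebraMap R K u) (j * τ)) ∧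
      G.ω.A w ≤ ((c₀ * τ - w.v (algebraMap R K f) : ℝ) : EReal) ∧
      vol x.m n w ≤ ENNReal.ofReal ((∑ i, ((a i).l : ℝ) / ∏ k, ((a i).w k : ℝ)) / τ ^ n) := by
  obtain ⟨A⟩ := exists_an π (G.ρ_ne π)
  have hcol : ∀ i, (a i).Col π := fun i => (ha i).col
  obtain ⟨u₀, hu₀, hu₀'⟩ := QMg_ne π x
  obtain ⟨j, F, X, hj, hF, h0, hX, hR, hgen⟩ :=
    exists_enum ⟨_, pow_mem_limLev hx hcol hu₀, pow_ne_zero _ hu₀'⟩
  obtain ⟨ξ, hrep, han⟩ := exists_rep_lin (QMg_lin a β)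
  have hval : ξ 0 f = c := MK.HasVal.unique ⟨_, han hξ f, hrep f, rfl⟩ hf
  obtain ⟨w, τ, hτ, hw, hge, hA⟩ := niv G π A hc j hj F hF h0 ξ (han hξ) (f := f)
    (hval ▸ hc0) (q_hyp G π A a hc ha β j F hF X hX hR ξ hrep)
  have hl : ∀ k : ℕ, ∀ u ∈ LimLev a π k, w.Ge (algebraMap R K u) (k * τ) := by
    intro k u hu
    rcases Nat.eq_zero_or_pos k with rfl | hk
    · rw [Nat.cast_zero, zero_mul]
      exact hw u
    · refine RVal.Ge.of_span hw ?_ (hgen k hk u hu)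
      rintro _ ⟨l, rfl, rfl⟩
      exact hge l
  have hcen : w.CenteredAt x.m := by
    refine RVal.centeredAt_of_le hw (t := τ / ((∑ i, (a i).l : ℕ) + 1)) (by positivity)
      fun u hu => QMg_root hτ ?_
    have h1 := hl 1 _ (pow_mem_limLev hx hcol hu)
    rwa [map_pow, Nat.cast_one, one_mul] at h1
  exact ⟨w, τ, hτ, hcen, hl, hA, vol_le_lim x hcol hcen hτ hl⟩

end Vale.Agent.P282
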