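import Vale.Agent.P282.CAbc_b
import Vale.Agent.P282.CSig_a
import Vale.Agent.P282.QMg
import Vale.Agent.P282.ANum
import Vale.Agent.P282.AEmb

/-! P282: smooth arcs, the analysis projection, and the two estimates. -/

set_option linter.unusedSectionVars false

open scoped TensorProduct

noncomputable section

namespace Vale.Agent.P282.CAbc

variable {R K : Type} [CommRing R] [IsDomain R] [Algebra ℂ R] [Algebra.FiniteType ℂ R]
  [IsIntegrallyClosed R] [Field K] [Algebra R K] [IsFractionRing R K] [Algebra ℂ K]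
  [IsScalarTower ℂ R K] {n : ℕ}

theorem val0 : (0 : MK).HasVal 0 := by simpa using MK.hasVal_const 0

theorem smooth (P : Ideal R) [P.IsPrime] {d e : ℕ} (hde : d + e = n)
    (hd : Algebra.trdeg ℂ (R ⧸ P) = d) (hl : LocGen P e) : ∃ D, D ∉ P ∧ ∃ g : Fin n → R,
      ∀ a : Arc R, (∀ r ∈ P, a.hom r = 0) → a.hom D ≠ 0 → Co a.ev fun j => a.yq (g j) := by
  classical
  subst hde
  obtain ⟨π⟩ := exists_proj' hd
  obtain ⟨θ, Q, δ, hE, hδ⟩ := exists_etW π
  obtain ⟨δ, rfl⟩ := Ideal.Quotient.mk_surjective δ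
  choose y hy using fun i => Ideal.Quotient.mk_surjective (π.y i)
  obtain ⟨g, hg, hg'⟩ := hl
  have : IsNoetherianRing R := Algebra.FiniteType.isNoetherianRing ℂ R
  obtain ⟨S, hS⟩ := (IsNoetherian.noetherian P : P.FG)
  choose! s hs hs' using hg'
  have hSP : ∀ r ∈ S, r ∈ P := fun r hr => hS ▸ Ideal.subset_span hr
  refine ⟨δ * ∏ r ∈ S, s r, fun h => ?_, Fin.append y g, fun a ha hD => ?_⟩
  · rcases Ideal.IsPrime.mem_or_mem inferInstance h with h | h
    · exact hδ (Ideal.Quotient.eq_zero_iff_mem.2 h)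
    · obtain ⟨r, hr, h⟩ := (Ideal.IsPrime.prod_mem_iff (hp := inferInstance)).1 h
      exact hs r (hSP r hr) h
  rw [map_mul, map_prod, mul_ne_zero_iff, Finset.prod_ne_zero_iff] at hD
  let ι : R →ₐ[ℂ] RK R := Algebra.TensorProduct.includeRight
  have hq0 : ∀ r, a.yq r = ι r - algebraMap MK (RK R) (a.hom r) := fun _ => rfl
  have hq : ∀ r ∈ P, a.yq r = ι r := fun r hr => by rw [hq0, ha r hr, map_zero, sub_zero]
  refine co_of_le (fun j => a.yq_mem _) fun x hx => ?_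
  have h := CSig_et a P (fun r hr => (a.hom_val r).unique (ha r hr ▸ val0)) ha
    (fun i => (hy i).symm) hE hD.1 2 x
  rw [RingHom.mem_ker.1 hx, map_zero, sub_zero] at h
  refine SetLike.le_def.1 (sup_le (sup_le_sup_right ?_ _) ?_) h
  · refine Ideal.span_mono ?_
    rintro _ ⟨i, rfl⟩
    exact ⟨Fin.castAdd e i, by simp⟩
  · rw [← hS, Ideal.map_span, Ideal.span_le]
    rintro _ ⟨r, hr, rfl⟩
    obtain ⟨c, hc⟩ := Ideal.mem_span_range_iff_exists_fun.1 (hs' r (hSP r hr))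
    have h1 : ι (s r) * ι r ∈ Ideal.span (Set.range fun j => a.yq (Fin.append y g j)) := by
      rw [← map_mul, ← hc, map_sum]
      refine Ideal.sum_mem _ fun i _ => ?_
      rw [map_mul, ← hq _ (hg i)]
      exact Ideal.mul_mem_left _ _ (Ideal.subset_span ⟨Fin.natAdd d i, by simp⟩)
    have h2 : a.yq (s r) * ι r ∈ RingHom.ker a.ev ^ 2 := by
      rw [sq, ← hq r (hSP r hr)]
      exact Ideal.mul_mem_mul (a.yq_mem _) (a.yq_mem _)
    have h3 := Submodule.smul_of_tower_mem _ (a.hom (s r))⁻¹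
      (Ideal.sub_mem _ (Ideal.mem_sup_left h1) (Ideal.mem_sup_right h2))
    rwa [← sub_mul, hq0, sub_sub_cancel, ← Algebra.smul_def, inv_smul_smul₀ (hD.2 r hr)] at h3

theorem yq_add (a : Arc R) (u v : R) : a.yq (u + v) = a.yq u + a.yq v := by
  simp only [Arc.yq, map_add, TensorProduct.tmul_add, TensorProduct.add_tmul]
  ring

theorem yq_smul (a : Arc R) (c : ℂ) (u : R) : a.yq (c • u) = algebraMap ℂ MK c • a.yq u := by
  simp only [Arc.yq, map_smul, TensorProduct.tmul_smul, smul_sub, algebraMap_smul,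
    TensorProduct.smul_tmul']

theorem yq_pow (a : Arc R) (u : R) (M : ℕ) :
    a.yq (u ^ (M + 1)) - ((M + 1 : ℕ) * a.hom u ^ M) • a.yq u ∈ RingHom.ker a.ev ^ 2 := by
  have h1 : ∀ v : R, a.yq v = 1 ⊗ₜ v - algebraMap MK (RK R) (a.hom v) := fun _ => rfl
  induction M with
  | zero => simp
  | succ M ih =>
    have h2 : a.yq (u ^ (M + 1)) * a.yq u ∈ RingHom.ker a.ev ^ 2 := by
      rw [sq]
      exact Ideal.mul_mem_mul (a.yq_mem _) (a.yq_mem _)
    convert Ideal.add_mem _ h2 (Submodule.smul_of_tower_mem _ (a.hom u) ih) using 1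
    have h3 : ∀ N, (1 ⊗ₜ (u ^ N) : RK R) = (1 ⊗ₜ u) ^ N := fun N => by
      rw [Algebra.TensorProduct.tmul_pow, one_pow]
    simp only [h1, h3, Algebra.smul_def, map_mul, map_pow, map_natCast]
    push_cast
    ring

/-- one tuple for two arcs -/
theorem co_two (a b : Arc R) {g h : Fin n → R} (ha : Co a.ev fun j => a.yq (g j))
    (hb : Co b.ev fun j => b.yq (h j)) :
    ∃ u : Fin n → R, (Co a.ev fun j => a.yq (u j)) ∧ Co b.ev fun j => b.yq (u j) := by
  choose H hH using fun j => ha.mem (a.yq_mem (h j))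
  choose H' hH' using fun j => hb.mem (b.yq_mem (g j))
  obtain ⟨t, ht⟩ := ((det_fin 1 (Matrix.of H - 1) 0 (by simp)).union
    (det_fin (Matrix.of H') (1 - Matrix.of H') 1 (by simp))).exists_notMem
  rw [Set.mem_union, not_or] at ht
  refine ⟨fun j => (1 - t) • g j + t • h j, ha.mat _ ht.1 fun j => ?_, hb.mat _ ht.2 fun j => ?_⟩
  · convert Submodule.smul_of_tower_mem _ (algebraMap ℂ MK t) (hH j) using 1
    rw [yq_add, yq_smul, yq_smul, map_sub, map_one]
    simp only [Matrix.add_apply, Matrix.smul_apply, Matrix.sub_apply,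
      Matrix.one_apply, Matrix.of_apply, add_smul, smul_assoc, sub_smul, ite_smul, one_smul,
      zero_smul, Finset.sum_add_distrib, ← Finset.smul_sum, Finset.sum_sub_distrib,
      Finset.sum_ite_eq, Finset.mem_univ, if_true, smul_sub]
    abel
  · convert Submodule.smul_of_tower_mem _ (1 - algebraMap ℂ MK t) (hH' j) using 1
    rw [yq_add, yq_smul, yq_smul, map_sub, map_one]
    simp only [Matrix.add_apply, Matrix.smul_apply, Matrix.sub_apply,
      Matrix.one_apply, Matrix.of_apply, add_smul, smul_assoc, sub_smul, ite_smul, one_smul,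
      zero_smul, Finset.sum_add_distrib, ← Finset.smul_sum, Finset.sum_sub_distrib,
      Finset.sum_ite_eq, Finset.mem_univ, if_true, smul_sub]
    abel

theorem co_pert (a : Arc R) {g y : Fin n → R} (ha : Co a.ev fun j => a.yq (g j))
    (hy : ∀ i, a.γ 0 (y i) = 0) :
    ∃ M₀ : ℕ, ∀ M ≥ M₀, Co a.ev fun j => a.yq (g j + y j ^ (M + 1)) := by
  choose H hH using fun j => ha.mem (a.yq_mem (y j))
  obtain ⟨M₀, h⟩ := MK.det_pert 1 (Matrix.of H) (by simp) (fun i => a.hom (y i))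
    fun i => hy i ▸ a.hom_val (y i)
  refine ⟨M₀, fun M hM => ha.mat _ (h M hM (M + 1 : ℕ)) fun j => ?_⟩
  convert Ideal.add_mem _ (yq_pow a (y j) M)
    (Submodule.smul_of_tower_mem _ ((M + 1 : ℕ) * a.hom (y j) ^ M) (hH j)) using 1
  simp only [yq_add, Matrix.add_apply, Matrix.one_apply, Matrix.of_apply, add_smul, ite_smul,
    one_smul, zero_smul, Finset.sum_add_distrib, Finset.sum_ite_eq, Finset.mem_univ, if_true,
    smul_sub, Finset.smul_sum, smul_smul, Algebra.smul_def ((M + 1 : ℕ) : ℂ), map_natCast,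
    mul_assoc]
  abel

theorem co_proj (π : Proj R n) (a b : Arc R) {g h : Fin n → R}
    (ha : Co a.ev fun j => a.yq (g j)) (hb : Co b.ev fun j => b.yq (h j))
    (ha0 : ∀ i, a.γ 0 (π.y i) = 0) (hb0 : ∀ i, b.γ 0 (π.y i) = 0) :
    ∃ π' : Proj R n, (Co a.ev fun j => a.yq (π'.y j)) ∧ Co b.ev fun j => b.yq (π'.y j) := by
  obtain ⟨u, h1, h2⟩ := co_two a b ha hb
  obtain ⟨M₁, k1⟩ := co_pert a h1 ha0
  obtain ⟨M₂, k2⟩ := co_pert b h2 hb0
  obtain ⟨M₀, k0⟩ := π.pert u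
  obtain ⟨π', e⟩ := k0 (M₀ + M₁ + M₂ + 1) (by omega)
  refine ⟨π', ?_, ?_⟩ <;> simp only [e]
  · exact k1 _ (by omega)
  · exact k2 _ (by omega)

theorem norm (x : Pt R) (ψ : R → MK) (p q : Arc R) (ha : ∀ u v, ψ (u + v) = ψ u + ψ v)
    (hm : ∀ u v, ψ (u * v) = p.hom u * ψ v + q.hom v * ψ u)
    (hc : ∀ c, ψ (algebraMap ℂ R c) = 0) (h0 : ∃ u, ψ u ≠ 0) :
    ∃ β : MK, (∀ u, ∃ c, (β * ψ u).HasVal c) ∧ ∃ f ∈ x.m, ∃ c, c ≠ 0 ∧ (β * ψ f).HasVal c := by
  obtain ⟨S, hS⟩ := Algebra.FiniteType.out (R := ℂ) (A := R)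
  obtain ⟨β, h1, z, d, hd, h2⟩ := MK.exists_norm (fun z : S => ψ z) (by
    by_contra h
    obtain ⟨u, hu⟩ := h0
    refine hu ?_
    clear hu
    induction (hS.ge Algebra.mem_top : u ∈ Algebra.adjoin ℂ (S : Set R))
      using Algebra.adjoin_induction with
    | mem z hz => exact not_not.1 fun h' => h ⟨⟨z, hz⟩, h'⟩
    | algebraMap r => exact hc r
    | add u v _ _ h h' => rw [ha, h, h', add_zero]
    | mul u v _ _ h h' => rw [hm, h, h', mul_zero, mul_zero, add_zero])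
  refine ⟨β, fun u => ?_, z + algebraMap ℂ R (-x z), by simp [Pt.mem_m, AlgHomClass.commutes],
    d, hd, by rwa [ha, hc, add_zero]⟩
  induction (hS.ge Algebra.mem_top : u ∈ Algebra.adjoin ℂ (S : Set R))
    using Algebra.adjoin_induction with
  | mem z hz => exact h1 ⟨z, hz⟩
  | algebraMap r => exact ⟨0, by rw [hc, mul_zero]; exact val0⟩
  | add u v _ _ h h' => exact ⟨_, by rw [ha, mul_add]; exact h.choose_spec.add h'.choose_spec⟩
  | mul u v _ _ h h' =>
    rw [hm, mul_add, mul_left_comm, mul_left_comm β]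
    exact ⟨_, ((p.hom_val u).mul h'.choose_spec).add ((q.hom_val v).mul h.choose_spec)⟩

theorem fin (G : WS R K (n + 2)) (π π' : Proj R (n + 2)) (x : Pt R) (hy : IsRed K x.m π.y)
    {r : ℕ} (a : Fin r → WArc R (n + 2)) (hx : ∀ i, (a i).γ 0 = x) {c₀ : ℝ} {κ : ℕ}
    (hc : 0 ≤ c₀) (ha : ∀ i, (a i).Good π' G c₀) (β : Fin r → MK)
    (hξ : ∀ u : R, ∃ c, (∑ i, β i * (a i).ξ (1 ⊗ₜ u)).HasVal c) {f : R} (hfm : f ∈ x.m) {c : ℂ}
    (hc0 : c ≠ 0) (hf : (∑ i, β i * (a i).ξ (1 ⊗ₜ f)).HasVal c)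
    (hl : ∀ i, π.y i ∈ LimLev a π' κ) {k : ℕ} {s : ℝ} (hs : 0 < s)
    (h1 : c₀ - κ = s * ((n + 2 : ℕ) - 1 - 1 / k))
    (h2 : ∑ i, ((a i).l : ℝ) / ∏ j, ((a i).w j : ℝ) = 2 / (1 - 1 / k) / s ^ (n + 2))
    (h3 : (((n + 2 : ℕ) : ℝ) - 1 - 1 / k) ^ (n + 2) / (1 - 1 / k) <
      (((n + 2 : ℕ) : ℝ) - 1) ^ (n + 2)) : Strict G.ω x.m := by
  obtain ⟨w, τ, k1, k2, k3, k4, k5⟩ := mg G π' x a hx hc ha β hξ hc0 hf
  have f0 : f ≠ 0 := by
    rintro rfl
    exact hc0 (hf.unique (by simpa using val0))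
  obtain ⟨i, i0, hi⟩ := hy.2 w k2 f hfm
  have k6 := ((k3 κ _ (hl i)).resolve_left i0).trans
    (hi.resolve_left ((map_ne_zero_iff _ (IsFractionRing.injective R K)).2 f0))
  have k7 : G.ω.A w ≤ (((c₀ - κ) * τ : ℝ) : EReal) :=
    k4.trans (EReal.coe_le_coe_iff.2 (by linarith))
  obtain ⟨-, k8, k9⟩ := nv_le G x.m (fun e => f0 (by rwa [e] at hfm)) k2 k1 (by positivity) k7 k5
  refine ⟨w, k2, k8, k9.trans_lt ?_⟩
  rw [bd_eq (by omega), h1, h2, mul_pow]
  refine (ENNReal.ofReal_lt_ofReal_iff (by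
    have : (0 : ℝ) < (n + 2 : ℕ) - 1 := by
      push_cast
      linarith [Nat.cast_nonneg (α := ℝ) n]
    positivity)).2 ?_
  rw [← mul_assoc, div_mul_cancel₀ _ (by positivity), div_mul_eq_mul_div, mul_div_assoc]
  linarith

end Vale.Agent.P282.CAbc
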