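import Vale.Agent.P282.ALd
import Vale.Agent.P282.AEmb
import Vale.Agent.P282.AHart
import Vale.Agent.P282.SAn1

set_option linter.unusedSectionVars false

open scoped ENNReal TensorProduct Topology
open Filter MeasureTheory

noncomputable section

namespace Vale.Agent.P282

variable {R K : Type} [CommRing R] [IsDomain R] [Algebra ℂ R] [Algebra.FiniteType ℂ R]
  [IsIntegrallyClosed R] [Field K] [Algebra R K] [IsFractionRing R K] [Algebra ℂ K]
  [IsScalarTower ℂ R K] {n : ℕ}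

theorem UArc1_pow {B : Type} [CommRing B] {m Y : Ideal B} (h : m ≤ Y ⊔ m ^ 2) (N : ℕ) :
    m ≤ Y ⊔ m ^ N := by
  induction N with
  | zero => simp
  | succ N ih =>
    refine h.trans (sup_le le_sup_left ?_)
    rw [pow_two, pow_succ']
    refine (Ideal.mul_mono_right ih).trans ?_
    rw [Ideal.mul_sup]
    exact sup_le_sup_right Ideal.mul_le_right _

/-- the constant arc -/
def UArc1_cst {S : Type} [CommRing S] [Algebra ℂ S] (x : Pt S) : Arc S :=
  ⟨fun _ => x, fun _ => analyticAt_const⟩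

theorem UArc1_hom {S : Type} [CommRing S] [Algebra ℂ S] (x : Pt S) (r : S) :
    (UArc1_cst x).hom r = algebraMap ℂ MK (x r) := rfl

theorem UArc1_yq {S : Type} [CommRing S] [Algebra ℂ S] (x : Pt S) (r : S) :
    (UArc1_cst x).yq r = (Algebra.TensorProduct.includeRight : S →ₐ[ℂ] RK S)
      (r - algebraMap ℂ S (x r)) := by
  rw [map_sub, AlgHom.commutes, Arc.yq, UArc1_hom]
  rfl

omit [IsIntegrallyClosed R] in
theorem UArc1_pt (π : Proj R n) (p : Pt R) (θ : R) (H : Polynomial (MvPolynomial (Fin n) ℂ)) :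
    p (H.eval₂ (MvPolynomial.aeval π.y).toRingHom θ) = SAn1_ev H (π.at p, p θ) := by
  have h := Polynomial.hom_eval₂ H (MvPolynomial.aeval π.y).toRingHom p.hom.toRingHom θ
  refine h.trans ?_
  rw [SAn1_ev]
  congr 1
  refine RingHom.ext fun N => ?_
  have h := MvPolynomial.comp_aeval_apply π.y p.hom N
  rw [← MvPolynomial.coe_aeval_eq_eval]
  exact h

omit [IsIntegrallyClosed R] in
theorem UArc1_root (π : Proj R n) {θ : R} {P : Polynomial (MvPolynomial (Fin n) ℂ)}
    (hmin : ∀ H : Polynomial (MvPolynomial (Fin n) ℂ),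
      H.eval₂ (MvPolynomial.aeval π.y).toRingHom θ = 0 → P ∣ H) {z : E n} {c : ℂ}
    (h : SAn1_ev P (z, c) = 0) : ∃ p : Pt R, π.at p = z ∧ p θ = c := by
  let ψ : Polynomial (MvPolynomial (Fin n) ℂ) →+* R :=
    Polynomial.eval₂RingHom (MvPolynomial.aeval π.y).toRingHom θ
  let χ : Polynomial (MvPolynomial (Fin n) ℂ) →+* ℂ :=
    Polynomial.eval₂RingHom (MvPolynomial.eval z) c
  have hψ : ψ.IsIntegral := by
    refine RingHom.IsIntegral.tower_top Polynomial.C ψ ?_
    have e : ψ.comp Polynomial.C = (MvPolynomial.aeval π.y).toRingHom :=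
      RingHom.ext fun N => Polynomial.eval₂_C _ _
    rw [e]
    exact RingHom.Finite.to_isIntegral π.fin
  let := ψ.toAlgebra
  have : Algebra.IsIntegral (Polynomial (MvPolynomial (Fin n) ℂ)) R := ⟨hψ⟩
  have : (RingHom.ker χ).IsMaximal := RingHom.ker_isMaximal_of_surjective χ fun a =>
    ⟨Polynomial.C (MvPolynomial.C a), by simp [χ]⟩
  obtain ⟨Q, hQ, hc⟩ := Ideal.exists_ideal_over_maximal_of_isIntegral (S := R) (RingHom.ker χ) (by
    intro H hH
    obtain ⟨G, rfl⟩ := hmin H hH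
    rw [RingHom.mem_ker, map_mul]
    exact mul_eq_zero_of_left h _)
  obtain ⟨x, hx⟩ := exists_pt Q
  have key : ∀ H, χ H = 0 → x (ψ H) = 0 := fun H hH => by
    rw [← Pt.mem_m, hx]
    have : H ∈ Q.comap (algebraMap _ R) := hc ▸ hH
    exact this
  have h2 : ∀ H, χ H = 0 → SAn1_ev H (π.at x, x θ) = 0 := fun H hH =>
    (UArc1_pt π x θ H).symm.trans (key H hH)
  refine ⟨x, funext fun i => ?_, ?_⟩
  · have := h2 (Polynomial.C (MvPolynomial.X i - MvPolynomial.C (z i))) (by simp [χ])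
    simpa [SAn1_ev, sub_eq_zero] using this
  · have := h2 (Polynomial.X - Polynomial.C (MvPolynomial.C c)) (by simp [χ])
    simpa [SAn1_ev, sub_eq_zero] using this

omit [IsIntegrallyClosed R] in
theorem UArc1_min (π : Proj R n) (θ : R) : ∃ μ : Polynomial (MvPolynomial (Fin n) ℂ),
    μ.eval₂ (MvPolynomial.aeval π.y).toRingHom θ = 0 ∧
    ∀ H : Polynomial (MvPolynomial (Fin n) ℂ),
      H.eval₂ (MvPolynomial.aeval π.y).toRingHom θ = 0 → μ ∣ H := by
  let : Algebra (MvPolynomial (Fin n) ℂ) R := (MvPolynomial.aeval π.y).toRingHom.toAlgebra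
  have : Module.Finite (MvPolynomial (Fin n) ℂ) R := π.fin
  have : FaithfulSMul (MvPolynomial (Fin n) ℂ) R :=
    (faithfulSMul_iff_algebraMap_injective _ _).2 π.ind
  exact ⟨minpoly _ θ, minpoly.aeval _ θ, fun H hH =>
    minpoly.isIntegrallyClosed_dvd (Algebra.IsIntegral.isIntegral θ) hH⟩

/-- if the coordinates generate the maximal ideal, the projection is etale at the point -/
theorem etW_of_gen (K : Type) [Field K] [Algebra R K] [IsFractionRing R K] [Algebra ℂ K]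
    [IsScalarTower ℂ R K] (π : Proj R n) (x : Pt R)
    (h : x.m ≤ Ideal.span (Set.range fun i => π.y i - algebraMap ℂ R (x (π.y i))) ⊔ x.m ^ 2) :
    ∃ θ P δ, π.EtW θ P δ ∧ x δ ≠ 0 := by
  obtain ⟨x', hx'⟩ := π.exists_pt_over (K := K) x
  have hm : (UArc1_cst x).m =
      x.m.map (Algebra.TensorProduct.includeRight : R →ₐ[ℂ] RK R) := by
    refine le_antisymm ?_ (Ideal.map_le_iff_le_comap.2 fun r hr => ?_)
    · rw [Arc.m_eq _ (Algebra.adjoin_univ ℂ R), Ideal.span_le]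
      rintro _ ⟨r, -, rfl⟩
      rw [UArc1_yq]
      refine Ideal.mem_map_of_mem _ ?_
      rw [Pt.mem_m, map_sub, AlgHomClass.commutes]
      exact sub_self _
    · have := (UArc1_cst x).yq_mem r
      rwa [UArc1_yq, Pt.mem_m.1 hr, map_zero, sub_zero] at this
  have h1 : (UArc1_cst x).m ≤ Ideal.span (Set.range fun i => (UArc1_cst x).yq (π.y i)) ⊔
      (UArc1_cst x).m ^ 2 := by
    rw [hm]
    refine (Ideal.map_mono h).trans ?_
    rw [Ideal.map_sup, Ideal.map_pow, Ideal.map_span, ← Set.range_comp]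
    simp only [UArc1_yq]
    exact le_rfl
  obtain ⟨θ, P, δ, h2, h3⟩ := π.se x'.m ⟨io K, π.io_mem⟩ fun σ hσ => by
    by_contra h3
    push Not at h3
    refine ld π (UArc1_cst x') (UArc1_cst x) (k := 1) ![σ, ⟨io K, π.io_mem⟩] ?_ (fun i r => ?_)
      (fun _ => 1) fun N y => ⟨fun _ => (UArc1_cst x).ev y, ?_⟩
    · intro i j hij
      fin_cases i <;> fin_cases j
      · rfl
      · exact absurd hij hσ
      · exact absurd hij.symm hσ
      · rfl
    · rw [UArc1_hom, UArc1_hom, ← hx' r]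
      fin_cases i
      · have h4 := Pt.mem_m.1 (h3 r)
        rw [map_sub, sub_eq_zero] at h4
        exact congrArg _ h4
      · rfl
    · rw [Fin.sum_univ_one, ← Algebra.algebraMap_eq_smul_one]
      exact UArc1_pow h1 N (Arc.sub_ev_mem _ y)
  exact ⟨θ, P, δ, h2, fun e => h3 (Pt.mem_m.2 ((hx' δ).trans e))⟩

omit [IsIntegrallyClosed R] in
/-- arcs lift at etale points -/
theorem arc_of_etW {π : Proj R n} {θ δ : R} {P : Polynomial (MvPolynomial (Fin n) ℂ)}
    (h : π.EtW θ P δ) (x : Pt R) (hx : x δ ≠ 0) (c : ℂ → E n) (hc : AnalyticAt ℂ c 0)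
    (h0 : c 0 = π.at x) : ∃ a : Arc R, a.γ 0 = x ∧ ∀ᶠ t in 𝓝 0, π.at (a.γ t) = c t := by
  obtain ⟨μ, hμ, hmin⟩ := UArc1_min π θ
  have h1 : SAn1_ev μ (π.at x, x θ) = 0 := by rw [← UArc1_pt, hμ, map_zero]
  have hD : ∀ p : Pt R, p δ = SAn1_ev P.derivative (π.at p, p θ) := fun p => by
    rw [← UArc1_pt, ← h.der]
  have h2 : SAn1_ev μ.derivative (π.at x, x θ) ≠ 0 := fun e => hx (by
    obtain ⟨G, hG⟩ := hmin P h.root
    rw [hD, hG, Polynomial.derivative_mul]
    unfold SAn1_ev at h1 e ⊢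
    rw [Polynomial.eval₂_add, Polynomial.eval₂_mul, Polynomial.eval₂_mul, h1, e]
    simp)
  have cdf : ContDiffAt ℂ ⊤ (SAn1_ev μ) (π.at x, x θ) := (SAn1_an μ _).contDiffAt
  have hi := SAn1_inv μ _ h2
  have a2 := cdf.eventually_apply_implicitFunction WithTop.top_ne_zero hi
  have a3 := (cdf.contDiffAt_implicitFunction WithTop.top_ne_zero hi).analyticAt
  have a4 := cdf.implicitFunction_apply_self WithTop.top_ne_zero hi
  generalize cdf.implicitFunction WithTop.top_ne_zero hi = T at a2 a3 a4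
  rw [h1] at a2
  simp only [← h0] at a2 a3 a4
  have b1 : ∀ G, AnalyticAt ℂ (fun t => SAn1_ev G (c t, T (c t))) 0 := fun G =>
    (SAn1_an G _).comp (hc.prod (a3.comp hc))
  have b2 : SAn1_ev P.derivative (c 0, T (c 0)) ≠ 0 := by rwa [a4, h0, ← hD]
  have hq : ∀ t, ∃ p : Pt R, (t = 0 → p = x) ∧
      (SAn1_ev μ (c t, T (c t)) = 0 → π.at p = c t ∧ p θ = T (c t)) := fun t => by
    by_cases ht : t = 0
    · exact ⟨x, fun _ => rfl, fun _ => by rw [ht]; exact ⟨h0.symm, a4.symm⟩⟩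
    by_cases h3 : SAn1_ev μ (c t, T (c t)) = 0
    · obtain ⟨p, hp⟩ := UArc1_root π hmin h3
      exact ⟨p, fun e => absurd e ht, fun _ => hp⟩
    · exact ⟨x, fun _ => rfl, fun e => absurd e h3⟩
  choose γ hγ hγ' using hq
  have b3 := (hc.continuousAt.eventually a2).mono hγ'
  refine ⟨⟨γ, fun r => ?_⟩, hγ 0 rfl, b3.mono fun t ht => ht.1⟩
  obtain ⟨H, hH⟩ := h.gen r
  refine ((b1 H).fun_div (b1 _) b2).congr ?_
  filter_upwards [b3, (b1 _).continuousAt.eventually_ne b2] with t e1 e2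
  rw [div_eq_iff e2, ← e1.2, ← e1.1, ← hD, mul_comm, ← map_mul, hH, UArc1_pt]

end Vale.Agent.P282
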