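import Vale.Agent.P282.UArc0
import Vale.Agent.P282.UArc1

set_option linter.unusedSectionVars false

open scoped ENNReal TensorProduct Topology
open Filter MeasureTheory

noncomputable section

namespace Vale.Agent.P282

variable {R K : Type} [CommRing R] [IsDomain R] [Algebra ℂ R] [Algebra.FiniteType ℂ R]
  [IsIntegrallyClosed R] [Field K] [Algebra R K] [IsFractionRing R K] [Algebra ℂ K]
  [IsScalarTower ℂ R K] {n : ℕ}

theorem UArc_normal (h : Algebra.trdeg ℂ R = (1 : ℕ)) (x : Pt R) {g : R} (hg : g ≠ 0) :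
    ∃ a : Arc R, a.γ 0 = x ∧ a.hom g ≠ 0 := by
  obtain ⟨π, hπ, -⟩ := exists_proj_adapted h x x.m le_rfl (k := 1) le_rfl (by simpa using td_pt x)
  obtain ⟨u, hu, hu'⟩ := locGen_one x.m (by simpa using height_pt π x)
  obtain ⟨M, hM⟩ := π.pert u
  obtain ⟨π', e⟩ := hM (M + 2) (by omega)
  have h1 : ∀ i, π.y i ^ (M + 2) ∈ x.m ^ 2 := fun i =>
    Ideal.pow_le_pow_right (by omega) (Ideal.pow_mem_pow (hπ i) _)
  have h2 : ∀ i, x (π'.y i) = 0 := fun i => by
    rw [← Pt.mem_m, e]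
    exact add_mem (hu i) (Ideal.pow_le_self two_ne_zero (h1 i))
  obtain ⟨θ, P, δ, h3, h4⟩ := etW_of_gen (FractionRing R) π' x fun r hr => by
    obtain ⟨s, hs, hs'⟩ := hu' r hr
    have h3 : Ideal.span (Set.range u) ≤ Ideal.span (Set.range fun i =>
        π'.y i - algebraMap ℂ R (x (π'.y i))) ⊔ x.m ^ 2 := by
      rw [Ideal.span_le]
      rintro _ ⟨i, rfl⟩
      rw [← eq_sub_iff_add_eq.2 (e i).symm |>.symm]
      exact sub_mem (Ideal.mem_sup_left (Ideal.subset_span ⟨i, by simp [h2]⟩))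
        (Ideal.mem_sup_right (h1 i))
    have h4 : (s - algebraMap ℂ R (x s)) * r ∈ x.m ^ 2 := by
      rw [pow_two]
      refine Ideal.mul_mem_mul ?_ hr
      rw [Pt.mem_m, map_sub, AlgHomClass.commutes]
      exact sub_self _
    have h5 := Ideal.mul_mem_left _ (algebraMap ℂ R (x s)⁻¹)
      (sub_mem (h3 hs') (Ideal.mem_sup_right h4))
    rwa [← sub_mul, sub_sub_cancel, ← mul_assoc, ← map_mul,
      inv_mul_cancel₀ (show x s ≠ 0 from hs), map_one, one_mul] at h5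
  have hc : ∀ t : ℂ, AnalyticAt ℂ (fun t : ℂ => (fun _ => t : E 1)) t := fun t =>
    analyticAt_pi_iff.2 fun _ => analyticAt_id
  obtain ⟨a, a1, a2⟩ := arc_of_etW h3 x h4 _ (hc 0) (funext fun i => (h2 i).symm)
  refine ⟨a, a1, fun h0 => ?_⟩
  obtain ⟨N, s, hN, hs⟩ := π'.norm ⊥ (r := g) hg
  rw [Ideal.mem_bot, sub_eq_zero] at hs
  have h5 := a.hom_rep (MvPolynomial.aeval π'.y N)
  rw [hs, map_mul, h0, zero_mul, ← hs] at h5
  have h6 : (fun t : ℂ => MvPolynomial.eval (fun _ => t) N) = fun _ => 0 := by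
    refine AnalyticOnNhd.eq_of_frequently_eq (z₀ := 0) (fun t _ =>
      (AnalyticOnNhd.eval_mvPolynomial N _ (Set.mem_univ _)).comp (hc t)) analyticOnNhd_const
      (Eventually.frequently ?_)
    filter_upwards [h5.unique MK.QBas_rep_zero, nhdsWithin_le_nhds a2] with t b1 b2
    rw [← b1, SAn1_aeval, b2]
  refine hN ?_
  rw [MvPolynomial.funext (p := N) (q := 0) fun z => ?_, map_zero]
  · exact zero_mem _
  · rw [show z = fun _ => z 0 from funext fun i => congrArg z (Subsingleton.elim _ _), map_zero]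
    exact congrFun h6 (z 0)

omit [IsIntegrallyClosed R] in
theorem UArc_curve (h : Algebra.trdeg ℂ R = (1 : ℕ)) (x : Pt R) {g : R} (hg : g ≠ 0) :
    ∃ a : Arc R, a.γ 0 = x ∧ a.hom g ≠ 0 := by
  obtain ⟨h1, h2, -⟩ := exists_normal (R := R) (K := FractionRing R) (FractionRing R)
  have : Algebra.FiniteType ℂ (integralClosure R (FractionRing R)) :=
    Algebra.FiniteType.trans (S := R) inferInstance inferInstance
  let φ := IsScalarTower.toAlgHom ℂ R (integralClosure R (FractionRing R))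
  have hφ : Function.Injective φ := fun a b e =>
    IsFractionRing.injective R (FractionRing R) (congrArg Subtype.val e)
  have hi : φ.toRingHom.IsIntegral := fun s => Algebra.IsIntegral.isIntegral (R := R) s
  obtain ⟨x', hx'⟩ := exists_pt_lift φ hφ hi x
  obtain ⟨a, a1, a2⟩ := UArc_normal ((ATd0_int φ hφ hi).symm.trans h) x'
    (g := φ g) fun e => hg (hφ (e.trans (map_zero φ).symm))
  exact ⟨a.comap φ, DFunLike.ext _ _ fun r => (DFunLike.congr_fun a1 (φ r)).trans (hx' r), a2⟩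

omit [IsIntegrallyClosed R] in
/-- curve selection -/
theorem exists_arc (x : Pt R) (q : Ideal R) [q.IsPrime] (hq : q ≤ x.m) {g : R} (hg : g ∉ q) :
    ∃ a : Arc R, a.γ 0 = x ∧ (∀ r ∈ q, a.hom r = 0) ∧ a.hom g ≠ 0 := by
  rcases hq.eq_or_lt with rfl | hlt
  · refine ⟨UArc1_cst x, rfl, fun r hr => ?_, ?_⟩
    · rw [UArc1_hom, Pt.mem_m.1 hr, map_zero]
    · rw [UArc1_hom]
      exact (map_ne_zero _).2 hg
  obtain ⟨r, hr, hr'⟩ := SetLike.exists_of_lt hlt
  let x1 : Pt (R ⧸ q) := Ideal.Quotient.liftₐ q x.hom fun r hr => hq hr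
  obtain ⟨p, p1, p2, p3, p4⟩ := exists_curve x1 (mt Ideal.Quotient.eq_zero_iff_mem.1 hg)
    fun e => hr' (Ideal.Quotient.eq_zero_iff_mem.1
      ((Ideal.mem_bot (x := Ideal.Quotient.mk q r)).1 (e ▸ hr)))
  obtain ⟨a, a1, a2⟩ := UArc_curve p4 (Ideal.Quotient.liftₐ p x1.hom fun r hr => p2 hr)
    (mt Ideal.Quotient.eq_zero_iff_mem.1 p3)
  refine ⟨a.comap ((Ideal.Quotient.mkₐ ℂ p).comp (Ideal.Quotient.mkₐ ℂ q)),
    DFunLike.ext _ _ fun s => DFunLike.congr_fun a1 _, fun s hs => ?_, a2⟩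
  rw [Arc.comap_hom, AlgHom.comp_apply, Ideal.Quotient.mkₐ_eq_mk ℂ q,
    Ideal.Quotient.eq_zero_iff_mem.2 hs, map_zero, map_zero]

end Vale.Agent.P282
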