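import Vale.Agent.P282.QMg
import Vale.Agent.P282.UArc
import Vale.Agent.P282.ANum
import Vale.Agent.P282.ALd
import Vale.Agent.P282.ATd
import Vale.Agent.P282.AHart
import Vale.Agent.P282.CAbc_c

set_option linter.unusedSectionVars false

open scoped ENNReal TensorProduct Topology
open Filter MeasureTheory

noncomputable section

namespace Vale.Agent.P282

variable {R K : Type} [CommRing R] [IsDomain R] [Algebra ℂ R] [Algebra.FiniteType ℂ R]
  [IsIntegrallyClosed R] [Field K] [Algebra R K] [IsFractionRing R K] [Algebra ℂ K]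
  [IsScalarTower ℂ R K] {n : ℕ}

namespace CAbc

theorem inj2 {α : Type} {a b : α} (h : a ≠ b) : Function.Injective ![a, b] := by
  intro i j e
  fin_cases i <;> fin_cases j <;> simp_all

theorem inj3 {α : Type} {a b c : α} (h : a ≠ b) (h' : a ≠ c) (h'' : b ≠ c) :
    Function.Injective ![a, b, c] := by
  intro i j e
  fin_cases i <;> fin_cases j <;> simp_all

theorem partner (G : WS R K n) (π : Proj R n) (q : Ideal (π.Rt K)) [q.IsPrime] (σ₁ : π.Emb K)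
    (h : π.em K σ₁ (G.ρ π.y) ∈ q) : ∃ σ, σ ≠ σ₁ ∧ ∀ r, π.em K σ r - π.em K σ₁ r ∈ q := by
  by_contra hc
  push Not at hc
  obtain ⟨θ, P, δ, hE, hδ⟩ := π.se q σ₁ hc
  exact rho_notMem G hE (q.comap (π.em K σ₁)) hδ h

omit [IsIntegrallyClosed R] in
theorem prime_one (h : Algebra.trdeg ℂ R = (n + 1 : ℕ)) (m : Ideal R) [m.IsPrime] {u : R}
    (hu : u ≠ 0) (hm : u ∈ m) :
    ∃ E : Ideal R, E.IsPrime ∧ E ≤ m ∧ u ∈ E ∧ Algebra.trdeg ℂ (R ⧸ E) = n := by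
  obtain ⟨E, hE, h1⟩ := Ideal.exists_minimalPrimes_le ((Ideal.span_singleton_le_iff_mem m).2 hm)
  exact ⟨E, hE.1.1, h1, hE.1.2 (Ideal.mem_span_singleton_self u), td_pit h hu hE⟩

omit [IsIntegrallyClosed R] in
theorem prime_two (E m : Ideal R) [E.IsPrime] [m.IsPrime] (hE : E ≤ m)
    (h : Algebra.trdeg ℂ (R ⧸ E) = (n + 1 : ℕ)) {v : R} (hv : v ∈ m) :
    ∃ z : Ideal R, z.IsPrime ∧ E ≤ z ∧ z ≤ m ∧ v ∈ z ∧
      (Algebra.trdeg ℂ (R ⧸ z) = (n + 1 : ℕ) ∨ Algebra.trdeg ℂ (R ⧸ z) = n) := by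
  by_cases h0 : v ∈ E
  · exact ⟨E, inferInstance, le_rfl, hE, h0, Or.inl h⟩
  have := Ideal.map_isPrime_of_surjective (f := Ideal.Quotient.mk E) Ideal.Quotient.mk_surjective
    (I := m) (by rwa [Ideal.mk_ker])
  obtain ⟨p, hp, h1, h2, h3⟩ := prime_one h (m.map (Ideal.Quotient.mk E))
    (mt Ideal.Quotient.eq_zero_iff_mem.1 h0) (Ideal.mem_map_of_mem _ hv)
  refine ⟨p.comap (Ideal.Quotient.mkₐ ℂ E), inferInstance, fun r hr => ?_, fun r hr => ?_, h2,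
    Or.inr ((td_comap _ (RingHom.isIntegral_of_surjective _ Ideal.Quotient.mk_surjective) p).trans
      h3)⟩
  · show Ideal.Quotient.mk E r ∈ p
    rw [Ideal.Quotient.eq_zero_iff_mem.2 hr]
    exact p.zero_mem
  · exact (Ideal.mem_quotient_iff_mem hE).1 (h1 hr)

theorem smooth' (π : Proj R (n + 2)) (x : Pt R) (x' : Pt (π.Rt K))
    (h : ∀ q : Ideal R, q.IsPrime → q ≤ x.m → Algebra.trdeg ℂ (R ⧸ q) = n → LocGen q 2)
    (z : Ideal (π.Rt K)) [z.IsPrime] (hz : z ≤ x'.m)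
    (hd : Algebra.trdeg ℂ (π.Rt K ⧸ z) = (n + 1 : ℕ) ∨ Algebra.trdeg ℂ (π.Rt K ⧸ z) = n)
    {τ : π.Emb K} (hτ : τ ∈ π.EmbAt K x x') : ∃ D, π.em K τ D ∉ z ∧ ∃ g : Fin (n + 2) → R,
      ∀ b : Arc (π.Rt K), (∀ r ∈ z, b.hom r = 0) → b.hom (π.em K τ D) ≠ 0 →
        Co (b.comap (π.em K τ)).ev fun j => (b.comap (π.em K τ)).yq (g j) := by
  have := π.rt_fg (K := K)
  rw [← td_comap _ (π.em_integral τ) z] at hd
  obtain ⟨D, hD, g, hg⟩ : ∃ D, D ∉ z.comap (π.em K τ) ∧ ∃ g : Fin (n + 2) → R,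
      ∀ a : Arc R, (∀ r ∈ z.comap (π.em K τ), a.hom r = 0) → a.hom D ≠ 0 →
        Co a.ev fun j => a.yq (g j) := by
    rcases hd with hd | hd
    · exact smooth (e := 1) _ rfl hd (locGen_one _ ((height_one_iff π.trdeg _).2 hd))
    · exact smooth _ rfl hd (h _ inferInstance (fun r hr => (hτ r).symm.trans (hz hr)) hd)
  exact ⟨D, hD, g, fun b hb hb' => hg _ (fun r hr => hb _ hr) hb'⟩

variable (G : WS R K (n + 2)) (π π' : Proj R (n + 2)) (x : Pt R) (hy : IsRed K x.m π.y)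

include hy

theorem one_arc (a : Arc R) (ha : a.γ 0 = x) (hco : Co a.ev fun j => a.yq (π'.y j))
    (hB : Big a.ev (Ideal.span (Set.range fun i => a.yq (π.y i))) 2) : Strict G.ω x.m := by
  obtain ⟨k, hk, h3⟩ := num_gain (n := n + 2) (by omega)
  obtain ⟨W, rfl, h1, h2, h4, h5, h6⟩ := der_case G π' a hco
    (Ideal.span_le.2 (Set.range_subset_iff.2 fun i => a.yq_mem _)) hk hB
  let ι : R →ₐ[ℂ] RK R := Algebra.TensorProduct.includeRight
  have he : ∀ u, W.toArc.ev (ι u) = W.toArc.hom u := fun u =>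
    (W.toArc.ev_tmul 1 u).trans (one_mul _)
  obtain ⟨β, b1, f, hf, c, hc, b2⟩ := norm x (fun u => W.ξ (ι u)) W.toArc W.toArc
    (fun u v => by rw [map_add, map_add]) (fun u v => by rw [map_mul, h2.mul, he, he])
    (fun c => by rw [ι.commutes, IsScalarTower.algebraMap_apply ℂ MK (RK R), h2.alg]) (by
      by_contra hc
      push Not at hc
      refine h4 (LinearMap.ext fun u => ?_)
      induction u using TensorProduct.induction_on with
      | zero => simp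
      | tmul c r =>
        rw [show c ⊗ₜ[ℂ] r = c • ι r by simp [ι, TensorProduct.smul_tmul'], map_smul, hc, smul_zero]
        rfl
      | add u v hu hv => rw [map_add, map_add, hu, hv])
  have k3 : (3 : ℝ) ≤ k := by exact_mod_cast hk
  have n0 : (0 : ℝ) ≤ n := n.cast_nonneg
  refine fin G π π' x hy (fun _ : Fin 1 => W) (fun _ => ha) (κ := 2 * k) (by nlinarith)
    (fun _ => h1) (fun _ => β) (fun u => by simpa [ι] using b1 u) hf hc (by simpa [ι] using b2)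
    (fun i => ⟨_, fun _ => h5 (Ideal.subset_span ⟨i, rfl⟩), ?_⟩) (s := 2 * k) (by linarith)
    ?_ ?_ h3
  · simpa [ha, Pt.mem_m.1 (hy.1 i)] using Lim.yq W.toArc (π.y i)
  · push_cast
    field_simp
    ring
  · rw [Fin.sum_univ_one, h6]
    have : (k : ℝ) - 1 ≠ 0 := by linarith
    field_simp
    ring

theorem two_arc (a b : Arc R) (ha : a.γ 0 = x) (hb : b.γ 0 = x)
    (hab : ∀ i, a.hom (π.y i) = b.hom (π.y i)) (hne : ∃ u, a.hom u - b.hom u ≠ 0)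
    (hco : Co a.ev fun j => a.yq (π'.y j)) (hco' : Co b.ev fun j => b.yq (π'.y j))
    (hB : Big a.ev (Ideal.span (Set.range fun i => a.yq (π.y i))) 1)
    (hB' : Big b.ev (Ideal.span (Set.range fun i => b.yq (π.y i))) 1) : Strict G.ω x.m := by
  obtain ⟨k, hk, h3⟩ := num_gain (n := n + 2) (by omega)
  obtain ⟨W, rfl, h1, h2, h5, h6⟩ := ev_case G π' a hco
    (Ideal.span_le.2 (Set.range_subset_iff.2 fun i => a.yq_mem _)) hk hB
  obtain ⟨W', rfl, h1', h2', h5', h6'⟩ := ev_case G π' b hco'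
    (Ideal.span_le.2 (Set.range_subset_iff.2 fun i => b.yq_mem _)) hk hB'
  obtain ⟨β, b1, f, hf, c, hc, b2⟩ := norm x (fun u => W.toArc.hom u - W'.toArc.hom u)
    W.toArc W'.toArc (fun u v => by rw [map_add, map_add]; ring)
    (fun u v => by rw [map_mul, map_mul]; ring)
    (fun c => by rw [AlgHom.commutes, AlgHom.commutes, sub_self]) hne
  have hsum : ∀ u, ∑ i, (![β, -β] : Fin 2 → MK) i *
      ((![W, W'] : Fin 2 → WArc R (n + 2)) i).ξ (1 ⊗ₜ u) =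
      β * (W.toArc.hom u - W'.toArc.hom u) := fun u => by
    simp [h2, h2', Arc.ev_tmul]
    ring
  have k3 : (3 : ℝ) ≤ k := by exact_mod_cast hk
  have n0 : (0 : ℝ) ≤ n := n.cast_nonneg
  refine fin G π π' x hy ![W, W'] (Fin.forall_fin_two.2 ⟨ha, hb⟩) (κ := k) (by nlinarith)
    (Fin.forall_fin_two.2 ⟨h1, h1'⟩) ![β, -β] (fun u => hsum u ▸ b1 u) hf hc (hsum f ▸ b2)
    (fun i => ⟨W.toArc.yq (π.y i), Fin.forall_fin_two.2 ⟨h5 (Ideal.subset_span ⟨i, rfl⟩), ?_⟩,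
      ?_⟩) (s := k) (by linarith) ?_ ?_ h3
  · rw [Arc.yq, hab]
    exact h5' (Ideal.subset_span ⟨i, rfl⟩)
  · simpa [ha, Pt.mem_m.1 (hy.1 i)] using Lim.yq W.toArc (π.y i)
  · push_cast
    field_simp
    ring
  · rw [Fin.sum_univ_two]
    show (W.l : ℝ) / ∏ j, (W.w j : ℝ) + (W'.l : ℝ) / ∏ j, (W'.w j : ℝ) = _
    rw [h6, h6']
    have : (k : ℝ) - 1 ≠ 0 := by linarith
    field_simp
    ring

end CAbc

open CAbc in
/-- local degree at least three, regular in codimension two -/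
theorem abc_case (G : WS R K n) (hn : 3 ≤ n) (π : Proj R n) (x : Pt R) (hy : IsRed K x.m π.y)
    (hρ : G.ρ π.y ∈ x.m) (x' : Pt (π.Rt K)) (σ : Fin 3 → π.Emb K) (hσ : Function.Injective σ)
    (hx : ∀ i, σ i ∈ π.EmbAt K x x')
    (h : ∀ q : Ideal R, q.IsPrime → q ≤ x.m → Algebra.trdeg ℂ (R ⧸ q) = (n - 2 : ℕ) →
      LocGen q 2) : Strict G.ω x.m := by
  obtain ⟨n, rfl⟩ : ∃ k, n = k + 2 := ⟨n - 2, by omega⟩
  have := π.rt_fg (K := K)
  have hm : ∀ i, π.em K (σ i) (G.ρ π.y) ∈ x'.m := fun i => (hx i _).trans hρ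
  obtain ⟨E, hE, E1, E2, E3⟩ := prime_one (π.rt_trdeg (K := K)) x'.m
    (fun e => G.ρ_ne π (π.emb_inj (σ 0).2 ((congrArg Subtype.val e).trans (map_zero _).symm)))
    (hm 0)
  obtain ⟨τ, τ0, hτ⟩ := partner G π E (σ 0) E2
  obtain ⟨l, l0, l1⟩ : ∃ l, σ l ≠ σ 0 ∧ σ l ≠ τ := by
    by_cases h1 : σ 1 = τ
    · exact ⟨2, hσ.ne (by decide), h1 ▸ hσ.ne (by decide)⟩
    · exact ⟨1, hσ.ne (by decide), h1⟩
  obtain ⟨z, hz, z0, z1, z2, z3⟩ := prime_two E x'.m E1 E3 (hm l)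
  obtain ⟨τ', τ1, hτ'⟩ := partner G π z (σ l) z2
  obtain ⟨D, hD, g, hg⟩ := smooth' π x x' h z z1 z3 (hx 0)
  obtain ⟨D', hD', g', hg'⟩ := smooth' π x x' h z z1 z3 (hx l)
  obtain ⟨v, hv, hv'⟩ : ∃ v, v ∉ z ∧ ((∀ r, π.em K (σ l) r - π.em K (σ 0) r ∈ z) ∨
      ∃ r, v = π.em K (σ 0) r - π.em K (σ l) r) := by
    by_cases hc : ∀ r, π.em K (σ l) r - π.em K (σ 0) r ∈ z
    · exact ⟨1, (Ideal.ne_top_iff_one z).1 hz.ne_top, Or.inl hc⟩
    · push Not at hc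
      obtain ⟨r, hr⟩ := hc
      exact ⟨_, fun e => hr (sub_mem_comm_iff.1 e), Or.inr ⟨r, rfl⟩⟩
  obtain ⟨b, b0, b1, b2⟩ := exists_arc x' z z1 (g := π.em K (σ 0) D * π.em K (σ l) D' * v)
    fun e => (hz.mem_or_mem e).elim (fun e => (hz.mem_or_mem e).elim hD hD') hv
  rw [map_mul, map_mul, mul_ne_zero_iff, mul_ne_zero_iff] at b2
  have a0 : ∀ i, (b.comap (π.em K (σ i))).γ 0 = x := fun i =>
    DFunLike.ext _ _ fun u => (DFunLike.congr_fun b0 _).trans (hx i u)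
  obtain ⟨π', c0, c1⟩ := co_proj π _ _ (hg b b1 b2.1.1) (hg' b b1 b2.1.2)
    (fun i => by rw [a0]; exact hy.1 i) fun i => by rw [a0]; exact hy.1 i
  have key : ∀ {s t : π.Emb K}, (∀ r, π.em K s r - π.em K t r ∈ z) → ∀ r,
      b.hom (π.em K s r) = (b.comap (π.em K t)).hom r := fun h r =>
    sub_eq_zero.1 ((map_sub _ _ _).symm.trans (b1 _ (h r)))
  have k0 := key fun r => z0 (hτ r)
  rcases hv' with hc | ⟨r, rfl⟩
  · refine one_arc G π π' x hy _ (a0 0) c0 (ld π b _ _ (inj3 τ0.symm l0.symm l1.symm) fun i => ?_)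
    fin_cases i
    exacts [fun _ => rfl, k0, key hc]
  · rw [map_sub] at b2
    refine two_arc G π π' x hy _ _ (a0 0) (a0 l) (fun i => ?_) ⟨r, b2.2⟩
      c0 c1 (ld π b _ _ (inj2 τ0.symm) (Fin.forall_fin_two.2 ⟨fun _ => rfl, k0⟩))
      (ld π b _ _ (inj2 τ1.symm) (Fin.forall_fin_two.2 ⟨fun _ => rfl, key hτ'⟩))
    have := π.em_y (σ 0) (σ l) (MvPolynomial.X i)
    rw [MvPolynomial.aeval_X] at this
    exact congrArg b.hom this

end Vale.Agent.P282
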