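import Mathlib

/-! P282: linear algebra at a rational point of an algebra over a field. -/

noncomputable section

namespace Vale.Agent.P282.CAbc

theorem nak {A : Type} [CommRing A] {I m : Ideal A} {a : ℕ} (h : m ^ a ≤ I ⊔ m ^ (a + 1))
    (N : ℕ) : m ^ a ≤ I ⊔ m ^ N := by
  have key : ∀ d, m ^ a ≤ I ⊔ m ^ (a + d) := by
    intro d
    induction d with
    | zero => exact le_sup_right
    | succ d ih =>
      refine ih.trans (sup_le le_sup_left ?_)
      rw [pow_add]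
      refine (Ideal.mul_mono_left h).trans ?_
      rw [Ideal.sup_mul, ← pow_add, show a + 1 + d = a + (d + 1) by omega, pow_add]
      exact sup_le_sup_right Ideal.mul_le_left _
  exact (key N).trans (sup_le_sup_left (Ideal.pow_le_pow_right (by omega)) _)

theorem ext_li {F V : Type} [Field F] [AddCommGroup V] [Module F V] {n : ℕ}
    (hV : Module.finrank F V = n) (d : ℕ) : ∀ (r : ℕ) (_ : r + d = n) (v : Fin r → V),
    LinearIndependent F v → ∃ u : Fin n → V, LinearIndependent F u ∧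
      ∀ (i : Fin r) (j : Fin n), (i : ℕ) = j → u j = v i := by
  induction d with
  | zero =>
    rintro r rfl v hv
    exact ⟨v, hv, fun i j e => by rw [Fin.ext e]⟩
  | succ d ih =>
    intro r h v hv
    obtain ⟨x, hx⟩ := exists_linearIndependent_snoc_of_lt_finrank hv (by omega)
    obtain ⟨u, hu, e⟩ := ih (r + 1) (by omega) _ hx
    exact ⟨u, hu, fun i j hij => by rw [e i.castSucc j hij, Fin.snoc_castSucc]⟩

theorem det_fin {F : Type} [Field F] [Algebra ℂ F] {n : ℕ} (A B : Matrix (Fin n) (Fin n) F)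
    (t₀ : F) (h : (A + t₀ • B).det ≠ 0) : {t : ℂ | (A + algebraMap ℂ F t • B).det = 0}.Finite := by
  classical
  let p : Polynomial F := (A.map Polynomial.C + (Polynomial.X : Polynomial F) •
    B.map Polynomial.C).det
  have hp : ∀ t, p.eval t = (A + t • B).det := fun t => by
    show Polynomial.evalRingHom t _ = _
    rw [RingHom.map_det]
    congr 1
    ext i j
    simp only [RingHom.mapMatrix_apply, Matrix.map_apply, Matrix.add_apply, Matrix.smul_apply,
      smul_eq_mul, Polynomial.coe_evalRingHom, Polynomial.eval_add, Polynomial.eval_mul,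
      Polynomial.eval_C, Polynomial.eval_X]
  have h0 : p ≠ 0 := fun e => h (by rw [← hp, e, Polynomial.eval_zero])
  refine ((p.roots.toFinset.finite_toSet).preimage
    (algebraMap ℂ F).injective.injOn).subset fun t ht => ?_
  simp only [Set.mem_preimage, Finset.mem_coe, Multiset.mem_toFinset, Polynomial.mem_roots h0,
    Polynomial.IsRoot, hp]
  exact ht

variable {F A : Type} [Field F] [CommRing A] [Algebra F A] (e : A →ₐ[F] F)

theorem sub_mem (x : A) : x - algebraMap F A (e x) ∈ RingHom.ker e := by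
  simp [RingHom.mem_ker]

theorem coef {k : ℕ} (z : Fin k → A) (J : Ideal A) {x : A}
    (hx : x ∈ Ideal.span (Set.range z) ⊔ J) : ∃ t : Fin k → F,
      x - ∑ j, t j • z j ∈ RingHom.ker e * Ideal.span (Set.range z) ⊔ J := by
  obtain ⟨u, hu, v, hv, rfl⟩ := Submodule.mem_sup.1 hx
  obtain ⟨c, rfl⟩ := Ideal.mem_span_range_iff_exists_fun.1 hu
  refine ⟨fun j => e (c j), ?_⟩
  have : ∑ j, c j * z j + v - ∑ j, e (c j) • z j =
      ∑ j, (c j - algebraMap F A (e (c j))) * z j + v := by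
    simp only [sub_mul, Finset.sum_sub_distrib, Algebra.smul_def]
    ring
  rw [this]
  exact Submodule.add_mem_sup (Ideal.sum_mem _ fun j _ =>
    Ideal.mul_mem_mul (sub_mem e _) (Ideal.subset_span ⟨j, rfl⟩)) hv

/-- the tuple `z` spans the cotangent space -/
def Co {n : ℕ} (z : Fin n → A) : Prop :=
  (∀ j, z j ∈ RingHom.ker e) ∧ ∀ x, ∃ t : Fin n → F,
    x - algebraMap F A (e x) - ∑ j, t j • z j ∈ RingHom.ker e ^ 2

variable {e}

theorem co_of_le {n : ℕ} {z : Fin n → A} (hz : ∀ j, z j ∈ RingHom.ker e)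
    (h : RingHom.ker e ≤ Ideal.span (Set.range z) ⊔ RingHom.ker e ^ 2) : Co e z := by
  refine ⟨hz, fun x => ?_⟩
  obtain ⟨t, ht⟩ := coef e z _ (h (sub_mem e x))
  refine ⟨t, (sup_le ?_ le_rfl : _ ≤ RingHom.ker e ^ 2) ht⟩
  rw [sq]
  exact Ideal.mul_mono_right (Ideal.span_le.2 (Set.range_subset_iff.2 hz))

theorem Co.mem {n : ℕ} {z : Fin n → A} (h : Co e z) {x : A} (hx : x ∈ RingHom.ker e) :
    ∃ t : Fin n → F, x - ∑ j, t j • z j ∈ RingHom.ker e ^ 2 := by
  obtain ⟨t, ht⟩ := h.2 x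
  rw [RingHom.mem_ker.1 hx, map_zero, sub_zero] at ht
  exact ⟨t, ht⟩

theorem Co.le {n : ℕ} {z : Fin n → A} (h : Co e z) {I : Ideal A}
    (hI : ∀ j, z j ∈ I ⊔ RingHom.ker e ^ 2) (N : ℕ) : RingHom.ker e ≤ I ⊔ RingHom.ker e ^ N := by
  have := nak (I := I) (m := RingHom.ker e) (a := 1) (by
    rw [pow_one]
    intro x hx
    obtain ⟨t, ht⟩ := h.mem hx
    have h2 : ∑ j, t j • z j ∈ I ⊔ RingHom.ker e ^ 2 :=
      Ideal.sum_mem _ fun j _ => Submodule.smul_of_tower_mem _ _ (hI j)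
    simpa using Ideal.add_mem _ (Ideal.mem_sup_right ht) h2) N
  rwa [pow_one] at this

/-- change of the tuple by an invertible matrix -/
theorem Co.mat {n : ℕ} {z z' : Fin n → A} (h : Co e z) (B : Matrix (Fin n) (Fin n) F)
    (hB : B.det ≠ 0) (hz : ∀ j, z' j - ∑ k, B j k • z k ∈ RingHom.ker e ^ 2) : Co e z' := by
  refine ⟨fun j => ?_, fun x => ?_⟩
  · have h2 : ∑ k, B j k • z k ∈ RingHom.ker e :=
      Ideal.sum_mem _ fun k _ => Submodule.smul_of_tower_mem _ _ (h.1 k)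
    simpa using Ideal.add_mem _ (Ideal.pow_le_self two_ne_zero (hz j)) h2
  · obtain ⟨b, hb⟩ := h.2 x
    refine ⟨Matrix.vecMul b B⁻¹, ?_⟩
    have e1 : ∑ j, Matrix.vecMul b B⁻¹ j • ∑ k, B j k • z k = ∑ k, b k • z k := by
      simp only [Finset.smul_sum, smul_smul]
      rw [Finset.sum_comm]
      refine Finset.sum_congr rfl fun k _ => ?_
      rw [← Finset.sum_smul]
      congr 1
      have := congrFun (Matrix.vecMul_vecMul b B⁻¹ B) k
      rw [Matrix.nonsing_inv_mul _ (Ne.isUnit hB), Matrix.vecMul_one] at this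
      exact this
    have h2 : ∑ j, Matrix.vecMul b B⁻¹ j • (z' j - ∑ k, B j k • z k) ∈ RingHom.ker e ^ 2 :=
      Ideal.sum_mem _ fun j _ => Submodule.smul_of_tower_mem _ _ (hz j)
    simp only [smul_sub, Finset.sum_sub_distrib, e1] at h2
    convert Ideal.sub_mem _ hb h2 using 1
    ring

/-- a derivation at the point -/
def Der (e : A →ₐ[F] F) (φ : A →ₗ[F] F) : Prop := φ 1 = 0 ∧ ∀ x ∈ RingHom.ker e ^ 2, φ x = 0

theorem Der.alg {φ : A →ₗ[F] F} (h : Der e φ) (c : F) : φ (algebraMap F A c) = 0 := by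
  rw [Algebra.algebraMap_eq_smul_one, map_smul, h.1, smul_zero]

theorem Der.eq {φ : A →ₗ[F] F} (h : Der e φ) {n : ℕ} {z : Fin n → A} {x : A} {t : Fin n → F}
    (ht : x - algebraMap F A (e x) - ∑ j, t j • z j ∈ RingHom.ker e ^ 2) :
    φ x = ∑ j, t j * φ (z j) := by
  have := h.2 _ ht
  simp only [map_sub, h.alg, map_sum, map_smul, smul_eq_mul, sub_zero] at this
  exact sub_eq_zero.1 this

theorem Der.coef {φ : A →ₗ[F] F} (h : Der e φ) {n : ℕ} {z : Fin n → A} {x : A} {t : Fin n → F}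
    (ht : x - algebraMap F A (e x) - ∑ j, t j • z j ∈ RingHom.ker e ^ 2) {i : Fin n}
    (hz : ∀ j, φ (z j) = if j = i then 1 else 0) : t i = φ x := by
  rw [h.eq ht]
  simp [hz]

theorem Der.mul {φ : A →ₗ[F] F} (h : Der e φ) (x y : A) : φ (x * y) = e x * φ y + e y * φ x := by
  have := h.2 _ (by rw [sq]; exact Ideal.mul_mem_mul (sub_mem e x) (sub_mem e y))
  have e1 : (x - algebraMap F A (e x)) * (y - algebraMap F A (e y)) =
      x * y - e x • y - e y • x + algebraMap F A (e x * e y) := by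
    simp only [Algebra.smul_def, map_mul]
    ring
  rw [e1] at this
  simp only [map_add, map_sub, map_smul, h.alg, smul_eq_mul] at this
  linear_combination this

/-- coordinates dual to given derivations -/
theorem Co.dual {n r : ℕ} {z : Fin n → A} (h : Co e z) (φ : Fin r → A →ₗ[F] F)
    (hφ : LinearIndependent F φ) (hd : ∀ i, Der e (φ i)) :
    ∃ B : Matrix (Fin n) (Fin n) F, B.det ≠ 0 ∧ ∀ (i : Fin r) (j j' : Fin n), (i : ℕ) = j →
      φ i (∑ k, B j' k • z k) = if j' = j then 1 else 0 := by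
  have hv : LinearIndependent F fun (i : Fin r) (k : Fin n) => φ i (z k) := by
    rw [Fintype.linearIndependent_iff] at hφ ⊢
    intro c hc
    refine hφ c (LinearMap.ext fun x => ?_)
    obtain ⟨t, ht⟩ := h.2 x
    simp only [LinearMap.sum_apply, LinearMap.smul_apply, smul_eq_mul, LinearMap.zero_apply,
      fun i => (hd i).eq ht, Finset.mul_sum]
    rw [Finset.sum_comm]
    refine Finset.sum_eq_zero fun k _ => ?_
    have := congrFun hc k
    simp only [Finset.sum_apply, Pi.smul_apply, smul_eq_mul, Pi.zero_apply] at this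
    simp only [mul_left_comm _ (t k), ← Finset.mul_sum, this, mul_zero]
  have hr : r ≤ n := by simpa using hv.fintype_card_le_finrank
  obtain ⟨u, hu, e1⟩ := ext_li (n := n) (by simp) (n - r) r (by omega) _ hv
  have hC : IsUnit (Matrix.of u).transpose.det := by
    rw [Matrix.det_transpose, ← Matrix.isUnit_iff_isUnit_det]
    exact Matrix.linearIndependent_rows_iff_isUnit.1 hu
  refine ⟨(Matrix.of u).transpose⁻¹, (Matrix.isUnit_nonsing_inv_det _ hC).ne_zero,
    fun i j j' hij => ?_⟩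
  have := congrFun (congrFun (Matrix.nonsing_inv_mul _ hC) j') j
  rw [Matrix.mul_apply, Matrix.one_apply] at this
  simp only [map_sum, map_smul, smul_eq_mul, ← this, Matrix.transpose_apply, Matrix.of_apply,
    e1 i j hij]

theorem Co.dual1 {n : ℕ} [NeZero n] {z : Fin n → A} (h : Co e z) {φ : A →ₗ[F] F} (h0 : φ ≠ 0)
    (hd : Der e φ) : ∃ B : Matrix (Fin n) (Fin n) F, B.det ≠ 0 ∧
      ∀ j, φ (∑ k, B j k • z k) = if j = 0 then 1 else 0 := by
  obtain ⟨B, hB, e1⟩ := h.dual ![φ] (linearIndependent_unique_iff.2 h0) (by simpa using hd)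
  exact ⟨B, hB, fun j => e1 0 0 j rfl⟩

theorem Co.dual2 {n : ℕ} {z : Fin (n + 2) → A} (h : Co e z) {φ ψ : A →ₗ[F] F}
    (h0 : LinearIndependent F ![φ, ψ]) (hd : Der e φ) (hd' : Der e ψ) :
    ∃ B : Matrix (Fin (n + 2)) (Fin (n + 2)) F, B.det ≠ 0 ∧
      (∀ j, φ (∑ k, B j k • z k) = if j = 0 then 1 else 0) ∧
      ∀ j, ψ (∑ k, B j k • z k) = if j = 1 then 1 else 0 := by
  obtain ⟨B, hB, e1⟩ := h.dual ![φ, ψ] h0 (by simpa [Fin.forall_fin_two] using ⟨hd, hd'⟩)
  exact ⟨B, hB, fun j => e1 0 0 j rfl, fun j => e1 1 1 j rfl⟩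

/-- the fibre has length greater than `k` -/
def Big (e : A →ₐ[F] F) (I : Ideal A) (k : ℕ) : Prop :=
  ∀ Z : Fin k → A, ¬ ∀ (N : ℕ) (x : A), ∃ c : Fin k → F,
    x - ∑ i, c i • Z i ∈ I ⊔ RingHom.ker e ^ N

theorem Big.pred {I : Ideal A} {k : ℕ} (h : Big e I (k + 1)) : Big e I k := fun Z H =>
  h (Fin.cons 0 Z) fun N x => by
    obtain ⟨c, hc⟩ := H N x
    exact ⟨Fin.cons 0 c, by simpa [Fin.sum_univ_succ] using hc⟩

/-- the constants plus `I + m²` -/
def S (e : A →ₐ[F] F) (I : Ideal A) : Submodule F A :=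
  (I ⊔ RingHom.ker e ^ 2).restrictScalars F ⊔ Submodule.span F {1}

theorem der_of_le {I : Ideal A} {φ : A →ₗ[F] F} (h : S e I ≤ LinearMap.ker φ) :
    Der e φ ∧ ∀ x ∈ I, φ x = 0 :=
  ⟨⟨h (Submodule.mem_sup_right (Submodule.mem_span_singleton_self 1)),
    fun _ hx => h (Submodule.mem_sup_left (Ideal.mem_sup_right hx))⟩,
    fun _ hx => h (Submodule.mem_sup_left (Ideal.mem_sup_left hx))⟩

theorem mem_of_S {I : Ideal A} (hI : I ≤ RingHom.ker e) {x : A} (hx : x ∈ S e I)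
    (hm : x ∈ RingHom.ker e) : x ∈ I ⊔ RingHom.ker e ^ 2 := by
  obtain ⟨u, hu, v, hv, rfl⟩ := Submodule.mem_sup.1 hx
  obtain ⟨c, rfl⟩ := Submodule.mem_span_singleton.1 hv
  have h1 : u ∈ RingHom.ker e := sup_le hI (Ideal.pow_le_self two_ne_zero) hu
  rw [RingHom.mem_ker] at h1 hm
  have : c = 0 := by simpa [h1] using hm
  rw [this, zero_smul, add_zero]
  exact hu

theorem exists_der {I : Ideal A} (hI : I ≤ RingHom.ker e) (h : Big e I 1) :
    ∃ φ : A →ₗ[F] F, φ ≠ 0 ∧ S e I ≤ LinearMap.ker φ := by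
  refine Submodule.exists_le_ker_of_lt_top _ (lt_top_iff_ne_top.2 fun ht => h (fun _ => 1) ?_)
  intro N x
  have := nak (I := I) (m := RingHom.ker e) (a := 1) (by
    rw [pow_one]
    exact fun x hx => mem_of_S hI (ht ▸ Submodule.mem_top) hx) N
  rw [pow_one] at this
  refine ⟨fun _ => e x, ?_⟩
  simpa [Algebra.algebraMap_eq_smul_one] using this (sub_mem e x)

theorem exists_der2 {I : Ideal A} {φ : A →ₗ[F] F} (h0 : φ ≠ 0)
    (h : ¬ LinearMap.ker φ ≤ S e I) :
    ∃ ψ : A →ₗ[F] F, LinearIndependent F ![φ, ψ] ∧ S e I ≤ LinearMap.ker ψ := by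
  obtain ⟨x, hx, hS⟩ := SetLike.not_le_iff_exists.1 h
  obtain ⟨ψ, h1, h2⟩ := Submodule.exists_le_ker_of_notMem hS
  refine ⟨ψ, LinearIndependent.pair_iff.2 fun s t hst => ?_, h2⟩
  have h3 := LinearMap.congr_fun hst x
  simp only [LinearMap.add_apply, LinearMap.smul_apply, LinearMap.mem_ker.1 hx, smul_eq_mul,
    mul_zero, zero_add, LinearMap.zero_apply, mul_eq_zero, h1, or_false] at h3
  subst h3
  simpa [h0] using hst

/-- corank one and length at least three -/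
theorem cork_one {n : ℕ} [NeZero n] {z : Fin n → A} (h : Co e z) {I : Ideal A}
    (hI : I ≤ RingHom.ker e) (hB : Big e I 2) {φ : A →ₗ[F] F} (hS : S e I ≤ LinearMap.ker φ)
    (hS' : LinearMap.ker φ ≤ S e I) (hz : ∀ j, φ (z j) = if j = 0 then 1 else 0) :
    ∃ c : Fin n → F, ∀ x ∈ I, x ∈ Ideal.span {u | ∃ j, j ≠ 0 ∧ u = z j + c j • z 0 ^ 2} ⊔
      (RingHom.ker e * Ideal.span {u | ∃ j, j ≠ 0 ∧ u = z j} ⊔ RingHom.ker e ^ 3) := by
  obtain ⟨hd, hφ⟩ := der_of_le hS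
  set m := RingHom.ker e with hm
  set L := Ideal.span {u | ∃ j, j ≠ 0 ∧ u = z j}
  have h0 : ∀ {x : A} {t : Fin n → F},
      x - algebraMap F A (e x) - ∑ j, t j • z j ∈ m ^ 2 → φ x = t 0 := fun ht => (hd.coef ht hz).symm
  have h1 : ∀ x ∈ m, x - φ x • z 0 ∈ L ⊔ m ^ 2 := fun x hx => by
    obtain ⟨t, ht⟩ := h.2 x
    rw [h0 ht]
    rw [RingHom.mem_ker.1 hx, map_zero, sub_zero, ← Finset.add_sum_erase _ _ (Finset.mem_univ 0),
      ← sub_sub] at ht
    have h2 : ∑ j ∈ Finset.univ.erase 0, t j • z j ∈ L := Ideal.sum_mem _ fun j hj =>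
      Submodule.smul_of_tower_mem _ _ (Ideal.subset_span ⟨j, Finset.ne_of_mem_erase hj, rfl⟩)
    simpa using Ideal.add_mem _ (Ideal.mem_sup_right ht) (Ideal.mem_sup_left h2)
  have hJ : m * (L ⊔ m ^ 2) = m * L ⊔ m ^ 3 := by rw [Ideal.mul_sup, ← pow_succ']
  have hA : ∀ x ∈ m ^ 2, ∃ c : F, x - c • z 0 ^ 2 ∈ m * L ⊔ m ^ 3 := fun x hx => by
    rw [sq] at hx
    refine Submodule.mul_induction_on hx (fun u hu v hv => ⟨φ u * φ v, ?_⟩) ?_
    · rw [← hJ]
      convert Ideal.add_mem _ (Ideal.mul_mem_mul hv (h1 u hu))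
        (Ideal.mul_mem_mul (Submodule.smul_of_tower_mem _ (φ u) (h.1 0)) (h1 v hv)) using 1
      simp only [Algebra.smul_def, map_mul]
      ring
    · rintro u v ⟨c, hc⟩ ⟨d, hd⟩
      refine ⟨c + d, ?_⟩
      convert Ideal.add_mem _ hc hd using 1
      rw [add_smul]
      ring
  have hk : ∀ x ∈ m, φ x = 0 → x ∈ I ⊔ m ^ 2 := fun x hx h0 => mem_of_S hI (hS' h0) hx
  have hL : L ≤ I ⊔ m ^ 2 := Ideal.span_le.2 (by
    rintro _ ⟨j, hj, rfl⟩
    exact hk _ (h.1 j) (by rw [hz, if_neg hj]))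
  have hJI : m * L ⊔ m ^ 3 ≤ I ⊔ m ^ 3 := by
    refine sup_le ((Ideal.mul_mono_right hL).trans ?_) le_sup_right
    rw [Ideal.mul_sup, ← pow_succ']
    exact sup_le_sup_right Ideal.mul_le_right _
  have hC : ∀ x ∈ I, x ∈ m ^ 2 → x ∈ m * L ⊔ m ^ 3 := fun x hx hx2 => by
    obtain ⟨c, hc⟩ := hA x hx2
    by_cases hc0 : c = 0
    · simpa [hc0] using hc
    refine absurd (fun N u => ?_) (hB ![1, z 0])
    have h2 : z 0 ^ 2 ∈ I ⊔ m ^ 3 := by
      have := Submodule.smul_of_tower_mem _ c⁻¹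
        (Ideal.sub_mem _ (Ideal.mem_sup_left hx) (hJI hc))
      rwa [sub_sub_cancel, inv_smul_smul₀ hc0] at this
    have h3 : m ^ 2 ≤ I ⊔ m ^ N := nak (fun v hv => by
      obtain ⟨d, hd⟩ := hA v hv
      simpa using Ideal.add_mem _ (hJI hd) (Submodule.smul_of_tower_mem _ d h2)) N
    refine ⟨![e u, φ u], sup_le le_sup_left h3 (hk _ ?_ ?_)⟩
    · simp [hm, RingHom.mem_ker, RingHom.mem_ker.1 (h.1 0)]
    · simp [hd.1, hz]
  have hg : ∀ j, ∃ (g : A) (c : F), g ∈ I ∧ (j ≠ 0 → g - z j ∈ m ^ 2 ∧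
      g - (z j + c • z 0 ^ 2) ∈ m * L ⊔ m ^ 3) := fun j => by
    by_cases hj : j = 0
    · exact ⟨0, 0, I.zero_mem, fun h => absurd hj h⟩
    obtain ⟨g, hg, v, hv, e1⟩ := Submodule.mem_sup.1 (hL (Ideal.subset_span ⟨j, hj, rfl⟩))
    have h2 : g - z j ∈ m ^ 2 := by
      rw [← e1]
      simpa using hv
    obtain ⟨c, hc⟩ := hA _ h2
    exact ⟨g, c, hg, fun _ => ⟨h2, by rwa [← sub_sub]⟩⟩
  choose g c hg hg' using hg
  refine ⟨c, fun x hx => ?_⟩
  obtain ⟨t, ht⟩ := h.2 x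
  have t0 : t 0 = 0 := by rw [← h0 ht, hφ x hx]
  rw [RingHom.mem_ker.1 (hI hx), map_zero, sub_zero] at ht
  have h2 : x - ∑ j, t j • g j ∈ m ^ 2 := by
    have : ∑ j, t j • (g j - z j) ∈ m ^ 2 := Ideal.sum_mem _ fun j _ => by
      by_cases hj : j = 0
      · simp [hj, t0]
      · exact Submodule.smul_of_tower_mem _ _ (hg' j hj).1
    simp only [smul_sub, Finset.sum_sub_distrib] at this
    convert Ideal.sub_mem _ ht this using 1
    ring
  have h3 := hC _ (I.sub_mem hx (Ideal.sum_mem _ fun j _ =>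
    Submodule.smul_of_tower_mem _ _ (hg j))) h2
  rw [← sub_add_cancel x (∑ j, t j • g j)]
  refine Ideal.add_mem _ (Ideal.mem_sup_right h3) (Ideal.sum_mem _ fun j _ => ?_)
  by_cases hj : j = 0
  · simp [hj, t0]
  · refine Submodule.smul_of_tower_mem _ _ ?_
    rw [← sub_add_cancel (g j) (z j + c j • z 0 ^ 2)]
    exact Ideal.add_mem _ (Ideal.mem_sup_right (hg' j hj).2)
      (Ideal.mem_sup_left (Ideal.subset_span ⟨j, hj, rfl⟩))

end Vale.Agent.P282.CAbc
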