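import Vale.Agent.P282.CAbc_a
import Vale.Agent.P282.QBas

/-! P282: weighted arcs at smooth points. -/

set_option linter.unusedSectionVars false

open scoped TensorProduct

noncomputable section

namespace Vale.Agent.P282.CAbc

variable {R K : Type} [CommRing R] [IsDomain R] [Algebra ℂ R] [Algebra.FiniteType ℂ R]
  [IsIntegrallyClosed R] [Field K] [Algebra R K] [IsFractionRing R K] [Algebra ℂ K]
  [IsScalarTower ℂ R K] {n : ℕ}

section lev

variable [NeZero n] (a : WArc R n) (π : Proj R n)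

theorem lev_mono {i j : ℕ} (h : i ≤ j) : a.lev π j ≤ a.lev π i :=
  iInf_mono fun _ => sup_le_sup_right (Ideal.span_mono fun _ hx =>
    hx.imp fun _ h1 => ⟨h.trans h1.1, h1.2⟩) _

theorem one_mem_lev : 1 ∈ a.lev π 0 :=
  (Submodule.mem_iInf _).2 fun _ => Ideal.mem_sup_left (Ideal.subset_span ⟨0, by simp, by simp⟩)

theorem span_s_le {p : ℕ} {S : Set (RK R)} (h : ∀ x ∈ S, ∃ j, p ≤ a.w j ∧ x = a.s π j) :
    Ideal.span S ≤
      Ideal.span {x | ∃ α : Fin n → ℕ, p ≤ ∑ k, a.w k * α k ∧ x = ∏ k, a.s π k ^ α k} := by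
  refine Ideal.span_mono fun x hx => ?_
  obtain ⟨j, hj, rfl⟩ := h x hx
  refine ⟨Pi.single j 1, ?_, ?_⟩
  · rw [Finset.sum_eq_single j (fun k _ hk => by simp [hk]) (by simp)]
    simpa using hj
  · rw [Finset.prod_eq_single j (fun k _ hk => by simp [hk]) (by simp)]
    simp

theorem s_mem {p : ℕ} {j : Fin n} (h : p ≤ a.w j) : a.s π j ∈ a.lev π p :=
  (Submodule.mem_iInf _).2 fun _ => Ideal.mem_sup_left
    (span_s_le a π (S := {a.s π j}) (fun _ hx => ⟨j, h, hx⟩) (Ideal.subset_span rfl))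

theorem lev_mul (i j : ℕ) : a.lev π i * a.lev π j ≤ a.lev π (i + j) := by
  refine le_iInf fun N => (Ideal.mul_mono (iInf_le _ N) (iInf_le _ N)).trans ?_
  rw [Ideal.sup_mul, Ideal.mul_sup]
  refine sup_le (sup_le (le_sup_of_le_left ?_) (le_sup_of_le_right Ideal.mul_le_right))
    (le_sup_of_le_right Ideal.mul_le_left)
  rw [Ideal.span_mul_span']
  refine Ideal.span_mono ?_
  rintro _ ⟨_, ⟨α, h1, rfl⟩, _, ⟨β, h2, rfl⟩, rfl⟩
  refine ⟨α + β, ?_, ?_⟩
  · simp only [Pi.add_apply, mul_add, Finset.sum_add_distrib]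
    omega
  · simp only [Pi.add_apply, pow_add, Finset.prod_mul_distrib]

variable {a π}

theorem lin_eq (j : Fin n) : a.lin π j = a.s π j - (if j = 0 then 0 else a.c j) • a.s π 0 ^ 2 := by
  unfold WArc.s
  by_cases hj : j = 0 <;> simp [hj]

theorem m_le (h : Co a.toArc.ev (a.lin π)) (N : ℕ) :
    a.toArc.m ≤ Ideal.span (Set.range (a.s π)) ⊔ a.toArc.m ^ N :=
  h.le (fun j => by
    rw [lin_eq]
    exact Ideal.mem_sup_left (Ideal.sub_mem _ (Ideal.subset_span (Set.mem_range_self j))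
      (Submodule.smul_of_tower_mem _ _ (Ideal.pow_mem_of_mem _
        (Ideal.subset_span (Set.mem_range_self 0)) 2 two_pos)))) N

theorem m_lev (h : Co a.toArc.ev (a.lin π)) {p : ℕ} (hp : ∀ j, p ≤ a.w j) :
    a.toArc.m ≤ a.lev π p :=
  le_iInf fun N => (m_le h N).trans (sup_le_sup_right
    (span_s_le a π fun _ hx => hx.imp fun j e => ⟨hp j, e.symm⟩) _)

theorem m_sq_lev (h : Co a.toArc.ev (a.lin π)) {p q : ℕ} (hp : ∀ j, p ≤ a.w j) (hq : q ≤ 2 * p) :
    a.toArc.m ^ 2 ≤ a.lev π q := by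
  rw [sq]
  exact ((Ideal.mul_mono (m_lev h hp) (m_lev h hp)).trans (lev_mul a π p p)).trans
    (lev_mono a π (by omega))

theorem lin_mem (h : Co a.toArc.ev (a.lin π)) {p q : ℕ} (hp : ∀ j, p ≤ a.w j) (hq : q ≤ 2 * p)
    {j : Fin n} (hj : q ≤ a.w j) : a.lin π j ∈ a.lev π q := by
  rw [lin_eq]
  refine Ideal.sub_mem _ (s_mem a π hj) (Submodule.smul_of_tower_mem _ _ (m_sq_lev h hp hq ?_))
  exact Ideal.pow_mem_pow (h.1 0) 2

/-- an element whose coordinates of small weight vanish -/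
theorem mem_lev (h : Co a.toArc.ev (a.lin π)) {p q : ℕ} (hp : ∀ j, p ≤ a.w j) (hq : q ≤ 2 * p)
    {x : RK R} {t : Fin n → MK} (ht : x - ∑ j, t j • a.lin π j ∈ a.toArc.m ^ 2)
    (h0 : ∀ j, a.w j < q → t j = 0) : x ∈ a.lev π q := by
  rw [← sub_add_cancel x (∑ j, t j • a.lin π j)]
  refine Ideal.add_mem _ (m_sq_lev h hp hq ht) (Ideal.sum_mem _ fun j _ => ?_)
  rcases lt_or_ge (a.w j) q with hj | hj
  · simp [h0 j hj]
  · exact Submodule.smul_of_tower_mem _ _ (lin_mem h hp hq hj)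

theorem dr_of (h : Co a.toArc.ev (a.lin π)) (hd : Der a.toArc.ev a.ξ)
    (hz : ∀ j, a.ξ (a.lin π j) = if j = 0 then 1 else 0) (hw : ∀ j, j ≠ 0 → a.w 0 < a.w j)
    (x : RK R) :
    x - algebraMap MK (RK R) (a.toArc.ev x) - a.ξ x • a.s π 0 ∈ a.lev π (a.w 0 + 1) := by
  obtain ⟨t, ht⟩ := h.2 x
  have e1 : a.ξ x = t 0 := (hd.coef ht hz).symm
  have := a.w_pos 0
  refine mem_lev h (p := a.w 0) (fun j => ?_) (by omega) (t := Function.update t 0 0) ?_
    fun j hj => ?_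
  · by_cases hj : j = 0
    · rw [hj]
    · exact (hw j hj).le
  · rw [← Finset.add_sum_erase _ _ (Finset.mem_univ 0)] at ht ⊢
    rw [Finset.sum_congr rfl fun j hj => by
      rw [Function.update_of_ne (Finset.ne_of_mem_erase hj)]]
    rw [Function.update_self, zero_smul, zero_add, e1]
    rw [← sub_sub] at ht
    exact ht
  · by_cases hj0 : j = 0
    · rw [hj0, Function.update_self]
    · exact absurd (hw j hj0) (by omega)

end lev

/-- the weights -/
def wt (n p q s : ℕ) (j : Fin (n + 2)) : ℕ := if j = 0 then p else if j = 1 then q else s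

theorem wt_sum (n p q s : ℕ) : ∑ j, wt n p q s j = p + q + n * s := by
  simp [Fin.sum_univ_succ, wt, Fin.succ_ne_zero, Fin.succ_succ_ne_one, add_assoc]

theorem wt_prod (n p q s : ℕ) : ∏ j, (wt n p q s j : ℝ) = p * q * s ^ n := by
  simp [Fin.prod_univ_succ, wt, Fin.succ_ne_zero, Fin.succ_succ_ne_one, mul_assoc]

/-- a weighted arc of length one -/
def mkW (a : Arc R) (B : Matrix (Fin (n + 2)) (Fin (n + 2)) MK) (hB : B.det ≠ 0)
    (c : Fin (n + 2) → MK) (p q s : ℕ) (h : 0 < p ∧ 0 < q ∧ 0 < s) (der : Bool)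
    (ξ : RK R →ₗ[MK] MK) : WArc R (n + 2) where
  toArc := a
  B := B
  B_det := hB
  c := c
  w := wt n p q s
  w_pos j := by
    unfold wt
    split_ifs <;> omega
  l := 1
  Z _ := 1
  g := 0
  der := der
  ξ := ξ

theorem good (G : WS R K (n + 2)) (π : Proj R (n + 2)) {a : Arc R} {B hB c p q s h der ξ}
    (hco : Co a.ev ((mkW a B hB c p q s h der ξ).lin π)) {c₀ : ℝ}
    (h1 : der = false → ∀ x, ξ x = a.ev x)
    (h2 : der = true → Der a.ev ξ ∧ p < q ∧ p < s ∧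
      ∀ j, ξ ((mkW a B hB c p q s h der ξ).lin π j) = if j = 0 then 1 else 0)
    (h3 : ((p + q + n * s + if der then p else 0 : ℕ) : ℝ) ≤ c₀) :
    (mkW a B hB c p q s h der ξ).Good π G c₀ where
  col N x := ⟨fun _ => a.ev x, by
    have := m_le (a := mkW a B hB c p q s h der ξ) hco N (a.sub_ev_mem x)
    rw [Algebra.algebraMap_eq_smul_one] at this
    exact (congrArg (fun u => x - u ∈ _) (Fin.sum_univ_one _)).mpr this⟩
  gain := by
    refine Ideal.mem_span_singleton.2 (one_dvd _) |> Ideal.span_mono ?_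
    rintro _ rfl
    exact ⟨0, fun _ => 1, fun i => one_mem_lev _ π, by simp⟩
  ev := h1
  dr hd := dr_of (a := mkW a B hB c p q s h der ξ) hco (h2 hd).1 (h2 hd).2.2.2 fun j hj => by
    have := h2 hd
    show wt n p q s 0 < wt n p q s j
    unfold wt
    rw [if_pos rfl, if_neg hj]
    split_ifs <;> omega
  bd := by
    show ((∑ j, wt n p q s j : ℕ) : ℝ) + ((if der then p else 0 : ℕ) : ℝ) ≤ c₀ + (0 : ℕ)
    rw [wt_sum, ← Nat.cast_add, Nat.cast_zero, add_zero]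
    exact h3

theorem wt_ge {n p q s u : ℕ} (h1 : u ≤ p) (h2 : u ≤ q) (h3 : u ≤ s) (j : Fin (n + 2)) :
    u ≤ wt n p q s j := by
  unfold wt
  split_ifs <;> omega

variable (G : WS R K (n + 2)) (π : Proj R (n + 2)) (a : Arc R)
  (hco : Co a.ev fun j => a.yq (π.y j)) {I : Ideal (RK R)} (hI : I ≤ a.m) {k : ℕ} (hk : 3 ≤ k)

include hco hI hk

theorem ev_case (hB : Big a.ev I 1) : ∃ W : WArc R (n + 2), W.toArc = a ∧
    W.Good π G ((n + 2) * k - 1) ∧ (∀ x, W.ξ x = a.ev x) ∧ I ≤ W.lev π k ∧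
      (W.l : ℝ) / ∏ j, (W.w j : ℝ) = 1 / ((k - 1) * k ^ (n + 1)) := by
  obtain ⟨φ, h0, hS⟩ := exists_der hI hB
  obtain ⟨hd, hφ⟩ := der_of_le hS
  obtain ⟨B, hB, e⟩ := hco.dual1 h0 hd
  obtain ⟨k, rfl⟩ : ∃ j, k = j + 1 := ⟨k - 1, by omega⟩
  let W := mkW a B hB 0 k (k + 1) (k + 1) (by omega) false a.ev.toLinearMap
  have hW : Co a.ev (W.lin π) := hco.mat B hB fun j => by simp [W, WArc.lin, mkW]
  refine ⟨W, rfl, good G π hW (fun _ _ => rfl) (by simp) (le_of_eq (by push_cast; ring)),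
    fun _ => rfl, fun x hx => ?_, ?_⟩
  · obtain ⟨t, ht⟩ := hW.2 x
    have t0 : t 0 = 0 := (hd.coef ht e).trans (hφ x hx)
    rw [RingHom.mem_ker.1 (hI hx), map_zero, sub_zero] at ht
    refine mem_lev (a := W) hW (p := k) (wt_ge le_rfl (by omega) (by omega)) (by omega) ht
      fun j hj => ?_
    by_cases hj0 : j = 0
    · rw [hj0, t0]
    · simp [W, mkW, wt, hj0] at hj
  · show ((1 : ℕ) : ℝ) / ∏ j, (wt n k (k + 1) (k + 1) j : ℝ) = _
    rw [wt_prod]
    push_cast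
    ring

theorem der_case (hB : Big a.ev I 2) : ∃ W : WArc R (n + 2), W.toArc = a ∧
    W.Good π G (2 * (n + 2) * k - 2) ∧ Der a.ev W.ξ ∧ W.ξ ≠ 0 ∧ I ≤ W.lev π (2 * k) ∧
      (W.l : ℝ) / ∏ j, (W.w j : ℝ) = 1 / ((k - 1) * (2 * k) ^ (n + 1)) := by
  obtain ⟨φ, h0, hS⟩ := exists_der hI hB.pred
  obtain ⟨hd, hφ⟩ := der_of_le hS
  obtain ⟨k, rfl⟩ : ∃ j, k = j + 1 := ⟨k - 1, by omega⟩
  by_cases hS' : LinearMap.ker φ ≤ S a.ev I
  · obtain ⟨B, hB', e⟩ := hco.dual1 h0 hd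
    have h1 : Co a.ev fun j => ∑ i, B j i • a.yq (π.y i) := hco.mat B hB' fun j => by simp
    obtain ⟨c, hc⟩ := cork_one h1 hI hB hS hS' e
    let W := mkW a B hB' c k (2 * (k + 1)) (2 * (k + 1)) (by omega) true φ
    have hW : Co W.toArc.ev (W.lin π) := h1
    have hp : ∀ j, k ≤ W.w j := wt_ge le_rfl (by omega) (by omega)
    have hq : ∀ j, j ≠ 0 → 2 * (k + 1) ≤ W.w j := fun j hj => by simp [W, mkW, wt, hj]
    refine ⟨W, rfl, good G π h1 (by simp) (fun _ => ⟨hd, by omega, by omega,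
      e⟩) (le_of_eq (by rw [if_pos rfl]; push_cast; ring)), hd, h0,
      fun x hx => (sup_le ?_ (sup_le ?_ ?_) : _ ≤ W.lev π (2 * (k + 1))) (hc x hx), ?_⟩
    · refine Ideal.span_le.2 ?_
      rintro _ ⟨j, hj, rfl⟩
      have := s_mem W π (hq j hj)
      rwa [WArc.s, if_neg hj] at this
    · refine (Ideal.mul_mono (m_lev hW hp) (Ideal.span_le.2 ?_)).trans
        ((lev_mul W π k (2 * k)).trans (lev_mono W π (by omega)))
      rintro _ ⟨j, hj, rfl⟩
      exact lin_mem hW hp le_rfl ((by omega : 2 * k ≤ 2 * (k + 1)).trans (hq j hj))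
    · rw [pow_succ']
      exact (Ideal.mul_mono (m_lev hW hp) (m_sq_lev hW hp le_rfl)).trans
        ((lev_mul W π k (2 * k)).trans (lev_mono W π (by omega)))
    · show ((1 : ℕ) : ℝ) / ∏ j, (wt n k (2 * (k + 1)) (2 * (k + 1)) j : ℝ) = _
      rw [wt_prod]
      push_cast
      ring
  · obtain ⟨ψ, hl, hS2⟩ := exists_der2 h0 hS'
    obtain ⟨hd2, hψ⟩ := der_of_le hS2
    obtain ⟨B, hB', e, e'⟩ := hco.dual2 hl hd hd2
    let W := mkW a B hB' 0 (k + 1) (2 * k) (2 * (k + 1)) (by omega) true φ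
    have hW : Co a.ev (W.lin π) := hco.mat B hB' fun j => by simp [W, WArc.lin, mkW]
    refine ⟨W, rfl, good G π hW (by simp) (fun _ => ⟨hd, by omega, by omega,
      e⟩) (le_of_eq (by rw [if_pos rfl]; push_cast; ring)), hd, h0, fun x hx => ?_, ?_⟩
    · obtain ⟨t, ht⟩ := hW.2 x
      have t0 : t 0 = 0 := (hd.coef ht e).trans (hφ x hx)
      have t1 : t 1 = 0 := (hd2.coef ht e').trans (hψ x hx)
      rw [RingHom.mem_ker.1 (hI hx), map_zero, sub_zero] at ht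
      refine mem_lev (a := W) hW (p := k + 1) (wt_ge le_rfl (by omega) (by omega)) le_rfl ht
        fun j hj => ?_
      by_cases hj0 : j = 0
      · rw [hj0, t0]
      by_cases hj1 : j = 1
      · rw [hj1, t1]
      · simp [W, mkW, wt, hj0, hj1] at hj
    · show ((1 : ℕ) : ℝ) / ∏ j, (wt n (k + 1) (2 * k) (2 * (k + 1)) j : ℝ) = _
      rw [wt_prod]
      push_cast
      ring

end Vale.Agent.P282.CAbc
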