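import Vale.Agent.P282.ATd
import Vale.Agent.P282.QBas

set_option linter.unusedSectionVars false

open scoped ENNReal TensorProduct Topology
open Filter MeasureTheory

noncomputable section

namespace Vale.Agent.P282

variable {R K : Type} [CommRing R] [IsDomain R] [Algebra ℂ R] [Algebra.FiniteType ℂ R]
  [IsIntegrallyClosed R] [Field K] [Algebra R K] [IsFractionRing R K] [Algebra ℂ K]
  [IsScalarTower ℂ R K] {n : ℕ}

omit [IsIntegrallyClosed R] in
theorem UArc0_bot : Algebra.trdeg ℂ (R ⧸ (⊥ : Ideal R)) = Algebra.trdeg ℂ R :=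
  (ATd0_int (Ideal.Quotient.mkₐ ℂ ⊥) (fun _ _ h => by
    simpa [sub_eq_zero] using Ideal.Quotient.eq.1 h)
    (RingHom.isIntegral_of_surjective _ Ideal.Quotient.mk_surjective)).symm

theorem UArc0_curve (d : ℕ) : ∀ (R : Type) [CommRing R] [IsDomain R] [Algebra ℂ R]
    [Algebra.FiniteType ℂ R], Algebra.trdeg ℂ R = (d + 1 : ℕ) → ∀ (x : Pt R) (g : R), g ≠ 0 →
    ∃ q : Ideal R, q.IsPrime ∧ q ≤ x.m ∧ g ∉ q ∧ Algebra.trdeg ℂ (R ⧸ q) = (1 : ℕ) := by
  induction d with
  | zero =>
    exact fun R _ _ _ _ h x g hg => ⟨⊥, Ideal.isPrime_bot, bot_le, hg, UArc0_bot.trans h⟩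
  | succ d ih =>
    intro R _ _ _ _ h x g hg
    classical
    have : IsNoetherianRing R := Algebra.FiniteType.isNoetherianRing ℂ R
    have hfin := Ideal.finite_minimalPrimes_of_isNoetherianRing R (Ideal.span {g})
    have h1 : ∀ p ∈ insert ⊥ hfin.toFinset, p.IsPrime ∧ ¬ x.m ≤ p := fun p hp => by
      have h2 : p.IsPrime ∧ ∃ k : ℕ, Algebra.trdeg ℂ (R ⧸ p) = (k + 1 : ℕ) := by
        rcases Finset.mem_insert.1 hp with rfl | hp
        · exact ⟨Ideal.isPrime_bot, _, UArc0_bot.trans h⟩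
        · rw [Set.Finite.mem_toFinset] at hp
          exact ⟨hp.1.1, _, td_pit h hg hp⟩
      obtain ⟨h2, k, h3⟩ := h2
      refine ⟨h2, fun hle => ?_⟩
      rw [← (inferInstance : x.m.IsMaximal).eq_of_le h2.ne_top hle, td_pt] at h3
      exact Nat.succ_ne_zero k (by exact_mod_cast h3.symm)
    have h2 := mt (Ideal.subset_union_prime (f := id) (I := x.m) ⊥ ⊥
      fun p hp _ _ => (h1 p hp).1).1 fun ⟨p, hp, hle⟩ => (h1 p hp).2 hle
    obtain ⟨f, hf, hf'⟩ := Set.not_subset.1 h2
    simp only [Set.mem_iUnion, not_exists] at hf'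
    have hf0 : f ≠ 0 := fun e => hf' ⊥ (by simp) e
    obtain ⟨p, hp, hpm⟩ := Ideal.exists_minimalPrimes_le
      ((Ideal.span_singleton_le_iff_mem x.m).2 hf)
    have := hp.1.1
    have hgp : g ∉ p := fun hgp => by
      obtain ⟨p', hp', hle⟩ := Ideal.exists_minimalPrimes_le
        ((Ideal.span_singleton_le_iff_mem p).2 hgp)
      have := hp'.1.1
      have h3 := td_lt (hle.lt_of_ne fun e => hf' p' (by simp [hp'])
        (e ▸ hp.1.2 (Ideal.mem_span_singleton_self f)))
      rw [td_pit h hf0 hp, td_pit h hg hp'] at h3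
      exact lt_irrefl _ h3
    obtain ⟨q, q1, q2, q3, q4⟩ := ih (R ⧸ p) (td_pit h hf0 hp)
      (Ideal.Quotient.liftₐ p x.hom fun r hr => hpm hr) (Ideal.Quotient.mk p g)
      (mt Ideal.Quotient.eq_zero_iff_mem.1 hgp)
    exact ⟨q.comap (Ideal.Quotient.mkₐ ℂ p), Ideal.comap_isPrime _ _, fun r hr => q2 hr, q3,
      (td_comap _ (RingHom.isIntegral_of_surjective _ Ideal.Quotient.mk_surjective) q).trans q4⟩

omit [IsIntegrallyClosed R] in
theorem UArc0_nat : ∃ d : ℕ, Algebra.trdeg ℂ R = d :=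
  Cardinal.lt_aleph0.1 trdeg_lt_aleph0_of_finiteType

omit [IsIntegrallyClosed R] in
/-- a curve through `x` that is not contained in the zeros of `g` -/
theorem exists_curve (x : Pt R) {g : R} (hg : g ≠ 0) (hx : x.m ≠ ⊥) :
    ∃ q : Ideal R, q.IsPrime ∧ q ≤ x.m ∧ g ∉ q ∧ Algebra.trdeg ℂ (R ⧸ q) = (1 : ℕ) := by
  obtain ⟨d, hd⟩ := UArc0_nat (R := R)
  rcases d with _ | d
  · have h := ATd0_ne_bot hx
    rw [hd, td_pt] at h
    simp at h
  · exact UArc0_curve d R hd x g hg

omit [IsIntegrallyClosed R] in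
/-- the normalization in a finite extension -/
theorem exists_normal (L : Type) [Field L] [Algebra ℂ L] [Algebra K L] [IsScalarTower ℂ K L]
    [FiniteDimensional K L] [Algebra R L] [IsScalarTower R K L] :
    Module.Finite R (integralClosure R L) ∧ IsIntegrallyClosed (integralClosure R L) ∧
      IsFractionRing (integralClosure R L) L := by
  refine ⟨?_, integralClosure.isIntegrallyClosedOfFiniteExtension K,
    integralClosure.isFractionRing_of_finite_extension K L⟩
  obtain ⟨d, hd⟩ := UArc0_nat (R := R)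
  obtain ⟨π⟩ := exists_proj' hd
  obtain ⟨A, _, _, _, _, _, ψ, hi, hf⟩ : ∃ (A : Type) (_ : CommRing A) (_ : IsDomain A)
      (_ : IsIntegrallyClosed A) (_ : IsNoetherianRing A) (_ : CharZero A) (ψ : A →+* R),
      Function.Injective ψ ∧ ψ.Finite :=
    ⟨MvPolynomial (Fin d) ℂ, inferInstance, inferInstance, inferInstance, inferInstance,
      inferInstance, (MvPolynomial.aeval π.y).toRingHom, π.ind, π.fin⟩
  let : Algebra A R := ψ.toAlgebra
  have : Module.Finite A R := hf
  have : FaithfulSMul A R := (faithfulSMul_iff_algebraMap_injective A R).2 hi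
  let : Algebra A K := ((algebraMap R K).comp ψ).toAlgebra
  have : IsScalarTower A R K := .of_algebraMap_eq fun _ => rfl
  have : FaithfulSMul A K := (faithfulSMul_iff_algebraMap_injective A K).2
    ((IsFractionRing.injective R K).comp hi)
  let : Algebra (FractionRing A) K := FractionRing.liftAlgebra A K
  have : IsScalarTower A (FractionRing A) K := FractionRing.isScalarTower_liftAlgebra A K
  have : Module.Finite (FractionRing A) K :=
    Module.Finite.of_isLocalization A R (nonZeroDivisors A)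
  let : Algebra A L := ((algebraMap R L).comp ψ).toAlgebra
  have : IsScalarTower A R L := .of_algebraMap_eq fun _ => rfl
  let : Algebra (FractionRing A) L :=
    ((algebraMap K L).comp (algebraMap (FractionRing A) K)).toAlgebra
  have : IsScalarTower (FractionRing A) K L := .of_algebraMap_eq fun _ => rfl
  have : IsScalarTower A (FractionRing A) L := .of_algebraMap_eq fun a =>
    (IsScalarTower.algebraMap_apply R K L (ψ a)).trans
      (congrArg (algebraMap K L) (IsScalarTower.algebraMap_apply A (FractionRing A) K a))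
  have : FiniteDimensional (FractionRing A) L := Module.Finite.trans K L
  have : IsIntegralClosure (integralClosure R L) A L :=
    ⟨Subtype.val_injective, fun {y} => ⟨fun h => ⟨⟨y, h.tower_top⟩, rfl⟩,
      fun ⟨z, hz⟩ => hz ▸ isIntegral_trans _ z.2⟩⟩
  have : Module.Finite A (integralClosure R L) :=
    IsIntegralClosure.finite A (FractionRing A) L (integralClosure R L)
  exact Module.Finite.of_restrictScalars_finite A R _

omit [IsIntegrallyClosed R] in
/-- points lift along integral extensions -/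
theorem exists_pt_lift {S : Type} [CommRing S] [Algebra ℂ S] (φ : R →ₐ[ℂ] S)
    (hφ : Function.Injective φ) (hi : φ.toRingHom.IsIntegral) (x : Pt R) :
    ∃ x' : Pt S, ∀ r, x' (φ r) = x r := by
  let := φ.toRingHom.toAlgebra
  have : Algebra.IsIntegral R S := ⟨hi⟩
  obtain ⟨Q, hQ, hc⟩ := Ideal.exists_ideal_over_maximal_of_isIntegral (S := S) x.m
    (fun r hr => by rw [hφ (hr.trans (map_zero φ).symm)]; exact zero_mem _)
  have h1 : ∀ r, Ideal.Quotient.mk Q (φ r) = algebraMap ℂ (S ⧸ Q) (x r) := fun r => by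
    have h2 : r - algebraMap ℂ R (x r) ∈ x.m := by
      rw [Pt.mem_m, map_sub, AlgHomClass.commutes]
      exact sub_self _
    rw [← hc] at h2
    have h3 : φ (r - algebraMap ℂ R (x r)) ∈ Q := h2
    rw [map_sub, AlgHom.commutes] at h3
    exact Ideal.Quotient.eq.2 h3
  let _ := Ideal.Quotient.field Q
  have : Algebra.IsIntegral ℂ (S ⧸ Q) := ⟨fun s => by
    obtain ⟨s, rfl⟩ := Ideal.Quotient.mk_surjective s
    obtain ⟨p, hp, hs⟩ := hi s
    refine ⟨p.map x.hom.toRingHom, hp.map _, ?_⟩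
    have h2 := Polynomial.hom_eval₂ p φ.toRingHom (Ideal.Quotient.mk Q) s
    rw [hs, map_zero] at h2
    rw [Polynomial.eval₂_map, h2]
    congr 1
    exact RingHom.ext fun r => (h1 r).symm⟩
  let e : ℂ ≃ₐ[ℂ] S ⧸ Q := AlgEquiv.ofBijective (Algebra.ofId ℂ (S ⧸ Q))
    IsAlgClosed.algebraMap_bijective_of_isIntegral
  refine ⟨(e.symm : S ⧸ Q →ₐ[ℂ] ℂ).comp (Ideal.Quotient.mkₐ ℂ Q), fun r => ?_⟩
  change e.symm (Ideal.Quotient.mk Q (φ r)) = x r
  rw [h1, AlgEquiv.commutes]
  rfl

end Vale.Agent.P282
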