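import Vale.Agent.P282.KCov
import Vale.Agent.P282.UArc0

set_option linter.unusedSectionVars false

open scoped ENNReal TensorProduct Topology
open Filter MeasureTheory

noncomputable section

namespace Vale.Agent.P282

variable {R K : Type} [CommRing R] [IsDomain R] [Algebra ℂ R] [Algebra.FiniteType ℂ R]
  [IsIntegrallyClosed R] [Field K] [Algebra R K] [IsFractionRing R K] [Algebra ℂ K]
  [IsScalarTower ℂ R K] {n : ℕ}

theorem CCov_root {K : Type} [Field K] (h : K) {m : ℕ} (hm : 0 < m) :
    ∃ (L : Type) (_ : Field L) (_ : Algebra K L) (_ : FiniteDimensional K L) (ζ : L),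
      ζ ^ m = algebraMap K L h ∧ IntermediateField.adjoin K {ζ} = ⊤ := by
  obtain ⟨ζ, hζ⟩ := IsAlgClosed.exists_pow_nat_eq (algebraMap K (AlgebraicClosure K) h) hm
  exact ⟨IntermediateField.adjoin K {ζ}, inferInstance, inferInstance,
    IntermediateField.adjoin.finiteDimensional (Algebra.IsIntegral.isIntegral ζ),
    IntermediateField.AdjoinSimple.gen K ζ, Subtype.ext hζ,
    IntermediateField.lift_injective _ (by
      rw [IntermediateField.lift_adjoin_simple, IntermediateField.lift_top]
      rfl)⟩

/-- the general case, by the index one cover -/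
theorem cov (G : WS R K n) (hn : 2 ≤ n) (x : Pt R)
    (hs : ¬ IsRegularLocalRing (Localization.AtPrime x.m)) : DP n x.m ∨ Strict G.ω x.m := by
  obtain ⟨L, _, _, _, ζ, h1, h2⟩ := CCov_root G.ω.h G.ω.m_pos
  let : Algebra ℂ L := ((algebraMap K L).comp (algebraMap ℂ K)).toAlgebra
  have : IsScalarTower ℂ K L := .of_algebraMap_eq fun _ => rfl
  let : Algebra R L := ((algebraMap K L).comp (algebraMap R K)).toAlgebra
  have : IsScalarTower R K L := .of_algebraMap_eq fun _ => rfl
  have : IsScalarTower ℂ R L := .of_algebraMap_eq fun c =>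
    congrArg (algebraMap K L) (IsScalarTower.algebraMap_apply ℂ R K c)
  obtain ⟨ω1, -, -, e3⟩ := exists_pull (L := L) G.ω
  have hζ : ζ ≠ 0 := by
    rintro rfl
    rw [zero_pow G.ω.m_pos.ne'] at h1
    exact (map_ne_zero _).2 G.ω.h_ne h1.symm
  have hR : Root G.ω (⟨1, one_pos, ω1.b, ζ, hζ⟩ : PForm L n) := ⟨rfl, h1, e3, h2⟩
  obtain ⟨f1, f2, f3⟩ := exists_normal (R := R) (K := K) L
  have : Algebra.FiniteType ℂ (integralClosure R L) :=
    Algebra.FiniteType.trans (S := R) inferInstance inferInstance
  obtain ⟨x', hx'⟩ := exists_pt_lift (IsScalarTower.toAlgHom ℂ R (integralClosure R L))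
    (fun a b h => IsFractionRing.injective R K ((algebraMap K L).injective
      (congrArg Subtype.val h)))
    (fun s => Algebra.IsIntegral.isIntegral (R := R) s) x
  exact hR.cov G hn hx' hs

end Vale.Agent.P282
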