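import Vale.Agent.P282.Base2

/-! Linear algebra for the double point case. -/

noncomputable section

namespace Vale.Agent.P282

variable {R : Type} [CommRing R] [Algebra ℂ R] {n : ℕ}

theorem CDp_diag0 (M : Matrix (Fin n) (Fin n) ℂ) : ∃ (B : Matrix (Fin n) (Fin n) ℂ)
    (e : Fin n → ℂ), B.det ≠ 0 ∧ (∀ i, e i = 0 ∨ e i = 1) ∧ ∀ v : Fin n → ℂ,
      ∑ i, ∑ j, M i j * (v i * v j) = ∑ i, e i * (∑ j, B i j * v j) ^ 2 := by
  classical
  let Q : QuadraticForm ℂ (Fin n → ℂ) := ∑ i, ∑ j, M i j • QuadraticMap.proj i j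
  have key : ∀ k, k = n → (∃ w : Fin k → ℂ, Q.Equivalent (QuadraticMap.weightedSumSquares ℂ w)) →
      ∃ w : Fin n → ℂ, Q.Equivalent (QuadraticMap.weightedSumSquares ℂ w) := by
    rintro k rfl h
    exact h
  obtain ⟨w, ⟨φ⟩⟩ := key _ (Module.finrank_fin_fun ℂ) Q.equivalent_weightedSumSquares
  let ψ := φ.trans (QuadraticForm.isometryEquivSumSquares w)
  refine ⟨LinearMap.toMatrix' ψ.toLinearEquiv.toLinearMap, fun i => if w i = 0 then 0 else 1,
    ?_, fun i => ?_, fun v => ?_⟩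
  · rw [LinearMap.det_toMatrix']
    exact (LinearEquiv.isUnit_det' _).ne_zero
  · by_cases h : w i = 0 <;> simp [h]
  · have h := ψ.map_app v
    rw [QuadraticMap.weightedSumSquares_apply] at h
    have h2 : Q v = ∑ i, ∑ j, M i j * (v i * v j) := by
      simp [Q]
    rw [← h2, ← h]
    refine Finset.sum_congr rfl fun i _ => ?_
    have h3 : ∑ j, LinearMap.toMatrix' ψ.toLinearEquiv.toLinearMap i j * v j = ψ v i :=
      congrFun (LinearMap.toMatrix'_mulVec ψ.toLinearEquiv.toLinearMap v) i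
    rw [h3, smul_eq_mul, sq]

theorem CDp_diag (M : Matrix (Fin n) (Fin n) ℂ) : ∃ (B : Matrix (Fin n) (Fin n) ℂ)
    (e : Fin n → ℂ), B.det ≠ 0 ∧ (∀ i, e i = 0 ∨ e i = 1) ∧ ∀ y : Fin n → R,
      ∑ i, ∑ j, M i j • (y i * y j) = ∑ i, e i • (∑ j, B i j • y j) ^ 2 := by
  obtain ⟨B, e, h1, h2, h3⟩ := CDp_diag0 M
  refine ⟨B, e, h1, h2, fun y => ?_⟩
  have h : (∑ i, ∑ j, M i j • (MvPolynomial.X i * MvPolynomial.X j) : MvPolynomial (Fin n) ℂ) =
      ∑ i, e i • (∑ j, B i j • MvPolynomial.X j) ^ 2 :=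
    MvPolynomial.funext fun v => by simpa using h3 v
  simpa using congrArg (MvPolynomial.aeval y) h

theorem CDp_inv {B : Matrix (Fin n) (Fin n) ℂ} (hB : B.det ≠ 0) (y : Fin n → R) (i : Fin n) :
    y i = ∑ k, B⁻¹ i k • ∑ j, B k j • y j := by
  simp only [Finset.smul_sum, smul_smul]
  rw [Finset.sum_comm]
  simp only [← Finset.sum_smul, ← Matrix.mul_apply, Matrix.nonsing_inv_mul B hB.isUnit]
  simp [Matrix.one_apply]

theorem CDp_sub (x : Pt R) (r : R) : r - algebraMap ℂ R (x r) ∈ x.m := by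
  rw [Pt.mem_m, map_sub, AlgHomClass.commutes]
  simp

theorem CDp_span (x : Pt R) {z : R} {y : Fin n → R} (hz : z ∈ x.m) (hy : ∀ i, y i ∈ x.m) {r : R}
    (hr : r ∈ Ideal.span (insert z (Set.range y)) ⊔ x.m ^ 2) :
    ∃ (a : ℂ) (b : Fin n → ℂ), r - (a • z + ∑ j, b j • y j) ∈ x.m ^ 2 := by
  obtain ⟨s, hs, u, hu, rfl⟩ := Submodule.mem_sup.1 hr
  obtain ⟨a, t, ht, rfl⟩ := Ideal.mem_span_insert.1 hs
  obtain ⟨b, rfl⟩ := Ideal.mem_span_range_iff_exists_fun.1 ht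
  refine ⟨x a, fun j => x (b j), ?_⟩
  have e : a * z + ∑ j, b j * y j + u - (x a • z + ∑ j, x (b j) • y j) =
      (a - algebraMap ℂ R (x a)) * z + ∑ j, (b j - algebraMap ℂ R (x (b j))) * y j + u := by
    simp only [Algebra.smul_def, sub_mul, Finset.sum_sub_distrib]
    ring
  rw [e]
  refine add_mem (add_mem ?_ (sum_mem fun j _ => ?_)) hu <;> rw [sq]
  exacts [Ideal.mul_mem_mul (CDp_sub x a) hz, Ideal.mul_mem_mul (CDp_sub x _) (hy j)]

/-- The normal form. -/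
theorem CDp_nf (x : Pt R) {z : R} {y : Fin n → R} (hz : z ∈ x.m) (hy : ∀ i, y i ∈ x.m)
    (h1 : x.m ≤ Ideal.span (insert z (Set.range y)) ⊔ x.m ^ 2)
    (h2 : z ^ 2 ∈ Ideal.span (Set.range y) ⊔ x.m ^ 3)
    (hl : ∀ a : Fin n → ℂ, ∑ i, a i • y i ∈ x.m ^ 2 → ∀ i, a i = 0) :
    ∃ (B : Matrix (Fin n) (Fin n) ℂ) (e : Fin n → ℂ) (z' : R), B.det ≠ 0 ∧
      (∀ i, e i = 0 ∨ e i = 1) ∧ z' ∈ x.m ∧
      (∀ r ∈ x.m, ∃ (a : ℂ) (b : Fin n → ℂ),
        r - (a • z' + ∑ i, b i • ∑ j, B i j • y j) ∈ x.m ^ 2) ∧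
      z' ^ 2 + ∑ i, e i • (∑ j, B i j • y j) ^ 2 ∈ x.m ^ 3 := by
  obtain ⟨s, hs, u, hu, hsu⟩ := Submodule.mem_sup.1 h2
  obtain ⟨r, rfl⟩ := Ideal.mem_span_range_iff_exists_fun.1 hs
  have hr : ∀ i, r i ∈ x.m := by
    refine hl (fun i => x (r i)) ?_
    have e : ∑ i, x (r i) • y i = z ^ 2 - u - ∑ i, (r i - algebraMap ℂ R (x (r i))) * y i := by
      simp only [Algebra.smul_def, sub_mul, Finset.sum_sub_distrib]
      rw [← hsu]
      ring
    rw [e]
    refine sub_mem (sub_mem (Ideal.pow_mem_pow hz 2) (Ideal.pow_le_pow_right (by norm_num) hu))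
      (sum_mem fun i _ => ?_)
    rw [sq]
    exact Ideal.mul_mem_mul (CDp_sub x _) (hy i)
  choose a b hab using fun i => CDp_span x hz hy (h1 (hr i))
  obtain ⟨B, e, hB, he, hq⟩ := CDp_diag (R := R) (Matrix.of fun i j => -(a i * a j / 4) - b i j)
  have hl : ∀ c : Fin n → ℂ, ∑ i, c i • y i ∈ x.m := fun c =>
    sum_mem fun i _ => Submodule.smul_of_tower_mem _ _ (hy i)
  refine ⟨B, e, z - (1 / 2 : ℂ) • ∑ i, a i • y i, hB, he,
    sub_mem hz (Submodule.smul_of_tower_mem _ _ (hl a)), fun t ht => ?_, ?_⟩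
  · obtain ⟨c, d, h⟩ := CDp_span x hz hy (h1 ht)
    refine ⟨c, fun k => ∑ i, (d i + c / 2 * a i) * B⁻¹ i k, ?_⟩
    have e1 : ∑ k, (∑ i, (d i + c / 2 * a i) * B⁻¹ i k) • ∑ j, B k j • y j =
        ∑ i, (d i + c / 2 * a i) • y i := by
      simp only [Finset.sum_smul]
      rw [Finset.sum_comm]
      refine Finset.sum_congr rfl fun i _ => ?_
      rw [CDp_inv hB y i, Finset.smul_sum]
      simp only [mul_smul]
    rw [e1]
    have e2 : c • (z - (1 / 2 : ℂ) • ∑ i, a i • y i) + ∑ i, (d i + c / 2 * a i) • y i =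
        c • z + ∑ j, d j • y j := by
      simp only [add_smul, Finset.sum_add_distrib, mul_smul, ← Finset.smul_sum]
      module
    rwa [e2]
  · rw [← hq y]
    have e1 : ∑ i, ∑ j, Matrix.of (fun i j => -(a i * a j / 4) - b i j) i j • (y i * y j) =
        -((1 / 4 : ℂ) • (∑ i, a i • y i) ^ 2) - ∑ i, (∑ j, b i j • y j) * y i := by
      rw [sq, Finset.sum_mul_sum, Finset.smul_sum, ← Finset.sum_neg_distrib,
        ← Finset.sum_sub_distrib]
      refine Finset.sum_congr rfl fun i _ => ?_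
      rw [Finset.smul_sum, Finset.sum_mul, ← Finset.sum_neg_distrib, ← Finset.sum_sub_distrib]
      refine Finset.sum_congr rfl fun j _ => ?_
      rw [Matrix.of_apply, smul_mul_smul_comm, smul_mul_assoc, mul_comm (y j)]
      module
    have e2 : ∑ i, (r i - (a i • z + ∑ j, b i j • y j)) * y i =
        ∑ i, r i * y i - z * ∑ i, a i • y i - ∑ i, (∑ j, b i j • y j) * y i := by
      rw [Finset.mul_sum, ← Finset.sum_sub_distrib, ← Finset.sum_sub_distrib]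
      refine Finset.sum_congr rfl fun i _ => ?_
      rw [Algebra.smul_def, Algebra.smul_def (a i)]
      ring
    have e3 : (z - (1 / 2 : ℂ) • ∑ i, a i • y i) ^ 2 =
        z ^ 2 - z * ∑ i, a i • y i + (1 / 4 : ℂ) • (∑ i, a i • y i) ^ 2 := by
      rw [sub_sq, smul_pow, mul_smul_comm, mul_assoc, two_mul]
      module
    have e4 : (z - (1 / 2 : ℂ) • ∑ i, a i • y i) ^ 2 +
        ∑ i, ∑ j, Matrix.of (fun i j => -(a i * a j / 4) - b i j) i j • (y i * y j) =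
        ∑ i, (r i - (a i • z + ∑ j, b i j • y j)) * y i + u := by
      rw [e1, e2, e3, ← hsu]
      ring
    rw [e4]
    refine add_mem (sum_mem fun i _ => ?_) hu
    rw [pow_succ]
    exact Ideal.mul_mem_mul (hab i) (hy i)

end Vale.Agent.P282
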