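import Vale.Agent.P282.AVal

/-! Logarithmic derivatives in algebraic extensions of valued fields of residue characteristic zero. -/

open Polynomial

noncomputable section

namespace Vale.Agent.P282

namespace UTame

variable {F : Type} [Field F] [Algebra ℂ F] {w : RVal F}

/-- `v(a) > t`. -/
def Gt (w : RVal F) (a : F) (t : ℝ) : Prop := a = 0 ∨ t < w.v a

theorem gt_of {a : F} {s t : ℝ} (h : w.Ge a s) (hs : t < s) : Gt w a t := h.imp id hs.trans_le

theorem Gt.ex {a : F} {t : ℝ} (h : Gt w a t) : ∃ s, t < s ∧ w.Ge a s := by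
  rcases h with h | h
  · exact ⟨t + 1, by linarith, Or.inl h⟩
  · exact ⟨_, h, RVal.Ge.self a⟩

theorem Gt.mono {a : F} {s t : ℝ} (h : Gt w a t) (hs : s ≤ t) : Gt w a s := h.imp id hs.trans_lt

theorem Gt.add {a b : F} {t : ℝ} (ha : Gt w a t) (hb : Gt w b t) : Gt w (a + b) t := by
  obtain ⟨s, h1, h2⟩ := ha.ex
  obtain ⟨s', h3, h4⟩ := hb.ex
  exact gt_of ((h2.mono (min_le_left s s')).add (h4.mono (min_le_right s s'))) (lt_min h1 h3)

theorem Gt.neg {a : F} {t : ℝ} (ha : Gt w a t) : Gt w (-a) t := by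
  obtain ⟨s, h1, h2⟩ := ha.ex
  exact gt_of h2.neg h1

theorem Gt.sub {a b : F} {t : ℝ} (ha : Gt w a t) (hb : Gt w b t) : Gt w (a - b) t := by
  rw [sub_eq_add_neg]; exact ha.add hb.neg

theorem Gt.mul {a b : F} {s t : ℝ} (ha : w.Ge a s) (hb : Gt w b t) : Gt w (a * b) (s + t) := by
  obtain ⟨s', h1, h2⟩ := hb.ex
  exact gt_of (ha.mul h2) (by linarith)

theorem Gt.sum {ι : Type*} {s : Finset ι} {f : ι → F} {t : ℝ} (h : ∀ i ∈ s, Gt w (f i) t) :
    Gt w (∑ i ∈ s, f i) t :=
  Finset.sum_induction f (fun a => Gt w a t) (fun _ _ => Gt.add) (Or.inl rfl) h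

theorem add_gt {a b : F} (ha : a ≠ 0) (hb : Gt w b (w.v a)) :
    a + b ≠ 0 ∧ w.v (a + b) = w.v a := by
  obtain ⟨s, h1, h2⟩ := hb.ex
  exact w.v_add_of_lt ha h2 h1

theorem v_mprod (f : F → F) (s : Multiset F) (h : ∀ y ∈ s, f y ≠ 0) :
    (s.map f).prod ≠ 0 ∧ w.v (s.map f).prod = (s.map fun y => w.v (f y)).sum := by
  induction s using Multiset.induction_on with
  | empty => simp [w.v_one]
  | cons a s ih =>
    obtain ⟨h1, h2⟩ := ih fun y hy => h y (Multiset.mem_cons_of_mem hy)
    have h3 := h a (Multiset.mem_cons_self a s)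
    simp only [Multiset.map_cons, Multiset.prod_cons, Multiset.sum_cons]
    exact ⟨mul_ne_zero h3 h1, by rw [w.mul _ _ h3 h1, h2]⟩

open Classical in
/-- `min δ (v z)`. -/
def mn (w : RVal F) (δ : ℝ) (z : F) : ℝ := if w.Ge z δ then δ else w.v z

/-- The monic polynomial with given roots. -/
def pr (R : Multiset F) : F[X] := (R.map (X - C ·)).prod

omit [Algebra ℂ F] in
theorem pr_cons (z : F) (R : Multiset F) : pr (z ::ₘ R) = (X - C z) * pr R := by simp [pr]

open Classical in
/-- One vertex of the Newton polygon. -/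
theorem newton (δ : ℝ) (R : Multiset F) :
    (∀ i : ℕ, w.Ge ((pr R).coeff i) ((R.map (mn w δ)).sum - i * δ)) ∧
    (∀ i : ℕ, R.countP (w.Ge · δ) < i → Gt w ((pr R).coeff i) ((R.map (mn w δ)).sum - i * δ)) ∧
    (pr R).coeff (R.countP (w.Ge · δ)) ≠ 0 ∧
    w.v ((pr R).coeff (R.countP (w.Ge · δ))) =
      (R.map (mn w δ)).sum - (R.countP (w.Ge · δ) : ℕ) * δ := by
  induction R using Multiset.induction_on with
  | empty =>
    refine ⟨fun i => ?_, fun i hi => Or.inl ?_, by simp [pr], by simp [pr, w.v_one]⟩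
    · cases i with
      | zero => exact Or.inr (by simp [pr, w.v_one])
      | succ i => exact Or.inl (by simp [pr, coeff_one])
    · have : i ≠ 0 := by omega
      simp [pr, coeff_one, this]
  | cons z R ih =>
    obtain ⟨a, b, c, d⟩ := ih
    rw [pr_cons, Multiset.map_cons, Multiset.sum_cons]
    generalize (R.map (mn w δ)).sum = B at *
    obtain ⟨pv, e, p1, p2⟩ : ∃ pv : ℕ → F,
        (∀ i, ((X - C z) * pr R).coeff i = pv i - z * (pr R).coeff i) ∧
        (∀ i : ℕ, w.Ge (pv i) (B - i * δ + δ)) ∧ ∀ i, pv (i + 1) = (pr R).coeff i := by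
      refine ⟨fun i => Nat.casesOn i 0 (pr R).coeff, fun i => ?_, fun i => ?_, fun _ => rfl⟩
      · cases i with
        | zero => simp
        | succ i => exact coeff_X_sub_C_mul
      · cases i with
        | zero => exact Or.inl rfl
        | succ i => exact (a i).mono (by push_cast; linarith)
    simp only [e]
    by_cases hz : w.Ge z δ
    · have hm : mn w δ z = δ := if_pos hz
      rw [hm, Multiset.countP_cons_of_pos (p := (w.Ge · δ)) _ hz]
      refine ⟨fun i => ((p1 i).mono (by linarith)).sub ((hz.mul (a i)).mono (by linarith)),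
        fun i hi => ?_, ?_⟩
      · obtain ⟨i, rfl⟩ : ∃ j, i = j + 1 := ⟨i - 1, by omega⟩
        rw [p2]
        exact ((b i (by omega)).mono (by push_cast; linarith)).sub
          ((Gt.mul hz (b (i + 1) (by omega))).mono (by linarith))
      · have h1 := add_gt c (((Gt.mul hz (b _ (Nat.lt_succ_self _))).mono
          (by rw [d]; push_cast; linarith)).neg)
        rw [p2, sub_eq_add_neg, h1.2, d]
        exact ⟨h1.1, by push_cast; ring⟩
    · have hm : mn w δ z = w.v z := if_neg hz
      have h0 : z ≠ 0 := fun h => hz (Or.inl h)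
      have h1 : w.v z < δ := lt_of_not_ge fun h => hz (Or.inr h)
      have hs := RVal.Ge.self (w := w) z
      rw [hm, Multiset.countP_cons_of_neg (p := (w.Ge · δ)) _ hz]
      refine ⟨fun i => ((p1 i).mono (by linarith)).sub ((hs.mul (a i)).mono (by linarith)),
        fun i hi => (gt_of (p1 i) (by linarith)).sub ((Gt.mul hs (b i hi)).mono (by linarith)), ?_⟩
      have h2 := mul_ne_zero h0 c
      have h3 : w.v (-(z * (pr R).coeff (R.countP (w.Ge · δ)))) =
          w.v z + B - (R.countP (w.Ge · δ) : ℕ) * δ := by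
        rw [w.v_neg _ h2, w.mul _ _ h0 c, d]; ring
      have h4 := add_gt (neg_ne_zero.2 h2) (gt_of (p1 (R.countP (w.Ge · δ)))
        (by rw [h3]; linarith))
      rw [sub_eq_neg_add, h4.2]
      exact ⟨h4.1, h3⟩

theorem v_nat (i : ℕ) : ((i : F) + 1) ≠ 0 ∧ w.v ((i : F) + 1) = 0 := by
  have h : ((i : ℂ) + 1) ≠ 0 := Nat.cast_add_one_ne_zero i
  have e : algebraMap ℂ F ((i : ℂ) + 1) = (i : F) + 1 := by simp
  rw [← e]
  exact ⟨(_root_.map_ne_zero _).2 h, w.const _ h⟩

open Classical in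
/-- The theorem of Rolle for closed discs. -/
theorem rolle [IsAlgClosed F] (δ : ℝ) (R : Multiset F) (h : 2 ≤ R.countP (w.Ge · δ)) :
    ∃ c, w.Ge c δ ∧ (derivative (pr R)).eval c = 0 := by
  by_contra hc
  have hc : ∀ c, w.Ge c δ → (derivative (pr R)).eval c ≠ 0 := fun c h1 h2 => hc ⟨c, h1, h2⟩
  have h0 : derivative (pr R) ≠ 0 := fun h => hc 0 (Or.inl rfl) (by rw [h, eval_zero])
  have hl := leadingCoeff_ne_zero.2 h0
  have e : derivative (pr R) = C _ * pr _ := (IsAlgClosed.splits (derivative (pr R))).eq_prod_roots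
  have hr : (derivative (pr R)).roots.countP (w.Ge · δ) = 0 :=
    Multiset.countP_eq_zero.2 fun c h1 h2 => hc c h2 ((mem_roots h0).1 h1)
  obtain ⟨a, -, c, d⟩ := newton (w := w) δ R
  obtain ⟨-, b', c', d'⟩ := newton (w := w) δ (derivative (pr R)).roots
  rw [hr] at b' c' d'
  generalize (derivative (pr R)).leadingCoeff = l at *
  generalize (derivative (pr R)).roots = R' at *
  have e' : ∀ i, (pr R).coeff (i + 1) * ((i : F) + 1) = l * (pr R').coeff i := fun i => by
    rw [← coeff_derivative, e, coeff_C_mul]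
  obtain ⟨r, hr'⟩ : ∃ r, R.countP (w.Ge · δ) = r + 1 := ⟨_, (Nat.sub_add_cancel (by omega)).symm⟩
  rw [hr'] at c d h
  have f1 := Gt.mul (RVal.Ge.self (w := w) l) (b' r (by omega))
  rw [← e'] at f1
  have f2 := (a 1).mul (RVal.Ge.self (w := w) (((0 : ℕ) : F) + 1))
  rw [e' 0] at f2
  have f3 := f1.resolve_left (mul_ne_zero c (v_nat (w := w) r).1)
  have f4 := f2.resolve_left (mul_ne_zero hl c')
  rw [w.mul _ _ c (v_nat (w := w) r).1, (v_nat r).2, d] at f3
  rw [w.mul _ _ hl c', (v_nat 0).2, d'] at f4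
  push_cast at f3 f4
  linarith

theorem der_eval (d : Derivation ℂ F F) (Q : F[X]) (θ : F) : d (Q.eval θ) =
    ∑ i ∈ Finset.range (Q.natDegree + 1), θ ^ i * d (Q.coeff i) + (derivative Q).eval θ * d θ := by
  rw [derivative_eval, sum_over_range _ (by simp), eval_eq_sum_range, map_sum, Finset.sum_mul,
    ← Finset.sum_add_distrib]
  refine Finset.sum_congr rfl fun i _ => ?_
  rw [d.leibniz, d.leibniz_pow]
  simp only [smul_eq_mul, nsmul_eq_mul]
  ring

/-- The logarithmic derivative of `a` has value more than `t`. -/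
def Gd (w : RVal F) (d : Derivation ℂ F F) (t : ℝ) (a : F) : Prop :=
  ∀ u, w.Ge a u → Gt w (d a) (u + t)

variable {d : Derivation ℂ F F} {t : ℝ}

theorem stepA (θ : F) (s : Multiset F) (hc : ∀ i, Gd w d t ((pr (θ ::ₘ s)).coeff i))
    (hs : ∀ y ∈ s, θ - y ≠ 0 ∧ w.Ge θ (w.v (θ - y))) : Gd w d t θ := by
  intro u hu
  rcases eq_or_ne θ 0 with rfl | h0
  · exact Or.inl (map_zero d)
  have hu := hu.resolve_left h0
  obtain ⟨a, -⟩ := newton (w := w) (w.v θ) (θ ::ₘ s)
  obtain ⟨b1, b2⟩ := v_mprod (w := w) (fun y => θ - y) s fun y hy => (hs y hy).1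
  have hm : mn w (w.v θ) θ = w.v θ := if_pos (RVal.Ge.self θ)
  have hB : (s.map fun y => w.v (θ - y)).sum ≤ (s.map (mn w (w.v θ))).sum := by
    refine Multiset.sum_map_le_sum_map _ _ fun y hy => ?_
    unfold mn
    split_ifs with h
    · exact (hs y hy).2.resolve_left h0
    · have h1 := (hs y hy).2.sub (RVal.Ge.self (θ - y))
      rw [sub_sub_cancel] at h1
      exact h1.resolve_left fun h2 => h (Or.inl h2)
  rw [Multiset.map_cons, Multiset.sum_cons, hm] at a
  have e := der_eval d (pr (θ ::ₘ s)) θ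
  have e1 : (derivative (pr (θ ::ₘ s))).eval θ = (s.map fun y => θ - y).prod := by
    simp [pr, eval_multiset_prod]
  have e2 : (pr (θ ::ₘ s)).eval θ = 0 := by simp [pr_cons]
  rw [e1, e2, map_zero] at e
  have g : Gt w (∑ i ∈ Finset.range ((pr (θ ::ₘ s)).natDegree + 1),
      θ ^ i * d ((pr (θ ::ₘ s)).coeff i)) (w.v (s.map fun y => θ - y).prod + (u + t)) :=
    Gt.sum fun i _ => (Gt.mul ((RVal.Ge.self θ).pow i) (hc i _ (a i))).mono (by linarith)
  have g2 := Gt.mul (RVal.Ge.self (w := w) (s.map fun y => θ - y).prod⁻¹) g.neg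
  rw [neg_eq_of_add_eq_zero_right e.symm, inv_mul_cancel_left₀ b1, w.v_inv _ b1] at g2
  exact g2.mono (by linarith)

omit [Algebra ℂ F] in
theorem pr_shift (c : F) (R : Multiset F) : pr (R.map (· - c)) = taylor c (pr R) := by
  induction R using Multiset.induction_on with
  | empty => simp [pr]
  | cons z R ih =>
    rw [Multiset.map_cons, pr_cons, pr_cons, ih, taylor_mul, map_sub (taylor c), taylor_X, taylor_C,
      C_sub]
    ring

theorem key [IsAlgClosed F] {k : Type} [Field k] [CharZero k] [Algebra k F]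
    [Algebra.IsAlgebraic k F] (h0 : ∀ f : k, Gd w d t (algebraMap k F f)) (θ : F) :
    Gd w d t θ := by
  classical
  induction hn : (minpoly k θ).natDegree using Nat.strong_induction_on generalizing θ with
  | _ n ih =>
  have hi : ∀ x : F, IsIntegral k x := fun x => Algebra.IsIntegral.isIntegral x
  have hmo := (minpoly.monic (hi θ)).map (algebraMap k F)
  have hsep : (minpoly k θ).Separable := (minpoly.irreducible (hi θ)).separable
  have hnd := nodup_roots (hsep.map (f := algebraMap k F))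
  obtain ⟨s, hs⟩ := Multiset.exists_cons_of_mem (a := θ) ((mem_roots hmo.ne_zero).2
    (by rw [IsRoot, eval_map_algebraMap, minpoly.aeval]))
  have e : (minpoly k θ).map (algebraMap k F) = pr (θ ::ₘ s) := by
    rw [← hs]; exact (IsAlgClosed.splits _).eq_prod_roots_of_monic hmo
  rw [hs, Multiset.nodup_cons] at hnd
  have hne : ∀ y ∈ s, θ - y ≠ 0 := fun y hy h => hnd.1 (sub_eq_zero.1 h ▸ hy)
  have sh : ∀ (L : IntermediateField k F) (c : L), (∀ x : L, Gd w d t x) →
      (∀ y ∈ s, w.Ge (θ - c) (w.v (θ - y))) → Gd w d t (θ - c) := by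
    intro L c h1 h2
    refine stepA _ (s.map (· - (c : F))) (fun i => ?_) fun y hy => ?_
    · have e1 : pr ((θ - c) ::ₘ s.map (· - (c : F))) =
          (taylor c ((minpoly k θ).map (algebraMap k L))).map (algebraMap L F) := by
        rw [map_taylor, map_map, ← IsScalarTower.algebraMap_eq, e, ← pr_shift, Multiset.map_cons]
        rfl
      rw [e1, coeff_map]
      exact h1 _
    · obtain ⟨y', hy', rfl⟩ := Multiset.mem_map.1 hy
      rw [sub_sub_sub_cancel_right]
      exact ⟨hne y' hy', h2 y' hy'⟩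
  by_cases hA : ∀ y ∈ s, w.Ge θ (w.v (θ - y))
  · have := sh ⊥ 0 (fun x => by
      obtain ⟨f, hf⟩ := IntermediateField.mem_bot.1 x.2
      rw [← hf]; exact h0 f) (by simpa using hA)
    simpa using this
  replace hA : ∃ y ∈ s, ¬ w.Ge θ (w.v (θ - y)) := by simpa using hA
  obtain ⟨y1, hy1, hA⟩ := hA
  obtain ⟨y0, hy0, hmax⟩ := s.toFinset.exists_max_image (fun y => w.v (θ - y))
    ⟨y1, Multiset.mem_toFinset.2 hy1⟩
  simp only [Multiset.mem_toFinset] at hy0 hmax
  obtain ⟨c, c1, c2⟩ := rolle (w := w) (w.v (θ - y0)) ((θ ::ₘ s).map (· - θ)) (by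
    obtain ⟨s', rfl⟩ := Multiset.exists_cons_of_mem hy0
    rw [Multiset.map_cons, Multiset.map_cons,
      Multiset.countP_cons_of_pos (p := (w.Ge · (w.v (θ - y0)))) _ (Or.inl (sub_self θ)),
      Multiset.countP_cons_of_pos (p := (w.Ge · (w.v (θ - y0)))) _
        (by simpa using (RVal.Ge.self (w := w) (θ - y0)).neg)]
    omega)
  have c3 : aeval (c + θ) (derivative (minpoly k θ)) = 0 := by
    rw [pr_shift, ← e, taylor_apply, derivative_comp] at c2
    simpa [eval_comp, eval_map_algebraMap] using c2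
  have hpos := (minpoly.natDegree_pos (hi θ)).ne'
  have hlt : (minpoly k (c + θ)).natDegree < n :=
    (natDegree_le_natDegree (minpoly.degree_le_of_ne_zero k _
      (fun h => hpos (derivative_eq_zero.1 h)) c3)).trans_lt
      (hn ▸ natDegree_derivative_lt hpos)
  have hL : ∀ x : IntermediateField.adjoin k {c + θ}, Gd w d t x := fun x => by
    have := IntermediateField.adjoin.finiteDimensional (hi (c + θ))
    refine ih _ (lt_of_le_of_lt ?_ hlt) x rfl
    rw [← IntermediateField.adjoin.finrank (hi (c + θ)), ← IntermediateField.minpoly_eq]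
    exact minpoly.natDegree_le x
  have c4 : w.Ge (θ - (c + θ)) (w.v (θ - y0)) := by simpa using c1.neg
  have g1 : Gd w d t (θ - (c + θ)) := sh _ (IntermediateField.AdjoinSimple.gen k (c + θ)) hL
    fun y hy => c4.mono (hmax y hy)
  have g2 : Gd w d t (c + θ) := hL (IntermediateField.AdjoinSimple.gen k (c + θ))
  intro u hu
  have hlt : u ≤ w.v (θ - y0) := by
    have h1 := hu.resolve_left fun h => hA (Or.inl h)
    have h2 := lt_of_not_ge fun h => hA (Or.inr h)
    linarith [hmax y1 hy1]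
  have := (g1 u (c4.mono hlt)).add (g2 u ((c1.mono hlt).add hu))
  rwa [← map_add, sub_add_cancel] at this

end UTame

end Vale.Agent.P282
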