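import Vale.Agent.P282.UExt
import Vale.Agent.P282.AJac
import Vale.Agent.P282.UTame_a

set_option linter.unusedSectionVars false

open scoped ENNReal TensorProduct Topology
open Filter MeasureTheory

noncomputable section

namespace Vale.Agent.P282

variable {R K : Type} [CommRing R] [IsDomain R] [Algebra ℂ R] [Algebra.FiniteType ℂ R]
  [IsIntegrallyClosed R] [Field K] [Algebra R K] [IsFractionRing R K] [Algebra ℂ K]
  [IsScalarTower ℂ R K] {n : ℕ}

theorem UTame_der (φ : KaehlerDifferential ℂ K →ₗ[K] K) :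
    ∃ d : Derivation ℂ (AlgebraicClosure K) (AlgebraicClosure K), ∀ a : K,
      d (algebraMap K _ a) = algebraMap K _ (φ (KaehlerDifferential.D ℂ K a)) := by
  have : CharZero K := charZero_of_injective_algebraMap (algebraMap ℂ K).injective
  have := Algebra.FormallyEtale.of_isSeparable K (AlgebraicClosure K)
  refine ⟨((Algebra.linearMap K (AlgebraicClosure K) ∘ₗ φ).liftBaseChange (AlgebraicClosure K) ∘ₗ
    (KaehlerDifferential.tensorKaehlerEquivOfFormallyEtale ℂ K
      (AlgebraicClosure K)).symm.toLinearMap).compDer (KaehlerDifferential.D ℂ _), fun a => ?_⟩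
  simp [KaehlerDifferential.tensorKaehlerEquivOfFormallyEtale_symm_D_algebraMap]

theorem UTame_one (K₀ : IntermediateField ℂ K) [Algebra.IsAlgebraic K₀ K] (w : RVal K)
    (φ : KaehlerDifferential ℂ K →ₗ[K] K) (h : K) (h0 : h ≠ 0)
    (h1 : φ (KaehlerDifferential.D ℂ K h) ≠ 0) :
    ∃ f ∈ K₀, f ≠ 0 ∧ φ (KaehlerDifferential.D ℂ K f) ≠ 0 ∧
      w.v (φ (KaehlerDifferential.D ℂ K f)) - w.v f ≤
        w.v (φ (KaehlerDifferential.D ℂ K h)) - w.v h := by
  by_contra hc
  obtain ⟨d, hd⟩ := UTame_der φ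
  obtain ⟨w', hw⟩ := ext_val (L := AlgebraicClosure K) w
  have : CharZero K₀ := charZero_of_injective_algebraMap (algebraMap ℂ K₀).injective
  have := Algebra.IsAlgebraic.trans K₀ K (AlgebraicClosure K)
  have key := UTame.key (w := w') (d := d) (t := w.v (φ (KaehlerDifferential.D ℂ K h)) - w.v h)
    (k := K₀) (fun f u hu => by
      rw [IsScalarTower.algebraMap_apply K₀ K] at hu ⊢
      rw [hd]
      by_cases e0 : algebraMap K₀ K f = 0
      · exact Or.inl (by simp [e0])
      by_cases e1 : φ (KaehlerDifferential.D ℂ K (algebraMap K₀ K f)) = 0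
      · exact Or.inl (by rw [e1, map_zero])
      have e2 := hu.resolve_left ((map_ne_zero _).2 e0)
      have e3 := lt_of_not_ge fun e => hc ⟨algebraMap K₀ K f, f.2, e0, e1, e⟩
      refine Or.inr ?_
      rw [hw _ e0] at e2
      rw [hw _ e1]
      linarith) (algebraMap K _ h) _ (RVal.Ge.self _)
  rw [hd] at key
  have := key.resolve_left ((map_ne_zero _).2 h1)
  rw [hw _ h0, hw _ h1] at this
  linarith

theorem UTame_wt (ω : PForm K n) (w : RVal K) {f : Fin n → K} (hj : ω.jac f ≠ 0) :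
    ω.wt w f = ∑ i, w.v (f i) - w.v (ω.jac f) + w.v ω.h / ω.m := by
  have hm : (ω.m : ℝ) ≠ 0 := by exact_mod_cast ω.m_pos.ne'
  unfold PForm.wt PForm.rho
  rw [w.v_div _ _ (pow_ne_zero _ hj) ω.h_ne, w.v_pow _ hj]
  field_simp
  ring

theorem UTame_step (K₀ : IntermediateField ℂ K) [Algebra.IsAlgebraic K₀ K] (ω : PForm K n)
    (w : RVal K) (g : Fin n → K) (i : Fin n) (hg : g i ≠ 0) (hj : ω.jac g ≠ 0) :
    ∃ a ∈ K₀, a ≠ 0 ∧ ω.jac (Function.update g i a) ≠ 0 ∧
      ω.wt w g ≤ ω.wt w (Function.update g i a) := by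
  obtain ⟨φ, hφ⟩ : ∃ φ : KaehlerDifferential ℂ K →ₗ[K] K, ∀ a,
      φ (KaehlerDifferential.D ℂ K a) = ω.jac (Function.update g i a) := by
    refine ⟨ω.b.det.toMultilinearMap.toLinearMap (fun j => KaehlerDifferential.D ℂ K (g j)) i,
      fun a => ?_⟩
    exact congrArg ω.b.det (Function.comp_update (KaehlerDifferential.D ℂ K) g i a).symm
  obtain ⟨a, h1, h2, h3, h4⟩ := UTame_one K₀ w φ (g i) hg (by rwa [hφ, Function.update_eq_self])
  rw [hφ] at h3
  rw [hφ, hφ, Function.update_eq_self] at h4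
  refine ⟨a, h1, h2, h3, ?_⟩
  rw [UTame_wt ω w hj, UTame_wt ω w h3, ← Finset.add_sum_erase _ _ (Finset.mem_univ i),
    ← Finset.add_sum_erase _ _ (Finset.mem_univ i), Function.update_self,
    Finset.sum_congr rfl fun j hj => congrArg w.v
      (Function.update_of_ne (Finset.ne_of_mem_erase hj) a g)]
  linarith

/-- logarithmic forms of a subfield over which `K` is algebraic suffice -/
theorem tame (K₀ : IntermediateField ℂ K) [Algebra.IsAlgebraic K₀ K] (ω : PForm K n) (w : RVal K)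
    (g : Fin n → K) (hg : ∀ i, g i ≠ 0) (hj : ω.jac g ≠ 0) :
    ∃ f : Fin n → K, (∀ i, f i ∈ K₀ ∧ f i ≠ 0) ∧ ω.jac f ≠ 0 ∧ ω.wt w g ≤ ω.wt w f := by
  have key : ∀ S : Finset (Fin n), ∃ f : Fin n → K, (∀ i ∈ S, f i ∈ K₀) ∧ (∀ i, f i ≠ 0) ∧
      ω.jac f ≠ 0 ∧ ω.wt w g ≤ ω.wt w f := by
    intro S
    induction S using Finset.induction_on with
    | empty => exact ⟨g, by simp, hg, hj, le_rfl⟩
    | insert i S _ ih =>
      obtain ⟨f, h1, h2, h3, h4⟩ := ih
      obtain ⟨a, a1, a2, a3, a4⟩ := UTame_step K₀ ω w f i (h2 i) h3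
      refine ⟨_, fun j hj => ?_, fun j => ?_, a3, h4.trans a4⟩
      · rcases eq_or_ne j i with rfl | e
        · rwa [Function.update_self]
        · rw [Function.update_of_ne e]
          exact h1 j ((Finset.mem_insert.1 hj).resolve_left e)
      · rcases eq_or_ne j i with rfl | e
        · rwa [Function.update_self]
        · rw [Function.update_of_ne e]
          exact h2 j
  obtain ⟨f, h1, h2, h3⟩ := key Finset.univ
  exact ⟨f, fun i => ⟨h1 i (Finset.mem_univ i), h2 i⟩, h3⟩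

end Vale.Agent.P282
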