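import Vale.Agent.P282.UMon0
import Vale.Agent.P282.UTame

set_option linter.unusedSectionVars false

open scoped ENNReal TensorProduct Topology
open Filter MeasureTheory

noncomputable section

namespace Vale.Agent.P282

variable {R K : Type} [CommRing R] [IsDomain R] [Algebra ℂ R] [Algebra.FiniteType ℂ R]
  [IsIntegrallyClosed R] [Field K] [Algebra R K] [IsFractionRing R K] [Algebra ℂ K]
  [IsScalarTower ℂ R K] {n : ℕ}

theorem UMon_alg (ω : PForm K n) (y : Fin n → K) (hy : ω.jac y ≠ 0) [Algebra.EssFiniteType ℂ K] :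
    Algebra.IsAlgebraic (IntermediateField.adjoin ℂ (Set.range y)) K := by
  set K₀ := IntermediateField.adjoin ℂ (Set.range y) with hK₀
  have hs : Submodule.span K (Set.range fun i => KaehlerDifferential.D ℂ K (y i)) = ⊤ :=
    (ω.b.is_basis_iff_det.2 (isUnit_iff_ne_zero.2 hy)).2
  have h0 : ∀ x, KaehlerDifferential.map ℂ K₀ K K x = 0 := by
    intro x
    have hx : x ∈ Submodule.span K (Set.range fun i => KaehlerDifferential.D ℂ K (y i)) := by
      rw [hs]
      trivial
    refine (Submodule.span_le (p := LinearMap.ker (KaehlerDifferential.map ℂ K₀ K K))).2 ?_ hx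
    rintro _ ⟨i, rfl⟩
    show KaehlerDifferential.map ℂ K₀ K K (KaehlerDifferential.D ℂ K (y i)) = 0
    rw [KaehlerDifferential.map_D]
    exact (KaehlerDifferential.D K₀ K).map_algebraMap
      ⟨y i, IntermediateField.subset_adjoin _ _ ⟨i, rfl⟩⟩
  have : Algebra.FormallyUnramified K₀ K := by
    refine ⟨⟨fun a b => ?_⟩⟩
    obtain ⟨a, rfl⟩ := KaehlerDifferential.map_surjective ℂ K₀ K a
    obtain ⟨b, rfl⟩ := KaehlerDifferential.map_surjective ℂ K₀ K b
    rw [h0, h0]
  have := Algebra.EssFiniteType.of_comp ℂ K₀ K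
  have := Algebra.FormallyUnramified.isSeparable K₀ K
  infer_instance

theorem UMon_D (y : Fin n → K) (P : MvPolynomial (Fin n) ℂ) :
    KaehlerDifferential.D ℂ K (MvPolynomial.aeval y P) =
      ∑ j, MvPolynomial.aeval y (MvPolynomial.pderiv j P) • KaehlerDifferential.D ℂ K (y j) := by
  induction P using MvPolynomial.induction_on with
  | C a => simp
  | add p q hp hq => simp [hp, hq, add_smul, Finset.sum_add_distrib]
  | mul_X p i hp =>
    simp only [map_mul, MvPolynomial.aeval_X, Derivation.leibniz, hp, smul_eq_mul, map_add,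
      add_smul, Finset.sum_add_distrib, mul_smul, Finset.smul_sum]
    congr 1
    rw [Finset.sum_eq_single i]
    · simp
    · intro j _ hj
      simp [MvPolynomial.pderiv_X_of_ne hj.symm]
    · simp

theorem UMon_det {ι : Type} [Fintype ι] [DecidableEq ι] (w : RVal K) (M : Matrix ι ι K)
    (a b : ι → ℝ) (h : ∀ i j, w.Ge (M i j) (a i - b j)) : w.Ge M.det (∑ i, a i - ∑ j, b j) := by
  rw [Matrix.det_apply]
  refine RVal.Ge.sum fun σ _ => ?_
  have h1 := RVal.Ge.prod (w := w) (s := Finset.univ) (f := fun i => M (σ i) i)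
    (t := fun i => a (σ i) - b i) fun i _ => h _ _
  rw [Finset.sum_sub_distrib, Equiv.sum_comp σ a] at h1
  rcases Int.units_eq_one_or (Equiv.Perm.sign σ) with e | e
  · rwa [e, one_smul]
  · rw [e, Units.neg_smul, one_smul]
    exact RVal.Ge.neg h1

/-- the Jacobian matrix -/
def UMon_J (y : Fin n → K) (P : Fin n → MvPolynomial (Fin n) ℂ) : Matrix (Fin n) (Fin n) K :=
  Matrix.of fun i j => MvPolynomial.aeval y (MvPolynomial.pderiv j (P i))

theorem UMon_le (ω : PForm K n) (y : Fin n → K) (hy : ω.jac y ≠ 0) [Algebra.EssFiniteType ℂ K]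
    (w : RVal K) (s : ℝ)
    (h : ∀ P : Fin n → MvPolynomial (Fin n) ℂ, (∀ i, P i ≠ 0) →
      w.Ge (UMon_J y P).det (∑ i, w.v (MvPolynomial.aeval y (P i)) - s)) :
    ω.A w ≤ ((s - w.v (ω.rho y) / ω.m : ℝ) : EReal) := by
  have := UMon_alg ω y hy
  refine iSup_le fun g => ?_
  obtain ⟨f, f1, f2, f3⟩ := tame (IntermediateField.adjoin ℂ (Set.range y)) ω w g.1 g.2.1 g.2.2
  let _ : Algebra (MvPolynomial (Fin n) ℂ) K :=
    (MvPolynomial.aeval y : MvPolynomial (Fin n) ℂ →ₐ[ℂ] K).toRingHom.toAlgebra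
  obtain ⟨P, p1, p2, p3⟩ := ω.exists_wt_R w f (fun i => (f1 i).2) f2
    (S := MvPolynomial (Fin n) ℂ) fun i =>
      (IntermediateField.mem_adjoin_range_iff ℂ y (f i)).1 (f1 i).1
  have p1' : ∀ i, MvPolynomial.aeval y (P i) ≠ 0 := p1
  have p2' : (ω.jac fun i => MvPolynomial.aeval y (P i)) ≠ 0 := p2
  have p3' : ω.wt w f ≤ ω.wt w fun i => MvPolynomial.aeval y (P i) := p3
  have e := ω.jac_of_eq (fun i => MvPolynomial.aeval y (P i)) y (UMon_J y P)
    fun i => UMon_D y (P i)
  have hd : (UMon_J y P).det ≠ 0 := fun h0 => p2' (by rw [e, h0, zero_mul])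
  have h1 := (h P fun i h0 => p1' i (by rw [h0, map_zero])).resolve_left hd
  have e2 : (ω.rho fun i => MvPolynomial.aeval y (P i)) = (UMon_J y P).det ^ ω.m * ω.rho y := by
    unfold PForm.rho
    rw [e, mul_pow, mul_div_assoc]
  have hm : (0 : ℝ) < ω.m := by exact_mod_cast ω.m_pos
  refine EReal.coe_le_coe_iff.2 (f3.trans (p3'.trans ?_))
  unfold PForm.wt
  rw [e2, w.mul _ _ (pow_ne_zero _ hd) (ω.rho_ne hy), w.v_pow _ hd, add_div,
    mul_div_cancel_left₀ _ hm.ne']
  linarith

/-- the log discrepancy of such a valuation -/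
theorem A_mon (ω : PForm K n) (y : Fin n → K) (hy : ω.jac y ≠ 0) [Algebra.EssFiniteType ℂ K]
    {w : RVal K} {c : Fin n → ℝ} (h : IsMon w y c) :
    ω.A w = ((∑ i, c i - w.v (ω.rho y) / ω.m : ℝ) : EReal) := by
  refine le_antisymm (UMon_le ω y hy w _ fun P hP => UMon_det w _ _ _ fun i j => ?_) ?_
  · show w.Ge (MvPolynomial.aeval y (MvPolynomial.pderiv j (P i))) _
    by_cases h0 : MvPolynomial.pderiv j (P i) = 0
    · rw [h0, map_zero]
      exact RVal.Ge.zero _
    · obtain ⟨-, ⟨α, hα, e⟩, -⟩ := h _ h0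
      have hm : α + Finsupp.single j 1 ∈ (P i).support := by
        rw [MvPolynomial.mem_support_iff] at hα ⊢
        rw [MvPolynomial.coeff_pderiv] at hα
        exact left_ne_zero_of_mul hα
      have h2 := (h _ (hP i)).2.2 _ hm
      have e2 : ∑ l, c l * ((α + Finsupp.single j 1 : Fin n →₀ ℕ) l : ℝ) =
          ∑ l, c l * (α l : ℝ) + c j := by
        simp [mul_add, Finset.sum_add_distrib, Finsupp.single_apply]
      rw [e2] at h2
      exact Or.inr (by linarith)
  · have hX : ∀ i, y i ≠ 0 ∧ w.v (y i) = c i := by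
      intro i
      obtain ⟨h1, ⟨α, hα, e⟩, -⟩ := h (MvPolynomial.X i) (MvPolynomial.X_ne_zero i)
      rw [MvPolynomial.aeval_X] at h1 e
      rw [MvPolynomial.support_X, Finset.mem_singleton] at hα
      refine ⟨h1, ?_⟩
      rw [e, hα]
      simp [Finsupp.single_apply]
    have := ω.le_A w y (fun i => (hX i).1) hy
    unfold PForm.wt at this
    simpa only [(hX _).2] using this

/-- valuations over the order along an irreducible polynomial -/
theorem A_div (ω : PForm K n) (y : Fin n → K) (hy : ω.jac y ≠ 0) [Algebra.EssFiniteType ℂ K]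
    {w : RVal K} {Q : MvPolynomial (Fin n) ℂ} (hQ : Irreducible Q)
    (h1 : w.v (MvPolynomial.aeval y Q) = 1)
    (h0 : ∀ P, ¬ Q ∣ P → w.v (MvPolynomial.aeval y P) = 0) :
    ω.A w ≤ ((1 - w.v (ω.rho y) / ω.m : ℝ) : EReal) := by
  have hinj : Function.Injective (MvPolynomial.aeval y : MvPolynomial (Fin n) ℂ →ₐ[ℂ] K) :=
    (ω.jac_ne_iff y).1 hy
  have hne : ∀ P, P ≠ 0 → MvPolynomial.aeval y P ≠ 0 := fun P hP =>
    (map_ne_zero_iff _ hinj).2 hP
  have hv : ∀ (k : ℕ) P, ¬ Q ∣ P → w.v (MvPolynomial.aeval y (Q ^ k * P)) = k := by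
    intro k P hP
    have hP0 : P ≠ 0 := fun e => hP (e ▸ dvd_zero Q)
    rw [map_mul, map_pow, w.mul _ _ (pow_ne_zero _ (hne _ hQ.ne_zero)) (hne _ hP0),
      w.v_pow _ (hne _ hQ.ne_zero), h1, h0 P hP]
    ring
  have hge : ∀ (k : ℕ) P, w.Ge (MvPolynomial.aeval y (Q ^ k * P)) k := by
    intro k P
    by_cases hP : P = 0
    · rw [hP, mul_zero, map_zero]
      exact RVal.Ge.zero _
    · obtain ⟨l, P1, a1, rfl⟩ := WfDvdMonoid.max_power_factor hP hQ
      rw [← mul_assoc, ← pow_add]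
      refine Or.inr ?_
      rw [hv _ _ a1]
      exact_mod_cast Nat.le_add_right k l
  refine UMon_le ω y hy w 1 fun P hP => ?_
  choose k P1 a1 a2 using fun i => WfDvdMonoid.max_power_factor (hP i) hQ
  have e : UMon_J y P =
      (Matrix.of fun i j => MvPolynomial.aeval y (Q ^ k i * MvPolynomial.pderiv j (P1 i))) -
      (Matrix.of fun i (_ : Unit) => MvPolynomial.aeval y (Q ^ (k i - 1) * -(k i • P1 i))) *
      (Matrix.of fun (_ : Unit) j => MvPolynomial.aeval y (MvPolynomial.pderiv j Q)) := by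
    ext i j
    simp only [UMon_J, Matrix.of_apply, Matrix.sub_apply, Matrix.mul_apply, Finset.univ_unique,
      Finset.sum_singleton]
    rw [← map_mul, ← map_sub, a2 i, Derivation.leibniz, Derivation.leibniz_pow]
    congr 1
    simp only [smul_eq_mul, nsmul_eq_mul]
    ring
  rw [e, ← Matrix.det_fromBlocks_one₂₂]
  have h2 := UMon_det w (Matrix.fromBlocks
    (Matrix.of fun i j => MvPolynomial.aeval y (Q ^ k i * MvPolynomial.pderiv j (P1 i)))
    (Matrix.of fun i (_ : Unit) => MvPolynomial.aeval y (Q ^ (k i - 1) * -(k i • P1 i)))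
    (Matrix.of fun (_ : Unit) j => MvPolynomial.aeval y (MvPolynomial.pderiv j Q)) 1)
    (Sum.elim (fun i => (k i : ℝ)) fun _ => 0) (Sum.elim (fun _ => 0) fun _ => 1) (by
      rintro (i | i) (j | j)
      · simpa using hge (k i) (MvPolynomial.pderiv j (P1 i))
      · refine RVal.Ge.mono (hge (k i - 1) (-(k i • P1 i))) ?_
        show (k i : ℝ) - 1 ≤ ((k i - 1 : ℕ) : ℝ)
        have : k i ≤ k i - 1 + 1 := by omega
        have : (k i : ℝ) ≤ ((k i - 1 : ℕ) : ℝ) + 1 := by exact_mod_cast this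
        linarith
      · simpa using hge 0 (MvPolynomial.pderiv j Q)
      · refine Or.inr ?_
        simp [w.v_one])
  have e3 : ∀ i, w.v (MvPolynomial.aeval y (P i)) = k i := fun i => by rw [a2 i, hv _ _ (a1 i)]
  simpa [e3] using h2

end Vale.Agent.P282
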