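import Vale.Agent.P282.CTwo
import Vale.Agent.P282.UMon
import Vale.Agent.P282.ARed
import Vale.Agent.P282.CDp_a

set_option linter.unusedSectionVars false

open scoped ENNReal TensorProduct Topology
open Filter MeasureTheory

noncomputable section

namespace Vale.Agent.P282

variable {R K : Type} [CommRing R] [IsDomain R] [Algebra ℂ R] [Algebra.FiniteType ℂ R]
  [IsIntegrallyClosed R] [Field K] [Algebra R K] [IsFractionRing R K] [Algebra ℂ K]
  [IsScalarTower ℂ R K] {n : ℕ}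

theorem CDp_comap (π : Proj R n) (x : Pt R) (hy : ∀ i, π.y i ∈ x.m) :
    x.m.comap (MvPolynomial.aeval π.y : MvPolynomial (Fin n) ℂ →ₐ[ℂ] R) =
      Ideal.span {P | ∃ i, 0 < (fun _ : Fin n => (1 : ℝ)) i ∧ P = MvPolynomial.X i} := by
  have e : {P | ∃ i, 0 < (fun _ : Fin n => (1 : ℝ)) i ∧ P = MvPolynomial.X i} =
      (MvPolynomial.X '' Set.univ : Set (MvPolynomial (Fin n) ℂ)) := by
    ext P
    simp [eq_comm]
  rw [e]
  ext P
  have h1 : x (MvPolynomial.aeval π.y P) = MvPolynomial.coeff 0 P := by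
    have h2 : x.hom.comp (MvPolynomial.aeval π.y) = MvPolynomial.aeval (0 : Fin n → ℂ) :=
      MvPolynomial.algHom_ext fun i => by
        rw [AlgHom.comp_apply, MvPolynomial.aeval_X, MvPolynomial.aeval_X]
        exact hy i
    have h3 := DFunLike.congr_fun h2 P
    rw [MvPolynomial.aeval_zero] at h3
    exact h3
  rw [Ideal.mem_comap, Pt.mem_m, h1, MvPolynomial.mem_ideal_span_X_image]
  constructor
  · intro h α hα
    by_contra hc
    have : α = 0 := Finsupp.ext fun i => by_contra fun hi => hc ⟨i, trivial, hi⟩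
    rw [this, MvPolynomial.mem_support_iff] at hα
    exact hα h
  · intro h
    by_contra hc
    obtain ⟨i, -, hi⟩ := h 0 (MvPolynomial.mem_support_iff.2 hc)
    exact hi rfl

theorem CDp_red {m : Ideal R} {y : Fin n → R} (hy : IsRed K m y) {w : RVal K}
    (hw : w.CenteredAt m) {t : ℝ} (h : ∀ i, w.Ge (algebraMap R K (y i)) t) :
    ∀ r ∈ m, w.Ge (algebraMap R K r) t := fun r hr => by
  obtain ⟨i, h1, h2⟩ := hy.2 w hw r hr
  exact h2.mono ((h i).resolve_left h1)

theorem CDp_lin (π : Proj R n) (x : Pt R) (hy : IsRed K x.m π.y) (a : Fin n → ℂ)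
    (ha : ∑ i, a i • π.y i ∈ x.m ^ 2) (i : Fin n) : a i = 0 := by
  classical
  obtain ⟨w, hw, hm⟩ := exists_mon K π (fun _ => 1) (fun _ => zero_le_one) x.m
    (CDp_comap π x hy.1)
  have h1 : ∀ j, w.Ge (algebraMap R K (π.y j)) 1 := fun j => by
    obtain ⟨-, ⟨α, hα, h⟩, -⟩ := hm _ (MvPolynomial.X_ne_zero j)
    rw [MvPolynomial.support_X, Finset.mem_singleton] at hα
    rw [MvPolynomial.aeval_X, hα] at h
    refine Or.inr (le_of_eq ?_)
    rw [h]
    simp [Finsupp.single_apply]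
  have h2 := RVal.Ge.of_pow hw.1 (CDp_red hy hw h1) 2 ha
  by_contra hi
  have h3 : Finsupp.single i 1 ∈
      (∑ j, a j • MvPolynomial.X j : MvPolynomial (Fin n) ℂ).support := by
    rw [MvPolynomial.mem_support_iff, MvPolynomial.coeff_sum]
    simpa [MvPolynomial.coeff_X, Finsupp.single_left_inj] using hi
  obtain ⟨h4, -, h5⟩ := hm _ (MvPolynomial.ne_zero_iff.2 ⟨_, MvPolynomial.mem_support_iff.1 h3⟩)
  have h6 := h5 _ h3
  have h7 : MvPolynomial.aeval (fun i => algebraMap R K (π.y i))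
      (∑ j, a j • MvPolynomial.X j : MvPolynomial (Fin n) ℂ) =
      algebraMap R K (∑ i, a i • π.y i) := by
    simp [Algebra.smul_def, ← IsScalarTower.algebraMap_apply]
  rw [h7] at h4 h6
  have h8 := h2.resolve_left h4
  have h9 : ∑ j, (1 : ℝ) * (Finsupp.single i 1 : Fin n →₀ ℕ) j = 1 := by
    simp [Finsupp.single_apply]
  rw [h9] at h6
  rw [Nat.cast_ofNat] at h8
  linarith

theorem CDp_num {k : ℕ} (hk : 3 ≤ k) (i0 : Fin n) :
    ((∑ i, (if i = i0 then k - 1 else k) : ℕ) : ℝ) = n * k - 1 ∧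
    ∏ i, ((if i = i0 then k - 1 else k : ℕ) : ℝ) = (k - 1) * (k : ℝ) ^ (n - 1) := by
  have h0 : ((k - 1 : ℕ) : ℝ) = k - 1 := by rw [Nat.cast_sub (by omega), Nat.cast_one]
  constructor
  · have : ∀ i, ((if i = i0 then k - 1 else k : ℕ) : ℝ) = k - if i = i0 then 1 else 0 := by
      intro i
      split_ifs
      · exact h0
      · simp
    rw [Nat.cast_sum]
    simp [this]
  · rw [← Finset.mul_prod_erase _ _ (Finset.mem_univ i0), if_pos rfl, h0,
      Finset.prod_congr rfl fun i hi => by rw [if_neg (Finset.ne_of_mem_erase hi)]]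
    simp

/-- double points -/
theorem dp_case (G : WS R K n) (hn : 2 ≤ n) (π : Proj R n) (x : Pt R) (hy : IsRed K x.m π.y)
    (hs : ¬ IsRegularLocalRing (Localization.AtPrime x.m)) (h : Len2 π x.m) :
    DP n x.m ∨ Strict G.ω x.m := by
  obtain ⟨z, hz, h1, h2⟩ := h
  obtain ⟨B, e, z', hB, he, hz', hsp, hq⟩ := CDp_nf x hz hy.1 h1 h2 (CDp_lin π x hy)
  obtain ⟨π', hπ⟩ := π.lin B hB 0
  simp only [Pi.zero_apply, map_zero, add_zero] at hπ
  simp only [← hπ] at hsp hq
  have hy' : ∀ i, π'.y i ∈ x.m := fun i => by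
    rw [hπ]
    exact sum_mem fun j _ => Submodule.smul_of_tower_mem _ _ (hy.1 j)
  by_cases h1 : ∀ i, e i = 1
  · refine Or.inl ⟨Fin.cons z' π'.y, fun i => Fin.cases hz' hy' i, fun r hr => ?_, ?_⟩
    · obtain ⟨a, b, h⟩ := hsp r hr
      rw [← add_sub_cancel (a • z' + ∑ i, b i • π'.y i) r]
      refine Submodule.add_mem_sup (add_mem ?_ (sum_mem fun i _ => ?_)) h
      · exact Submodule.smul_of_tower_mem _ _ (Ideal.subset_span ⟨0, rfl⟩)
      · exact Submodule.smul_of_tower_mem _ _ (Ideal.subset_span ⟨i.succ, rfl⟩)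
    · simpa [Fin.sum_univ_succ, h1] using hq
  right
  obtain ⟨i0, hi0⟩ := not_forall.1 h1
  have hi0 : e i0 = 0 := (he i0).resolve_right hi0
  obtain ⟨k, hk, hnum⟩ := num_gain hn
  obtain ⟨ξ, ⟨f, hf, hξ⟩, h3, h4, h5⟩ := two_pt G (by omega) π' x hy' hs
    (fun i => if i = i0 then k - 1 else k) fun i => by split_ifs <;> omega
  have hz0 : ξ z' ≠ 0 := by
    intro h0
    obtain ⟨a, b, h⟩ := hsp f hf
    have := h4 _ h
    simp only [map_sub, map_add, map_smul, map_sum, h0, h3, smul_zero, Finset.sum_const_zero,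
      add_zero, sub_zero] at this
    exact hξ this
  obtain ⟨w, τ, hτ, hw, h6, h7, h8⟩ := h5 z' hz0
  have hz1 : z' ≠ 0 := fun h => hz0 (by rw [h, map_zero])
  have hz2 : algebraMap R K z' ≠ 0 := fun h => hz1 (IsFractionRing.to_map_eq_zero_iff.1 h)
  have hk' : (3 : ℝ) ≤ k := by exact_mod_cast hk
  have hsm : ∀ (c : ℂ) (r : R), algebraMap R K (c • r) = c • algebraMap R K r := fun c r => by
    rw [Algebra.smul_def, map_mul, ← IsScalarTower.algebraMap_apply, Algebra.smul_def]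
  have h9 : ∀ i, w.Ge (algebraMap R K (π'.y i)) ((k - 1) * τ) := fun i => by
    refine (h6 i).mono (mul_le_mul_of_nonneg_right ?_ hτ.le)
    split_ifs
    · rw [Nat.cast_sub (by omega), Nat.cast_one]
    · linarith
  have h10 := CDp_red hy hw (t := (k - 1) * τ) fun i => by
    rw [CDp_inv hB π.y i, map_sum]
    refine RVal.Ge.sum fun j _ => ?_
    rw [hsm, ← hπ]
    exact (h9 j).smul _
  have h11 : w.Ge (algebraMap R K (z' ^ 2)) (2 * (k * τ)) := by
    rw [← add_sub_cancel_right (z' ^ 2) (∑ i, e i • π'.y i ^ 2), map_sub, map_sum]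
    refine ((RVal.Ge.of_pow hw.1 h10 3 hq).mono ?_).sub (RVal.Ge.sum fun i _ => ?_)
    · push_cast
      nlinarith
    · by_cases hi : i = i0
      · rw [hi, hi0, zero_smul, map_zero]
        exact RVal.Ge.zero _
      · have := (h6 i).pow 2
        rw [if_neg hi] at this
        rw [hsm, map_pow]
        exact_mod_cast this.smul _
  rw [map_pow] at h11
  have h12 := h11.resolve_left (pow_ne_zero _ hz2)
  rw [w.v_pow _ hz2] at h12
  obtain ⟨e1, e2⟩ := CDp_num hk i0
  rw [e1] at h7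
  rw [e2] at h8
  have hk1 : (0 : ℝ) < k - 1 := by linarith
  obtain ⟨-, h13, h14⟩ := nv_le G x.m (fun h => hz1 (by simpa [h] using hz')) hw
    (a := n * k - 1 - k) hτ (by positivity)
    (h7.trans (EReal.coe_le_coe_iff.2 (by push_cast at h12; linarith))) h8
  refine ⟨w, hw, h13, h14.trans_lt ?_⟩
  have hn' : (2 : ℝ) ≤ n := by exact_mod_cast hn
  rw [bd_eq (by omega), ENNReal.ofReal_lt_ofReal_iff (mul_pos two_pos (pow_pos (by linarith) _))]
  refine lt_of_eq_of_lt ?_ (mul_lt_mul_of_pos_left hnum two_pos)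
  have e3 : (n : ℝ) * k - 1 - k = (n - 1 - 1 / k) * k := by field_simp; ring
  obtain ⟨l, rfl⟩ : ∃ l, n = l + 1 := ⟨n - 1, by omega⟩
  rw [e3, mul_pow, pow_succ (k : ℝ), Nat.add_sub_cancel]
  field_simp

end Vale.Agent.P282
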