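import Mathlib

/-! Problem P282: rings of invariants of finite groups, contraction of powers of a maximal ideal
and approximation by invariants. -/

open scoped Pointwise

noncomputable section

namespace Vale.Agent.P282

section Inv

variable {A B : Type} [CommRing A] [CommRing B] [Algebra A B] (G : Type) [Group G] [Fintype G]
  [MulSemiringAction G B] [SMulCommClass G A B] [Algebra.IsInvariant A B G]

omit [SMulCommClass G A B] in
theorem CE2_tr (b : B) : ∃ a : A, algebraMap A B a = ∑ g : G, g • b :=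
  Algebra.IsInvariant.isInvariant (G := G) _ fun g => by
    rw [Finset.smul_sum]
    exact Fintype.sum_equiv (Equiv.mulLeft g) _ _ fun h => (mul_smul g h b).symm

theorem CE2_avg (I : Ideal A) {b : B} (hb : b ∈ I.map (algebraMap A B)) (c : B) :
    ∃ a ∈ I, algebraMap A B a = ∑ g : G, g • (c * b) := by
  induction hb using Submodule.span_induction generalizing c with
  | mem x hx =>
    obtain ⟨i, hi, rfl⟩ := hx
    obtain ⟨t, ht⟩ := CE2_tr (A := A) G c
    refine ⟨t * i, I.mul_mem_left _ hi, ?_⟩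
    rw [map_mul, ht, Finset.sum_mul]
    exact Finset.sum_congr rfl fun g _ => by rw [smul_mul', smul_algebraMap]
  | zero => exact ⟨0, I.zero_mem, by simp⟩
  | add x y _ _ hx hy =>
    obtain ⟨a, ha, e⟩ := hx c
    obtain ⟨a', ha', e'⟩ := hy c
    refine ⟨a + a', I.add_mem ha ha', ?_⟩
    rw [map_add, e, e', ← Finset.sum_add_distrib]
    exact Finset.sum_congr rfl fun g _ => by rw [mul_add, smul_add]
  | smul d x _ hx =>
    obtain ⟨a, ha, e⟩ := hx (c * d)
    exact ⟨a, ha, by rw [e, smul_eq_mul, mul_assoc]⟩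

theorem CE2_comap_map (hinj : Function.Injective (algebraMap A B))
    (hG : IsUnit (Fintype.card G : A)) (I : Ideal A) {a : A}
    (ha : algebraMap A B a ∈ I.map (algebraMap A B)) : a ∈ I := by
  obtain ⟨a', ha', e⟩ := CE2_avg G I ha 1
  simp only [one_mul, smul_algebraMap, Finset.sum_const, Finset.card_univ, nsmul_eq_mul] at e
  have e2 : a' = Fintype.card G * a := hinj (by rw [e, map_mul, map_natCast])
  rw [e2] at ha'
  exact (Ideal.unit_mul_mem_iff_mem I hG).1 ha'

/-- contraction of the powers of a maximal ideal -/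
theorem CE2_contr [IsNoetherianRing B] (hinj : Function.Injective (algebraMap A B))
    (hG : IsUnit (Fintype.card G : A)) (Q : Ideal B) [Q.IsMaximal] (p : Ideal A) [hp : p.IsMaximal]
    (hQ : Q.comap (algebraMap A B) = p) (k : ℕ) :
    ∃ N : ℕ, 0 < N ∧ ∀ a : A, algebraMap A B a ∈ Q ^ N → a ∈ p ^ k := by
  classical
  let T : Finset (Ideal B) := Finset.univ.image fun g : G => g • Q
  have hmax : ∀ P ∈ T, P.IsMaximal := by
    intro P hP
    obtain ⟨g, -, rfl⟩ := Finset.mem_image.1 hP
    exact Ideal.IsMaximal.map_bijective (MulSemiringAction.toRingHom G B g)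
      (MulSemiringAction.toRingEquiv G B g).bijective inferInstance
  have h1 : ∏ P ∈ T, P ≤ (p.map (algebraMap A B)).radical := by
    rw [Ideal.radical_eq_sInf]
    refine le_sInf fun P hP => ?_
    have := hP.2
    have e : P.comap (algebraMap A B) = p :=
      (hp.eq_of_le (Ideal.comap_isPrime _ P).ne_top (Ideal.map_le_iff_le_comap.1 hP.1)).symm
    obtain ⟨g, rfl⟩ := Algebra.IsInvariant.exists_smul_of_under_eq A B G Q P (hQ.trans e.symm)
    exact Ideal.prod_le_inf.trans (Finset.inf_le (f := fun P => P)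
      (Finset.mem_image_of_mem _ (Finset.mem_univ g)))
  obtain ⟨c, hc⟩ := Ideal.exists_pow_le_of_le_radical_of_fg h1 (IsNoetherian.noetherian _)
  refine ⟨c * k + 1, Nat.succ_pos _, fun a ha => CE2_comap_map G hinj hG _ ?_⟩
  have ha' : algebraMap A B a ∈ Q ^ (c * k) := Ideal.pow_le_pow_right (Nat.le_succ _) ha
  have h2 : algebraMap A B a ∈ ∏ P ∈ T, P ^ (c * k) := by
    rw [Ideal.prod_eq_iInf_of_pairwise_isCoprime fun P hP P' hP' hne =>
      (Ideal.isCoprime_iff_sup_eq.2 ((hmax P hP).coprime_of_ne (hmax P' hP') hne)).pow]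
    simp only [Ideal.mem_iInf]
    intro P hP
    obtain ⟨g, -, rfl⟩ := Finset.mem_image.1 hP
    rw [← smul_pow', ← smul_algebraMap g a]
    exact Ideal.smul_mem_pointwise_smul _ _ _ ha'
  rw [Finset.prod_pow, pow_mul] at h2
  rw [Ideal.map_pow]
  exact Ideal.pow_right_mono hc k h2

omit [SMulCommClass G A B] in
/-- an element that is almost invariant under the decomposition group is almost invariant -/
theorem CE2_approx [Algebra ℚ A] (Q : Ideal B) [hQ : Q.IsMaximal] (N : ℕ) (s : B)
    (hs : ∀ g : G, (∀ b, g • b ∈ Q ↔ b ∈ Q) → g • s - s ∈ Q ^ N) :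
    ∃ a : A, s - algebraMap A B a ∈ Q ^ N := by
  classical
  let q (g : G) : Ideal B := Q.comap (MulSemiringAction.toRingHom G B g)
  have hmax (g : G) : (q g).IsMaximal :=
    Ideal.comap_isMaximal_of_surjective _ (MulSemiringAction.toRingEquiv G B g).surjective
  have h1 (g : G) : ∃ e : B, e - 1 ∈ Q ^ N ∧ (q g ≠ Q → e ∈ q g ^ N) := by
    by_cases h : q g = Q
    · exact ⟨1, by simp, fun h' => absurd h h'⟩
    · have h2 : IsCoprime (q g ^ N) (Q ^ N) :=
        (Ideal.isCoprime_iff_sup_eq.2 ((hmax g).coprime_of_ne hQ h)).pow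
      obtain ⟨u, hu, v, hv, e⟩ := Ideal.isCoprime_iff_exists.1 h2
      refine ⟨u, ?_, fun _ => hu⟩
      rw [show u - 1 = -v by rw [← e]; ring]
      exact neg_mem hv
  choose e he1 he2 using h1
  have hE1 : ∏ g, e g - 1 ∈ Q ^ N := by
    rw [← Ideal.Quotient.eq, map_prod, map_one]
    exact Finset.prod_eq_one fun g _ => (Ideal.Quotient.eq.2 (he1 g)).trans (map_one _)
  have hE2 (g : G) (h : q g ≠ Q) : ∏ g, e g ∈ q g ^ N :=
    Ideal.prod_mem _ (Finset.mem_univ g) (he2 g h)
  generalize ∏ g, e g = E at hE1 hE2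
  obtain ⟨t, ht⟩ := CE2_tr (A := A) G (E * s)
  let D : Finset G := Finset.univ.filter fun g => q g = Q
  have hD : 0 < D.card := Finset.card_pos.2 ⟨1, Finset.mem_filter.2 ⟨Finset.mem_univ _, by
    ext b
    show (1 : G) • b ∈ Q ↔ b ∈ Q
    rw [one_smul]⟩⟩
  have h3 : Ideal.Quotient.mk (Q ^ N) (algebraMap A B t) =
      D.card * Ideal.Quotient.mk (Q ^ N) s := by
    rw [ht, map_sum, ← nsmul_eq_mul, ← Finset.sum_const, Finset.sum_filter]
    refine Finset.sum_congr rfl fun g _ => ?_
    rw [smul_mul', map_mul]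
    split_ifs with h
    · have h4 : g • E - 1 ∈ Q ^ N := by
        have h5 : E - 1 ∈ q g ^ N := by rw [h]; exact hE1
        have h6 : g • (E - 1) ∈ Q ^ N := Ideal.le_comap_pow _ N h5
        rwa [smul_sub, smul_one] at h6
      rw [Ideal.Quotient.eq.2 h4, map_one, one_mul]
      exact Ideal.Quotient.eq.2 (hs g fun b => by
        show b ∈ q g ↔ b ∈ Q
        rw [h])
    · have h6 : g • E ∈ Q ^ N := Ideal.le_comap_pow _ N (hE2 g h)
      rw [Ideal.Quotient.eq_zero_iff_mem.2 h6, zero_mul]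
  refine ⟨algebraMap ℚ A (D.card : ℚ)⁻¹ * t, Ideal.Quotient.eq.1 ?_⟩
  have h7 : algebraMap ℚ A (D.card : ℚ)⁻¹ * (D.card : A) = 1 := by
    rw [← map_natCast (algebraMap ℚ A), ← map_mul, inv_mul_cancel₀ (by exact_mod_cast hD.ne'),
      map_one]
  rw [map_mul, map_mul, h3, ← mul_assoc, ← map_natCast (Ideal.Quotient.mk (Q ^ N)), ← map_mul,
    ← map_natCast (algebraMap A B), ← map_mul (algebraMap A B), h7, map_one, map_one, one_mul]

end Inv

/-- an integral element fixed by all automorphisms lies in a normal subring -/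
theorem CE2_gal {A Ω : Type} [CommRing A] [IsDomain A] [IsIntegrallyClosed A] [Field Ω]
    [IsAlgClosed Ω] [CharZero Ω] [Algebra A Ω] [Algebra.IsAlgebraic A Ω]
    (hinj : Function.Injective (algebraMap A Ω)) {b : Ω} (hb : IsIntegral A b)
    (h : ∀ g : Ω ≃ₐ[A] Ω, g b = b) : ∃ a, algebraMap A Ω a = b := by
  have : FaithfulSMul A Ω := (faithfulSMul_iff_algebraMap_injective A Ω).2 hinj
  let := FractionRing.liftAlgebra A Ω
  have := FractionRing.isScalarTower_liftAlgebra A Ω
  have : Algebra.IsAlgebraic (FractionRing A) Ω := IsFractionRing.comap_isAlgebraic_iff.1 ‹_›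
  have : CharZero (FractionRing A) := (algebraMap (FractionRing A) Ω).charZero
  have : IsAlgClosure (FractionRing A) Ω := ⟨‹_›, ‹_›⟩
  obtain ⟨c, rfl⟩ := (InfiniteGalois.mem_range_algebraMap_iff_fixed (k := FractionRing A) b).2
    fun g => h (g.restrictScalars A)
  obtain ⟨a, rfl⟩ := IsIntegrallyClosed.isIntegral_iff.1
    ((isIntegral_algebraMap_iff (algebraMap (FractionRing A) Ω).injective).1 hb)
  exact ⟨a, IsScalarTower.algebraMap_apply _ _ _ a⟩

end Vale.Agent.P282
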