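import Vale.Agent.P282.AEmb0
import Vale.Agent.P282.CE2_a

/-! Problem P282: the Galois group of the ring of conjugates. -/

set_option linter.unusedSectionVars false

noncomputable section

namespace Vale.Agent.P282

variable {R K : Type} [CommRing R] [IsDomain R] [Algebra ℂ R] [Algebra.FiniteType ℂ R]
  [IsIntegrallyClosed R] [Field K] [Algebra R K] [IsFractionRing R K] [Algebra ℂ K]
  [IsScalarTower ℂ R K] {n : ℕ}

/-- the action on embeddings -/
def CE2_act (π : Proj R n) (g : π.Rt K →ₐ[ℂ] π.Rt K)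
    (hg : ∀ σ i, g (π.em K σ (π.y i)) = π.em K σ (π.y i)) (σ : π.Emb K) : π.Emb K :=
  ⟨((π.Rt K).val.comp g).comp (π.em K σ), fun i => (congrArg Subtype.val (hg σ i)).trans (σ.2 i)⟩

theorem CE2_em_act (π : Proj R n) (g : π.Rt K →ₐ[ℂ] π.Rt K)
    (hg : ∀ σ i, g (π.em K σ (π.y i)) = π.em K σ (π.y i)) (σ : π.Emb K) (r : R) :
    π.em K (CE2_act π g hg σ) r = g (π.em K σ r) := rfl

theorem CE2_ext (π : Proj R n) {g g' : π.Rt K →ₐ[ℂ] π.Rt K}
    (h : ∀ σ r, g (π.em K σ r) = g' (π.em K σ r)) : g = g' := by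
  refine AlgHom.ext_of_eq_adjoin (S := π.Rt K) rfl fun x hx => ?_
  obtain ⟨σ, hσ, r, rfl⟩ := Set.mem_iUnion₂.1 hx
  exact h ⟨σ, hσ⟩ r

theorem CE2_maps (π : Proj R n) (γ : Cl K →ₐ[ℂ] Cl K) (hγ : ∀ i, γ (io K (π.y i)) = io K (π.y i))
    {b : Cl K} (hb : b ∈ π.Rt K) : γ b ∈ π.Rt K := by
  refine (Algebra.adjoin_le (S := (π.Rt K).comap γ) fun x hx => ?_) hb
  obtain ⟨σ, hσ, r, rfl⟩ := Set.mem_iUnion₂.1 hx
  exact (π.em K ⟨γ.comp σ, fun i => (congrArg γ (hσ i)).trans (hγ i)⟩ r).2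

section Pkg

variable (π : Proj R n) {A : Type} [CommRing A] [Algebra ℂ A] [Algebra A (π.Rt K)]
  [IsScalarTower ℂ A (π.Rt K)]
  (hy : ∀ i, ∃ a, (algebraMap A (π.Rt K) a : Cl K) = io K (π.y i))
include hy

theorem CE2_fix (g : π.Rt K ≃ₐ[A] π.Rt K) (σ : π.Emb K) (i : Fin n) :
    g (π.em K σ (π.y i)) = π.em K σ (π.y i) := by
  obtain ⟨a, ha⟩ := hy i
  rw [show π.em K σ (π.y i) = algebraMap A (π.Rt K) a from Subtype.ext ((σ.2 i).trans ha.symm)]
  exact g.commutes a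

theorem CE2_fin : Finite (π.Rt K ≃ₐ[A] π.Rt K) := by
  have := (π.emb_finite (K := K)).to_subtype
  refine Finite.of_injective (fun g : π.Rt K ≃ₐ[A] π.Rt K =>
    CE2_act π (g.restrictScalars ℂ).toAlgHom (CE2_fix π hy g)) fun g g' h => ?_
  have h1 : (g.restrictScalars ℂ).toAlgHom = (g'.restrictScalars ℂ).toAlgHom :=
    CE2_ext π fun σ r => by
      rw [← CE2_em_act π _ (CE2_fix π hy g), ← CE2_em_act π _ (CE2_fix π hy g')]
      exact congrArg (fun τ => π.em K τ r) (congrFun h σ)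
  exact AlgEquiv.ext fun b => AlgHom.congr_fun h1 b

theorem CE2_inv [IsDomain A] [IsIntegrallyClosed A]
    (hinj : Function.Injective (algebraMap A (π.Rt K))) :
    Algebra.IsInvariant A (π.Rt K) (π.Rt K ≃ₐ[A] π.Rt K) := by
  refine ⟨fun b hb => ?_⟩
  let : Algebra A (Cl K) := ((π.Rt K).val.toRingHom.comp (algebraMap A (π.Rt K))).toAlgebra
  have : IsScalarTower ℂ A (Cl K) := IsScalarTower.of_algebraMap_eq fun c =>
    congrArg Subtype.val (IsScalarTower.algebraMap_apply ℂ A (π.Rt K) c)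
  choose a ha using hy
  have hf (σ : π.Emb K) : (algebraMap A (Cl K)).comp
      (MvPolynomial.aeval a : MvPolynomial (Fin n) ℂ →ₐ[ℂ] A).toRingHom =
      σ.1.toRingHom.comp (MvPolynomial.aeval π.y : MvPolynomial (Fin n) ℂ →ₐ[ℂ] R).toRingHom := by
    have : (IsScalarTower.toAlgHom ℂ A (Cl K)).comp (MvPolynomial.aeval a) =
        σ.1.comp (MvPolynomial.aeval π.y) := MvPolynomial.algHom_ext fun i => by
      simp only [AlgHom.comp_apply, MvPolynomial.aeval_X]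
      exact (ha i).trans (σ.2 i).symm
    exact congrArg AlgHom.toRingHom this
  let : Algebra (MvPolynomial (Fin n) ℂ) R :=
    (MvPolynomial.aeval π.y : MvPolynomial (Fin n) ℂ →ₐ[ℂ] R).toRingHom.toAlgebra
  have : Module.Finite (MvPolynomial (Fin n) ℂ) R := π.fin
  have hint : IsIntegral A (b : Cl K) := by
    refine (Algebra.adjoin_le (S := (integralClosure A (Cl K)).restrictScalars ℂ)
      fun x hx => ?_) b.2
    obtain ⟨σ, hσ, r, rfl⟩ := Set.mem_iUnion₂.1 hx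
    exact IsIntegral.map_of_comp_eq _ σ.toRingHom (hf ⟨σ, hσ⟩) (Algebra.IsIntegral.isIntegral r)
  have : Algebra.IsAlgebraic A (Cl K) := by
    let : Algebra (MvPolynomial (Fin n) ℂ) (Cl K) :=
      ((algebraMap R (Cl K)).comp (algebraMap (MvPolynomial (Fin n) ℂ) R)).toAlgebra
    have : IsScalarTower (MvPolynomial (Fin n) ℂ) R (Cl K) :=
      IsScalarTower.of_algebraMap_eq fun _ => rfl
    have : Algebra.IsAlgebraic R K := IsLocalization.isAlgebraic K (nonZeroDivisors R)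
    have : Algebra.IsAlgebraic R (Cl K) := Algebra.IsAlgebraic.trans R K (Cl K)
    have : Algebra.IsAlgebraic (MvPolynomial (Fin n) ℂ) (Cl K) :=
      Algebra.IsAlgebraic.trans _ R (Cl K)
    have h0 := hf ⟨io K, π.io_mem⟩
    refine ⟨fun ω => (Algebra.IsAlgebraic.isAlgebraic (R := MvPolynomial (Fin n) ℂ) ω
      ).ringHom_of_comp_eq (MvPolynomial.aeval a : MvPolynomial (Fin n) ℂ →ₐ[ℂ] A).toRingHom
        (RingHom.id _) (fun P Q h => π.ind (π.emb_inj (K := K) π.io_mem ?_)) h0⟩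
    exact (RingHom.congr_fun h0 P).symm.trans
      ((congrArg (algebraMap A (Cl K)) h).trans (RingHom.congr_fun h0 Q))
  have : CharZero (Cl K) := charZero_of_injective_algebraMap (algebraMap ℂ (Cl K)).injective
  obtain ⟨a0, h0⟩ := CE2_gal (Subtype.val_injective.comp hinj) hint fun γ => by
    have h1 (γ : Cl K ≃ₐ[A] Cl K) (c : π.Rt K) : γ c ∈ π.Rt K :=
      CE2_maps π (γ.restrictScalars ℂ).toAlgHom (fun i => by
        rw [← ha i]; exact γ.commutes (a i)) c.2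
    let g : π.Rt K ≃ₐ[A] π.Rt K :=
      { toFun c := ⟨γ c, h1 γ c⟩
        invFun c := ⟨γ.symm c, h1 γ.symm c⟩
        left_inv c := Subtype.ext (γ.symm_apply_apply c)
        right_inv c := Subtype.ext (γ.apply_symm_apply c)
        map_mul' c d := Subtype.ext (map_mul γ c.1 d.1)
        map_add' c d := Subtype.ext (map_add γ c.1 d.1)
        commutes' c := Subtype.ext (γ.commutes c) }
    exact congrArg Subtype.val (hb g)
  exact ⟨a0, Subtype.ext h0⟩

end Pkg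

/-- contraction along an embedding -/
theorem CE2_back (π : Proj R n) (x : Pt R) (x' : Pt (π.Rt K)) {σ : π.Emb K}
    (hσ : σ ∈ π.EmbAt K x x') (k : ℕ) :
    ∃ N : ℕ, 0 < N ∧ ∀ r : R, π.em K σ r ∈ x'.m ^ N → r ∈ x.m ^ k := by
  let : Algebra R (π.Rt K) := (π.em K σ).toRingHom.toAlgebra
  have : IsScalarTower ℂ R (π.Rt K) := IsScalarTower.of_algHom (π.em K σ)
  have hy : ∀ i, ∃ a, (algebraMap R (π.Rt K) a : Cl K) = io K (π.y i) := fun i => ⟨π.y i, σ.2 i⟩
  have hinj : Function.Injective (algebraMap R (π.Rt K)) := fun r s h =>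
    π.emb_inj σ.2 (congrArg Subtype.val h)
  have := CE2_fin π hy
  have := Fintype.ofFinite (π.Rt K ≃ₐ[R] π.Rt K)
  have := CE2_inv π hy hinj
  have := π.rt_fg (K := K)
  have : IsNoetherianRing (π.Rt K) := Algebra.FiniteType.isNoetherianRing ℂ _
  refine CE2_contr (π.Rt K ≃ₐ[R] π.Rt K) hinj ?_ x'.m x.m ?_ k
  · rw [← map_natCast (algebraMap ℂ R)]
    exact (IsUnit.mk0 _ (Nat.cast_ne_zero.2 Fintype.card_ne_zero)).map _
  · ext r
    show x' (π.em K σ r) = 0 ↔ x r = 0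
    rw [hσ r]

/-- approximation by polynomials -/
theorem CE2_poly (π : Proj R n) (x' : Pt (π.Rt K)) (σ : π.Emb K) (N : ℕ) (s : π.Rt K)
    (hs : ∀ g : π.Rt K ≃ₐ[ℂ] π.Rt K, (∀ σ i, g (π.em K σ (π.y i)) = π.em K σ (π.y i)) →
      (∀ b, x' (g b) = x' b) → g s - s ∈ x'.m ^ N) :
    ∃ P : MvPolynomial (Fin n) ℂ, s - π.em K σ (MvPolynomial.aeval π.y P) ∈ x'.m ^ N := by
  let j : MvPolynomial (Fin n) ℂ →ₐ[ℂ] π.Rt K := (π.em K σ).comp (MvPolynomial.aeval π.y)
  let : Algebra (MvPolynomial (Fin n) ℂ) (π.Rt K) := j.toRingHom.toAlgebra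
  have : IsScalarTower ℂ (MvPolynomial (Fin n) ℂ) (π.Rt K) := IsScalarTower.of_algHom j
  have hy : ∀ i, ∃ a, (algebraMap (MvPolynomial (Fin n) ℂ) (π.Rt K) a : Cl K) = io K (π.y i) :=
    fun i => ⟨MvPolynomial.X i, by
      show σ.1 (MvPolynomial.aeval π.y (MvPolynomial.X i)) = _
      rw [MvPolynomial.aeval_X]
      exact σ.2 i⟩
  have hinj : Function.Injective (algebraMap (MvPolynomial (Fin n) ℂ) (π.Rt K)) := fun r s h =>
    π.ind (π.emb_inj σ.2 (congrArg Subtype.val h))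
  have := CE2_fin π hy
  have := Fintype.ofFinite (π.Rt K ≃ₐ[MvPolynomial (Fin n) ℂ] π.Rt K)
  have := CE2_inv π hy hinj
  refine CE2_approx (A := MvPolynomial (Fin n) ℂ) (π.Rt K ≃ₐ[MvPolynomial (Fin n) ℂ] π.Rt K)
    x'.m N s fun g hg => hs (g.restrictScalars ℂ) (CE2_fix π hy g) fun b => ?_
  have h1 : b - algebraMap ℂ _ (x' b) ∈ x'.m := by
    rw [Pt.mem_m, map_sub, AlgHomClass.commutes]
    exact sub_self _
  have h2 : g.restrictScalars ℂ (b - algebraMap ℂ _ (x' b)) ∈ x'.m := (hg _).2 h1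
  rw [Pt.mem_m, map_sub, AlgEquiv.commutes, map_sub, AlgHomClass.commutes] at h2
  exact sub_eq_zero.1 h2

end Vale.Agent.P282
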