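import Vale.Agent.P282.QMg
import Vale.Agent.P282.AEmb
import Vale.Agent.P282.UArc
import Vale.Agent.P282.ANum

set_option linter.unusedSectionVars false

open scoped ENNReal TensorProduct Topology
open Filter MeasureTheory

noncomputable section

namespace Vale.Agent.P282

variable {R K : Type} [CommRing R] [IsDomain R] [Algebra ℂ R] [Algebra.FiniteType ℂ R]
  [IsIntegrallyClosed R] [Field K] [Algebra R K] [IsFractionRing R K] [Algebra ℂ K]
  [IsScalarTower ℂ R K] {n : ℕ}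

/-- two different etale arcs through `x` over the same arc of the base -/
theorem CTwo_arcs (K : Type) [Field K] [Algebra R K] [IsFractionRing R K] [Algebra ℂ K]
    [IsScalarTower ℂ R K] (π : Proj R n) (x : Pt R)
    (hs : ¬ IsRegularLocalRing (Localization.AtPrime x.m)) :
    ∃ (a b : Arc R) (θ δ : R) (P : Polynomial (MvPolynomial (Fin n) ℂ)), a.γ 0 = x ∧ b.γ 0 = x ∧
      (∀ i, a.hom (π.y i) = b.hom (π.y i)) ∧ π.EtW θ P δ ∧ a.hom δ ≠ 0 ∧ b.hom δ ≠ 0 ∧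
      a.hom ≠ b.hom := by
  obtain ⟨x', h1⟩ := π.exists_pt_over (K := K) x
  obtain ⟨σ₂, h2, hne⟩ := two_emb π x hs x' _ h1
  generalize (⟨io K, π.io_mem⟩ : π.Emb K) = σ₁ at h1 hne
  obtain ⟨θ, P, δ, hE, hδ⟩ := exists_etW π
  obtain ⟨r, hr⟩ := DFunLike.ne_iff.1 (Subtype.coe_ne_coe.2 hne)
  have := π.rt_fg (K := K)
  have hd : ∀ σ : π.Emb K, π.em K σ δ ≠ 0 := fun σ h =>
    hδ (π.emb_inj σ.2 ((congrArg Subtype.val h).trans (map_zero _).symm))
  obtain ⟨a, a0, -, ha⟩ := exists_arc x' ⊥ bot_le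
    (g := π.em K σ₁ δ * π.em K σ₂ δ * (π.em K σ₂ r - π.em K σ₁ r))
    (mul_ne_zero (mul_ne_zero (hd _) (hd _)) (sub_ne_zero.2 fun h => hr (congrArg Subtype.val h)))
  rw [map_mul, map_mul, map_sub] at ha
  refine ⟨a.comap (π.em K σ₁), a.comap (π.em K σ₂), θ, δ, P, ?_, ?_, fun i => ?_, hE,
    left_ne_zero_of_mul (left_ne_zero_of_mul ha), right_ne_zero_of_mul (left_ne_zero_of_mul ha),
    fun h => right_ne_zero_of_mul ha (sub_eq_zero.2 (DFunLike.congr_fun h r).symm)⟩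
  · exact DFunLike.ext _ _ fun u => (DFunLike.congr_fun a0 _).trans (h1 u)
  · exact DFunLike.ext _ _ fun u => (DFunLike.congr_fun a0 _).trans (h2 u)
  · have := π.em_y σ₁ σ₂ (MvPolynomial.X i)
    rw [MvPolynomial.aeval_X] at this
    exact congrArg a.hom this

/-- an etale arc with weights `c` -/
def CTwo_w (c : Fin n → ℕ) (hc : ∀ i, 0 < c i) (a : Arc R) : WArc R n where
  toArc := a
  B := 1
  B_det := by simp
  c := 0
  w := c
  w_pos := hc
  l := 1
  Z := fun _ => 1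
  g := 0
  der := false
  ξ := a.ev.toLinearMap

theorem CTwo_s [NeZero n] (c : Fin n → ℕ) (hc : ∀ i, 0 < c i) (a : Arc R) (π : Proj R n) :
    (CTwo_w c hc a).s π = fun i => a.yq (π.y i) := by
  have h : ∀ j, (CTwo_w c hc a).lin π j = a.yq (π.y j) := fun j => by
    simp [WArc.lin, CTwo_w, Matrix.one_apply]
  funext j
  rw [WArc.s, h, h]
  split_ifs with h0
  · rw [h0]
  · simp [CTwo_w]

theorem CTwo_lev [NeZero n] (a : WArc R n) (π : Proj R n) (α : Fin n → ℕ) {j : ℕ}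
    (h : j ≤ ∑ k, a.w k * α k) : ∏ k, a.s π k ^ α k ∈ a.lev π j :=
  Ideal.mem_iInf.2 fun _ => Ideal.mem_sup_left (Ideal.subset_span ⟨α, h, rfl⟩)

theorem CTwo_good [NeZero n] (G : WS R K n) (c : Fin n → ℕ) (hc : ∀ i, 0 < c i) (a : Arc R)
    {π : Proj R n} {θ δ : R} {P : Polynomial (MvPolynomial (Fin n) ℂ)} (h : π.EtW θ P δ)
    (ha : a.hom δ ≠ 0) : (CTwo_w c hc a).Good π G (∑ i, c i : ℕ) where
  col N x := ⟨fun _ => a.ev x, by
    have := etW_arc h a ha N x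
    rw [Algebra.algebraMap_eq_smul_one, ← Fin.sum_univ_one fun _ => a.ev x • (1 : RK R)] at this
    rwa [CTwo_s]⟩
  gain := by
    have h1 := CTwo_lev (CTwo_w c hc a) π 0 (Nat.zero_le _)
    refine Ideal.mem_of_dvd _ (one_dvd _) (Ideal.subset_span ⟨0, fun _ => 1, fun i => ?_, by simp⟩)
    simpa [CTwo_w] using h1
  ev _ _ := rfl
  dr h := absurd h (by simp [CTwo_w])
  bd := by simp [CTwo_w, WArc.mu]

/-- two colliding points with weights `c` on the coordinates -/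
theorem two_pt (G : WS R K n) (hn : 0 < n) (π : Proj R n) (x : Pt R) (hy : ∀ i, π.y i ∈ x.m)
    (hs : ¬ IsRegularLocalRing (Localization.AtPrime x.m)) (c : Fin n → ℕ) (hc : ∀ i, 0 < c i) :
    ∃ ξ : R →ₗ[ℂ] ℂ, (∃ f ∈ x.m, ξ f ≠ 0) ∧ (∀ i, ξ (π.y i) = 0) ∧ (∀ r ∈ x.m ^ 2, ξ r = 0) ∧
      ∀ f, ξ f ≠ 0 → ∃ (w : RVal K) (τ : ℝ), 0 < τ ∧ w.CenteredAt x.m ∧
        (∀ i, w.Ge (algebraMap R K (π.y i)) (c i * τ)) ∧
        G.ω.A w ≤ (((∑ i, c i : ℕ) * τ - w.v (algebraMap R K f) : ℝ) : EReal) ∧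
        vol x.m n w ≤ ENNReal.ofReal ((2 / ∏ k, (c k : ℝ)) / τ ^ n) := by
  have : NeZero n := ⟨hn.ne'⟩
  obtain ⟨a, b, θ, δ, P, a0, b0, hab, hE, ha, hb, hne⟩ := CTwo_arcs K π x hs
  obtain ⟨S, hS⟩ := Algebra.FiniteType.out (R := ℂ) (A := R)
  obtain ⟨β, h1, z, d, hd, h2⟩ := MK.exists_norm (fun z : S => a.hom z - b.hom z) (by
    by_contra h
    exact hne (AlgHom.ext_of_adjoin_eq_top hS fun z hz =>
      sub_eq_zero.1 (not_not.1 fun h' => h ⟨⟨z, hz⟩, h'⟩)))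
  have z0 : (0 : MK).HasVal 0 := by simpa using MK.hasVal_const 0
  have hm : ∀ u v e e', (β * (a.hom u - b.hom u)).HasVal e → (β * (a.hom v - b.hom v)).HasVal e' →
      (β * (a.hom (u * v) - b.hom (u * v))).HasVal (x u * e' + x v * e) := fun u v e e' h h' => by
    have := ((a.hom_val u).mul h').add ((b.hom_val v).mul h)
    rw [a0, b0] at this
    rwa [show β * (a.hom (u * v) - b.hom (u * v)) = a.hom u * (β * (a.hom v - b.hom v)) +
      b.hom v * (β * (a.hom u - b.hom u)) by rw [map_mul, map_mul]; ring]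
  have hadd : ∀ u v, β * (a.hom (u + v) - b.hom (u + v)) =
      β * (a.hom u - b.hom u) + β * (a.hom v - b.hom v) := fun u v => by
    rw [map_add, map_add]; ring
  have hall : ∀ u, ∃ e, (β * (a.hom u - b.hom u)).HasVal e := fun u => by
    induction (hS.ge Algebra.mem_top : u ∈ Algebra.adjoin ℂ (S : Set R))
      using Algebra.adjoin_induction with
    | mem z hz => exact h1 ⟨z, hz⟩
    | algebraMap r => exact ⟨0, by rwa [AlgHom.commutes, AlgHom.commutes, sub_self, mul_zero]⟩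
    | add u v _ _ h h' => exact ⟨_, hadd u v ▸ h.choose_spec.add h'.choose_spec⟩
    | mul u v _ _ h h' => exact ⟨_, hm u v _ _ h.choose_spec h'.choose_spec⟩
  choose ξ hξ using hall
  let L : R →ₗ[ℂ] ℂ :=
    { toFun := ξ
      map_add' := fun u v => (hξ _).unique (hadd u v ▸ (hξ u).add (hξ v))
      map_smul' := fun e u => (hξ _).unique (by
        rw [map_smul, map_smul, ← smul_sub, mul_smul_comm]; exact (hξ u).smul e) }
  have hsum : ∀ u, ∑ i, (![β, -β] : Fin 2 → MK) i *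
      ((![CTwo_w c hc a, CTwo_w c hc b] : Fin 2 → WArc R n) i).ξ (1 ⊗ₜ u) =
      β * (a.hom u - b.hom u) := fun u => by
    simp [CTwo_w, Arc.ev_tmul]
    ring
  refine ⟨L, ⟨z - algebraMap ℂ R (x z), by simp [Pt.mem_m, AlgHomClass.commutes], fun h => hd ?_⟩,
    fun i => (hξ _).unique (by rwa [hab, sub_self, mul_zero]), fun r hr => ?_, fun f hf => ?_⟩
  · refine h2.unique ?_
    have := hξ (z - algebraMap ℂ R (x z))
    rwa [show ξ _ = 0 from h, map_sub, map_sub, AlgHom.commutes, AlgHom.commutes,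
      sub_sub_sub_cancel_right] at this
  · rw [pow_two] at hr
    refine Submodule.mul_induction_on hr (fun u hu v hv => (hξ _).unique ?_)
      fun u v hu hv => by rw [map_add, hu, hv, add_zero]
    have := hm u v _ _ (hξ u) (hξ v)
    rwa [Pt.mem_m.1 hu, Pt.mem_m.1 hv, zero_mul, zero_mul, add_zero] at this
  · obtain ⟨w, τ, h3, h4, h5, h6, h7⟩ := mg G π x ![CTwo_w c hc a, CTwo_w c hc b]
      (Fin.forall_fin_two.2 ⟨a0, b0⟩) (Nat.cast_nonneg _)
      (Fin.forall_fin_two.2 ⟨CTwo_good G c hc a hE ha, CTwo_good G c hc b hE hb⟩) ![β, -β]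
      (fun u => ⟨_, hsum u ▸ hξ u⟩) hf (hsum f ▸ hξ f)
    refine ⟨w, τ, h3, h4, fun i => h5 _ _ ⟨a.yq (π.y i), ?_, ?_⟩, h6, h7.trans_eq ?_⟩
    · have key : ∀ a : Arc R, a.yq (π.y i) ∈ (CTwo_w c hc a).lev π (c i) := fun a => by
        have := CTwo_lev (CTwo_w c hc a) π (Pi.single i 1) (j := c i) (by
          simp [CTwo_w, Pi.single_apply])
        simpa [CTwo_s, Pi.single_apply, pow_ite] using this
      refine Fin.forall_fin_two.2 ⟨key a, ?_⟩
      rw [Arc.yq, hab]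
      exact key b
    · simpa [a0, Pt.mem_m.1 (hy i)] using Lim.yq a (π.y i)
    · simp only [Fin.sum_univ_two, CTwo_w, Matrix.cons_val_zero, Matrix.cons_val_one, Nat.cast_one]
      rw [← add_div, one_add_one_eq_two]

/-- the inequality -/
theorem ineq (G : WS R K n) (hn : 2 ≤ n) (π : Proj R n) (x : Pt R) (hy : IsRed K x.m π.y)
    (hs : ¬ IsRegularLocalRing (Localization.AtPrime x.m)) :
    G.ρ π.y ∈ x.m ∧ ∃ w : RVal K, w.CenteredAt x.m ∧ G.ω.A w ≠ ⊤ ∧ nv G.ω x.m w ≤ bd n := by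
  obtain ⟨ξ, ⟨f, hf, hf'⟩, -, -, h⟩ := two_pt G (by omega) π x hy.1 hs (fun _ => 1) fun _ => one_pos
  obtain ⟨w, τ, h1, h2, h3, h4, h5⟩ := h f hf'
  have inj : ∀ {r : R}, r ≠ 0 → algebraMap R K r ≠ 0 :=
    (map_ne_zero_iff _ (IsFractionRing.injective R K)).2
  have f0 : f ≠ 0 := fun e => hf' (by rw [e, map_zero])
  have y1 : ∀ i, τ ≤ w.v (algebraMap R K (π.y i)) := fun i => by
    simpa using (h3 i).resolve_left (inj (π.ind.ne_zero i))
  obtain ⟨i, -, hi⟩ := hy.2 w h2 f hf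
  have h6 := (y1 i).trans (hi.resolve_left (inj f0))
  have h7 : G.ω.A w ≤ ((((n : ℝ) - 1) * τ : ℝ) : EReal) :=
    h4.trans (EReal.coe_le_coe_iff.2 (by simp; linarith))
  obtain ⟨-, h8, h9⟩ := nv_le G x.m (fun e => f0 (by rwa [e] at hf)) h2 h1 (by norm_num) h7 h5
  refine ⟨by_contra fun h0 => ?_, w, h2, h8, by simpa [bd_eq (show 1 ≤ n by omega)] using h9⟩
  have a1 := EReal.coe_le_coe_iff.1 ((G.ω.le_A w _ (fun i => inj (π.ind.ne_zero i))
    (π.jac_ne G.ω)).trans h7)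
  have a2 := not_lt.1 fun h => h0 ((h2.2 _ (inj (G.ρ_ne π))).1 h)
  have a3 := Finset.sum_le_sum (s := Finset.univ) fun i _ => y1 i
  rw [PForm.wt, ← G.ρ_eq] at a1
  have a4 := div_nonpos_of_nonpos_of_nonneg a2 (Nat.cast_nonneg (α := ℝ) G.ω.m)
  simp only [Finset.sum_const, Finset.card_univ, Fintype.card_fin, nsmul_eq_mul] at a3
  linarith

end Vale.Agent.P282
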