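import Vale.Agent.P282.CTr
import Vale.Agent.P282.CTwo
import Vale.Agent.P282.CE2_b

set_option linter.unusedSectionVars false

open scoped ENNReal TensorProduct Topology
open Filter MeasureTheory

noncomputable section

namespace Vale.Agent.P282

variable {R K : Type} [CommRing R] [IsDomain R] [Algebra ℂ R] [Algebra.FiniteType ℂ R]
  [IsIntegrallyClosed R] [Field K] [Algebra R K] [IsFractionRing R K] [Algebra ℂ K]
  [IsScalarTower ℂ R K] {n : ℕ}

theorem CE2_sub_mem (π : Proj R n) (x : Pt R) (hy : ∀ i, π.y i ∈ x.m)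
    (P : MvPolynomial (Fin n) ℂ) :
    MvPolynomial.aeval π.y P - algebraMap ℂ R (x (MvPolynomial.aeval π.y P)) ∈
      Ideal.span (Set.range π.y) := by
  induction P using MvPolynomial.induction_on with
  | C c =>
    rw [MvPolynomial.aeval_C, AlgHomClass.commutes]
    exact (sub_self (algebraMap ℂ R c)).symm ▸ Ideal.zero_mem _
  | add p q hp hq =>
    rw [map_add, map_add, map_add, add_sub_add_comm]
    exact Ideal.add_mem _ hp hq
  | mul_X p i _ =>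
    rw [map_mul, MvPolynomial.aeval_X, map_mul, Pt.mem_m.1 (hy i), mul_zero, map_zero, sub_zero]
    exact Ideal.mul_mem_left _ _ (Ideal.subset_span ⟨i, rfl⟩)

theorem CE2_mem (π : Proj R n) (x : Pt R) (hy : ∀ i, π.y i ∈ x.m) {P : MvPolynomial (Fin n) ℂ}
    (h : MvPolynomial.aeval π.y P ∈ x.m) :
    MvPolynomial.aeval π.y P ∈ Ideal.span (Set.range π.y) := by
  have := CE2_sub_mem π x hy P
  rwa [Pt.mem_m.1 h, map_zero, sub_zero] at this

/-- weighted traces -/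
theorem CE2_trace (G : WS R K n) (hm : G.ω.m = 1) (π : Proj R n) [Fintype (π.Emb K)]
    (r : π.Emb K → R) (T : Finset (π.Emb K)) (h : R) : ∃ t : π.Rt K, (t : Cl K) =
      ∑ σ', (∏ σ ∈ T, (π.em K σ' (r σ) - π.em K σ (r σ)) : π.Rt K) *
        (σ'.1 h / σ'.1 (G.ρ π.y)) := by
  classical
  induction T using Finset.induction_on generalizing h with
  | empty =>
    choose φ hφ using π.exists_ext (K := K)
    have h0 : algebraMap R K (G.ρ π.y) ≠ 0 :=
      (map_ne_zero_iff _ (IsFractionRing.injective R K)).2 (G.ρ_ne π)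
    obtain ⟨P, hP⟩ := (trace_dual G hm π φ hφ (algebraMap R K (G.ρ π.y))⁻¹).2
      ⟨1, by rw [inv_mul_cancel₀ h0, map_one]⟩ h
    refine ⟨π.em K ⟨io K, π.io_mem⟩ (MvPolynomial.aeval π.y P), hP.symm.trans ?_⟩
    rw [finsum_eq_sum_of_fintype]
    refine Finset.sum_congr rfl fun σ _ => ?_
    rw [map_mul, map_inv₀, hφ, hφ, Finset.prod_empty, OneMemClass.coe_one, one_mul,
      div_eq_inv_mul]
  | insert σ T hσ ih =>
    obtain ⟨t, ht⟩ := ih (r σ * h)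
    obtain ⟨t', ht'⟩ := ih h
    refine ⟨t - π.em K σ (r σ) * t', ?_⟩
    rw [AddSubgroupClass.coe_sub, MulMemClass.coe_mul, ht, ht', Finset.mul_sum,
      ← Finset.sum_sub_distrib]
    refine Finset.sum_congr rfl fun σ' _ => ?_
    rw [Finset.prod_insert hσ, MulMemClass.coe_mul, AddSubgroupClass.coe_sub, map_mul]
    show _ = (σ'.1 (r σ) - _) * _ * _
    ring

/-- the difference of the two conjugates is divisible by that of `ρ` -/
theorem CE2_div (G : WS R K n) (hm : G.ω.m = 1) (π : Proj R n) (x : Pt R)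
    (hρ : G.ρ π.y ∈ x.m) (x' : Pt (π.Rt K)) {σ₁ σ₂ : π.Emb K}
    (hne : σ₁ ≠ σ₂) (h : π.EmbAt K x x' = {σ₁, σ₂}) : ∃ u : π.Rt K, u ∉ x'.m ∧ ∀ f : R,
      ∃ v : π.Rt K, u * (π.em K σ₁ f - π.em K σ₂ f) =
        (π.em K σ₁ (G.ρ π.y) - π.em K σ₂ (G.ρ π.y)) * v := by
  classical
  have := (π.emb_finite (K := K)).fintype
  have h1 : σ₁ ∈ π.EmbAt K x x' := by rw [h]; exact Or.inl rfl
  have h2 : σ₂ ∈ π.EmbAt K x x' := by rw [h]; exact Or.inr rfl
  have h3 (σ : π.Emb K) : ∃ r : R, σ ≠ σ₁ → σ ≠ σ₂ → x r - x' (π.em K σ r) ≠ 0 := by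
    by_cases hσ : σ ∈ π.EmbAt K x x'
    · rw [h] at hσ
      exact ⟨0, fun a b => (hσ.elim a b).elim⟩
    · obtain ⟨r, hr⟩ := not_forall.1 hσ
      exact ⟨r, fun _ _ => sub_ne_zero.2 (Ne.symm hr)⟩
  choose r hr using h3
  let T : Finset (π.Emb K) := Finset.univ.filter fun σ => σ ≠ σ₁ ∧ σ ≠ σ₂
  let c (σ' : π.Emb K) : π.Rt K := ∏ σ ∈ T, (π.em K σ' (r σ) - π.em K σ (r σ))
  have hc (σ' : π.Emb K) (hσ : σ' ∈ π.EmbAt K x x') :
      x' (c σ') = ∏ σ ∈ T, (x (r σ) - x' (π.em K σ (r σ))) := by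
    rw [map_prod]
    exact Finset.prod_congr rfl fun σ _ => by rw [map_sub, hσ]
  have hc0 : ∏ σ ∈ T, (x (r σ) - x' (π.em K σ (r σ))) ≠ 0 :=
    Finset.prod_ne_zero_iff.2 fun σ hσ =>
      hr σ (Finset.mem_filter.1 hσ).2.1 (Finset.mem_filter.1 hσ).2.2
  have ht (f : R) : ∃ t : π.Rt K, (t : Cl K) =
      c σ₁ * (σ₁.1 f / σ₁.1 (G.ρ π.y)) + c σ₂ * (σ₂.1 f / σ₂.1 (G.ρ π.y)) := by
    obtain ⟨t, ht⟩ := CE2_trace G hm π r T f
    refine ⟨t, ht.trans (Fintype.sum_eq_add σ₁ σ₂ hne fun σ hσ => ?_)⟩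
    rw [Finset.prod_eq_zero (i := σ) (Finset.mem_filter.2 ⟨Finset.mem_univ _, hσ⟩) (sub_self _),
      ZeroMemClass.coe_zero, zero_mul]
  obtain ⟨α, hα⟩ := ht 1
  refine ⟨c σ₁ + c σ₂ - α * π.em K σ₂ (G.ρ π.y), ?_, fun f => ?_⟩
  · rw [Pt.mem_m, map_sub, map_add, map_mul, h2, Pt.mem_m.1 hρ, mul_zero, sub_zero, hc _ h1,
      hc _ h2, ← two_mul]
    exact mul_ne_zero two_ne_zero hc0
  · obtain ⟨t, ht⟩ := ht f
    refine ⟨t - α * π.em K σ₂ f, Subtype.ext ?_⟩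
    have e1 : σ₁.1 (G.ρ π.y) ≠ 0 := (map_ne_zero_iff _ (π.emb_inj σ₁.2)).2 (G.ρ_ne π)
    have e2 : σ₂.1 (G.ρ π.y) ≠ 0 := (map_ne_zero_iff _ (π.emb_inj σ₂.2)).2 (G.ρ_ne π)
    show ((c σ₁ : Cl K) + c σ₂ - α * σ₂.1 (G.ρ π.y)) * (σ₁.1 f - σ₂.1 f) =
      (σ₁.1 (G.ρ π.y) - σ₂.1 (G.ρ π.y)) * (t - α * σ₂.1 f)
    rw [hα, ht, map_one, map_one]
    field_simp
    ring

/-- the decomposition group permutes the two embeddings -/
theorem CE2_perm (π : Proj R n) (x : Pt R) (x' : Pt (π.Rt K)) {σ₁ σ₂ : π.Emb K}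
    (hne : σ₁ ≠ σ₂) (h : π.EmbAt K x x' = {σ₁, σ₂}) (g : π.Rt K ≃ₐ[ℂ] π.Rt K)
    (hg : ∀ σ i, g (π.em K σ (π.y i)) = π.em K σ (π.y i)) (hx : ∀ b, x' (g b) = x' b) :
    (∀ r, g (π.em K σ₁ r) = π.em K σ₁ r ∧ g (π.em K σ₂ r) = π.em K σ₂ r) ∨
      ∀ r, g (π.em K σ₁ r) = π.em K σ₂ r ∧ g (π.em K σ₂ r) = π.em K σ₁ r := by
  have h0 (σ : π.Emb K) (hσ : σ ∈ π.EmbAt K x x') :
      (∀ r, g (π.em K σ r) = π.em K σ₁ r) ∨ ∀ r, g (π.em K σ r) = π.em K σ₂ r := by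
    have h1 : CE2_act π g.toAlgHom hg σ ∈ π.EmbAt K x x' := fun r => (hx _).trans (hσ r)
    rw [h] at h1
    have h2 (τ : π.Emb K) (e : CE2_act π g.toAlgHom hg σ = τ) (r : R) :
        g (π.em K σ r) = π.em K τ r := by
      rw [← e]
      rfl
    exact h1.imp (h2 σ₁) (h2 σ₂)
  have hn (τ : π.Emb K) (a : ∀ r, g (π.em K σ₁ r) = π.em K τ r)
      (b : ∀ r, g (π.em K σ₂ r) = π.em K τ r) : False :=
    hne (Subtype.ext (AlgHom.ext fun r =>
      congrArg Subtype.val (g.injective ((a r).trans (b r).symm))))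
  rcases h0 σ₁ (by rw [h]; exact Or.inl rfl) with a | a <;>
    rcases h0 σ₂ (by rw [h]; exact Or.inr rfl) with b | b
  · exact (hn _ a b).elim
  · exact Or.inl fun r => ⟨a r, b r⟩
  · exact Or.inr fun r => ⟨a r, b r⟩
  · exact (hn _ a b).elim

/-- local degree two -/
theorem len2_of_two (G : WS R K n) (hm : G.ω.m = 1) (π : Proj R n) (x : Pt R)
    (hy : ∀ i, π.y i ∈ x.m) (hρ : G.ρ π.y ∈ x.m) (x' : Pt (π.Rt K)) {σ₁ σ₂ : π.Emb K}
    (hne : σ₁ ≠ σ₂) (h : π.EmbAt K x x' = {σ₁, σ₂}) : Len2 π x.m := by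
  have h1 : σ₁ ∈ π.EmbAt K x x' := by rw [h]; exact Or.inl rfl
  have h2 : σ₂ ∈ π.EmbAt K x x' := by rw [h]; exact Or.inr rfl
  obtain ⟨N, hN, hb⟩ := CE2_back π x x' h1 3
  obtain ⟨u, hu, hv⟩ := CE2_div G hm π x hρ x' hne h
  have hp := CE2_perm π x x' hne h
  have hq := CE2_poly π x' σ₁ N
  set ρ := G.ρ π.y
  have hδ : π.em K σ₁ ρ - π.em K σ₂ ρ ≠ 0 := fun e => hne (Subtype.ext (AlgHom.ext fun f => by
    obtain ⟨v, hv⟩ := hv f
    rw [e, zero_mul, mul_eq_zero, sub_eq_zero] at hv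
    exact congrArg Subtype.val (hv.resolve_left fun e => hu (e ▸ x'.m.zero_mem))))
  have hQ : x'.m ^ N ≤ x'.m := Ideal.pow_le_self hN.ne'
  have hmem {P : MvPolynomial (Fin n) ℂ} {s : π.Rt K} (hs : s ∈ x'.m)
      (e : s - π.em K σ₁ (MvPolynomial.aeval π.y P) ∈ x'.m ^ N) :
      MvPolynomial.aeval π.y P ∈ Ideal.span (Set.range π.y) := by
    refine CE2_mem π x hy ?_
    have := x'.m.sub_mem hs (hQ e)
    rw [sub_sub_cancel] at this
    rw [Pt.mem_m, ← h1]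
    exact this
  refine ⟨ρ, hρ, fun f hf => ?_, ?_⟩
  · obtain ⟨v, hv⟩ := hv f
    obtain ⟨u', hu'⟩ : ∃ u', u' * u - 1 ∈ x'.m ^ N := by
      obtain ⟨a, w, hw, e⟩ := Ideal.IsMaximal.exists_inv_pow x'.m hu N
      exact ⟨a, by rw [show a * u - 1 = -w by rw [← e]; ring]; exact neg_mem hw⟩
    obtain ⟨P₁, hP₁⟩ := hq (u' * v) fun g hg hx => by
      have e1 : g u * v = u * g v := by
        have e2 := congrArg g hv
        simp only [map_mul, map_sub] at e2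
        refine mul_left_cancel₀ hδ ?_
        rcases hp g hg hx with a | a <;> rw [(a f).1, (a f).2, (a ρ).1, (a ρ).2] at e2
        · linear_combination u * e2 - g u * hv
        · linear_combination -u * e2 - g u * hv
      have e3 : g u' * g u - 1 ∈ x'.m ^ N := by
        have e4 : x'.m ≤ x'.m.comap g := fun b hb => (hx b).trans hb
        have e5 : g (u' * u - 1) ∈ x'.m ^ N :=
          Ideal.le_comap_pow g N (Ideal.pow_right_mono e4 N hu')
        rwa [map_sub, map_mul, map_one] at e5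
      rw [show g (u' * v) - u' * v = u' * v * (g u' * g u - 1) - g u' * g v * (u' * u - 1) by
        rw [map_mul]; linear_combination -g u' * u' * e1]
      exact sub_mem (Ideal.mul_mem_left _ _ e3) (Ideal.mul_mem_left _ _ hu')
    have hk : π.em K σ₂ (f - MvPolynomial.aeval π.y P₁ * ρ) -
        π.em K σ₁ (f - MvPolynomial.aeval π.y P₁ * ρ) ∈ x'.m ^ N := by
      rw [map_sub, map_sub, map_mul, map_mul, π.em_y σ₂ σ₁]
      have e := sub_mem (Ideal.mul_mem_left _ (π.em K σ₁ f - π.em K σ₂ f) hu')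
        (Ideal.mul_mem_left _ (π.em K σ₁ ρ - π.em K σ₂ ρ) hP₁)
      convert e using 1
      linear_combination -u' * hv
    obtain ⟨P₀, hP₀⟩ := hq (π.em K σ₁ (f - MvPolynomial.aeval π.y P₁ * ρ)) fun g hg hx => by
      rcases hp g hg hx with a | a <;> rw [(a _).1]
      · rw [sub_self]
        exact Ideal.zero_mem _
      · exact hk
    have h4 := hmem (by
      rw [Pt.mem_m, h1]
      exact x.m.sub_mem hf (x.m.mul_mem_left _ hρ)) hP₀
    rw [← map_sub] at hP₀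
    have h5 := Ideal.pow_le_pow_right (by norm_num : 2 ≤ 3) (hb _ hP₀)
    rw [show f = MvPolynomial.aeval π.y P₁ * ρ + MvPolynomial.aeval π.y P₀ +
      (f - MvPolynomial.aeval π.y P₁ * ρ - MvPolynomial.aeval π.y P₀) by ring]
    exact Submodule.add_mem_sup (Ideal.add_mem _
      (Ideal.mul_mem_left _ _ (Ideal.subset_span (Set.mem_insert _ _)))
      (Ideal.span_mono (Set.subset_insert _ _) h4)) h5
  · have r1 : π.em K σ₁ ρ ∈ x'.m := (h1 ρ).trans hρ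
    have r2 : π.em K σ₂ ρ ∈ x'.m := (h2 ρ).trans hρ
    obtain ⟨P₁, hP₁⟩ := hq (π.em K σ₁ ρ + π.em K σ₂ ρ) fun g hg hx => by
      rw [map_add]
      rcases hp g hg hx with a | a <;> rw [(a _).1, (a _).2]
      · rw [sub_self]
        exact Ideal.zero_mem _
      · rw [add_comm, sub_self]
        exact Ideal.zero_mem _
    obtain ⟨P₀, hP₀⟩ := hq (π.em K σ₁ ρ * π.em K σ₂ ρ) fun g hg hx => by
      rw [map_mul]
      rcases hp g hg hx with a | a <;> rw [(a _).1, (a _).2]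
      · rw [sub_self]
        exact Ideal.zero_mem _
      · rw [mul_comm, sub_self]
        exact Ideal.zero_mem _
    have h5 := hb (ρ ^ 2 - MvPolynomial.aeval π.y P₁ * ρ + MvPolynomial.aeval π.y P₀) (by
      rw [map_add, map_sub, map_mul, map_pow]
      convert sub_mem (Ideal.mul_mem_right (π.em K σ₁ ρ) _ hP₁) hP₀ using 1
      ring)
    rw [show ρ ^ 2 = MvPolynomial.aeval π.y P₁ * ρ - MvPolynomial.aeval π.y P₀ +
      (ρ ^ 2 - MvPolynomial.aeval π.y P₁ * ρ + MvPolynomial.aeval π.y P₀) by ring]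
    exact Submodule.add_mem_sup (Ideal.sub_mem _
      (Ideal.mul_mem_right _ _ (hmem (x'.m.add_mem r1 r2) hP₁))
      (hmem (x'.m.mul_mem_left _ r2) hP₀)) h5

end Vale.Agent.P282
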