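import Vale.Agent.P282.CTl
import Vale.Agent.P282.QMg
import Vale.Agent.P282.UArc
import Vale.Agent.P282.ANum
import Vale.Agent.P282.CSig_a

open scoped ENNReal TensorProduct Topology
open Filter MeasureTheory

noncomputable section

namespace Vale.Agent.P282

section

variable {R : Type} [CommRing R] [Algebra ℂ R] {k : ℕ}

/-- the weighted arc -/
def CSig_W (a : Arc R) (k : ℕ) (z : R) : WArc R (k + 2) where
  toArc := a
  B := 1
  B_det := by simp
  c := 0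
  w := Fin.cons 2 (Fin.cons 2 fun _ => 1)
  w_pos := Fin.cases two_pos (Fin.cases two_pos fun _ => one_pos)
  l := 2
  Z := ![1, 1 ⊗ₜ z]
  g := 2
  der := false
  ξ := a.ev.toLinearMap

theorem CSig_s (a : Arc R) (z : R) (π : Proj R (k + 2)) (j : Fin (k + 2)) :
    (CSig_W a k z).s π j = a.yq (π.y j) := by
  have h : ∀ j, (CSig_W a k z).lin π j = a.yq (π.y j) := by
    intro j
    simp [WArc.lin, CSig_W, Matrix.one_apply]
  unfold WArc.s
  split_ifs with e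
  · rw [h, e]
  · rw [h, show (CSig_W a k z).c j = 0 from rfl, zero_smul, add_zero]

theorem CSig_good {K : Type} [Field K] [Algebra R K] [Algebra ℂ K] (G : WS R K (k + 2))
    (hm : G.ω.m = 1) (π : Proj R (k + 2)) (a : Arc R) {q : Ideal R} (hq : ∀ r ∈ q, a.hom r = 0)
    {y : Fin 2 → R} (hy : ∀ i, y i = π.y (Fin.castLE (Nat.le_add_left 2 k) i))
    (hyq : ∀ i, y i ∈ q) (hρ : G.ρ π.y ∈ q) {z s : R} (hs : a.hom s ≠ 0)
    (h1 : ∀ r ∈ q, s * r ∈ Ideal.span (insert z (Set.range y)))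
    (h2 : s * z ^ 2 ∈ Ideal.span (Set.range y) * q)
    (hA : ∀ (N : ℕ) x, x - algebraMap MK (RK R) (a.ev x) ∈
      (Ideal.span (Set.range fun i : Fin k => a.yq (π.y i.succ.succ)) ⊔ a.m ^ N) ⊔
        q.map (Algebra.TensorProduct.includeRight : R →ₐ[ℂ] RK R)) :
    (CSig_W a k z).Good π G (k + 2 : ℕ) := by
  set W := CSig_W a k z with hW
  set ι : R →ₐ[ℂ] RK R := Algebra.TensorProduct.includeRight with hι
  set I := Ideal.span (Set.range (W.s π)) with hI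
  set Y := (Ideal.span (Set.range y)).map ι with hY
  have hs' : ι s ∉ a.m := fun h => hs (by
    have : a.ev (1 ⊗ₜ s) = 0 := h
    rwa [Arc.ev_tmul, one_mul] at this)
  have e1 : ∀ i, ι (y i) = W.s π (Fin.castLE (Nat.le_add_left 2 k) i) := by
    intro i
    rw [CSig_s, ← hy, Arc.yq, hq _ (hyq i), TensorProduct.zero_tmul, sub_zero]
    rfl
  have hYle : ∀ J : Ideal (RK R), (∀ i, ι (y i) ∈ J) → Y ≤ J := by
    intro J hJ
    rw [hY, Ideal.map_span, Ideal.span_le]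
    rintro _ ⟨_, ⟨i, rfl⟩, rfl⟩
    exact hJ i
  have hYI : Y ≤ I := hYle _ fun i => by
    rw [e1]
    exact Ideal.subset_span ⟨_, rfl⟩
  have hY2 : Y ≤ W.lev π 2 := hYle _ fun i => by
    rw [e1]
    refine CSig_s_mem W π _ ?_
    fin_cases i
    · exact le_rfl
    · exact le_rfl
  have hSQ : Ideal.span {ι s} * q.map ι ≤ Ideal.span {ι z} ⊔ Y := by
    rw [← Set.image_singleton, ← Ideal.map_span, ← Ideal.map_mul, ← Set.image_singleton,
      ← Ideal.map_span, hY, ← Ideal.map_sup, ← Ideal.span_insert]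
    refine Ideal.map_mono (Ideal.span_singleton_mul_le_iff.2 fun r hr => h1 r hr)
  have hZ : ι s * ι z ^ 2 ∈ Y * q.map ι := by
    rw [← map_pow, ← map_mul, hY, ← Ideal.map_mul]
    exact Ideal.mem_map_of_mem _ h2
  have hle : Ideal.span (Set.range fun i : Fin k => a.yq (π.y i.succ.succ)) ≤ I := by
    refine Ideal.span_mono ?_
    rintro _ ⟨i, rfl⟩
    exact ⟨_, CSig_s a z π _⟩
  have key := CSig_col a.ev a.m_max (I := I) (Q := q.map ι) (Z := ι z) hs'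
    (fun N x => sup_le_sup_right (sup_le_sup_right hle _) _ (hA N x))
    (hSQ.trans (sup_le_sup_left hYI _)) (hYI (Ideal.mul_le_left hZ))
  have l1 : a.m ^ 2 ≤ W.lev π 1 := CSig_lev_one W π fun N => (key N).2
  have l2 : a.m ^ 4 ≤ W.lev π 2 := by
    rw [show 4 = 2 + 2 from rfl, pow_add]
    exact (Ideal.mul_mono l1 l1).trans (CSig_lev_mul W π 1 1)
  have l4 : a.m ^ 8 ≤ W.lev π 4 := by
    rw [show 8 = 4 + 4 from rfl, pow_add]
    exact (Ideal.mul_mono l2 l2).trans (CSig_lev_mul W π 2 2)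
  have hIC : W.IC π (ι z) 2 := by
    have h3 : ι s * (ι s * ι z ^ 2) ∈ Y * Ideal.span {ι z} ⊔ Y * Y := by
      rw [← Ideal.mul_sup]
      refine Ideal.mul_mono_right hSQ ?_
      rw [mul_left_comm]
      exact Ideal.mul_mem_mul (Ideal.mem_span_singleton_self _) hZ
    obtain ⟨u, hu, β, hβ, e⟩ := Submodule.mem_sup.1 h3
    obtain ⟨α, hα, rfl⟩ := Ideal.mem_mul_span_singleton.1 hu
    obtain ⟨U, hU⟩ := CSig_inv a.m_max (S := ι s * ι s)
      (fun h => (a.m_max.isPrime.mem_or_mem h).elim hs' hs') 8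
    refine CSig_IC_two W π (b := U * α) (c := U * β - (U * (ι s * ι s) - 1) * ι z ^ 2)
      (Ideal.mul_mem_left _ _ (hY2 hα)) (Ideal.sub_mem _ (Ideal.mul_mem_left _ _
        (CSig_lev_mul W π 2 2 (Ideal.mul_mono hY2 hY2 hβ))) (Ideal.mul_mem_right _ _ (l4 hU))) ?_
    linear_combination (-U) * e
  refine ⟨fun N x => ?_, ?_, fun _ _ => rfl, fun h => absurd h Bool.false_ne_true, ?_⟩
  · obtain ⟨b, c, h⟩ := (key N).1 x
    refine ⟨![b, c], ?_⟩
    have e : ∑ i : Fin 2, (![b, c] : Fin 2 → MK) i • (![1, 1 ⊗ₜ z] : Fin 2 → RK R) i =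
        b • 1 + c • ι z := Fin.sum_univ_two _
    rw [← e] at h
    exact h
  · rw [hm, one_mul]
    have h4 : W.lev π 2 ≤ Ideal.span {x | W.IC π x 2} := fun x hx =>
      Ideal.subset_span (CSig_IC_of_mem W π hx)
    refine CSig_cancel a.m_max hs' (l2.trans h4) ?_
    refine (sup_le ?_ (hY2.trans h4) : Ideal.span {ι z} ⊔ Y ≤ _) (hSQ (Ideal.mul_mem_mul
      (Ideal.mem_span_singleton_self _) (Ideal.mem_map_of_mem ι hρ)))
    exact Ideal.span_mono (Set.singleton_subset_iff.2 hIC)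
  · simp only [hW, CSig_W, WArc.mu, Fin.sum_univ_succ, Fin.cons_zero, Fin.cons_succ]
    simp
    linarith

end

variable {R K : Type} [CommRing R] [IsDomain R] [Algebra ℂ R] [Algebra.FiniteType ℂ R]
  [IsIntegrallyClosed R] [Field K] [Algebra R K] [IsFractionRing R K] [Algebra ℂ K]
  [IsScalarTower ℂ R K] {n : ℕ}

omit [IsDomain R] [IsIntegrallyClosed R] in
theorem CSig_proj {k : ℕ} (π : Proj R (k + 2)) (q : Ideal R) [q.IsPrime] (h0 : π.y 0 ∈ q)
    (h1 : π.y 1 ∈ q) (hd : Algebra.trdeg ℂ (R ⧸ q) = k) :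
    ∃ π' : Proj (R ⧸ q) k, ∀ i, π'.y i = Ideal.Quotient.mk q (π.y i.succ.succ) := by
  let y : Fin k → R ⧸ q := fun i => Ideal.Quotient.mk q (π.y i.succ.succ)
  let φ : MvPolynomial (Fin (k + 2)) ℂ →ₐ[ℂ] MvPolynomial (Fin k) ℂ :=
    MvPolynomial.aeval (Fin.cons 0 (Fin.cons 0 MvPolynomial.X))
  have e : (MvPolynomial.aeval y).comp φ =
      (Ideal.Quotient.mkₐ ℂ q).comp (MvPolynomial.aeval π.y) := by
    refine MvPolynomial.algHom_ext (Fin.cases ?_ (Fin.cases ?_ fun i => ?_))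
    · simpa [φ] using (Ideal.Quotient.eq_zero_iff_mem.2 h0).symm
    · simpa [φ] using (Ideal.Quotient.eq_zero_iff_mem.2 h1).symm
    · simp [φ, y]
  have hf : (MvPolynomial.aeval y : MvPolynomial (Fin k) ℂ →ₐ[ℂ] R ⧸ q).Finite := by
    refine AlgHom.Finite.of_comp_finite (f := φ) ?_
    rw [e]
    exact (AlgHom.Finite.of_surjective _ (Ideal.Quotient.mkₐ_surjective ℂ q)).comp π.fin
  exact ⟨⟨y, ind_of_fin hd y hf, hf⟩, fun _ => rfl⟩

/-- singularities in codimension two -/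
theorem sig_case (G : WS R K n) (hm : G.ω.m = 1) (hn : 3 ≤ n) (x : Pt R) (q : Ideal R)
    [q.IsPrime] (hq : q ≤ x.m) (hd : Algebra.trdeg ℂ (R ⧸ q) = (n - 2 : ℕ)) (h : ¬ LocGen q 2) :
    Strict G.ω x.m := by
  obtain ⟨k, rfl⟩ : ∃ k, n = k + 2 := ⟨n - 2, by omega⟩
  obtain ⟨π, hy, hr, hc⟩ := exists_red_adapted K (trdeg_eq G.ω R) x q hq two_pos
    (Nat.le_add_left 2 k) hd
  obtain ⟨hρ, z, -, s, hs, h1, h2⟩ := (tl G hm _ π q hr hc).resolve_left h
  obtain ⟨π', hπ'⟩ := CSig_proj π q (hr.1 0) (hr.1 1) hd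
  obtain ⟨θ, P, δ, he, hδ⟩ := exists_etW π'
  obtain ⟨δ, rfl⟩ := Ideal.Quotient.mk_surjective δ
  obtain ⟨a, ha0, ha1, ha2⟩ := exists_arc x q hq (g := s * δ) fun hh =>
    (Ideal.IsPrime.mem_or_mem ‹_› hh).elim hs fun h' => hδ (Ideal.Quotient.eq_zero_iff_mem.2 h')
  rw [map_mul] at ha2
  have hG := CSig_good G hm π a ha1 (fun _ => rfl) hr.1 hρ (left_ne_zero_of_mul ha2) h1 h2
    (CSig_et a q (fun r hr => ha0 ▸ hq hr) ha1 hπ' he (right_ne_zero_of_mul ha2))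
  have hv : ∀ u : R, (∑ _i : Fin 1, (1 : MK) * (CSig_W a k z).ξ (1 ⊗ₜ u)).HasVal (a.γ 0 u) := by
    intro u
    have : (CSig_W a k z).ξ (1 ⊗ₜ u) = a.hom u := (a.ev_tmul 1 u).trans (one_mul _)
    rw [Fin.sum_univ_one, one_mul, this]
    exact a.hom_val u
  obtain ⟨w, τ, hτ, hw, -, hA, hV⟩ := mg G π x (fun _ : Fin 1 => CSig_W a k z) (fun _ => ha0)
    (Nat.cast_nonneg _) (fun _ => hG) (fun _ => 1) (fun u => ⟨_, hv u⟩) (f := 1)
    (by rw [map_one]; exact one_ne_zero) (hv 1)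
  rw [map_one, w.v_one, sub_zero] at hA
  have e : (∑ _i : Fin 1, ((CSig_W a k z).l : ℝ) / ∏ j, ((CSig_W a k z).w j : ℝ)) = 1 / 2 := by
    simp only [CSig_W, Fin.prod_univ_succ, Fin.cons_zero, Fin.cons_succ]
    norm_num
  rw [e] at hV
  have hm0 : x.m ≠ ⊥ := fun e0 => π.ind.ne_zero 0 (Ideal.mem_bot.1 (e0 ▸ hy 0))
  obtain ⟨-, b1, b2⟩ := nv_le G x.m hm0 hw hτ (by norm_num) hA hV
  refine ⟨w, hw, b1, b2.trans_lt ?_⟩
  have h3 := num_half hn
  have h4 : (0 : ℝ) ≤ ((k + 2 : ℕ) : ℝ) ^ (k + 2) := by positivity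
  rw [bd_eq (by omega), ENNReal.ofReal_lt_ofReal_iff (by linarith)]
  linarith

end Vale.Agent.P282
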