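import Vale.Agent.P282.CDp
import Vale.Agent.P282.CE2
import Vale.Agent.P282.CSig
import Vale.Agent.P282.CAbc

set_option linter.unusedSectionVars false

open scoped ENNReal TensorProduct Topology
open Filter MeasureTheory

noncomputable section

namespace Vale.Agent.P282

variable {R K : Type} [CommRing R] [IsDomain R] [Algebra ℂ R] [Algebra.FiniteType ℂ R]
  [IsIntegrallyClosed R] [Field K] [Algebra R K] [IsFractionRing R K] [Algebra ℂ K]
  [IsScalarTower ℂ R K] {n : ℕ}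

theorem CGt_unit (x : Pt R) (I J : Ideal R) {r s : R} (hs : s ∉ x.m) (h : s * r ∈ I)
    (hr : r ∈ J) : r ∈ I ⊔ x.m * J := by
  have hc : x s ≠ 0 := fun h0 => hs (Pt.mem_m.2 h0)
  have hm : s - algebraMap ℂ R (x s) ∈ x.m := by
    rw [Pt.mem_m, map_sub, AlgHomClass.commutes]
    simp
  have h1 : s * r - (s - algebraMap ℂ R (x s)) * r ∈ I ⊔ x.m * J :=
    Ideal.sub_mem _ (Ideal.mem_sup_left h) (Ideal.mem_sup_right (Ideal.mul_mem_mul hm hr))
  have h2 : algebraMap ℂ R (x s)⁻¹ * algebraMap ℂ R (x s) = 1 := by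
    rw [← map_mul, inv_mul_cancel₀ hc, map_one]
  have h3 : r = algebraMap ℂ R (x s)⁻¹ * (s * r - (s - algebraMap ℂ R (x s)) * r) := by
    linear_combination (-r) * h2
  rw [h3]
  exact Ideal.mul_mem_left _ _ h1

theorem CGt_two (G : WS R K 2) (hm : G.ω.m = 1) (x : Pt R)
    (hs : ¬ IsRegularLocalRing (Localization.AtPrime x.m)) : DP 2 x.m ∨ Strict G.ω x.m := by
  have htd : Algebra.trdeg ℂ R = (2 : ℕ) := trdeg_eq G.ω R
  have hd : Algebra.trdeg ℂ (R ⧸ x.m) = ((2 - 2 : ℕ) : Cardinal) := by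
    rw [td_pt x]; simp
  obtain ⟨π, hy, hr, hq⟩ := exists_red_adapted K htd x x.m le_rfl (k := 2) (by norm_num) le_rfl hd
  have he : (fun i : Fin 2 => π.y (Fin.castLE (le_refl 2) i)) = π.y := by
    funext i; rfl
  rcases tl G hm le_rfl π x.m hr hq with ⟨g, hg, hgen⟩ | ⟨-, z, hz, s, hs', h1, h2⟩
  · refine absurd (regular_of_gen π x g hg fun r hr => ?_) hs
    obtain ⟨s, hs1, hs2⟩ := hgen r hr
    rw [pow_two]
    exact CGt_unit x _ _ hs1 hs2 hr
  · rw [he] at hr h1 h2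
    refine dp_case G le_rfl π x hr hs ⟨z, hz, fun r hr => ?_, ?_⟩
    · rw [pow_two]
      exact CGt_unit x _ _ hs' (h1 r hr) hr
    · have h3 : x.m ^ 3 = x.m * x.m ^ 2 := pow_succ' _ _
      rw [h3]
      have h4 : Ideal.span (Set.range π.y) * x.m ≤ Ideal.span (Set.range π.y) := Ideal.mul_le_left
      exact CGt_unit x _ _ hs' (h4 h2) (Ideal.pow_mem_pow hz 2)

theorem CGt_three (G : WS R K n) (hm : G.ω.m = 1) (hn : 3 ≤ n) (x : Pt R)
    (hs : ¬ IsRegularLocalRing (Localization.AtPrime x.m)) : DP n x.m ∨ Strict G.ω x.m := by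
  classical
  by_cases h : ∀ q : Ideal R, q.IsPrime → q ≤ x.m → Algebra.trdeg ℂ (R ⧸ q) = (n - 2 : ℕ) →
      LocGen q 2
  swap
  · push Not at h
    obtain ⟨q, hq, hle, hd, hl⟩ := h
    exact Or.inr (sig_case G hm hn x q hle hd hl)
  have hn2 : 2 ≤ n := by omega
  obtain ⟨π, hy⟩ := exists_red K (n := n) (by omega) (trdeg_eq G.ω R) x
  have hρ := (ineq G hn2 π x hy hs).1
  obtain ⟨x', h1⟩ := π.exists_pt_over (K := K) x
  obtain ⟨σ₂, h2, hne⟩ := two_emb π x hs x' _ h1
  set σ₁ : π.Emb K := ⟨io K, π.io_mem⟩ with hσ₁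
  by_cases h3 : ∃ σ₃ ∈ π.EmbAt K x x', σ₃ ≠ σ₁ ∧ σ₃ ≠ σ₂
  · obtain ⟨σ₃, h3, h31, h32⟩ := h3
    refine Or.inr (abc_case G hn π x hy hρ x' ![σ₁, σ₂, σ₃] ?_ ?_ h)
    · intro i j hij
      fin_cases i <;> fin_cases j <;> first
        | rfl
        | exact absurd hij hne
        | exact absurd hij hne.symm
        | exact absurd hij h31
        | exact absurd hij h31.symm
        | exact absurd hij h32
        | exact absurd hij h32.symm
    · intro i
      fin_cases i
      · exact h1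
      · exact h2
      · exact h3
  · refine dp_case G hn2 π x hy hs (len2_of_two G hm π x hy.1 hρ x' hne.symm ?_)
    ext σ
    constructor
    · intro hσ
      by_contra hc
      exact h3 ⟨σ, hσ, fun e => hc (Or.inl e), fun e => hc (Or.inr e)⟩
    · rintro (rfl | rfl)
      · exact h1
      · exact h2

/-- the Gorenstein case -/
theorem gt (G : WS R K n) (hm : G.ω.m = 1) (hn : 2 ≤ n) (x : Pt R)
    (hs : ¬ IsRegularLocalRing (Localization.AtPrime x.m)) : DP n x.m ∨ Strict G.ω x.m := by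
  rcases hn.eq_or_lt with h | h
  · subst h
    exact CGt_two G hm x hs
  · exact CGt_three G hm h x hs

end Vale.Agent.P282
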