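import Vale.Agent.P282.COdp_a

/-! Complete local rings whose tangent cone is a nondegenerate quadric. -/

open IsLocalRing

noncomputable section

namespace Vale.Agent.P282

open Vale.Agent.P202 Vale.Agent.P202.Co2

section Morse

variable {B : Type} [CommRing B] [IsLocalRing B] [IsNoetherianRing B] {ι : Type} [Fintype ι]

omit [Fintype ι] in
theorem COdp_nak (z : ι → B) (hz : ∀ i, z i ∈ maximalIdeal B)
    (h : maximalIdeal B ≤ Ideal.span (Set.range z) ⊔ maximalIdeal B ^ 2) :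
    Ideal.span (Set.range z) = maximalIdeal B := by
  refine le_antisymm (Ideal.span_le.2 (Set.range_subset_iff.2 hz)) ?_
  refine Submodule.le_of_le_smul_of_le_jacobson_bot (I := maximalIdeal B)
    (maximalIdeal B).fg_of_isNoetherianRing (maximalIdeal_le_jacobson _) ?_
  rwa [smul_eq_mul, ← sq]

omit [Fintype ι] in
theorem COdp_nak' (z z' : ι → B) (hz : Ideal.span (Set.range z) = maximalIdeal B)
    (h : ∀ i, z' i - z i ∈ maximalIdeal B ^ 2) :
    Ideal.span (Set.range z') = maximalIdeal B := by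
  have hzi : ∀ i, z i ∈ maximalIdeal B := fun i => hz ▸ Ideal.subset_span (Set.mem_range_self i)
  refine COdp_nak z' (fun i => ?_) ?_
  · have := add_mem (Ideal.pow_le_self two_ne_zero (h i)) (hzi i)
    rwa [sub_add_cancel] at this
  · refine hz.ge.trans (Ideal.span_le.2 (Set.range_subset_iff.2 fun i => ?_))
    have := sub_mem (Ideal.mem_sup_left (T := maximalIdeal B ^ 2)
      (Ideal.subset_span (Set.mem_range_self (f := z') i))) (Ideal.mem_sup_right (h i))
    rwa [sub_sub_cancel] at this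

theorem COdp_step (t : B) (ht : t * 2 = 1) (k : ℕ) (z : ι → B)
    (hz : Ideal.span (Set.range z) = maximalIdeal B) (h : ∑ i, z i ^ 2 ∈ maximalIdeal B ^ (k + 3)) :
    ∃ z' : ι → B, (Ideal.span (Set.range z') = maximalIdeal B ∧
      ∑ i, z' i ^ 2 ∈ maximalIdeal B ^ (k + 1 + 3)) ∧ ∀ i, z' i - z i ∈ maximalIdeal B ^ (k + 2) := by
  have h1 : ∑ i, z i ^ 2 ∈ (maximalIdeal B ^ (k + 2)) • Submodule.span B (Set.range z) := by
    have : Submodule.span B (Set.range z) = maximalIdeal B := hz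
    rw [this, smul_eq_mul, ← pow_succ]
    exact h
  obtain ⟨a, ha, e⟩ := (Submodule.mem_ideal_smul_span_iff_exists_sum _ _ _).1 h1
  rw [Finsupp.sum_fintype _ _ (by simp)] at e
  have hd : ∀ i, (z i - t * a i) - z i ∈ maximalIdeal B ^ (k + 2) := fun i => by
    rw [sub_sub_cancel_left]
    exact neg_mem (Ideal.mul_mem_left _ _ (ha i))
  refine ⟨fun i => z i - t * a i, ⟨COdp_nak' z _ hz fun i =>
    Ideal.pow_le_pow_right (by omega) (hd i), ?_⟩, hd⟩
  have e2 : ∑ i, (z i - t * a i) ^ 2 = ∑ i, t ^ 2 * (a i * a i) := by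
    have : ∀ i, (z i - t * a i) ^ 2 = z i ^ 2 - a i • z i + t ^ 2 * (a i * a i) := fun i => by
      rw [smul_eq_mul]
      linear_combination (-(a i * z i)) * ht
    simp only [this, Finset.sum_add_distrib, Finset.sum_sub_distrib, e, sub_self, zero_add]
  rw [e2]
  refine Ideal.sum_mem _ fun i _ => Ideal.mul_mem_left _ _ ?_
  have := Ideal.mul_mem_mul (ha i) (ha i)
  rw [← pow_add] at this
  exact Ideal.pow_le_pow_right (by omega) this

theorem COdp_morse [IsAdicComplete (maximalIdeal B) B] (t : B) (ht : t * 2 = 1) (z : ι → B)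
    (hz : Ideal.span (Set.range z) = maximalIdeal B) (h : ∑ i, z i ^ 2 ∈ maximalIdeal B ^ 3) :
    ∃ y : ι → B, Ideal.span (Set.range y) = maximalIdeal B ∧ ∑ i, y i ^ 2 = 0 := by
  choose F hF1 hF2 using COdp_step (ι := ι) t ht
  let s : ∀ k : ℕ, {z : ι → B // Ideal.span (Set.range z) = maximalIdeal B ∧
      ∑ i, z i ^ 2 ∈ maximalIdeal B ^ (k + 3)} := fun k =>
    Nat.rec ⟨z, hz, h⟩ (fun k p => ⟨F k p.1 p.2.1 p.2.2, hF1 k p.1 p.2.1 p.2.2⟩) k
  have hs : ∀ k i, (s (k + 1)).1 i - (s k).1 i ∈ maximalIdeal B ^ (k + 2) :=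
    fun k i => hF2 k (s k).1 (s k).2.1 (s k).2.2 i
  have hc : ∀ i m n, m ≤ n → (s m).1 i - (s n).1 i ∈ maximalIdeal B ^ m := by
    intro i m n hmn
    induction n, hmn using Nat.le_induction with
    | base => simp
    | succ n hmn ih =>
      have := sub_mem ih (Ideal.pow_le_pow_right (show m ≤ n + 2 by omega) (hs n i))
      rwa [show (s m).1 i - (s n).1 i - ((s (n + 1)).1 i - (s n).1 i) =
        (s m).1 i - (s (n + 1)).1 i by ring] at this
  choose y hy using fun i => IsPrecomplete.prec' (I := maximalIdeal B) (fun k => (s k).1 i)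
    fun {m n} hmn => smodeq_iff.2 (hc i m n hmn)
  have hy' : ∀ k i, y i - (s k).1 i ∈ maximalIdeal B ^ k := fun k i => by
    have := neg_mem (smodeq_iff.1 (hy i k))
    rwa [neg_sub] at this
  refine ⟨y, COdp_nak' (s 2).1 y (s 2).2.1 (hy' 2), ?_⟩
  refine IsHausdorff.haus' (I := maximalIdeal B) _ fun k => smodeq_iff.2 ?_
  have e : ∑ i, y i ^ 2 - 0 = ∑ i, (y i + (s k).1 i) * (y i - (s k).1 i) + ∑ i, (s k).1 i ^ 2 := by
    rw [← Finset.sum_add_distrib, sub_zero]
    exact Finset.sum_congr rfl fun i _ => by ring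
  rw [e]
  exact add_mem (Ideal.sum_mem _ fun i _ => Ideal.mul_mem_left _ _ (hy' k i))
    (Ideal.pow_le_pow_right (by omega) (s k).2.2)

end Morse

open MvPowerSeries in
theorem COdp_complete {B : Type} [CommRing B] [IsLocalRing B] [IsNoetherianRing B] [Algebra ℂ B]
    [IsAdicComplete (maximalIdeal B) B] {n : ℕ} (hn : 2 ≤ n) (hd : ringKrullDim B = n)
    (hr : ∀ b : B, ∃ c : ℂ, b - algebraMap ℂ B c ∈ maximalIdeal B) (z : Fin (n + 1) → B)
    (hz : Ideal.span (Set.range z) = maximalIdeal B) (h : ∑ i, z i ^ 2 ∈ maximalIdeal B ^ 3) :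
    Nonempty (B ≃ₐ[ℂ] MvPowerSeries (Fin (n + 1)) ℂ ⧸
      Ideal.span {∑ i, (X i : MvPowerSeries (Fin (n + 1)) ℂ) ^ 2}) := by
  obtain ⟨m, rfl⟩ : ∃ m, n = m + 2 := ⟨n - 2, by omega⟩
  obtain ⟨y, hy, h0⟩ := COdp_morse (algebraMap ℂ B (1 / 2)) (by
    rw [← map_ofNat (algebraMap ℂ B) 2, ← map_mul]
    norm_num) z hz h
  have hyi : ∀ i, y i ∈ maximalIdeal B := fun i => hy ▸ Ideal.subset_span (Set.mem_range_self i)
  obtain ⟨Φ, hC, hX⟩ := exists_evalHom' (maximalIdeal B) (algebraMap ℂ B) y hyi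
  have hC' : ∀ c, Φ (C c) = algebraMap ℂ B c := fun c => DFunLike.congr_fun hC c
  have hs : Function.Surjective Φ := by
    refine evalHom_surjective' (maximalIdeal B) Φ (fun i => hX i ▸ hyi i) fun s => ?_
    obtain ⟨c, hc⟩ := hr s
    refine ⟨c, ?_⟩
    simp only [hX, hC']
    exact hy ▸ hc
  let Φ' : MvPowerSeries (Fin (m + 2 + 1)) ℂ →ₐ[ℂ] B := { Φ with commutes' := hC' }
  have hQ : Φ (∑ i, X i ^ 2) = 0 := by
    simp only [map_sum, map_pow, hX]
    exact h0
  let Ψ : (MvPowerSeries (Fin (m + 2 + 1)) ℂ ⧸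
      Ideal.span {∑ i, (X i : MvPowerSeries (Fin (m + 2 + 1)) ℂ) ^ 2}) →ₐ[ℂ] B :=
    Ideal.Quotient.liftₐ _ Φ' fun a ha => by
      obtain ⟨b, rfl⟩ := Ideal.mem_span_singleton'.1 ha
      change Φ _ = 0
      rw [map_mul, hQ, mul_zero]
  have hΨ : Function.Surjective Ψ := fun b => by
    obtain ⟨a, rfl⟩ := hs b
    exact ⟨Ideal.Quotient.mk _ a, rfl⟩
  have hdom := COdp_domain (m := m)
  have hQ0 : (∑ i, (X i : MvPowerSeries (Fin (m + 2 + 1)) ℂ) ^ 2) ≠ 0 := by
    intro e
    have := COdp_nsq (m := m + 1) 0 1 (by rw [e]; simp)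
    exact one_ne_zero this
  have d1 := ringKrullDim_quotient_succ_le_of_nonZeroDivisor (mem_nonZeroDivisors_of_ne_zero hQ0)
  rw [ringKrullDim_mvPowerSeries_field'] at d1
  have hi : Function.Injective Ψ := by
    rw [injective_iff_map_eq_zero]
    intro a ha
    by_contra ha0
    have d2 := ringKrullDim_succ_le_of_surjective Ψ.toRingHom hΨ
      (mem_nonZeroDivisors_of_ne_zero ha0) ha
    rw [hd] at d2
    have d3 := le_trans (add_le_add_left d2 1) d1
    have d4 : ((m + 2 + 1 + 1 : ℕ) : WithBot ℕ∞) ≤ (m + 2 + 1 : ℕ) := by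
      push_cast at d3 ⊢
      exact d3
    have d5 : m + 2 + 1 + 1 ≤ m + 2 + 1 := by exact_mod_cast d4
    omega
  exact ⟨(AlgEquiv.ofBijective Ψ ⟨hi, hΨ⟩).symm⟩

theorem COdp_dim (A : Type) [CommRing A] [IsLocalRing A] [IsNoetherianRing A] :
    ringKrullDim (AdicCompletion (maximalIdeal A) A) = ringKrullDim A := by
  have := isNoetherianRing_adicCompletion' A
  have hm := (AdicCompletion.maximalIdeal_eq_map (R := A)).symm
  have h1 := Ideal.height_eq_height_add_of_liesOver_of_hasGoingDown (maximalIdeal A)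
    (maximalIdeal (AdicCompletion (maximalIdeal A) A))
  rw [hm, Ideal.map_quotient_self, Ideal.height_bot, add_zero] at h1
  rw [← IsLocalRing.maximalIdeal_height_eq_ringKrullDim,
    ← IsLocalRing.maximalIdeal_height_eq_ringKrullDim, h1]

theorem COdp_dense (A : Type) [CommRing A] [IsLocalRing A] [IsNoetherianRing A]
    (x : AdicCompletion (maximalIdeal A) A) :
    ∃ r : A, x - algebraMap A _ r ∈ maximalIdeal (AdicCompletion (maximalIdeal A) A) := by
  obtain ⟨c, hc⟩ := (AdicCompletion.residueField_map_bijective A).2 (residue _ x)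
  obtain ⟨r, rfl⟩ := residue_surjective c
  rw [ResidueField.map_residue] at hc
  exact ⟨r, Ideal.Quotient.eq.1 hc.symm⟩

end Vale.Agent.P282
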