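import Vale.Agent.P282.UMon
import Vale.Agent.P282.ARed
import Vale.Agent.P282.COdp_b

set_option linter.unusedSectionVars false

open scoped ENNReal TensorProduct Topology
open Filter MeasureTheory

noncomputable section

namespace Vale.Agent.P282

variable {R K : Type} [CommRing R] [IsDomain R] [Algebra ℂ R] [Algebra.FiniteType ℂ R]
  [IsIntegrallyClosed R] [Field K] [Algebra R K] [IsFractionRing R K] [Algebra ℂ K]
  [IsScalarTower ℂ R K] {n : ℕ}

theorem odp_of_dp (hn : 2 ≤ n) (h : Algebra.trdeg ℂ R = n) (x : Pt R) (hd : DP n x.m) :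
    IsODP n x.m := by
  obtain ⟨z, hz, hg, hq⟩ := hd
  obtain ⟨π⟩ := exists_proj' h
  have : IsNoetherianRing R := Algebra.FiniteType.isNoetherianRing ℂ R
  set A := Localization.AtPrime x.m with hA
  have hN := Vale.Agent.P202.isNoetherianRing_adicCompletion' A
  let f : R →+* AdicCompletion (IsLocalRing.maximalIdeal A) A :=
    (algebraMap A _).comp (algebraMap R A)
  have hm : x.m.map f = IsLocalRing.maximalIdeal _ := by
    rw [← Ideal.map_map, Localization.AtPrime.map_eq_maximalIdeal,
      AdicCompletion.maximalIdeal_eq_map]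
  have hf : ∀ c : ℂ, f (algebraMap ℂ R c) = algebraMap ℂ _ c := fun c => by
    simp only [f, RingHom.comp_apply, ← IsScalarTower.algebraMap_apply]
  refine COdp_complete hn ?_ (fun b => ?_) (fun i => f (z i)) (COdp_nak _ (fun i => ?_) ?_) ?_
  · rw [COdp_dim, IsLocalization.AtPrime.ringKrullDim_eq_height x.m A, height_pt π x]
    rfl
  · obtain ⟨a, ha⟩ := COdp_dense A b
    obtain ⟨⟨r, s⟩, hrs⟩ := IsLocalization.surj x.m.primeCompl a
    have hs : x s ≠ 0 := s.2
    refine ⟨x r / x s, ?_⟩
    have h1 : r - algebraMap ℂ R (x r / x s) * s ∈ x.m := by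
      rw [Pt.mem_m, map_sub, map_mul, AlgHomClass.commutes]
      simp [hs]
    have h2 := Ideal.mem_map_of_mem f h1
    rw [hm, map_sub, map_mul, hf] at h2
    have h3 : algebraMap A _ a * f s = f r := by
      simp only [f, RingHom.comp_apply, ← map_mul]
      exact congrArg _ hrs
    have hu : IsUnit (f s) := (IsLocalization.map_units A s).map
      (algebraMap A (AdicCompletion (IsLocalRing.maximalIdeal A) A))
    have h4 : (algebraMap A _ a - algebraMap ℂ _ (x r / x s)) * f s ∈ IsLocalRing.maximalIdeal _ := by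
      rw [sub_mul, h3]
      exact h2
    have h5 := add_mem ha ((Ideal.mul_unit_mem_iff_mem _ hu).1 h4)
    rwa [sub_add_sub_cancel] at h5
  · exact hm ▸ Ideal.mem_map_of_mem f (hz i)
  · have := Ideal.map_mono (f := f) hg
    rwa [Ideal.map_sup, Ideal.map_pow, hm, Ideal.map_span, ← Set.range_comp] at this
  · have := Ideal.mem_map_of_mem f hq
    rw [Ideal.map_pow, hm, map_sum] at this
    simpa only [map_pow] using this

end Vale.Agent.P282
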