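import Vale.Agent.P202.CohenAux2

/-! The sum of squares is a prime power series. -/

open IsLocalRing

noncomputable section

namespace Vale.Agent.P282

open MvPowerSeries Vale.Agent.P202 Vale.Agent.P202.Co2

theorem COdp_inj {k : ℕ} (ψ : MvPowerSeries (Fin k) ℂ →+* MvPowerSeries (Fin k) ℂ)
    (h : Function.Surjective ψ) : Function.Injective ψ := by
  rw [injective_iff_map_eq_zero]
  intro a ha
  by_contra h0
  have := ringKrullDim_succ_le_of_surjective ψ h (mem_nonZeroDivisors_of_ne_zero h0) ha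
  rw [ringKrullDim_mvPowerSeries_field'] at this
  have h2 : ((k + 1 : ℕ) : WithBot ℕ∞) ≤ (k : ℕ) := by push_cast; exact this
  have h3 : k + 1 ≤ k := by exact_mod_cast h2
  omega

theorem COdp_ord_X {σ : Type} (w : σ → ℕ) (i : σ) :
    (X i : MvPowerSeries σ ℂ).weightedOrder w = w i := by
  rw [X_def, weightedOrder_monomial_of_ne_zero w one_ne_zero]
  simp [Finsupp.weight_apply]

theorem COdp_ord_sum {σ ι : Type} (w : σ → ℕ) (s : Finset ι) (f : ι → MvPowerSeries σ ℂ) (c : ℕ∞)
    (h : ∀ i ∈ s, c ≤ (f i).weightedOrder w) : c ≤ (∑ i ∈ s, f i).weightedOrder w := by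
  classical
  induction s using Finset.induction_on with
  | empty => simp
  | insert a s ha ih =>
    rw [Finset.sum_insert ha]
    exact le_trans (le_min (h a (Finset.mem_insert_self _ _))
      (ih fun i hi => h i (Finset.mem_insert_of_mem hi))) (min_weightedOrder_le_add w)

theorem COdp_nsq {m : ℕ} (u v : MvPowerSeries (Fin (m + 2)) ℂ)
    (h : u ^ 2 = -(∑ i, X i ^ 2) * v ^ 2) : v = 0 := by
  let y : Fin (m + 2) → MvPowerSeries (Fin (m + 2)) ℂ :=
    Fin.cons (X 0 + X 1) (Fin.cons (C Complex.I * (X 0 - X 1)) fun i => X i.succ.succ)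
  have hX : ∀ i, (X i : MvPowerSeries (Fin (m + 2)) ℂ) ∈ Ideal.span (Set.range X) :=
    fun i => Ideal.subset_span ⟨i, rfl⟩
  have hy : ∀ i, y i ∈ Ideal.span (Set.range (X : Fin (m + 2) → MvPowerSeries _ ℂ)) := by
    refine Fin.cases (add_mem (hX _) (hX _)) (Fin.cases ?_ fun i => hX _)
    exact Ideal.mul_mem_left _ _ (sub_mem (hX _) (hX _))
  obtain ⟨ψ, hC, hψ⟩ := exists_evalHom' _ (C : ℂ →+* MvPowerSeries (Fin (m + 2)) ℂ) y hy
  have hI : (C Complex.I : MvPowerSeries (Fin (m + 2)) ℂ) ^ 2 = -1 := by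
    rw [← map_pow, Complex.I_sq, map_neg, map_one]
  have h2 : (C (1 / 2 : ℂ) : MvPowerSeries (Fin (m + 2)) ℂ) * 2 = 1 := by
    rw [← map_ofNat (C : ℂ →+* MvPowerSeries (Fin (m + 2)) ℂ) 2, ← map_mul]
    norm_num
  have hs : Function.Surjective ψ := by
    refine evalHom_surjective' _ ψ (fun i => hψ i ▸ hy i) fun s => ⟨constantCoeff s, ?_⟩
    have e1 : ψ (C (constantCoeff s)) = C (constantCoeff s) := DFunLike.congr_fun hC _
    have e2 : s - C (constantCoeff s) ∈ Ideal.span (Set.range X) := by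
      rw [← ker_constantCoeff', RingHom.mem_ker]
      simp
    rw [e1]
    refine Ideal.span_le.2 ?_ e2
    have hm : ∀ i, y i ∈ Ideal.span (Set.range fun i => ψ (X i)) := fun i =>
      Ideal.subset_span ⟨i, hψ i⟩
    have a0 : X 0 + X 1 ∈ Ideal.span (Set.range fun i => ψ (X i)) := hm 0
    have a1 : C Complex.I * (X 0 - X 1) ∈ Ideal.span (Set.range fun i => ψ (X i)) := hm 1
    rintro _ ⟨i, rfl⟩
    refine Fin.cases ?_ (Fin.cases ?_ fun i => hm i.succ.succ) i
    · have : (X 0 : MvPowerSeries (Fin (m + 2)) ℂ) = C (1 / 2 : ℂ) * ((X 0 + X 1) -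
          C Complex.I * (C Complex.I * (X 0 - X 1))) := by
        linear_combination (-X 0) * h2 + C (1 / 2 : ℂ) * (X 0 - X 1) * hI
      rw [SetLike.mem_coe, this]
      exact Ideal.mul_mem_left _ _ (sub_mem a0 (Ideal.mul_mem_left _ _ a1))
    · have : (X (Fin.succ 0) : MvPowerSeries (Fin (m + 2)) ℂ) = C (1 / 2 : ℂ) * ((X 0 + X 1) +
          C Complex.I * (C Complex.I * (X 0 - X 1))) := by
        rw [Fin.succ_zero_eq_one]
        linear_combination (-X 1) * h2 - C (1 / 2 : ℂ) * (X 0 - X 1) * hI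
      rw [SetLike.mem_coe, this]
      exact Ideal.mul_mem_left _ _ (add_mem a0 (Ideal.mul_mem_left _ _ a1))
  have hq : ψ (∑ i, X i ^ 2) = C 4 * X 0 * X 1 + ∑ i : Fin m, X i.succ.succ ^ 2 := by
    rw [map_sum, Fin.sum_univ_succ, Fin.sum_univ_succ]
    simp only [map_pow, hψ]
    have e0 : y 0 = X 0 + X 1 := rfl
    have e1 : y (Fin.succ 0) = C Complex.I * (X 0 - X 1) := rfl
    have e2 : ∀ i : Fin m, y i.succ.succ = X i.succ.succ := fun i => rfl
    simp only [e0, e1, e2]
    rw [map_ofNat]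
    linear_combination (X 0 - X 1) ^ 2 * hI
  let w : Fin (m + 2) → ℕ := Fin.cons 1 (Fin.cons 0 fun _ => 1)
  have o1 : (C 4 * X 0 * X 1 : MvPowerSeries (Fin (m + 2)) ℂ).weightedOrder w = 1 := by
    rw [weightedOrder_mul, weightedOrder_mul, COdp_ord_X, COdp_ord_X, ← monomial_zero_eq_C_apply,
      weightedOrder_monomial_of_ne_zero w (by norm_num)]
    have e0 : w 0 = 1 := rfl
    have e1 : w 1 = 0 := rfl
    simp [e0, e1]
  have o2 : (2 : ℕ∞) ≤ (∑ i : Fin m, X i.succ.succ ^ 2 :
      MvPowerSeries (Fin (m + 2)) ℂ).weightedOrder w := by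
    refine COdp_ord_sum w _ _ _ fun i _ => ?_
    rw [sq, weightedOrder_mul, COdp_ord_X]
    have e0 : w i.succ.succ = 1 := rfl
    rw [e0]
    exact le_of_eq (by norm_num)
  have o3 : (ψ (∑ i, X i ^ 2)).weightedOrder w = 1 := by
    have hlt : (1 : ℕ∞) < 2 := by norm_num
    rw [hq, weightedOrder_add_of_weightedOrder_ne w (by rw [o1]; exact (hlt.trans_le o2).ne), o1]
    exact min_eq_left (hlt.le.trans o2)
  by_contra hv
  have hv' : ψ v ≠ 0 := fun h0 => hv (COdp_inj ψ hs (h0.trans (map_zero ψ).symm))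
  have e := congrArg (fun p => (ψ p).weightedOrder w) h
  simp only [map_mul, map_neg, sq, weightedOrder_mul, weightedOrder_neg] at e
  simp only [← sq] at e
  rw [o3] at e
  have hb := (ne_zero_iff_weightedOrder_finite w).1 hv'
  rw [← hb] at e
  generalize ((ψ v).weightedOrder w).toNat = b at e
  generalize (ψ u).weightedOrder w = a at e
  induction a using ENat.recTopCoe with
  | top =>
    rw [top_add] at e
    exact absurd e.symm (by exact_mod_cast ENat.natCast_ne_top (1 + (b + b)))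
  | coe a =>
    have : a + a = 1 + (b + b) := by exact_mod_cast e
    omega

theorem COdp_prime_poly {m : ℕ} : Prime (Polynomial.X ^ 2 + Polynomial.C (∑ i, X i ^ 2) :
    Polynomial (MvPowerSeries (Fin (m + 2)) ℂ)) := by
  set T := MvPowerSeries (Fin (m + 2)) ℂ
  set q : T := ∑ i, X i ^ 2 with hq
  let F := FractionRing T
  have hinj : Function.Injective (algebraMap T F) := IsFractionRing.injective T F
  have hm : (Polynomial.X ^ 2 + Polynomial.C q : Polynomial T).Monic :=
    Polynomial.monic_X_pow_add_C q two_ne_zero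
  have hirr : Irreducible (Polynomial.X ^ 2 - Polynomial.C (-algebraMap T F q)) := by
    refine X_pow_sub_C_irreducible_of_prime Nat.prime_two fun b hb => ?_
    obtain ⟨u, v, hv, rfl⟩ := IsFractionRing.div_surjective (A := T) b
    have hv0 : v ≠ 0 := nonZeroDivisors.ne_zero hv
    have hv1 : algebraMap T F v ≠ 0 := fun h => hv0 (hinj (h.trans (map_zero _).symm))
    refine hv0 (COdp_nsq u v (hinj ?_))
    rw [div_pow, div_eq_iff (pow_ne_zero 2 hv1)] at hb
    rw [map_mul, map_pow, map_pow, map_neg, hb]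
  have hmap : (Polynomial.X ^ 2 + Polynomial.C q : Polynomial T).map (algebraMap T F) =
      Polynomial.X ^ 2 - Polynomial.C (-algebraMap T F q) := by simp
  refine ⟨hm.ne_zero, fun hu => hirr.not_isUnit (hmap ▸ hu.map (Polynomial.mapRingHom _)),
    fun a b hab => ?_⟩
  have h1 := Polynomial.map_dvd (algebraMap T F) hab
  rw [Polynomial.map_mul, hmap] at h1
  rcases hirr.prime.dvd_or_dvd h1 with h2 | h2
  · exact Or.inl ((Polynomial.map_dvd_map _ hinj hm).1 (hmap ▸ h2))
  · exact Or.inr ((Polynomial.map_dvd_map _ hinj hm).1 (hmap ▸ h2))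

theorem COdp_domain {m : ℕ} : IsDomain (MvPowerSeries (Fin (m + 2 + 1)) ℂ ⧸
    Ideal.span {∑ i, (X i : MvPowerSeries (Fin (m + 2 + 1)) ℂ) ^ 2}) := by
  set T := MvPowerSeries (Fin (m + 2)) ℂ
  set q : T := ∑ i, X i ^ 2 with hq
  have hqm : q ∈ Ideal.span (Set.range (X : Fin (m + 2) → T)) :=
    Ideal.sum_mem _ fun i _ =>
      Ideal.pow_mem_of_mem _ (Ideal.subset_span (Set.mem_range_self i)) 2 two_pos
  have hm : (Polynomial.X ^ 2 + Polynomial.C q : Polynomial T).Monic :=
    Polynomial.monic_X_pow_add_C q two_ne_zero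
  have hd : (Polynomial.X ^ 2 + Polynomial.C q : Polynomial T).IsDistinguishedAt
      (Ideal.span (Set.range X)) := by
    refine ⟨⟨fun {i} hi => ?_⟩, hm⟩
    rw [Polynomial.natDegree_X_pow_add_C] at hi
    rw [Polynomial.coeff_add, Polynomial.coeff_X_pow, if_neg hi.ne, zero_add, Polynomial.coeff_C]
    split_ifs
    · exact hqm
    · exact zero_mem _
  have hp : (Ideal.span {(Polynomial.X ^ 2 + Polynomial.C q : Polynomial T)}).IsPrime :=
    (Ideal.span_singleton_prime hm.ne_zero).2 COdp_prime_poly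
  have h1 : IsDomain (PowerSeries T ⧸ Ideal.span
      {((Polynomial.X ^ 2 + Polynomial.C q : Polynomial T) : PowerSeries T)}) :=
    hd.algEquivQuotient.symm.toMulEquiv.isDomain _
  have e : Ideal.span {((Polynomial.X ^ 2 + Polynomial.C q : Polynomial T) : PowerSeries T)} =
      (Ideal.span {∑ i, (X i : MvPowerSeries (Fin (m + 2 + 1)) ℂ) ^ 2}).map
        ((finSuccEquiv ℂ (m + 2)).toRingEquiv : MvPowerSeries (Fin (m + 2 + 1)) ℂ →+* _) := by
    rw [Ideal.map_span, Set.image_singleton, Fin.sum_univ_succ]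
    congr 2
    have e1 : ∀ p, ((finSuccEquiv ℂ (m + 2)).toRingEquiv :
      MvPowerSeries (Fin (m + 2 + 1)) ℂ →+* _) p = finSuccEquiv ℂ (m + 2) p := fun _ => rfl
    rw [e1, Polynomial.coe_add, Polynomial.coe_pow, Polynomial.coe_X, Polynomial.coe_C, hq]
    simp only [map_add, map_sum, map_pow, finSuccEquiv_X_succ, finSuccEquiv_X_zero]
  exact (Ideal.quotientEquiv _ _ (finSuccEquiv ℂ (m + 2)).toRingEquiv e).toMulEquiv.isDomain _

end Vale.Agent.P282
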