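import Vale.Agent.P282.AProj

set_option linter.unusedSectionVars false

open scoped ENNReal TensorProduct Topology
open Filter MeasureTheory

noncomputable section

namespace Vale.Agent.P282

theorem COdq_span {σ : Type} (s : Finset σ) : ∀ f : MvPowerSeries σ ℂ,
    (∀ m : σ →₀ ℕ, (∀ i ∈ s, m i = 0) → MvPowerSeries.coeff m f = 0) →
      f ∈ Ideal.span (Set.range (MvPowerSeries.X : σ → MvPowerSeries σ ℂ)) := by
  classical
  induction s using Finset.induction_on with
  | empty =>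
    intro f hf
    rw [show f = 0 from MvPowerSeries.ext fun m => hf m (by simp)]
    exact zero_mem _
  | insert i s _ ih =>
    intro f hf
    obtain ⟨g, hg⟩ : ∃ g : MvPowerSeries σ ℂ, ∀ m, MvPowerSeries.coeff m g =
        if m i = 0 then MvPowerSeries.coeff m f else 0 :=
      ⟨fun m => if m i = 0 then MvPowerSeries.coeff m f else 0, fun _ => rfl⟩
    have h1 := ih g fun m hm => by
      rw [hg]
      split_ifs with h
      · exact hf m (Finset.forall_mem_insert _ _ _ |>.2 ⟨h, hm⟩)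
      · rfl
    obtain ⟨q, hq⟩ : (MvPowerSeries.X i : MvPowerSeries σ ℂ) ∣ f - g :=
      MvPowerSeries.X_dvd_iff.2 fun m hm => by rw [map_sub, hg, if_pos hm, sub_self]
    rw [← sub_add_cancel f g, hq]
    exact add_mem (Ideal.mul_mem_right _ _ (Ideal.subset_span ⟨i, rfl⟩)) h1

theorem COdq_max {σ : Type} [Fintype σ] : IsLocalRing.maximalIdeal (MvPowerSeries σ ℂ) =
    Ideal.span (Set.range (MvPowerSeries.X : σ → MvPowerSeries σ ℂ)) := by
  refine le_antisymm (fun f hf => COdq_span Finset.univ f fun m hm => ?_) (Ideal.span_le.2 ?_)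
  · rw [show m = 0 from Finsupp.ext fun i => hm i (Finset.mem_univ i),
      MvPowerSeries.coeff_zero_eq_constantCoeff_apply]
    by_contra h
    exact hf (MvPowerSeries.isUnit_iff_constantCoeff.2 (Ne.isUnit h))
  · rintro _ ⟨i, rfl⟩ h
    simpa using MvPowerSeries.isUnit_iff_constantCoeff.1 h

theorem COdq_abs {R T : Type} [CommRing R] [CommRing T] {n : ℕ} (φ : R →+* T) (m : Ideal R)
    (J : Ideal T) (h1 : ∀ k r, φ r ∈ J ^ k ↔ r ∈ m ^ k) (h2 : ∀ t, ∃ r, t - φ r ∈ J ^ 3)
    (y : Fin (n + 1) → T) (h3 : J = Ideal.span (Set.range y)) (h4 : ∑ i, y i ^ 2 = 0) :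
    ∃ z : Fin (n + 1) → R, (∀ i, z i ∈ m) ∧ m ≤ Ideal.span (Set.range z) ⊔ m ^ 2 ∧
      ∑ i, z i ^ 2 ∈ m ^ 3 := by
  choose c hc using h2
  have h5 : ∀ r, φ r ∈ J ↔ r ∈ m := fun r => by simpa using h1 1 r
  have h6 : ∀ i, y i ∈ J := fun i => h3 ▸ Ideal.subset_span ⟨i, rfl⟩
  have h7 : ∀ t, t - φ (c t) ∈ J := fun t => Ideal.pow_le_self (by norm_num) (hc t)
  refine ⟨fun i => c (y i), fun i => (h5 _).1 ?_, fun r hr => ?_, (h1 3 _).1 ?_⟩
  · simpa using sub_mem (h6 i) (h7 (y i))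
  · have h8 := (h5 r).2 hr
    rw [h3] at h8
    obtain ⟨t, ht⟩ := Ideal.mem_span_range_iff_exists_fun.1 h8
    rw [← add_sub_cancel (∑ i, c (t i) * c (y i)) r]
    refine Submodule.add_mem_sup (Ideal.mem_span_range_iff_exists_fun.2 ⟨_, rfl⟩) ((h1 2 _).1 ?_)
    rw [map_sub, ← ht, map_sum, ← Finset.sum_sub_distrib]
    refine sum_mem fun i _ => ?_
    have e : t i * y i - φ (c (t i) * c (y i)) =
        (t i - φ (c (t i))) * y i + φ (c (t i)) * (y i - φ (c (y i))) := by
      rw [map_mul]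
      ring
    rw [e]
    exact add_mem (sq J ▸ Ideal.mul_mem_mul (h7 _) (h6 i))
      (Ideal.mul_mem_left _ _ (Ideal.pow_le_pow_right (by norm_num) (hc _)))
  · rw [map_sum, ← sub_zero (∑ _, _), ← h4, ← Finset.sum_sub_distrib]
    refine sum_mem fun i _ => ?_
    have e : φ (c (y i) ^ 2) - y i ^ 2 = -(φ (c (y i)) + y i) * (y i - φ (c (y i))) := by
      rw [map_pow]
      ring
    rw [e]
    exact Ideal.mul_mem_left _ _ (hc _)

theorem COdq_mem {O : Type} [CommRing O] [IsLocalRing O] [IsNoetherianRing O] (k : ℕ)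
    (t : AdicCompletion (IsLocalRing.maximalIdeal O) O) :
    t ∈ IsLocalRing.maximalIdeal _ ^ k ↔ t.1 k = 0 := by
  rw [AdicCompletion.maximalIdeal_eq_map, ← Ideal.map_pow, ← Submodule.restrictScalars_mem O,
    ← Ideal.smul_top_eq_map,
    AdicCompletion.pow_smul_top_eq_ker_eval (IsLocalRing.maximalIdeal O).fg_of_isNoetherianRing]
  rfl

theorem COdq_of {O : Type} [CommRing O] [IsLocalRing O] [IsNoetherianRing O] (k : ℕ) (a : O) :
    algebraMap O (AdicCompletion (IsLocalRing.maximalIdeal O) O) a ∈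
      IsLocalRing.maximalIdeal _ ^ k ↔ a ∈ IsLocalRing.maximalIdeal O ^ k := by
  rw [COdq_mem]
  change Submodule.Quotient.mk a = 0 ↔ _
  rw [Submodule.Quotient.mk_eq_zero, smul_eq_mul, Ideal.mul_top]

theorem COdq_dense {O : Type} [CommRing O] [IsLocalRing O] [IsNoetherianRing O] (k : ℕ)
    (t : AdicCompletion (IsLocalRing.maximalIdeal O) O) :
    ∃ a : O, t - algebraMap O _ a ∈ IsLocalRing.maximalIdeal _ ^ k := by
  obtain ⟨a, ha⟩ := Submodule.Quotient.mk_surjective _ (t.1 k)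
  refine ⟨a, (COdq_mem k _).2 ?_⟩
  change t.1 k - Submodule.Quotient.mk a = 0
  rw [ha, sub_self]

variable {R K : Type} [CommRing R] [IsDomain R] [Algebra ℂ R] [Algebra.FiniteType ℂ R]
  [IsIntegrallyClosed R] [Field K] [Algebra R K] [IsFractionRing R K] [Algebra ℂ K]
  [IsScalarTower ℂ R K] {n : ℕ}

theorem dp_of_odp (x : Pt R) (hd : IsODP n x.m) : DP n x.m := by
  obtain ⟨e⟩ := hd
  have : IsNoetherianRing R := Algebra.FiniteType.isNoetherianRing ℂ R
  obtain ⟨ψ, hψ, h0⟩ : ∃ ψ : MvPowerSeries (Fin (n + 1)) ℂ →+*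
      AdicCompletion (IsLocalRing.maximalIdeal (Localization.AtPrime x.m))
        (Localization.AtPrime x.m), Function.Surjective ψ ∧
      ψ (∑ i, MvPowerSeries.X i ^ 2) = 0 := by
    refine ⟨e.symm.toRingEquiv.toRingHom.comp (Ideal.Quotient.mk _),
      e.symm.surjective.comp Ideal.Quotient.mk_surjective, ?_⟩
    rw [RingHom.comp_apply, Ideal.Quotient.eq_zero_iff_mem.2 (Ideal.mem_span_singleton_self _),
      map_zero]
  refine COdq_abs ((algebraMap (Localization.AtPrime x.m) _).comp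
    (algebraMap R (Localization.AtPrime x.m))) x.m (IsLocalRing.maximalIdeal _) (fun k r => ?_)
    (fun t => ?_) (fun i => ψ (MvPowerSeries.X i)) ?_ (by simpa only [map_sum, map_pow] using h0)
  · rw [RingHom.comp_apply, COdq_of,
      ← IsLocalization.AtPrime.under_maximalIdeal_pow x.m (Localization.AtPrime x.m) k]
    rfl
  · obtain ⟨a, ha⟩ := COdq_dense 3 t
    obtain ⟨b, hb⟩ := (IsLocalization.AtPrime.equivQuotMaximalIdealPow x.m
      (Localization.AtPrime x.m) 3).surjective (Ideal.Quotient.mk _ a)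
    obtain ⟨r, rfl⟩ := Ideal.Quotient.mk_surjective b
    rw [IsLocalization.AtPrime.equivQuotMaximalIdealPow_apply_mk] at hb
    have h1 := (COdq_of 3 _).2 (Ideal.Quotient.eq.1 hb.symm)
    refine ⟨r, ?_⟩
    rw [map_sub] at h1
    simpa only [sub_add_sub_cancel, RingHom.comp_apply] using add_mem ha h1
  · rw [← IsLocalRing.map_maximalIdeal_of_surjective ψ hψ, COdq_max, Ideal.map_span,
      ← Set.range_comp]
    rfl

end Vale.Agent.P282
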