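import Vale.Agent.P282.CTl_b

set_option linter.unusedSectionVars false

noncomputable section

namespace Vale.Agent.P282

variable {R K : Type} [CommRing R] [IsDomain R] [Algebra ℂ R] [Algebra.FiniteType ℂ R]
  [IsIntegrallyClosed R] [Field K] [Algebra R K] [IsFractionRing R K] [Algebra ℂ K]
  [IsScalarTower ℂ R K] {n : ℕ}

theorem CTl_emb (π : Proj R n) (σ : π.Emb K) (P : MvPolynomial (Fin n) ℂ) :
    σ.1 (MvPolynomial.aeval π.y P) = io K (MvPolynomial.aeval π.y P) :=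
  congrArg Subtype.val (π.em_y σ ⟨io K, π.io_mem⟩ P)

/-- the functional `r ↦ Tr (r / ρ)` -/
theorem CTl_tau (G : WS R K n) (hm : G.ω.m = 1) (π : Proj R n)
    (φ : π.Emb K → K →ₐ[ℂ] Cl K) (hφ : ∀ σ r, φ σ (algebraMap R K r) = σ.1 r) :
    ∃ τ : R → MvPolynomial (Fin n) ℂ,
      (∀ r, (∑ᶠ σ, φ σ ((algebraMap R K (G.ρ π.y))⁻¹ * algebraMap R K r)) =
        io K (MvPolynomial.aeval π.y (τ r))) ∧ (∀ a b, τ (a + b) = τ a + τ b) ∧
      (∀ P r, τ (MvPolynomial.aeval π.y P * r) = P * τ r) ∧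
      ∀ b D, D ≠ 0 → (∀ r, D ∣ τ (b * r)) → ∃ r', b = MvPolynomial.aeval π.y D * r' := by
  have hinj := IsFractionRing.injective R K
  have hρ : algebraMap R K (G.ρ π.y) ≠ 0 := (map_ne_zero_iff _ hinj).2 (G.ρ_ne π)
  let : Fintype (π.Emb K) := π.emb_finite.fintype
  choose τ hτ using (trace_dual G hm π φ hφ (algebraMap R K (G.ρ π.y))⁻¹).2
    ⟨1, by rw [map_one, inv_mul_cancel₀ hρ]⟩
  have hio : Function.Injective (io K : R → Cl K) := π.emb_inj π.io_mem
  have hi2 : ∀ P Q : MvPolynomial (Fin n) ℂ,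
      io K (MvPolynomial.aeval π.y P) = io K (MvPolynomial.aeval π.y Q) → P = Q :=
    fun P Q h => π.ind (hio h)
  have hlin : ∀ (P : MvPolynomial (Fin n) ℂ) (a : K),
      (∑ᶠ σ, φ σ (algebraMap R K (MvPolynomial.aeval π.y P) * a)) =
        io K (MvPolynomial.aeval π.y P) * ∑ᶠ σ, φ σ a := by
    intro P a
    rw [finsum_eq_sum_of_fintype, finsum_eq_sum_of_fintype, Finset.mul_sum]
    exact Finset.sum_congr rfl fun σ _ => by rw [map_mul, hφ, CTl_emb]
  refine ⟨τ, hτ, fun a b => hi2 _ _ ?_, fun P r => hi2 _ _ ?_, fun b D hD h => ?_⟩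
  · rw [map_add, map_add, ← hτ, ← hτ, ← hτ, finsum_eq_sum_of_fintype, finsum_eq_sum_of_fintype,
      finsum_eq_sum_of_fintype, ← Finset.sum_add_distrib]
    exact Finset.sum_congr rfl fun σ _ => by rw [map_add, mul_add, map_add]
  · rw [← hτ, map_mul (MvPolynomial.aeval π.y), map_mul (io K), ← hτ, ← hlin]
    exact finsum_congr fun σ => by rw [map_mul (algebraMap R K), mul_left_comm]
  · have hD1 : MvPolynomial.aeval π.y D ≠ 0 := fun h0 => hD (π.ind (by rw [h0, map_zero]))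
    have hD2 : algebraMap R K (MvPolynomial.aeval π.y D) ≠ 0 := (map_ne_zero_iff _ hinj).2 hD1
    have hD3 : io K (MvPolynomial.aeval π.y D) ≠ 0 := (map_ne_zero_iff _ hio).2 hD1
    obtain ⟨r', hr'⟩ := (trace_dual G hm π φ hφ ((algebraMap R K (MvPolynomial.aeval π.y D))⁻¹ *
      (algebraMap R K (G.ρ π.y))⁻¹ * algebraMap R K b)).1 fun r => by
        obtain ⟨P, hP⟩ := h r
        refine ⟨P, mul_left_cancel₀ hD3 ?_⟩
        rw [← hlin, ← map_mul, ← map_mul, ← hP, ← hτ]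
        refine finsum_congr fun σ => congrArg _ ?_
        rw [map_mul]
        field_simp
    refine ⟨r', hinj ?_⟩
    rw [map_mul, hr']
    field_simp

theorem CTl_pos {L ι : Type} [Field L] [Algebra ℂ L] (w : RVal L) [Fintype ι] (f : ι → L)
    (h : ∀ i, ∃ t, 0 < t ∧ w.Ge (f i) t) : ∃ t, 0 < t ∧ w.Ge (∑ i, f i) t := by
  classical
  choose t ht hf using h
  rcases isEmpty_or_nonempty ι with hι | hι
  · exact ⟨1, one_pos, Or.inl (by simp)⟩
  · obtain ⟨i, -, hi⟩ := Finset.exists_min_image Finset.univ t Finset.univ_nonempty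
    refine ⟨t i, ht i, ?_⟩
    exact Finset.sum_induction f (fun a => w.Ge a (t i)) (fun a b => RVal.Ge.add) (Or.inl rfl)
      fun j hj => (hf j).mono (hi j hj)

theorem CTl_incomp (π : Proj R n) {p q : Ideal R} [p.IsPrime] [q.IsPrime] (h : p ≠ q)
    (hc : ∀ P : MvPolynomial (Fin n) ℂ, MvPolynomial.aeval π.y P ∈ p ↔ MvPolynomial.aeval π.y P ∈ q) :
    ∃ c ∈ p, c ∉ q := by
  by_contra h1
  have h2 : p < q := lt_of_le_of_ne (fun c hc => by_contra fun h => h1 ⟨c, hc, h⟩) h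
  let := (MvPolynomial.aeval π.y : MvPolynomial (Fin n) ℂ →ₐ[ℂ] R).toRingHom.toAlgebra
  have : Algebra.IsIntegral (MvPolynomial (Fin n) ℂ) R := ⟨RingHom.Finite.to_isIntegral π.fin⟩
  exact (Ideal.IsIntegral.comap_lt_comap (R := MvPolynomial (Fin n) ℂ) h2).ne (Ideal.ext hc)

/-- the valuative estimate for the trace -/
theorem CTl_val (G : WS R K n) (hm : G.ω.m = 1) (π : Proj R n) (q : Ideal R) [q.IsPrime]
    {i j : Fin n} (hij : i ≠ j)
    (hr : ∀ w : RVal K, w.CenteredAt q → ∀ r ∈ q,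
      w.Ge (algebraMap R K r) (w.v (algebraMap R K (π.y i))) ∨
        w.Ge (algebraMap R K r) (w.v (algebraMap R K (π.y j))))
    (hq : q.comap (MvPolynomial.aeval π.y : MvPolynomial (Fin n) ℂ →ₐ[ℂ] R) =
      Ideal.span {P | ∃ k : Fin n, (k = i ∨ k = j) ∧ P = MvPolynomial.X k})
    (φ : π.Emb K → K →ₐ[ℂ] Cl K) (hφ : ∀ σ r, φ σ (algebraMap R K r) = σ.1 r) :
    ∃ c ∉ q, ∀ (x : R) (P : MvPolynomial (Fin n) ℂ),
      (∑ᶠ σ, φ σ ((algebraMap R K (G.ρ π.y))⁻¹ * algebraMap R K (c * x))) =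
        io K (MvPolynomial.aeval π.y P) →
      ((∃ a ∈ q, ∃ b ∈ q, x = a * b) ∨ (G.ρ π.y ∉ q ∧ x ∈ q)) → MvPolynomial.aeval π.y P ∈ q := by
  classical
  have hinj := IsFractionRing.injective R K
  have hρ : algebraMap R K (G.ρ π.y) ≠ 0 := (map_ne_zero_iff _ hinj).2 (G.ρ_ne π)
  let : Fintype (π.Emb K) := π.emb_finite.fintype
  have : Algebra.EssFiniteType R K := .of_isLocalization _ (nonZeroDivisors R)
  have : Algebra.EssFiniteType ℂ K := .comp ℂ R K
  obtain ⟨Q, hQ, hQq⟩ := π.exists_over (K := K) q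
  have hQm : ∀ r, π.em K ⟨io K, π.io_mem⟩ r ∈ Q ↔ r ∈ q := fun r => by
    rw [← hQq, Ideal.mem_comap]
  let c : Fin n → ℝ := fun k => (if k = i then 1 else 0) + (if k = j then 1 else 0)
  have hci : c i = 1 := by simp [c, hij]
  have hcj : c j = 1 := by simp [c, hij.symm]
  have hcs : ∑ k, c k = 2 := by
    simp only [c, Finset.sum_add_distrib, Finset.sum_ite_eq', Finset.mem_univ, if_true]
    norm_num
  obtain ⟨w, hw, hmon⟩ := exists_mon_cl π c (fun k => by
    simp only [c]; split_ifs <;> norm_num) Q (fun P u hu => by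
      have h1 : u = π.em K ⟨io K, π.io_mem⟩ (MvPolynomial.aeval π.y P) := Subtype.ext hu
      rw [h1, hQm, ← Ideal.mem_comap, hq]
      refine Iff.of_eq (congrArg (fun T => P ∈ Ideal.span T) (Set.ext fun P =>
        exists_congr fun k => and_congr_left fun _ => ?_))
      by_cases h1 : k = i
      · simp [h1, hci]
      · by_cases h2 : k = j
        · simp [h2, hcj]
        · simp [c, h1, h2])
  let p : π.Emb K → Ideal R := fun σ => Q.comap (π.em K σ)
  have hp : ∀ σ, (p σ).IsPrime := fun σ => Ideal.comap_isPrime _ Q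
  have hcen : ∀ σ, (w.comap (φ σ)).CenteredAt (p σ) := fun σ => by
    refine ⟨fun r => ?_, fun r hr0 => ?_⟩
    · rcases hw.1 (π.em K σ r) with h | h
      · exact Or.inl ((map_eq_zero (φ σ)).1 ((hφ σ r).trans h))
      · exact Or.inr (h.trans_eq (congrArg w.v (hφ σ r).symm))
    · have h := hw.2 (π.em K σ r) fun h => hr0 ((map_eq_zero (φ σ)).1 ((hφ σ r).trans h))
      exact (Iff.of_eq (congrArg (fun a => 0 < w.v a) (hφ σ r))).trans h
  have hmon' : ∀ σ, IsMon (w.comap (φ σ)) (fun k => algebraMap R K (π.y k)) c := fun σ P hP => by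
    have h1 : φ σ (MvPolynomial.aeval (fun k => algebraMap R K (π.y k)) P) =
        MvPolynomial.aeval (fun k => io K (π.y k)) P := by
      rw [MvPolynomial.comp_aeval_apply]
      exact congrArg (fun g => MvPolynomial.aeval g P) (funext fun k => (hφ σ _).trans (σ.2 k))
    obtain ⟨h2, h3⟩ := hmon P hP
    rw [← h1] at h2 h3
    exact ⟨(map_ne_zero (φ σ)).1 h2, h3⟩
  have hklt : ∀ σ, (w.comap (φ σ)).v (algebraMap R K (G.ρ π.y)) < 2 := fun σ => by
    obtain ⟨h1, h2⟩ := CTl_vX (hmon' σ) i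
    have h3 := G.klt _ ⟨_, h1, by rw [h2, hci]; exact one_ne_zero⟩ (hcen σ).1
    rw [A_mon G.ω _ (π.jac_ne G.ω) (hmon' σ), hcs, hm, ← G.ρ_eq, EReal.coe_pos] at h3
    simpa using h3
  have hcσ : ∀ σ, ∃ d, d ∉ q ∧ (p σ ≠ q →
      (w.comap (φ σ)).v (algebraMap R K (G.ρ π.y)) < (w.comap (φ σ)).v (algebraMap R K d)) := by
    intro σ
    by_cases h : p σ = q
    · exact ⟨1, (Ideal.ne_top_iff_one q).1 (Ideal.IsPrime.ne_top inferInstance),
        fun h' => absurd h h'⟩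
    · have := hp σ
      obtain ⟨d, hd, hdq⟩ := CTl_incomp π h fun P => by
        rw [← hQm, ← π.em_y σ]; rfl
      have hd0 : algebraMap R K d ≠ 0 := (map_ne_zero_iff _ hinj).2 fun h => hdq (h ▸ q.zero_mem)
      have h1 := ((hcen σ).2 d hd0).2 hd
      obtain ⟨N, hN⟩ := exists_lt_nsmul h1 ((w.comap (φ σ)).v (algebraMap R K (G.ρ π.y)))
      refine ⟨d ^ N, fun h => hdq (Ideal.IsPrime.mem_of_pow_mem inferInstance _ h), fun _ => ?_⟩
      rw [map_pow, RVal.v_pow _ _ hd0, ← nsmul_eq_mul]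
      exact hN
  choose d hd hdv using hcσ
  refine ⟨∏ σ, d σ, fun h => ?_, fun x P hP hx => ?_⟩
  · obtain ⟨σ, -, hσ⟩ := Ideal.IsPrime.prod_mem_iff.1 h
    exact hd σ hσ
  have hterm : ∀ σ, ∃ t, (w.comap (φ σ)).v (algebraMap R K (G.ρ π.y)) < t ∧
      (w.comap (φ σ)).Ge (algebraMap R K ((∏ σ, d σ) * x)) t := by
    intro σ
    by_cases h : p σ = q
    · have hc := hcen σ
      rw [h] at hc
      have h1 : ∀ r ∈ q, (w.comap (φ σ)).Ge (algebraMap R K r) 1 := fun r hrq => by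
        rcases hr _ hc r hrq with h2 | h2
        · rwa [(CTl_vX (hmon' σ) i).2, hci] at h2
        · rwa [(CTl_vX (hmon' σ) j).2, hcj] at h2
      rcases hx with ⟨a, ha, b, hb, rfl⟩ | ⟨hρq, hx⟩
      · refine ⟨2, hklt σ, ?_⟩
        rw [map_mul, map_mul]
        exact ((hc.1 _).mul ((h1 a ha).mul (h1 b hb))).mono (by norm_num)
      · refine ⟨1, (not_lt.1 fun h => hρq ((hc.2 _ hρ).1 h)).trans_lt one_pos,
          h1 _ (q.mul_mem_left _ hx)⟩
    · refine ⟨_, hdv σ h, ?_⟩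
      rw [← Finset.mul_prod_erase _ _ (Finset.mem_univ σ), mul_assoc, map_mul]
      exact ((RVal.Ge.self _).mul ((hcen σ).1 _)).mono (by simp)
  obtain ⟨t, ht, hsum⟩ := CTl_pos w
    (fun σ => φ σ ((algebraMap R K (G.ρ π.y))⁻¹ * algebraMap R K ((∏ σ, d σ) * x))) fun σ => by
      obtain ⟨t, ht, h⟩ := hterm σ
      refine ⟨_, sub_pos.2 ht, ?_⟩
      have h1 := (RVal.Ge.self (w := w.comap (φ σ)) (algebraMap R K (G.ρ π.y))⁻¹).mul h
      rw [RVal.v_inv _ _ hρ, neg_add_eq_sub] at h1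
      rcases h1 with h1 | h1
      · exact Or.inl (by rw [h1, map_zero])
      · exact Or.inr h1
  rw [← finsum_eq_sum_of_fintype, hP] at hsum
  rw [← hQm]
  by_cases h0 : io K (MvPolynomial.aeval π.y P) = 0
  · have h1 : π.em K ⟨io K, π.io_mem⟩ (MvPolynomial.aeval π.y P) = 0 := Subtype.ext h0
    rw [h1]; exact Q.zero_mem
  · exact (hw.2 (π.em K ⟨io K, π.io_mem⟩ (MvPolynomial.aeval π.y P)) h0).1
      (ht.trans_le (hsum.resolve_left h0))

end Vale.Agent.P282
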