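import Vale.Agent.P282.CTr
import Vale.Agent.P282.ARed
import Vale.Agent.P282.CTl_c

set_option linter.unusedSectionVars false

open scoped ENNReal TensorProduct Topology
open Filter MeasureTheory

noncomputable section

namespace Vale.Agent.P282

variable {R K : Type} [CommRing R] [IsDomain R] [Algebra ℂ R] [Algebra.FiniteType ℂ R]
  [IsIntegrallyClosed R] [Field K] [Algebra R K] [IsFractionRing R K] [Algebra ℂ K]
  [IsScalarTower ℂ R K] {n : ℕ}

/-- in codimension two a Gorenstein klt variety has multiplicity at most two -/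
theorem tl (G : WS R K n) (hm : G.ω.m = 1) (hn : 2 ≤ n) (π : Proj R n) (q : Ideal R) [q.IsPrime]
    (hr : IsRed K q fun i : Fin 2 => π.y (Fin.castLE hn i))
    (hq : q.comap (MvPolynomial.aeval π.y : MvPolynomial (Fin n) ℂ →ₐ[ℂ] R) =
      Ideal.span {P | ∃ i : Fin n, (i : ℕ) < 2 ∧ P = MvPolynomial.X i}) :
    LocGen q 2 ∨ (G.ρ π.y ∈ q ∧ ∃ z ∈ q, ∃ s ∉ q,
      (∀ r ∈ q, s * r ∈ Ideal.span (insert z (Set.range fun i : Fin 2 => π.y (Fin.castLE hn i)))) ∧
      s * z ^ 2 ∈ Ideal.span (Set.range fun i : Fin 2 => π.y (Fin.castLE hn i)) * q) := by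
  have hij : Fin.castLE hn 0 ≠ Fin.castLE hn 1 := fun h => absurd (congrArg Fin.val h) (by simp)
  have hk : ∀ k : Fin n, (k : ℕ) < 2 ↔ k = Fin.castLE hn 0 ∨ k = Fin.castLE hn 1 := fun k => by
    simp only [Fin.ext_iff, Fin.val_castLE, Fin.val_zero, Fin.val_one]
    omega
  have hq' : q.comap (MvPolynomial.aeval π.y : MvPolynomial (Fin n) ℂ →ₐ[ℂ] R) = Ideal.span
      {P | ∃ k : Fin n, (k = Fin.castLE hn 0 ∨ k = Fin.castLE hn 1) ∧ P = MvPolynomial.X k} := by
    rw [hq]; simp only [hk]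
  have hq'' : q.comap (MvPolynomial.aeval π.y : MvPolynomial (Fin n) ℂ →ₐ[ℂ] R) = Ideal.span
      {P | ∃ k : Fin n, (k = Fin.castLE hn 1 ∨ k = Fin.castLE hn 0) ∧ P = MvPolynomial.X k} := by
    rw [hq']; simp only [or_comm]
  have hq2 : q.comap (MvPolynomial.aeval π.y : MvPolynomial (Fin n) ℂ →ₐ[ℂ] R) = Ideal.span
      {MvPolynomial.X (Fin.castLE hn 0), MvPolynomial.X (Fin.castLE hn 1)} := by
    rw [hq']
    refine congrArg Ideal.span (Set.ext fun P => ⟨?_, ?_⟩)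
    · rintro ⟨k, rfl | rfl, rfl⟩
      · exact Or.inl rfl
      · exact Or.inr rfl
    · rintro (rfl | rfl)
      · exact ⟨_, Or.inl rfl, rfl⟩
      · exact ⟨_, Or.inr rfl, rfl⟩
  have hr' : ∀ w : RVal K, w.CenteredAt q → ∀ r ∈ q,
      w.Ge (algebraMap R K r) (w.v (algebraMap R K (π.y (Fin.castLE hn 0)))) ∨
        w.Ge (algebraMap R K r) (w.v (algebraMap R K (π.y (Fin.castLE hn 1)))) := by
    intro w hw r hrq
    obtain ⟨i, -, hi⟩ := hr.2 w hw r hrq
    fin_cases i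
    · exact Or.inl hi
    · exact Or.inr hi
  have hJ : Set.range (fun i : Fin 2 => π.y (Fin.castLE hn i)) =
      {π.y (Fin.castLE hn 0), π.y (Fin.castLE hn 1)} := by
    ext r
    simp only [Set.mem_range, Fin.exists_fin_two, Set.mem_insert_iff, Set.mem_singleton_iff, eq_comm]
  choose φ hφ using fun σ : π.Emb K => π.exists_ext σ
  obtain ⟨τ, hτ, hadd, hmul, hd⟩ := CTl_tau G hm π φ hφ
  obtain ⟨c, hc, hval⟩ := CTl_val G hm π q hij hr' hq' φ hφ
  let := (MvPolynomial.aeval π.y : MvPolynomial (Fin n) ℂ →ₐ[ℂ] R).toRingHom.toAlgebra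
  have : Module.Finite (MvPolynomial (Fin n) ℂ) R := π.fin
  have hX : ∀ k, algebraMap (MvPolynomial (Fin n) ℂ) R (MvPolynomial.X k) = π.y k := fun k =>
    MvPolynomial.aeval_X π.y k
  let T : R →ₗ[MvPolynomial (Fin n) ℂ] MvPolynomial (Fin n) ℂ :=
    { toFun := τ, map_add' := hadd, map_smul' := hmul }
  have h := CTl_abs (MvPolynomial.X (Fin.castLE hn 0)) (MvPolynomial.X (Fin.castLE hn 1))
    MvPolynomial.X_prime q hq2 π.ind (fun r r' h => by
      simp only [Algebra.smul_def, hX] at h ⊢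
      exact CTl_reg K π hij r r' h) T hd c hc (fun a ha b hb => by
      rw [← hq2, mul_assoc]
      exact hval _ _ (hτ _) (Or.inl ⟨a, ha, b, hb, rfl⟩))
    (Ideal.span (Set.range fun i : Fin 2 => π.y (Fin.castLE hn i)))
    (by rw [hX]; exact Ideal.subset_span ⟨0, rfl⟩) (by rw [hX]; exact Ideal.subset_span ⟨1, rfl⟩)
  rcases h with h | ⟨z, hz, ⟨r, hr0⟩, s, hs, h1, h2⟩
  · exact Or.inl ⟨_, hr.1, h⟩
  · refine Or.inr ⟨by_contra fun hρ => hr0 ?_, z, hz, s, hs, fun r hr => ?_, ?_⟩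
    · rw [← hq2, mul_assoc]
      exact hval _ _ (hτ _) (Or.inr ⟨hρ, q.mul_mem_right _ hz⟩)
    · rw [Ideal.span_insert]
      exact h1 r hr
    · rw [hJ] at h2
      obtain ⟨a, b, hab⟩ := Ideal.mem_span_pair.1 h2
      have ha := CTl_last K π q hij hr' hq' hz hab
      have hb := CTl_last K π q hij.symm (fun w hw r hr => (hr' w hw r hr).symm) hq'' hz
        ((add_comm _ _).trans hab)
      rw [← hab, mul_comm a, mul_comm b]
      exact Ideal.add_mem _ (Ideal.mul_mem_mul (Ideal.subset_span ⟨0, rfl⟩) ha)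
        (Ideal.mul_mem_mul (Ideal.subset_span ⟨1, rfl⟩) hb)

end Vale.Agent.P282
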