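import Mathlib

/-! Problem P282: duality for a finite algebra over a regular ring, in codimension two. -/

noncomputable section

namespace Vale.Agent.P282

variable {S R : Type} [CommRing S] [IsDomain S] [IsNoetherianRing S] [CommRing R] [IsDomain R]
  [Algebra S R] [Module.Finite S R]

omit [IsDomain S] [IsNoetherianRing S] [IsDomain R] in
/-- Nakayama with a denominator -/
theorem CTl_nak (I : Ideal S) [I.IsPrime] (N : Submodule S R) (s₀ : S) (h₀ : s₀ ∉ I)
    (h : ∀ r : R, s₀ • r ∈ N ⊔ I • (⊤ : Submodule S R)) : ∃ s ∉ I, ∀ r : R, s • r ∈ N := by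
  obtain ⟨p, hp, -, hc, h0⟩ :=
    LinearMap.exists_monic_and_natDegree_eq_and_coeff_mem_pow_and_aeval_eq_zero S
      (algebraMap S (Module.End S (R ⧸ N)) s₀) I (by
        rintro _ ⟨x, rfl⟩
        obtain ⟨r, rfl⟩ := N.mkQ_surjective x
        have h1 := Submodule.mem_map_of_mem (f := N.mkQ) (h r)
        rw [Submodule.map_sup, Submodule.map_smul'', Submodule.mkQ_map_self, bot_sup_eq,
          map_smul] at h1
        exact Submodule.smul_mono le_rfl le_top h1)
  refine ⟨p.eval s₀, fun hI => h₀ ?_, fun r => ?_⟩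
  · rw [Polynomial.eval_eq_sum_range, Finset.sum_range_succ, hp.coeff_natDegree, one_mul] at hI
    have h2 : ∑ i ∈ Finset.range p.natDegree, p.coeff i * s₀ ^ i ∈ I :=
      I.sum_mem fun i hi => I.mul_mem_right _ (Ideal.pow_le_self
        (by have := Finset.mem_range.1 hi; omega) (hc i))
    exact Ideal.IsPrime.mem_of_pow_mem inferInstance _ ((I.add_mem_iff_right h2).1 hI)
  · rw [Polynomial.aeval_algebraMap_apply, Polynomial.coe_aeval_eq_eval] at h0
    have h3 := congrArg (fun f : Module.End S (R ⧸ N) => f (N.mkQ r)) h0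
    simp only [Module.algebraMap_end_apply, LinearMap.zero_apply] at h3
    rw [← map_smul] at h3
    exact (Submodule.Quotient.mk_eq_zero N).1 h3

omit [IsDomain S] [IsNoetherianRing S] [IsDomain R] in
/-- a family that is a basis of the fibre -/
theorem CTl_fib (I : Ideal S) [I.IsPrime] : ∃ (m : ℕ) (t : Finset (Fin m)) (e : t → R) (s : S),
    s ∉ I ∧ (∀ r : R, ∃ P : t → S, s • r = ∑ i, P i • e i) ∧
      ∀ P : t → S, ∑ i, P i • e i ∈ I • (⊤ : Submodule S R) → ∀ i, P i ∈ I := by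
  classical
  obtain ⟨m, g, hg⟩ := Module.Finite.exists_fin (R := S) (M := R)
  let Ind : Finset (Fin m) → Prop := fun t =>
    ∀ P : Fin m → S, ∑ i ∈ t, P i • g i ∈ I • (⊤ : Submodule S R) → ∀ i ∈ t, P i ∈ I
  obtain ⟨t, ht, hmax⟩ := Finset.exists_max_image (Finset.univ.filter Ind) Finset.card
    ⟨∅, Finset.mem_filter.2 ⟨Finset.mem_univ _, fun _ _ i hi => absurd hi (Finset.notMem_empty i)⟩⟩
  have ht' : Ind t := (Finset.mem_filter.1 ht).2
  let N : Submodule S R := Submodule.span S (Set.range fun i : t => g i)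
  have hN : ∀ P : Fin m → S, ∑ i ∈ t, P i • g i ∈ N := fun P =>
    N.sum_mem fun i hi => N.smul_mem _ (Submodule.subset_span ⟨⟨i, hi⟩, rfl⟩)
  have h1 : ∀ j, ∃ a ∉ I, a • g j ∈ N ⊔ I • (⊤ : Submodule S R) := by
    intro j
    by_cases hj : j ∈ t
    · exact ⟨1, (Ideal.ne_top_iff_one I).1 (Ideal.IsPrime.ne_top inferInstance), by
        rw [one_smul]
        exact Submodule.mem_sup_left (Submodule.subset_span ⟨⟨j, hj⟩, rfl⟩)⟩
    · have h2 : ¬ Ind (insert j t) := fun h => by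
        have := hmax _ (Finset.mem_filter.2 ⟨Finset.mem_univ _, h⟩)
        rw [Finset.card_insert_of_notMem hj] at this
        omega
      simp only [Ind, not_forall] at h2
      obtain ⟨P, hP, i, hi, hPi⟩ := h2
      rw [Finset.sum_insert hj] at hP
      refine ⟨P j, fun hPj => hPi ?_, ?_⟩
      · rcases Finset.mem_insert.1 hi with rfl | hi
        · exact hPj
        · exact ht' P ((Submodule.add_mem_iff_right _
            (Submodule.smul_mem_smul hPj Submodule.mem_top)).1 hP) i hi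
      · have h3 := Submodule.sub_mem _ (Submodule.mem_sup_right (S := N) hP)
          (Submodule.mem_sup_left (T := I • (⊤ : Submodule S R)) (hN P))
        rwa [add_sub_cancel_right] at h3
  choose a ha hag using h1
  have h0 : ∏ j, a j ∉ I := fun h => by
    obtain ⟨j, -, hj⟩ := Ideal.IsPrime.prod_mem_iff.1 h
    exact ha j hj
  obtain ⟨s, hs, hsN⟩ := CTl_nak I N _ h0 (fun r => by
    have hr : r ∈ Submodule.span S (Set.range g) := by rw [hg]; trivial
    obtain ⟨c, rfl⟩ := (Submodule.mem_span_range_iff_exists_fun S).1 hr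
    rw [Finset.smul_sum]
    refine Submodule.sum_mem _ fun j _ => ?_
    rw [smul_comm, ← Finset.prod_erase_mul _ _ (Finset.mem_univ j), mul_smul]
    exact Submodule.smul_mem _ _ (Submodule.smul_mem _ _ (hag j)))
  refine ⟨m, t, fun i => g i, s, hs, fun r => ?_, fun P hP i => ?_⟩
  · obtain ⟨c, hc⟩ := (Submodule.mem_span_range_iff_exists_fun S).1 (hsN r)
    exact ⟨c, hc.symm⟩
  · have h4 := ht' (fun j => if h : j ∈ t then P ⟨j, h⟩ else 0) (by
      rw [← Finset.sum_coe_sort t]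
      simpa using hP) i i.2
    simpa using h4

omit [Module.Finite S R] [IsDomain S] [IsNoetherianRing S] [IsDomain R] in
theorem CTl_mem (x₀ x₁ : S) (r : R) :
    r ∈ Ideal.span {x₀, x₁} • (⊤ : Submodule S R) ↔ ∃ a b : R, r = x₀ • a + x₁ • b := by
  constructor
  · intro h
    refine Submodule.smul_induction_on h (fun x hx r _ => ?_) ?_
    · obtain ⟨a, b, rfl⟩ := Ideal.mem_span_pair.1 hx
      exact ⟨a • r, b • r, by rw [add_smul, mul_comm a, mul_comm b, mul_smul, mul_smul]⟩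
    · rintro _ _ ⟨a, b, rfl⟩ ⟨c, d, rfl⟩
      exact ⟨a + c, b + d, by rw [smul_add, smul_add]; abel⟩
  · rintro ⟨a, b, rfl⟩
    exact Submodule.add_mem _
      (Submodule.smul_mem_smul (Ideal.subset_span (by simp)) Submodule.mem_top)
      (Submodule.smul_mem_smul (Ideal.subset_span (by simp)) Submodule.mem_top)

omit [Module.Finite S R] in
/-- independence along a regular sequence -/
theorem CTl_ind {ι : Type} [Fintype ι] (x₀ x₁ : S) (h₀ : Prime x₀)
    (hq : Ideal.span {x₀, x₁} ≠ ⊤) (hy : algebraMap S R x₀ ≠ 0)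
    (hreg : ∀ r r' : R, x₁ • r = x₀ • r' → ∃ r'', r = x₀ • r'') (e : ι → R)
    (he : ∀ P : ι → S, ∑ i, P i • e i ∈ Ideal.span {x₀, x₁} • (⊤ : Submodule S R) →
      ∀ i, P i ∈ Ideal.span {x₀, x₁}) (P : ι → S) (hP : ∑ i, P i • e i = 0) : P = 0 := by
  let L : (ι → S) →ₗ[S] R := Fintype.linearCombination S e
  have hL : ∀ P, L P = ∑ i, P i • e i := fun P => Fintype.linearCombination_apply S e P
  let T : Submodule S (ι → S) := (LinearMap.range (LinearMap.lsmul S R x₀)).comap L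
  let N : Submodule S (ι → S) := LinearMap.range (LinearMap.lsmul S (ι → S) x₀)
  have h1 : T ≤ N ⊔ Ideal.span {x₁} • T := by
    rintro Q ⟨r, hr⟩
    have hr' : x₀ • r = L Q := hr
    have h2 := he Q (by
      rw [← hL, ← hr']
      exact Submodule.smul_mem_smul (Ideal.subset_span (by simp)) Submodule.mem_top)
    choose a b hab using fun i => Ideal.mem_span_pair.1 (h2 i)
    have hQ : Q = x₀ • a + x₁ • b := funext fun i => by
      simp only [Pi.add_apply, Pi.smul_apply, smul_eq_mul]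
      rw [← hab i]; ring
    have h3 : x₁ • L b = x₀ • (r - L a) := by
      rw [smul_sub, hr', hQ, map_add, map_smul, map_smul]; abel
    obtain ⟨r'', hr''⟩ := hreg _ _ h3
    rw [hQ]
    exact Submodule.add_mem_sup ⟨a, rfl⟩
      (Submodule.smul_mem_smul (Ideal.mem_span_singleton_self _) ⟨r'', hr''.symm⟩)
  obtain ⟨u, hu, huT⟩ := Submodule.exists_sub_one_mem_and_smul_le_of_fg_of_le_sup
    (IsNoetherian.noetherian T) le_rfl h1
  have hu0 : ¬ x₀ ∣ u := fun h => hq (by
    rw [Ideal.eq_top_iff_one]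
    have h4 : u ∈ Ideal.span {x₀, x₁} :=
      Ideal.span_mono (by simp) (Ideal.mem_span_singleton.2 h)
    have h5 : u - 1 ∈ Ideal.span {x₀, x₁} := Ideal.span_mono (by simp) hu
    simpa using Ideal.sub_mem _ h4 h5)
  have h6 : LinearMap.ker L ≤ Ideal.span {x₀} • LinearMap.ker L := by
    intro Q hQ
    have hQ' : L Q = 0 := hQ
    obtain ⟨a, ha⟩ := huT (Submodule.smul_mem_pointwise_smul Q u T ⟨0, by simp [hQ']⟩)
    have h7 : ∀ i, x₀ ∣ Q i := fun i => (h₀.dvd_or_dvd (a := u) (b := Q i)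
      ⟨a i, (congrFun ha i).symm⟩).resolve_left hu0
    choose b hb using h7
    have hQb : Q = x₀ • b := funext hb
    rw [hQb, map_smul, Algebra.smul_def, mul_eq_zero] at hQ'
    rw [hQb]
    exact Submodule.smul_mem_smul (Ideal.mem_span_singleton_self _) (hQ'.resolve_left hy)
  obtain ⟨v, hv, hv0⟩ := Submodule.exists_sub_one_mem_and_smul_eq_zero_of_fg_of_le_smul _ _
    (IsNoetherian.noetherian _) h6
  have hv1 : v ≠ 0 := by
    rintro rfl
    rw [zero_sub, neg_mem_iff, Ideal.mem_span_singleton] at hv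
    exact h₀.not_isUnit (isUnit_of_dvd_one hv)
  have h8 := hv0 P (by rw [LinearMap.mem_ker, hL]; exact hP)
  funext i
  exact (mul_eq_zero.1 (congrFun h8 i)).resolve_left hv1

omit [IsDomain S] [Module.Finite S R] in
/-- the pairing is nondegenerate -/
theorem CTl_nondeg [IsNoetherianRing R] (x₀ : S) (hx : x₀ ≠ 0) (q : Ideal R) (hq : q ≠ ⊤)
    (hxq : algebraMap S R x₀ ∈ q) (τ : R →ₗ[S] S)
    (hd : ∀ (b : R) (D : S), D ≠ 0 → (∀ r, D ∣ τ (b * r)) → ∃ r', b = D • r')
    [IsDomain S] (b : R) (hb : ∀ r, τ (b * r) = 0) : b = 0 := by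
  have h := Ideal.iInf_pow_eq_bot_of_isDomain (I := q) hq
  rw [← Ideal.mem_bot, ← h, Ideal.mem_iInf]
  intro k
  obtain ⟨r', rfl⟩ := hd b (x₀ ^ k) (pow_ne_zero _ hx) fun r => by rw [hb]; exact dvd_zero _
  rw [Algebra.smul_def, map_pow]
  exact Ideal.mul_mem_right _ _ (Ideal.pow_mem_pow hxq k)

/-- duality modulo the regular sequence -/
theorem CTl_dual (x₀ x₁ : S) (h₀ : Prime x₀) (q : Ideal R) [q.IsPrime]
    (hq : q.comap (algebraMap S R) = Ideal.span {x₀, x₁})
    (hinj : Function.Injective (algebraMap S R))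
    (hreg : ∀ r r' : R, x₁ • r = x₀ • r' → ∃ r'', r = x₀ • r'') (τ : R →ₗ[S] S)
    (hd : ∀ (b : R) (D : S), D ≠ 0 → (∀ r, D ∣ τ (b * r)) → ∃ r', b = D • r') :
    ∃ s ∉ Ideal.span {x₀, x₁}, ∀ b : R, (∀ r, τ (b * r) ∈ Ideal.span {x₀, x₁}) →
      ∃ a a' : R, s • b = x₀ • a + x₁ • a' := by
  classical
  have : IsNoetherianRing R := Algebra.FiniteType.isNoetherianRing S R
  have hp : (Ideal.span {x₀, x₁}).IsPrime := hq ▸ Ideal.comap_isPrime _ q
  have hx0 : algebraMap S R x₀ ∈ q := by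
    rw [← Ideal.mem_comap, hq]; exact Ideal.subset_span (by simp)
  have hnd := CTl_nondeg x₀ h₀.ne_zero q (Ideal.IsPrime.ne_top inferInstance) hx0 τ hd
  obtain ⟨m, t, e, s, hs, hsp, he⟩ := CTl_fib (R := R) (Ideal.span {x₀, x₁})
  have hind := CTl_ind x₀ x₁ h₀ hp.ne_top ((map_ne_zero_iff _ hinj).2 h₀.ne_zero) hreg e he
  have hs0 : s ≠ 0 := by rintro rfl; exact hs (Ideal.zero_mem _)
  have hsum : ∀ (b : R) (P : t → S), τ (b * ∑ i, P i • e i) = ∑ i, P i * τ (b * e i) := by
    intro b P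
    rw [Finset.mul_sum, map_sum]
    exact Finset.sum_congr rfl fun i _ => by rw [mul_smul_comm, map_smul, smul_eq_mul]
  have hs' : ∀ b r : R, ∃ P : t → S, τ (s • b * r) = ∑ i, P i * τ (b * e i) := by
    intro b r
    obtain ⟨P, hP⟩ := hsp r
    exact ⟨P, by rw [smul_mul_assoc, ← mul_smul_comm, hP, hsum]⟩
  have hz : ∀ b : R, (∀ i, τ (b * e i) = 0) → b = 0 := by
    intro b hb
    have h1 : s • b = 0 := hnd _ fun r => by
      obtain ⟨P, hP⟩ := hs' b r
      rw [hP]; simp [hb]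
    rw [Algebra.smul_def, mul_eq_zero] at h1
    exact h1.resolve_left ((map_ne_zero_iff _ hinj).2 hs0)
  let Gm : Matrix t t S := Matrix.of fun i j => τ (e i * e j)
  have hG : ∀ (c : t → S) i, τ ((∑ j, c j • e j) * e i) = Gm.mulVec c i := by
    intro c i
    rw [mul_comm, hsum, Matrix.mulVec, dotProduct]
    exact Finset.sum_congr rfl fun j _ => mul_comm _ _
  have hD : Gm.det ≠ 0 := fun h => by
    obtain ⟨c, hc, hc0⟩ := Matrix.exists_mulVec_eq_zero_iff.2 h
    exact hc (hind c (hz _ fun i => by rw [hG, hc0]; rfl))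
  have hlift : ∀ a : t → S, ∃ b : R, ∀ i, τ (b * e i) = s * a i := by
    intro a
    have h1 : ∀ i, τ ((∑ j, Gm.adjugate.mulVec a j • e j) * e i) = Gm.det * a i := by
      intro i
      rw [hG, Matrix.mulVec_mulVec, Matrix.mul_adjugate, Matrix.smul_mulVec, Matrix.one_mulVec]
      rfl
    obtain ⟨b, hb⟩ := hd (s • ∑ j, Gm.adjugate.mulVec a j • e j) Gm.det hD fun r => by
      obtain ⟨P, hP⟩ := hs' (∑ j, Gm.adjugate.mulVec a j • e j) r
      rw [hP]
      exact Finset.dvd_sum fun i _ => by rw [h1]; exact (dvd_mul_right _ _).mul_left _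
    refine ⟨b, fun i => mul_left_cancel₀ hD ?_⟩
    have h2 := congrArg (fun x => τ (x * e i)) hb
    simp only [smul_mul_assoc, map_smul, smul_eq_mul, h1] at h2
    rw [← h2]; ring
  refine ⟨s, hs, fun b hb => ?_⟩
  choose a a' haa using fun i => Ideal.mem_span_pair.1 (hb (e i))
  obtain ⟨b₀, hb₀⟩ := hlift a
  obtain ⟨b₁, hb₁⟩ := hlift a'
  refine ⟨b₀, b₁, sub_eq_zero.1 (hz _ fun i => ?_)⟩
  rw [sub_mul, add_mul, smul_mul_assoc, smul_mul_assoc, smul_mul_assoc, map_sub, map_add,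
    map_smul, map_smul, map_smul, hb₀, hb₁, ← haa i]
  simp only [smul_eq_mul]
  ring

omit [IsNoetherianRing S] in
/-- the dual of a finite domain has rank one -/
theorem CTl_rank (hinj : Function.Injective (algebraMap S R)) (l l' : R →ₗ[S] S) (hl : l ≠ 0) :
    ∃ s t : R, s ≠ 0 ∧ ∀ r, l' (s * r) = l (t * r) := by
  classical
  have htf : ∀ (l : R →ₗ[S] S) (t : R), t ≠ 0 → (∀ r, l (t * r) = 0) → l = 0 := by
    intro l t ht h
    have h1 := Ideal.comap_ne_bot_of_integral_mem ht (Ideal.mem_span_singleton_self t)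
      (Algebra.IsIntegral.isIntegral (R := S) t)
    obtain ⟨N, hN, hN0⟩ := Submodule.exists_mem_ne_zero_of_ne_bot h1
    obtain ⟨u, hu⟩ := Ideal.mem_span_singleton'.1 (Ideal.mem_comap.1 hN)
    ext r
    have h2 := h (u * r)
    rw [← mul_assoc, mul_comm t, hu, ← Algebra.smul_def, map_smul, smul_eq_mul] at h2
    exact (mul_eq_zero.1 h2).resolve_left hN0
  obtain ⟨m, t, e, s, hs, hsp, he⟩ := CTl_fib (R := R) (⊥ : Ideal S)
  have hli : LinearIndependent S e := Fintype.linearIndependent_iff.2 fun P hP i =>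
    Ideal.mem_bot.1 (he P (by rw [hP]; exact Submodule.zero_mem _) i)
  have hs0 : s ≠ 0 := fun h => hs (Ideal.mem_bot.2 h)
  let Φ : (R × R) →ₗ[S] (t → S) := LinearMap.pi fun i =>
    (l'.comp (LinearMap.mulRight S (e i))).comp (LinearMap.fst S R R) -
      (l.comp (LinearMap.mulRight S (e i))).comp (LinearMap.snd S R R)
  have hne : Nonempty t := by
    by_contra h
    rw [not_nonempty_iff] at h
    obtain ⟨P, hP⟩ := hsp 1
    rw [Finset.univ_eq_empty, Finset.sum_empty, Algebra.smul_def, mul_one] at hP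
    exact hs0 (hinj (by rw [hP, map_zero]))
  have hni : ¬ Function.Injective Φ := fun h => by
    have h1 : LinearIndependent S (Sum.elim (LinearMap.inl S R R ∘ e) (LinearMap.inr S R R ∘ e)) :=
      linearIndependent_inl_union_inr' hli hli
    have h2 := (h1.map' Φ (LinearMap.ker_eq_bot.2 h)).fintype_card_le_finrank
    rw [Fintype.card_sum, Module.finrank_fintype_fun_eq_card] at h2
    have := Fintype.card_pos (α := t)
    omega
  rw [← LinearMap.ker_eq_bot] at hni
  obtain ⟨⟨a, b⟩, hab, hab0⟩ := Submodule.exists_mem_ne_zero_of_ne_bot hni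
  have h3 : ∀ r, l' (a * r) = l (b * r) := by
    intro r
    obtain ⟨P, hP⟩ := hsp r
    refine mul_left_cancel₀ hs0 ?_
    change s • l' (a * r) = s • l (b * r)
    rw [← map_smul, ← map_smul, ← mul_smul_comm, ← mul_smul_comm, hP,
      Finset.mul_sum, Finset.mul_sum, map_sum, map_sum]
    refine Finset.sum_congr rfl fun i _ => ?_
    have h4 : l' (a * e i) - l (b * e i) = 0 := congrFun (LinearMap.mem_ker.1 hab) i
    rw [mul_smul_comm, mul_smul_comm, map_smul, map_smul, sub_eq_zero.1 h4]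
  refine ⟨a, b, ?_, h3⟩
  rintro rfl
  have hb : b ≠ 0 := by rintro rfl; exact hab0 rfl
  exact hl (htf l b hb fun r => by rw [← h3, zero_mul, map_zero])

omit [IsNoetherianRing S] [IsDomain S] [IsDomain R] in
theorem CTl_rank_q (q : Ideal R) [q.IsPrime] (l l' : R →ₗ[S] S)
    (hl : ∀ r ∈ q, l r ∈ q.comap (algebraMap S R)) (hl' : ∀ r ∈ q, l' r ∈ q.comap (algebraMap S R))
    (r₀ : R) (h₀ : l r₀ ∉ q.comap (algebraMap S R)) :
    ∃ s t : R, s ∉ q ∧ ∀ r, l' (s * r) - l (t * r) ∈ q.comap (algebraMap S R) := by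
  have key : ∀ l : R →ₗ[S] S, (∀ r ∈ q, l r ∈ q.comap (algebraMap S R)) →
      ∃ L : (R ⧸ q) →ₗ[S ⧸ q.comap (algebraMap S R)] (S ⧸ q.comap (algebraMap S R)),
        ∀ r, L (Ideal.Quotient.mk q r) = Ideal.Quotient.mk _ (l r) := by
    intro l hl
    refine ⟨LinearMap.extendScalarsOfSurjective Ideal.Quotient.mk_surjective
      (((q.restrictScalars S).liftQ ((q.comap (algebraMap S R)).mkQ.comp l) fun r hr =>
        Ideal.Quotient.eq_zero_iff_mem.2 (hl r hr)).comp
        (Submodule.Quotient.restrictScalarsEquiv S q).symm.toLinearMap), fun r => rfl⟩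
  obtain ⟨L, hL⟩ := key l hl
  obtain ⟨L', hL'⟩ := key l' hl'
  have : Module.Finite (S ⧸ q.comap (algebraMap S R)) (R ⧸ q) :=
    Module.Finite.of_restrictScalars_finite S _ _
  obtain ⟨s, t, hs, hst⟩ := CTl_rank Ideal.algebraMap_quotient_injective L L' (fun h => h₀ (by
    rw [← Ideal.Quotient.eq_zero_iff_mem, ← hL, h, LinearMap.zero_apply]))
  obtain ⟨s, rfl⟩ := Ideal.Quotient.mk_surjective s
  obtain ⟨t, rfl⟩ := Ideal.Quotient.mk_surjective t
  refine ⟨s, t, fun h => hs (Ideal.Quotient.eq_zero_iff_mem.2 h), fun r => ?_⟩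
  rw [← Ideal.Quotient.eq, ← hL, ← hL']
  exact hst (Ideal.Quotient.mk q r)

/-- the socle argument -/
theorem CTl_abs (x₀ x₁ : S) (h₀ : Prime x₀) (q : Ideal R) [q.IsPrime]
    (hq : q.comap (algebraMap S R) = Ideal.span {x₀, x₁})
    (hinj : Function.Injective (algebraMap S R))
    (hreg : ∀ r r' : R, x₁ • r = x₀ • r' → ∃ r'', r = x₀ • r'') (τ : R →ₗ[S] S)
    (hd : ∀ (b : R) (D : S), D ≠ 0 → (∀ r, D ∣ τ (b * r)) → ∃ r', b = D • r')
    (c : R) (hc : c ∉ q) (h2 : ∀ a ∈ q, ∀ b ∈ q, τ (c * a * b) ∈ Ideal.span {x₀, x₁})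
    (J : Ideal R) (hJ₀ : algebraMap S R x₀ ∈ J) (hJ₁ : algebraMap S R x₁ ∈ J) :
    (∀ r ∈ q, ∃ s, s ∉ q ∧ s * r ∈ J) ∨ ∃ z ∈ q, (∃ r, τ (c * z * r) ∉ Ideal.span {x₀, x₁}) ∧
      ∃ s ∉ q, (∀ r ∈ q, s * r ∈ Ideal.span {z} ⊔ J) ∧ s * z ^ 2 ∈ J := by
  have : IsNoetherianRing R := Algebra.FiniteType.isNoetherianRing S R
  obtain ⟨s, hs, hsd⟩ := CTl_dual x₀ x₁ h₀ q hq hinj hreg τ hd
  have hsq : algebraMap S R s * c ∉ q := fun h =>
    (Ideal.IsPrime.mem_or_mem inferInstance h).elim (fun h => hs (hq ▸ h)) hc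
  have hJ : ∀ b : R, (∀ r, τ (c * b * r) ∈ Ideal.span {x₀, x₁}) →
      algebraMap S R s * c * b ∈ J := by
    intro b hb
    obtain ⟨a, a', h⟩ := hsd (c * b) hb
    rw [mul_assoc, ← Algebra.smul_def, h, Algebra.smul_def, Algebra.smul_def]
    exact J.add_mem (J.mul_mem_right _ hJ₀) (J.mul_mem_right _ hJ₁)
  by_cases h : ∀ z ∈ q, ∀ r, τ (c * z * r) ∈ Ideal.span {x₀, x₁}
  · exact Or.inl fun r hr => ⟨_, hsq, hJ r (h r hr)⟩
  · simp only [not_forall] at h
    obtain ⟨z, hz, r₀, hr₀⟩ := h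
    refine Or.inr ⟨z, hz, ⟨r₀, hr₀⟩, ?_⟩
    have h3 : ∀ x ∈ q, ∃ u, u ∉ q ∧ u * x ∈ Ideal.span {z} ⊔ J := by
      intro x hx
      obtain ⟨u, t, hu, hut⟩ := CTl_rank_q q (τ.comp (LinearMap.mulLeft S (c * z)))
        (τ.comp (LinearMap.mulLeft S (c * x))) (fun r hr => hq ▸ h2 z hz r hr)
        (fun r hr => hq ▸ h2 x hx r hr) r₀ (hq ▸ hr₀)
      have h4 := hJ (u * x - t * z) fun r => by
        have h5 : τ (c * x * (u * r)) - τ (c * z * (t * r)) ∈ q.comap (algebraMap S R) := hut r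
        rw [← map_sub, hq] at h5
        have h6 : c * (u * x - t * z) * r = c * x * (u * r) - c * z * (t * r) := by ring
        rw [h6]; exact h5
      refine ⟨algebraMap S R s * c * u, fun h =>
        (Ideal.IsPrime.mem_or_mem inferInstance h).elim hsq hu, ?_⟩
      have h7 : algebraMap S R s * c * u * x =
          algebraMap S R s * c * t * z + algebraMap S R s * c * (u * x - t * z) := by ring
      rw [h7]
      exact Submodule.add_mem_sup (Ideal.mul_mem_left _ _ (Ideal.mem_span_singleton_self z)) h4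
    obtain ⟨k, g, hg⟩ := Submodule.fg_iff_exists_fin_generating_family.1 (IsNoetherian.noetherian q)
    have hgq : ∀ i, g i ∈ q := fun i => hg ▸ Submodule.subset_span ⟨i, rfl⟩
    choose u hu hug using fun i => h3 (g i) (hgq i)
    have hU : ∏ i, u i ∉ q := fun h => by
      obtain ⟨j, -, hj⟩ := Ideal.IsPrime.prod_mem_iff.1 h
      exact hu j hj
    refine ⟨(∏ i, u i) * (algebraMap S R s * c), fun h =>
      (Ideal.IsPrime.mem_or_mem inferInstance h).elim hU hsq, fun r hr => ?_, ?_⟩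
    · rw [← hg] at hr
      obtain ⟨a, rfl⟩ := (Submodule.mem_span_range_iff_exists_fun R).1 hr
      rw [Finset.mul_sum]
      refine Ideal.sum_mem _ fun j _ => ?_
      have h8 : (∏ i, u i) * (algebraMap S R s * c) * a j • g j =
          (∏ i ∈ Finset.univ.erase j, u i) * (algebraMap S R s * c) * a j * (u j * g j) := by
        rw [← Finset.prod_erase_mul _ _ (Finset.mem_univ j), smul_eq_mul]; ring
      rw [h8]
      exact Ideal.mul_mem_left _ _ (hug j)
    · rw [mul_assoc]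
      refine J.mul_mem_left _ (hJ _ fun r => ?_)
      have h9 : c * z ^ 2 * r = c * z * (z * r) := by ring
      rw [h9]
      exact h2 z hz _ (q.mul_mem_right r hz)

end Vale.Agent.P282
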