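import Vale.Agent.P282.CTr
import Vale.Agent.P282.CTl_a

set_option linter.unusedSectionVars false

noncomputable section

namespace Vale.Agent.P282

variable {R K : Type} [CommRing R] [IsDomain R] [Algebra ℂ R] [Algebra.FiniteType ℂ R]
  [IsIntegrallyClosed R] [Field K] [Algebra R K] [IsFractionRing R K] [Algebra ℂ K]
  [IsScalarTower ℂ R K] {n : ℕ}

theorem CTl_vX {L : Type} [Field L] [Algebra ℂ L] {w : RVal L} {y : Fin n → L} {c : Fin n → ℝ}
    (h : ∀ P : MvPolynomial (Fin n) ℂ, P ≠ 0 → MvPolynomial.aeval y P ≠ 0 ∧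
      (∃ α ∈ P.support, w.v (MvPolynomial.aeval y P) = ∑ i, c i * α i) ∧
      ∀ α ∈ P.support, w.v (MvPolynomial.aeval y P) ≤ ∑ i, c i * α i) (i : Fin n) :
    y i ≠ 0 ∧ w.v (y i) = c i := by
  classical
  obtain ⟨h1, ⟨α, hα, h2⟩, -⟩ := h (MvPolynomial.X i) (MvPolynomial.X_ne_zero i)
  rw [MvPolynomial.support_X, Finset.mem_singleton] at hα
  rw [MvPolynomial.aeval_X] at h1 h2
  refine ⟨h1, ?_⟩
  rw [h2, hα, Finset.sum_eq_single i]
  · simp
  · intro j _ hj
    simp [Finsupp.single_apply, hj.symm]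
  · simp

/-- no prime of height one contains two coordinates -/
theorem CTl_ht (π : Proj R n) {i j : Fin n} (hij : i ≠ j) (p : Ideal R) [p.IsPrime]
    (hp : p.height = 1) (hi : π.y i ∈ p) : π.y j ∉ p := by
  intro hj
  obtain ⟨k, rfl⟩ : ∃ k, n = k + 1 := ⟨n - 1, by have := i.2; omega⟩
  have h1 := (height_one_iff π.trdeg p).1 hp
  have hint : (MvPolynomial.aeval π.y : MvPolynomial (Fin (k + 1)) ℂ →ₐ[ℂ] R).toRingHom.IsIntegral :=
    RingHom.Finite.to_isIntegral π.fin
  rw [← td_comap _ hint p] at h1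
  have hS : Algebra.trdeg ℂ (MvPolynomial (Fin (k + 1)) ℂ) = (k + 1 : ℕ) := by
    rw [MvPolynomial.trdeg_of_isDomain]; simp
  have h2 := (height_one_iff hS _).2 h1
  have hX : Prime (MvPolynomial.X i : MvPolynomial (Fin (k + 1)) ℂ) := MvPolynomial.X_prime
  have := (Ideal.span_singleton_prime hX.ne_zero).2 hX
  have h3 : Ideal.span {(MvPolynomial.X i : MvPolynomial (Fin (k + 1)) ℂ)} <
      p.comap (MvPolynomial.aeval π.y : MvPolynomial (Fin (k + 1)) ℂ →ₐ[ℂ] R) := by
    refine lt_of_le_of_ne ((Ideal.span_singleton_le_iff_mem _).2 (by simpa using hi)) fun h => ?_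
    have h4 : MvPolynomial.X j ∈
        p.comap (MvPolynomial.aeval π.y : MvPolynomial (Fin (k + 1)) ℂ →ₐ[ℂ] R) := by
      simpa using hj
    rw [← h, Ideal.mem_span_singleton, MvPolynomial.X_dvd_X] at h4
    exact hij h4
  have h5 := Ideal.height_add_one_le_of_lt_of_isPrime h3
  have h6 := Ideal.one_le_height_span_singleton_of_mem_nonZeroDivisors
    (mem_nonZeroDivisors_of_ne_zero hX.ne_zero)
  rw [h2] at h5
  have h7 : (1 : ℕ∞) + 1 ≤ 1 := (add_le_add_left h6 1).trans h5
  exact absurd h7 (by decide)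

theorem CTl_y_ne (π : Proj R n) (i : Fin n) : π.y i ≠ 0 := π.ind.ne_zero i

/-- two coordinates form a regular sequence -/
theorem CTl_reg (K : Type) [Field K] [Algebra R K] [IsFractionRing R K] [Algebra ℂ K]
    [IsScalarTower ℂ R K] (π : Proj R n) {i j : Fin n} (hij : i ≠ j) (r r' : R)
    (h : π.y j * r = π.y i * r') : ∃ r'', r = π.y i * r'' := by
  have hinj := IsFractionRing.injective R K
  have hi : algebraMap R K (π.y i) ≠ 0 := (map_ne_zero_iff _ hinj).2 (CTl_y_ne π i)
  obtain ⟨t, ht⟩ := hartogs (R := R) (a := algebraMap R K r / algebraMap R K (π.y i))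
    fun p _ hp => by
      by_cases hy : π.y i ∈ p
      · refine ⟨r', π.y j, CTl_ht π hij p hp hy, ?_⟩
        rw [div_mul_eq_mul_div, div_eq_iff hi, ← map_mul, ← map_mul, mul_comm r, h, mul_comm]
      · exact ⟨r, π.y i, hy, div_mul_cancel₀ _ hi⟩
  refine ⟨t, hinj ?_⟩
  rw [map_mul, ht, mul_div_cancel₀ _ hi]

/-- the coefficients of a square lie in `q` -/
theorem CTl_last (K : Type) [Field K] [Algebra R K] [IsFractionRing R K] [Algebra ℂ K]
    [IsScalarTower ℂ R K] (π : Proj R n) (q : Ideal R) [q.IsPrime] {i j : Fin n} (hij : i ≠ j)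
    (hr : ∀ w : RVal K, w.CenteredAt q → ∀ r ∈ q,
      w.Ge (algebraMap R K r) (w.v (algebraMap R K (π.y i))) ∨
        w.Ge (algebraMap R K r) (w.v (algebraMap R K (π.y j))))
    (hq : q.comap (MvPolynomial.aeval π.y : MvPolynomial (Fin n) ℂ →ₐ[ℂ] R) =
      Ideal.span {P | ∃ k : Fin n, (k = i ∨ k = j) ∧ P = MvPolynomial.X k})
    {s z a b : R} (hz : z ∈ q) (h : a * π.y i + b * π.y j = s * z ^ 2) : a ∈ q := by
  classical
  by_contra ha
  have hinj := IsFractionRing.injective R K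
  obtain ⟨w, hw, hm⟩ := exists_mon K π (fun k => if k = i then 1 else if k = j then 2 else 0)
    (fun k => by split_ifs <;> norm_num) q (by
      rw [hq]
      congr 1
      ext P
      refine exists_congr fun k => and_congr_left fun _ => ?_
      by_cases h1 : k = i
      · simp [h1]
      · by_cases h2 : k = j
        · simp [h2, hij.symm]
        · simp [h1, h2])
  obtain ⟨hi0, hi⟩ := CTl_vX hm i
  obtain ⟨-, hj⟩ := CTl_vX hm j
  simp only [if_true] at hi
  simp only [if_neg hij.symm, if_true] at hj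
  have hz1 : w.Ge (algebraMap R K z) 1 := by
    rcases hr w hw z hz with h1 | h1
    · rwa [hi] at h1
    · rw [hj] at h1; exact h1.mono (by norm_num)
  have h2 : w.Ge (algebraMap R K s * algebraMap R K z ^ 2 -
      algebraMap R K b * algebraMap R K (π.y j)) 2 := by
    refine RVal.Ge.sub (((hw.1 s).mul (hz1.pow 2)).mono (by norm_num))
      (((hw.1 b).mul (RVal.Ge.self _)).mono ?_)
    rw [hj]; norm_num
  have h3 : algebraMap R K s * algebraMap R K z ^ 2 - algebraMap R K b * algebraMap R K (π.y j) =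
      algebraMap R K a * algebraMap R K (π.y i) := by
    rw [← map_pow, ← map_mul, ← h, map_add, map_mul, map_mul]; ring
  have ha0 : algebraMap R K a ≠ 0 := (map_ne_zero_iff _ hinj).2 fun h => ha (h ▸ q.zero_mem)
  have h4 : w.v (algebraMap R K a) ≤ 0 := not_lt.1 fun h => ha ((hw.2 a ha0).1 h)
  rw [h3] at h2
  rcases h2 with h2 | h2
  · exact mul_ne_zero ha0 hi0 h2
  · rw [w.mul _ _ ha0 hi0, hi] at h2
    linarith

end Vale.Agent.P282
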