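import Vale.Agent.P282.AEmb
import Vale.Agent.P282.UMon
import Vale.Agent.P282.AHart
import Vale.Agent.P282.ATd

set_option linter.unusedSectionVars false

open scoped ENNReal TensorProduct Topology
open Filter MeasureTheory

noncomputable section

namespace Vale.Agent.P282

variable {R K : Type} [CommRing R] [IsDomain R] [Algebra ℂ R] [Algebra.FiniteType ℂ R]
  [IsIntegrallyClosed R] [Field K] [Algebra R K] [IsFractionRing R K] [Algebra ℂ K]
  [IsScalarTower ℂ R K] {n : ℕ}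

open MvPolynomial

theorem CTr_td (m : ℕ) : Algebra.trdeg ℂ (MvPolynomial (Fin m) ℂ) = m := by
  simp [MvPolynomial.trdeg_of_isDomain]

omit [IsIntegrallyClosed R] in
theorem CTr_pos (h : Algebra.trdeg ℂ R = n) (p : Ideal R) [p.IsPrime] (hp : p ≠ ⊥) :
    ∃ m, n = m + 1 := by
  have h1 := td_lt (p := (⊥ : Ideal R)) (q := p) (bot_lt_iff_ne_bot.2 hp)
  rw [(AlgEquiv.quotientBot ℂ R).trdeg_eq, h] at h1
  cases n with
  | zero => simp at h1
  | succ m => exact ⟨m, rfl⟩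

omit [IsIntegrallyClosed R] in
theorem CTr_int (π : Proj R n) :
    (aeval π.y : MvPolynomial (Fin n) ℂ →ₐ[ℂ] R).toRingHom.IsIntegral :=
  RingHom.Finite.to_isIntegral π.fin

omit [IsIntegrallyClosed R] in
theorem CTr_A (π : Proj R n) (p : Ideal R) [p.IsPrime] (hp : p.height = 1) :
    ∃ Q : MvPolynomial (Fin n) ℂ, Prime Q ∧ ∀ P, aeval π.y P ∈ p ↔ Q ∣ P := by
  obtain ⟨m, rfl⟩ := CTr_pos π.trdeg p (p.ne_bot_of_height_eq_one hp)
  have h1 := (height_one_iff π.trdeg p).1 hp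
  have h2 := td_comap (aeval π.y) (CTr_int π) p
  have : (p.comap (aeval π.y : MvPolynomial (Fin (m + 1)) ℂ →ₐ[ℂ] R)).IsPrime :=
    Ideal.comap_isPrime _ _
  have h3 := (height_one_iff (CTr_td (m + 1)) _).2 (h2.trans h1)
  obtain ⟨Q, hQ, hQ'⟩ := Ideal.IsPrime.exists_mem_prime_of_ne_bot this
    (Ideal.ne_bot_of_height_eq_one h3)
  refine ⟨Q, hQ', fun P => ?_⟩
  rw [← Ideal.mem_span_singleton, ← Ideal.eq_span_singleton_of_height_eq_one h3 hQ hQ',
    Ideal.mem_comap]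

omit [IsIntegrallyClosed R] in
theorem CTr_B (π : Proj R n) {Q : MvPolynomial (Fin n) ℂ} (hQ : Prime Q) :
    ∃ p : Ideal R, p.IsPrime ∧ p.height = 1 ∧ ∀ P, aeval π.y P ∈ p ↔ Q ∣ P := by
  have hq : (Ideal.span {Q}).IsPrime := (Ideal.span_singleton_prime hQ.ne_zero).2 hQ
  obtain ⟨m, rfl⟩ := CTr_pos (CTr_td n) (Ideal.span {Q}) (by simpa using hQ.ne_zero)
  have h1 := (height_one_iff (CTr_td (m + 1)) _).1
    (Ideal.height_span_singleton_eq_one_of_mem_nonZeroDivisors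
      (mem_nonZeroDivisors_of_ne_zero hQ.ne_zero) hQ.not_isUnit)
  let φ : MvPolynomial (Fin (m + 1)) ℂ →ₐ[ℂ] R := aeval π.y
  let _ := φ.toRingHom.toAlgebra
  have : Algebra.IsIntegral (MvPolynomial (Fin (m + 1)) ℂ) R := ⟨CTr_int π⟩
  obtain ⟨p, -, hp, hc⟩ := Ideal.exists_ideal_over_prime_of_isIntegral (Ideal.span {Q})
    (⊥ : Ideal R) (by
      intro x hx
      have : φ x = 0 := hx
      rw [(injective_iff_map_eq_zero _).1 π.ind x this]
      exact zero_mem _)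
  have hc' : p.comap φ = Ideal.span {Q} := hc
  have h2 := td_comap φ (CTr_int π) p
  rw [hc'] at h2
  refine ⟨p, hp, (height_one_iff π.trdeg p).2 (h2.symm.trans h1), fun P => ?_⟩
  rw [← Ideal.mem_span_singleton, ← hc', Ideal.mem_comap]

theorem CTr_pd {Q : MvPolynomial (Fin n) ℂ} (hQ : Prime Q) : ∃ j, ¬ Q ∣ pderiv j Q := by
  classical
  by_contra h
  push Not at h
  have h0 : Q.totalDegree ≠ 0 := by
    intro h0
    rw [totalDegree_eq_zero_iff_eq_C] at h0
    apply hQ.not_isUnit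
    rw [h0]
    refine IsUnit.map C (IsUnit.mk0 _ fun h1 => hQ.ne_zero ?_)
    rw [h0, h1, map_zero]
  obtain ⟨d, hd, hd'⟩ := Finset.exists_mem_eq_sup Q.support
    (support_nonempty.2 hQ.ne_zero) fun s => s.sum fun _ e => e
  have hd0 : d ≠ 0 := by
    rintro rfl
    exact h0 (hd'.trans (by simp))
  obtain ⟨j, hj⟩ : ∃ j, d j ≠ 0 := by
    by_contra h1
    push Not at h1
    exact hd0 (Finsupp.ext h1)
  have hne : pderiv j Q ≠ 0 := by
    intro h1
    have := coeff_pderiv (i := j) Q (d - Finsupp.single j 1)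
    rw [h1, coeff_zero, tsub_add_cancel_of_le (Finsupp.single_le_iff.2 (by omega))] at this
    rcases mul_eq_zero.1 this.symm with h2 | h2
    · exact mem_support_iff.1 hd h2
    · exact Nat.cast_add_one_ne_zero _ h2
  obtain ⟨c, hc⟩ := h j
  have hc0 : c ≠ 0 := by
    rintro rfl
    exact hne (by simpa using hc)
  have h1 := totalDegree_mul_of_isDomain hQ.ne_zero hc0
  rw [← hc] at h1
  obtain ⟨e, he, he'⟩ := Finset.exists_mem_eq_sup (pderiv j Q).support
    (support_nonempty.2 hne) fun s => s.sum fun _ e => e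
  have h2 : e + Finsupp.single j 1 ∈ Q.support := by
    rw [mem_support_iff] at he ⊢
    rw [coeff_pderiv] at he
    exact left_ne_zero_of_mul he
  have h3 := le_totalDegree h2
  rw [Finsupp.sum_add_index' (fun _ => rfl) (fun _ _ _ => rfl)] at h3
  have h4 : (pderiv j Q).totalDegree = e.sum fun _ e => e := he'
  simp at h3
  omega

/-- rescaling of a valuation -/
def CTr_sc (w : RVal K) (c : ℝ) (hc : 0 < c) : RVal K where
  v a := w.v a / c
  mul a b ha hb := by rw [w.mul a b ha hb, add_div]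
  add a b ha hb h := by
    rw [min_div_div_right hc.le]
    exact div_le_div_of_nonneg_right (w.add a b ha hb h) hc.le
  const a ha := by rw [w.const a ha, zero_div]

theorem CTr_v0 {p : Ideal R} [p.IsPrime] {w : RVal K} (hw : w.CenteredAt p) {r : R} (hr : r ∉ p) :
    algebraMap R K r ≠ 0 ∧ w.v (algebraMap R K r) = 0 := by
  have h0 : algebraMap R K r ≠ 0 := by
    intro h
    rw [(IsFractionRing.to_map_eq_zero_iff).1 h] at hr
    exact hr (zero_mem _)
  refine ⟨h0, le_antisymm (not_lt.1 fun h => hr ((hw.2 r h0).1 h)) ((hw.1 r).resolve_left h0)⟩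

theorem CTr_ne (π : Proj R n) {P : MvPolynomial (Fin n) ℂ} (hP : P ≠ 0) :
    algebraMap R K (aeval π.y P) ≠ 0 := by
  rw [Ne, IsFractionRing.to_map_eq_zero_iff]
  exact fun h => hP ((injective_iff_map_eq_zero _).1 π.ind P h)

theorem CTr_C (K : Type) [Field K] [Algebra R K] [IsFractionRing R K] [Algebra ℂ K]
    [IsScalarTower ℂ R K] (π : Proj R n) {Q : MvPolynomial (Fin n) ℂ} (hQ : Prime Q) :
    ∃ w : RVal (Cl K), w.v (io K (aeval π.y Q)) = 1 ∧
      (∀ P, ¬ Q ∣ P → w.v (io K (aeval π.y P)) = 0) ∧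
      ∀ P : MvPolynomial (Fin n) ℂ, w.Ge (io K (aeval π.y P)) 0 := by
  obtain ⟨p, hp, h1, h2⟩ := CTr_B π hQ
  obtain ⟨w, hw, -, -, -⟩ := exists_ord (K := K) p h1
  have hQ0 := CTr_ne (K := K) π hQ.ne_zero
  have he := (hw.2 _ hQ0).2 ((h2 Q).2 dvd_rfl)
  obtain ⟨w', hw'⟩ := ext_val (L := Cl K) (CTr_sc w _ he)
  have e : ∀ r : R, io K r = algebraMap K (Cl K) (algebraMap R K r) := fun _ => rfl
  refine ⟨w', ?_, fun P hP => ?_, fun P => ?_⟩
  · rw [e, hw' _ hQ0]
    exact div_self he.ne'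
  · obtain ⟨h3, h4⟩ := CTr_v0 hw (r := aeval π.y P) (fun h => hP ((h2 P).1 h))
    rw [e, hw' _ h3]
    show _ / _ = _
    rw [h4, zero_div]
  · by_cases h3 : algebraMap R K (aeval π.y P) = 0
    · exact Or.inl (by rw [e, h3, map_zero])
    · refine Or.inr ?_
      rw [e, hw' _ h3]
      exact div_nonneg ((hw.1 _).resolve_left h3) he.le

theorem CTr_sy (π : Proj R n) (σ : π.Emb K) (P : MvPolynomial (Fin n) ℂ) :
    σ.1 (aeval π.y P) = io K (aeval π.y P) :=
  congrArg Subtype.val (π.em_y σ ⟨io K, π.io_mem⟩ P)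

theorem CTr_ess (_π : Proj R n) : Algebra.EssFiniteType ℂ K :=
  have : Algebra.EssFiniteType R K := .of_isLocalization K (nonZeroDivisors R)
  .comp ℂ R K

theorem CTr_io (π : Proj R n) {P : MvPolynomial (Fin n) ℂ} (hP : P ≠ 0) :
    io K (aeval π.y P) ≠ 0 :=
  (map_ne_zero (algebraMap K (Cl K))).2 (CTr_ne π hP)

theorem CTr_term (G : WS R K n) (hm : G.ω.m = 1) (π : Proj R n) (σ : π.Emb K)
    (φ : K →ₐ[ℂ] Cl K) (hφ : ∀ r, φ (algebraMap R K r) = σ.1 r) {Q : MvPolynomial (Fin n) ℂ}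
    (hQ : Prime Q) {w : RVal (Cl K)} (h1 : w.v (io K (aeval π.y Q)) = 1)
    (h0 : ∀ P, ¬ Q ∣ P → w.v (io K (aeval π.y P)) = 0)
    (h2 : ∀ P : MvPolynomial (Fin n) ℂ, w.Ge (io K (aeval π.y P)) 0) :
    (w.comap φ).OnSpec R ∧ w.v (φ (algebraMap R K (G.ρ π.y))) < 1 := by
  have := CTr_ess (K := K) π
  have e : ∀ P : MvPolynomial (Fin n) ℂ,
      (w.comap φ).v (algebraMap R K (aeval π.y P)) = w.v (io K (aeval π.y P)) := fun P => by
    show w.v (φ _) = _
    rw [hφ, CTr_sy]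
  have e' : ∀ P : MvPolynomial (Fin n) ℂ, aeval (fun i => algebraMap R K (π.y i)) P =
      algebraMap R K (aeval π.y P) := fun P => aeval_algebraMap_apply K π.y P
  have ho : (w.comap φ).OnSpec R := by
    refine RVal.onSpec_of_proj π fun i => Or.inr ?_
    have h3 := e (X i)
    rw [aeval_X] at h3
    have h4 := (h2 (X i)).resolve_left (CTr_io π (X_ne_zero i))
    rw [aeval_X] at h4
    rwa [h3]
  refine ⟨ho, ?_⟩
  have h3 := G.klt (w.comap φ) ⟨_, CTr_ne π hQ.ne_zero, by rw [e, h1]; exact one_ne_zero⟩ ho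
  have h4 := A_div G.ω _ (π.jac_ne G.ω) (w := w.comap φ) hQ.irreducible (by rw [e', e, h1])
    (fun P hP => by rw [e', e, h0 P hP])
  have h5 := h3.trans_le h4
  rw [← G.ρ_eq, hm] at h5
  have h6 : (0 : ℝ) < _ := EReal.coe_pos.1 h5
  have h7 : (w.comap φ).v (algebraMap R K (G.ρ π.y)) = w.v (φ (algebraMap R K (G.ρ π.y))) := rfl
  rw [h7] at h6
  simp at h6
  exact h6

theorem CTr_dvd (π : Proj R n) (T : Cl K)
    (hT : ∀ Q : MvPolynomial (Fin n) ℂ, Prime Q → ∀ w : RVal (Cl K),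
      w.v (io K (aeval π.y Q)) = 1 → (∀ P, ¬ Q ∣ P → w.v (io K (aeval π.y P)) = 0) →
      (∀ P : MvPolynomial (Fin n) ℂ, w.Ge (io K (aeval π.y P)) 0) → ∃ t, -1 < t ∧ w.Ge T t)
    (Q : MvPolynomial (Fin n) ℂ) : Q ≠ 0 → ∀ P : MvPolynomial (Fin n) ℂ,
      T * io K (aeval π.y Q) = io K (aeval π.y P) → Q ∣ P := by
  induction Q using UniqueFactorizationMonoid.induction_on_prime with
  | h₁ => exact fun h => absurd rfl h
  | h₂ x hx => exact fun _ P _ => hx.dvd
  | h₃ a p ha hp ih =>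
    intro _ P hP
    have hp0 := CTr_io (K := K) π hp.ne_zero
    have ha0 := CTr_io (K := K) π ha
    have : p ∣ P := by
      by_contra hn
      obtain ⟨w, h1, h0, h2⟩ := CTr_C K π hp
      obtain ⟨t, ht, ht'⟩ := hT p hp w h1 h0 h2
      have hP0 := CTr_io (K := K) π (P := P) (by rintro rfl; exact hn (dvd_zero _))
      have hT0 : T ≠ 0 := by
        rintro rfl
        exact hP0 (by rw [← hP, zero_mul])
      have h3 := h0 P hn
      rw [← hP, map_mul, map_mul, w.mul _ _ hT0 (mul_ne_zero hp0 ha0), w.mul _ _ hp0 ha0, h1] at h3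
      have h4 := (h2 a).resolve_left ha0
      have h5 := ht'.resolve_left hT0
      linarith
    obtain ⟨P', rfl⟩ := this
    refine mul_dvd_mul_left _ (ih ha P' (mul_left_cancel₀ hp0 ?_))
    simp only [map_mul] at hP
    rw [← hP]
    ring

theorem CTr_mpr (G : WS R K n) (hm : G.ω.m = 1) (π : Proj R n)
    (φ : π.Emb K → K →ₐ[ℂ] Cl K) (hφ : ∀ σ r, φ σ (algebraMap R K r) = σ.1 r) (η : K) (r₁ : R)
    (h : algebraMap R K r₁ = η * algebraMap R K (G.ρ π.y)) (r : R) :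
    ∃ P : MvPolynomial (Fin n) ℂ,
      (∑ᶠ σ, φ σ (η * algebraMap R K r)) = io K (aeval π.y P) := by
  obtain ⟨P, Q, hQ, e⟩ := π.trace_mem φ hφ (η * algebraMap R K r)
  have hρ : algebraMap R K (G.ρ π.y) ≠ 0 := by
    rw [Ne, IsFractionRing.to_map_eq_zero_iff]
    exact G.ρ_ne π
  obtain ⟨P', rfl⟩ := CTr_dvd π _ (fun Q₀ hQ₀ w h1 h0 h2 => by
    have := (π.emb_finite (K := K)).fintype
    rw [finsum_eq_sum_of_fintype]
    refine Finset.sum_induction _ (fun a => ∃ t, -1 < t ∧ w.Ge a t) ?_ ⟨0, by norm_num, .zero _⟩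
      fun σ _ => ?_
    · rintro a b ⟨s, hs, ha⟩ ⟨t, ht, hb⟩
      exact ⟨min s t, lt_min hs ht, (ha.mono (min_le_left _ _)).add (hb.mono (min_le_right _ _))⟩
    · obtain ⟨h3, h4⟩ := CTr_term G hm π σ (φ σ) (hφ σ) hQ₀ h1 h0 h2
      refine ⟨0 + -w.v (φ σ (algebraMap R K (G.ρ π.y))), by linarith, ?_⟩
      have e1 : φ σ (η * algebraMap R K r) =
          φ σ (algebraMap R K (r₁ * r)) * (φ σ (algebraMap R K (G.ρ π.y)))⁻¹ := by
        rw [← map_inv₀, ← map_mul, map_mul (algebraMap R K), h]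
        congr 1
        field_simp
      rw [e1]
      refine RVal.Ge.mul ?_ (Or.inr (by rw [w.v_inv _ ((map_ne_zero _).2 hρ)]))
      rcases h3 (r₁ * r) with h5 | h5
      · exact Or.inl (by rw [h5, map_zero])
      · exact Or.inr h5) Q hQ P e
  refine ⟨P', mul_right_cancel₀ (CTr_io π hQ) ?_⟩
  rw [e, map_mul, map_mul, mul_comm]

theorem CTr_D (y : Fin n → K) (P : MvPolynomial (Fin n) ℂ) :
    KaehlerDifferential.D ℂ K (aeval y P) =
      ∑ i, aeval y (pderiv i P) • KaehlerDifferential.D ℂ K (y i) := by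
  classical
  induction P using MvPolynomial.induction_on with
  | C c => simp
  | add p q hp hq => simp [hp, hq, add_smul, Finset.sum_add_distrib]
  | mul_X p i hp =>
    simp only [map_mul, aeval_X, Derivation.leibniz, hp, pderiv_X, smul_eq_mul, map_add,
      add_smul, Finset.sum_add_distrib, Finset.smul_sum, smul_smul]
    congr 1
    rw [Finset.sum_eq_single i]
    · simp
    · intro j _ hj
      simp [Pi.single_eq_of_ne hj.symm]
    · simp

theorem CTr_rho (G : WS R K n) (hm : G.ω.m = 1) (π : Proj R n) {p : Ideal R} [p.IsPrime]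
    {w : RVal K} (hw : w.CenteredAt p) (h1 : ∀ a, InLoc p a ↔ w.Ge a 0) {u : R} (hu : u ≠ 0)
    (h2 : w.v (algebraMap R K u) = 1) (h3 : ∀ a, a ≠ 0 → ∃ k : ℤ, w.v a = k)
    {Q : MvPolynomial (Fin n) ℂ} (hQ : Prime Q) (h4 : ∀ P, aeval π.y P ∈ p ↔ Q ∣ P) :
    w.v (algebraMap R K (aeval π.y Q)) - 1 ≤ w.v (algebraMap R K (G.ρ π.y)) := by
  classical
  obtain ⟨j, hj⟩ := CTr_pd hQ
  let D := KaehlerDifferential.D ℂ K
  let y : Fin n → K := fun i => algebraMap R K (π.y i)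
  let lam := G.ω.b.det.toMultilinearMap.toLinearMap (fun i => D (y i)) j
  let l : K → K := fun a => lam (D a) / G.ω.h / a
  have hh := G.ω.h_ne
  have hR : ∀ r : R, lam (D (algebraMap R K r)) / G.ω.h =
      algebraMap R K (G.ρ (Function.update π.y j r)) := fun r => by
    rw [G.ρ_eq, PForm.rho, hm, pow_one, PForm.jac]
    congr 1
    show G.ω.b.det _ = _
    congr 1
    funext i
    by_cases h : i = j
    · subst h
      simp [D]
    · simp [h, D, y]
  have hl : ∀ r : R, algebraMap R K r ≠ 0 → w.v (algebraMap R K r) ≤ 1 →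
      w.Ge (l (algebraMap R K r)) (-1) := fun r hr hr' => by
    show w.Ge (_ / _) _
    rw [hR, div_eq_mul_inv]
    exact ((hw.1 _).mul (Or.inr (by rw [w.v_inv _ hr]) :
      w.Ge _ (-w.v (algebraMap R K r)))).mono (by linarith)
  have hmul : ∀ a b, a ≠ 0 → b ≠ 0 → l (a * b) = l a + l b := fun a b ha hb => by
    simp only [l, Derivation.leibniz, map_add, map_smul, smul_eq_mul]
    field_simp
    ring
  have hu0 : algebraMap R K u ≠ 0 := by
    rwa [Ne, IsFractionRing.to_map_eq_zero_iff]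
  have hpow : ∀ k : ℕ, w.Ge (l (algebraMap R K u ^ k)) (-1) := fun k => by
    induction k with
    | zero => exact Or.inl (by simp [l])
    | succ k ih =>
      rw [pow_succ, hmul _ _ (pow_ne_zero _ hu0) hu0]
      exact ih.add (hl u hu0 h2.le)
  have hQ0 := CTr_ne (K := K) π hQ.ne_zero
  obtain ⟨k, hk⟩ := h3 _ hQ0
  have hk0 : (0 : ℝ) ≤ k := hk ▸ (hw.1 _).resolve_left hQ0
  obtain ⟨k, rfl⟩ := Int.eq_ofNat_of_zero_le (by exact_mod_cast hk0 : 0 ≤ k)
  have hv : w.v (algebraMap R K (aeval π.y Q) / algebraMap R K u ^ k) = 0 := by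
    rw [w.v_div _ _ hQ0 (pow_ne_zero _ hu0), w.v_pow _ hu0, hk, h2]
    simp
  obtain ⟨r, s, hs, e⟩ := (h1 _).2 (Or.inr hv.ge)
  obtain ⟨hs0, hs1⟩ := CTr_v0 hw hs
  have hd0 := div_ne_zero hQ0 (pow_ne_zero k hu0)
  have hr0 : algebraMap R K r ≠ 0 := e ▸ mul_ne_zero hd0 hs0
  have hr1 : w.v (algebraMap R K r) = 0 := by rw [← e, w.mul _ _ hd0 hs0, hv, hs1, add_zero]
  have e1 : algebraMap R K (aeval π.y Q) * algebraMap R K s =
      algebraMap R K r * algebraMap R K u ^ k := by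
    rw [← e]
    field_simp
  have e2 := congrArg l e1
  rw [hmul _ _ hQ0 hs0, hmul _ _ hr0 (pow_ne_zero _ hu0), ← eq_sub_iff_add_eq] at e2
  have h5 := ((hl r hr0 (by linarith)).add (hpow k)).sub (hl s hs0 (by linarith))
  rw [← e2] at h5
  have e3 : l (algebraMap R K (aeval π.y Q)) = algebraMap R K (aeval π.y (pderiv j Q)) *
      algebraMap R K (G.ρ π.y) / algebraMap R K (aeval π.y Q) := by
    have e4 := hR (π.y j)
    rw [Function.update_eq_self] at e4
    have e5 : ∀ P : MvPolynomial (Fin n) ℂ, algebraMap R K (aeval π.y P) = aeval y P :=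
      fun P => (aeval_algebraMap_apply K π.y P).symm
    show _ / _ = _
    congr 1
    rw [← e4, e5, e5, CTr_D, map_sum, Finset.sum_eq_single j]
    · rw [map_smul, smul_eq_mul, mul_div_assoc]
    · intro i _ hi
      rw [map_smul]
      have : lam (D (y i)) = 0 := G.ω.b.det.map_update_self (fun i => D (y i)) hi.symm
      rw [this, smul_zero]
    · simp
  obtain ⟨h6, h7⟩ := CTr_v0 hw (r := aeval π.y (pderiv j Q)) (fun h => hj ((h4 _).1 h))
  have hρ : algebraMap R K (G.ρ π.y) ≠ 0 := by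
    rw [Ne, IsFractionRing.to_map_eq_zero_iff]
    exact G.ρ_ne π
  rw [e3] at h5
  have h8 := h5.resolve_left (div_ne_zero (mul_ne_zero h6 hρ) hQ0)
  rw [w.v_div _ _ (mul_ne_zero h6 hρ) hQ0, w.mul _ _ h6 hρ, h7] at h8
  linarith

theorem CTr_eta (π : Proj R n) (φ : π.Emb K → K →ₐ[ℂ] Cl K)
    (hφ : ∀ σ r, φ σ (algebraMap R K r) = σ.1 r) (η : K)
    (h : ∀ r : R, ∃ P : MvPolynomial (Fin n) ℂ,
      (∑ᶠ σ, φ σ (η * algebraMap R K r)) = io K (aeval π.y P)) {p : Ideal R} [p.IsPrime]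
    {Q : MvPolynomial (Fin n) ℂ} (h4 : ∀ P, aeval π.y P ∈ p ↔ Q ∣ P) {a b : R}
    (e : algebraMap R K b = algebraMap R K (aeval π.y Q) * η * algebraMap R K a) : b ∈ p := by
  classical
  by_contra hb
  obtain ⟨q, hq, hq'⟩ := π.exists_over (K := K) p
  have := (π.emb_finite (K := K)).fintype
  have := π.rt_fg (K := K)
  let σ₀ : π.Emb K := ⟨io K, π.io_mem⟩
  have hc : ∀ σ : π.Emb K, ∃ c, c ∉ p ∧ (q.comap (π.em K σ) ≠ p → π.em K σ c ∈ q) := fun σ => by
    by_cases h1 : q.comap (π.em K σ) = p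
    · exact ⟨1, (Ideal.ne_top_iff_one p).1 Ideal.IsPrime.ne_top', fun h2 => absurd h1 h2⟩
    have : ¬ q.comap (π.em K σ) ≤ p := fun h2 => by
      have : (q.comap (π.em K σ)).IsPrime := Ideal.comap_isPrime _ _
      have h3 := td_lt (lt_of_le_of_ne h2 h1)
      rw [td_comap _ (π.em_integral σ) q, ← td_comap _ (π.em_integral σ₀) q] at h3
      subst hq'
      exact lt_irrefl _ h3
    obtain ⟨c, h2, h3⟩ := Set.not_subset.1 this
    exact ⟨c, h3, fun _ => h2⟩
  choose c hc hc' using hc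
  have hbc : b * ∏ σ, c σ ∉ p := fun h1 => by
    rcases Ideal.IsPrime.mem_or_mem inferInstance h1 with h2 | h2
    · exact hb h2
    · obtain ⟨σ, -, h3⟩ := Ideal.IsPrime.prod_mem_iff.1 h2
      exact hc σ h3
  obtain ⟨N, s, hN, hN'⟩ := π.norm p hbc
  obtain ⟨P, hP⟩ := h (a * ((∏ σ, c σ) * s))
  have h1 : ∑ σ, π.em K σ (b * (∏ σ, c σ) * s) = π.em K σ₀ (aeval π.y (Q * P)) := by
    apply Subtype.ext
    rw [AddSubmonoidClass.coe_finsetSum]
    show ∑ σ : π.Emb K, σ.1 _ = io K _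
    rw [map_mul (aeval π.y), map_mul (io K), ← hP, finsum_eq_sum_of_fintype, Finset.mul_sum]
    refine Finset.sum_congr rfl fun σ _ => ?_
    rw [← CTr_sy π σ, ← hφ, ← hφ, ← map_mul (φ σ)]
    congr 1
    simp only [map_mul (algebraMap R K), e]
    ring
  have h2 : π.em K σ₀ (aeval π.y (Q * P)) ∈ q := by
    have := (h4 _).2 (dvd_mul_right Q P)
    rwa [← hq'] at this
  let N' := π.em K σ₀ (aeval π.y N)
  have h3 : ∑ σ, ((if q.comap (π.em K σ) = p then N' else 0) -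
      π.em K σ (b * (∏ σ, c σ) * s)) ∈ q := by
    refine q.sum_mem fun σ _ => ?_
    split_ifs with h5
    · rw [← h5, Ideal.mem_comap, map_sub, π.em_y σ σ₀] at hN'
      exact hN'
    · rw [zero_sub, neg_mem_iff, map_mul, map_mul, map_prod]
      refine q.mul_mem_right _ (q.mul_mem_left _ ?_)
      rw [← Finset.mul_prod_erase _ _ (Finset.mem_univ σ)]
      exact q.mul_mem_right _ (hc' σ h5)
  rw [Finset.sum_sub_distrib, h1, ← Finset.sum_filter, Finset.sum_const, nsmul_eq_mul] at h3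
  have h5 := q.add_mem h3 h2
  rw [sub_add_cancel] at h5
  have h6 : ((Finset.univ.filter fun σ => q.comap (π.em K σ) = p).card : ℂ) ≠ 0 :=
    Nat.cast_ne_zero.2 (Finset.card_ne_zero.2 ⟨σ₀, by simpa using hq'⟩)
  have h7 := q.mul_mem_left (algebraMap ℂ _
    ((Finset.univ.filter fun σ => q.comap (π.em K σ) = p).card : ℂ)⁻¹) h5
  rw [← mul_assoc, ← map_natCast (algebraMap ℂ (π.Rt K)), ← map_mul, inv_mul_cancel₀ h6, map_one,
    one_mul] at h7
  apply hN
  rw [← hq']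
  exact h7

/-- for `m = 1` the dual of `R` for the trace form is `ρ⁻¹ R` -/
theorem trace_dual (G : WS R K n) (hm : G.ω.m = 1) (π : Proj R n)
    (φ : π.Emb K → K →ₐ[ℂ] Cl K) (hφ : ∀ σ r, φ σ (algebraMap R K r) = σ.1 r) (η : K) :
    (∀ r : R, ∃ P : MvPolynomial (Fin n) ℂ,
      (∑ᶠ σ, φ σ (η * algebraMap R K r)) = io K (MvPolynomial.aeval π.y P)) ↔
    ∃ r : R, algebraMap R K r = η * algebraMap R K (G.ρ π.y) := by
  refine ⟨fun h => hartogs fun p hp hp1 => ?_, fun ⟨r₁, h⟩ => CTr_mpr G hm π φ hφ η r₁ h⟩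
  obtain ⟨w, hw, h1, ⟨u, hu, h2⟩, h3⟩ := exists_ord (K := K) p hp1
  obtain ⟨Q, hQ, h4⟩ := CTr_A π p hp1
  rw [h1]
  by_cases hη : η = 0
  · exact Or.inl (by rw [hη, zero_mul])
  have hQ0 := CTr_ne (K := K) π hQ.ne_zero
  have hρ : algebraMap R K (G.ρ π.y) ≠ 0 := by
    rw [Ne, IsFractionRing.to_map_eq_zero_iff]
    exact G.ρ_ne π
  have h5 := CTr_rho G hm π hw h1 hu h2 h3 hQ h4
  have h0 := mul_ne_zero hQ0 hη
  have h6 : 0 < w.v (algebraMap R K (aeval π.y Q) * η) := by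
    by_contra h6
    obtain ⟨a, b, hb, e⟩ := (h1 (algebraMap R K (aeval π.y Q) * η)⁻¹).2
      (Or.inr (by rw [w.v_inv _ h0]; linarith))
    refine hb (CTr_eta π φ hφ η h h4 (a := a) ?_)
    rw [← e, mul_inv_cancel_left₀ h0]
  obtain ⟨k, hk⟩ := h3 _ h0
  have h7 : (1 : ℝ) ≤ k := by
    rw [hk] at h6
    exact_mod_cast (by exact_mod_cast h6 : 0 < k)
  rw [w.mul _ _ hQ0 hη] at hk
  refine Or.inr ?_
  rw [w.mul _ _ hη hρ]
  linarith

end Vale.Agent.P282
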