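import Vale.Agent.P282.Defs

/-! Log discrepancies from the classical discrepancies of divisors. -/

open scoped ENNReal Topology
open Filter

noncomputable section

namespace Vale.Agent.P282

variable {K : Type} [Field K] [Algebra ℂ K]

/-- `E` is the order of vanishing along a prime divisor of some model of the function field of
dimension `n`: the value group is `ℤ` and the residue field has transcendence degree `n - 1`. -/
def RVal.IsDivisor (E : RVal K) (n : ℕ) : Prop :=
  (∃ a, a ≠ 0 ∧ E.v a = 1) ∧ (∀ a, a ≠ 0 → ∃ k : ℤ, E.v a = k) ∧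
    ∃ g : Fin (n - 1) → K, ∀ P : MvPolynomial (Fin (n - 1)) ℂ, P ≠ 0 →
      MvPolynomial.aeval g P ≠ 0 ∧ E.v (MvPolynomial.aeval g P) = 0

namespace PForm

variable {n : ℕ} (ω : PForm K n)

/-- The log discrepancy `1 + ord_E(ω) / m` of a prime divisor: `ord_E(ω)` is the largest value of
`ord_E(ω / (df₁ ∧ ⋯ ∧ dfₙ)^m)` with the `fᵢ` regular along `E`, reached by local coordinates. -/
def Adiv (E : RVal K) : EReal :=
  ⨆ f : {f : Fin n → K // (∀ i, E.Ge (f i) 0) ∧ ω.jac f ≠ 0},
    ((1 - E.v (ω.rho f.1) / ω.m : ℝ) : EReal)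

variable (R : Type) [CommRing R] [Algebra R K]

/-- All prime divisors over `Spec R` have positive log discrepancy. -/
def KltS : Prop := ∀ E : RVal K, E.IsDivisor n → E.OnSpec R → 0 < ω.Adiv E

/-- The log discrepancy of a real valuation: the greatest lower semicontinuous extension of
`c ord_E ↦ c A(E)` for the topology of pointwise convergence, that is, the lower limit of `c A(E)`
as `c ord_E` tends to `v`. -/
def AS (v : RVal K) : EReal :=
  liminf (fun p : {p : ℝ × RVal K // 0 < p.1 ∧ p.2.IsDivisor n ∧ p.2.OnSpec R} =>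
      (p.1.1 : EReal) * ω.Adiv p.1.2)
    (comap (fun p (a : Kˣ) => p.1.1 * p.1.2.v a) (𝓝 fun a : Kˣ => v.v a))

end PForm

open Classical in
/-- The normalized volume of the germ at `m`. -/
def nvolS {R : Type} [CommRing R] [IsDomain R] [Algebra R K] [IsFractionRing R K] (m : Ideal R)
    [m.IsPrime] {n : ℕ} (ω : PForm K n) : ℝ≥0∞ :=
  ⨅ v : {v : RVal K // v.CenteredAt m},
    if ω.AS R v.1 = ⊤ then ⊤ else ENNReal.ofReal ((ω.AS R v.1).toReal ^ n) * vol m n v.1

end Vale.Agent.P282
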