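import Vale.Agent.P282.KDefs

set_option linter.unusedSectionVars false

open scoped ENNReal TensorProduct Topology
open Filter MeasureTheory

noncomputable section

namespace Vale.Agent.P282

variable {R K : Type} [CommRing R] [IsDomain R] [Algebra ℂ R] [Algebra.FiniteType ℂ R]
  [IsIntegrallyClosed R] [Field K] [Algebra R K] [IsFractionRing R K] [Algebra ℂ K]
  [IsScalarTower ℂ R K] {n : ℕ}

variable {R' L : Type} [CommRing R'] [IsDomain R'] [Algebra ℂ R'] [Algebra.FiniteType ℂ R']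
  [IsIntegrallyClosed R'] [Field L] [Algebra R' L] [IsFractionRing R' L] [Algebra ℂ L]
  [IsScalarTower ℂ R' L] [Algebra R R'] [IsScalarTower ℂ R R'] [Algebra K L] [Algebra R L]
  [IsScalarTower R R' L] [IsScalarTower R K L] [IsScalarTower ℂ K L]

theorem KVol_map (r : R) :
    IsScalarTower.toAlgHom ℂ K L (algebraMap R K r) = algebraMap R' L (algebraMap R R' r) := by
  rw [IsScalarTower.toAlgHom_apply, ← IsScalarTower.algebraMap_apply,
    ← IsScalarTower.algebraMap_apply]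

theorem KVol_ge (w : RVal L) (r : R) (t : ℝ) :
    (w.comap (IsScalarTower.toAlgHom ℂ K L)).Ge (algebraMap R K r) t ↔
      w.Ge (algebraMap R' L (algebraMap R R' r)) t := by
  rw [← KVol_map (K := K)]
  exact or_congr (map_eq_zero _).symm Iff.rfl

theorem centered_comap {x : Pt R} {x' : Pt R'} (hx : ∀ r, x' (algebraMap R R' r) = x r)
    {w : RVal L} (hw : w.CenteredAt x'.m) :
    (w.comap (IsScalarTower.toAlgHom ℂ K L)).CenteredAt x.m := by
  refine ⟨fun r => (KVol_ge (R' := R') w r 0).2 (hw.1 _), fun r hr => ?_⟩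
  have h1 : algebraMap R' L (algebraMap R R' r) ≠ 0 := by
    rw [← KVol_map (K := K)]
    exact (map_ne_zero _).2 hr
  rw [Pt.mem_m, ← hx, ← Pt.mem_m, ← hw.2 _ h1, ← KVol_map (K := K)]
  rfl

theorem vol_mono {x : Pt R} {x' : Pt R'} (hx : ∀ r, x' (algebraMap R R' r) = x r)
    {w : RVal L} (hw : w.CenteredAt x'.m) :
    vol x.m n (w.comap (IsScalarTower.toAlgHom ℂ K L)) ≤ vol x'.m n w := by
  rw [vol_eq x (centered_comap hx hw), vol_eq x' hw]
  refine limsup_le_limsup ((eventually_gt_atTop 0).mono fun t ht => ENNReal.ofReal_le_ofReal ?_)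
  have := (len_eq x' hw t).1
  have h1 : Module.finrank ℂ (R ⧸ (w.comap (IsScalarTower.toAlgHom ℂ K L)).sub R t) ≤
      Module.finrank ℂ (R' ⧸ w.sub R' t) := by
    refine LinearMap.finrank_le_finrank_of_injective (f := Submodule.mapQ _ _
      (IsScalarTower.toAlgHom ℂ R R').toLinearMap fun r hr => (KVol_ge w r t).1 hr) ?_
    rw [injective_iff_map_eq_zero]
    intro a ha
    obtain ⟨r, rfl⟩ := Submodule.Quotient.mk_surjective _ a
    exact (Submodule.Quotient.mk_eq_zero _).2 ((KVol_ge w r t).2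
      ((Submodule.Quotient.mk_eq_zero (w.sub R' t) (x := algebraMap R R' r)).1 ha))
  gcongr

theorem strict_down {x : Pt R} {x' : Pt R'} (hx : ∀ r, x' (algebraMap R R' r) = x r)
    {ω : PForm K n} {ω' : PForm L n} (hA : ∀ w : RVal L, w.CenteredAt x'.m →
      ω.A (w.comap (IsScalarTower.toAlgHom ℂ K L)) = ω'.A w) (h : Strict ω' x'.m) :
    Strict ω x.m := by
  obtain ⟨w, h1, h2, h3⟩ := h
  refine ⟨_, centered_comap hx h1, by rw [hA w h1]; exact h2, lt_of_le_of_lt ?_ h3⟩
  unfold nv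
  rw [hA w h1]
  exact mul_le_mul_right (vol_mono hx h1) _

theorem Root.A [Algebra.IsAlgebraic K L] {ω : PForm K n} {ω' : PForm L n} (h : Root ω ω')
    (w : RVal L) : ω.A (w.comap (IsScalarTower.toAlgHom ℂ K L)) = ω'.A w := by
  refine (A_pull ω ω' (fun f hf => by rw [h.jac]; exact (map_ne_zero _).2 hf)
    (fun f hf h0 => hf (by rw [h.jac, h0, map_zero])) _ w (fun _ _ => rfl) fun f hf => ?_).symm
  have h1 : (ω'.jac fun i => algebraMap K L (f i)) ≠ 0 := by
    rw [h.jac]; exact (map_ne_zero _).2 hf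
  have h2 : algebraMap K L (ω.rho f) = (ω'.rho fun i => algebraMap K L (f i)) ^ ω.m := by
    rw [PForm.rho, PForm.rho, h.m, pow_one, h.jac, div_pow, h.h, map_div₀, map_pow]
  have h3 : (ω.m : ℝ) ≠ 0 := Nat.cast_ne_zero.2 ω.m_pos.ne'
  show _ = w.v (algebraMap K L (ω.rho f)) / _
  rw [h2, w.v_pow _ (ω'.rho_ne h1), h.m, Nat.cast_one, div_one, mul_div_cancel_left₀ _ h3]

theorem KVol_prim (L : Type) [Field L] [Algebra ℂ L] {m : ℕ} (hm : 0 < m) :
    ∃ ζ : ℂ, IsPrimitiveRoot ζ m ∧ IsPrimitiveRoot (algebraMap ℂ L ζ) m :=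
  ⟨_, Complex.isPrimitiveRoot_exp m hm.ne',
    (Complex.isPrimitiveRoot_exp m hm.ne').map_of_injective (algebraMap ℂ L).injective⟩

/-- automorphisms act on the root by roots of unity -/
theorem Root.chi {ω : PForm K n} {ω' : PForm L n} (h : Root ω ω') (τ : L ≃ₐ[K] L) :
    ∃ ε : ℂ, ε ^ ω.m = 1 ∧ τ ω'.h = ε • ω'.h ∧ (ε = 1 → τ = 1) := by
  obtain ⟨ζ, h1, h2⟩ := KVol_prim L ω.m_pos
  have : NeZero ω.m := ⟨ω.m_pos.ne'⟩
  have h3 : (τ ω'.h / ω'.h) ^ ω.m = 1 := by
    rw [div_pow, ← map_pow, h.h, τ.commutes, div_self ((map_ne_zero _).2 ω.h_ne)]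
  obtain ⟨i, -, hi⟩ := h2.eq_pow_of_pow_eq_one h3
  have h4 : τ ω'.h = ζ ^ i • ω'.h := by
    rw [Algebra.smul_def, map_pow, hi, div_mul_cancel₀ _ ω'.h_ne]
  refine ⟨ζ ^ i, by rw [← pow_mul, mul_comm, pow_mul, h1.pow_eq_one, one_pow], h4, fun h5 => ?_⟩
  rw [h5, one_smul] at h4
  ext a
  have ha : a ∈ IntermediateField.adjoin K {ω'.h} := by rw [h.gen]; trivial
  show τ a = a
  induction ha using IntermediateField.adjoin_induction with
  | mem y hy => rw [hy]; exact h4
  | algebraMap y => exact τ.commutes y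
  | add y z _ _ ihy ihz => rw [map_add, ihy, ihz]
  | inv y _ ih => rw [map_inv₀, ih]
  | mul y z _ _ ihy ihz => rw [map_mul, ihy, ihz]

theorem Root.galois [FiniteDimensional K L] {ω : PForm K n} {ω' : PForm L n} (h : Root ω ω') :
    IsGalois K L := by
  obtain ⟨ζ, -, h2⟩ := KVol_prim L ω.m_pos
  have : CharZero K := ((algebraMap ℂ K).charZero_iff (algebraMap ℂ K).injective).1 inferInstance
  have : (Polynomial.X ^ ω.m - Polynomial.C ω.h).IsSplittingField K L := by
    rw [isSplittingField_iff_intermediateField]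
    constructor
    · rw [Polynomial.map_sub, Polynomial.map_pow, Polynomial.map_C, Polynomial.map_X]
      exact X_pow_sub_C_splits_of_isPrimitiveRoot h2 h.h
    · rw [eq_top_iff, ← h.gen]
      refine IntermediateField.adjoin.mono _ _ _ (Set.singleton_subset_iff.2 ?_)
      rw [Polynomial.mem_rootSet_of_ne (Polynomial.X_pow_sub_C_ne_zero ω.m_pos _)]
      simp [h.h]
  exact IsGalois.of_separable_splitting_field
    (Polynomial.separable_X_pow_sub_C ω.h (Nat.cast_ne_zero.2 ω.m_pos.ne') ω.h_ne)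

end Vale.Agent.P282
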