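import Vale.Agent.P282.KHS
import Vale.Agent.P282.KVol

set_option linter.unusedSectionVars false

open scoped ENNReal TensorProduct Topology
open Filter MeasureTheory

noncomputable section

namespace Vale.Agent.P282

variable {R K : Type} [CommRing R] [IsDomain R] [Algebra ℂ R] [Algebra.FiniteType ℂ R]
  [IsIntegrallyClosed R] [Field K] [Algebra R K] [IsFractionRing R K] [Algebra ℂ K]
  [IsScalarTower ℂ R K] {n : ℕ}

variable {R' L : Type} [CommRing R'] [IsDomain R'] [Algebra ℂ R'] [Algebra.FiniteType ℂ R']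
  [IsIntegrallyClosed R'] [Field L] [Algebra R' L] [IsFractionRing R' L] [Algebra ℂ L]
  [IsScalarTower ℂ R' L] [Algebra R R'] [IsScalarTower ℂ R R'] [Algebra K L] [Algebra R L]
  [IsScalarTower R R' L] [IsScalarTower R K L] [IsScalarTower ℂ K L]

variable [FiniteDimensional K L] [IsIntegralClosure R' R L]

theorem KGain_eig {V ι : Type} [AddCommGroup V] [Module ℂ V] (T : V →ₗ[ℂ] V) (W : Submodule ℂ V)
    (hW : ∀ u ∈ W, T u ∈ W) (μ : ι → ℂ) (hμ : Function.Injective μ) (s : Finset ι) :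
    ∀ v : ι → V, (∀ i, T (v i) = μ i • v i) → ∑ i ∈ s, v i ∈ W → ∀ i ∈ s, v i ∈ W := by
  classical
  induction s using Finset.induction_on with
  | empty => simp
  | insert a s ha ih =>
    intro v hv h
    rw [Finset.sum_insert ha] at h
    have h1 : ∑ i ∈ s, (μ i - μ a) • v i ∈ W := by
      have h2 := W.sub_mem (hW _ h) (W.smul_mem (μ a) h)
      rw [map_add, map_sum, hv, smul_add, add_sub_add_left_eq_sub, Finset.smul_sum,
        ← Finset.sum_sub_distrib] at h2
      simpa only [hv, sub_smul] using h2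
    have h3 : ∀ i ∈ s, v i ∈ W := fun i hi => by
      have h4 := ih (fun i => (μ i - μ a) • v i) (fun i => by rw [map_smul, hv, smul_comm]) h1 i hi
      have h5 : μ i - μ a ≠ 0 := sub_ne_zero.2 fun e => ha (hμ e ▸ hi)
      exact (W.smul_mem_iff h5).1 h4
    intro i hi
    rcases Finset.mem_insert.1 hi with rfl | hi
    · exact (W.add_mem_iff_left (W.sum_mem h3)).1 h
    · exact h3 i hi

theorem KGain_rank {V B C : Type} [AddCommGroup V] [Module ℂ V] [AddCommGroup B] [Module ℂ B]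
    [AddCommGroup C] [Module ℂ C] [FiniteDimensional ℂ B] (Φ : V →ₗ[ℂ] B) (Ψ : V →ₗ[ℂ] C)
    (hΨ : Function.Surjective Ψ) (h : LinearMap.ker Φ ≤ LinearMap.ker Ψ) :
    Module.finrank ℂ C ≤ Module.finrank ℂ B := by
  have : FiniteDimensional ℂ (V ⧸ LinearMap.ker Φ) := Module.Finite.equiv Φ.quotKerEquivRange.symm
  have h1 : Function.Surjective ((LinearMap.ker Φ).liftQ Ψ h) := fun c => by
    obtain ⟨v, rfl⟩ := hΨ c
    exact ⟨Submodule.Quotient.mk v, rfl⟩
  refine (LinearMap.finrank_le_finrank_of_surjective h1).trans ?_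
  rw [Φ.quotKerEquivRange.finrank_eq]
  exact Submodule.finrank_le _

theorem KGain_pi {A B C : Type} [AddCommGroup A] [Module ℂ A] [AddCommGroup B] [Module ℂ B]
    [FiniteDimensional ℂ B] [AddCommGroup C] [Module ℂ C] (U : Submodule ℂ A) (π : C →ₗ[ℂ] B)
    [FiniteDimensional ℂ (A ⧸ U)] {g : ℕ} (f : Fin g → A →ₗ[ℂ] C)
    (h : ∀ r : Fin g → A, π (∑ i, f i (r i)) = 0 → ∀ i, r i ∈ U) :
    g * Module.finrank ℂ (A ⧸ U) ≤ Module.finrank ℂ B := by
  have h1 := KGain_rank (π ∘ₗ ∑ i, f i ∘ₗ LinearMap.proj i) (U.mkQ.compLeft (Fin g))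
    (fun c => by
      choose r hr using fun i => U.mkQ_surjective (c i)
      exact ⟨r, funext hr⟩)
    (fun r hr => by
      rw [LinearMap.mem_ker] at hr ⊢
      funext i
      refine (Submodule.Quotient.mk_eq_zero U).2 (h r ?_ i)
      simpa using hr)
  rwa [Module.finrank_pi_fintype, Finset.sum_const, Finset.card_univ, Fintype.card_fin,
    smul_eq_mul] at h1

theorem KGain_sigma (τ : L ≃ₐ[K] L) {h : L} (h0 : h ≠ 0) {ε : ℂ} (hε : τ h = ε • h) :
    ∃ σ : R', algebraMap R' L σ ≠ 0 ∧ galRestrict R K L R' τ σ = ε • σ := by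
  obtain ⟨c, hc, hi⟩ := exists_integral_multiples R K ({h} : Finset L)
  obtain ⟨σ, hσ⟩ := (IsIntegralClosure.isIntegral_iff (A := R')).1
    (hi h (Finset.mem_singleton_self h))
  have h1 : c • h = algebraMap R K c • h := (algebraMap_smul K c h).symm
  refine ⟨σ, ?_, IsFractionRing.injective R' L ?_⟩
  · rw [hσ, h1]
    exact smul_ne_zero ((map_ne_zero_iff _ (IsFractionRing.injective R K)).2 hc) h0
  · rw [algebraMap_galRestrict_apply, Algebra.smul_def, map_mul, ← IsScalarTower.algebraMap_apply,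
      hσ, h1, map_smul, hε, Algebra.smul_def, Algebra.smul_def, Algebra.smul_def, mul_left_comm]

theorem cov_gain {ω' : PForm L n} {x : Pt R} {x' : Pt R'}
    (hx : ∀ r, x' (algebraMap R R' r) = x r) (τ : L ≃ₐ[K] L)
    (hτ : ∀ r, x' (galRestrict R K L R' τ r) = x' r) {ε : ℂ} (hε : τ ω'.h = ε • ω'.h) {g : ℕ}
    (hg0 : 0 < g) (hg : Function.Injective fun i : Fin g => ε ^ (i : ℕ)) {e : ℝ} (he0 : 0 ≤ e)
    (he : HS n x'.m e) {w : RVal L} (hw : w.CenteredAt x'.m)
    (h1 : ∀ r ∈ x'.m, w.Ge (algebraMap R' L r) 1) :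
    vol x.m n (w.comap (IsScalarTower.toAlgHom ℂ K L)) ≤ ENNReal.ofReal (e / g) := by
  obtain ⟨σ, hσ, hT⟩ := KGain_sigma (R := R) (R' := R') τ ω'.h_ne hε
  have hc := centered_comap (K := K) hx hw
  have hg' : (0 : ℝ) < g := by exact_mod_cast hg0
  have hv : 0 ≤ w.v (algebraMap R' L σ) := (hw.1 σ).resolve_left hσ
  obtain ⟨d, hd⟩ := exists_nat_ge (w.v (algebraMap R' L σ))
  have key := vol_le (n := n) x hc (τ := 1) (V := e / g) (C := g * d + n) one_pos (by positivity)
    (fun j => ?_) (by positivity)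
  · rwa [one_pow, div_one] at key
  have := (len_eq x hc (j * 1)).1
  have := fin_pow x' (j + g * d)
  have hm : x'.m ≤ x'.m.comap (galRestrict R K L R' τ) := fun r hr => by
    rw [Ideal.mem_comap, Pt.mem_m, hτ]; exact hr
  have h2 := KGain_pi ((w.comap (IsScalarTower.toAlgHom ℂ K L)).sub R (j * 1))
    (Ideal.Quotient.mkₐ ℂ (x'.m ^ (j + g * d))).toLinearMap
    (fun i : Fin g => LinearMap.mulRight ℂ (σ ^ (i : ℕ)) ∘ₗ
      (IsScalarTower.toAlgHom ℂ R R').toLinearMap) fun r hr i => by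
      have h3 := KGain_eig ((galRestrict R K L R' τ).restrictScalars ℂ).toLinearMap
        ((x'.m ^ (j + g * d)).restrictScalars ℂ)
        (fun u hu => Ideal.le_comap_pow (galRestrict R K L R' τ) _ (Ideal.pow_right_mono hm _ hu))
        _ hg Finset.univ
        (fun i => algebraMap R R' (r i) * σ ^ (i : ℕ))
        (fun i => by
          show galRestrict R K L R' τ _ = _
          rw [map_mul, map_pow, hT, AlgEquiv.commutes, smul_pow, mul_smul_comm])
        (Ideal.Quotient.eq_zero_iff_mem.1 hr) i (Finset.mem_univ i)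
      have h4 := (RVal.Ge.of_pow hw.1 h1 _ h3).mul
        (RVal.Ge.self (w := w) (algebraMap R' L σ ^ (i : ℕ))⁻¹)
      rw [map_mul, map_pow, mul_inv_cancel_right₀ (pow_ne_zero _ hσ),
        w.v_inv _ (pow_ne_zero _ hσ), w.v_pow _ hσ, ← IsScalarTower.algebraMap_apply,
        IsScalarTower.algebraMap_apply R K L] at h4
      have h5 : ((i : ℕ) : ℝ) * w.v (algebraMap R' L σ) ≤ g * d :=
        mul_le_mul (by exact_mod_cast i.2.le) hd hv hg'.le
      refine Or.imp (fun e => (map_eq_zero _).1 e) (fun e => le_trans ?_ e) h4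
      push_cast
      linarith
  have h3 := he (j + g * d)
  have h4 : (g : ℝ) * Module.finrank ℂ
      (R ⧸ (w.comap (IsScalarTower.toAlgHom ℂ K L)).sub R (j * 1)) ≤
      Module.finrank ℂ (R' ⧸ x'.m ^ (j + g * d)) := by exact_mod_cast h2
  have h5 := mul_le_mul_of_nonneg_left h4 (Nat.cast_nonneg (α := ℝ) n.factorial)
  rw [div_mul_eq_mul_div, le_div_iff₀ hg', ← add_assoc]
  push_cast at h3
  linarith

end Vale.Agent.P282
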