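import Vale.Agent.P282.KLoc0
import Vale.Agent.P282.CGt

set_option linter.unusedSectionVars false

open scoped ENNReal TensorProduct Topology
open Filter MeasureTheory

noncomputable section

namespace Vale.Agent.P282

variable {R K : Type} [CommRing R] [IsDomain R] [Algebra ℂ R] [Algebra.FiniteType ℂ R]
  [IsIntegrallyClosed R] [Field K] [Algebra R K] [IsFractionRing R K] [Algebra ℂ K]
  [IsScalarTower ℂ R K] {n : ℕ}

/-- index one at the point -/
theorem gt_loc (G : WS R K n) (hn : 2 ≤ n) (x : Pt R)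
    (hs : ¬ IsRegularLocalRing (Localization.AtPrime x.m)) {c : K} {s : R} (h0 : x s ≠ 0)
    (h : c ^ G.ω.m * G.ω.h = algebraMap R K s) : DP n x.m ∨ Strict G.ω x.m := by
  have h1 : s ≠ 0 := fun e => h0 (by rw [e, map_zero])
  have hS : Submonoid.powers s ≤ nonZeroDivisors R := powers_le_nonZeroDivisors_of_noZeroDivisors h1
  let R' : Subalgebra R K := Localization.subalgebra.ofField K _ hS
  have : IsLocalization.Away s R' := Localization.subalgebra.isLocalization_ofField K _ hS
  have : IsScalarTower ℂ R' K := .of_algebraMap_eq fun _ => rfl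
  have : Algebra.FiniteType ℂ R' :=
    .trans ‹_› (IsLocalization.finiteType_of_monoid_fg (Submonoid.powers s) R')
  have : IsIntegrallyClosed R' := isIntegrallyClosed_of_isLocalization _ _ hS
  obtain ⟨G', hm, hA⟩ := loc_ws (R' := R') G h1 h
  obtain ⟨x', hx⟩ := loc_pt (R' := R') x h0
  exact (gt G' hm hn x' fun e => hs (loc_reg hx s e)).imp (loc_dp hx s)
    (strict_down (L := K) hx fun w hw => hA w hw.1)

/-- Hartogs off a hypersurface -/
theorem hartogs_loc {a : K} {s : R} (hs : s ≠ 0)
    (h : ∀ p : Ideal R, p.IsPrime → p.height = 1 → s ∉ p → InLoc p a) :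
    ∃ (k : ℕ) (r : R), algebraMap R K (s ^ k) * a = algebraMap R K r := by
  have : IsNoetherianRing R := Algebra.FiniteType.isNoetherianRing ℂ R
  have h1 : s ∈ (AHart_den R a).radical := by
    rw [Ideal.radical_eq_sInf, Submodule.mem_sInf]
    rintro p ⟨hle, hp⟩
    by_contra h2
    obtain ⟨t, ht, h3⟩ := AHart_prime a p hle
    obtain ⟨u, hu, s', hs', hk⟩ := AHart_key _ ht
    obtain ⟨r, s'', h4, e⟩ := h _ ht (AHart_height _ (AHart_den_ne _) hu hs' hk) fun e => h2 (h3 e)
    exact h4 (AHart_den_mul.2 (Ideal.mul_mem_left _ t ⟨r, e⟩))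
  obtain ⟨k, r, e⟩ := h1
  exact ⟨k, r, (mul_comm _ _).trans e⟩

end Vale.Agent.P282
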