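import Vale.Agent.P282.KDefs
import Vale.Agent.P282.CTwo
import Vale.Agent.P282.ARed
import Vale.Agent.P282.UMon
import Vale.Agent.P282.CDp

set_option linter.unusedSectionVars false

open scoped ENNReal TensorProduct Topology
open Filter MeasureTheory

noncomputable section

namespace Vale.Agent.P282

variable {R K : Type} [CommRing R] [IsDomain R] [Algebra ℂ R] [Algebra.FiniteType ℂ R]
  [IsIntegrallyClosed R] [Field K] [Algebra R K] [IsFractionRing R K] [Algebra ℂ K]
  [IsScalarTower ℂ R K] {n : ℕ}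

/-- a valuation above the order -/
theorem exists_ordv (G : WS R K n) (hm : G.ω.m = 1) (hn : 2 ≤ n) (x : Pt R) :
    ∃ w : RVal K, w.CenteredAt x.m ∧ (∀ r ∈ x.m, w.Ge (algebraMap R K r) 1) ∧
      G.ω.A w ≤ (n : ℝ) ∧
      (¬ IsRegularLocalRing (Localization.AtPrime x.m) → G.ω.A w ≤ ((n : ℝ) - 1 : ℝ)) := by
  classical
  have : Algebra.EssFiniteType R K := .of_isLocalization K (nonZeroDivisors R)
  have : Algebra.EssFiniteType ℂ K := .comp ℂ R K
  obtain ⟨π, hy⟩ := exists_red K (n := n) (by omega) (trdeg_eq G.ω R) x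
  obtain ⟨w, hw, hmon⟩ := exists_mon K π (fun _ => 1) (fun _ => zero_le_one) x.m
    (CDp_comap π x hy.1)
  have h1 : ∀ j, w.Ge (algebraMap R K (π.y j)) 1 := fun j => by
    obtain ⟨-, ⟨α, hα, h⟩, -⟩ := hmon _ (MvPolynomial.X_ne_zero j)
    rw [MvPolynomial.support_X, Finset.mem_singleton] at hα
    rw [MvPolynomial.aeval_X, hα] at h
    refine Or.inr (le_of_eq ?_)
    rw [h]
    simp [Finsupp.single_apply]
  have h2 := CDp_red hy hw h1
  have h0 : algebraMap R K (G.ρ π.y) ≠ 0 :=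
    (map_ne_zero_iff _ (IsFractionRing.injective R K)).2 (G.ρ_ne π)
  have hA : G.ω.A w = ((n - w.v (algebraMap R K (G.ρ π.y)) : ℝ) : EReal) := by
    rw [A_mon G.ω _ (π.jac_ne G.ω) hmon, hm, ← G.ρ_eq]
    simp
  refine ⟨w, hw, h2, ?_, fun hs => ?_⟩
  · have := (hw.1 (G.ρ π.y)).resolve_left h0
    rw [hA]
    exact EReal.coe_le_coe_iff.2 (by linarith)
  · have := (h2 _ (ineq G hn π x hy hs).1).resolve_left h0
    rw [hA]
    exact EReal.coe_le_coe_iff.2 (by linarith)

end Vale.Agent.P282
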