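import Vale.Agent.P282.KJac
import Vale.Agent.P282.KVol
import Vale.Agent.P282.ATd0

set_option linter.unusedSectionVars false

open scoped ENNReal TensorProduct Topology
open Filter MeasureTheory

noncomputable section

namespace Vale.Agent.P282

variable {R K : Type} [CommRing R] [IsDomain R] [Algebra ℂ R] [Algebra.FiniteType ℂ R]
  [IsIntegrallyClosed R] [Field K] [Algebra R K] [IsFractionRing R K] [Algebra ℂ K]
  [IsScalarTower ℂ R K] {n : ℕ}

variable {R' L : Type} [CommRing R'] [IsDomain R'] [Algebra ℂ R'] [Algebra.FiniteType ℂ R']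
  [IsIntegrallyClosed R'] [Field L] [Algebra R' L] [IsFractionRing R' L] [Algebra ℂ L]
  [IsScalarTower ℂ R' L] [Algebra R R'] [IsScalarTower ℂ R R'] [Algebra K L] [Algebra R L]
  [IsScalarTower R R' L] [IsScalarTower R K L] [IsScalarTower ℂ K L]

variable [FiniteDimensional K L] [IsIntegralClosure R' R L]


theorem KWs_rho {ω : PForm K n} {ω' : PForm L n} (h : Root ω ω') (g : Fin n → L) :
    ω'.rho g = ω'.jac g / ω'.h := by
  rw [PForm.rho, h.m, pow_one]

theorem KWs_rho' {ω : PForm K n} {ω' : PForm L n} (h : Root ω ω') (f : Fin n → R) :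
    (ω'.rho fun i => algebraMap R L (f i)) =
      algebraMap K L (ω.jac fun i => algebraMap R K (f i)) / ω'.h := by
  rw [KWs_rho h, ← h.jac]
  simp only [← IsScalarTower.algebraMap_apply]

theorem Root.rho_R (G : WS R K n) {ω' : PForm L n} (h : Root G.ω ω') (f : Fin n → R) :
    ∃ u : R', algebraMap R' L u = (ω'.rho fun i => algebraMap R L (f i)) ∧
      u ^ G.ω.m = algebraMap R R' (G.ρ f) := by
  have e : (ω'.rho fun i => algebraMap R L (f i)) ^ G.ω.m = algebraMap R L (G.ρ f) := by
    rw [KWs_rho' h, div_pow, h.h, ← map_pow, ← map_div₀, IsScalarTower.algebraMap_apply R K L,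
      G.ρ_eq, PForm.rho]
  have hi : IsIntegral R (ω'.rho fun i => algebraMap R L (f i)) :=
    IsIntegral.of_pow G.ω.m_pos (e ▸ isIntegral_algebraMap)
  obtain ⟨u, hu⟩ := (IsIntegralClosure.isIntegral_iff (A := R')).1 hi
  refine ⟨u, hu, IsFractionRing.injective R' L ?_⟩
  rw [map_pow, hu, e, ← IsScalarTower.algebraMap_apply]

variable (L) in
include L in
theorem KWs_int : Algebra.IsIntegral R R' := IsIntegralClosure.isIntegral_algebra R L

variable (K L) in
include K L in
theorem KWs_faith : FaithfulSMul R R' := by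
  refine (faithfulSMul_iff_algebraMap_injective R R').2 (Function.Injective.of_comp
    (f := algebraMap R' L) ?_)
  rw [← RingHom.coe_comp, ← IsScalarTower.algebraMap_eq, IsScalarTower.algebraMap_eq R K L]
  exact (algebraMap K L).injective.comp (IsFractionRing.injective R K)

open Polynomial in
/-- the cover is etale where `ρ f` does not vanish -/
theorem Root.et (G : WS R K n) {ω' : PForm L n} (h : Root G.ω ω') {f : Fin n → R} (hf : G.ρ f ≠ 0)
    {u : R'} (hu : algebraMap R' L u = ω'.rho fun i => algebraMap R L (f i)) (g : R') :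
    ∃ (k : ℕ) (P : Polynomial R), algebraMap R R' (G.ρ f) ^ k * g = Polynomial.aeval u P := by
  have := KWs_int (R := R) (R' := R') L
  have := KWs_faith (R := R) (R' := R') K L
  have : CharZero K := charZero_of_injective_algebraMap (algebraMap ℂ K).injective
  have : CharZero R' := charZero_of_injective_algebraMap (algebraMap ℂ R').injective
  obtain ⟨u', hu', hm⟩ := h.rho_R (R' := R') G f
  obtain rfl : u = u' := IsFractionRing.injective R' L (hu.trans hu'.symm)
  have hθ : IsIntegral R u := Algebra.IsIntegral.isIntegral u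
  have hR : ∀ r : R', IsIntegral R (algebraMap R' L r) := fun r =>
    (Algebra.IsIntegral.isIntegral r).map (IsScalarTower.toAlgHom R R' L)
  have hx : IsIntegral K (algebraMap R' L u) := Algebra.IsIntegral.isIntegral _
  have u0 : u ≠ 0 := by
    rintro rfl
    rw [zero_pow G.ω.m_pos.ne', eq_comm, FaithfulSMul.algebraMap_eq_zero_iff] at hm
    exact hf hm
  have uL : algebraMap R' L u ≠ 0 := (map_ne_zero_iff _ (IsFractionRing.injective R' L)).2 u0
  have e1 : algebraMap R' L (aeval u (derivative (minpoly R u))) =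
      aeval (algebraMap R' L u) (derivative (minpoly K (algebraMap R' L u))) := by
    rw [minpoly.isIntegrallyClosed_eq_field_fractions K L hθ, derivative_map,
      aeval_map_algebraMap, aeval_algebraMap_apply]
  obtain ⟨Q, hQ⟩ : minpoly R u ∣ X ^ G.ω.m - C (G.ρ f) :=
    minpoly.isIntegrallyClosed_dvd hθ (by simp [hm])
  have e3 : (G.ω.m : R') * u ^ (G.ω.m - 1) = aeval u (derivative (minpoly R u)) * aeval u Q := by
    have := congrArg (fun P => aeval u (derivative P)) hQ
    simpa [derivative_X_pow, minpoly.aeval] using this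
  have h5 : aeval u (derivative (minpoly R u)) ≠ 0 := fun e => by
    rw [e, zero_mul] at e3
    exact mul_ne_zero (Nat.cast_ne_zero.2 G.ω.m_pos.ne') (pow_ne_zero _ u0) e3
  have h2 : Algebra.adjoin K {algebraMap R' L u} = ⊤ := by
    rw [← IntermediateField.adjoin_simple_toSubalgebra_of_isAlgebraic hx.isAlgebraic]
    have : IntermediateField.adjoin K {algebraMap R' L u} = ⊤ := by
      rw [eq_top_iff, ← h.gen, IntermediateField.adjoin_simple_le_iff]
      have e : ω'.h = algebraMap K L (G.ω.jac fun i => algebraMap R K (f i)) /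
          algebraMap R' L u := by
        have hh := ω'.h_ne
        rw [eq_div_iff uL, hu, KWs_rho' h, mul_div_cancel₀ _ hh]
      rw [e]
      exact div_mem (IntermediateField.algebraMap_mem _ _)
        (IntermediateField.mem_adjoin_simple_self _ _)
    rw [this]
    rfl
  have h3 : algebraMap R' L g ∈ (Algebra.traceForm K L).dualSubmodule
      (Subalgebra.toSubmodule (Algebra.adjoin R {algebraMap R' L u})) := by
    intro y hy
    have h4 : IsIntegral R y := adjoin_le_integralClosure (hR u) hy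
    obtain ⟨a, ha⟩ := IsIntegrallyClosed.isIntegral_iff.1
      (Algebra.isIntegral_trace (L := K) ((hR g).mul h4))
    exact Submodule.mem_one.2 ⟨a, ha⟩
  rw [traceForm_dualSubmodule_adjoin R K h2 (hR u), ← e1] at h3
  obtain ⟨b, hb, e2⟩ := (Submodule.mem_smul_pointwise_iff_exists _ _ _).1 h3
  rw [Subalgebra.mem_toSubmodule, Algebra.adjoin_singleton_eq_range_aeval] at hb
  obtain ⟨H, rfl⟩ := hb
  have e4 : aeval u (derivative (minpoly R u)) * g = aeval u H := by
    refine IsFractionRing.injective R' L ?_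
    have h6 : algebraMap R' L (aeval u (derivative (minpoly R u))) ≠ 0 :=
      (map_ne_zero_iff _ (IsFractionRing.injective R' L)).2 h5
    rw [map_mul, ← e2, smul_eq_mul, mul_inv_cancel_left₀ h6, ← aeval_algebraMap_apply]
    rfl
  refine ⟨1, C (algebraMap ℂ R (G.ω.m : ℂ)⁻¹) * X * Q * H, ?_⟩
  have e5 : algebraMap ℂ R' (G.ω.m : ℂ)⁻¹ * (G.ω.m : R') = 1 := by
    rw [← map_natCast (algebraMap ℂ R'), ← map_mul,
      inv_mul_cancel₀ (Nat.cast_ne_zero.2 G.ω.m_pos.ne'), map_one]
  have e6 : u ^ G.ω.m = u * u ^ (G.ω.m - 1) := (mul_pow_sub_one G.ω.m_pos.ne' u).symm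
  rw [pow_one, ← hm, map_mul, map_mul, map_mul, aeval_C, aeval_X, ← IsScalarTower.algebraMap_apply,
    ← e4, e6]
  linear_combination (algebraMap ℂ R' (G.ω.m : ℂ)⁻¹ * u * g) * e3 - (u * u ^ (G.ω.m - 1) * g) * e5

theorem comap_height [Algebra.IsIntegral R R'] [FaithfulSMul R R'] {p : Ideal R'} [p.IsPrime]
    (hp : p.height = 1) : (p.comap (algebraMap R R')).height = 1 := by
  have : IsNoetherianRing R := Algebra.FiniteType.isNoetherianRing ℂ R
  have : IsNoetherianRing R' := Algebra.FiniteType.isNoetherianRing ℂ R'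
  set P : Ideal R := p.comap (algebraMap R R') with hP
  have : P.IsPrime := Ideal.comap_isPrime _ p
  have : p.LiesOver P := ⟨rfl⟩
  have hP0 : P ≠ ⊥ := fun h0 => p.ne_bot_of_height_eq_one hp (Ideal.eq_bot_of_comap_eq_bot h0)
  have hht := Ideal.height_eq_height_add_of_liesOver_of_hasGoingDown P p
  apply le_antisymm
  · exact le_trans (hht ▸ le_self_add) hp.le
  · rw [Order.one_le_iff_ne_zero, Ne, Ideal.height_eq_zero_iff_eq_bot]
    exact hP0

variable (L) in
/-- The local ring inside the function field. -/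
def KWs_O [IsNoetherianRing R'] (p : Ideal R') [p.IsPrime] : Subring L where
  carrier := {a | InLoc p a}
  mul_mem' := AHart_mul
  add_mem' := AHart_add
  one_mem' := by simpa using AHart_alg (K := L) (p := p) 1
  zero_mem' := by simpa using AHart_alg (K := L) (p := p) 0
  neg_mem' := fun {a} ha => by
    simpa using AHart_mul (AHart_alg (K := L) (p := p) (-1)) ha

/-- Elements of `O` with differential in `M`. -/
def KWs_S (O : Subring L) (M : Submodule O (KaehlerDifferential ℂ L)) : Subring L where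
  carrier := {a | a ∈ O ∧ KaehlerDifferential.D ℂ L a ∈ M}
  mul_mem' := fun {a b} ha hb => ⟨O.mul_mem ha.1 hb.1, by
    rw [Derivation.leibniz]
    exact M.add_mem (M.smul_mem ⟨a, ha.1⟩ hb.2) (M.smul_mem ⟨b, hb.1⟩ ha.2)⟩
  add_mem' := fun {a b} ha hb => ⟨O.add_mem ha.1 hb.1, by
    rw [map_add]; exact M.add_mem ha.2 hb.2⟩
  one_mem' := ⟨O.one_mem, by rw [Derivation.map_one_eq_zero]; exact M.zero_mem⟩
  zero_mem' := ⟨O.zero_mem, by rw [map_zero]; exact M.zero_mem⟩
  neg_mem' := fun {a} ha => ⟨O.neg_mem ha.1, by rw [map_neg]; exact M.neg_mem ha.2⟩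

theorem KWs_loc (G : WS R K n) {ω' : PForm L n} (h : Root G.ω ω') (p : Ideal R') [hp : p.IsPrime]
    {f : Fin n → R} (hf : algebraMap R R' (G.ρ f) ∉ p) (g : Fin n → R') :
    InLoc p (ω'.rho fun i => algebraMap R' L (g i)) := by
  have : CharZero L := charZero_of_injective_algebraMap (algebraMap ℂ L).injective
  have : IsNoetherianRing R' := Algebra.FiniteType.isNoetherianRing ℂ R'
  obtain ⟨u, hu, hm⟩ := h.rho_R (R' := R') G f
  have up : u ∉ p := fun e => hf (hm ▸ p.pow_mem_of_mem e _ G.ω.m_pos)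
  have f0 : G.ρ f ≠ 0 := fun e => hf (by rw [e, map_zero]; exact p.zero_mem)
  set O := KWs_O L p with hO
  set M := Submodule.span O (KaehlerDifferential.D ℂ L '' Set.range (algebraMap R L)) with hM
  have hT : ∀ r : R, algebraMap R L r ∈ KWs_S O M := fun r =>
    ⟨IsScalarTower.algebraMap_apply R R' L r ▸ AHart_alg _,
      Submodule.subset_span ⟨_, ⟨r, rfl⟩, rfl⟩⟩
  have uL : algebraMap R' L u ≠ 0 := AHart_ne up
  have mL : (G.ω.m : L) ≠ 0 := Nat.cast_ne_zero.2 G.ω.m_pos.ne'
  have hU : algebraMap R' L u ∈ KWs_S O M := by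
    refine ⟨AHart_alg _, ?_⟩
    have e1 := (hT (G.ρ f)).2
    rw [IsScalarTower.algebraMap_apply R R' L, ← hm, map_pow, Derivation.leibniz_pow,
      ← Nat.cast_smul_eq_nsmul L, smul_smul] at e1
    have c : ((G.ω.m : L) * algebraMap R' L u ^ (G.ω.m - 1))⁻¹ ∈ O := by
      rw [mul_inv, ← inv_pow]
      refine O.mul_mem ?_ (O.pow_mem (AHart_inv up) _)
      have : ((G.ω.m : L))⁻¹ = algebraMap R' L (algebraMap ℂ R' (G.ω.m : ℂ)⁻¹) := by
        rw [← IsScalarTower.algebraMap_apply, map_inv₀, map_natCast]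
      rw [this]
      exact AHart_alg _
    have e2 : ((G.ω.m : L) * algebraMap R' L u ^ (G.ω.m - 1))⁻¹ • _ ∈ M := M.smul_mem ⟨_, c⟩ e1
    rwa [smul_smul,
      inv_mul_cancel₀ (mul_ne_zero mL (pow_ne_zero _ uL)), one_smul] at e2
  have hI : (algebraMap R L (G.ρ f))⁻¹ ∈ KWs_S O M := by
    have c : (algebraMap R L (G.ρ f))⁻¹ ∈ O :=
      IsScalarTower.algebraMap_apply R R' L _ ▸ AHart_inv hf
    refine ⟨c, ?_⟩
    rw [Derivation.leibniz_inv]
    exact M.smul_mem ⟨_, O.neg_mem (O.pow_mem c 2)⟩ (hT _).2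
  have hP : ∀ P : Polynomial R, Polynomial.aeval (algebraMap R' L u) P ∈ KWs_S O M := by
    intro P
    rw [Polynomial.aeval_eq_sum_range]
    refine Subring.sum_mem _ fun i _ => ?_
    rw [Algebra.smul_def]
    exact Subring.mul_mem _ (hT _) (Subring.pow_mem _ hU _)
  have hg : ∀ i, algebraMap R' L (g i) ∈ KWs_S O M := by
    intro i
    obtain ⟨k, P, e⟩ := h.et G f0 hu (g i)
    have e2 : algebraMap R' L (g i) =
        (algebraMap R L (G.ρ f))⁻¹ ^ k * Polynomial.aeval (algebraMap R' L u) P := by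
      have : algebraMap R L (G.ρ f) ≠ 0 := IsScalarTower.algebraMap_apply R R' L _ ▸ AHart_ne hf
      rw [Polynomial.aeval_algebraMap_apply, ← e, map_mul, map_pow,
        ← IsScalarTower.algebraMap_apply, inv_pow, inv_mul_cancel_left₀ (pow_ne_zero _ this)]
    rw [e2]
    exact Subring.mul_mem _ (Subring.pow_mem _ hI _) (hP P)
  let P : Submodule O L :=
    { carrier := {a | a / ω'.h ∈ O}
      add_mem' := fun {a b} ha hb => by
        change (a + b) / ω'.h ∈ O
        rw [add_div]; exact O.add_mem ha hb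
      zero_mem' := by
        change 0 / ω'.h ∈ O
        rw [zero_div]; exact O.zero_mem
      smul_mem' := fun c a ha => by
        change ((c : L) * a) / ω'.h ∈ O
        rw [mul_div_assoc]; exact O.mul_mem c.2 ha }
  rw [KWs_rho h]
  refine jac_mem ω' O (Set.range (algebraMap R L)) _ (fun i => (hg i).2) P fun f' hf' => ?_
  choose f₀ hf₀ using hf'
  obtain ⟨v, hv, -⟩ := h.rho_R (R' := R') G f₀
  change ω'.jac f' / ω'.h ∈ O
  rw [← KWs_rho h, ← funext hf₀, ← hv]
  exact AHart_alg _

theorem Root.ws (G : WS R K n) {ω' : PForm L n} (h : Root G.ω ω') :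
    ∃ G' : WS R' L n, G'.ω = ω' := by
  have := KWs_int (R := R) (R' := R') L
  have := KWs_faith (R := R) (R' := R') K L
  have h1 : ∀ p : Ideal R', p.IsPrime → p.height = 1 → ∃ f, algebraMap R R' (G.ρ f) ∉ p :=
    fun p _ hp => G.gen _ (Ideal.comap_isPrime _ p) (comap_height hp)
  have h2 : ∀ g : Fin n → R', ∃ r : R',
      algebraMap R' L r = ω'.rho fun i => algebraMap R' L (g i) := fun g =>
    hartogs fun p _ hp => (h1 p ‹_› hp).elim fun f hf => KWs_loc G h p hf g
  choose ρ hρ using h2
  refine ⟨⟨ω', ρ, hρ, fun p _ hp => ?_, fun w hw ho => ?_⟩, rfl⟩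
  · obtain ⟨f, hf⟩ := h1 p ‹_› hp
    obtain ⟨u, hu, hm⟩ := h.rho_R (R' := R') G f
    refine ⟨fun i => algebraMap R R' (f i), fun e => hf (hm ▸ p.pow_mem_of_mem ?_ _ G.ω.m_pos)⟩
    have : ρ (fun i => algebraMap R R' (f i)) = u := IsFractionRing.injective R' L (by
      rw [hρ, hu]; simp only [← IsScalarTower.algebraMap_apply])
    exact this ▸ e
  · rw [← h.A]
    refine G.klt _ ?_ fun r => ?_
    · obtain ⟨a, a0, ha⟩ := hw
      have hal : IsAlgebraic (IsScalarTower.toAlgHom ℂ K L).fieldRange a :=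
        (Algebra.IsAlgebraic.isAlgebraic (R := K) a).ringHom_of_comp_eq
          (IsScalarTower.toAlgHom ℂ K L).toRingHom.rangeRestrictField (RingHom.id L)
          (RingHom.injective _) rfl
      obtain ⟨N, b, N0, ⟨c, rfl⟩, b0, hb⟩ := sa_norm _ w a0 hal
      refine ⟨c, fun e => b0 (by rw [e, map_zero]), ?_⟩
      have : (w.comap (IsScalarTower.toAlgHom ℂ K L)).v c = N * w.v a := hb
      rw [this]
      exact mul_ne_zero (Nat.cast_ne_zero.2 N0.ne') ha
    · rcases ho (algebraMap R R' r) with e | e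
      · left
        rw [← IsScalarTower.algebraMap_apply, IsScalarTower.algebraMap_apply R K L] at e
        exact (map_eq_zero _).1 e
      · right
        rw [← IsScalarTower.algebraMap_apply, IsScalarTower.algebraMap_apply R K L] at e
        exact e

end Vale.Agent.P282
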