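import Vale.Agent.P282.KRef0
import Vale.Agent.P282.KWs

set_option linter.unusedSectionVars false

open scoped ENNReal TensorProduct Topology
open Filter MeasureTheory

noncomputable section

namespace Vale.Agent.P282

variable {R K : Type} [CommRing R] [IsDomain R] [Algebra ℂ R] [Algebra.FiniteType ℂ R]
  [IsIntegrallyClosed R] [Field K] [Algebra R K] [IsFractionRing R K] [Algebra ℂ K]
  [IsScalarTower ℂ R K] {n : ℕ}

variable {R' L : Type} [CommRing R'] [IsDomain R'] [Algebra ℂ R'] [Algebra.FiniteType ℂ R']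
  [IsIntegrallyClosed R'] [Field L] [Algebra R' L] [IsFractionRing R' L] [Algebra ℂ L]
  [IsScalarTower ℂ R' L] [Algebra R R'] [IsScalarTower ℂ R R'] [Algebra K L] [Algebra R L]
  [IsScalarTower R R' L] [IsScalarTower R K L] [IsScalarTower ℂ K L]

variable [FiniteDimensional K L] [IsIntegralClosure R' R L]


include K L in
theorem KRef_inj : Function.Injective (algebraMap R R') := by
  intro a b hab
  apply IsFractionRing.injective R K
  apply (algebraMap K L).injective
  rw [← IsScalarTower.algebraMap_apply, ← IsScalarTower.algebraMap_apply,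
    IsScalarTower.algebraMap_apply R R' L, hab, ← IsScalarTower.algebraMap_apply]

theorem KRef_anti (G : WS R K n) {ω' : PForm L n} (h : Root G.ω ω') (τ : L ≃ₐ[K] L)
    (hτ : τ ω'.h = -ω'.h) (p : Ideal R') {f : Fin n → R}
    (hf : algebraMap R R' (G.ρ f) ∉ p) : ¬ ∀ r, r - galRestrict R K L R' τ r ∈ p := by
  intro H
  obtain ⟨u, hu, hu'⟩ := Root.rho_R (R' := R') G h f
  have h1 : (fun i => algebraMap R L (f i)) = fun i => algebraMap K L (algebraMap R K (f i)) :=
    funext fun i => IsScalarTower.algebraMap_apply R K L _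
  have h2 : galRestrict R K L R' τ u = -u := by
    apply IsFractionRing.injective R' L
    rw [algebraMap_galRestrict_apply, map_neg, hu, PForm.rho, h1, h.jac, map_div₀, map_pow,
      AlgEquiv.commutes, hτ, div_neg]
  have h3 := H u
  rw [h2, sub_neg_eq_add, ← two_mul] at h3
  have h4 : u ∈ p := by
    have h5 := p.mul_mem_left (algebraMap ℂ R' 2⁻¹) h3
    rwa [← mul_assoc, ← map_ofNat (algebraMap ℂ R') 2, ← map_mul, inv_mul_cancel₀ two_ne_zero,
      map_one, one_mul] at h5
  exact hf (hu' ▸ p.pow_mem_of_mem h4 _ G.ω.m_pos)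

theorem KRef_sq {ω : PForm K n} {ω' : PForm L n} (h : Root ω ω') (τ : L ≃ₐ[K] L)
    (hτ : τ ω'.h = -ω'.h) (r : R') :
    galRestrict R K L R' τ (galRestrict R K L R' τ r) = r := by
  obtain ⟨ε, -, h1, h2⟩ := h.chi (τ * τ)
  rw [AlgEquiv.mul_apply, hτ, map_neg, hτ, neg_neg] at h1
  have h3 : τ * τ = 1 := h2 (smul_left_injective ℂ ω'.h_ne (by
    change ε • ω'.h = (1 : ℂ) • ω'.h
    rw [one_smul, ← h1]))
  apply IsFractionRing.injective R' L
  rw [algebraMap_galRestrict_apply, algebraMap_galRestrict_apply, ← AlgEquiv.mul_apply, h3,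
    AlgEquiv.one_apply]

theorem KRef_one (G : WS R K n) {ω' : PForm L n} (h : Root G.ω ω') (τ : L ≃ₐ[K] L)
    (hτ : τ ω'.h = -ω'.h) {x' : Pt R'} (hx : ∀ r, x' (galRestrict R K L R' τ r) = x' r)
    {a b : R'} (ha : a ∈ x'.m) (hb : b ∈ x'.m) (ha' : galRestrict R K L R' τ a = a)
    (hb' : galRestrict R K L R' τ b = b ∨ galRestrict R K L R' τ b = -b)
    (hm : x'.m ≤ Ideal.span {a, b} ⊔ x'.m ^ 2) : False := by
  have hsq := KRef_sq (R := R) (R' := R') h τ hτ
  by_cases hb0 : galRestrict R K L R' τ b = b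
  · obtain ⟨π⟩ := exists_proj' (trdeg_eq G.ω R)
    refine KRef_anti G h τ hτ (⊥ : Ideal R') (f := π.y) (fun h0 => G.ρ_ne π ?_) fun r => ?_
    · exact KRef_inj (R' := R') (K := K) (L := L) (by rw [Ideal.mem_bot.mp h0, map_zero])
    · refine inv_triv x' ((galRestrict R K L R' τ).restrictScalars ℂ) hsq hx ![a, b]
        (fun i => ?_) (fun i => ?_) ⊥ (fun r hr => ?_) ?_ ⊥ le_rfl bot_le r
      · fin_cases i
        · exact ha'
        · exact hb0
      · fin_cases i
        · exact ha
        · exact hb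
      · rw [Ideal.mem_bot.mp hr, map_zero]
        exact zero_mem _
      · rw [sup_bot_eq, Matrix.range_cons, Matrix.range_cons, Matrix.range_empty, Set.union_empty,
          Set.singleton_union]
        exact hm
  · have hb1 := hb'.resolve_left hb0
    have hb2 : b ≠ 0 := fun h0 => hb0 (by rw [h0, map_zero])
    have : IsNoetherianRing R' := Algebra.FiniteType.isNoetherianRing ℂ R'
    obtain ⟨p, hp, hpm⟩ := Ideal.exists_minimalPrimes_le (I := Ideal.span {b}) (J := x'.m)
      ((Ideal.span_singleton_le_iff_mem _).mpr hb)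
    have := hp.isPrime
    have : Algebra.IsIntegral R R' := IsIntegralClosure.isIntegral_algebra R L
    have : FaithfulSMul R R' :=
      (faithfulSMul_iff_algebraMap_injective R R').mpr (KRef_inj (K := K) (L := L))
    have h1 : p.height = 1 := by
      refine le_antisymm (Ideal.height_le_one_of_isPrincipal_of_mem_minimalPrimes _ p hp) ?_
      rw [Order.one_le_iff_ne_zero, Ne, Ideal.height_eq_zero_iff_eq_bot]
      intro h0
      exact hb2 (Ideal.mem_bot.mp (h0 ▸ hp.1.2 (Ideal.mem_span_singleton_self b)))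
    obtain ⟨f, hf⟩ := G.gen _ inferInstance (comap_height (R := R) h1)
    refine KRef_anti G h τ hτ p (f := f) hf fun r => ?_
    refine inv_triv x' ((galRestrict R K L R' τ).restrictScalars ℂ) hsq hx (fun _ : Unit => a)
      (fun _ => ha') (fun _ => ha) (Ideal.span {b}) (fun r hr => ?_) ?_ p hp.1.2 hpm r
    · obtain ⟨c, rfl⟩ := Ideal.mem_span_singleton'.mp hr
      rw [map_mul]
      refine Ideal.mul_mem_left _ _ ?_
      change galRestrict R K L R' τ b ∈ _
      rw [hb1]
      exact neg_mem (Ideal.mem_span_singleton_self b)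
    · rw [Set.range_const, ← Ideal.span_insert]
      exact hm

theorem KRef_jac (ω' : PForm L 2) (g : Fin 2 → L) : (ω'.jac fun i => -g i) = ω'.jac g := by
  rw [ω'.jac_of_eq (fun i => -g i) g (-1) fun i => ?_, Matrix.det_neg, Matrix.det_one]
  · simp
  · fin_cases i <;> simp [Matrix.one_apply]

/-- no reflections -/
theorem Root.no_inv (G : WS R K 2) (G' : WS R' L 2) (h : Root G.ω G'.ω) {x' : Pt R'}
    (hr : IsRegularLocalRing (Localization.AtPrime x'.m)) (τ : L ≃ₐ[K] L)
    (hτ : ∀ r, x' (galRestrict R K L R' τ r) = x' r) : τ G'.ω.h ≠ -G'.ω.h := by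
  intro hn
  obtain ⟨π⟩ := exists_proj' (trdeg_eq G'.ω R')
  obtain ⟨z, hz0, hz⟩ := gen_of_regular π x' hr
  obtain ⟨z', h0, h1⟩ := inv_gen x' ((galRestrict R K L R' τ).restrictScalars ℂ)
    (KRef_sq (R := R) (R' := R') h τ hn) hτ z hz0 hz
  have h2 : Set.range z' = {z' 0, z' 1} := by
    ext y
    simp [Fin.exists_fin_two, eq_comm]
  rcases (h0 0).2 with ha | ha
  · exact KRef_one G h τ hn hτ (h0 0).1 (h0 1).1 ha (h0 1).2 (h2 ▸ h1)
  rcases (h0 1).2 with hb | hb
  · refine KRef_one G h τ hn hτ (h0 1).1 (h0 0).1 hb (h0 0).2 ?_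
    rw [Set.pair_comm, ← h2]
    exact h1
  have h3 : ∀ i, τ (algebraMap R' L (z' i)) = -algebraMap R' L (z' i) := by
    intro i
    rw [← algebraMap_galRestrict_apply R, ← map_neg]
    fin_cases i
    · exact congrArg _ ha
    · exact congrArg _ hb
  have h4 : galRestrict R K L R' τ (G'.ρ z') = -G'.ρ z' := by
    apply IsFractionRing.injective R' L
    rw [algebraMap_galRestrict_apply, map_neg, G'.ρ_eq, PForm.rho, map_div₀, map_pow,
      ← jac_aut h.jac, hn, div_neg, funext h3, KRef_jac]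
  refine rho_gen G' x' z' (fun i => (h0 i).1) h1 ?_
  have h5 := hτ (G'.ρ z')
  rw [h4, map_neg] at h5
  exact self_eq_neg.mp h5.symm

end Vale.Agent.P282
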