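import Vale.Agent.P282.KTriv
import Vale.Agent.P282.KLoc
import Vale.Agent.P282.KGain
import Vale.Agent.P282.KOrd
import Vale.Agent.P282.KRef

set_option linter.unusedSectionVars false

open scoped ENNReal TensorProduct Topology
open Filter MeasureTheory

noncomputable section

namespace Vale.Agent.P282

variable {R K : Type} [CommRing R] [IsDomain R] [Algebra ℂ R] [Algebra.FiniteType ℂ R]
  [IsIntegrallyClosed R] [Field K] [Algebra R K] [IsFractionRing R K] [Algebra ℂ K]
  [IsScalarTower ℂ R K] {n : ℕ}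

variable {R' L : Type} [CommRing R'] [IsDomain R'] [Algebra ℂ R'] [Algebra.FiniteType ℂ R']
  [IsIntegrallyClosed R'] [Field L] [Algebra R' L] [IsFractionRing R' L] [Algebra ℂ L]
  [IsScalarTower ℂ R' L] [Algebra R R'] [IsScalarTower ℂ R R'] [Algebra K L] [Algebra R L]
  [IsScalarTower R R' L] [IsScalarTower R K L] [IsScalarTower ℂ K L]

variable [FiniteDimensional K L] [IsIntegralClosure R' R L]


theorem KCov_two {ε : ℂ} (h : ε ≠ 1) : Function.Injective fun i : Fin 2 => ε ^ (i : ℕ) := by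
  intro i j hij
  fin_cases i <;> fin_cases j
  · rfl
  · exact absurd (by simpa using hij.symm) h
  · exact absurd (by simpa using hij) h
  · rfl

theorem KCov_three {ε : ℂ} (h0 : ε ≠ 0) (h : ε ≠ 1) (h' : ε ≠ -1) :
    Function.Injective fun i : Fin 3 => ε ^ (i : ℕ) := by
  have h1 : ε ^ 2 ≠ 1 := fun e => (sq_eq_one_iff.1 e).elim h h'
  have h2 : ε ^ 2 ≠ ε := fun e => h (mul_left_cancel₀ h0 (by rw [← pow_two, e, mul_one]))
  intro i j hij
  fin_cases i <;> fin_cases j
  · rfl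
  · exact absurd (by simpa using hij.symm) h
  · exact absurd (by simpa only [pow_zero] using hij.symm) h1
  · exact absurd (by simpa using hij) h
  · rfl
  · exact absurd (by simpa only [pow_one] using hij.symm) h2
  · exact absurd (by simpa only [pow_zero] using hij) h1
  · exact absurd (by simpa only [pow_one] using hij) h2
  · rfl

theorem KCov_fin (G : WS R K n) (hn : 2 ≤ n) {ω' : PForm L n} (h : Root G.ω ω') {x : Pt R}
    {x' : Pt R'} (hx : ∀ r, x' (algebraMap R R' r) = x r) {w : RVal L} (hw : w.CenteredAt x'.m)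
    {a V : ℝ} (hV : 0 ≤ V) (hA : ω'.A w ≤ (a : EReal))
    (hv : vol x.m n (w.comap (IsScalarTower.toAlgHom ℂ K L)) ≤ ENNReal.ofReal V)
    (hl : V * a ^ n < 2 * ((n : ℝ) - 1) ^ n) : Strict G.ω x.m := by
  obtain ⟨π, hy⟩ := exists_red K (n := n) (by omega) (trdeg_eq G.ω R) x
  have hm0 : x.m ≠ ⊥ := fun e0 =>
    π.ind.ne_zero ⟨0, by omega⟩ (Ideal.mem_bot.1 (e0 ▸ hy.1 ⟨0, by omega⟩))
  have hc := centered_comap (K := K) hx hw
  obtain ⟨-, b1, b2⟩ := nv_le G x.m hm0 hc (τ := 1) (a := a) one_pos hV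
    (by rw [h.A, mul_one]; exact hA) (by rw [one_pow, div_one]; exact hv)
  have h2 : (2 : ℝ) ≤ n := by exact_mod_cast hn
  refine ⟨_, hc, b1, b2.trans_lt ?_⟩
  rw [bd_eq (by omega)]
  exact (ENNReal.ofReal_lt_ofReal_iff (mul_pos two_pos (pow_pos (by linarith) n))).2 hl

theorem Root.cov (G : WS R K n) (hn : 2 ≤ n) {ω' : PForm L n} (h : Root G.ω ω') {x : Pt R}
    {x' : Pt R'} (hx : ∀ r, x' (algebraMap R R' r) = x r)
    (hs : ¬ IsRegularLocalRing (Localization.AtPrime x.m)) : DP n x.m ∨ Strict G.ω x.m := by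
  obtain ⟨G', rfl⟩ := Root.ws (R' := R') G h
  by_cases ht : ∀ τ : L ≃ₐ[K] L, (∀ r, x' (galRestrict R K L R' τ r) = x' r) → τ = 1
  · obtain ⟨c, s, h0, h1⟩ := h.unit hx ht
    exact gt_loc G hn x hs h0 h1
  push Not at ht
  obtain ⟨τ, hτ, hτ1⟩ := ht
  obtain ⟨ε, e1, e2, e3⟩ := h.chi τ
  have e4 : ε ≠ 1 := fun e => hτ1 (e3 e)
  have e0 : ε ≠ 0 := fun e => by
    rw [e, zero_pow G.ω.m_pos.ne'] at e1
    exact zero_ne_one e1
  obtain ⟨w, hw, w1, w2, w3⟩ := exists_ordv G' h.m hn x'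
  have h2 : (2 : ℝ) ≤ n := by exact_mod_cast hn
  have h3 : (0 : ℝ) < ((n : ℝ) - 1) ^ n := pow_pos (by linarith) n
  refine Or.inr ?_
  by_cases hr : IsRegularLocalRing (Localization.AtPrime x'.m)
  · obtain ⟨π⟩ := exists_proj' (trdeg_eq G'.ω R')
    obtain ⟨z, z1, z2⟩ := gen_of_regular π x' hr
    have hH := hs_gen x' z z1 z2
    rcases hn.eq_or_lt with rfl | hn3
    · have e5 : ε ≠ -1 := fun e => h.no_inv G G' hr τ hτ (by rw [e2, e, neg_one_smul])
      exact KCov_fin G le_rfl h hx hw (by positivity) w2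
        (cov_gain hx τ hτ e2 three_pos (KCov_three e0 e4 e5) zero_le_one hH hw w1) (by norm_num)
    · refine KCov_fin G hn h hx hw (by positivity) w2
        (cov_gain hx τ hτ e2 two_pos (KCov_two e4) zero_le_one hH hw w1) ?_
      have h4 := num_half hn3
      push_cast
      linarith
  · rcases gt G' h.m hn x' hr with hd | hd
    · refine KCov_fin G hn h hx hw (by positivity) (w3 hr)
        (cov_gain hx τ hτ e2 two_pos (KCov_two e4) zero_le_two (hs_dp x' hd) hw w1) ?_
      push_cast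
      linarith
    · exact strict_down hx (fun w _ => h.A w) hd

end Vale.Agent.P282
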