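import Vale.Agent.P282.UJx
import Vale.Agent.P282.AVol
import Vale.Agent.P282.AProj
import Vale.Agent.P282.AHart
import Vale.Agent.P282.ANum

set_option linter.unusedSectionVars false

open scoped ENNReal TensorProduct Topology
open Filter MeasureTheory

noncomputable section

namespace Vale.Agent.P282

variable {R K : Type} [CommRing R] [IsDomain R] [Algebra ℂ R] [Algebra.FiniteType ℂ R]
  [IsIntegrallyClosed R] [Field K] [Algebra R K] [IsFractionRing R K] [Algebra ℂ K]
  [IsScalarTower ℂ R K] {n : ℕ}

/-- `ω'` is an `m`-th root of `ω` that generates the field extension. -/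
structure Root {L : Type} [Field L] [Algebra ℂ L] [Algebra K L] (ω : PForm K n) (ω' : PForm L n) :
    Prop where
  m : ω'.m = 1
  h : ω'.h ^ ω.m = algebraMap K L ω.h
  jac : ∀ f : Fin n → K, (ω'.jac fun i => algebraMap K L (f i)) = algebraMap K L (ω.jac f)
  gen : IntermediateField.adjoin K {ω'.h} = ⊤

/-- A bound for the Hilbert-Samuel function. -/
def HS (n : ℕ) (m : Ideal R) (e : ℝ) : Prop :=
  ∀ k : ℕ, (n.factorial : ℝ) * Module.finrank ℂ (R ⧸ m ^ k) ≤ e * (k + n) ^ n

end Vale.Agent.P282
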