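import Vale.Agent.P282.QDefs

set_option linter.unusedSectionVars false

open scoped ENNReal TensorProduct Topology
open Filter MeasureTheory

noncomputable section

namespace Vale.Agent.P282

variable {R K : Type} [CommRing R] [IsDomain R] [Algebra ℂ R] [Algebra.FiniteType ℂ R]
  [IsIntegrallyClosed R] [Field K] [Algebra R K] [IsFractionRing R K] [Algebra ℂ K]
  [IsScalarTower ℂ R K] {n : ℕ}

theorem QCnt_nat : ∀ (n : ℕ) (w : Fin n → ℕ), (∀ i, 0 < w i) → ∀ j : ℕ,
    ∃ T : Finset (Fin n → ℕ), (∀ α, ∑ i, w i * α i < j → α ∈ T) ∧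
      n.factorial * T.card * ∏ i, w i ≤ (j + ∑ i, w i) ^ n := by
  intro n
  induction n with
  | zero => exact fun w _ j => ⟨{default}, fun α _ => by simp [Subsingleton.elim α default], by simp⟩
  | succ n ih =>
    intro w hw j
    induction j using Nat.strong_induction_on with
    | _ j ihj =>
      obtain ⟨T, hT, hc⟩ := ih (fun i => w i.succ) (fun i => hw _) j
      have key := pow_add_mul_le_add_pow (a := j + ∑ i : Fin n, w i.succ) (b := w 0)
        (Nat.zero_le _) (Nat.zero_le _) (n + 1)
      rw [Nat.add_sub_cancel, Nat.cast_id] at key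
      have h0 : ∀ α : Fin (n + 1) → ℕ, ∑ i, w i * α i < j → α 0 = 0 →
          α ∈ T.image fun β => (Fin.cons 0 β : Fin (n + 1) → ℕ) := fun α hα h => by
        refine Finset.mem_image.2 ⟨fun i => α i.succ, hT _ ?_, ?_⟩
        · rw [Fin.sum_univ_succ] at hα
          omega
        · rw [← h]
          exact Fin.cons_self_tail α
      have h1 : (n + 1).factorial * T.card * ∏ i, w i ≤
          (n + 1) * (j + ∑ i : Fin n, w i.succ) ^ n * w 0 := by
        rw [Fin.prod_univ_succ, Nat.factorial_succ]
        calc (n + 1) * n.factorial * T.card * (w 0 * ∏ i : Fin n, w i.succ)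
            = (n + 1) * (n.factorial * T.card * ∏ i : Fin n, w i.succ) * w 0 := by ring
          _ ≤ _ := by gcongr
      have e : j + ∑ i, w i = j + ∑ i : Fin n, w i.succ + w 0 := by
        rw [Fin.sum_univ_succ]; ring
      rcases le_or_gt j (w 0) with hj | hj
      · refine ⟨_, fun α hα => h0 α hα ?_, ?_⟩
        · rw [Fin.sum_univ_succ] at hα
          by_contra hne
          have : w 0 ≤ w 0 * α 0 := Nat.le_mul_of_pos_right _ (Nat.pos_of_ne_zero hne)
          omega
        · rw [e]
          refine le_trans ?_ (h1.trans (le_trans (Nat.le_add_left _ _) key))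
          gcongr
          exact Finset.card_image_le
      · obtain ⟨T', hT', hc'⟩ := ihj (j - w 0) (by have := hw 0; omega)
        have e' : j - w 0 + ∑ i, w i = j + ∑ i : Fin n, w i.succ := by
          rw [Fin.sum_univ_succ]; omega
        rw [e'] at hc'
        refine ⟨(T'.image fun β => Function.update β 0 (β 0 + 1)) ∪
          T.image fun β => (Fin.cons 0 β : Fin (n + 1) → ℕ), fun α hα => ?_, ?_⟩
        · rcases Nat.eq_zero_or_pos (α 0) with h | h
          · exact Finset.mem_union_right _ (h0 α hα h)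
          · refine Finset.mem_union_left _ (Finset.mem_image.2
              ⟨Function.update α 0 (α 0 - 1), hT' _ ?_, ?_⟩)
            · rw [Fin.sum_univ_succ] at hα ⊢
              simp only [Function.update_self, ne_eq, Fin.succ_ne_zero, not_false_eq_true,
                Function.update_of_ne]
              have : w 0 * α 0 = w 0 * (α 0 - 1) + w 0 := by
                rw [← Nat.mul_succ, Nat.succ_eq_add_one, Nat.sub_add_cancel h]
              omega
            · simp only [Function.update_self, Function.update_idem]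
              rw [Nat.sub_add_cancel h, Function.update_eq_self]
        · rw [e]
          refine le_trans ?_ ((Nat.add_le_add hc' h1).trans key)
          rw [← add_mul, ← mul_add]
          gcongr
          exact (Finset.card_union_le _ _).trans
            (Nat.add_le_add Finset.card_image_le Finset.card_image_le)

theorem QCnt_dep {F M : Type} [Field F] [AddCommGroup M] [Module F M] {ι : Type} [Fintype ι]
    {I : ι → Submodule F M} {κ : ι → Type} [∀ i, Fintype (κ i)] (e : ∀ i, κ i → M)
    (he : ∀ i x, ∃ b : κ i → F, x - ∑ l, b l • e i l ∈ I i) {k : ℕ}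
    (hk : ∑ i, Fintype.card (κ i) < k) (x : Fin k → M) :
    ∃ a : Fin k → F, (∃ l, a l ≠ 0) ∧ ∀ i, ∑ l, a l • x l ∈ I i := by
  choose b hb using he
  have h1 : ¬ LinearIndependent F fun (l : Fin k) (p : Σ i, κ i) => b p.1 (x l) p.2 := fun h => by
    have := h.fintype_card_le_finrank
    rw [Module.finrank_fintype_fun_eq_card, Fintype.card_sigma, Fintype.card_fin] at this
    omega
  obtain ⟨a, ha, hne⟩ := Fintype.not_linearIndependent_iff.1 h1
  refine ⟨a, hne, fun i => ?_⟩
  have h2 : ∑ l, a l • x l = ∑ l, a l • (x l - ∑ m, b i (x l) m • e i m) := by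
    simp only [smul_sub, Finset.sum_sub_distrib, Finset.smul_sum, smul_smul]
    rw [Finset.sum_comm]
    have : ∀ m, ∑ l, (a l * b i (x l) m) • e i m = 0 := fun m => by
      have h3 := congrFun ha ⟨i, m⟩
      simp only [Finset.sum_apply, Pi.smul_apply, smul_eq_mul, Pi.zero_apply] at h3
      rw [← Finset.sum_smul, h3, zero_smul]
    simp only [this, Finset.sum_const_zero, sub_zero]
  rw [h2]
  exact Submodule.sum_mem _ fun l _ => Submodule.smul_mem _ _ (hb i _)

theorem QCnt_tmul {F R : Type} [Field F] [Algebra ℂ F] [CommRing R] [Algebra ℂ R] {k : ℕ}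
    (β : F) (a : Fin k → F) (u : Fin k → R) :
    β • ∑ l, a l • ((1 : F) ⊗ₜ[ℂ] u l) = ∑ l, (β * a l) ⊗ₜ[ℂ] u l := by
  rw [Finset.smul_sum]
  refine Finset.sum_congr rfl fun l _ => ?_
  rw [smul_smul, TensorProduct.smul_tmul', smul_eq_mul, mul_one]

theorem cnt_le (w : Fin n → ℕ) (hw : ∀ i, 0 < w i) (j : ℕ) : ∃ T : Finset (Fin n → ℕ),
    (∀ α, ∑ i, w i * α i < j → α ∈ T) ∧
      (n.factorial : ℝ) * T.card ≤ (j + ∑ i, (w i : ℝ)) ^ n / ∏ i, (w i : ℝ) := by
  obtain ⟨T, hT, hc⟩ := QCnt_nat n w hw j
  refine ⟨T, hT, ?_⟩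
  rw [le_div_iff₀ (Finset.prod_pos fun i _ => by exact_mod_cast hw i)]
  exact_mod_cast hc

omit [IsDomain R] [Algebra.FiniteType ℂ R] [IsIntegrallyClosed R] in
/-- the limit of a subspace has no larger codimension -/
theorem lim_codim {ι : Type} [Fintype ι] {I : ι → Submodule MK (RK R)} {κ : ι → Type}
    [∀ i, Fintype (κ i)] (e : ∀ i, κ i → RK R)
    (he : ∀ i x, ∃ b : κ i → MK, x - ∑ l, b l • e i l ∈ I i) (T : Submodule ℂ R)
    (hT : ∀ x u, (∀ i, x ∈ I i) → Lim x u → u ∈ T) :
    Module.finrank ℂ (R ⧸ T) ≤ ∑ i, Fintype.card (κ i) := by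
  refine Module.finrank_le_of_rank_le (rank_le fun s hs => ?_)
  by_contra hlt
  have hv := hs.comp _ s.equivFin.symm.injective
  choose u hu using fun l : Fin s.card => T.mkQ_surjective (s.equivFin.symm l)
  obtain ⟨a, ha, hI⟩ := QCnt_dep e he (not_le.1 hlt) fun l => (1 : MK) ⊗ₜ[ℂ] u l
  obtain ⟨β, h1, l, d, hd, h2⟩ := MK.exists_norm a ha
  choose c hc using h1
  have h3 := hT _ _ (fun i => (I i).smul_mem β (hI i))
    ⟨s.card, fun l => β * a l, c, u, hc, QCnt_tmul β a u, rfl⟩
  have h4 := Fintype.linearIndependent_iff.1 hv c (by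
    have h5 := (Submodule.Quotient.mk_eq_zero T).2 h3
    rw [← Submodule.mkQ_apply, map_sum] at h5
    simp only [map_smul, hu] at h5
    exact h5) l
  exact hd (h2.unique (h4 ▸ hc l))

end Vale.Agent.P282
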