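import Vale.Agent.P282.KDefs
import Vale.Agent.P282.QCnt

set_option linter.unusedSectionVars false

open scoped ENNReal TensorProduct Topology
open Filter MeasureTheory

noncomputable section

namespace Vale.Agent.P282

variable {R K : Type} [CommRing R] [IsDomain R] [Algebra ℂ R] [Algebra.FiniteType ℂ R]
  [IsIntegrallyClosed R] [Field K] [Algebra R K] [IsFractionRing R K] [Algebra ℂ K]
  [IsScalarTower ℂ R K] {n : ℕ}

omit [IsIntegrallyClosed R]

theorem KHS_span {ι : Type} [Fintype ι] (m : Ideal R) (u : ι → R) (z : Fin n → R)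
    (h0 : ∀ i, z i ∈ m)
    (h : ∀ N r, ∃ c : ι → ℂ, r - ∑ i, c i • u i ∈ Ideal.span (Set.range z) ⊔ m ^ N) (k : ℕ)
    (r : R) : r ∈ Submodule.span ℂ ((fun p : ι × (Fin n → ℕ) => u p.1 * ∏ j, z j ^ p.2 j) ''
      {p | ∑ j, p.2 j < k}) ⊔ (m ^ k).restrictScalars ℂ := by
  induction k generalizing r with
  | zero => exact Submodule.mem_sup_right (by simp)
  | succ k ih =>
    obtain ⟨c, hc⟩ := h (k + 1) r
    obtain ⟨a, ha, b, hb, e⟩ := Submodule.mem_sup.1 hc
    obtain ⟨d, rfl⟩ := Ideal.mem_span_range_iff_exists_fun.1 ha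
    rw [eq_add_of_sub_eq e.symm]
    refine add_mem (add_mem (sum_mem fun j _ => ?_) (Submodule.mem_sup_right hb))
      (Submodule.mem_sup_left (sum_mem fun i _ => Submodule.smul_mem _ _
        (Submodule.subset_span ⟨(i, 0), by simp, by simp⟩)))
    obtain ⟨s, hs, t, ht, e'⟩ := Submodule.mem_sup.1 (ih (d j))
    rw [← e', add_mul]
    refine add_mem (Submodule.mem_sup_left ?_) (Submodule.mem_sup_right ?_)
    · clear e'
      induction hs using Submodule.span_induction with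
      | mem y hy =>
        obtain ⟨p, hp, rfl⟩ := hy
        refine Submodule.subset_span ⟨(p.1, p.2 + Pi.single j 1), ?_, ?_⟩
        · simpa [Finset.sum_add_distrib] using hp
        · simp only [Pi.add_apply, pow_add, Finset.prod_mul_distrib, mul_assoc]
          simp [Pi.single_apply, pow_ite]
      | zero => simp
      | add y y' _ _ h1 h2 => rw [add_mul]; exact add_mem h1 h2
      | smul c y _ h1 => rw [smul_mul_assoc]; exact Submodule.smul_mem _ _ h1
    · rw [Submodule.restrictScalars_mem, pow_succ]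
      exact Ideal.mul_mem_mul ht (h0 j)

theorem KHS_key {ι : Type} [Fintype ι] (m : Ideal R) (u : ι → R) (z : Fin n → R)
    (h0 : ∀ i, z i ∈ m)
    (h : ∀ N r, ∃ c : ι → ℂ, r - ∑ i, c i • u i ∈ Ideal.span (Set.range z) ⊔ m ^ N) (k : ℕ) :
    FiniteDimensional ℂ (R ⧸ m ^ k) ∧
      (n.factorial : ℝ) * Module.finrank ℂ (R ⧸ m ^ k) ≤ Fintype.card ι * (k + n) ^ n := by
  obtain ⟨T, hT, hc⟩ := cnt_le (fun _ : Fin n => 1) (fun _ => one_pos) k
  have h1 : Submodule.span ℂ (Set.range fun p : ι × T =>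
      Ideal.Quotient.mkₐ ℂ (m ^ k) (u p.1 * ∏ j, z j ^ p.2.1 j)) = ⊤ := by
    refine eq_top_iff.2 fun y _ => ?_
    obtain ⟨r, rfl⟩ := Ideal.Quotient.mkₐ_surjective ℂ (m ^ k) y
    obtain ⟨s, hs, t, ht, rfl⟩ := Submodule.mem_sup.1 (KHS_span m u z h0 h k r)
    rw [map_add, show Ideal.Quotient.mkₐ ℂ (m ^ k) t = 0 from Ideal.Quotient.eq_zero_iff_mem.2 ht,
      add_zero]
    have h2 := Submodule.mem_map_of_mem (f := (Ideal.Quotient.mkₐ ℂ (m ^ k)).toLinearMap) hs
    rw [Submodule.map_span] at h2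
    refine Submodule.span_mono ?_ h2
    rintro _ ⟨_, ⟨p, hp, rfl⟩, rfl⟩
    exact ⟨(p.1, ⟨p.2, hT _ (by simpa using hp)⟩), rfl⟩
  refine ⟨Module.finite_def.2 (h1 ▸ Submodule.fg_span (Set.finite_range _)), ?_⟩
  have h2 : (Module.finrank ℂ (R ⧸ m ^ k) : ℝ) ≤ Fintype.card ι * T.card := by
    have := finrank_le_of_span_eq_top h1
    rw [Fintype.card_prod, Fintype.card_coe] at this
    exact_mod_cast this
  simp only [Nat.cast_one, Finset.sum_const, Finset.card_univ, Fintype.card_fin, nsmul_eq_mul,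
    mul_one, Finset.prod_const_one, div_one] at hc
  calc _ ≤ (n.factorial : ℝ) * (Fintype.card ι * T.card) := by gcongr
    _ = Fintype.card ι * (n.factorial * T.card) := by ring
    _ ≤ _ := by gcongr

theorem KHS_iter {m I : Ideal R} {k : ℕ} (h : m ^ k ≤ I ⊔ m ^ (k + 1)) (N : ℕ) :
    m ^ k ≤ I ⊔ m ^ N := by
  have h1 : ∀ j, m ^ k ≤ I ⊔ m ^ (k + j) := by
    intro j
    induction j with
    | zero => exact le_sup_right
    | succ j ih =>
      refine ih.trans (sup_le le_sup_left ?_)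
      rw [pow_add, show k + (j + 1) = k + 1 + j by ring, pow_add m (k + 1)]
      refine (Ideal.mul_mono_left h).trans ?_
      rw [Ideal.sup_mul]
      exact sup_le_sup_right Ideal.mul_le_left _
  exact (h1 N).trans (sup_le_sup_left (Ideal.pow_le_pow_right (Nat.le_add_left _ _)) _)

theorem KHS_sub (x : Pt R) (r : R) : r - x r • (1 : R) ∈ x.m := by
  rw [Pt.mem_m, map_sub, map_smul, map_one, smul_eq_mul, mul_one, sub_self]

theorem KHS_gen (x : Pt R) (z : Fin n → R) (h0 : ∀ i, z i ∈ x.m)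
    (hz : x.m ≤ Ideal.span (Set.range z) ⊔ x.m ^ 2) (k : ℕ) :
    FiniteDimensional ℂ (R ⧸ x.m ^ k) ∧
      (n.factorial : ℝ) * Module.finrank ℂ (R ⧸ x.m ^ k) ≤ Fintype.card Unit * (k + n) ^ n :=
  KHS_key x.m (fun _ : Unit => 1) z h0 (fun N r => ⟨fun _ => x r, by
    rw [Fintype.sum_unique]
    exact KHS_iter (k := 1) (by rwa [pow_one]) N (by rw [pow_one]; exact KHS_sub x r)⟩) k

theorem fin_pow (x : Pt R) (k : ℕ) : FiniteDimensional ℂ (R ⧸ x.m ^ k) := by
  have := Algebra.FiniteType.isNoetherianRing ℂ R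
  obtain ⟨l, z, hz⟩ := Submodule.fg_iff_exists_fin_generating_family.1
    (IsNoetherian.noetherian x.m)
  exact (KHS_gen x z (fun i => hz ▸ Submodule.subset_span ⟨i, rfl⟩)
    (le_sup_of_le_left hz.ge) k).1

theorem hs_gen (x : Pt R) (z : Fin n → R) (h0 : ∀ i, z i ∈ x.m)
    (hz : x.m ≤ Ideal.span (Set.range z) ⊔ x.m ^ 2) : HS n x.m 1 := fun k => by
  simpa using (KHS_gen x z h0 hz k).2

theorem hs_dp (x : Pt R) (h : DP n x.m) : HS n x.m 2 := by
  obtain ⟨z, h0, h1, h2⟩ := h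
  set I := Ideal.span (Set.range fun i : Fin n => z i.succ) with hI
  have hzI : ∀ i : Fin n, z i.succ ∈ I := fun i => Ideal.subset_span ⟨i, rfl⟩
  have a1 : ∀ r ∈ x.m, ∃ c : ℂ, r - c • z 0 ∈ I ⊔ x.m ^ 2 := fun r hr => by
    obtain ⟨a, ha, b, hb, rfl⟩ := Submodule.mem_sup.1 (h1 hr)
    obtain ⟨d, rfl⟩ := Ideal.mem_span_range_iff_exists_fun.1 ha
    refine ⟨x (d 0), ?_⟩
    rw [Fin.sum_univ_succ, show d 0 * z 0 + ∑ i : Fin n, d i.succ * z i.succ + b - x (d 0) • z 0 =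
      ∑ i : Fin n, d i.succ * z i.succ + (b + (d 0 - x (d 0) • (1 : R)) * z 0) by
        rw [sub_mul, smul_mul_assoc, one_mul]; ring]
    refine Submodule.add_mem_sup (sum_mem fun i _ => I.mul_mem_left _ (hzI i)) (add_mem hb ?_)
    rw [pow_two]
    exact Ideal.mul_mem_mul (KHS_sub x _) (h0 0)
  have a2 : z 0 * z 0 ∈ I ⊔ x.m ^ 3 := by
    rw [show z 0 * z 0 = -(∑ i : Fin n, z i.succ * z i.succ) + ∑ i, z i ^ 2 by
      simp only [Fin.sum_univ_succ, pow_two]; ring]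
    exact Submodule.add_mem_sup (neg_mem (sum_mem fun i _ => I.mul_mem_left _ (hzI i))) h2
  have a3 : ∀ r ∈ x.m, ∀ s ∈ I ⊔ x.m ^ 2, s * r ∈ I ⊔ x.m ^ 3 := fun r hr s hs => by
    obtain ⟨a, ha, b, hb, rfl⟩ := Submodule.mem_sup.1 hs
    rw [add_mul, pow_succ]
    exact Submodule.add_mem_sup (I.mul_mem_right _ ha) (Ideal.mul_mem_mul hb hr)
  have a4 : x.m ^ 2 ≤ I ⊔ x.m ^ 3 := by
    rw [pow_two]
    refine Ideal.mul_le.2 fun r hr s hs => ?_
    obtain ⟨c, hc⟩ := a1 r hr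
    obtain ⟨c', hc'⟩ := a1 s hs
    rw [show r * s = (r - c • z 0) * s + c • ((s - c' • z 0) * z 0 + c' • (z 0 * z 0)) by
      simp only [Algebra.smul_def]; ring]
    exact add_mem (a3 s hs _ hc) (Submodule.smul_of_tower_mem _ _
      (add_mem (a3 _ (h0 0) _ hc') (Submodule.smul_of_tower_mem _ _ a2)))
  intro k
  simpa using (KHS_key x.m ![1, z 0] (fun i => z i.succ) (fun i => h0 _) (fun N r => by
    obtain ⟨c, hc⟩ := a1 _ (KHS_sub x r)
    refine ⟨![x r, c], ?_⟩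
    rw [Fin.sum_univ_two, ← sub_sub]
    exact sup_le le_sup_left (KHS_iter a4 N) hc) k).2

end Vale.Agent.P282
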