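import Vale.Agent.P282.VDefs

set_option linter.unusedSectionVars false

open scoped ENNReal TensorProduct Topology
open Filter MeasureTheory

noncomputable section

namespace Vale.Agent.P282

variable {F : Type} [Field F] [Algebra ℂ F]

open Polynomial UTame in
/-- a nonzero equation with coefficients in `K₀` -/
theorem VAlg_poly (K₀ : IntermediateField ℂ F) {g : F} (ha : IsAlgebraic K₀ g) :
    ∃ P : F[X], P ≠ 0 ∧ (∀ j, P.coeff j ∈ K₀) ∧ P.eval g = 0 := by
  obtain ⟨p, hp, h0⟩ := ha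
  refine ⟨p.map (algebraMap K₀ F), Polynomial.map_ne_zero hp, fun j => ?_, ?_⟩
  · rw [coeff_map]
    exact (p.coeff j).2
  · rw [eval_map_algebraMap, h0]

open Polynomial in
theorem VAlg_der {M : Type*} [AddCommGroup M] [Module F M] [Module ℂ M] [IsScalarTower ℂ F M]
    (d : Derivation ℂ F M) (Q : F[X]) (θ : F) : d (Q.eval θ) =
    ∑ i ∈ Finset.range (Q.natDegree + 1), θ ^ i • d (Q.coeff i) +
      (derivative Q).eval θ • d θ := by
  rw [derivative_eval, sum_over_range _ (by simp), eval_eq_sum_range, map_sum, Finset.sum_smul,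
    ← Finset.sum_add_distrib]
  refine Finset.sum_congr rfl fun i _ => ?_
  rw [d.leibniz, d.leibniz_pow, add_comm, ← Nat.cast_smul_eq_nsmul F, smul_smul, smul_smul]

theorem sa_norm (K₀ : IntermediateField ℂ F) (w : RVal F) {g : F} (hg : g ≠ 0)
    (ha : IsAlgebraic K₀ g) : ∃ (N : ℕ) (b : F), 0 < N ∧ b ∈ K₀ ∧ b ≠ 0 ∧ w.v b = N * w.v g := by
  classical
  obtain ⟨P, hP, hK, h0⟩ := VAlg_poly K₀ ha
  obtain ⟨i, hi, hmin⟩ := P.support.exists_min_image (fun j => w.v (P.coeff j * g ^ j))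
    (Polynomial.support_nonempty.2 hP)
  have hne : ∀ j ∈ P.support, P.coeff j ≠ 0 := fun j hj => Polynomial.mem_support_iff.1 hj
  have hv : ∀ j ∈ P.support, w.v (P.coeff j * g ^ j) = w.v (P.coeff j) + j * w.v g :=
    fun j hj => by rw [w.mul _ _ (hne j hj) (pow_ne_zero _ hg), w.v_pow g hg]
  obtain ⟨j, hj, hji, hE⟩ : ∃ j ∈ P.support, j ≠ i ∧
      w.v (P.coeff j * g ^ j) = w.v (P.coeff i * g ^ i) := by
    by_contra hc
    push Not at hc
    rw [Polynomial.eval_eq_sum, Polynomial.sum_def, ← Finset.add_sum_erase _ _ hi] at h0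
    refine (UTame.add_gt (w := w) (mul_ne_zero (hne i hi) (pow_ne_zero _ hg))
      (UTame.Gt.sum fun j hj => Or.inr ?_)).1 h0
    obtain ⟨h1, h2⟩ := Finset.mem_erase.1 hj
    exact lt_of_le_of_ne (hmin j h2) (hc j h2 h1).symm
  rw [hv i hi, hv j hj] at hE
  rcases lt_or_gt_of_ne hji with h | h
  · refine ⟨i - j, P.coeff j / P.coeff i, Nat.sub_pos_of_lt h, div_mem (hK j) (hK i),
      div_ne_zero (hne j hj) (hne i hi), ?_⟩
    rw [w.v_div _ _ (hne j hj) (hne i hi), Nat.cast_sub h.le]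
    linarith
  · refine ⟨j - i, P.coeff i / P.coeff j, Nat.sub_pos_of_lt h, div_mem (hK i) (hK j),
      div_ne_zero (hne i hi) (hne j hj), ?_⟩
    rw [w.v_div _ _ (hne i hi) (hne j hj), Nat.cast_sub h.le]
    linarith

theorem sa_eq (K₀ : IntermediateField ℂ F) (w : RVal F) {g : F} (hg : g ≠ 0)
    (ha : IsAlgebraic K₀ g) (h : 0 ≤ w.v g) : ∃ p q : Polynomial F,
      (∀ j, p.coeff j ∈ K₀ ∧ w.Ge (p.coeff j) 0) ∧ (∀ j, q.coeff j ∈ K₀ ∧ w.Ge (q.coeff j) 0) ∧
      p.eval g ≠ 0 ∧ w.v (p.eval g) = 0 ∧ p.eval g * g = q.eval g⁻¹ := by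
  classical
  obtain ⟨P, hP, hK, h0⟩ := VAlg_poly K₀ ha
  obtain ⟨i, hi, hmin⟩ := P.support.exists_min_image (fun j => w.v (P.coeff j))
    (Polynomial.support_nonempty.2 hP)
  have hne : ∀ j ∈ P.support, P.coeff j ≠ 0 := fun j hj => Polynomial.mem_support_iff.1 hj
  set a : ℕ → F := fun j => P.coeff j / P.coeff i with hadef
  have haK : ∀ j, a j ∈ K₀ := fun j => div_mem (hK j) (hK i)
  have ha0 : ∀ j, w.Ge (a j) 0 := fun j => by
    by_cases hj : j ∈ P.support
    · refine Or.inr ?_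
      rw [hadef]
      simp only
      rw [w.v_div _ _ (hne j hj) (hne i hi)]
      linarith [hmin j hj]
    · refine Or.inl ?_
      simp [hadef, Polynomial.notMem_support_iff.1 hj]
  have hai : a i = 1 := div_self (hne i hi)
  obtain ⟨k, hk, hmax⟩ := (P.support.filter fun j => w.v (a j) = 0).exists_max_image id
    ⟨i, Finset.mem_filter.2 ⟨hi, by rw [hai, w.v_one]⟩⟩
  obtain ⟨hk1, hk2⟩ := Finset.mem_filter.1 hk
  have hak : a k ≠ 0 := div_ne_zero (hne k hk1) (hne i hi)
  have hgt : ∀ j, k < j → UTame.Gt w (a j) 0 := fun j hj => by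
    by_cases hj' : j ∈ P.support
    · rcases ha0 j with h1 | h1
      · exact Or.inl h1
      · refine Or.inr (lt_of_le_of_ne h1 fun h2 => ?_)
        exact absurd (hmax j (Finset.mem_filter.2 ⟨hj', h2.symm⟩)) (not_le.2 hj)
    · refine Or.inl ?_
      simp [hadef, Polynomial.notMem_support_iff.1 hj']
  set n := P.natDegree with hn
  have hsum : ∑ j ∈ Finset.range (k + (n + 1)), a j * g ^ j = 0 := by
    have h1 := Polynomial.eval_eq_sum_range' (p := P) (n := k + (n + 1)) (by omega) g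
    rw [h0] at h1
    have h2 : ∑ j ∈ Finset.range (k + (n + 1)), a j * g ^ j =
        (∑ j ∈ Finset.range (k + (n + 1)), P.coeff j * g ^ j) / P.coeff i := by
      rw [Finset.sum_div]
      exact Finset.sum_congr rfl fun j _ => by rw [hadef]; simp only; ring
    rw [h2, ← h1, zero_div]
  set p : Polynomial F := ∑ j ∈ Finset.range (n + 1), Polynomial.monomial j (a (k + j)) with hp
  set q : Polynomial F := ∑ j ∈ Finset.range k, Polynomial.monomial j (-a (k - 1 - j)) with hq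
  have hpe : p.eval g = ∑ j ∈ Finset.range (n + 1), a (k + j) * g ^ j := by
    simp [hp, Polynomial.eval_finsetSum]
  have hqe : q.eval g⁻¹ = ∑ j ∈ Finset.range k, -a (k - 1 - j) * g⁻¹ ^ j := by
    simp [hq, Polynomial.eval_finsetSum]
  have hpv : p.eval g ≠ 0 ∧ w.v (p.eval g) = w.v (a k) := by
    rw [hpe, Finset.sum_range_succ', add_comm]
    simp only [add_zero, pow_zero, mul_one]
    refine UTame.add_gt hak (UTame.Gt.sum fun j _ => ?_)
    rw [hk2, mul_comm]
    have h1 : w.Ge (g ^ (j + 1)) 0 := by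
      simpa using (show w.Ge g 0 from Or.inr h).pow (j + 1)
    simpa using UTame.Gt.mul h1 (hgt (k + (j + 1)) (by omega))
  rw [Finset.sum_range_add] at hsum
  have h3 : ∑ j ∈ Finset.range (n + 1), a (k + j) * g ^ (k + j) = g ^ k * p.eval g := by
    rw [hpe, Finset.mul_sum]
    exact Finset.sum_congr rfl fun j _ => by ring
  rw [h3] at hsum
  refine ⟨p, q, fun j => ?_, fun j => ?_, hpv.1, hpv.2.trans hk2, ?_⟩
  · rw [hp, Polynomial.finsetSum_coeff]
    refine ⟨sum_mem fun l _ => ?_, RVal.Ge.sum fun l _ => ?_⟩ <;>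
      rw [Polynomial.coeff_monomial] <;> split_ifs
    exacts [haK _, zero_mem _, ha0 _, RVal.Ge.zero _]
  · rw [hq, Polynomial.finsetSum_coeff]
    refine ⟨sum_mem fun l _ => ?_, RVal.Ge.sum fun l _ => ?_⟩ <;>
      rw [Polynomial.coeff_monomial] <;> split_ifs
    exacts [neg_mem (haK _), zero_mem _, (ha0 _).neg, RVal.Ge.zero _]
  · obtain rfl | hk0 := Nat.eq_zero_or_pos k
    · simp only [Finset.range_zero, Finset.sum_empty, pow_zero, one_mul, zero_add] at hsum
      exact absurd hsum hpv.1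
    obtain ⟨m, rfl⟩ : ∃ m, k = m + 1 := ⟨k - 1, by omega⟩
    refine mul_left_cancel₀ (pow_ne_zero m hg) ?_
    have h4 : g ^ m * q.eval g⁻¹ = -∑ j ∈ Finset.range (m + 1), a j * g ^ j := by
      rw [hqe, Finset.mul_sum, ← Finset.sum_range_reflect (fun j => a j * g ^ j),
        ← Finset.sum_neg_distrib]
      refine Finset.sum_congr rfl fun j hj => ?_
      have hj' : j ≤ m := Nat.lt_succ_iff.1 (Finset.mem_range.1 hj)
      rw [Nat.add_sub_cancel, pow_sub₀ g hg hj', inv_pow]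
      ring
    rw [h4]
    linear_combination hsum

theorem sa_min (K₀ : IntermediateField ℂ F) (w : RVal F) {s : F} (hs : s ≠ 0)
    (ha : IsAlgebraic K₀ s) (h : w.v s = 0) : ∃ j < (minpoly K₀ s).natDegree,
      (minpoly K₀ s).coeff j ≠ 0 ∧ w.v ((minpoly K₀ s).coeff j : F) ≤ 0 := by
  by_contra hc
  push Not at hc
  have h0 := minpoly.aeval K₀ s
  have hm := minpoly.monic ha.isIntegral
  rw [Polynomial.aeval_eq_sum_range, Finset.sum_range_succ, hm.coeff_natDegree, one_smul,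
    add_comm] at h0
  refine (UTame.add_gt (w := w) (pow_ne_zero _ hs) (UTame.Gt.sum fun j hj => ?_)).1 h0
  rw [w.v_pow s hs, h, mul_zero, Algebra.smul_def, mul_comm]
  have h1 : w.Ge (s ^ j) 0 := by
    simpa using (show w.Ge s 0 from Or.inr h.ge).pow j
  have h2 : UTame.Gt w (algebraMap K₀ F ((minpoly K₀ s).coeff j)) 0 := by
    by_cases h3 : (minpoly K₀ s).coeff j = 0
    · exact Or.inl (by rw [h3, map_zero])
    · exact Or.inr (hc j (Finset.mem_range.1 hj) h3)
  simpa using UTame.Gt.mul h1 h2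

/-- the differential of an algebraic function -/
theorem D_alg {k : ℕ} (y : Fin k → F) {a : F}
    (ha : IsAlgebraic (IntermediateField.adjoin ℂ (Set.range y)) a) :
    ∃ c : Fin k → F, KaehlerDifferential.D ℂ F a = ∑ j, c j • KaehlerDifferential.D ℂ F (y j) := by
  set M := Submodule.span F (Set.range fun j => KaehlerDifferential.D ℂ F (y j)) with hM
  have h1 : ∀ x ∈ IntermediateField.adjoin ℂ (Set.range y), KaehlerDifferential.D ℂ F x ∈ M := by
    intro x hx
    induction hx using IntermediateField.adjoin_induction with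
    | mem x hx =>
      obtain ⟨j, rfl⟩ := hx
      exact Submodule.subset_span ⟨j, rfl⟩
    | algebraMap x => rw [Derivation.map_algebraMap]; exact M.zero_mem
    | add x y _ _ hx hy => rw [map_add]; exact M.add_mem hx hy
    | inv x _ hx => rw [Derivation.leibniz_inv]; exact M.smul_mem _ hx
    | mul x y _ _ hx hy =>
      rw [Derivation.leibniz]; exact M.add_mem (M.smul_mem _ hy) (M.smul_mem _ hx)
  set K₀ := IntermediateField.adjoin ℂ (Set.range y)
  haveI : CharZero K₀ := algebraRat.charZero K₀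
  have hsep := (minpoly.irreducible ha.isIntegral).separable
  have h2 := hsep.aeval_derivative_ne_zero (minpoly.aeval K₀ a)
  have h3 := VAlg_der (KaehlerDifferential.D ℂ F) ((minpoly K₀ a).map (algebraMap K₀ F)) a
  rw [Polynomial.eval_map_algebraMap, minpoly.aeval, map_zero, Polynomial.derivative_map,
    Polynomial.eval_map_algebraMap] at h3
  have h4 : KaehlerDifferential.D ℂ F a ∈ M := by
    rw [← M.smul_mem_iff h2, ← neg_eq_of_add_eq_zero_right h3.symm]
    refine M.neg_mem (M.sum_mem fun i _ => M.smul_mem _ (h1 _ ?_))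
    rw [Polynomial.coeff_map]
    exact ((minpoly K₀ a).coeff i).2
  obtain ⟨c, hc⟩ := (Submodule.mem_span_range_iff_exists_fun F).1 h4
  exact ⟨c, hc.symm⟩

/-- the values of linear polynomials -/
theorem v_lin (w : RVal F) {t c d : F} (hc : t - c ≠ 0) (hd : t - d ≠ 0)
    (h : w.v (t - d) ≤ w.v (t - c)) :
    (c = d ∨ w.v (t - c) ≤ w.v (c - d)) ∧ w.v (t - d) = w.v (t - c) ∨
      c ≠ d ∧ w.v (c - d) < w.v (t - c) ∧ w.v (t - d) = w.v (c - d) := by
  have he : c - d = (t - d) + -(t - c) := by ring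
  rcases h.eq_or_lt with h | h
  · refine Or.inl ⟨?_, h⟩
    have h1 : w.Ge (c - d) (w.v (t - c)) := by
      rw [he]
      exact (show w.Ge (t - d) _ from Or.inr h.ge).add (RVal.Ge.self _).neg
    exact h1.imp sub_eq_zero.1 id
  · obtain ⟨h1, h2⟩ := w.v_add_of_lt hd (RVal.Ge.self (t - c)).neg h
    rw [← he] at h1 h2
    exact Or.inr ⟨sub_ne_zero.1 h1, h2 ▸ h, h2.symm⟩

/-- a complex polynomial with a large coefficient has a large root -/
theorem big_root (e : ℕ) {c : ℝ} (hc : 0 < c) : ∃ c' : ℝ, 0 < c' ∧ ∀ p : Polynomial ℂ, p.Monic →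
    p.natDegree = e → ∀ j < e, c ≤ ‖p.coeff j‖ → ∃ z, p.eval z = 0 ∧ c' ≤ ‖z‖ := by
  have hp : 0 < min 1 (c / 2 ^ e) / 2 := by positivity
  refine ⟨min 1 (c / 2 ^ e) / 2, hp, fun p hm he j hj hcj => ?_⟩
  by_contra hn
  push Not at hn
  have h1 := Polynomial.coeff_le_of_roots_le (p := p) (f := RingHom.id ℂ)
    (B := min 1 (c / 2 ^ e) / 2) j hm (IsAlgClosed.splits _) fun z hz => by
      rw [Polynomial.map_id] at hz
      exact (hn z (Polynomial.isRoot_of_mem_roots hz)).le
  rw [Polynomial.map_id, he] at h1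
  have h2 : min 1 (c / 2 ^ e) / 2 ≤ 1 := by linarith [min_le_left 1 (c / 2 ^ e)]
  have h3 : (min 1 (c / 2 ^ e) / 2) ^ (e - j) ≤ min 1 (c / 2 ^ e) / 2 :=
    pow_le_of_le_one hp.le h2 (by omega)
  have h4 : (e.choose j : ℝ) ≤ 2 ^ e := by exact_mod_cast Nat.choose_le_two_pow e j
  have h5 : min 1 (c / 2 ^ e) / 2 ≤ c / 2 ^ e / 2 := by linarith [min_le_right 1 (c / 2 ^ e)]
  have h6 : (min 1 (c / 2 ^ e) / 2) ^ (e - j) * (e.choose j : ℝ) ≤ c / 2 ^ e / 2 * 2 ^ e :=
    mul_le_mul (h3.trans h5) h4 (Nat.cast_nonneg _) (by positivity)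
  have h7 : c / 2 ^ e / 2 * 2 ^ e = c / 2 := by field_simp
  linarith

end Vale.Agent.P282
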