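import Vale.Agent.P282.KDefs
import Vale.Agent.P282.VAlg

set_option linter.unusedSectionVars false

open scoped ENNReal TensorProduct Topology
open Filter MeasureTheory

noncomputable section

namespace Vale.Agent.P282

variable {R K : Type} [CommRing R] [IsDomain R] [Algebra ℂ R] [Algebra.FiniteType ℂ R]
  [IsIntegrallyClosed R] [Field K] [Algebra R K] [IsFractionRing R K] [Algebra ℂ K]
  [IsScalarTower ℂ R K] {n : ℕ}

theorem KJac_ml {F M O : Type} [Field F] [AddCommGroup M] [Module F M] [CommRing O] [Algebra O F]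
    [Module O M] [IsScalarTower O F M] (φ : MultilinearMap F (fun _ : Fin n => M) F) (S : Set M)
    (v : Fin n → M) (h : ∀ i, v i ∈ Submodule.span O S) (P : Submodule O F)
    (hP : ∀ u : Fin n → M, (∀ i, u i ∈ S) → φ u ∈ P) : φ v ∈ P := by
  classical
  choose k c g e using fun i => Submodule.mem_span_set'.1 (h i)
  have e1 := (φ.restrictScalars O).map_sum fun i j => c i j • (g i j : M)
  simp only [e, MultilinearMap.map_smul_univ, MultilinearMap.coe_restrictScalars] at e1
  rw [e1]
  exact P.sum_mem fun r _ => P.smul_mem _ (hP _ fun i => (g i (r i)).2)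

theorem KJac_ex {S : Type} (ω : PForm K n) (a : S → K)
    (h : Submodule.span K (Set.range fun s => KaehlerDifferential.D ℂ K (a s)) = ⊤) :
    ∃ f : Fin n → S, (ω.jac fun i => a (f i)) ≠ 0 := by
  by_contra hc
  push Not at hc
  have := KJac_ml (O := K) ω.b.det.toMultilinearMap _ ω.b (fun i => h ▸ Submodule.mem_top) ⊥
    fun u hu => by
      choose f hf using hu
      rw [← funext hf]
      exact hc f
  exact one_ne_zero (ω.b.det_self.symm.trans this)

/-- multilinearity -/
theorem jac_mem {F : Type} [Field F] [Algebra ℂ F] (ω : PForm F n) (O : Subring F) (T : Set F)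
    (g : Fin n → F) (h : ∀ i, KaehlerDifferential.D ℂ F (g i) ∈
      Submodule.span O (KaehlerDifferential.D ℂ F '' T)) (P : Submodule O F)
    (hP : ∀ f : Fin n → F, (∀ i, f i ∈ T) → ω.jac f ∈ P) : ω.jac g ∈ P :=
  KJac_ml ω.b.det.toMultilinearMap _ _ h P fun u hu => by
    choose f h1 h2 using hu
    rw [← funext h2]
    exact hP f h1

/-- the differentials of generators of the maximal ideal generate near the point -/
theorem D_gen (x : Pt R) {ι : Type} [Fintype ι] (θ : ι → KaehlerDifferential ℂ R) (z : ι → R)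
    (h0 : ∀ i, z i ∈ x.m) (hz : x.m ≤ Ideal.span (Set.range z) ⊔ x.m ^ 2)
    (hθ : ∀ i, KaehlerDifferential.D ℂ R (z i) ∈
      Submodule.span R (Set.range θ) ⊔ x.m • (⊤ : Submodule R (KaehlerDifferential ℂ R))) :
    ∃ s : R, x s ≠ 0 ∧ ∀ r : R, ∃ c : ι → R, s • KaehlerDifferential.D ℂ R r = ∑ i, c i • θ i := by
  set N := Submodule.span R (Set.range θ) ⊔ x.m • (⊤ : Submodule R (KaehlerDifferential ℂ R))
  have h1 : ∀ a ∈ x.m, ∀ u, a • u ∈ N := fun a ha u =>
    Submodule.mem_sup_right (Submodule.smul_mem_smul ha Submodule.mem_top)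
  have h2 : ∀ a ∈ Ideal.span (Set.range z), KaehlerDifferential.D ℂ R a ∈ N := fun a ha => by
    obtain ⟨c, rfl⟩ := Ideal.mem_span_range_iff_exists_fun.1 ha
    rw [map_sum]
    refine N.sum_mem fun i _ => ?_
    rw [Derivation.leibniz]
    exact N.add_mem (N.smul_mem _ (hθ i)) (h1 _ (h0 i) _)
  have h3 : ∀ a ∈ x.m ^ 2, KaehlerDifferential.D ℂ R a ∈ N := fun a ha => by
    rw [sq] at ha
    refine Submodule.mul_induction_on ha (fun a ha b hb => ?_) fun a b ha hb => ?_
    · rw [Derivation.leibniz]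
      exact N.add_mem (h1 _ ha _) (h1 _ hb _)
    · rw [map_add]
      exact N.add_mem ha hb
  have h4 : ⊤ ≤ N := by
    rw [← KaehlerDifferential.span_range_derivation, Submodule.span_le]
    rintro _ ⟨r, rfl⟩
    obtain ⟨a, ha, b, hb, e⟩ := Submodule.mem_sup.1
      (hz (Pt.mem_m.2 (show x (r - algebraMap ℂ R (x r)) = 0 by
        rw [map_sub, AlgHomClass.commutes]; exact sub_self _)))
    have := congrArg (KaehlerDifferential.D ℂ R) e
    rw [map_sub, Derivation.map_algebraMap, sub_zero, map_add] at this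
    rw [← this]
    exact N.add_mem (h2 a ha) (h3 b hb)
  obtain ⟨s, s1, s2⟩ := Submodule.exists_sub_one_mem_and_smul_le_of_fg_of_le_sup
    (Module.Finite.fg_top (R := R) (M := KaehlerDifferential ℂ R)) le_rfl h4
  refine ⟨s, fun h => ?_, fun r => ?_⟩
  · have := Pt.mem_m.1 s1
    simp [h] at this
  · obtain ⟨c, hc⟩ := (Submodule.mem_span_range_iff_exists_fun R).1
      (s2 (Submodule.smul_mem_pointwise_smul _ s ⊤ (Submodule.mem_top
        (x := KaehlerDifferential.D ℂ R r))))
    exact ⟨c, hc.symm⟩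

/-- at a regular point `ρ` of a system of parameters is a unit -/
theorem rho_gen (G : WS R K n) (x : Pt R) (z : Fin n → R) (h0 : ∀ i, z i ∈ x.m)
    (hz : x.m ≤ Ideal.span (Set.range z) ⊔ x.m ^ 2) : G.ρ z ∉ x.m := by
  intro hm
  have inj := IsFractionRing.injective R K
  obtain ⟨s, hs, hc⟩ := D_gen x (fun i => KaehlerDifferential.D ℂ R (z i)) z h0 hz
    fun i => Submodule.mem_sup_left (Submodule.subset_span ⟨i, rfl⟩)
  have hs' : algebraMap R K s ≠ 0 := (map_ne_zero_iff _ inj).2 fun h => hs (by rw [h, map_zero])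
  have key : ∀ f : Fin n → R, ∃ e : R, s ^ (n * G.ω.m) * G.ρ f = e * G.ρ z := fun f => by
    choose c hc using fun i => hc (f i)
    have h2 := G.ω.jac_of_eq (fun i => algebraMap R K (f i)) (fun i => algebraMap R K (z i))
      ((algebraMap R K s)⁻¹ • (algebraMap R K).mapMatrix (Matrix.of c)) (fun i => by
        have e := congrArg (fun v => (algebraMap R K s)⁻¹ • KaehlerDifferential.map ℂ ℂ R K v)
          (hc i)
        simp only [map_smul, map_sum, KaehlerDifferential.map_D, Finset.smul_sum] at e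
        rw [← algebraMap_smul K s, inv_smul_smul₀ hs'] at e
        rw [e]
        refine Finset.sum_congr rfl fun j _ => ?_
        rw [← algebraMap_smul K (c i j), smul_smul]
        rfl)
    rw [Matrix.det_smul, ← RingHom.map_det, Fintype.card_fin] at h2
    refine ⟨(Matrix.of c).det ^ G.ω.m, inj ?_⟩
    rw [map_mul, map_mul, G.ρ_eq, G.ρ_eq, PForm.rho, PForm.rho, h2, map_pow, map_pow, pow_mul,
      ← mul_div_assoc, ← mul_div_assoc, ← mul_pow, ← mul_pow, ← mul_assoc, ← mul_assoc,
      ← mul_pow, mul_inv_cancel₀ hs', one_pow, one_mul]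
  have : IsNoetherianRing R := Algebra.FiniteType.isNoetherianRing ℂ R
  obtain ⟨q, hq, hqp⟩ := Ideal.exists_minimalPrimes_le
    ((Ideal.span_singleton_le_iff_mem x.m).2 hm)
  have hpr : q.IsPrime := hq.isPrime
  have hρ : G.ρ z ∈ q := (Ideal.span_singleton_le_iff_mem q).1 hq.1.2
  have h3 : ∀ f, G.ρ f ∈ q := fun f => by
    obtain ⟨e, he⟩ := key f
    have h3 : s ^ (n * G.ω.m) * G.ρ f ∈ q := he ▸ q.mul_mem_left e hρ
    exact (hpr.mem_or_mem h3).resolve_left fun h4 => hs (hqp (hpr.mem_of_pow_mem _ h4))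
  have h1 := Ideal.height_le_one_of_isPrincipal_of_mem_minimalPrimes _ q hq
  have h2 : 1 ≤ q.height := by
    rw [Order.one_le_iff_ne_zero, Ne, Ideal.height_eq_zero_iff_eq_bot]
    rintro rfl
    obtain ⟨f, hf⟩ := KJac_ex G.ω (algebraMap R K) (by
      simpa only [Function.comp_def, KaehlerDifferential.map_D] using
        KaehlerDifferential.span_range_map_derivation_of_isLocalization ℂ R K (nonZeroDivisors R))
    exact G.ω.rho_ne hf (by rw [← G.ρ_eq, (h3 f : G.ρ f = 0), map_zero])
  obtain ⟨f, hf⟩ := G.gen q hpr (le_antisymm h1 h2)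
  exact hf (h3 f)

/-- the derivation twisted by an automorphism -/
def KJac_der {L : Type} [Field L] [Algebra ℂ L] (τ : L ≃ₐ[ℂ] L)
    (l : KaehlerDifferential ℂ L →ₗ[L] L) : Derivation ℂ L L :=
  Derivation.mk' (τ.symm.toLinearMap ∘ₗ l.restrictScalars ℂ ∘ₗ
    (KaehlerDifferential.D ℂ L).toLinearMap ∘ₗ τ.toLinearMap) fun a b => by simp

theorem jac_aut {L : Type} [Field L] [Algebra ℂ L] [Algebra K L] [IsScalarTower ℂ K L]
    [Algebra.IsAlgebraic K L] {ω : PForm K n} {ω' : PForm L n}
    (hj : ∀ f : Fin n → K, (ω'.jac fun i => algebraMap K L (f i)) = algebraMap K L (ω.jac f))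
    (τ : L ≃ₐ[K] L) (g : Fin n → L) : (ω'.jac fun i => τ (g i)) = τ (ω'.jac g) := by
  obtain ⟨y, hy⟩ := KJac_ex ω id (KaehlerDifferential.span_range_derivation ℂ K)
  have h1 : (ω'.jac fun i => algebraMap K L (y i)) ≠ 0 := by
    rw [hj]
    exact (map_ne_zero _).2 hy
  have h2 := ((ω'.b.is_basis_iff_det).2 (isUnit_iff_ne_zero.2 h1)).2
  have h3 : ∀ i, ∃ c : Fin n → L, ∑ j, c j • KaehlerDifferential.D ℂ L (algebraMap K L (y j)) =
      KaehlerDifferential.D ℂ L (g i) := fun i =>
    (Submodule.mem_span_range_iff_exists_fun L).1 (h2 ▸ Submodule.mem_top)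
  choose c hc using h3
  have h4 : ∀ i, KaehlerDifferential.D ℂ L (τ (g i)) =
      ∑ j, τ (c i j) • KaehlerDifferential.D ℂ L (algebraMap K L (y j)) := fun i => by
    refine ω'.b.ext_elem fun k => ?_
    have e := congrArg (fun v => τ ((KJac_der (τ.restrictScalars ℂ)
      (ω'.b.coord k)).liftKaehlerDifferential v)) (hc i)
    simp only [map_sum, map_smul, Derivation.liftKaehlerDifferential_comp_D] at e
    simpa [KJac_der] using e.symm
  rw [ω'.jac_of_eq _ _ ((τ : L →+* L).mapMatrix (Matrix.of c)) h4,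
    ω'.jac_of_eq g _ (Matrix.of c) fun i => (hc i).symm, ← RingHom.map_det, hj, map_mul,
    τ.commutes]
  rfl

end Vale.Agent.P282
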