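import Vale.Agent.P282.KJac
import Vale.Agent.P282.KVol

set_option linter.unusedSectionVars false

open scoped ENNReal TensorProduct Topology
open Filter MeasureTheory

noncomputable section

namespace Vale.Agent.P282

variable {R K : Type} [CommRing R] [IsDomain R] [Algebra ℂ R] [Algebra.FiniteType ℂ R]
  [IsIntegrallyClosed R] [Field K] [Algebra R K] [IsFractionRing R K] [Algebra ℂ K]
  [IsScalarTower ℂ R K] {n : ℕ}

variable {R' : Type} [CommRing R'] [IsDomain R'] [Algebra ℂ R'] [Algebra.FiniteType ℂ R']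
  [IsIntegrallyClosed R'] [Algebra R' K] [IsFractionRing R' K] [IsScalarTower ℂ R' K]
  [Algebra R R'] [IsScalarTower ℂ R R'] [IsScalarTower R R' K]


theorem KLoc0_int (G : WS R K n) {c : K} {s : R} (h : c ^ G.ω.m * G.ω.h = algebraMap R K s)
    (f : Fin n → R) :
    (c * G.ω.jac fun i => algebraMap R K (f i)) ^ G.ω.m = algebraMap R K (s * G.ρ f) := by
  rw [map_mul, G.ρ_eq, ← h, PForm.rho, mul_pow, mul_assoc, mul_div_cancel₀ _ G.ω.h_ne]

theorem KLoc0_D (s : R) [IsLocalization.Away s R'] (g : R') :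
    KaehlerDifferential.D ℂ K (algebraMap R' K g) ∈ Submodule.span (algebraMap R' K).range
      (KaehlerDifferential.D ℂ K '' Set.range (algebraMap R K)) := by
  obtain ⟨⟨r, t⟩, hr⟩ := IsLocalization.surj (Submonoid.powers s) g
  obtain ⟨u, hu⟩ := (IsLocalization.map_units R' t).exists_left_inv
  have h1 : algebraMap R' K g * algebraMap R K t = algebraMap R K r := by
    rw [IsScalarTower.algebraMap_apply R R' K, ← map_mul, hr, ← IsScalarTower.algebraMap_apply]
  have h2 : algebraMap R' K u * algebraMap R K t = 1 := by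
    rw [IsScalarTower.algebraMap_apply R R' K, ← map_mul, hu, map_one]
  have h3 : KaehlerDifferential.D ℂ K (algebraMap R' K g) =
      algebraMap R' K u • KaehlerDifferential.D ℂ K (algebraMap R K r) -
        algebraMap R' K (u * g) • KaehlerDifferential.D ℂ K (algebraMap R K t) := by
    rw [← h1, Derivation.leibniz, smul_add, smul_smul, smul_smul, h2, one_smul, map_mul,
      add_sub_cancel_left]
  rw [h3]
  exact sub_mem
    (Submodule.smul_mem _ (⟨_, u, rfl⟩ : (algebraMap R' K).range)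
      (Submodule.subset_span ⟨_, ⟨r, rfl⟩, rfl⟩))
    (Submodule.smul_mem _ (⟨_, u * g, rfl⟩ : (algebraMap R' K).range)
      (Submodule.subset_span ⟨_, ⟨t, rfl⟩, rfl⟩))

theorem KLoc0_rho (G : WS R K n) {c : K} {s : R} (h : c ^ G.ω.m * G.ω.h = algebraMap R K s)
    [IsLocalization.Away s R'] (f : Fin n → R') :
    ∃ r : R', algebraMap R' K r = c * G.ω.jac fun i => algebraMap R' K (f i) := by
  let P : Submodule (algebraMap R' K).range K :=
    { carrier := {a | c * a ∈ (algebraMap R' K).range}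
      add_mem' := fun {a b} ha hb => by
        change c * (a + b) ∈ (algebraMap R' K).range
        rw [mul_add]
        exact add_mem ha hb
      zero_mem' := by
        change c * 0 ∈ (algebraMap R' K).range
        rw [mul_zero]
        exact zero_mem _
      smul_mem' := fun o a ha => by
        change c * (o.1 * a) ∈ (algebraMap R' K).range
        rw [mul_left_comm]
        exact mul_mem o.2 ha }
  refine jac_mem G.ω _ _ _ (fun i => KLoc0_D s (f i)) P fun g hg => ?_
  choose a ha using hg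
  obtain rfl : g = fun i => algebraMap R K (a i) := (funext ha).symm
  obtain ⟨r, hr⟩ := IsIntegrallyClosed.exists_algebraMap_eq_of_isIntegral_pow (R := R) G.ω.m_pos
    (by rw [KLoc0_int G h a]; exact isIntegral_algebraMap)
  exact ⟨algebraMap R R' r, by rw [← IsScalarTower.algebraMap_apply, hr]⟩

theorem KLoc0_unit (w : RVal K) (hw : w.OnSpec R') {a : R'} (ha : IsUnit a) :
    w.v (algebraMap R' K a) = 0 := by
  obtain ⟨u, hu⟩ := ha.exists_left_inv
  have h1 : algebraMap R' K u * algebraMap R' K a = 1 := by rw [← map_mul, hu, map_one]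
  have h2 := left_ne_zero_of_mul_eq_one h1
  have h3 := right_ne_zero_of_mul_eq_one h1
  have h4 := w.mul _ _ h2 h3
  rw [h1, w.v_one] at h4
  linarith [(hw u).resolve_left h2, (hw a).resolve_left h3]

theorem loc_ws (G : WS R K n) {c : K} {s : R} (hs : s ≠ 0) (h : c ^ G.ω.m * G.ω.h = algebraMap R K s)
    [IsLocalization.Away s R'] : ∃ G' : WS R' K n, G'.ω.m = 1 ∧
      ∀ w : RVal K, w.OnSpec R' → G.ω.A w = G'.ω.A w := by
  have hc : c ≠ 0 := by
    rintro rfl
    rw [zero_pow G.ω.m_pos.ne', zero_mul] at h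
    exact hs (IsFractionRing.injective R K (by rw [← h, map_zero]))
  have hu : IsUnit (algebraMap R R' s) := IsLocalization.Away.algebraMap_isUnit s
  let ω' : PForm K n := ⟨1, one_pos, G.ω.b, c⁻¹, inv_ne_zero hc⟩
  choose ρ hρ using KLoc0_rho (R' := R') G h
  have hA : ∀ w : RVal K, w.OnSpec R' → G.ω.A w = ω'.A w := by
    intro w hw
    have h1 := KLoc0_unit w hw hu
    rw [← IsScalarTower.algebraMap_apply, ← h, w.mul _ _ (pow_ne_zero _ hc) G.ω.h_ne,
      w.v_pow _ hc] at h1
    have hm : (G.ω.m : ℝ) ≠ 0 := by exact_mod_cast G.ω.m_pos.ne'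
    have h2 : w.v G.ω.h / G.ω.m = w.v c⁻¹ / (1 : ℕ) := by
      rw [w.v_inv _ hc, Nat.cast_one, div_one, div_eq_iff hm]
      linarith
    refine iSup_congr fun f => ?_
    rw [UTame_wt G.ω w f.2.2, UTame_wt ω' w f.2.2, h2]
    rfl
  refine ⟨⟨ω', ρ, fun f => ?_, fun p hp h1 => ?_, fun w h0 hw => ?_⟩, rfl, hA⟩
  · rw [hρ]
    change _ = G.ω.jac _ ^ 1 / c⁻¹
    rw [pow_one, div_inv_eq_mul, mul_comm]
  · obtain ⟨f, hf⟩ := G.gen (p.under R) inferInstance
      ((IsLocalization.height_under (Submonoid.powers s) p).trans h1)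
    refine ⟨fun i => algebraMap R R' (f i), fun h2 => hf ?_⟩
    have h3 : ρ (fun i => algebraMap R R' (f i)) ^ G.ω.m = algebraMap R R' (s * G.ρ f) := by
      refine IsFractionRing.injective R' K ?_
      rw [map_pow, hρ, ← IsScalarTower.algebraMap_apply, ← KLoc0_int G h]
      simp only [← IsScalarTower.algebraMap_apply]
    have h4 := p.pow_mem_of_mem h2 _ G.ω.m_pos
    rw [h3, map_mul] at h4
    exact (p.unit_mul_mem_iff_mem hu).1 h4
  · rw [← hA w hw]
    refine G.klt w h0 fun r => ?_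
    rw [IsScalarTower.algebraMap_apply R R' K]
    exact hw _

theorem loc_pt (x : Pt R) {s : R} (hs : x s ≠ 0) [IsLocalization.Away s R'] :
    ∃ x' : Pt R', ∀ r, x' (algebraMap R R' r) = x r :=
  ⟨IsLocalization.Away.liftAlgHom s (f := x.hom) (IsUnit.mk0 _ hs), fun r =>
    IsLocalization.Away.lift_eq s (g := x.hom.toRingHom) (IsUnit.mk0 _ hs) r⟩

theorem KLoc0_under {x : Pt R} {x' : Pt R'} (hx : ∀ r, x' (algebraMap R R' r) = x r) :
    x'.m.under R = x.m := by
  ext r
  rw [Pt.mem_m, ← hx]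
  rfl

theorem KLoc0_mem {x : Pt R} {x' : Pt R'} (hx : ∀ r, x' (algebraMap R R' r) = x r) (s : R)
    [IsLocalization.Away s R'] {I : Ideal R} {r : R} (h1 : ∀ a ∈ x.m, a * r ∈ I)
    (h2 : algebraMap R R' r ∈ I.map (algebraMap R R')) : r ∈ I := by
  obtain ⟨t, ht, h3⟩ :=
    (IsLocalization.algebraMap_mem_map_algebraMap_iff (Submonoid.powers s) R' I r).1 h2
  have h4 : x t ≠ 0 := by
    rw [← hx]
    exact ((IsLocalization.map_units R' ⟨t, ht⟩).map x').ne_zero
  have h5 := h1 (1 - algebraMap ℂ R (x t)⁻¹ * t) (by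
    rw [Pt.mem_m, map_sub, map_one, map_mul, AlgHomClass.commutes, Algebra.algebraMap_self,
      RingHom.id_apply, inv_mul_cancel₀ h4, sub_self])
  have h6 := I.add_mem h5 (I.mul_mem_left (algebraMap ℂ R (x t)⁻¹) h3)
  rwa [sub_mul, one_mul, mul_assoc, sub_add_cancel] at h6

theorem loc_dp {x : Pt R} {x' : Pt R'} (hx : ∀ r, x' (algebraMap R R' r) = x r) (s : R)
    [IsLocalization.Away s R'] (h : DP n x'.m) : DP n x.m := by
  obtain ⟨z', h0, h1, h2⟩ := h
  have hm : x.m.map (algebraMap R R') = x'.m := by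
    rw [← KLoc0_under hx, IsLocalization.map_under (Submonoid.powers s)]
  obtain ⟨t, ht⟩ := IsLocalization.exist_integer_multiples_of_finite (Submonoid.powers s) z'
  choose z hz using ht
  simp only [Algebra.smul_def] at hz
  obtain ⟨u, hu⟩ := (IsLocalization.map_units R' t).exists_left_inv
  have hz0 : ∀ i, z i ∈ x.m := fun i => by
    rw [Pt.mem_m, ← hx, hz, map_mul, Pt.mem_m.1 (h0 i), mul_zero]
  refine ⟨z, hz0, fun r hr => KLoc0_mem hx s (fun a ha => ?_) ?_, KLoc0_mem hx s (fun a ha => ?_) ?_⟩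
  · exact Ideal.mem_sup_right (by rw [pow_two]; exact Ideal.mul_mem_mul ha hr)
  · rw [Ideal.map_sup, Ideal.map_pow, hm]
    refine (h1.trans (sup_le_sup_right (Ideal.span_le.2 ?_) _)) (hm ▸ Ideal.mem_map_of_mem _ hr)
    rintro _ ⟨i, rfl⟩
    have h3 : z' i = u * algebraMap R R' (z i) := by rw [hz, ← mul_assoc, hu, one_mul]
    rw [h3]
    exact Ideal.mul_mem_left _ _ (Ideal.mem_map_of_mem _ (Ideal.subset_span ⟨i, rfl⟩))
  · rw [pow_succ' x.m 2]
    exact Ideal.mul_mem_mul ha (Ideal.sum_mem _ fun i _ => Ideal.pow_mem_pow (hz0 i) 2)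
  · rw [Ideal.map_pow, hm, map_sum]
    simp only [map_pow, hz, mul_pow, ← Finset.mul_sum]
    exact Ideal.mul_mem_left _ _ h2

theorem loc_reg {x : Pt R} {x' : Pt R'} (hx : ∀ r, x' (algebraMap R R' r) = x r) (s : R)
    [IsLocalization.Away s R'] (h : IsRegularLocalRing (Localization.AtPrime x'.m)) :
    IsRegularLocalRing (Localization.AtPrime x.m) := by
  have h1 := IsLocalization.isLocalization_isLocalization_atPrime_isLocalization
    (Submonoid.powers s) (Localization.AtPrime x'.m) x'.m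
  have h2 : (x'.m.comap (algebraMap R R')).primeCompl = x.m.primeCompl := by
    ext r
    rw [Ideal.mem_primeCompl_iff, Ideal.mem_primeCompl_iff, ← KLoc0_under hx]
  unfold IsLocalization.AtPrime at h1
  rw [h2] at h1
  exact IsRegularLocalRing.of_ringEquiv
    (Localization.algEquiv x.m.primeCompl (Localization.AtPrime x'.m)).symm.toRingEquiv

end Vale.Agent.P282
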