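import Vale.Agent.P282.KDefs

set_option linter.unusedSectionVars false

open scoped ENNReal TensorProduct Topology
open Filter MeasureTheory

noncomputable section

namespace Vale.Agent.P282

variable {R K : Type} [CommRing R] [IsDomain R] [Algebra ℂ R] [Algebra.FiniteType ℂ R]
  [IsIntegrallyClosed R] [Field K] [Algebra R K] [IsFractionRing R K] [Algebra ℂ K]
  [IsScalarTower ℂ R K] {n : ℕ}

omit [IsIntegrallyClosed R] in
theorem KRef0_pow (x : Pt R) (τ : R ≃ₐ[ℂ] R) (hx : ∀ r, x (τ r) = x r) (j : ℕ) :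
    ∀ y ∈ x.m ^ j, τ y ∈ x.m ^ j := by
  have h1 : x.m.map τ ≤ x.m := Ideal.map_le_iff_le_comap.2 fun y hy => by
    rw [Ideal.mem_comap, Pt.mem_m, hx]
    exact hy
  intro y hy
  have h2 := Ideal.mem_map_of_mem τ hy
  rw [Ideal.map_pow] at h2
  exact Ideal.pow_right_mono h1 j h2

omit [IsIntegrallyClosed R] in
/-- an involution that acts trivially on the cotangent space modulo `p` acts trivially mod `p` -/
theorem inv_triv (x : Pt R) (τ : R ≃ₐ[ℂ] R) (hτ : ∀ r, τ (τ r) = r) (hx : ∀ r, x (τ r) = x r)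
    {ι : Type} (a : ι → R) (ha : ∀ i, τ (a i) = a i) (h0 : ∀ i, a i ∈ x.m) (I : Ideal R)
    (hI : ∀ r ∈ I, τ r ∈ I) (h : x.m ≤ Ideal.span (Set.range a) ⊔ I ⊔ x.m ^ 2) (p : Ideal R)
    [p.IsPrime] (hp : I ≤ p) (hm : p ≤ x.m) (r : R) : r - τ r ∈ p := by
  have hm1 : ∀ y ∈ x.m, τ y ∈ x.m := fun y hy => by
    rw [Pt.mem_m, hx]
    exact hy
  have s0 : ∀ y, y - τ y ∈ x.m := fun y => by rw [Pt.mem_m, map_sub, hx, sub_self]
  have s1 : ∀ y ∈ Ideal.span (Set.range a), y - τ y ∈ x.m ^ 2 := by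
    intro y hy
    induction hy using Submodule.span_induction with
    | mem y hy =>
      obtain ⟨i, rfl⟩ := hy
      rw [ha, sub_self]
      exact zero_mem _
    | zero => simp
    | add y w _ _ h1 h2 =>
      rw [map_add, add_sub_add_comm]
      exact add_mem h1 h2
    | smul c y hy h1 =>
      have h2 : y ∈ x.m := (Ideal.span_le.2 (Set.range_subset_iff.2 h0)) hy
      have e : c • y - τ (c • y) = c * (y - τ y) + (c - τ c) * τ y := by
        rw [smul_eq_mul, map_mul]
        ring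
      rw [e]
      exact add_mem (Ideal.mul_mem_left _ _ h1) (pow_two x.m ▸ Ideal.mul_mem_mul (s0 c) (hm1 y h2))
  have s2 : ∀ y ∈ x.m, y - τ y ∈ I ⊔ x.m ^ 2 := by
    intro y hy
    obtain ⟨_, h1, e, he, rfl⟩ := Submodule.mem_sup.1 (h hy)
    obtain ⟨u, hu, i, hi, rfl⟩ := Submodule.mem_sup.1 h1
    rw [map_add, map_add, add_sub_add_comm, add_sub_add_comm]
    exact add_mem (add_mem (Ideal.mem_sup_right (s1 u hu))
      (Ideal.mem_sup_left (sub_mem hi (hI i hi))))
      (Ideal.mem_sup_right (sub_mem he (KRef0_pow x τ hx 2 e he)))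
  have s3 : ∀ j : ℕ, ∀ y ∈ x.m ^ j, y - τ y ∈ I ⊔ x.m ^ (j + 1) := by
    intro j
    induction j with
    | zero => exact fun y _ => Ideal.mem_sup_right (by simpa using s0 y)
    | succ j ih =>
      intro y hy
      rw [pow_succ] at hy
      refine Submodule.mul_induction_on hy (fun u hu w hw => ?_) fun u w h1 h2 => ?_
      · have e : u * w - τ (u * w) = u * (w - τ w) + (u - τ u) * τ w := by
          rw [map_mul]
          ring
        have a1 : x.m ^ j * (I ⊔ x.m ^ 2) ≤ I ⊔ x.m ^ (j + 1 + 1) := by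
          rw [Ideal.mul_sup, ← pow_add]
          exact sup_le_sup_right Ideal.mul_le_right _
        have a2 : (I ⊔ x.m ^ (j + 1)) * x.m ≤ I ⊔ x.m ^ (j + 1 + 1) := by
          rw [Ideal.sup_mul, ← pow_succ]
          exact sup_le_sup_right Ideal.mul_le_left _
        rw [e]
        exact add_mem (a1 (Ideal.mul_mem_mul hu (s2 w hw)))
          (a2 (Ideal.mul_mem_mul (ih u hu) (hm1 w hw)))
      · rw [map_add, add_sub_add_comm]
        exact add_mem h1 h2
  have s4 : ∀ j : ℕ, r - τ r ∈ I ⊔ x.m ^ j := by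
    intro j
    induction j with
    | zero => exact Ideal.mem_sup_right (by simp)
    | succ j ih =>
      obtain ⟨i, hi, y, hy, e⟩ := Submodule.mem_sup.1 ih
      have h1 : (i + y) - τ (i + y) ∈ I ⊔ x.m ^ (j + 1) := by
        rw [map_add, add_sub_add_comm]
        exact add_mem (Ideal.mem_sup_left (sub_mem hi (hI i hi))) (s3 j y hy)
      rw [e, map_sub, hτ] at h1
      have h2 := Ideal.mul_mem_left _ (algebraMap ℂ R (1 / 2)) h1
      have h3 : algebraMap ℂ R (1 / 2) * 2 = 1 := by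
        rw [← map_ofNat (algebraMap ℂ R) 2, ← map_mul]
        norm_num
      have h4 : algebraMap ℂ R (1 / 2) * (r - τ r - (τ r - r)) = r - τ r := by
        linear_combination (r - τ r) * h3
      rwa [h4] at h2
  have := Algebra.FiniteType.isNoetherianRing ℂ R
  have hne : x.m.map (Ideal.Quotient.mk p) ≠ ⊤ := fun e => by
    have h1 := Ideal.comap_map_of_surjective (Ideal.Quotient.mk p) Ideal.Quotient.mk_surjective x.m
    rw [e, Ideal.comap_top, ← RingHom.ker_eq_comap_bot, Ideal.mk_ker, sup_eq_left.2 hm] at h1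
    exact Ideal.IsMaximal.ne_top inferInstance h1.symm
  rw [← Ideal.Quotient.eq_zero_iff_mem, ← Ideal.mem_bot,
    ← Ideal.iInf_pow_eq_bot_of_isDomain _ hne, Ideal.mem_iInf]
  intro j
  obtain ⟨i, hi, y, hy, e⟩ := Submodule.mem_sup.1 (s4 j)
  rw [← e, map_add, Ideal.Quotient.eq_zero_iff_mem.2 (hp hi), zero_add, ← Ideal.map_pow]
  exact Ideal.mem_map_of_mem _ hy

omit [IsIntegrallyClosed R] in
/-- eigenvectors as generators -/
theorem inv_gen (x : Pt R) (τ : R ≃ₐ[ℂ] R) (hτ : ∀ r, τ (τ r) = r) (hx : ∀ r, x (τ r) = x r)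
    (z : Fin n → R) (h0 : ∀ i, z i ∈ x.m) (hz : x.m ≤ Ideal.span (Set.range z) ⊔ x.m ^ 2) :
    ∃ z' : Fin n → R, (∀ i, z' i ∈ x.m ∧ (τ (z' i) = z' i ∨ τ (z' i) = -z' i)) ∧
      x.m ≤ Ideal.span (Set.range z') ⊔ x.m ^ 2 := by
  let q := ((x.m ^ 2).restrictScalars ℂ).mkQ
  let S : Set R := {y | y ∈ x.m ∧ (τ y = y ∨ τ y = -y)}
  have hm1 : ∀ y ∈ x.m, τ y ∈ x.m := fun y hy => by
    rw [Pt.mem_m, hx]
    exact hy
  have h1 : ∀ y ∈ x.m, q y ∈ Submodule.span ℂ (Set.range fun i => q (z i)) := by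
    intro y hy
    obtain ⟨u, hu, e, he, rfl⟩ := Submodule.mem_sup.1 (hz hy)
    obtain ⟨c, rfl⟩ := (Ideal.mem_span_range_iff_exists_fun).1 hu
    have e0 : q e = 0 := (Submodule.Quotient.mk_eq_zero _).2 he
    rw [map_add, e0, add_zero, map_sum]
    refine Submodule.sum_mem _ fun i _ => ?_
    have e1 : q (c i * z i) = x (c i) • q (z i) := by
      rw [← map_smul]
      refine (Submodule.Quotient.eq _).2 ?_
      rw [Algebra.smul_def, ← sub_mul]
      refine pow_two x.m ▸ Ideal.mul_mem_mul ?_ (h0 i)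
      rw [Pt.mem_m, map_sub, AlgHomClass.commutes]
      exact sub_self _
    rw [e1]
    exact Submodule.smul_mem _ _ (Submodule.subset_span ⟨i, rfl⟩)
  have h2 : Submodule.span ℂ (q '' S) ≤ Submodule.span ℂ (Set.range fun i => q (z i)) :=
    Submodule.span_le.2 (by
      rintro _ ⟨y, hy, rfl⟩
      exact h1 y hy.1)
  have : Module.Finite ℂ (Submodule.span ℂ (Set.range fun i => q (z i))) :=
    Module.Finite.span_of_finite ℂ (Set.finite_range _)
  have : Module.Finite ℂ (Submodule.span ℂ (q '' S)) := Submodule.finiteDimensional_of_le h2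
  have h3 : Module.finrank ℂ (Submodule.span ℂ (q '' S)) ≤ n :=
    (Submodule.finrank_mono h2).trans ((finrank_range_le_card _).trans (Fintype.card_fin n).le)
  obtain ⟨f, f1, f2, -⟩ := Submodule.exists_fun_fin_finrank_span_eq ℂ (q '' S)
  choose w w1 w2 using f1
  refine ⟨fun i => if h : i.1 < _ then w ⟨i.1, h⟩ else 0, fun i => ?_, fun y hy => ?_⟩
  · dsimp only
    split_ifs
    · exact w1 _
    · exact ⟨zero_mem _, Or.inl (map_zero _)⟩
  · have a1 : q y ∈ Submodule.span ℂ (q '' S) := by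
      have e : y = (1 / 2 : ℂ) • (y + τ y) + (1 / 2 : ℂ) • (y - τ y) := by
        rw [← smul_add, add_add_sub_cancel, ← two_smul ℂ y, smul_smul]
        norm_num
      rw [e, map_add, map_smul, map_smul]
      refine add_mem (Submodule.smul_mem _ _ (Submodule.subset_span ⟨_, ⟨?_, Or.inl ?_⟩, rfl⟩))
        (Submodule.smul_mem _ _ (Submodule.subset_span ⟨_, ⟨?_, Or.inr ?_⟩, rfl⟩))
      · exact add_mem hy (hm1 y hy)
      · rw [map_add, hτ, add_comm]
      · exact sub_mem hy (hm1 y hy)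
      · rw [map_sub, hτ, neg_sub]
    rw [← f2] at a1
    obtain ⟨c, hc⟩ := (Submodule.mem_span_range_iff_exists_fun ℂ).1 a1
    have a2 : y - ∑ i, c i • w i ∈ x.m ^ 2 := by
      refine (Submodule.Quotient.eq ((x.m ^ 2).restrictScalars ℂ)).1 ?_
      show q y = q _
      simp only [← hc, map_sum, map_smul, w2]
    rw [← add_sub_cancel (∑ i, c i • w i) y]
    refine Submodule.add_mem_sup (Submodule.sum_mem _ fun i _ => ?_) a2
    rw [Algebra.smul_def]
    exact Ideal.mul_mem_left _ _ (Ideal.subset_span ⟨⟨i.1, i.2.trans_le h3⟩, dif_pos i.2⟩)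

end Vale.Agent.P282
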