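import Vale.Agent.P282.KVol

set_option linter.unusedSectionVars false

open scoped ENNReal TensorProduct Topology
open Filter MeasureTheory

noncomputable section

namespace Vale.Agent.P282

variable {R K : Type} [CommRing R] [IsDomain R] [Algebra ℂ R] [Algebra.FiniteType ℂ R]
  [IsIntegrallyClosed R] [Field K] [Algebra R K] [IsFractionRing R K] [Algebra ℂ K]
  [IsScalarTower ℂ R K] {n : ℕ}

variable {R' L : Type} [CommRing R'] [IsDomain R'] [Algebra ℂ R'] [Algebra.FiniteType ℂ R']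
  [IsIntegrallyClosed R'] [Field L] [Algebra R' L] [IsFractionRing R' L] [Algebra ℂ L]
  [IsScalarTower ℂ R' L] [Algebra R R'] [IsScalarTower ℂ R R'] [Algebra K L] [Algebra R L]
  [IsScalarTower R R' L] [IsScalarTower R K L] [IsScalarTower ℂ K L]

variable [FiniteDimensional K L] [IsIntegralClosure R' R L]


/-- trivial stabilizer -/
theorem Root.unit {ω : PForm K n} {ω' : PForm L n} (h : Root ω ω') {x : Pt R} {x' : Pt R'}
    (hx : ∀ r, x' (algebraMap R R' r) = x r)
    (ht : ∀ τ : L ≃ₐ[K] L, (∀ r, x' (galRestrict R K L R' τ r) = x' r) → τ = 1) :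
    ∃ (c : K) (s : R), x s ≠ 0 ∧ c ^ ω.m * ω.h = algebraMap R K s := by
  classical
  haveI := h.galois
  have hc : ∀ (τ : L ≃ₐ[K] L) (z : ℂ),
      galRestrict R K L R' τ (algebraMap ℂ R' z) = algebraMap ℂ R' z := fun τ z => by
    rw [IsScalarTower.algebraMap_apply ℂ R R', AlgEquiv.commutes]
  have h1 : ∀ τ : L ≃ₐ[K] L, ∃ a : R', x' a ≠ 0 ∧ (τ ≠ 1 → x' (galRestrict R K L R' τ a) = 0) := by
    intro τ
    by_cases hτ : τ = 1
    · exact ⟨1, by simp, fun h0 => (h0 hτ).elim⟩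
    obtain ⟨r, hr⟩ := not_forall.1 fun h0 => hτ (ht τ h0)
    refine ⟨r - algebraMap ℂ R' (x' (galRestrict R K L R' τ r)), ?_, fun _ => ?_⟩
    · rw [map_sub, AlgHomClass.commutes]
      exact sub_ne_zero.2 (Ne.symm hr)
    · rw [map_sub, hc, map_sub, AlgHomClass.commutes]
      exact sub_self _
  choose a ha1 ha2 using h1
  choose ε he1 he2 he3 using h.chi
  have he0 : ∀ τ, ε τ ≠ 0 := fun τ h0 => by
    have := he1 τ
    rw [h0, zero_pow ω.m_pos.ne'] at this
    exact zero_ne_one this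
  obtain ⟨A, hA1, hA2⟩ : ∃ A : R', x' A ≠ 0 ∧
      ∀ τ : L ≃ₐ[K] L, τ ≠ 1 → x' (galRestrict R K L R' τ A) = 0 := by
    refine ⟨∏ τ, a τ, ?_, fun τ hτ => ?_⟩
    · rw [map_prod]
      exact Finset.prod_ne_zero_iff.2 fun τ _ => ha1 τ
    · rw [map_prod, map_prod]
      exact Finset.prod_eq_zero (Finset.mem_univ τ) (ha2 τ hτ)
  obtain ⟨e, e1, e2⟩ : ∃ e : R', x' e ≠ 0 ∧ algebraMap R' L e =
      algebraMap K L (Algebra.trace K L (algebraMap R' L A / ω'.h)) * ω'.h := by
    refine ⟨∑ τ, algebraMap ℂ R' (ε τ)⁻¹ * galRestrict R K L R' τ A, ?_, ?_⟩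
    · rw [map_sum, Finset.sum_eq_single 1 (fun τ _ hτ => by rw [map_mul, hA2 τ hτ, mul_zero])
        (fun h0 => (h0 (Finset.mem_univ _)).elim), map_mul, AlgHomClass.commutes, map_one]
      exact mul_ne_zero (inv_ne_zero (he0 1)) hA1
    · rw [trace_eq_sum_automorphisms, map_sum, Finset.sum_mul]
      refine Finset.sum_congr rfl fun τ _ => ?_
      have h2 : algebraMap ℂ L (ε τ) ≠ 0 := (map_ne_zero _).2 (he0 τ)
      have h3 := ω'.h_ne
      rw [map_mul, ← IsScalarTower.algebraMap_apply, algebraMap_galRestrict_apply, map_div₀, he2,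
        Algebra.smul_def, map_inv₀]
      field_simp
  generalize Algebra.trace K L (algebraMap R' L A / ω'.h) = c at e2
  have e3 : algebraMap R' L (e ^ ω.m) = algebraMap K L (c ^ ω.m * ω.h) := by
    rw [map_pow, e2, mul_pow, h.h, map_mul, map_pow]
  have e4 : IsIntegral R (c ^ ω.m * ω.h) := by
    rw [← isIntegral_algebraMap_iff (algebraMap K L).injective, ← e3]
    exact (IsIntegralClosure.isIntegral_iff (A := R')).2 ⟨_, rfl⟩
  obtain ⟨s, hs⟩ := IsIntegrallyClosed.isIntegral_iff.1 e4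
  refine ⟨c, s, ?_, hs.symm⟩
  have e5 : algebraMap R R' s = e ^ ω.m := IsFractionRing.injective R' L (by
    rw [e3, ← hs, ← IsScalarTower.algebraMap_apply, ← IsScalarTower.algebraMap_apply])
  rw [← hx, e5, map_pow]
  exact pow_ne_zero _ e1

end Vale.Agent.P282
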