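import Vale.Agent.P282.ODefs

set_option linter.unusedSectionVars false

open scoped ENNReal TensorProduct Topology
open Filter MeasureTheory

noncomputable section

namespace Vale.Agent.P282

variable {R K : Type} [CommRing R] [IsDomain R] [Algebra ℂ R] [Algebra.FiniteType ℂ R]
  [IsIntegrallyClosed R] [Field K] [Algebra R K] [IsFractionRing R K] [Algebra ℂ K]
  [IsScalarTower ℂ R K] {n : ℕ}

theorem OQc0_dvd {S L : Type} [CommRing S] [IsDomain S] [IsIntegrallyClosed S] [Field L]
    [Algebra S L] (inj : Function.Injective (algebraMap S L)) {x : L} (hx : IsIntegral S x)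
    {a c : S} (hc : c ≠ 0) (h : x * algebraMap S L c = algebraMap S L a) : c ∣ a := by
  let φ : FractionRing S →ₐ[S] L := IsFractionRing.liftAlgHom (g := Algebra.ofId S L) inj
  have hc' : algebraMap S L c ≠ 0 := (map_ne_zero_iff _ inj).2 hc
  have e : x = φ (algebraMap S _ a / algebraMap S _ c) := by
    rw [map_div₀, φ.commutes, φ.commutes, eq_div_iff hc', h]
  rw [e, isIntegral_algHom_iff φ φ.toRingHom.injective] at hx
  obtain ⟨y, hy⟩ := IsIntegrallyClosed.isIntegral_iff.1 hx
  refine ⟨y, inj ?_⟩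
  rw [← h, e, ← hy, φ.commutes, map_mul, mul_comm]

theorem OQc0_quad {S A : Type} [CommRing S] [IsDomain S] [UniqueFactorizationMonoid S] [CommRing A]
    [IsDomain A] [Algebra S A] (inj : Function.Injective (algebraMap S A)) (h2 : IsUnit (2 : S))
    {t : A} {D : S} (hD : Squarefree D) (ht : t ^ 2 = algebraMap S A D)
    (hA : ∀ x : A, ∃ a b : S, x = algebraMap S A a + algebraMap S A b * t) (σ : A →ₐ[S] A)
    (hσ : σ t = -t) : IsIntegrallyClosed A := by
  have σσ : ∀ x, σ (σ x) = x := fun x => by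
    obtain ⟨a, b, rfl⟩ := hA x
    simp [hσ]
  have σi : Function.Injective σ := Function.LeftInverse.injective σσ
  have it : IsIntegral S t := IsIntegral.of_pow two_pos (ht ▸ isIntegral_algebraMap)
  have : Algebra.IsIntegral S A := ⟨fun x => by
    obtain ⟨a, b, rfl⟩ := hA x
    exact isIntegral_algebraMap.add (isIntegral_algebraMap.mul it)⟩
  let L := FractionRing A
  have iA := IsFractionRing.injective A L
  have iL : Function.Injective (algebraMap S L) := by
    rw [IsScalarTower.algebraMap_eq S A L]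
    exact iA.comp inj
  let τ : L →ₐ[S] L := IsFractionRing.liftAlgHom
    (g := (IsScalarTower.toAlgHom S A L).comp σ) (iA.comp σi)
  have hτ : ∀ x : A, τ (algebraMap A L x) = algebraMap A L (σ x) := fun x =>
    IsFractionRing.lift_algebraMap (g := ((IsScalarTower.toAlgHom S A L).comp σ).toRingHom)
      (iA.comp σi) x
  refine (isIntegrallyClosed_iff L).2 fun {x} hx => ?_
  have hx' : IsIntegral S x := isIntegral_trans x hx
  obtain ⟨u, v, hv, rfl⟩ := IsFractionRing.div_surjective (A := A) x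
  have v0 : v ≠ 0 := nonZeroDivisors.ne_zero hv
  obtain ⟨a', b', hab⟩ := hA v
  have hN : v * σ v = algebraMap S A (a' ^ 2 - b' ^ 2 * D) := by
    rw [hab]
    simp only [map_add, map_mul, map_sub, map_pow, AlgHom.commutes, hσ, ← ht]
    ring
  set c := a' ^ 2 - b' ^ 2 * D
  have c0 : c ≠ 0 := fun h => by
    rw [h, map_zero] at hN
    exact mul_ne_zero v0 ((map_ne_zero_iff _ σi).2 v0) hN
  obtain ⟨a, b, hab⟩ := hA (u * σ v)
  set x := algebraMap A L u / algebraMap A L v with hxd
  set T := algebraMap A L t with hT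
  have v1 : algebraMap A L v ≠ 0 := (map_ne_zero_iff _ iA).2 v0
  have e1 : x * algebraMap S L c = algebraMap S L a + algebraMap S L b * T := by
    rw [IsScalarTower.algebraMap_apply S A L c, ← hN, IsScalarTower.algebraMap_apply S A L a,
      IsScalarTower.algebraMap_apply S A L b, hT, ← map_mul, ← map_add, ← hab, map_mul, map_mul, hxd, ← mul_assoc,
      div_mul_cancel₀ _ v1]
  have e2 : τ x * algebraMap S L c = algebraMap S L a - algebraMap S L b * T := by
    have := congrArg τ e1
    rw [map_mul, map_add, map_mul, τ.commutes, τ.commutes, τ.commutes, hT, hτ, hσ, map_neg] at this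
    rw [this]
    ring
  have hT2 : T ^ 2 = algebraMap S L D := by
    rw [hT, ← map_pow, ht, ← IsScalarTower.algebraMap_apply]
  have d1 : c ∣ 2 * a := OQc0_dvd iL (hx'.add (hx'.map τ)) c0 (by
    rw [map_mul, map_ofNat]
    linear_combination e1 + e2)
  have d2 : c ^ 2 ∣ 2 ^ 2 * (b ^ 2 * D) := OQc0_dvd iL ((hx'.sub (hx'.map τ)).pow 2)
    (pow_ne_zero 2 c0) (by
      rw [map_mul, map_mul, map_pow, map_pow, map_pow, map_ofNat, ← hT2, ← mul_pow, sub_mul, e1, e2]
      ring)
  rw [h2.dvd_mul_left] at d1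
  rw [(h2.pow 2).dvd_mul_left] at d2
  have d3 : c ∣ b := by
    obtain ⟨c', b', g, hr, h1, h3⟩ := UniqueFactorizationMonoid.exists_reduced_factors c c0 b
    have g0 : g ≠ 0 := by
      rintro rfl
      exact c0 (by rw [← h1, zero_mul])
    rw [← h1, ← h3, mul_pow, mul_pow, mul_assoc, mul_dvd_mul_iff_left (pow_ne_zero 2 g0)] at d2
    have hu : IsUnit c' := hD c' (by
      rw [← sq]
      exact (hr.pow (m := 2) (n := 2)).dvd_of_dvd_mul_left d2)
    rw [← h1, ← h3]
    exact mul_dvd_mul_left g hu.dvd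
  obtain ⟨a₁, rfl⟩ := d1
  obtain ⟨b₁, rfl⟩ := d3
  refine ⟨algebraMap S A a₁ + algebraMap S A b₁ * t, ?_⟩
  have c1 : algebraMap S L c ≠ 0 := (map_ne_zero_iff _ iL).2 c0
  refine mul_right_cancel₀ c1 ?_
  rw [e1, map_add, map_mul, ← IsScalarTower.algebraMap_apply, ← IsScalarTower.algebraMap_apply,
    map_mul, map_mul]
  ring

open MvPolynomial in
theorem OQc0_sqf (hn : 2 ≤ n) : Squarefree (-∑ i, X i ^ 2 : MvPolynomial (Fin n) ℂ) := by
  intro f hf
  have h : ∀ i, f ∣ X i := fun i => by
    obtain ⟨g, hg⟩ := hf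
    have e := congrArg (pderiv i) hg
    simp only [map_neg, map_sum, Derivation.leibniz_pow, Derivation.leibniz, pderiv_X,
      smul_eq_mul] at e
    rw [Finset.sum_eq_single i (fun j _ hj => by simp [Pi.single_eq_of_ne hj]) (by simp)] at e
    have hu : IsUnit (-2 : MvPolynomial (Fin n) ℂ) := by
      have := (isUnit_iff_ne_zero.2 (show (-2 : ℂ) ≠ 0 by norm_num)).map (C : ℂ →+* MvPolynomial (Fin n) ℂ)
      simpa [map_ofNat] using this
    rw [← hu.dvd_mul_left]
    refine ⟨f * pderiv i g + 2 * g * pderiv i f, ?_⟩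
    simp only [Pi.single_eq_same, nsmul_eq_mul] at e
    push_cast at e
    linear_combination e
  by_contra hu
  have h0 := (X_prime (R := ℂ) (i := (⟨0, by omega⟩ : Fin n))).irreducible
  have h1 := ((h0.dvd_iff.1 (h _)).resolve_left hu).dvd.trans (h ⟨1, by omega⟩)
  rw [X_dvd_X] at h1
  simp at h1

open MvPolynomial in
theorem OQc0_eq : finSuccEquiv ℂ n (∑ i, X i ^ 2) =
    Polynomial.X ^ 2 - Polynomial.C (-∑ i, X i ^ 2) := by
  simp [Fin.sum_univ_succ, finSuccEquiv_X_zero, finSuccEquiv_X_succ]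

open MvPolynomial in
/-- the cone as a double cover -/
def OQc0_equiv : Qc n ≃+* AdjoinRoot
    (Polynomial.X ^ 2 - Polynomial.C (-∑ i, X i ^ 2 : MvPolynomial (Fin n) ℂ)) :=
  Ideal.quotientEquiv _ _ (finSuccEquiv ℂ n).toRingEquiv (by
    rw [Ideal.map_span, Set.image_singleton, ← OQc0_eq]
    rfl)

open MvPolynomial in
theorem OQc0_irr (hn : 2 ≤ n) : Irreducible
    (Polynomial.X ^ 2 - Polynomial.C (-∑ i, X i ^ 2 : MvPolynomial (Fin n) ℂ)) := by
  have hm := Polynomial.monic_X_pow_sub_C (-∑ i, X i ^ 2 : MvPolynomial (Fin n) ℂ) two_ne_zero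
  rw [hm.irreducible_iff_roots_eq_zero_of_degree_le_three
    (by rw [Polynomial.natDegree_X_pow_sub_C]) (by rw [Polynomial.natDegree_X_pow_sub_C]; omega)]
  refine Multiset.eq_zero_of_forall_notMem fun a ha => ?_
  have h1 := (Polynomial.mem_roots hm.ne_zero).1 ha
  simp only [Polynomial.IsRoot, Polynomial.eval_sub, Polynomial.eval_pow, Polynomial.eval_X,
    Polynomial.eval_C, sub_eq_zero] at h1
  have h2 := ((OQc0_sqf hn a (by rw [← h1, sq])).pow 2).map constantCoeff
  rw [h1] at h2
  simp at h2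

theorem qc_domain (hn : 2 ≤ n) : IsDomain (Qc n) :=
  have := AdjoinRoot.isDomain_of_prime (OQc0_irr hn).prime
  (OQc0_equiv (n := n)).toMulEquiv.isDomain _

theorem qc_normal (hn : 2 ≤ n) [IsDomain (Qc n)] : IsIntegrallyClosed (Qc n) := by
  have := AdjoinRoot.isDomain_of_prime (OQc0_irr hn).prime
  set D : MvPolynomial (Fin n) ℂ := -∑ i, MvPolynomial.X i ^ 2 with hD
  have hm := Polynomial.monic_X_pow_sub_C D two_ne_zero
  have ht : AdjoinRoot.root (Polynomial.X ^ 2 - Polynomial.C D) ^ 2 = algebraMap _ _ D := by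
    have := AdjoinRoot.eval₂_root (Polynomial.X ^ 2 - Polynomial.C D)
    rw [Polynomial.eval₂_sub, Polynomial.eval₂_X_pow, Polynomial.eval₂_C, sub_eq_zero] at this
    exact this
  have : IsIntegrallyClosed (AdjoinRoot (Polynomial.X ^ 2 - Polynomial.C D)) := by
    refine OQc0_quad (AdjoinRoot.of.injective_of_degree_ne_zero (by
      rw [Polynomial.degree_X_pow_sub_C two_pos]
      simp)) ?_ (OQc0_sqf hn) ht (fun x => ?_)
      (AdjoinRoot.liftAlgHom _ (Algebra.ofId _ _) (-AdjoinRoot.root _) (by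
        rw [Polynomial.eval₂_sub, Polynomial.eval₂_X_pow, Polynomial.eval₂_C, neg_sq, ht]
        exact sub_self _)) (AdjoinRoot.liftAlgHom_root _ _ _ _)
    · have := (isUnit_iff_ne_zero.2 (show (2 : ℂ) ≠ 0 by norm_num)).map
        (MvPolynomial.C : ℂ →+* MvPolynomial (Fin n) ℂ)
      simpa [map_ofNat] using this
    · obtain ⟨p, rfl⟩ := AdjoinRoot.mk_surjective x
      induction p using Polynomial.induction_on with
      | C a => exact ⟨a, 0, by simp⟩
      | add p q hp hq =>
        obtain ⟨a, b, h1⟩ := hp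
        obtain ⟨a', b', h2⟩ := hq
        exact ⟨a + a', b + b', by rw [map_add, h1, h2, map_add, map_add]; ring⟩
      | monomial k a h =>
        obtain ⟨a', b', h1⟩ := h
        refine ⟨b' * D, a', ?_⟩
        rw [pow_succ _ k, ← mul_assoc, map_mul, h1, AdjoinRoot.mk_X, map_mul, ← ht]
        ring
  exact IsIntegrallyClosed.of_equiv (OQc0_equiv (n := n)).symm

end Vale.Agent.P282
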