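import Vale.Agent.P282.ODet
import Vale.Agent.P282.UMon
import Vale.Agent.P282.AProj1
import Vale.Agent.P282.AProj2

set_option linter.unusedSectionVars false

open scoped ENNReal TensorProduct Topology
open Filter MeasureTheory

noncomputable section

namespace Vale.Agent.P282

variable {R K : Type} [CommRing R] [IsDomain R] [Algebra ℂ R] [Algebra.FiniteType ℂ R]
  [IsIntegrallyClosed R] [Field K] [Algebra R K] [IsFractionRing R K] [Algebra ℂ K]
  [IsScalarTower ℂ R K] {n : ℕ}

theorem OQc1_ind (I : MvPolynomial (Fin n) ℂ → Prop)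
    (h : ∀ P, I P → ∀ i, I (MvPolynomial.pderiv i P))
    (hc : ∀ c, I (MvPolynomial.C c) → c = 0)
    (d : ℕ) (m : Fin n →₀ ℕ) (hm : m.degree = d) (P : MvPolynomial (Fin n) ℂ)
    (hP : I P) (hd : ∀ m' ∈ P.support, m'.degree ≤ d) : P.coeff m = 0 := by
  induction d generalizing m P with
  | zero =>
    have h0 : P = MvPolynomial.C (P.coeff 0) := by
      ext m'
      rw [MvPolynomial.coeff_C]
      split_ifs with hh
      · rw [hh]
      · by_contra hc
        have := hd m' (MvPolynomial.mem_support_iff.2 hc)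
        exact hh ((Finsupp.degree_eq_zero_iff m').1 (by omega)).symm
    rw [h0] at hP
    rw [(Finsupp.degree_eq_zero_iff m).1 hm, hc _ hP]
  | succ d ih =>
    have h1 : m ≠ 0 := by
      rintro rfl
      simp at hm
    obtain ⟨i, hi⟩ := Finsupp.ne_iff.1 h1
    have h2 : m - Finsupp.single i 1 + Finsupp.single i 1 = m :=
      tsub_add_cancel_of_le (Finsupp.single_le_iff.2 (Nat.pos_of_ne_zero hi))
    have h3 := ih (m - Finsupp.single i 1) (by
      have := congrArg Finsupp.degree h2
      rw [map_add, Finsupp.degree_single, hm] at this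
      omega) (MvPolynomial.pderiv i P) (h P hP i) fun m' hm' => by
      have h4 := MvPolynomial.mem_support_iff.1 hm'
      rw [MvPolynomial.coeff_pderiv] at h4
      have := hd _ (MvPolynomial.mem_support_iff.2 (left_ne_zero_of_mul h4))
      rw [map_add, Finsupp.degree_single] at this
      omega
    rw [MvPolynomial.coeff_pderiv, h2] at h3
    exact (mul_eq_zero.1 h3).resolve_right (Nat.cast_add_one_ne_zero _)

theorem OQc1_ge {F : Type} [Field F] [Algebra ℂ F] (y : Fin n → F) (w : RVal F)
    (h0 : ∀ i, 0 ≤ w.v (y i)) (P : MvPolynomial (Fin n) ℂ) : w.Ge (MvPolynomial.aeval y P) 0 := by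
  induction P using MvPolynomial.induction_on with
  | C c =>
    rw [MvPolynomial.aeval_C]
    exact RVal.Ge.const c
  | add p q hp hq =>
    rw [map_add]
    exact hp.add hq
  | mul_X p j hp =>
    rw [map_mul, MvPolynomial.aeval_X]
    simpa using hp.mul (Or.inr (h0 j) : w.Ge (y j) 0)

/-- valuations at etale points have positive log discrepancy -/
theorem A_pos_of_unit {F : Type} [Field F] [Algebra ℂ F] [Algebra.EssFiniteType ℂ F] (ω : PForm F n)
    (y : Fin n → F) (hy : ω.jac y ≠ 0) (w : RVal F) (h : ∃ a, a ≠ 0 ∧ w.v a ≠ 0)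
    (h0 : ∀ i, 0 ≤ w.v (y i)) (h1 : w.v (ω.rho y) ≤ 0) : 0 < ω.A w := by
  classical
  by_contra hA
  have hi := (ω.jac_ne_iff y).1 hy
  have hne : ∀ P : MvPolynomial (Fin n) ℂ, P ≠ 0 → MvPolynomial.aeval y P ≠ 0 := fun P hP e =>
    hP (algebraicIndependent_iff.1 hi P e)
  have hge : ∀ P : MvPolynomial (Fin n) ℂ, P ≠ 0 → 0 ≤ w.v (MvPolynomial.aeval y P) := fun P hP =>
    (OQc1_ge y w h0 P).resolve_left (hne P hP)
  have key : ∀ P : MvPolynomial (Fin n) ℂ, (P = 0 ∨ 0 < w.v (MvPolynomial.aeval y P)) → P = 0 := by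
    intro P hP
    by_contra hP0
    obtain ⟨m, hm, hmax⟩ := Finset.exists_max_image P.support (fun m => m.degree)
      (MvPolynomial.support_nonempty.2 hP0)
    refine MvPolynomial.mem_support_iff.1 hm (OQc1_ind
      (fun P => P = 0 ∨ 0 < w.v (MvPolynomial.aeval y P)) (fun Q hQ j => ?_) (fun c hc => ?_) _ m
      rfl P hP hmax)
    · by_cases hQ0 : Q = 0
      · exact Or.inl (by rw [hQ0, map_zero])
      have hQ1 := hQ.resolve_left hQ0
      by_contra hc
      rw [not_or, not_lt] at hc
      have c0 := hne _ hc.1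
      have c1 : w.v (MvPolynomial.aeval y (MvPolynomial.pderiv j Q)) = 0 :=
        le_antisymm hc.2 (hge _ hc.1)
      have j1 : ω.jac (Function.update y j (MvPolynomial.aeval y Q)) =
          MvPolynomial.aeval y (MvPolynomial.pderiv j Q) * ω.jac y := by
        rw [ω.jac_of_eq _ y (Matrix.updateRow 1 j
          (∑ k, MvPolynomial.aeval y (MvPolynomial.pderiv k Q) • (1 : Matrix _ _ F) k)),
          Matrix.det_updateRow_sum, Matrix.det_one, smul_eq_mul, mul_one]
        intro i
        by_cases e : i = j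
        · subst e
          rw [Function.update_self, UMon_D]
          simp [Matrix.one_apply]
        · rw [Function.update_of_ne e]
          simp [Matrix.updateRow_ne e, Matrix.one_apply]
      have f0 : ∀ i, Function.update y j (MvPolynomial.aeval y Q) i ≠ 0 := fun i => by
        by_cases e : i = j
        · subst e
          rw [Function.update_self]
          exact hne Q hQ0
        · rw [Function.update_of_ne e]
          exact hi.ne_zero i
      have j2 : ω.rho (Function.update y j (MvPolynomial.aeval y Q)) =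
          MvPolynomial.aeval y (MvPolynomial.pderiv j Q) ^ ω.m * ω.rho y := by
        unfold PForm.rho
        rw [j1, mul_pow, mul_div_assoc]
      refine hA (lt_of_lt_of_le ?_ (ω.le_A w _ f0 (by rw [j1]; exact mul_ne_zero c0 hy)))
      rw [EReal.coe_pos]
      unfold PForm.wt
      rw [j2, w.mul _ _ (pow_ne_zero _ c0) (ω.rho_ne hy), w.v_pow _ c0, c1, mul_zero, zero_add]
      have a1 : w.v (ω.rho y) / ω.m ≤ 0 := div_nonpos_of_nonpos_of_nonneg h1 (by positivity)
      have a2 : w.v (Function.update y j (MvPolynomial.aeval y Q) j) ≤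
          ∑ i, w.v (Function.update y j (MvPolynomial.aeval y Q) i) :=
        Finset.single_le_sum (f := fun i => w.v (Function.update y j (MvPolynomial.aeval y Q) i))
          (fun i _ => by
            by_cases e : i = j
            · subst e
              rw [Function.update_self]
              exact hQ1.le
            · rw [Function.update_of_ne e]
              exact h0 i) (Finset.mem_univ j)
      rw [Function.update_self] at a2
      linarith
    · by_contra e
      rcases hc with hc | hc
      · exact e (MvPolynomial.C_eq_zero.1 hc)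
      · rw [MvPolynomial.aeval_C, w.const c e] at hc
        exact lt_irrefl _ hc
  obtain ⟨a, a0, a1⟩ := h
  have := UMon_alg ω y hy
  obtain ⟨N, b, hN, hb, b0, b1⟩ := sa_norm (IntermediateField.adjoin ℂ (Set.range y)) w a0
    (Algebra.IsAlgebraic.isAlgebraic a)
  obtain ⟨P, Q, rfl⟩ := (IntermediateField.mem_adjoin_range_iff _ _ _).1 hb
  obtain ⟨p0, q0⟩ := div_ne_zero_iff.1 b0
  have hP : P ≠ 0 := fun e => p0 (by rw [e, map_zero])
  have hQ : Q ≠ 0 := fun e => q0 (by rw [e, map_zero])
  have p1 := (hge P hP).eq_of_not_lt fun e => hP (key P (Or.inr e))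
  have q1 := (hge Q hQ).eq_of_not_lt fun e => hQ (key Q (Or.inr e))
  rw [w.v_div _ _ p0 q0, ← p1, ← q1, sub_zero] at b1
  exact mul_ne_zero (Nat.cast_ne_zero.2 hN.ne') a1 b1.symm

theorem OQc1_indep (z : Fin (n + 1) → R)
    (ker : ∀ P : MvPolynomial (Fin (n + 1)) ℂ, MvPolynomial.aeval z P = 0 →
      (∑ i, MvPolynomial.X i ^ 2) ∣ P) : AlgebraicIndependent ℂ fun i : Fin n => z i.succ := by
  rw [algebraicIndependent_iff]
  intro P hP
  have h1 := ker (MvPolynomial.rename Fin.succ P) (by rw [MvPolynomial.aeval_rename]; exact hP)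
  have h2 := map_dvd (MvPolynomial.finSuccEquiv ℂ n) h1
  have e1 : MvPolynomial.finSuccEquiv ℂ n (MvPolynomial.rename Fin.succ P) = Polynomial.C P := by
    clear h1 h2 hP
    induction P using MvPolynomial.induction_on with
    | C c => simp [MvPolynomial.finSuccEquiv_apply]
    | add p q hp hq => rw [map_add, map_add, hp, hq, map_add]
    | mul_X p j hp =>
      rw [map_mul, map_mul, hp, MvPolynomial.rename_X, MvPolynomial.finSuccEquiv_X_succ, map_mul]
  have e2 : MvPolynomial.finSuccEquiv ℂ n (∑ i, MvPolynomial.X i ^ 2) =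
      Polynomial.X ^ 2 + Polynomial.C (∑ i, MvPolynomial.X i ^ 2) := by
    rw [Fin.sum_univ_succ, map_add, map_pow, MvPolynomial.finSuccEquiv_X_zero, map_sum, map_sum]
    simp only [map_pow, MvPolynomial.finSuccEquiv_X_succ]
  rw [e1, e2] at h2
  by_contra h0
  have := Polynomial.natDegree_le_of_dvd h2 (Polynomial.C_ne_zero.2 h0)
  rw [Polynomial.natDegree_C, Polynomial.natDegree_X_pow_add_C] at this
  omega

theorem OQc1_fin (z : Fin (n + 1) → R) (rel : ∑ i, z i ^ 2 = 0)
    (gen : Algebra.adjoin ℂ (Set.range z) = ⊤) :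
    (MvPolynomial.aeval fun i : Fin n => z i.succ : MvPolynomial (Fin n) ℂ →ₐ[ℂ] R).Finite := by
  set φ : MvPolynomial (Fin n) ℂ →ₐ[ℂ] R := MvPolynomial.aeval fun i : Fin n => z i.succ with hφ
  let : Algebra (MvPolynomial (Fin n) ℂ) R := φ.toRingHom.toAlgebra
  have hm : ∀ p, algebraMap (MvPolynomial (Fin n) ℂ) R p = φ p := fun _ => rfl
  have : IsScalarTower ℂ (MvPolynomial (Fin n) ℂ) R := .of_algebraMap_eq fun c =>
    (φ.commutes c).symm
  have : Algebra.FiniteType (MvPolynomial (Fin n) ℂ) R :=
    Algebra.FiniteType.of_restrictScalars_finiteType ℂ _ _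
  have : Algebra.IsIntegral (MvPolynomial (Fin n) ℂ) R := ⟨fun r => by
    have hr : r ∈ Algebra.adjoin ℂ (Set.range z) := gen ▸ Algebra.mem_top
    induction hr using Algebra.adjoin_induction with
    | mem x hx =>
      obtain ⟨i, rfl⟩ := hx
      refine Fin.cases ?_ (fun j => ?_) i
      · refine IsIntegral.of_pow two_pos ?_
        have e : z 0 ^ 2 = algebraMap (MvPolynomial (Fin n) ℂ) R (-∑ i, MvPolynomial.X i ^ 2) := by
          rw [Fin.sum_univ_succ] at rel
          rw [hm, map_neg, map_sum, eq_neg_of_add_eq_zero_left rel]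
          simp [hφ]
        rw [e]
        exact isIntegral_algebraMap
      · have e : z j.succ = algebraMap (MvPolynomial (Fin n) ℂ) R (MvPolynomial.X j) := by
          rw [hm]; simp [hφ]
        rw [e]
        exact isIntegral_algebraMap
    | algebraMap c =>
      rw [IsScalarTower.algebraMap_apply ℂ (MvPolynomial (Fin n) ℂ) R]
      exact isIntegral_algebraMap
    | add a b _ _ ha hb => exact ha.add hb
    | mul a b _ _ ha hb => exact ha.mul hb⟩
  exact (Algebra.IsIntegral.finite : Module.Finite (MvPolynomial (Fin n) ℂ) R)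

theorem OQc1_det (z : Fin (n + 1) → R) (i : Fin (n + 1)) :
    (Matrix.of (Fin.cons z (fun k j => if j = i.succAbove k then 1 else 0) :
      Fin (n + 1) → Fin (n + 1) → R)).det = (-1) ^ (i : ℕ) * z i := by
  rw [Matrix.det_succ_column _ i, Fin.sum_univ_succ, Finset.sum_eq_zero, add_zero]
  · have : (Matrix.of (Fin.cons z (fun k j => if j = i.succAbove k then 1 else 0) :
        Fin (n + 1) → Fin (n + 1) → R)).submatrix (Fin.succAbove 0) i.succAbove = 1 := by
      ext k l
      simp [Matrix.one_apply, eq_comm]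
    rw [this]
    simp
  · intro k _
    simp [(Fin.succAbove_ne i k).symm]

theorem OQc1_max (z : Fin (n + 1) → R) (gen : Algebra.adjoin ℂ (Set.range z) = ⊤) (p : Ideal R)
    (hp : p.IsPrime) (h : ∀ i, z i ∈ p) : p.IsMaximal := by
  have key : ∀ r : R, ∃ c : ℂ, r - algebraMap ℂ R c ∈ p := by
    intro r
    have hr : r ∈ Algebra.adjoin ℂ (Set.range z) := gen ▸ Algebra.mem_top
    induction hr using Algebra.adjoin_induction with
    | mem x hx =>
      obtain ⟨i, rfl⟩ := hx
      exact ⟨0, by simpa using h i⟩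
    | algebraMap c => exact ⟨c, by simp⟩
    | add a b _ _ ha hb =>
      obtain ⟨c, hc⟩ := ha
      obtain ⟨d, hd⟩ := hb
      exact ⟨c + d, by rw [map_add, add_sub_add_comm]; exact p.add_mem hc hd⟩
    | mul a b _ _ ha hb =>
      obtain ⟨c, hc⟩ := ha
      obtain ⟨d, hd⟩ := hb
      refine ⟨c * d, ?_⟩
      have := p.add_mem (p.mul_mem_right b hc) (p.mul_mem_left (algebraMap ℂ R c) hd)
      convert this using 1
      rw [map_mul]
      ring
  refine Ideal.isMaximal_iff.2 ⟨(Ideal.ne_top_iff_one p).1 hp.ne_top, fun J r hJ hr hr' => ?_⟩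
  obtain ⟨c, hc⟩ := key r
  have c0 : c ≠ 0 := by
    rintro rfl
    exact hr (by simpa using hc)
  have := J.mul_mem_left (algebraMap ℂ R c⁻¹) (J.sub_mem hr' (hJ hc))
  rwa [sub_sub_cancel, ← map_mul, inv_mul_cancel₀ c0, map_one] at this

theorem exists_cone (hn : 2 ≤ n) (z : Fin (n + 1) → R) (rel : ∑ i, z i ^ 2 = 0)
    (gen : Algebra.adjoin ℂ (Set.range z) = ⊤)
    (ker : ∀ P : MvPolynomial (Fin (n + 1)) ℂ, MvPolynomial.aeval z P = 0 →
      (∑ i, MvPolynomial.X i ^ 2) ∣ P) :
    ∃ (G : WS R K n) (π : Proj R n), Cone G π z := by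
  classical
  have : Algebra.EssFiniteType R K := Algebra.EssFiniteType.of_isLocalization K (nonZeroDivisors R)
  have : Algebra.EssFiniteType ℂ K := Algebra.EssFiniteType.comp ℂ R K
  have hinj := IsFractionRing.injective R K
  let π : Proj R n := ⟨fun i => z i.succ, OQc1_indep z ker, OQc1_fin z rel gen⟩
  have z0 : ∀ i, z i ≠ 0 := by
    intro i
    refine Fin.cases (fun e => ?_) (fun j => π.ind.ne_zero j) i
    rw [Fin.sum_univ_succ, e, zero_pow two_ne_zero, zero_add] at rel
    have h1 := algebraicIndependent_iff.1 π.ind (∑ i, MvPolynomial.X i ^ 2) (by simpa [π] using rel)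
    have h2 := congrArg (MvPolynomial.eval fun _ => (1 : ℂ)) h1
    simp at h2
    omega
  have ζ0 : ∀ i, algebraMap R K (z i) ≠ 0 := fun i => (map_ne_zero_iff _ hinj).2 (z0 i)
  have htr : Algebra.trdeg ℂ K = n := by
    have : Algebra.IsAlgebraic R K := IsLocalization.isAlgebraic K (nonZeroDivisors R)
    rw [← π.trdeg, ← trdeg_add_eq ℂ R (A := K), trdeg_eq_zero (R := R) (A := K), add_zero]
  obtain ⟨b, hb⟩ := AJac_basis ((π.ind.map' (f := IsScalarTower.toAlgHom ℂ R K)
    hinj).isTranscendenceBasis_of_trdeg_le_of_finite (by rw [htr]; simp))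
  let ω : PForm K n := ⟨1, one_pos, b, (algebraMap R K (z 0))⁻¹, inv_ne_zero (ζ0 0)⟩
  have hθ : ∑ j, algebraMap R K (z j) • KaehlerDifferential.D ℂ K (algebraMap R K (z j)) = 0 := by
    have h1 := congrArg (fun r => KaehlerDifferential.D ℂ K (algebraMap R K r)) rel
    simp only [map_sum, map_zero, sq, map_mul, Derivation.leibniz, Finset.sum_add_distrib] at h1
    rw [← two_smul K] at h1
    have : CharZero K := charZero_of_injective_algebraMap (algebraMap ℂ K).injective
    exact (smul_eq_zero.1 h1).resolve_left two_ne_zero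
  have r1 : ∀ (f : Fin n → R) (c : Fin n → Fin (n + 1) → R),
      (∀ i, KaehlerDifferential.D ℂ K (algebraMap R K (f i)) =
        ∑ j, algebraMap R K (c i j) • KaehlerDifferential.D ℂ K (algebraMap R K (z j))) →
      algebraMap R K (Matrix.of (Fin.cons z c : Fin (n + 1) → Fin (n + 1) → R)).det =
        ω.rho fun i => algebraMap R K (f i) := by
    intro f c hc
    have h1 := det_theta b _ _ (ζ0 0) hθ fun i j => algebraMap R K (c i j)
    have h2 : (fun j : Fin n => KaehlerDifferential.D ℂ K (algebraMap R K (z j.succ))) = b :=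
      funext fun j => (hb j).symm
    rw [h2, b.det_self, mul_one] at h1
    unfold PForm.rho PForm.jac
    simp only [ω, pow_one, div_inv_eq_mul, hc]
    rw [mul_comm, h1, RingHom.map_det]
    congr 1
    ext i j
    refine Fin.cases ?_ (fun k => ?_) i <;> simp
  have hP : ∀ r : R, ∃ P : MvPolynomial (Fin (n + 1)) ℂ, MvPolynomial.aeval z P = r := fun r => by
    have hr : r ∈ Algebra.adjoin ℂ (Set.range z) := gen ▸ Algebra.mem_top
    rwa [Algebra.adjoin_range_eq_range_aeval] at hr
  choose P hP using hP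
  have hae : ∀ Q : MvPolynomial (Fin (n + 1)) ℂ, algebraMap R K (MvPolynomial.aeval z Q) =
      MvPolynomial.aeval (fun i => algebraMap R K (z i)) Q := fun Q =>
    (MvPolynomial.aeval_algebraMap_apply K z Q).symm
  let ρ : (Fin n → R) → R := fun f => (Matrix.of (Fin.cons z
    (fun i j => MvPolynomial.aeval z (MvPolynomial.pderiv j (P (f i)))) :
      Fin (n + 1) → Fin (n + 1) → R)).det
  have ρ_eq : ∀ f, algebraMap R K (ρ f) = ω.rho fun i => algebraMap R K (f i) := fun f =>
    r1 f _ fun i => by
      conv_lhs => rw [← hP (f i), hae, UMon_D]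
      simp only [hae]
  have r2 : ∀ i : Fin (n + 1), (ρ fun k => z (i.succAbove k)) = (-1) ^ (i : ℕ) * z i := by
    intro i
    apply hinj
    rw [ρ_eq, ← OQc1_det z i]
    exact (r1 _ _ fun k => by simp [apply_ite]).symm
  have r3 : ∀ i : Fin (n + 1), (ω.rho fun k => algebraMap R K (z (i.succAbove k))) ≠ 0 ∧
      ∀ w : RVal K, w.v (ω.rho fun k => algebraMap R K (z (i.succAbove k))) =
        w.v (algebraMap R K (z i)) := by
    intro i
    rw [← ρ_eq, r2]
    rcases neg_one_pow_eq_or R (i : ℕ) with e | e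
    · rw [e, one_mul]
      exact ⟨ζ0 i, fun _ => rfl⟩
    · rw [e, neg_one_mul, map_neg]
      exact ⟨neg_ne_zero.2 (ζ0 i), fun w => w.v_neg _ (ζ0 i)⟩
  have r4 : ∀ i : Fin (n + 1), (ω.jac fun k => algebraMap R K (z (i.succAbove k))) ≠ 0 := by
    intro i e
    refine (r3 i).1 ?_
    unfold PForm.rho
    rw [e, zero_pow ω.m_pos.ne', zero_div]
  refine ⟨⟨ω, ρ, ρ_eq, fun p hp h1 => ?_, fun w hw h0 => ?_⟩, π, hn, rfl, fun _ => rfl, rel, gen,
    ker, by simpa using r2 0⟩
  · by_contra hc
    push Not at hc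
    have : p.IsMaximal := OQc1_max z gen p hp fun i => by
      have := p.mul_mem_left ((-1) ^ (i : ℕ)) (hc fun k => z (i.succAbove k))
      rwa [r2, ← mul_assoc, ← mul_pow, neg_one_mul, neg_neg, one_pow, one_mul] at this
    obtain ⟨x, rfl⟩ := exists_pt p
    rw [height_pt π x] at h1
    have : n = 1 := by exact_mod_cast h1
    omega
  · have g0 : ∀ i, 0 ≤ w.v (algebraMap R K (z i)) := fun i => (h0 (z i)).resolve_left (ζ0 i)
    obtain ⟨i, -, hi⟩ := Finset.exists_min_image Finset.univ
      (fun i => w.v (algebraMap R K (z i))) Finset.univ_nonempty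
    rcases (g0 i).eq_or_lt with e | e
    · exact A_pos_of_unit ω _ (r4 i) w hw (fun k => g0 _) (by rw [(r3 i).2, ← e])
    · refine lt_of_lt_of_le ?_ (ω.le_A w _ (fun k => ζ0 _) (r4 i))
      rw [EReal.coe_pos]
      unfold PForm.wt
      rw [(r3 i).2]
      have a1 := Finset.card_nsmul_le_sum Finset.univ
        (fun k => w.v (algebraMap R K (z (i.succAbove k)))) _ fun k _ => hi _ (Finset.mem_univ _)
      rw [Finset.card_univ, Fintype.card_fin, nsmul_eq_mul] at a1
      have a2 : (2 : ℝ) ≤ n := by exact_mod_cast hn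
      simp only [ω, Nat.cast_one, div_one]
      nlinarith

end Vale.Agent.P282
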