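import Vale.Agent.P282.OTr
import Vale.Agent.P282.OQc0
import Vale.Agent.P282.OQc1

set_option linter.unusedSectionVars false

open scoped ENNReal TensorProduct Topology
open Filter MeasureTheory

noncomputable section

namespace Vale.Agent.P282

variable {R K : Type} [CommRing R] [IsDomain R] [Algebra ℂ R] [Algebra.FiniteType ℂ R]
  [IsIntegrallyClosed R] [Field K] [Algebra R K] [IsFractionRing R K] [Algebra ℂ K]
  [IsScalarTower ℂ R K] {n : ℕ}

/-- the lower bound for an ordinary double point -/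
theorem odp_low (G : WS R K n) (hn : 2 ≤ n) (x : Pt R) (hd : DP n x.m) (w : RVal K)
    (hw : w.CenteredAt x.m) (hA : G.ω.A w ≠ ⊤) : bd n ≤ nv G.ω x.m w := by
  have := qc_domain hn
  have := qc_normal hn
  have e : (MvPolynomial.aeval fun i => Ideal.Quotient.mkₐ ℂ _ (MvPolynomial.X i) :
      MvPolynomial (Fin (n + 1)) ℂ →ₐ[ℂ] Qc n) = Ideal.Quotient.mkₐ ℂ _ :=
    MvPolynomial.algHom_ext fun i => by simp
  obtain ⟨G₀, π₀, h⟩ := exists_cone (R := Qc n) (K := FractionRing (Qc n)) hn
    (fun i => Ideal.Quotient.mkₐ ℂ _ (MvPolynomial.X i))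
    (by
      simp only [← map_pow, ← map_sum, Ideal.Quotient.mkₐ_eq_mk]
      exact Ideal.Quotient.eq_zero_iff_mem.2 (Ideal.mem_span_singleton_self _))
    (by
      rw [Algebra.adjoin_range_eq_range_aeval, e, AlgHom.range_eq_top]
      exact Ideal.Quotient.mkₐ_surjective ℂ _)
    (fun P hP => by
      rw [e, Ideal.Quotient.mkₐ_eq_mk, Ideal.Quotient.eq_zero_iff_mem] at hP
      exact Ideal.mem_span_singleton.1 hP)
  exact odp_low' G x hd w hw hA h

end Vale.Agent.P282
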