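import Vale.Agent.P282.UTame

set_option linter.unusedSectionVars false

open scoped ENNReal TensorProduct Topology
open Filter MeasureTheory

noncomputable section

namespace Vale.Agent.P282

variable {R K : Type} [CommRing R] [IsDomain R] [Algebra ℂ R] [Algebra.FiniteType ℂ R]
  [IsIntegrallyClosed R] [Field K] [Algebra R K] [IsFractionRing R K] [Algebra ℂ K]
  [IsScalarTower ℂ R K] {n : ℕ}

/-- pull back of a form to an algebraic extension -/
theorem exists_pull {L : Type} [Field L] [Algebra ℂ L] [Algebra K L] [IsScalarTower ℂ K L]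
    [Algebra.IsAlgebraic K L] (ω : PForm K n) : ∃ ω' : PForm L n, ω'.m = ω.m ∧
      ω'.h = algebraMap K L ω.h ∧
      ∀ f : Fin n → K, (ω'.jac fun i => algebraMap K L (f i)) = algebraMap K L (ω.jac f) := by
  have : CharZero K := ((algebraMap ℂ K).charZero_iff (algebraMap ℂ K).injective).1 inferInstance
  have : Algebra.FormallyEtale K L := Algebra.FormallyEtale.of_isSeparable K L
  let e := KaehlerDifferential.tensorKaehlerEquivOfFormallyEtale ℂ K L
  refine ⟨⟨ω.m, ω.m_pos, (ω.b.baseChange L).map e, algebraMap K L ω.h,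
    (map_ne_zero _).2 ω.h_ne⟩, rfl, rfl, fun f => ?_⟩
  have he : ∀ x : K, KaehlerDifferential.D ℂ L (algebraMap K L x) =
      e (1 ⊗ₜ KaehlerDifferential.D ℂ K x) := fun x => by
    rw [KaehlerDifferential.tensorKaehlerEquivOfFormallyEtale_apply,
      KaehlerDifferential.mapBaseChange_tmul, one_smul, KaehlerDifferential.map_D]
  simp only [PForm.jac, Module.Basis.det_apply, RingHom.map_det]
  congr 1
  ext i j
  simp only [Module.Basis.toMatrix_apply, he, Module.Basis.map_repr, LinearEquiv.trans_apply,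
    LinearEquiv.symm_apply_apply, Module.Basis.baseChange_repr_tmul, RingHom.mapMatrix_apply,
    Matrix.map_apply, Algebra.smul_def, mul_one]

/-- the log discrepancy does not change -/
theorem A_pull {L : Type} [Field L] [Algebra ℂ L] [Algebra K L] [IsScalarTower ℂ K L]
    [Algebra.IsAlgebraic K L] (ω : PForm K n) (ω' : PForm L n)
    (h : ∀ f : Fin n → K, ω.jac f ≠ 0 → (ω'.jac fun i => algebraMap K L (f i)) ≠ 0)
    (h0 : ∀ f : Fin n → K, (ω'.jac fun i => algebraMap K L (f i)) ≠ 0 → ω.jac f ≠ 0)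
    (w : RVal K) (w' : RVal L) (hw : ∀ a, a ≠ 0 → w'.v (algebraMap K L a) = w.v a)
    (hρ : ∀ f : Fin n → K, ω.jac f ≠ 0 →
      w'.v (ω'.rho fun i => algebraMap K L (f i)) / ω'.m = w.v (ω.rho f) / ω.m) :
    ω'.A w' = ω.A w := by
  have hwt : ∀ f : Fin n → K, (∀ i, f i ≠ 0) → ω.jac f ≠ 0 →
      ω'.wt w' (fun i => algebraMap K L (f i)) = ω.wt w f := fun f hf hj => by
    unfold PForm.wt
    rw [hρ f hj, Finset.sum_congr rfl fun i _ => hw _ (hf i)]
  refine le_antisymm (iSup_le fun g => ?_) (iSup_le fun f => ?_)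
  · let K₀ : IntermediateField ℂ L := (IsScalarTower.toAlgHom ℂ K L).fieldRange
    have : Algebra.IsAlgebraic K₀ L := ⟨fun x => by
      obtain ⟨P, hP, hx⟩ := Algebra.IsAlgebraic.isAlgebraic (R := K) x
      let φ : K →+* K₀ := (IsScalarTower.toAlgHom ℂ K L).rangeRestrict.toRingHom
      refine ⟨P.map φ, (Polynomial.map_ne_zero_iff φ.injective).2 hP, ?_⟩
      rw [Polynomial.aeval_def, Polynomial.eval₂_map]
      exact hx⟩
    obtain ⟨f, hf, hj, hle⟩ := tame K₀ ω' w' g.1 g.2.1 g.2.2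
    choose f₀ hf₀ using fun i => (hf i).1
    have e : f = fun i => algebraMap K L (f₀ i) := funext fun i => (hf₀ i).symm
    subst e
    have h1 : ∀ i, f₀ i ≠ 0 := fun i h => (hf i).2 (by simp [h])
    rw [hwt f₀ h1 (h0 f₀ hj)] at hle
    exact le_trans (EReal.coe_le_coe_iff.2 hle)
      (le_iSup (fun f : {f : Fin n → K // (∀ i, f i ≠ 0) ∧ ω.jac f ≠ 0} => (ω.wt w f.1 : EReal))
        ⟨f₀, h1, h0 f₀ hj⟩)
  · rw [← hwt f.1 f.2.1 f.2.2]
    exact le_iSup (fun f : {f : Fin n → L // (∀ i, f i ≠ 0) ∧ ω'.jac f ≠ 0} => (ω'.wt w' f.1 : EReal))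
      ⟨_, fun i => (map_ne_zero _).2 (f.2.1 i), h f.1 f.2.2⟩

end Vale.Agent.P282
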