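import Vale.Agent.P282.WLam

set_option linter.unusedSectionVars false

open scoped ENNReal TensorProduct Topology
open Filter MeasureTheory

noncomputable section

namespace Vale.Agent.P282

variable {F : Type} [Field F] [Algebra ℂ F]

theorem WDiv_two (w : RVal F) {ι : Type} {s : Finset ι} (hs : s.Nonempty) {f : ι → F}
    (hf : ∀ j ∈ s, f j ≠ 0) (h : ∑ j ∈ s, f j = 0) :
    ∃ j ∈ s, ∃ l ∈ s, j ≠ l ∧ w.v (f j) = w.v (f l) := by
  classical
  obtain ⟨j, hj, hm⟩ := s.exists_min_image (fun j => w.v (f j)) hs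
  rw [← Finset.add_sum_erase _ _ hj] at h
  rcases (s.erase j).eq_empty_or_nonempty with e | e
  · rw [e, Finset.sum_empty, add_zero] at h
    exact absurd h (hf j hj)
  obtain ⟨l, hl, hm'⟩ := (s.erase j).exists_min_image (fun j => w.v (f j)) e
  refine ⟨j, hj, l, Finset.mem_of_mem_erase hl, (Finset.ne_of_mem_erase hl).symm,
    (hm l (Finset.mem_of_mem_erase hl)).eq_of_not_lt fun hlt => ?_⟩
  exact (w.v_add_of_lt (hf j hj) (RVal.Ge.sum fun k hk => Or.inr (hm' k hk)) hlt).1 h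

theorem WDiv_pow (w : RVal F) {L : Type} [Field L] [Algebra L F] {p : Polynomial L} (hp : p ≠ 0)
    {a : F} (ha : a ≠ 0) (h : Polynomial.aeval a p = 0) : ∃ N : ℕ, 0 < N ∧ N ≤ p.natDegree ∧
      ∃ b : L, b ≠ 0 ∧ w.v (algebraMap L F b) = N * w.v a := by
  rw [Polynomial.aeval_def, Polynomial.eval₂_eq_sum] at h
  have hc : ∀ j ∈ p.support, algebraMap L F (p.coeff j) ≠ 0 := fun j hj =>
    (map_ne_zero _).2 (Polynomial.mem_support_iff.1 hj)
  have key : ∀ j ∈ p.support, ∀ l ∈ p.support, j < l →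
      w.v (algebraMap L F (p.coeff j) * a ^ j) = w.v (algebraMap L F (p.coeff l) * a ^ l) →
      ∃ N : ℕ, 0 < N ∧ N ≤ p.natDegree ∧ ∃ b : L, b ≠ 0 ∧ w.v (algebraMap L F b) = N * w.v a := by
    intro j hj l hl hjl e
    rw [w.mul _ _ (hc j hj) (pow_ne_zero _ ha), w.mul _ _ (hc l hl) (pow_ne_zero _ ha),
      w.v_pow _ ha, w.v_pow _ ha] at e
    have := Polynomial.le_natDegree_of_mem_supp l hl
    refine ⟨l - j, by omega, by omega, p.coeff j / p.coeff l,
      div_ne_zero (Polynomial.mem_support_iff.1 hj) (Polynomial.mem_support_iff.1 hl), ?_⟩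
    rw [map_div₀, w.v_div _ _ (hc j hj) (hc l hl), Nat.cast_sub hjl.le]
    linarith
  obtain ⟨j, hj, l, hl, hne, e⟩ := WDiv_two w (Polynomial.support_nonempty.2 hp)
    (fun j hj => mul_ne_zero (hc j hj) (pow_ne_zero _ ha)) h
  rcases lt_or_gt_of_ne hne with h1 | h1
  · exact key j hj l hl h1 e
  · exact key l hl j hj h1 e.symm

theorem WDiv_cyc {K : Type} [Field K] [Algebra ℂ K] (w : RVal K) {d : ℝ}
    (h : ∀ a, a ≠ 0 → ∃ k : ℤ, w.v a = k * d) (h0 : ∃ a, a ≠ 0 ∧ w.v a ≠ 0) :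
    ∃ c : ℝ, 0 < c ∧ (∃ a, a ≠ 0 ∧ w.v a = c) ∧ ∀ a, a ≠ 0 → ∃ k : ℤ, w.v a = k * c := by
  let Γ : AddSubgroup ℤ :=
    { carrier := {k | ∃ a, a ≠ 0 ∧ w.v a = k * d}
      add_mem' := by
        rintro k l ⟨a, ha, e⟩ ⟨b, hb, e'⟩
        exact ⟨a * b, mul_ne_zero ha hb, by rw [w.mul _ _ ha hb, e, e']; push_cast; ring⟩
      zero_mem' := ⟨1, one_ne_zero, by simp [w.v_one]⟩
      neg_mem' := by
        rintro k ⟨a, ha, e⟩
        exact ⟨a⁻¹, inv_ne_zero ha, by rw [w.v_inv _ ha, e]; push_cast; ring⟩ }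
  obtain ⟨g, hg⟩ := Int.subgroup_cyclic Γ
  have h1 : ∀ a, a ≠ 0 → ∃ k : ℤ, w.v a = k * (g * d) := fun a ha => by
    obtain ⟨k, e⟩ := h a ha
    obtain ⟨m, rfl⟩ := AddSubgroup.mem_closure_singleton.1 (hg.le (⟨a, ha, e⟩ : k ∈ Γ))
    exact ⟨m, by rw [e]; simp [mul_assoc]⟩
  obtain ⟨b, hb, e⟩ : g ∈ Γ := hg ▸ AddSubgroup.mem_closure_singleton_self g
  rw [← e] at h1
  have h2 : w.v b ≠ 0 := fun e' => by
    obtain ⟨a, ha, ha'⟩ := h0
    obtain ⟨k, hk⟩ := h1 a ha
    exact ha' (by rw [hk, e', mul_zero])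
  rcases lt_or_gt_of_ne h2 with h3 | h3
  · refine ⟨-w.v b, by linarith, ⟨b⁻¹, inv_ne_zero hb, w.v_inv _ hb⟩, fun a ha => ?_⟩
    obtain ⟨k, hk⟩ := h1 a ha
    exact ⟨-k, by rw [hk]; push_cast; ring⟩
  · exact ⟨_, h3, ⟨b, hb, rfl⟩, h1⟩

/-- the valuation ring -/
def WDiv_O (w : RVal F) : Subalgebra ℂ F where
  carrier := {a | w.Ge a 0}
  mul_mem' := fun ha hb => by simpa using RVal.Ge.mul ha hb
  add_mem' := RVal.Ge.add
  algebraMap_mem' := RVal.Ge.const

/-- its maximal ideal -/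
def WDiv_m (w : RVal F) : Ideal (WDiv_O w) where
  carrier := {a | ∃ t, 0 < t ∧ w.Ge a.1 t}
  add_mem' := by
    rintro a b ⟨s, hs, h⟩ ⟨t, ht, h'⟩
    exact ⟨min s t, lt_min hs ht, (h.mono (min_le_left _ _)).add (h'.mono (min_le_right _ _))⟩
  zero_mem' := ⟨1, one_pos, Or.inl rfl⟩
  smul_mem' := by
    rintro c a ⟨s, hs, h⟩
    exact ⟨0 + s, by linarith, RVal.Ge.mul c.2 h⟩

theorem WDiv_notMem (w : RVal F) (a : WDiv_O w) : a ∉ WDiv_m w ↔ a.1 ≠ 0 ∧ w.v a.1 = 0 := by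
  constructor
  · intro h
    have h0 : a.1 ≠ 0 := fun e => h ⟨1, one_pos, Or.inl e⟩
    exact ⟨h0, ((a.2.resolve_left h0).eq_of_not_lt fun hlt => h ⟨_, hlt, Or.inr le_rfl⟩).symm⟩
  · rintro ⟨h0, h1⟩ ⟨t, ht, h⟩
    linarith [h.resolve_left h0]

instance WDiv_prime (w : RVal F) : (WDiv_m w).IsPrime where
  ne_top' := (Ideal.ne_top_iff_one _).2 ((WDiv_notMem w 1).2 ⟨one_ne_zero, w.v_one⟩)
  mem_or_mem' := fun {a b} h => by
    by_contra hc
    rw [not_or, WDiv_notMem, WDiv_notMem] at hc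
    refine (WDiv_notMem w _).2 ⟨mul_ne_zero hc.1.1 hc.2.1, ?_⟩ h
    show w.v (a.1 * b.1) = 0
    rw [w.mul _ _ hc.1.1 hc.2.1, hc.1.2, hc.2.2, add_zero]

theorem WDiv_ind (w : RVal F) {k : ℕ} (g : Fin k → WDiv_O w) :
    AlgebraicIndependent ℂ (fun j => Ideal.Quotient.mkₐ ℂ (WDiv_m w) (g j)) ↔
      ∀ P : MvPolynomial (Fin k) ℂ, P ≠ 0 → MvPolynomial.aeval (fun j => (g j).1) P ≠ 0 ∧
        w.v (MvPolynomial.aeval (fun j => (g j).1) P) = 0 := by
  rw [algebraicIndependent_iff]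
  refine forall_congr' fun P => ?_
  have e : MvPolynomial.aeval (fun j => (g j).1) P = (MvPolynomial.aeval g P).1 :=
    (MvPolynomial.comp_aeval_apply g (WDiv_O w).val P).symm
  rw [← MvPolynomial.comp_aeval_apply, e, ← WDiv_notMem, Ideal.Quotient.mkₐ_eq_mk,
    Ideal.Quotient.eq_zero_iff_mem]
  exact not_imp_not.symm

theorem WDiv_pick {A : Type} [CommRing A] [IsDomain A] [Algebra ℂ A] (s : Set A)
    [Algebra.IsAlgebraic (Algebra.adjoin ℂ s) A] {k : ℕ} {u : Fin k → A}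
    (hu : AlgebraicIndependent ℂ u) :
    ∃ g : Fin k → A, (∀ j, g j ∈ s) ∧ AlgebraicIndependent ℂ g := by
  obtain ⟨t, ht, hb⟩ := exists_isTranscendenceBasis_subset (R := ℂ) s
  have h1 := hu.cardinalMk_le_trdeg
  rw [← hb.cardinalMk_eq_trdeg] at h1
  obtain ⟨e⟩ := (Cardinal.le_def _ _).1 h1
  exact ⟨_, fun j => ht (e j).2, hb.1.comp e e.injective⟩

theorem WDiv_res {K : Type} [Field K] [Algebra ℂ K] [Algebra K F] [IsScalarTower ℂ K F]
    [Algebra.IsAlgebraic K F] (w : RVal F) {k : ℕ} (u : Fin k → WDiv_O w)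
    (hu : AlgebraicIndependent ℂ fun j => Ideal.Quotient.mkₐ ℂ (WDiv_m w) (u j)) :
    ∃ g : Fin k → K, ∀ P : MvPolynomial (Fin k) ℂ, P ≠ 0 → MvPolynomial.aeval g P ≠ 0 ∧
      w.v (algebraMap K F (MvPolynomial.aeval g P)) = 0 := by
  let φ := IsScalarTower.toAlgHom ℂ K F
  let O := (WDiv_O w).comap φ
  let ι : O →ₐ[ℂ] WDiv_O w := (φ.comp O.val).codRestrict _ fun a => a.2
  let ψ := (Ideal.Quotient.mkₐ ℂ (WDiv_m w)).comp ι
  have : Algebra.IsAlgebraic (Algebra.adjoin ℂ (Set.range ψ)) (WDiv_O w ⧸ WDiv_m w) := by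
    refine ⟨fun x => ?_⟩
    obtain ⟨a, rfl⟩ := Ideal.Quotient.mk_surjective x
    obtain ⟨p, hp, h⟩ := Algebra.IsAlgebraic.isAlgebraic (R := K) a.1
    obtain ⟨j, hj, hm⟩ := p.support.exists_min_image (fun j => w.v (φ (p.coeff j)))
      (Polynomial.support_nonempty.2 hp)
    have hj' := Polynomial.mem_support_iff.1 hj
    obtain ⟨q, hq⟩ := (Polynomial.lifts_iff_coeff_lifts (f := O.val.toRingHom)
      (Polynomial.C (p.coeff j)⁻¹ * p)).2 fun l => by
        rw [Polynomial.coeff_C_mul, inv_mul_eq_div]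
        refine ⟨⟨p.coeff l / p.coeff j, ?_⟩, rfl⟩
        by_cases hl : p.coeff l = 0
        · rw [hl, zero_div]
          exact O.zero_mem
        · refine Or.inr ?_
          show 0 ≤ w.v (φ _)
          rw [map_div₀, w.v_div _ _ ((map_ne_zero φ).2 hl) ((map_ne_zero φ).2 hj')]
          linarith [hm l (Polynomial.mem_support_iff.2 hl)]
    rw [Polynomial.coe_mapRingHom] at hq
    let χ : O →ₐ[ℂ] Algebra.adjoin ℂ (Set.range ψ) :=
      ψ.codRestrict _ fun a => Algebra.subset_adjoin ⟨a, rfl⟩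
    refine ⟨q.map χ.toRingHom, fun e => ?_, ?_⟩
    · have h1 := congrArg (·.coeff j) hq
      have h2 := congrArg (·.coeff j) e
      simp only [Polynomial.coeff_map, Polynomial.coeff_C_mul, inv_mul_cancel₀ hj',
        Polynomial.coeff_zero] at h1 h2
      rw [show q.coeff j = 1 from Subtype.ext h1, map_one] at h2
      exact one_ne_zero h2
    · have h1 : q.eval₂ ι.toRingHom a = 0 := by
        refine Subtype.ext ?_
        have := Polynomial.hom_eval₂ q ι.toRingHom (WDiv_O w).val.toRingHom a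
        refine this.trans ?_
        rw [show (WDiv_O w).val.toRingHom.comp ι.toRingHom =
          (algebraMap K F).comp O.val.toRingHom from rfl, ← Polynomial.eval₂_map, hq,
          ← Polynomial.aeval_def, map_mul]
        exact mul_eq_zero_of_right _ h
      rw [Polynomial.aeval_def, Polynomial.eval₂_map]
      have := Polynomial.hom_eval₂ q ι.toRingHom (Ideal.Quotient.mk (WDiv_m w)) a
      rw [h1, map_zero] at this
      exact this.symm
  have := Ideal.Quotient.isDomain (WDiv_m w)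
  obtain ⟨e, he, hb⟩ := WDiv_pick (Set.range ψ) hu
  choose g hg using he
  have h2 := (WDiv_ind w fun j => ι (g j)).1 (by
    convert hb using 1
    exact funext hg)
  refine ⟨fun j => g j, fun P hP => ?_⟩
  have e1 : algebraMap K F (MvPolynomial.aeval (fun j => (g j).1) P) =
      MvPolynomial.aeval (fun j => (ι (g j)).1) P := MvPolynomial.comp_aeval_apply _ φ P
  rw [e1]
  exact ⟨fun h => (h2 P hP).1 (by rw [← e1, h, map_zero]), (h2 P hP).2⟩

/-- the restriction to a finitely generated subfield is divisorial -/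
theorem divisorial_comap {K : Type} [Field K] [Algebra ℂ K] [Algebra.EssFiniteType ℂ K]
    [Algebra K F] [IsScalarTower ℂ K F] [Algebra.IsAlgebraic K F] {n : ℕ} {w : RVal F}
    {u : Fin n → F} {δ : Fin n → ℝ} (h : IsMon w u δ) {i : Fin n} (hi : δ i ≠ 0)
    (h0 : ∀ j, j ≠ i → δ j = 0)
    [Algebra.IsAlgebraic (IntermediateField.adjoin ℂ (Set.range u)) F] :
    (w.comap (IsScalarTower.toAlgHom ℂ K F)).Divisorial n := by
  have hs : ∀ α : Fin n →₀ ℕ, ∑ j, δ j * α j = α i * δ i := fun α => by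
    rw [Finset.sum_eq_single i (fun j _ hj => by rw [h0 j hj, zero_mul]) (by simp), mul_comm]
  have hX : ∀ j, u j ≠ 0 ∧ w.v (u j) = δ j := fun j => by
    obtain ⟨h1, ⟨α, h2, h3⟩, -⟩ := h (MvPolynomial.X j) (MvPolynomial.X_ne_zero j)
    rw [MvPolynomial.aeval_X] at h1 h3
    rw [MvPolynomial.support_X, Finset.mem_singleton] at h2
    refine ⟨h1, h3.trans ?_⟩
    rw [h2, Finset.sum_eq_single j (fun l _ hl => by simp [hl]) (by simp)]
    simp
  refine ⟨?_, ?_⟩
  · obtain ⟨S, hS⟩ := IntermediateField.fg_top_iff.2 ‹Algebra.EssFiniteType ℂ K›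
    let K₀ := IntermediateField.adjoin ℂ (Set.range u)
    let M := IntermediateField.adjoin K₀ (algebraMap K F '' S)
    have : FiniteDimensional K₀ M := IntermediateField.finiteDimensional_adjoin fun x _ =>
      (Algebra.IsAlgebraic.isAlgebraic x).isIntegral
    have hM : ∀ a : K, algebraMap K F a ∈ M := fun a => by
      have h1 : IntermediateField.adjoin ℂ (S : Set K) ≤
          (M.restrictScalars ℂ).comap (IsScalarTower.toAlgHom ℂ K F) :=
        IntermediateField.adjoin_le_iff.2 fun x hx => IntermediateField.subset_adjoin _ _ ⟨x, hx, rfl⟩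
      exact h1 (hS ▸ IntermediateField.mem_top)
    refine WDiv_cyc _ (d := δ i / (Module.finrank K₀ M).factorial) (fun a ha => ?_) ?_
    · have h1 := (Algebra.IsAlgebraic.isAlgebraic (R := K₀) (algebraMap K F a)).isIntegral
      obtain ⟨N, N0, N1, b, b0, e⟩ := WDiv_pow w (minpoly.ne_zero h1) ((map_ne_zero _).2 ha)
        (minpoly.aeval _ _)
      have N2 : N ≤ Module.finrank K₀ M := by
        refine N1.trans (le_of_eq_of_le ?_ (minpoly.natDegree_le (⟨_, hM a⟩ : M)))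
        rw [IntermediateField.minpoly_eq]
      obtain ⟨c, hc⟩ := Nat.dvd_factorial N0 N2
      obtain ⟨P, Q, e1⟩ := (IntermediateField.mem_adjoin_range_iff _ _ _).1 b.2
      have b1 : b.1 ≠ 0 := fun e => b0 (Subtype.ext e)
      have P0 : P ≠ 0 := by
        rintro rfl
        exact b1 (by simp [e1])
      have Q0 : Q ≠ 0 := by
        rintro rfl
        exact b1 (by simp [e1])
      obtain ⟨p1, ⟨α, -, p2⟩, -⟩ := h P P0
      obtain ⟨q1, ⟨β, -, q2⟩, -⟩ := h Q Q0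
      rw [show algebraMap K₀ F b = b.1 from rfl, e1, w.v_div _ _ p1 q1, p2, q2, hs, hs] at e
      refine ⟨c * (α i - β i), ?_⟩
      have c0 : (c : ℝ) ≠ 0 := by
        have := Nat.factorial_ne_zero (Module.finrank K₀ M)
        rw [hc] at this
        exact_mod_cast right_ne_zero_of_mul this
      have N3 : (N : ℝ) ≠ 0 := by exact_mod_cast N0.ne'
      show w.v (algebraMap K F a) = _
      rw [hc]
      push_cast
      field_simp
      linear_combination -e
    · obtain ⟨p, hp, e⟩ := Algebra.IsAlgebraic.isAlgebraic (R := K) (u i)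
      obtain ⟨N, N0, -, b, b0, e⟩ := WDiv_pow w hp (hX i).1 e
      refine ⟨b, b0, fun e' => mul_ne_zero (Nat.cast_ne_zero.2 N0.ne') hi ?_⟩
      rw [← (hX i).2, ← e]
      exact e'
  · obtain ⟨n, rfl⟩ : ∃ k, n = k + 1 := ⟨n - 1, by have := i.pos; omega⟩
    refine WDiv_res w (fun j : Fin n => ⟨u (i.succAbove j), Or.inr ?_⟩) ((WDiv_ind w _).2 ?_)
    · rw [(hX _).2, h0 _ (i.succAbove_ne j)]
    · intro P hP
      obtain ⟨p1, ⟨α, p2, p3⟩, -⟩ := h (MvPolynomial.rename i.succAbove P)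
        ((map_ne_zero_iff _ (MvPolynomial.rename_injective _ i.succAbove_right_injective)).2 hP)
      rw [MvPolynomial.aeval_rename] at p1 p3
      refine ⟨p1, p3.trans ?_⟩
      rw [MvPolynomial.support_rename_of_injective i.succAbove_right_injective] at p2
      obtain ⟨β, -, rfl⟩ := Finset.mem_image.1 p2
      rw [hs, Finsupp.mapDomain_of_notMem_range _ _ (by simp), Nat.cast_zero, zero_mul]

end Vale.Agent.P282
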