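import Vale.Agent.P282.WInd
import Vale.Agent.P282.WDiv
import Vale.Agent.P282.UJx
import Vale.Agent.P282.AProj

set_option linter.unusedSectionVars false

open scoped ENNReal TensorProduct Topology
open Filter MeasureTheory

noncomputable section

namespace Vale.Agent.P282

variable {R K : Type} [CommRing R] [IsDomain R] [Algebra ℂ R] [Algebra.FiniteType ℂ R]
  [IsIntegrallyClosed R] [Field K] [Algebra R K] [IsFractionRing R K] [Algebra ℂ K]
  [IsScalarTower ℂ R K] {n : ℕ}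

theorem UKlt_triv {F : Type} [Field F] [Algebra ℂ F] {w : RVal F} {u : Fin n → F} {δ : Fin n → ℝ}
    (h : IsMon w u δ) (h0 : ∀ i, δ i = 0)
    [Algebra.IsAlgebraic (IntermediateField.adjoin ℂ (Set.range u)) F] {a : F} (ha : a ≠ 0) :
    w.v a = 0 := by
  obtain ⟨N, b, h1, h2, h3, h4⟩ := sa_norm (IntermediateField.adjoin ℂ (Set.range u)) w ha
    (Algebra.IsAlgebraic.isAlgebraic a)
  obtain ⟨P, Q, rfl⟩ := (IntermediateField.mem_adjoin_range_iff ℂ u b).1 h2
  have key : ∀ P : MvPolynomial (Fin n) ℂ, MvPolynomial.aeval u P ≠ 0 →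
      w.v (MvPolynomial.aeval u P) = 0 := fun P hP => by
    obtain ⟨α, -, e⟩ := (h P fun h' => hP (by rw [h', map_zero])).2.1
    simp [e, h0]
  obtain ⟨p, q⟩ := div_ne_zero_iff.1 h3
  rw [w.v_div _ _ p q, key P p, key Q q, sub_zero] at h4
  exact (mul_eq_zero.1 h4.symm).resolve_left (Nat.cast_ne_zero.2 h1.ne')

theorem UKlt_sg {l : ℝ →+ ℝ} {S : Finset ℝ} (h : SgP l S) {x : ℝ} (hx : x ∈ S) (h0 : 0 ≤ x) :
    0 ≤ l x := by
  rcases h0.eq_or_lt with rfl | h1
  · exact (map_zero l).ge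
  · exact (h x hx h1).le

/-- klt for divisors implies klt for all real valuations -/
theorem klt_all (ω : PForm K n) (hk : ω.Klt R) (w : RVal K) (h : ∃ a, a ≠ 0 ∧ w.v a ≠ 0)
    (hw : w.OnSpec R) : 0 < ω.A w := by
  classical
  by_contra hA
  have : Algebra.EssFiniteType R K := Algebra.EssFiniteType.of_isLocalization K (nonZeroDivisors R)
  have : Algebra.EssFiniteType ℂ K := Algebra.EssFiniteType.comp ℂ R K
  obtain ⟨a, a0, a1⟩ := h
  obtain ⟨w1, hw1⟩ := ext_val (L := Cl K) w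
  obtain ⟨π⟩ := exists_proj' (trdeg_eq ω R)
  obtain ⟨ω1, e1, e2, e3⟩ := exists_pull (L := Cl K) ω
  have pull : ∀ (v : RVal K) (v' : RVal (Cl K)),
      (∀ a, a ≠ 0 → v'.v (algebraMap K (Cl K) a) = v.v a) → ω1.A v' = ω.A v := fun v v' hv =>
    A_pull ω ω1 (fun f hf => by rw [e3]; exact (map_ne_zero _).2 hf)
      (fun f hf h0 => hf (by rw [e3, h0, map_zero])) v v' hv fun f hf => by
        rw [← hv _ (ω.rho_ne hf), PForm.rho, PForm.rho, e1, e2, e3, map_div₀, map_pow]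
  set y : Fin n → Cl K := fun i => algebraMap K (Cl K) (algebraMap R K (π.y i)) with hy
  have y1 : AlgebraicIndependent ℂ y := π.ind.map' (f := io K) AEmb0_io_inj
  have y2 : ω1.jac y ≠ 0 := by
    rw [hy, e3]
    exact (map_ne_zero _).2 (π.jac_ne ω)
  have y3 := ω1.rho_ne y2
  have : Algebra.IsAlgebraic (IntermediateField.adjoin ℂ (Set.range y)) (Cl K) :=
    (y1.isTranscendenceBasis_of_trdeg_le_of_finite
      (by rw [AJac_trdeg ω1.b]; simp)).isAlgebraic_field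
  obtain ⟨f, M, S, f0, f1, f2, H⟩ := wind w1 y y1
    (insert (ω1.rho y) (insert (algebraMap K (Cl K) a) (Finset.univ.image y))) (by
      simp only [Finset.forall_mem_insert, Finset.forall_mem_image]
      exact ⟨y3, (map_ne_zero _).2 a0, fun i _ => y1.ne_zero i⟩)
  have j1 : ω1.jac f = ω1.jac y := by rw [ω1.jac_of_eq f y M f1, f2, one_mul]
  set x := ∑ i, w1.v (f i) - w1.v (ω1.rho y) / ω1.m with hx
  have x0 : x ≤ 0 := by
    have h1 := ω1.le_A w1 f f0 (j1 ▸ y2)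
    rw [pull w w1 hw1, PForm.wt, PForm.rho, j1] at h1
    exact EReal.coe_nonpos.1 (h1.trans (not_lt.1 hA))
  obtain ⟨l, l1, l2⟩ := exists_lam (insert (-x) (insert (w.v a) (insert (-w.v a)
    (S ∪ Finset.univ.image fun i => w1.v (y i)))))
  obtain ⟨w2, u, δ, N, b1, b2, -, b3, b4, b5, b6, b7⟩ :=
    H l l1 fun t ht => l2 t (by simp [ht])
  simp only [Finset.forall_mem_insert, Finset.forall_mem_image] at b1
  obtain ⟨c1, c2, c3⟩ := b1
  obtain ⟨i, hi⟩ : ∃ i, δ i ≠ 0 := by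
    by_contra hn
    rw [UKlt_triv b2 (fun i => not_not.1 fun h => hn ⟨i, h⟩) ((map_ne_zero _).2 a0),
      hw1 a a0] at c2
    rcases lt_or_gt_of_ne a1 with h | h
    · have := l2 (-w.v a) (by simp) (neg_pos.2 h)
      rw [map_neg] at this
      linarith
    · exact (l2 _ (by simp) h).ne c2
  have h1 := hk _ (divisorial_comap (K := K) b2 hi fun j hj => not_not.1 fun h => hj (b3 j i h hi))
    (RVal.onSpec_of_proj π fun j => Or.inr (by
      refine (UKlt_sg l2 (x := w1.v (y j)) (by simp) ?_).trans (c3 (Finset.mem_univ j)).ge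
      have h2 := (map_ne_zero _).1 (y1.ne_zero j)
      rw [hy, hw1 _ h2]
      exact (hw _).resolve_left h2))
  have j2 := ω1.jac_of_eq u y N b5
  have m0 : (ω1.m : ℝ) ≠ 0 := Nat.cast_ne_zero.2 ω1.m_pos.ne'
  have j3 : ω1.rho u = N.det ^ ω1.m * ω1.rho y := by
    rw [PForm.rho, PForm.rho, j2, mul_pow, mul_div_assoc]
  rw [← pull _ w2 fun _ _ => rfl, A_mon' ω1 u (j2 ▸ mul_ne_zero b6 y2) b2, j3,
    w2.mul _ _ (pow_ne_zero _ b6) y3, w2.v_pow _ b6, add_div, mul_div_cancel_left₀ _ m0,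
    ← sub_sub, b7, c1, EReal.coe_pos] at h1
  have h2 := UKlt_sg l2 (x := -x) (by simp) (neg_nonneg.2 x0)
  have h3 := lam_rat l (ω1.m : ℚ)⁻¹ (w1.v (ω1.rho y))
  push_cast at h3
  rw [map_neg, hx, map_sub, div_eq_inv_mul, h3, ← div_eq_inv_mul] at h2
  linarith

end Vale.Agent.P282
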