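import Vale.Agent.P282.CCov
import Vale.Agent.P282.COdp
import Vale.Agent.P282.COdq
import Vale.Agent.P282.OLow
import Vale.Agent.P282.UKlt

set_option linter.unusedSectionVars false

open scoped ENNReal TensorProduct Topology
open Filter MeasureTheory

noncomputable section

namespace Vale.Agent.P282

variable {R K : Type} [CommRing R] [IsDomain R] [Algebra ℂ R] [Algebra.FiniteType ℂ R]
  [IsIntegrallyClosed R] [Field K] [Algebra R K] [IsFractionRing R K] [Algebra ℂ K]
  [IsScalarTower ℂ R K] {n : ℕ}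

theorem exists_ws (ω : PForm K n) (hg : ω.Generates R) (hk : ω.Klt R) :
    ∃ G : WS R K n, G.ω = ω := by
  have h1 : ∀ f : Fin n → R, ∃ r : R,
      algebraMap R K r = ω.rho fun i => algebraMap R K (f i) :=
    fun f => hartogs fun p hp h => (hg p hp h).1 f
  choose ρ hρ using h1
  refine ⟨⟨ω, ρ, hρ, fun p hp h => ?_, klt_all ω hk⟩, rfl⟩
  obtain ⟨f, h0, r, s, hs, e⟩ := (hg p hp h).2
  refine ⟨f, fun hf => hs ?_⟩
  have h2 : s = ρ f * r := IsFractionRing.injective R K (by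
    rw [map_mul, hρ, ← e, ← mul_assoc, mul_inv_cancel₀ h0, one_mul])
  rw [h2]
  exact p.mul_mem_right _ hf

theorem main (hn : 2 ≤ n) (ω : PForm K n) (hg : ω.Generates R) (hk : ω.Klt R) (m : Ideal R)
    [m.IsMaximal] (hs : ¬ IsRegularLocalRing (Localization.AtPrime m)) :
    nvol m ω ≤ bd n ∧ (nvol m ω = bd n ↔ IsODP n m) := by
  obtain ⟨G, rfl⟩ := exists_ws ω hg hk
  obtain ⟨x, rfl⟩ := exists_pt m
  have ht := trdeg_eq G.ω R
  have key : ∀ w : RVal K, w.CenteredAt x.m → G.ω.A w ≠ ⊤ → nvol x.m G.ω ≤ nv G.ω x.m w :=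
    fun w hw hA => (iInf_le _ (⟨w, hw⟩ : {w : RVal K // w.CenteredAt x.m})).trans (by
      rw [if_neg hA]
      exact le_rfl)
  obtain ⟨π, hπ⟩ := exists_red K (by omega) ht x
  obtain ⟨-, w, hw, hA, hb⟩ := ineq G hn π x hπ hs
  have h1 := (key w hw hA).trans hb
  refine ⟨h1, fun h => ?_, fun h => le_antisymm h1 (le_iInf fun u => ?_)⟩
  · rcases cov G hn x hs with hd | ⟨u, hu, hB, hl⟩
    · exact odp_of_dp hn ht x hd
    · exact absurd ((key u hu hB).trans_lt hl) (by rw [h]; exact lt_irrefl _)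
  · split_ifs with hB
    · exact le_top
    · exact odp_low G hn x (dp_of_odp x h) u.1 u.2 hB

end Vale.Agent.P282
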