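import Vale.Agent.P282.VInd
import Vale.Agent.P282.UJx
import Vale.Agent.P282.SAn

set_option linter.unusedSectionVars false

open scoped ENNReal TensorProduct Topology
open Filter MeasureTheory

noncomputable section

namespace Vale.Agent.P282

variable {R K : Type} [CommRing R] [IsDomain R] [Algebra ℂ R] [Algebra.FiniteType ℂ R]
  [IsIntegrallyClosed R] [Field K] [Algebra R K] [IsFractionRing R K] [Algebra ℂ K]
  [IsScalarTower ℂ R K] {n : ℕ}

theorem UVq_int (π : Proj R n) {F B : Type} [Field F] [Algebra ℂ F] [CommRing B] [Algebra ℂ B]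
    [Algebra B F] [IsScalarTower ℂ B F] (σ : R →ₐ[ℂ] F) (u : Fin n → B)
    (hu : ∀ i, algebraMap B F (u i) = σ (π.y i)) (r : R) : IsIntegral B (σ r) := by
  obtain ⟨P, hP, h0⟩ := RingHom.Finite.to_isIntegral π.fin r
  refine ⟨P.map (MvPolynomial.aeval u : MvPolynomial (Fin n) ℂ →ₐ[ℂ] B).toRingHom, hP.map _, ?_⟩
  have e : (algebraMap B F).comp
      (MvPolynomial.aeval u : MvPolynomial (Fin n) ℂ →ₐ[ℂ] B).toRingHom =
      σ.toRingHom.comp (MvPolynomial.aeval π.y : MvPolynomial (Fin n) ℂ →ₐ[ℂ] R).toRingHom := by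
    have e1 : (IsScalarTower.toAlgHom ℂ B F).comp (MvPolynomial.aeval u) =
        σ.comp (MvPolynomial.aeval π.y) := MvPolynomial.algHom_ext fun i => by simpa using hu i
    exact congrArg AlgHom.toRingHom e1
  rw [Polynomial.eval₂_map, e]
  have h1 := Polynomial.hom_eval₂ P
    (MvPolynomial.aeval π.y : MvPolynomial (Fin n) ℂ →ₐ[ℂ] R).toRingHom σ.toRingHom r
  exact h1.symm.trans ((congrArg σ.toRingHom h0).trans (map_zero _))

theorem UVq_wt (G : WS R K n) (π : Proj R n) (w : RVal K) (hA : G.ω.A w ≠ ⊤) (w' : RVal (Cl K))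
    (hw' : ∀ a, a ≠ 0 → w'.v (algebraMap K (Cl K) a) = w.v a) (f : Fin n → Cl K)
    (M : Matrix (Fin n) (Fin n) (Cl K)) (hf : ∀ i, f i ≠ 0)
    (hM : DRel f (fun i => io K (π.y i)) M) (hd : M.det = 1) :
    ∑ i, w'.v (f i) - w'.v (io K (G.ρ π.y)) / G.ω.m ≤ (G.ω.A w).toReal := by
  obtain ⟨ω', h1, h2, h3⟩ := exists_pull (L := Cl K) G.ω
  have h4 : ∀ g : Fin n → K, (ω'.rho fun i => algebraMap K (Cl K) (g i)) =
      algebraMap K (Cl K) (G.ω.rho g) := fun g => by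
    rw [PForm.rho, PForm.rho, h3, h1, h2, map_div₀, map_pow]
  have h5 : ω'.A w' = G.ω.A w := A_pull G.ω ω'
    (fun g hg => by rw [h3]; exact (map_ne_zero _).2 hg)
    (fun g hg => by rw [h3] at hg; exact (map_ne_zero _).1 hg) w w' hw'
    fun g hg => by rw [h4, h1, hw' _ (G.ω.rho_ne hg)]
  have h6 : ω'.jac f = ω'.jac fun i => algebraMap K (Cl K) (algebraMap R K (π.y i)) := by
    rw [ω'.jac_of_eq f _ M hM, hd, one_mul]
    rfl
  have h7 : ω'.rho f = io K (G.ρ π.y) := by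
    have := h4 fun i => algebraMap R K (π.y i)
    rw [← G.ρ_eq, PForm.rho, ← h6] at this
    exact this
  have h8 := ω'.le_A w' f hf (by rw [h6, h3]; exact (map_ne_zero _).2 (π.jac_ne G.ω))
  rw [h5, PForm.wt, h7, h1] at h8
  exact EReal.toReal_le_toReal h8 (EReal.coe_ne_bot _) hA

theorem UVq_meas {π : Proj R n} {g : R} (A : An π g) {T : Set (π.W A.Δ)} (hT : MeasurableSet T)
    {Q : Set (E n)} (h : ∀ z ∈ Q, ∃ p ∈ T, π.at p.1 = z) (a : ℝ≥0∞) :
    a * volume Q ≤ ∫⁻ p, T.indicator (fun _ => a) p ∂A.S.μ := by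
  obtain ⟨h1, h2⟩ := A.lint_fib (F := T.indicator fun _ => a) (measurable_const.indicator hT)
  rw [h2]
  refine le_trans (mul_le_mul_right (measure_mono fun z hz => ?_) a)
    (mul_meas_ge_le_lintegral h1 a)
  obtain ⟨p, hp, hz⟩ := h z hz
  have h3 := Finset.single_le_sum (f := T.indicator fun _ => a) (fun _ _ => zero_le)
    (((A.fib_finite z).mem_toFinset (a := p)).2 hz)
  rwa [Set.indicator_of_mem hp] at h3

theorem UVq_num {C₀ C τ s r a m : ℝ} (h0 : 0 < C₀) (hτ : 0 ≤ τ) (h : s - r / m ≤ a)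
    (hC : C₀ * C₀ ^ (1 / m) ≤ C) :
    C⁻¹ * Real.exp (-τ * a) ≤
      (C₀ * Real.exp (-τ * r)) ^ (-(1 / m)) * (C₀⁻¹ * Real.exp (-τ * s)) := by
  have h1 : 0 < C₀ ^ (1 / m) := Real.rpow_pos_of_pos h0 _
  rw [Real.mul_rpow h0.le (Real.exp_pos _).le, ← Real.exp_mul, Real.rpow_neg h0.le,
    mul_mul_mul_comm, ← Real.exp_add, ← mul_inv, mul_comm _ C₀]
  refine mul_le_mul (inv_anti₀ (mul_pos h0 h1) hC) (Real.exp_le_exp.2 ?_) (Real.exp_pos _).le
    (by positivity)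
  have h2 := mul_le_mul_of_nonneg_left h hτ
  have h3 : -τ * r * -(1 / m) + -τ * s = -(τ * (s - r / m)) := by ring
  rw [h3]
  linarith

/-- the measure of the points close to a valuation -/
theorem vq (G : WS R K n) (π : Proj R n) (A : An π (G.ρ π.y)) (w : RVal K) (hw : w.OnSpec R)
    (hA : G.ω.A w ≠ ⊤) {ι : Type} [Finite ι] (h : ι → R) (h0 : ∀ i, h i ≠ 0) :
    ∃ C : ℝ, 0 < C ∧ ∀ᶠ τ : ℝ in atTop,
      ENNReal.ofReal (C⁻¹ * Real.exp (-τ * (G.ω.A w).toReal)) ≤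
        ∫⁻ p in {p : π.W A.Δ | gr (π.at p.1) ≤ C ∧ ∀ i,
          C⁻¹ * Real.exp (-τ * w.v (algebraMap R K (h i))) ≤ ‖p.1 (h i)‖ ^ 2 ∧
          ‖p.1 (h i)‖ ^ 2 ≤ C * Real.exp (-τ * w.v (algebraMap R K (h i)))},
          ENNReal.ofReal (dens G π 0 p.1) ∂A.S.μ := by
  classical
  have := Fintype.ofFinite ι
  obtain ⟨w', hw'⟩ := ext_val (L := Cl K) w
  have inj : Function.Injective (io K : R →ₐ[ℂ] Cl K) :=
    (algebraMap K (Cl K)).injective.comp (IsFractionRing.injective R K)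
  have hv : ∀ r : R, r ≠ 0 → w'.v (io K r) = w.v (algebraMap R K r) := fun r hr =>
    hw' _ ((map_ne_zero_iff _ (IsFractionRing.injective R K)).2 hr)
  let S : Finset R := (Finset.univ.image π.y ∪ Finset.univ.image h) ∪
    {G.ρ π.y, MvPolynomial.aeval π.y A.Δ}
  have hS : ∀ r ∈ S, r ≠ 0 := fun r hr => by
    simp only [S, Finset.mem_union, Finset.mem_image, Finset.mem_univ, true_and,
      Finset.mem_insert, Finset.mem_singleton] at hr
    rcases hr with (⟨i, rfl⟩ | ⟨i, rfl⟩) | rfl | rfl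
    · exact π.ind.ne_zero i
    · exact h0 i
    · exact G.ρ_ne π
    · exact fun e => A.Δ_ne (π.ind (e.trans (map_zero _).symm))
  obtain ⟨f, M, C₀, hf, hM, hd, hC, hev⟩ := vind w' (fun i => io K (π.y i)) (π.ind.map' inj)
    (S.image (io K)) fun x hx => by
      obtain ⟨r, hr, rfl⟩ := Finset.mem_image.1 hx
      exact ⟨(map_ne_zero_iff _ inj).2 (hS r hr), (UVq_int π (io K) (fun i =>
        (⟨io K (π.y i), IntermediateField.subset_adjoin _ _ ⟨i, rfl⟩⟩ :
          IntermediateField.adjoin ℂ (Set.range fun i => io K (π.y i)))) (fun _ => rfl)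
          r).isAlgebraic⟩
  have hwt := UVq_wt G π w hA w' hw' f M hf hM hd
  have h1 : 0 < C₀ * C₀ ^ (1 / G.ω.m : ℝ) := mul_pos hC (Real.rpow_pos_of_pos hC _)
  have h2 : 0 ≤ n * C₀ := by positivity
  obtain ⟨C, c1, c2, c3⟩ : ∃ C : ℝ, C₀ ≤ C ∧ 1 + n * C₀ ≤ C ∧ C₀ * C₀ ^ (1 / G.ω.m : ℝ) ≤ C :=
    ⟨1 + n * C₀ + C₀ + C₀ * C₀ ^ (1 / G.ω.m : ℝ), by linarith, by linarith, by linarith⟩
  refine ⟨C, hC.trans_le c1, ?_⟩
  filter_upwards [hev, eventually_ge_atTop 0] with τ hτ hτ0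
  set b := C₀ * Real.exp (-τ * w'.v (io K (G.ρ π.y))) with hb
  let T : Set (π.W A.Δ) := {p | gr (π.at p.1) ≤ C ∧ ∀ i,
    C⁻¹ * Real.exp (-τ * w.v (algebraMap R K (h i))) ≤ ‖p.1 (h i)‖ ^ 2 ∧
    ‖p.1 (h i)‖ ^ 2 ≤ C * Real.exp (-τ * w.v (algebraMap R K (h i)))}
  have cr : ∀ r : R, Continuous fun p : π.W A.Δ => ‖p.1 r‖ ^ 2 := fun r =>
    ((Pt.cont r).comp continuous_subtype_val).norm.pow 2
  have hT : IsClosed (T ∩ {p | ‖p.1 (G.ρ π.y)‖ ^ 2 ≤ b}) := by
    have g1 : IsClosed {p : π.W A.Δ | gr (π.at p.1) ≤ C} := isClosed_le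
      (continuous_const.add (continuous_finsetSum _ fun i _ => cr (π.y i))) continuous_const
    have g2 : IsClosed {p : π.W A.Δ | ∀ i,
        C⁻¹ * Real.exp (-τ * w.v (algebraMap R K (h i))) ≤ ‖p.1 (h i)‖ ^ 2 ∧
        ‖p.1 (h i)‖ ^ 2 ≤ C * Real.exp (-τ * w.v (algebraMap R K (h i)))} := by
      rw [Set.ofPred_forall]
      exact isClosed_iInter fun i => (isClosed_le continuous_const (cr _)).and
        (isClosed_le (cr _) continuous_const)
    exact (g1.and g2).inter (isClosed_le (cr _) continuous_const)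
  have key := UVq_meas A hT.measurableSet (Q := {z : E n | ∃ P : Plc (Cl K),
      (∀ i, io K (π.y i) ∈ P.V ∧ P.ev (io K (π.y i)) = z i) ∧
        ∀ x ∈ S.image (io K), P.Bd w' C₀ τ x}) (fun z hz => by
    obtain ⟨P, p1, p2⟩ := hz
    have hm : ∀ r, io K r ∈ P.V := fun r => P.mem_of_integral
      (UVq_int π (io K) (fun i => (⟨io K (π.y i), (p1 i).1⟩ : P.V)) (fun _ => rfl) r)
    let p : Pt R := P.φ.comp ((io K).codRestrict P.V hm)
    have hp : ∀ r, p r = P.ev (io K r) := fun r => (P.VPl_ev (hm r)).symm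
    have hB : ∀ r ∈ S, P.Bd w' C₀ τ (io K r) := fun r hr => p2 _ (Finset.mem_image_of_mem _ hr)
    have hΔ : MvPolynomial.eval (π.at p) A.Δ ≠ 0 := by
      rw [← SAn2_aeval, hp]
      exact (Plc.VPl_ne (hB _ (by simp [S])) hC).1
    refine ⟨⟨p, hΔ⟩, ⟨⟨le_trans ?_ c2, fun i => ?_⟩, ?_⟩, funext fun i => (hp _).trans (p1 i).2⟩
    · have : ∀ i, ‖π.at p i‖ ^ 2 ≤ C₀ := fun i => by
        have q1 := (hB (π.y i) (by simp [S])).2.2
        have q2 : 0 ≤ w.v (algebraMap R K (π.y i)) := (hw _).resolve_left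
          ((map_ne_zero_iff _ (IsFractionRing.injective R K)).2 (π.ind.ne_zero i))
        rw [hv _ (π.ind.ne_zero i), ← hp] at q1
        refine q1.trans (mul_le_of_le_one_right hC.le (Real.exp_le_one_iff.2 ?_))
        nlinarith
      have q3 := Finset.sum_le_sum (s := Finset.univ) fun i _ => this i
      simp only [Finset.sum_const, Finset.card_univ, Fintype.card_fin, nsmul_eq_mul] at q3
      exact add_le_add_right q3 1
    · have q1 := ((hB (h i) (by simp [S])).mono hC c1).2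
      rwa [hv _ (h0 i), ← hp] at q1
    · have q1 := (hB (G.ρ π.y) (by simp [S])).2.2
      rwa [← hp] at q1) (ENNReal.ofReal (b ^ (-(1 / G.ω.m : ℝ))))
  have hb0 : 0 < b := mul_pos hC (Real.exp_pos _)
  refine le_trans ?_ (le_trans (le_trans (mul_le_mul_right hτ _) key)
    (le_trans (lintegral_mono fun p => ?_) (lintegral_indicator_le _ T)))
  · rw [← ENNReal.ofReal_mul (Real.rpow_pos_of_pos hb0 _).le]
    exact ENNReal.ofReal_le_ofReal (UVq_num hC hτ0 hwt c3)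
  · refine Set.indicator_apply_le' (fun hp => ?_) fun _ => zero_le
    rw [Set.indicator_of_mem hp.1, dens, neg_zero, Real.rpow_zero, mul_one]
    exact ENNReal.ofReal_le_ofReal (Real.rpow_le_rpow_of_nonpos
      (pow_pos (norm_pos_iff.2 (A.g_ne p)) 2) hp.2 (neg_nonpos.2 (by positivity)))

end Vale.Agent.P282
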