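import Vale.Agent.P282.SGr
import Vale.Agent.P282.UVq
import Vale.Agent.P282.AHart

set_option linter.unusedSectionVars false

open scoped ENNReal TensorProduct Topology
open Filter MeasureTheory

noncomputable section

namespace Vale.Agent.P282

variable {R K : Type} [CommRing R] [IsDomain R] [Algebra ℂ R] [Algebra.FiniteType ℂ R]
  [IsIntegrallyClosed R] [Field K] [Algebra R K] [IsFractionRing R K] [Algebra ℂ K]
  [IsScalarTower ℂ R K] {n : ℕ}

theorem SA2c_tend {π : Proj R n} {g : R} (A : An π g) {f : π.W A.Δ → ℝ≥0∞}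
    (H : ∫⁻ p, f p ∂A.S.μ ≠ ⊤) {u : R} (hu : u ≠ 0) {C : ℝ} (hC : 0 < C) :
    Tendsto (fun τ : ℝ => ∫⁻ p in {p : π.W A.Δ | ‖p.1 u‖ ^ 2 ≤ C * Real.exp (-τ)}, f p ∂A.S.μ)
      atTop (𝓝 0) := by
  have := isFiniteMeasure_withDensity H
  have hm : ∀ τ : ℝ, MeasurableSet {p : π.W A.Δ | ‖p.1 u‖ ^ 2 ≤ C * Real.exp (-τ)} := fun τ =>
    (isClosed_le (((Pt.cont u).comp continuous_subtype_val).norm.pow 2)
      continuous_const).measurableSet
  have h1 := tendsto_measure_iInter_atTop (μ := A.S.μ.withDensity f)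
    (s := fun τ : ℝ => {p : π.W A.Δ | ‖p.1 u‖ ^ 2 ≤ C * Real.exp (-τ)})
    (fun τ => (hm τ).nullMeasurableSet)
    (fun a b hab p hp => le_trans (b := C * Real.exp (-b)) (c := C * Real.exp (-a)) hp (by gcongr)) ⟨0, measure_ne_top _ _⟩
  have h2 : A.S.μ.withDensity f (⋂ τ : ℝ, {p : π.W A.Δ | ‖p.1 u‖ ^ 2 ≤ C * Real.exp (-τ)}) = 0 := by
    refine withDensity_absolutelyContinuous _ _ (measure_mono_null (fun p hp => ?_) (A.null_zero hu))
    have h3 : Tendsto (fun τ : ℝ => C * Real.exp (-τ)) atTop (𝓝 (C * 0)) :=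
      Real.tendsto_exp_neg_atTop_nhds_zero.const_mul C
    have h4 := ge_of_tendsto' h3 fun τ => Set.mem_iInter.1 hp τ
    rw [mul_zero] at h4
    exact norm_eq_zero.1 (pow_eq_zero_iff two_ne_zero |>.1 (le_antisymm h4 (sq_nonneg _)))
  rw [h2] at h1
  exact h1.congr fun τ => withDensity_apply _ (hm τ)

theorem SA2c_num {C τ a b x y : ℝ} (hC : 0 < C) (hτ : 0 ≤ τ) (hab : a + 1 ≤ b)
    (h1 : C⁻¹ * Real.exp (-τ * a) ≤ x) (h2 : C⁻¹ * Real.exp (-τ * b) ≤ y)
    (h3 : y ≤ C * Real.exp (-τ * b)) : C⁻¹ * C⁻¹ * Real.exp τ ≤ x / y := by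
  have hy : 0 < y := lt_of_lt_of_le (by positivity) h2
  rw [le_div_iff₀ hy]
  refine le_trans ?_ h1
  calc C⁻¹ * C⁻¹ * Real.exp τ * y ≤ C⁻¹ * C⁻¹ * Real.exp τ * (C * Real.exp (-τ * b)) := by gcongr
    _ = C⁻¹ * Real.exp (τ + -τ * b) := by rw [Real.exp_add]; field_simp
    _ ≤ _ := by gcongr; nlinarith

theorem SA2c_gr {C x M : ℝ} (h1 : 1 ≤ x) (h2 : x ≤ C) : min 1 (C ^ (-M)) ≤ x ^ (-M) := by
  rcases le_total 0 M with h | h
  · exact (min_le_right _ _).trans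
      (Real.rpow_le_rpow_of_nonpos (by linarith) h2 (by linarith))
  · exact (min_le_left _ _).trans (Real.one_le_rpow h1 (by linarith))

theorem a2_reg (G : WS R K n) (π : Proj R n) (A : An π (G.ρ π.y)) {h d : R} (hd : d ≠ 0) {M : ℝ}
    (H : ∫⁻ p, ENNReal.ofReal (‖p.1 h / p.1 d‖ ^ 2 * dens G π M p.1) ∂A.S.μ ≠ ⊤) : d ∣ h := by
  by_cases hh : h = 0
  · rw [hh]; exact dvd_zero d
  have inj := IsFractionRing.injective R K
  have hd' : algebraMap R K d ≠ 0 := (map_ne_zero_iff _ inj).2 hd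
  have hh' : algebraMap R K h ≠ 0 := (map_ne_zero_iff _ inj).2 hh
  obtain ⟨r, hr⟩ := hartogs (R := R) (a := algebraMap R K h / algebraMap R K d) fun p _ hp => by
    obtain ⟨w, hw, h3, ⟨u, hu, hu1⟩, h2⟩ := exists_ord (K := K) p hp
    have hA := A_ord_le G p hp hw ⟨u, hu, hu1⟩ h2 h3
    have hA0 := G.klt w ⟨_, (map_ne_zero_iff _ inj).2 hu, by rw [hu1]; exact one_ne_zero⟩ hw.1
    have hA1 : (G.ω.A w).toReal ≤ 1 :=
      EReal.toReal_le_toReal hA (ne_bot_of_gt hA0) (EReal.coe_ne_top _)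
    rw [h3]
    refine Or.inr (not_lt.1 fun hn => ?_)
    have hab : w.v (algebraMap R K h) + 1 ≤ w.v (algebraMap R K d) := by
      obtain ⟨k, hk⟩ := h2 _ (div_ne_zero hh' hd')
      have h5 := w.v_div _ _ hh' hd'
      rw [hk] at hn h5
      have h6 : k + 1 ≤ 0 := by exact_mod_cast (show k < 0 by exact_mod_cast hn)
      have h7 : (k : ℝ) + 1 ≤ 0 := by exact_mod_cast h6
      linarith
    obtain ⟨C, hC, hv⟩ := vq G π A w hw.1 (ne_top_of_le_ne_top (EReal.coe_ne_top _) hA)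
      ![h, d, u] (fun i => by fin_cases i <;> assumption)
    have hc : 0 < min 1 (C ^ (-M)) := lt_min one_pos (by positivity)
    set c := min 1 (C ^ (-M)) with hcd
    have h0 : 0 < ENNReal.ofReal (C⁻¹ * C⁻¹ * c * C⁻¹) := ENNReal.ofReal_pos.2 (by positivity)
    obtain ⟨τ, ⟨k1, k2⟩, hτ⟩ := ((hv.and ((SA2c_tend A H hu hC).eventually (gt_mem_nhds h0))).and
      (eventually_ge_atTop 0)).exists
    refine absurd k2 (not_lt.2 ?_)
    set Q := {p : π.W A.Δ | gr (π.at p.1) ≤ C ∧ ∀ i,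
      C⁻¹ * Real.exp (-τ * w.v (algebraMap R K (![h, d, u] i))) ≤ ‖p.1 (![h, d, u] i)‖ ^ 2 ∧
      ‖p.1 (![h, d, u] i)‖ ^ 2 ≤ C * Real.exp (-τ * w.v (algebraMap R K (![h, d, u] i)))} with hQ
    have hm : MeasurableSet Q := by
      have c1 : ∀ r : R, Continuous fun p : π.W A.Δ => ‖p.1 r‖ ^ 2 := fun r =>
        ((Pt.cont r).comp continuous_subtype_val).norm.pow 2
      refine IsClosed.measurableSet (IsClosed.and (isClosed_le
        (gr_cont.comp (π.at_cont.comp continuous_subtype_val)) continuous_const) ?_)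
      rw [Set.ofPred_forall]
      exact isClosed_iInter fun i => (isClosed_le continuous_const (c1 _)).and
        (isClosed_le (c1 _) continuous_const)
    calc ENNReal.ofReal (C⁻¹ * C⁻¹ * c * C⁻¹)
        ≤ ENNReal.ofReal (C⁻¹ * C⁻¹ * Real.exp τ * c) *
          ENNReal.ofReal (C⁻¹ * Real.exp (-τ * (G.ω.A w).toReal)) := by
          rw [← ENNReal.ofReal_mul (by positivity)]
          refine ENNReal.ofReal_le_ofReal ?_
          have h5 : 1 ≤ Real.exp τ * Real.exp (-τ * (G.ω.A w).toReal) := by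
            rw [← Real.exp_add]; exact Real.one_le_exp (by nlinarith)
          calc _ = C⁻¹ * C⁻¹ * c * C⁻¹ * 1 := (mul_one _).symm
            _ ≤ C⁻¹ * C⁻¹ * c * C⁻¹ * (Real.exp τ * Real.exp (-τ * (G.ω.A w).toReal)) := by gcongr
            _ = _ := by ring
      _ ≤ ENNReal.ofReal (C⁻¹ * C⁻¹ * Real.exp τ * c) *
          ∫⁻ p in Q, ENNReal.ofReal (dens G π 0 p.1) ∂A.S.μ := by gcongr
      _ = ∫⁻ p in Q, ENNReal.ofReal (C⁻¹ * C⁻¹ * Real.exp τ * c) *
          ENNReal.ofReal (dens G π 0 p.1) ∂A.S.μ :=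
          (lintegral_const_mul' _ _ ENNReal.ofReal_ne_top).symm
      _ ≤ ∫⁻ p in Q, ENNReal.ofReal (‖p.1 h / p.1 d‖ ^ 2 * dens G π M p.1) ∂A.S.μ := by
          refine setLIntegral_mono' hm fun q hq => ?_
          rw [← ENNReal.ofReal_mul (by positivity)]
          refine ENNReal.ofReal_le_ofReal ?_
          have h5 := SA2c_num hC hτ hab (hq.2 0).1 (hq.2 1).1 (hq.2 1).2
          have h6 := SA2c_gr (M := M) (one_le_gr (π.at q.1)) hq.1
          have h7 := dens_add G π 0 M q.1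
          have h8 := dens_nonneg G π 0 q.1
          rw [zero_add] at h7
          rw [h7, norm_div, div_pow]
          calc _ = C⁻¹ * C⁻¹ * Real.exp τ * (dens G π 0 q.1 * c) := by ring
            _ ≤ _ := mul_le_mul h5 (mul_le_mul_of_nonneg_left h6 h8) (by positivity) (by positivity)
      _ ≤ _ := by
          refine lintegral_mono_set fun q hq => ?_
          have h5 : ‖q.1 u‖ ^ 2 ≤ C * Real.exp (-τ * w.v (algebraMap R K u)) := (hq.2 2).2
          rwa [hu1, mul_one] at h5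
  refine ⟨r, inj ?_⟩
  rw [map_mul, hr, mul_div_cancel₀ _ hd']

end Vale.Agent.P282
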