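import Vale.Agent.P282.SA2b
import Vale.Agent.P282.SA2c

set_option linter.unusedSectionVars false

open scoped ENNReal TensorProduct Topology
open Filter MeasureTheory

noncomputable section

namespace Vale.Agent.P282

variable {R K : Type} [CommRing R] [IsDomain R] [Algebra ℂ R] [Algebra.FiniteType ℂ R]
  [IsIntegrallyClosed R] [Field K] [Algebra R K] [IsFractionRing R K] [Algebra ℂ K]
  [IsScalarTower ℂ R K] {n : ℕ}

/-- square integrable holomorphic functions -/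
theorem a2 (G : WS R K n) (π : Proj R n) (A : An π (G.ρ π.y)) (M : ℝ) : ∃ V : Submodule ℂ R,
    FiniteDimensional ℂ V ∧ ∀ F : π.W A.Δ → ℂ, A.S.HolS F →
      ∫⁻ p, ENNReal.ofReal (‖F p‖ ^ 2 * dens G π M p.1) ∂A.S.μ ≠ ⊤ →
      ∃ h ∈ V, ∀ p, F p = p.1 h := by
  by_cases hδ : A.δ = 0
  · exact ⟨⊥, inferInstance, fun F _ _ => ⟨0, Submodule.zero_mem _, fun p =>
      absurd (by rw [hδ, map_zero]) (A.δ_ne p)⟩⟩
  obtain ⟨C, s, hC, hd⟩ := dens_ge G π
  obtain ⟨V, hV, H⟩ := A.a2_frac (M + s)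
  have hinj : Function.Injective (LinearMap.mulLeft ℂ A.δ) := mul_right_injective₀ hδ
  refine ⟨V.comap (LinearMap.mulLeft ℂ A.δ), ?_, fun F hF hI => ?_⟩
  · refine FiniteDimensional.of_injective
      ((LinearMap.mulLeft ℂ A.δ).restrict (p := V.comap (LinearMap.mulLeft ℂ A.δ)) (q := V)
        fun x hx => hx) fun x y hxy => Subtype.ext (hinj (congrArg Subtype.val hxy))
  have h1 : ∫⁻ p, ENNReal.ofReal (‖F p‖ ^ 2 * gr (π.at p.1) ^ (-(M + s))) ∂A.S.μ ≠ ⊤ := by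
    refine ne_top_of_le_ne_top (ENNReal.mul_ne_top (ENNReal.ofReal_ne_top (r := C)) hI) ?_
    rw [← lintegral_const_mul' _ _ ENNReal.ofReal_ne_top]
    refine lintegral_mono fun p => ?_
    rw [← ENNReal.ofReal_mul hC.le, mul_left_comm]
    exact ENNReal.ofReal_le_ofReal
      (mul_le_mul_of_nonneg_left (hd M p.1 (A.g_ne p)) (sq_nonneg _))
  obtain ⟨h, hh, e⟩ := H F hF h1
  have e1 : ∀ p, F p = p.1 h / p.1 A.δ := fun p => by rw [← e p, mul_div_cancel_right₀ _ (A.δ_ne p)]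
  obtain ⟨r, rfl⟩ := a2_reg G π A (h := h) hδ (M := M) (by simpa only [← e1] using hI)
  refine ⟨r, hh, fun p => ?_⟩
  rw [e1, map_mul, mul_div_cancel_left₀ _ (A.δ_ne p)]

end Vale.Agent.P282
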