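import Vale.Agent.P282.ORad
import Vale.Agent.P282.SA2

set_option linter.unusedSectionVars false

open scoped ENNReal TensorProduct Topology
open Filter MeasureTheory

noncomputable section

namespace Vale.Agent.P282

variable {R K : Type} [CommRing R] [IsDomain R] [Algebra ℂ R] [Algebra.FiniteType ℂ R]
  [IsIntegrallyClosed R] [Field K] [Algebra R K] [IsFractionRing R K] [Algebra ℂ K]
  [IsScalarTower ℂ R K] {n : ℕ}

variable {G : WS R K n} {π : Proj R n} {z : Fin (n + 1) → R}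

variable (A : An π (G.ρ π.y))


theorem OA2_abs {X : Type} [MeasurableSpace X] (ν : Measure X) {f : X → ℝ≥0∞} (hf : Measurable f)
    (hI : ∫⁻ p, f p ∂ν ≠ ⊤) {N : X → ℝ} (hN : Measurable N) (T : ℕ → X → X)
    (hT : ∀ k, Measurable (T k)) (κ κ' : ℕ → ℝ≥0∞) (hκ : ∀ k, ν.map (T k) = κ' k • ν)
    (hκ' : ∀ k, κ k * κ' k = 1) :
    ∀ᵐ p ∂ν, liminf (fun k : ℕ => κ k * (if (k : ℝ) ≤ N (T k p) then f (T k p) else 0)) atTop =
      0 := by
  obtain ⟨F, hF⟩ : ∃ F : ℕ → X → ℝ≥0∞, F = fun (k : ℕ) p => if (k : ℝ) ≤ N p then f p else 0 :=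
    ⟨_, rfl⟩
  have hm : ∀ k, Measurable (F k) := fun k => by
    rw [hF]
    exact Measurable.ite (measurableSet_le measurable_const hN) hf measurable_const
  have h1 : Tendsto (fun k => ∫⁻ p, F k p ∂ν) atTop (𝓝 (∫⁻ _, 0 ∂ν)) := by
    refine tendsto_lintegral_of_dominated_convergence f hm (fun k => .of_forall fun p => ?_) hI
      (.of_forall fun p => ?_)
    · rw [hF]
      dsimp only
      split_ifs
      · exact le_rfl
      · exact zero_le
    · obtain ⟨k₀, hk⟩ := exists_nat_gt (N p)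
      refine tendsto_const_nhds.congr' ((eventually_ge_atTop k₀).mono fun k hk' => ?_)
      rw [hF]
      exact (if_neg (not_le.mpr (hk.trans_le (Nat.cast_le.mpr hk')))).symm
  rw [lintegral_zero] at h1
  have hm' : ∀ k, Measurable fun p => κ k * F k (T k p) := fun k =>
    ((hm k).comp (hT k)).const_mul _
  have h2 : ∀ k, ∫⁻ p, κ k * F k (T k p) ∂ν = ∫⁻ p, F k p ∂ν := fun k => by
    rw [lintegral_const_mul _ (by exact (hm k).comp (hT k)), ← lintegral_map (hm k) (hT k), hκ,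
      lintegral_smul_measure, smul_eq_mul, ← mul_assoc, hκ', one_mul]
  have h3 := lintegral_liminf_le (μ := ν) (u := atTop) hm'
  simp only [h2, h1.liminf_eq, nonpos_iff_eq_zero] at h3
  have h4 := (lintegral_eq_zero_iff (Measurable.liminf hm')).mp h3
  rw [hF] at h4
  exact h4

theorem OA2_ineq (a : ℕ → ℂ) (J m : ℕ) {N c : ℝ} (hN : 0 < N) (hc : 1 ≤ c) :
    ‖∑ j ∈ Finset.range (J + 2), ((1 / c : ℝ) : ℂ) ^ (J + 1 - j) * a j‖ ^ 2 /
        ((1 / c) ^ 2 + N) ^ (m + 1) ≤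
      (c ^ 2) ^ m * (‖∑ j ∈ Finset.range (J + 2), (c : ℂ) ^ j * a j‖ ^ 2 /
        (1 + c ^ 2 * N) ^ (m + 1)) := by
  have hc0 : 0 < c := one_pos.trans_le hc
  have h1 : ∑ j ∈ Finset.range (J + 2), ((1 / c : ℝ) : ℂ) ^ (J + 1 - j) * a j =
      ((1 / c : ℝ) : ℂ) ^ (J + 1) * ∑ j ∈ Finset.range (J + 2), (c : ℂ) ^ j * a j := by
    rw [Finset.mul_sum]
    refine Finset.sum_congr rfl fun j hj => ?_
    have h2 : j ≤ J + 1 := Nat.lt_succ_iff.mp (Finset.mem_range.mp hj)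
    have h3 : ((1 / c : ℝ) : ℂ) * c = 1 := by
      rw [← Complex.ofReal_mul, one_div_mul_cancel hc0.ne', Complex.ofReal_one]
    conv_rhs => rw [← Nat.sub_add_cancel h2, pow_add, mul_assoc, ← mul_assoc _ _ (a j), ← mul_pow,
      h3, one_pow, one_mul]
  rw [h1, norm_mul, norm_pow, Complex.norm_real, Real.norm_of_nonneg (by positivity)]
  obtain ⟨S, hS⟩ : ∃ S, S = ‖∑ j ∈ Finset.range (J + 2), (c : ℂ) ^ j * a j‖ := ⟨_, rfl⟩
  rw [← hS]
  have h4 : (1 / c) ^ (J + 1) ≤ 1 / c := by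
    rw [pow_succ]
    exact mul_le_of_le_one_left (by positivity)
      (pow_le_one₀ (by positivity) (div_le_one_of_le₀ hc hc0.le))
  have h5 : ((1 / c) ^ (J + 1) * S) ^ 2 ≤ (1 / c) ^ 2 * S ^ 2 := by
    rw [mul_pow]
    exact mul_le_mul_of_nonneg_right (pow_le_pow_left₀ (by positivity) h4 2) (sq_nonneg S)
  refine (div_le_div_of_nonneg_right h5 (by positivity)).trans_eq ?_
  have h6 : (1 / c) ^ 2 + N = (1 + c ^ 2 * N) / c ^ 2 := by field_simp
  rw [h6, div_pow (1 + c ^ 2 * N), pow_succ (c ^ 2)]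
  field_simp

theorem OA2_pt (a : ℕ → ℂ) (J m : ℕ) {N : ℝ} (hN : 0 < N)
    (h : liminf (fun k : ℕ => ENNReal.ofReal ((((k : ℝ) + 1) ^ 2) ^ m) *
      (if (k : ℝ) ≤ ((k : ℝ) + 1) ^ 2 * N then ENNReal.ofReal
        (‖∑ j ∈ Finset.range (J + 2), (((k : ℝ) + 1 : ℝ) : ℂ) ^ j * a j‖ ^ 2 /
          (1 + ((k : ℝ) + 1) ^ 2 * N) ^ (m + 1)) else 0)) atTop = 0) : a (J + 1) = 0 := by
  have hc : Continuous fun u : ℝ => ENNReal.ofReal
      (‖∑ j ∈ Finset.range (J + 2), (u : ℂ) ^ (J + 1 - j) * a j‖ ^ 2 / (u ^ 2 + N) ^ (m + 1)) := by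
    refine ENNReal.continuous_ofReal.comp (Continuous.div ?_ (by fun_prop) fun u => by positivity)
    exact (continuous_finsetSum _ fun j _ => by fun_prop).norm.pow 2
  have h1 := ((hc.tendsto 0).comp tendsto_one_div_add_atTop_nhds_zero_nat).liminf_eq
  have h2 : ∑ j ∈ Finset.range (J + 2), ((0 : ℝ) : ℂ) ^ (J + 1 - j) * a j = a (J + 1) := by
    rw [Finset.sum_range_succ, Nat.sub_self, pow_zero, one_mul, Finset.sum_eq_zero, zero_add]
    intro j hj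
    rw [Complex.ofReal_zero, zero_pow (Nat.sub_ne_zero_of_lt (Finset.mem_range.mp hj)), zero_mul]
  rw [h2] at h1
  obtain ⟨k₀, hk₀⟩ := exists_nat_ge (1 / N)
  have h3 := h1.symm.le.trans ((liminf_le_liminf ((eventually_ge_atTop k₀).mono fun k hk => by
    have h4 : (0 : ℝ) ≤ k := Nat.cast_nonneg k
    have h5 : 1 ≤ ((k : ℝ) + 1) * N := by
      have h6 : (k₀ : ℝ) ≤ k := Nat.cast_le.mpr hk
      rw [div_le_iff₀ hN] at hk₀
      nlinarith
    rw [if_pos (by nlinarith), ← ENNReal.ofReal_mul (by positivity)]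
    exact ENNReal.ofReal_le_ofReal (OA2_ineq a J m hN (by linarith)))).trans h.le)
  rw [nonpos_iff_eq_zero, ENNReal.ofReal_eq_zero, div_nonpos_iff] at h3
  have h7 : 0 < ((0 : ℝ) ^ 2 + N) ^ (m + 1) := by positivity
  have h8 : ‖a (J + 1)‖ ^ 2 ≤ 0 := by
    rcases h3 with h3 | h3
    · exact absurd h3.2 (not_le.mpr h7)
    · exact h3.1
  exact norm_eq_zero.mp (pow_eq_zero_iff two_ne_zero |>.mp (le_antisymm h8 (sq_nonneg _)))

theorem OA2_meas (z : Fin (n + 1) → R) (r : R) :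
    Measurable fun p : Pt R => ENNReal.ofReal (‖p r‖ ^ 2 / (1 + nz z p) ^ n) :=
  ((((Pt.cont r).norm.pow 2).measurable).div
    ((continuous_const.add (nz_cont z)).pow n).measurable).ennreal_ofReal

theorem OA2_top (h : Cone G π z) (ρ : ℕ → R) (hρ : ∀ j, ρ j ∈ Rj z j) (J : ℕ)
    (hr : ∫⁻ p : Pt R, ENNReal.ofReal (‖p (∑ j ∈ Finset.range (J + 2), ρ j)‖ ^ 2 /
      (1 + nz z p) ^ n) ∂A.nu G ≠ ⊤) : ρ (J + 1) = 0 := by
  by_contra hne
  have hc : ∀ k : ℕ, (((k : ℝ) + 1 : ℝ) : ℂ) ≠ 0 := fun k =>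
    Complex.ofReal_ne_zero.mpr (by positivity)
  have hn : ∀ k : ℕ, ‖(((k : ℝ) + 1 : ℝ) : ℂ)‖ = (k : ℝ) + 1 := fun k => by
    rw [Complex.norm_real, Real.norm_of_nonneg (by positivity)]
  choose φ h1 h2 h3 using fun k : ℕ => h.scale A (hc k)
  simp only [hn] at h2 h3
  have h4 := OA2_abs (A.nu G) (OA2_meas z _) hr (nz_cont z).measurable (fun k => Pt.pull (φ k))
    (fun k => (Pt.pull_cont _).measurable)
    (fun k => ENNReal.ofReal ((((k : ℝ) + 1) ^ 2) ^ (n - 1))) _ h3 fun k => by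
      rw [← ENNReal.ofReal_mul (by positivity), ← mul_pow, mul_inv_cancel₀ (by positivity),
        one_pow, ENNReal.ofReal_one]
  have h5 : ∀ k (p : Pt R), Pt.pull (φ k) p (∑ j ∈ Finset.range (J + 2), ρ j) =
      ∑ j ∈ Finset.range (J + 2), (((k : ℝ) + 1 : ℝ) : ℂ) ^ j * p (ρ j) := fun k p => by
    rw [map_sum]
    refine Finset.sum_congr rfl fun j _ => ?_
    change p (φ k (ρ j)) = _
    rw [h1 k j _ (hρ j), map_smul, smul_eq_mul]
  simp only [h2, h5] at h4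
  obtain ⟨C, hC⟩ := Rj_le (hρ (J + 1))
  obtain ⟨m, rfl⟩ : ∃ m, n = m + 1 := ⟨n - 1, by have := h.two; omega⟩
  have h6 : ∀ᵐ p ∂A.nu G, p (ρ (J + 1)) = 0 := h4.mono fun p hp => by
    rcases (nz_nonneg z p).eq_or_lt with h0 | h0
    · have h7 := hC p
      rw [← h0, zero_pow (Nat.succ_ne_zero J), mul_zero] at h7
      exact norm_eq_zero.mp (pow_eq_zero_iff two_ne_zero |>.mp (le_antisymm h7 (sq_nonneg _)))
    · exact OA2_pt (fun j => p (ρ j)) J m h0 hp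
  refine A.nu_ne G (Measure.measure_univ_eq_zero.mp ?_)
  rw [← Set.union_compl_self {p : Pt R | p (ρ (J + 1)) = 0}]
  exact measure_union_null (A.nu_null G hne) h6

theorem OA2_ind (h : Cone G π z) (ρ : ℕ → R) (hρ : ∀ j, ρ j ∈ Rj z j) (J : ℕ)
    (hr : ∫⁻ p : Pt R, ENNReal.ofReal (‖p (∑ j ∈ Finset.range (J + 1), ρ j)‖ ^ 2 /
      (1 + nz z p) ^ n) ∂A.nu G ≠ ⊤) : ∑ j ∈ Finset.range (J + 1), ρ j = ρ 0 := by
  induction J with
  | zero => exact Finset.sum_range_one ρ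
  | succ J ih =>
    have h1 := OA2_top A h ρ hρ J hr
    rw [Finset.sum_range_succ, h1, add_zero] at hr ⊢
    exact ih hr

theorem Cone.const_of_int (h : Cone G π z) {r : R}
    (hr : ∫⁻ p : Pt R, ENNReal.ofReal (‖p r‖ ^ 2 / (1 + nz z p) ^ n) ∂A.nu G ≠ ⊤) :
    ∃ c : ℂ, r = algebraMap ℂ R c := by
  have h1 : r ∈ (MvPolynomial.aeval z : MvPolynomial (Fin (n + 1)) ℂ →ₐ[ℂ] R).range := by
    rw [← Algebra.adjoin_range_eq_range_aeval, h.gen]
    trivial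
  obtain ⟨P, rfl⟩ := h1
  have h2 : (MvPolynomial.aeval z : MvPolynomial (Fin (n + 1)) ℂ →ₐ[ℂ] R).toRingHom P =
      ∑ j ∈ Finset.range (P.totalDegree + 1),
        MvPolynomial.aeval z (MvPolynomial.homogeneousComponent j P) := by
    rw [← map_sum, MvPolynomial.sum_homogeneousComponent]
    rfl
  rw [h2] at hr ⊢
  rw [OA2_ind A h (fun j => MvPolynomial.aeval z (MvPolynomial.homogeneousComponent j P))
    (fun j => ⟨_, MvPolynomial.homogeneousComponent_mem j P, rfl⟩) _ hr,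
    MvPolynomial.homogeneousComponent_zero, MvPolynomial.aeval_C]
  exact ⟨_, rfl⟩

theorem Cone.a2 (h : Cone G π z) {F : π.W A.Δ → ℂ} (hF : A.S.HolS F)
    (hr : ∫⁻ p, ENNReal.ofReal (‖F p‖ ^ 2 / (1 + nz z p.1) ^ n * dens G π 0 p.1) ∂A.S.μ ≠ ⊤) :
    ∃ c : ℂ, ∀ p, F p = c := by
  obtain ⟨V, -, hV⟩ := Vale.Agent.P282.a2 G π A n
  have h1 : ∫⁻ p, ENNReal.ofReal (‖F p‖ ^ 2 * dens G π n p.1) ∂A.S.μ ≠ ⊤ := by
    refine ne_top_of_le_ne_top (ENNReal.mul_ne_top (ENNReal.ofReal_ne_top (r := 2 ^ n)) hr) ?_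
    rw [← lintegral_const_mul' _ _ ENNReal.ofReal_ne_top]
    refine lintegral_mono fun p => ?_
    rw [← ENNReal.ofReal_mul (by positivity)]
    refine ENNReal.ofReal_le_ofReal ?_
    have h2 := dens_add G π 0 n p.1
    rw [zero_add, Real.rpow_neg (SGr_pos _).le, Real.rpow_natCast] at h2
    have h3 : 0 < 1 + nz z p.1 := add_pos_of_pos_of_nonneg one_pos (nz_nonneg z _)
    have h4 : (gr (π.at p.1) ^ n)⁻¹ ≤ 2 ^ n / (1 + nz z p.1) ^ n := by
      rw [inv_eq_one_div, div_le_div_iff₀ (pow_pos (SGr_pos _) n) (pow_pos h3 n), one_mul,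
        ← mul_pow]
      exact pow_le_pow_left₀ h3.le (h.gr_le p.1).2 n
    have h5 := mul_le_mul_of_nonneg_left h4 (mul_nonneg (sq_nonneg ‖F p‖) (dens_nonneg G π 0 p.1))
    rw [h2, ← mul_assoc]
    refine h5.trans_eq ?_
    ring
  obtain ⟨r, -, hr'⟩ := hV F hF h1
  obtain ⟨c, hc⟩ := h.const_of_int A (r := r) (by
    rw [A.lint_nu G (OA2_meas z r)]
    refine ne_of_eq_of_ne (lintegral_congr fun p => ?_) hr
    rw [hr' p, ENNReal.ofReal_mul (div_nonneg (sq_nonneg _)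
      (pow_nonneg (add_nonneg zero_le_one (nz_nonneg z _)) n))])
  refine ⟨c, fun p => ?_⟩
  rw [hr' p, hc]
  exact AlgHomClass.commutes p.1 c

end Vale.Agent.P282
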