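import Vale.Agent.P282.AVol

set_option linter.unusedSectionVars false

open scoped ENNReal TensorProduct Topology
open Filter MeasureTheory

noncomputable section

namespace Vale.Agent.P282

variable {R K : Type} [CommRing R] [IsDomain R] [Algebra ℂ R] [Algebra.FiniteType ℂ R]
  [IsIntegrallyClosed R] [Field K] [Algebra R K] [IsFractionRing R K] [Algebra ℂ K]
  [IsScalarTower ℂ R K] {n : ℕ}

open Classical in
/-- orthonormal families adapted to a chain of subspaces -/
theorem OAd_chain {E : Type} [NormedAddCommGroup E] [InnerProductSpace ℂ E]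
    [FiniteDimensional ℂ E] (F : ℝ → Submodule ℂ E) (hF : ∀ s t, F s ≤ F t ∨ F t ≤ F s) (k : ℕ) :
    ∀ U : Submodule ℂ E, Module.finrank ℂ U = k → ∃ s : Fin k → E, Orthonormal ℂ s ∧
      (∀ i, s i ∈ U) ∧ ∀ t, Module.finrank ℂ (F t ⊓ U : Submodule ℂ E) ≤
        ∑ i, (if s i ∈ F t then 1 else 0) := by
  classical
  induction k with
  | zero =>
    intro U hU
    refine ⟨fun i => i.elim0, Orthonormal.of_isEmpty _, fun i => i.elim0, fun t => ?_⟩
    have h := Submodule.finrank_mono (inf_le_right : F t ⊓ U ≤ U)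
    omega
  | succ k ih =>
    intro U hU
    obtain ⟨G, hG, hmax⟩ := (wellFounded_gt (α := Submodule ℂ E)).has_min
      {G | G = ⊥ ∨ ∃ t, G = F t ⊓ U ∧ G ≠ U} ⟨⊥, Or.inl rfl⟩
    have hGU : G ≤ U ∧ G ≠ U := by
      rcases hG with rfl | ⟨t, rfl, h⟩
      · refine ⟨bot_le, fun h => ?_⟩
        rw [← h, finrank_bot] at hU
        omega
      · exact ⟨inf_le_right, h⟩
    have hle : ∀ t, F t ⊓ U ≠ U → F t ⊓ U ≤ G := by
      intro t ht
      have h1 := hmax _ (Or.inr ⟨t, rfl, ht⟩)
      have h2 : F t ⊓ U ≤ G ∨ G ≤ F t ⊓ U := by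
        rcases hG with rfl | ⟨t', rfl, -⟩
        · exact Or.inr bot_le
        · exact (hF t t').imp (inf_le_inf_right U) (inf_le_inf_right U)
      rcases h2 with h2 | h2
      · exact h2
      · exact (h2.eq_or_lt.resolve_right h1).ge
    have hne : Gᗮ ⊓ U ≠ ⊥ := fun h => by
      have h1 := Submodule.sup_orthogonal_inf_of_hasOrthogonalProjection hGU.1
      rw [h, sup_bot_eq] at h1
      exact hGU.2 h1
    obtain ⟨u0, hu0, hu0'⟩ := Submodule.exists_mem_ne_zero_of_ne_bot hne
    obtain ⟨u, hu, hu1⟩ : ∃ u, u ∈ Gᗮ ⊓ U ∧ ‖u‖ = 1 :=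
      ⟨((‖u0‖⁻¹ : ℝ) : ℂ) • u0, Submodule.smul_mem _ _ hu0, by
        rw [norm_smul, Complex.norm_real, norm_inv, norm_norm,
          inv_mul_cancel₀ (norm_ne_zero_iff.2 hu0')]⟩
    have hune : u ≠ 0 := fun h => by
      rw [h, norm_zero] at hu1
      exact zero_ne_one hu1
    have hsp : (ℂ ∙ u) ≤ U := (Submodule.span_singleton_le_iff_mem _ _).2 hu.2
    have hH : Module.finrank ℂ ((ℂ ∙ u)ᗮ ⊓ U : Submodule ℂ E) = k :=
      Submodule.finrank_add_inf_finrank_orthogonal' hsp (by
        rw [finrank_span_singleton hune, hU, add_comm])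
    obtain ⟨s, hs, hsU, hst⟩ := ih _ hH
    refine ⟨Matrix.vecCons u s, orthonormal_vecCons_iff.2 ⟨hu1, fun i =>
      Submodule.mem_orthogonal_singleton_iff_inner_right.1 (hsU i).1, hs⟩,
      Fin.forall_fin_succ.2 ⟨hu.2, fun i => (hsU i).2⟩, fun t => ?_⟩
    rw [Fin.sum_univ_succ]
    show _ ≤ (if u ∈ F t then 1 else 0) + ∑ i, (if s i ∈ F t then 1 else 0)
    by_cases ht : F t ⊓ U = U
    · have h1 : U ≤ F t := inf_eq_right.1 ht
      rw [ht, hU, if_pos (h1 hu.2), Finset.sum_congr rfl fun i _ => if_pos (h1 (hsU i).2)]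
      simp [add_comm]
    · have h1 : F t ⊓ U ≤ F t ⊓ ((ℂ ∙ u)ᗮ ⊓ U) := fun y hy =>
        ⟨hy.1, Submodule.mem_orthogonal_singleton_iff_inner_left.2
          (Submodule.inner_right_of_mem_orthogonal (hle t ht hy) hu.1), hy.2⟩
      exact ((Submodule.finrank_mono h1).trans (hst t)).trans (Nat.le_add_left _ _)

/-- unitary changes of a basis adapted to a valuation -/
theorem exists_adapted {ι : Type} [Fintype ι] [DecidableEq ι] {e : ι → R}
    (he : LinearIndependent ℂ e) (x : Pt R) {w : RVal K} (hw : w.CenteredAt x.m) :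
    ∃ U : Matrix ι ι ℂ, U * U.conjTranspose = 1 ∧ (∀ i, ∑ a, U i a • e a ≠ 0) ∧ ∀ t : ℝ,
      {i | w.v (algebraMap R K (∑ a, U i a • e a)) < t}.ncard ≤
        Module.finrank ℂ (R ⧸ w.sub R t) := by
  classical
  let T : EuclideanSpace ℂ ι →ₗ[ℂ] R :=
    (Fintype.linearCombination ℂ e).comp (WithLp.linearEquiv 2 ℂ (ι → ℂ)).toLinearMap
  have hT : ∀ c, T c = ∑ a, c a • e a := fun c => Fintype.linearCombination_apply ℂ e _
  obtain ⟨s, hs, -, hst⟩ := OAd_chain (fun t => (w.sub R t).comap T)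
    (fun s t => (le_total s t).symm.imp (fun h _ hr => RVal.Ge.mono hr h)
      fun h _ hr => RVal.Ge.mono hr h) (Fintype.card ι) ⊤
    (by rw [finrank_top, finrank_euclideanSpace])
  let σ := Fintype.equivFin ι
  have hs' : Orthonormal ℂ fun i => s (σ i) := hs.comp σ σ.injective
  have hne : ∀ i, T (s (σ i)) ≠ 0 := fun i h => by
    rw [hT] at h
    refine hs'.ne_zero i ?_
    ext a
    exact Fintype.linearIndependent_iff.1 he _ h a
  refine ⟨Matrix.of fun i a => s (σ i) a, ?_, fun i => ?_, fun t => ?_⟩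
  · ext i j
    have h := orthonormal_iff_ite.1 hs' j i
    rw [PiLp.inner_apply] at h
    rw [Matrix.mul_apply, Matrix.one_apply]
    simp only [Matrix.conjTranspose_apply, Matrix.of_apply, eq_comm (a := i), ← h]
    rfl
  · have h := hne i
    rwa [hT] at h
  · have := (len_eq x hw t).1
    have h1 := hst t
    rw [inf_top_eq, ← σ.sum_comp] at h1
    have h2 := LinearMap.finrank_range_add_finrank_ker ((w.sub R t).mkQ.comp T)
    rw [LinearMap.ker_comp, Submodule.ker_mkQ, finrank_euclideanSpace] at h2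
    have h3 := Submodule.finrank_le (LinearMap.range ((w.sub R t).mkQ.comp T))
    have h4 : {i | w.v (algebraMap R K (∑ a, (Matrix.of fun i a => s (σ i) a) i a • e a)) < t} =
        ↑(Finset.univ.filter fun i => ¬ s (σ i) ∈ (w.sub R t).comap T) := by
      ext i
      have h5 : algebraMap R K (T (s (σ i))) ≠ 0 :=
        (map_ne_zero_iff _ (IsFractionRing.injective R K)).2 (hne i)
      simp only [Set.mem_ofPred_eq, Matrix.of_apply, ← hT, Finset.coe_filter, Finset.mem_univ,
        true_and]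
      exact ⟨fun h h' => absurd (Or.resolve_left h' h5) (not_le.2 h),
        fun h => not_le.1 fun h' => h (Or.inr h')⟩
    have h6 := Finset.card_filter_add_card_filter_not (s := Finset.univ)
      fun i => s (σ i) ∈ (w.sub R t).comap T
    rw [← Finset.card_filter] at h1
    rw [h4, Set.ncard_coe_finset]
    rw [Finset.card_univ] at h6
    omega

end Vale.Agent.P282
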