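import Vale.Agent.P282.AVal

set_option linter.unusedSectionVars false

open scoped ENNReal TensorProduct Topology
open Filter MeasureTheory

noncomputable section

namespace Vale.Agent.P282

theorem UExt_pow {K L Γ : Type} [Field K] [Field L] [Algebra K L] [Algebra.IsAlgebraic K L]
    [LinearOrderedCommGroupWithZero Γ] (ν : Valuation L Γ) {x : L} (hx : x ≠ 0) :
    ∃ k : ℕ, 0 < k ∧ ∃ b : K, b ≠ 0 ∧ ν x ^ k = ν (algebraMap K L b) := by
  classical
  obtain ⟨p, hp, h0⟩ := Algebra.IsAlgebraic.isAlgebraic (R := K) x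
  have key : ∀ i j : ℕ, i < j → p.coeff i ≠ 0 → p.coeff j ≠ 0 →
      ν (algebraMap K L (p.coeff i) * x ^ i) = ν (algebraMap K L (p.coeff j) * x ^ j) →
      ∃ k : ℕ, 0 < k ∧ ∃ b : K, b ≠ 0 ∧ ν x ^ k = ν (algebraMap K L b) := fun i j hij hi hj h => by
    obtain ⟨k, rfl⟩ := Nat.exists_eq_add_of_lt hij
    refine ⟨k + 1, k.succ_pos, p.coeff i / p.coeff (i + k + 1), div_ne_zero hi hj, ?_⟩
    have h1 : ν x ^ i ≠ 0 := pow_ne_zero _ ((map_ne_zero ν).2 hx)
    have h2 : ν (algebraMap K L (p.coeff (i + k + 1))) ≠ 0 :=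
      (map_ne_zero ν).2 ((map_ne_zero _).2 hj)
    rw [map_mul, map_mul, map_pow, map_pow, add_assoc i, pow_add, mul_comm (ν x ^ i),
      ← mul_assoc] at h
    rw [map_div₀, map_div₀, eq_div_iff h2, mul_right_cancel₀ h1 h, add_assoc i, mul_comm]
  obtain ⟨i, hi, hmax⟩ := p.support.exists_max_image
    (fun i => ν (algebraMap K L (p.coeff i) * x ^ i)) (Polynomial.support_nonempty.2 hp)
  by_contra hn
  have h1 := ν.map_sum_eq_of_lt (f := fun i => algebraMap K L (p.coeff i) * x ^ i) hi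
    fun j hj => by
      rw [Finset.mem_sdiff, Finset.mem_singleton] at hj
      refine lt_of_le_of_ne (hmax j hj.1) fun h => hn ?_
      rcases lt_or_gt_of_ne hj.2 with h' | h'
      · exact key j i h' (Polynomial.mem_support_iff.1 hj.1) (Polynomial.mem_support_iff.1 hi) h
      · exact key i j h' (Polynomial.mem_support_iff.1 hi) (Polynomial.mem_support_iff.1 hj.1)
          h.symm
  rw [Polynomial.aeval_def, Polynomial.eval₂_eq_sum, Polynomial.sum_def] at h0
  rw [h0, map_zero] at h1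
  exact (map_ne_zero ν).2 (mul_ne_zero ((map_ne_zero _).2 (Polynomial.mem_support_iff.1 hi))
    (pow_ne_zero _ hx)) h1.symm

theorem UExt_max {K : Type} [Field K] [Algebra ℂ K] (w : RVal K) (x : w.ring) :
    x ∈ IsLocalRing.maximalIdeal w.ring ↔ (x : K) = 0 ∨ 0 < w.v x := by
  rw [← ValuationSubring.coe_mem_nonunits_iff, ValuationSubring.mem_nonunits_iff_or]
  refine or_congr_right' fun hx => ?_
  show ¬ w.Ge _ 0 ↔ _
  rw [RVal.Ge, w.v_inv _ hx, not_or, not_le, neg_lt_zero]
  exact and_iff_right (inv_ne_zero hx)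

variable {R K : Type} [CommRing R] [IsDomain R] [Algebra ℂ R] [Algebra.FiniteType ℂ R]
  [IsIntegrallyClosed R] [Field K] [Algebra R K] [IsFractionRing R K] [Algebra ℂ K]
  [IsScalarTower ℂ R K] {n : ℕ}

/-- extension of a real valuation to an algebraic extension -/
theorem ext_val {L : Type} [Field L] [Algebra ℂ L] [Algebra K L] [IsScalarTower ℂ K L]
    [Algebra.IsAlgebraic K L] (w : RVal K) :
    ∃ w' : RVal L, ∀ a, a ≠ 0 → w'.v (algebraMap K L a) = w.v a := by
  obtain ⟨O, hO, hl⟩ := IsLocalRing.exists_factor_valuationRing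
    ((algebraMap K L).comp w.ring.subtype)
  have h1 : ∀ a : K, algebraMap K L a ∈ O ↔ w.Ge a 0 := fun a => by
    refine ⟨fun h => ?_, fun h => hO ⟨a, h⟩⟩
    by_contra ha
    have a0 : a ≠ 0 := fun h0 => ha (Or.inl h0)
    have hi : a⁻¹ ∈ w.ring := (w.ring.mem_or_inv_mem a).resolve_left ha
    have hu : IsUnit (⟨a⁻¹, hi⟩ : w.ring) := by
      refine hl.map_nonunit _ (IsUnit.of_mul_eq_one ⟨_, h⟩ (Subtype.ext ?_))
      show algebraMap K L a⁻¹ * algebraMap K L a = 1
      rw [← map_mul, inv_mul_cancel₀ a0, map_one]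
    obtain ⟨y, hy⟩ := hu.exists_right_inv
    have hy' : a⁻¹ * (y : K) = 1 := congrArg Subtype.val hy
    rw [inv_mul_eq_one₀ a0] at hy'
    exact ha (hy' ▸ y.2)
  have h2 : ∀ a b : K, a ≠ 0 → b ≠ 0 →
      (O.valuation (algebraMap K L a) ≤ O.valuation (algebraMap K L b) ↔ w.v b ≤ w.v a) :=
    fun a b ha hb => by
    have hb' : 0 < O.valuation (algebraMap K L b) :=
      zero_lt_iff.2 ((map_ne_zero _).2 ((map_ne_zero _).2 hb))
    rw [← div_le_one₀ hb', ← map_div₀, ← map_div₀, O.valuation_le_one_iff, h1, RVal.Ge,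
      w.v_div a b ha hb, sub_nonneg]
    exact or_iff_right (div_ne_zero ha hb)
  choose! k hk b hb hv using fun (x : L) (hx : x ≠ 0) => UExt_pow (K := K) O.valuation hx
  have h3 : ∀ (x y : L) (i j : ℕ) (c d : K), 0 < i → 0 < j → c ≠ 0 → d ≠ 0 →
      O.valuation x ^ i = O.valuation (algebraMap K L c) →
      O.valuation y ^ j = O.valuation (algebraMap K L d) →
      (O.valuation x ≤ O.valuation y ↔ w.v d / j ≤ w.v c / i) := fun x y i j c d hi hj hc hd e1 e2 => by
    have hi' : (0 : ℝ) < i := by exact_mod_cast hi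
    have hj' : (0 : ℝ) < j := by exact_mod_cast hj
    rw [div_le_div_iff₀ hj' hi', mul_comm (w.v d), mul_comm (w.v c), ← w.v_pow c hc,
      ← w.v_pow d hd, ← h2 _ _ (pow_ne_zero _ hc) (pow_ne_zero _ hd), map_pow, map_pow, map_pow,
      map_pow, ← e1, ← e2, ← pow_mul, ← pow_mul, mul_comm j i,
      pow_le_pow_iff_left₀ zero_le' zero_le' (Nat.mul_pos hi hj).ne']
  have h4 : ∀ (x : L) (i : ℕ) (c : K), x ≠ 0 → 0 < i → c ≠ 0 →
      O.valuation x ^ i = O.valuation (algebraMap K L c) → w.v (b x) / k x = w.v c / i :=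
    fun x i c hx hi hc e => le_antisymm
      ((h3 x x _ _ _ _ hi (hk x hx) hc (hb x hx) e (hv x hx)).1 le_rfl)
      ((h3 x x _ _ _ _ (hk x hx) hi (hb x hx) hc (hv x hx) e).1 le_rfl)
  have h5 : ∀ a : K, a ≠ 0 → w.v (b (algebraMap K L a)) / k (algebraMap K L a) = w.v a :=
    fun a ha => by
    rw [h4 _ 1 a ((map_ne_zero _).2 ha) one_pos ha (pow_one _)]
    simp
  refine ⟨⟨fun x => w.v (b x) / k x, fun x y hx hy => ?_, fun x y hx hy hxy => ?_,
    fun c hc => ?_⟩, h5⟩
  · have hi' : (k x : ℝ) ≠ 0 := by exact_mod_cast (hk x hx).ne'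
    have hj' : (k y : ℝ) ≠ 0 := by exact_mod_cast (hk y hy).ne'
    have n1 := pow_ne_zero (k y) (hb x hx)
    have n2 := pow_ne_zero (k x) (hb y hy)
    rw [h4 (x * y) (k x * k y) (b x ^ k y * b y ^ k x) (mul_ne_zero hx hy)
      (Nat.mul_pos (hk x hx) (hk y hy)) (mul_ne_zero n1 n2) (by
        rw [map_mul, map_mul, map_mul, map_pow, map_pow, map_pow, map_pow, ← hv x hx, ← hv y hy,
          mul_pow, ← pow_mul, ← pow_mul, mul_comm (k y)]),
      w.mul _ _ n1 n2, w.v_pow _ (hb x hx), w.v_pow _ (hb y hy)]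
    push_cast
    field_simp
  · rcases le_max_iff.1 (O.valuation.map_add x y) with h | h
    · exact (min_le_left _ _).trans ((h3 _ _ _ _ _ _ (hk _ hxy) (hk x hx) (hb _ hxy) (hb x hx)
        (hv _ hxy) (hv x hx)).1 h)
    · exact (min_le_right _ _).trans ((h3 _ _ _ _ _ _ (hk _ hxy) (hk y hy) (hb _ hxy) (hb y hy)
        (hv _ hxy) (hv y hy)).1 h)
  · rw [IsScalarTower.algebraMap_apply ℂ K L, h5 _ ((map_ne_zero _).2 hc), w.const c hc]

/-- extension with a prescribed centre -/
theorem ext_val_center {R' L : Type} [CommRing R'] [IsDomain R'] [Field L] [Algebra ℂ L]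
    [Algebra R R'] [Algebra.IsIntegral R R'] [Algebra R' L] [FaithfulSMul R' L] [Algebra K L]
    [Algebra R L] [IsScalarTower R R' L] [IsScalarTower R K L] [IsScalarTower ℂ K L]
    [Algebra.IsAlgebraic K L] (q : Ideal R') [q.IsPrime] (w : RVal K)
    (hw : w.CenteredAt (q.comap (algebraMap R R'))) :
    ∃ w' : RVal L, w'.CenteredAt q ∧ ∀ a, a ≠ 0 → w'.v (algebraMap K L a) = w.v a := by
  let N := AlgebraicClosure L
  have : CharZero K := charZero_of_injective_algebraMap (algebraMap ℂ K).injective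
  have : Algebra.IsAlgebraic K N := Algebra.IsAlgebraic.trans K L N
  have : IsAlgClosure K N := ⟨inferInstance, inferInstance⟩
  have : IsGalois K N := {}
  let B := integralClosure R N
  obtain ⟨w0, h0⟩ := ext_val (L := N) w
  have hR : ∀ r : R, algebraMap R N r ∈ w0.ring := fun r => by
    rw [IsScalarTower.algebraMap_apply R K N]
    by_cases h : algebraMap R K r = 0
    · exact Or.inl (by rw [h, map_zero])
    · exact Or.inr (by rw [h0 _ h]; exact (hw.1 r).resolve_left h)
  have hB : ∀ x : B, (x : N) ∈ w0.ring := fun x => by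
    let _ : Algebra R w0.ring := ((algebraMap R N).codRestrict w0.ring hR).toAlgebra
    have : IsScalarTower R w0.ring N := IsScalarTower.of_algebraMap_eq fun _ => rfl
    obtain ⟨y, hy⟩ := IsIntegrallyClosed.isIntegral_iff.1 (IsIntegral.tower_top (A := w0.ring) x.2)
    exact hy ▸ y.2
  let Q0 : Ideal B := (IsLocalRing.maximalIdeal w0.ring).comap
    ((B.val : B →+* N).codRestrict w0.ring hB)
  have hQ0 : ∀ x : B, x ∈ Q0 ↔ (x : N) = 0 ∨ 0 < w0.v x := fun x => UExt_max w0 ⟨x, hB x⟩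
  let φ : R' →+* B := (algebraMap R' N).codRestrict B fun r =>
    (Algebra.IsIntegral.isIntegral (R := R) r).algebraMap
  let _ : Algebra R' B := φ.toAlgebra
  have : IsScalarTower R R' B := IsScalarTower.of_algebraMap_eq fun r =>
    Subtype.ext (IsScalarTower.algebraMap_apply R R' N r)
  have : Algebra.IsIntegral R' B := Algebra.IsIntegral.tower_top R
  obtain ⟨Q, hQ, hQq⟩ := Ideal.exists_ideal_over_prime_of_isIntegral_of_isDomain (S := B) q
    fun r hr => by
      have h1 : algebraMap L N (algebraMap R' L r) = 0 := congrArg Subtype.val hr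
      rw [map_eq_zero, FaithfulSMul.algebraMap_eq_zero_iff] at h1
      exact h1 ▸ q.zero_mem
  let _ : TopologicalSpace B := ⊥
  have : DiscreteTopology B := ⟨rfl⟩
  have : ContinuousSMul (N ≃ₐ[K] N) B := continuousSMul_iff_stabilizer_isOpen.2 fun x => by
    have e : MulAction.stabilizer (N ≃ₐ[K] N) x = MulAction.stabilizer (N ≃ₐ[K] N) (x : N) := by
      ext g
      exact Subtype.ext_iff
    rw [e]
    exact stabilizer_isOpen_of_isIntegral (x : N)
  have : Algebra.IsInvariant R B (N ≃ₐ[K] N) := ⟨fun x hx => by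
    obtain ⟨a, ha⟩ := (InfiniteGalois.mem_range_algebraMap_iff_fixed (k := K) (x : N)).2
      fun g => congrArg Subtype.val (hx g)
    have h1 : IsIntegral R a :=
      (isIntegral_algebraMap_iff (algebraMap K N).injective).1 (ha ▸ x.2)
    obtain ⟨r, rfl⟩ := IsIntegrallyClosed.isIntegral_iff.1 h1
    exact ⟨r, Subtype.ext ((IsScalarTower.algebraMap_apply R K N r).trans ha)⟩⟩
  obtain ⟨g, hg⟩ := Algebra.IsInvariant.exists_smul_of_under_eq_of_profinite (A := R)
    (G := N ≃ₐ[K] N) Q Q0 (by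
      ext r
      rw [Ideal.mem_under, Ideal.mem_under, hQ0, IsScalarTower.algebraMap_apply R R' B,
        ← Ideal.mem_comap, hQq, ← Ideal.mem_comap]
      have e : ((algebraMap R' B (algebraMap R R' r) : B) : N) =
          algebraMap K N (algebraMap R K r) :=
        (IsScalarTower.algebraMap_apply R R' N r).symm.trans
          (IsScalarTower.algebraMap_apply R K N r)
      rw [e, map_eq_zero]
      by_cases h : algebraMap R K r = 0
      · refine iff_of_true ?_ (Or.inl h)
        rw [(FaithfulSMul.algebraMap_eq_zero_iff R K).1 h]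
        exact Ideal.zero_mem _
      · rw [h0 _ h, hw.2 r h]
        exact (or_iff_right h).symm)
  refine ⟨w0.comap (((g : N →ₐ[K] N).restrictScalars ℂ).comp (IsScalarTower.toAlgHom ℂ L N)),
    ⟨fun r => ?_, fun r hr => ?_⟩, fun a ha => ?_⟩
  · rcases hB (g • φ r) with h | h
    · exact Or.inl ((map_eq_zero (algebraMap L N)).1 ((map_eq_zero g).1 h))
    · exact Or.inr h
  · rw [← hQq, Ideal.mem_comap, ← Ideal.smul_mem_pointwise_smul_iff (a := g), ← hg, hQ0]
    exact (or_iff_right fun h => hr ((map_eq_zero (algebraMap L N)).1 ((map_eq_zero g).1 h))).symm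
  · show w0.v (g (algebraMap L N (algebraMap K L a))) = _
    rw [← IsScalarTower.algebraMap_apply, g.commutes, h0 a ha]

end Vale.Agent.P282
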