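import Vale.Agent.P282.AVol
import Vale.Agent.P282.UExt

set_option linter.unusedSectionVars false

open scoped ENNReal TensorProduct Topology
open Filter MeasureTheory

noncomputable section

namespace Vale.Agent.P282

variable {R K : Type} [CommRing R] [IsDomain R] [Algebra ℂ R] [Algebra.FiniteType ℂ R]
  [IsIntegrallyClosed R] [Field K] [Algebra R K] [IsFractionRing R K] [Algebra ℂ K]
  [IsScalarTower ℂ R K] {n : ℕ}

variable {F : Type} [Field F] [Algebra ℂ F] [Algebra K F] [IsScalarTower ℂ K F]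

theorem OApx_ge {L : Type} [Field L] [Algebra ℂ L] (w : RVal F) (φ : L →ₐ[ℂ] F) (a : L) (t : ℝ) :
    (w.comap φ).Ge a t ↔ w.Ge (φ a) t :=
  or_congr (map_eq_zero φ).symm Iff.rfl

/-- square roots of units are limits of regular functions -/
theorem sqrt_apx [IsAlgClosed F] (x : Pt R) (w : RVal F)
    (hw : (w.comap (IsScalarTower.toAlgHom ℂ K F)).CenteredAt x.m) {d : R} (hd : x d ≠ 0) :
    ∃ e : F, e ^ 2 = algebraMap K F (algebraMap R K d) ∧ e ≠ 0 ∧ w.v e = 0 ∧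
      ∀ t : ℝ, ∃ r : R, w.Ge (e - algebraMap K F (algebraMap R K r)) t := by
  let ι : R →ₐ[ℂ] F := (IsScalarTower.toAlgHom ℂ K F).comp (IsScalarTower.toAlgHom ℂ R K)
  change ∃ e : F, e ^ 2 = ι d ∧ e ≠ 0 ∧ w.v e = 0 ∧ ∀ t : ℝ, ∃ r : R, w.Ge (e - ι r) t
  obtain ⟨t0, ht0, h1⟩ := RVal.exists_pos hw
  obtain ⟨δ, hδ⟩ := IsAlgClosed.exists_pow_nat_eq (x d) two_pos
  have hδ0 : δ ≠ 0 := fun h => hd (by rw [← hδ, h]; simp)
  obtain ⟨e0, he0⟩ := IsAlgClosed.exists_pow_nat_eq (ι d) two_pos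
  have h2 : w.Ge ((e0 - algebraMap ℂ F δ) * (e0 + algebraMap ℂ F δ)) t0 := by
    have h3 : w.Ge (ι (d - algebraMap ℂ R (x d))) t0 :=
      (OApx_ge w _ _ _).1 (h1 _ (Pt.mem_m.2 (by rw [map_sub, AlgHomClass.commutes]; exact sub_self _)))
    rw [map_sub, ι.commutes, ← hδ, map_pow, ← he0] at h3
    convert h3 using 1
    ring
  obtain ⟨e, he, h3⟩ : ∃ e : F, e ^ 2 = ι d ∧ w.Ge (e - algebraMap ℂ F δ) (t0 / 2) := by
    by_cases h4 : w.Ge (e0 - algebraMap ℂ F δ) (t0 / 2)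
    · exact ⟨e0, he0, h4⟩
    refine ⟨-e0, by rw [neg_sq, he0], ?_⟩
    rw [← neg_add']
    refine RVal.Ge.neg ?_
    by_contra h5
    rw [RVal.Ge, not_or, not_le] at h4 h5
    have h6 := h2.resolve_left (mul_ne_zero h4.1 h5.1)
    rw [w.mul _ _ h4.1 h5.1] at h6
    linarith [h4.2, h5.2]
  have h4 := w.v_add_of_lt ((map_ne_zero (algebraMap ℂ F)).2 hδ0) h3
    (by rw [w.const δ hδ0]; linarith)
  rw [add_sub_cancel, w.const δ hδ0] at h4
  have key : ∀ k : ℕ, ∃ r : R, w.Ge (e - ι r) ((k + 1) * (t0 / 2)) := by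
    intro k
    induction k with
    | zero => exact ⟨algebraMap ℂ R δ, by simpa using h3⟩
    | succ k ih =>
      obtain ⟨r, hr⟩ := ih
      refine ⟨r + (2 * δ)⁻¹ • (d - r ^ 2), ?_⟩
      have h5 := (hr.mul ((h3.add h3).sub (hr.mono (by
        have : (0 : ℝ) ≤ k := k.cast_nonneg
        nlinarith)))).smul (-(2 * δ)⁻¹)
      have h6 : algebraMap ℂ F (2 * δ)⁻¹ * (2 * algebraMap ℂ F δ) = 1 := by
        rw [← map_ofNat (algebraMap ℂ F) 2, ← map_mul, ← map_mul, inv_mul_cancel₀ (by simpa), map_one]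
      convert h5 using 1
      · rw [map_add, map_smul, map_sub, map_pow, ← he, Algebra.smul_def, Algebra.smul_def, map_neg]
        linear_combination (ι r - e) * h6
      · push_cast
        ring
  refine ⟨e, he, h4.1, h4.2, fun t => ?_⟩
  obtain ⟨k, hk⟩ := exists_nat_ge (t / (t0 / 2))
  obtain ⟨r, hr⟩ := key k
  rw [div_le_iff₀ (by linarith)] at hk
  exact ⟨r, hr.mono (by nlinarith)⟩

theorem apx_adjoin (x : Pt R) (w : RVal F)
    (hw : (w.comap (IsScalarTower.toAlgHom ℂ K F)).CenteredAt x.m) {S : Set F}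
    (h : ∀ a ∈ S, ∀ t : ℝ, ∃ r : R, w.Ge (a - algebraMap K F (algebraMap R K r)) t) {a : F}
    (ha : a ∈ Algebra.adjoin ℂ S) (t : ℝ) :
    ∃ r : R, w.Ge (a - algebraMap K F (algebraMap R K r)) t := by
  let ι : R →ₐ[ℂ] F := (IsScalarTower.toAlgHom ℂ K F).comp (IsScalarTower.toAlgHom ℂ R K)
  change ∃ r : R, w.Ge (a - ι r) t
  have h0 : ∀ r, w.Ge (ι r) 0 := fun r => (OApx_ge w _ _ _).1 (hw.1 r)
  induction ha using Algebra.adjoin_induction generalizing t with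
  | mem a ha => exact h a ha t
  | algebraMap c => exact ⟨algebraMap ℂ R c, Or.inl (by rw [ι.commutes, sub_self])⟩
  | add a b _ _ ha hb =>
    obtain ⟨r, hr⟩ := ha t
    obtain ⟨s, hs⟩ := hb t
    exact ⟨r + s, by rw [map_add, add_sub_add_comm]; exact hr.add hs⟩
  | mul a b _ _ ha hb =>
    obtain ⟨r, hr⟩ := ha t
    obtain ⟨s, hs⟩ := hb t
    obtain ⟨s0, hs0⟩ := hb 0
    have h1 := hr.mul (hs0.add (h0 s0))
    have h2 := (h0 r).mul hs
    rw [add_zero] at h1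
    rw [zero_add] at h2
    refine ⟨r * s, ?_⟩
    convert h1.add h2 using 1
    rw [map_mul]
    ring

theorem vol_le_apx {R₀ K₀ : Type} [CommRing R₀] [IsDomain R₀] [Algebra ℂ R₀]
    [Algebra.FiniteType ℂ R₀] [IsIntegrallyClosed R₀] [Field K₀] [Algebra R₀ K₀]
    [IsFractionRing R₀ K₀] [Algebra ℂ K₀] [IsScalarTower ℂ R₀ K₀] (ψ : K₀ →ₐ[ℂ] F) (x : Pt R)
    (x₀ : Pt R₀) (w : RVal F) (hw : (w.comap (IsScalarTower.toAlgHom ℂ K F)).CenteredAt x.m)
    (hw₀ : (w.comap ψ).CenteredAt x₀.m) (h : ∀ (a : R₀) (t : ℝ), ∃ r : R,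
      w.Ge (ψ (algebraMap R₀ K₀ a) - algebraMap K F (algebraMap R K r)) t) :
    vol x₀.m n (w.comap ψ) ≤ vol x.m n (w.comap (IsScalarTower.toAlgHom ℂ K F)) := by
  rw [vol_eq x hw, vol_eq x₀ hw₀]
  refine limsup_le_limsup ?_
  filter_upwards [eventually_gt_atTop (0 : ℝ)] with t ht
  have := (len_eq x hw t).1
  let ι : R →ₐ[ℂ] F := (IsScalarTower.toAlgHom ℂ K F).comp (IsScalarTower.toAlgHom ℂ R K)
  let ι₀ : R₀ →ₐ[ℂ] F := ψ.comp (IsScalarTower.toAlgHom ℂ R₀ K₀)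
  let f := ((w.comap (IsScalarTower.toAlgHom ℂ K F)).sub R t).mapQ (w.sub F t) ι.toLinearMap
    fun r hr => (OApx_ge w _ _ _).1 hr
  let f₀ := ((w.comap ψ).sub R₀ t).mapQ (w.sub F t) ι₀.toLinearMap
    fun r hr => (OApx_ge w _ _ _).1 hr
  have h1 : Function.Injective f₀ := by
    rw [← LinearMap.ker_eq_bot, eq_bot_iff]
    intro q hq
    obtain ⟨r, rfl⟩ := Submodule.Quotient.mk_surjective _ q
    exact (Submodule.Quotient.mk_eq_zero _).2
      ((OApx_ge w _ _ _).2 ((Submodule.Quotient.mk_eq_zero (w.sub F t)).1 hq))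
  have h2 : LinearMap.range f₀ ≤ LinearMap.range f := by
    rintro _ ⟨q, rfl⟩
    obtain ⟨a, rfl⟩ := Submodule.Quotient.mk_surjective _ q
    obtain ⟨r, hr⟩ := h a t
    exact ⟨Submodule.Quotient.mk r, ((Submodule.Quotient.eq (w.sub F t)).2 hr).symm⟩
  have h3 := (LinearMap.finrank_range_of_inj h1).ge.trans
    ((Submodule.finrank_mono h2).trans f.finrank_range_le)
  refine ENNReal.ofReal_le_ofReal ?_
  gcongr

end Vale.Agent.P282
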