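import Vale.Agent.P282.ODefs

set_option linter.unusedSectionVars false

open scoped ENNReal TensorProduct Topology
open Filter MeasureTheory

noncomputable section

namespace Vale.Agent.P282

variable {R K : Type} [CommRing R] [IsDomain R] [Algebra ℂ R] [Algebra.FiniteType ℂ R]
  [IsIntegrallyClosed R] [Field K] [Algebra R K] [IsFractionRing R K] [Algebra ℂ K]
  [IsScalarTower ℂ R K] {n : ℕ}

variable {G : WS R K n} {π : Proj R n} {z : Fin (n + 1) → R}


theorem ODim_fin (s j : ℕ) :
    FiniteDimensional ℂ (MvPolynomial.homogeneousSubmodule (Fin s) ℂ j) :=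
  Module.Finite.iff_fg.2 (MvPolynomial.homogeneousSubmodule_fg (Fin s) ℂ j)

theorem ODim_rank (s j : ℕ) :
    Module.finrank ℂ (MvPolynomial.homogeneousSubmodule (Fin (s + 1)) ℂ j) = (j + s).choose s := by
  classical
  have h1 : MvPolynomial.homogeneousSubmodule (Fin (s + 1)) ℂ j =
      MvPolynomial.restrictSupport ℂ
        ((Finset.finsuppAntidiag (Finset.univ : Finset (Fin (s + 1))) j : Finset _) :
          Set (Fin (s + 1) →₀ ℕ)) := by
    rw [MvPolynomial.homogeneousSubmodule_eq_finsupp_supported]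
    unfold MvPolynomial.restrictSupport
    congr 1
    ext d
    simp [Finsupp.degree_eq_sum]
  rw [h1, Module.finrank_eq_card_basis (MvPolynomial.basisRestrictSupport ℂ _)]
  simp only [Finset.coe_sort_coe, Fintype.card_coe]
  rw [Finset.card_finsuppAntidiag_nat_eq_choose, Finset.card_univ, Fintype.card_fin,
    show s + 1 + j - 1 = j + s by omega]
  exact Nat.choose_symm_add

theorem ODim_q (s : ℕ) :
    (∑ i, MvPolynomial.X i ^ 2 : MvPolynomial (Fin s) ℂ).IsHomogeneous 2 :=
  MvPolynomial.IsHomogeneous.sum _ _ _ fun i _ => MvPolynomial.isHomogeneous_X_pow i 2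

theorem ODim_q_ne (s : ℕ) :
    (∑ i, MvPolynomial.X i ^ 2 : MvPolynomial (Fin (s + 1)) ℂ) ≠ 0 := by
  intro h
  have := congrArg (MvPolynomial.eval fun _ => (1 : ℂ)) h
  simp only [map_sum, map_pow, MvPolynomial.eval_X, one_pow, Finset.sum_const, Finset.card_univ,
    Fintype.card_fin, nsmul_eq_mul, mul_one, map_zero] at this
  exact Nat.succ_ne_zero s (by exact_mod_cast this)

theorem ODim_comp {s : ℕ} {q : MvPolynomial (Fin s) ℂ} (hq : q.IsHomogeneous 2)
    (A : MvPolynomial (Fin s) ℂ) (j : ℕ) :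
    MvPolynomial.homogeneousComponent j (q * A) =
      if 2 ≤ j then q * MvPolynomial.homogeneousComponent (j - 2) A else 0 := by
  induction A using MvPolynomial.induction_on' with
  | monomial d a =>
    have h1 : (MvPolynomial.monomial d a).IsHomogeneous d.degree :=
      MvPolynomial.isHomogeneous_monomial a rfl
    rw [MvPolynomial.homogeneousComponent_of_mem (hq.mul h1),
      MvPolynomial.homogeneousComponent_of_mem h1]
    split_ifs <;> first | rfl | omega | simp
  | add p r h1 h2 =>
    rw [mul_add, map_add, map_add, h1, h2]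
    split_ifs <;> simp [mul_add]

theorem Rj_fin (j : ℕ) : FiniteDimensional ℂ (Rj z j) := by
  have := ODim_fin (n + 1) j
  unfold Rj
  infer_instance

theorem Cone.finrank (h : Cone G π z) (j : ℕ) : Module.finrank ℂ (Rj z j) = dd n j := by
  obtain ⟨m, rfl⟩ : ∃ m, n = m + 2 := ⟨n - 2, by have := h.two; omega⟩
  have hf := ODim_fin (m + 2 + 1) j
  set H := MvPolynomial.homogeneousSubmodule (Fin (m + 2 + 1)) ℂ j with hH
  set q : MvPolynomial (Fin (m + 2 + 1)) ℂ := ∑ i, MvPolynomial.X i ^ 2 with hq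
  have hq0 : MvPolynomial.aeval z q = 0 := by
    rw [hq, map_sum]
    simpa using h.rel
  let φ : H →ₗ[ℂ] R := (MvPolynomial.aeval z).toLinearMap.domRestrict H
  have h1 : LinearMap.range φ = Rj z j := LinearMap.range_domRestrict _ _
  have h2 := LinearMap.finrank_range_add_finrank_ker φ
  rw [h1, ODim_rank] at h2
  have h3 : ∀ P : H, P ∈ LinearMap.ker φ → (P : MvPolynomial (Fin (m + 2 + 1)) ℂ) = 0 ∨
      (2 ≤ j ∧ ∃ A, A.IsHomogeneous (j - 2) ∧ (P : MvPolynomial (Fin (m + 2 + 1)) ℂ) = q * A) := by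
    intro P hP
    obtain ⟨A, hA⟩ := h.ker P hP
    have h4 := ODim_comp (ODim_q (m + 2 + 1)) A j
    rw [← hA, MvPolynomial.homogeneousComponent_eq_self P.2] at h4
    split_ifs at h4 with h5
    · exact Or.inr ⟨h5, _, MvPolynomial.homogeneousComponent_isHomogeneous _ _, h4⟩
    · exact Or.inl h4
  unfold dd
  rw [show j + (m + 2) - 1 = j + m + 1 by omega, show j + (m + 2) - 2 = j + m by omega,
    show m + 2 - 1 = m + 1 by omega]
  rw [show j + (m + 2) = j + m + 1 + 1 by omega, Nat.choose_succ_succ' (j + m + 1) (m + 1),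
    Nat.choose_succ_succ' (j + m) (m + 1)] at h2
  suffices h6 : Module.finrank ℂ (LinearMap.ker φ) = (j + m).choose (m + 1 + 1) by omega
  rcases lt_or_ge j 2 with hj | hj
  · have h7 : LinearMap.ker φ = ⊥ := by
      rw [eq_bot_iff]
      intro P hP
      rcases h3 P hP with h8 | h8
      · exact Subtype.ext h8
      · omega
    rw [h7, finrank_bot, Nat.choose_eq_zero_of_lt (by omega)]
  · obtain ⟨k, rfl⟩ : ∃ k, j = k + 2 := ⟨j - 2, by omega⟩
    let ψ : MvPolynomial.homogeneousSubmodule (Fin (m + 2 + 1)) ℂ k →ₗ[ℂ] LinearMap.ker φ :=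
      { toFun := fun A => ⟨⟨q * A, by
          have := (ODim_q (m + 2 + 1)).mul A.2
          rwa [add_comm 2 k] at this⟩, by
            show MvPolynomial.aeval z (q * A.1) = 0
            rw [map_mul, hq0, zero_mul]⟩
        map_add' := fun A B => by
          ext1; ext1
          simp [mul_add]
        map_smul' := fun c A => by
          ext1; ext1
          simp }
    have h9 : Function.Bijective ψ := by
      constructor
      · intro A B hAB
        have h10 : q * A = q * B := congrArg (fun x : LinearMap.ker φ => (x.1 : MvPolynomial (Fin (m + 2 + 1)) ℂ)) hAB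
        exact Subtype.ext (mul_left_cancel₀ (ODim_q_ne _) h10)
      · intro P
        rcases h3 P.1 P.2 with h8 | ⟨-, A, hA, h8⟩
        · refine ⟨0, ?_⟩
          rw [map_zero]
          exact (Subtype.ext (Subtype.ext h8)).symm
        · exact ⟨⟨A, hA⟩, Subtype.ext (Subtype.ext h8.symm)⟩
    rw [← (LinearEquiv.ofBijective ψ h9).finrank_eq, ODim_rank,
      show k + (m + 2) = k + 2 + m by omega]

theorem dd_pos (hn : 2 ≤ n) (j : ℕ) : 0 < dd n j :=
  Nat.add_pos_left (Nat.choose_pos (by omega)) _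

theorem dd_mono (hn : 2 ≤ n) (j : ℕ) : (j + n - 1) * dd n j ≤ (j + 1) * dd n (j + 1) := by
  obtain ⟨m, rfl⟩ : ∃ m, n = m + 2 := ⟨n - 2, by omega⟩
  unfold dd
  rw [show j + (m + 2) - 1 = j + m + 1 by omega, show j + (m + 2) - 2 = j + m by omega,
    show j + 1 + (m + 2) - 1 = j + m + 1 + 1 by omega, show j + 1 + (m + 2) - 2 = j + m + 1 by omega,
    show m + 2 - 1 = m + 1 by omega]
  have h1 := Nat.choose_mul_succ_eq (j + m + 1) (m + 1)
  have h2 := Nat.choose_mul_succ_eq (j + m) (m + 1)
  rw [show j + m + 1 + 1 - (m + 1) = j + 1 by omega] at h1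
  rw [show j + m + 1 - (m + 1) = j by omega] at h2
  nlinarith [Nat.zero_le ((j + m + 1).choose (m + 1))]

theorem dd_sum (hn : 2 ≤ n) (l : ℕ) :
    2 * l ^ n ≤ n.factorial * ∑ j ∈ Finset.range (l + 1), dd n j := by
  obtain ⟨m, rfl⟩ : ∃ m, n = m + 2 := ⟨n - 2, by omega⟩
  have h1 : ∀ l : ℕ, ∑ j ∈ Finset.range (l + 1), dd (m + 2) j =
      (l + (m + 2)).choose (m + 2) + (l + (m + 2) - 1).choose (m + 2) := by
    intro l
    induction l with
    | zero => simp [dd]
    | succ l ih =>
      rw [Finset.sum_range_succ, ih]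
      unfold dd
      rw [show l + (m + 2) - 1 = l + m + 1 by omega, show l + 1 + (m + 2) - 1 = l + m + 1 + 1 by omega,
        show l + 1 + (m + 2) - 2 = l + m + 1 by omega, show m + 2 - 1 = m + 1 by omega,
        show l + 1 + (m + 2) = l + m + 1 + 1 + 1 by omega, show l + (m + 2) = l + m + 1 + 1 by omega,
        Nat.choose_succ_succ' (l + m + 1 + 1) (m + 1), Nat.choose_succ_succ' (l + m + 1) (m + 1)]
      ring
  rw [h1, mul_add, ← Nat.ascFactorial_eq_factorial_mul_choose,
    ← Nat.ascFactorial_eq_factorial_mul_choose']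
  have h2 := Nat.pow_succ_le_ascFactorial (l + 1) (m + 2)
  have h3 := Nat.pow_succ_le_ascFactorial l (m + 2)
  have h4 : l ^ (m + 2) ≤ (l + 1) ^ (m + 2) := Nat.pow_le_pow_left (Nat.le_succ l) _
  omega

end Vale.Agent.P282
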