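import Vale.Agent.P282.Base

set_option linter.unusedSectionVars false

open scoped ENNReal TensorProduct Topology
open Filter MeasureTheory

noncomputable section

namespace Vale.Agent.P282

variable {R K : Type} [CommRing R] [IsDomain R] [Algebra ℂ R] [Algebra.FiniteType ℂ R]
  [IsIntegrallyClosed R] [Field K] [Algebra R K] [IsFractionRing R K] [Algebra ℂ K]
  [IsScalarTower ℂ R K] {n : ℕ}

/-- homogeneous measures on the half line -/
theorem meas_hom (m : Measure ℝ) {c : ℝ} (hc : 0 ≤ c) {d : ℕ} (h0 : m (Set.Iic 0) = 0)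
    (h : ∀ r : ℝ, 0 < r → m (Set.Iic r) = ENNReal.ofReal (c * r ^ (d + 1))) :
    m = (volume.restrict (Set.Ioi 0)).withDensity fun r => ENNReal.ofReal (c * (d + 1) * r ^ d) := by
  have key : ∀ r : ℝ, m (Set.Iic r) = ((volume.restrict (Set.Ioi 0)).withDensity
      fun r => ENNReal.ofReal (c * (d + 1) * r ^ d)) (Set.Iic r) := by
    intro r
    rw [withDensity_apply _ measurableSet_Iic, Measure.restrict_restrict measurableSet_Iic]
    rcases le_or_gt r 0 with hr | hr
    · have h1 : Set.Iic r ∩ Set.Ioi (0 : ℝ) = ∅ := by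
        ext x
        simp only [Set.mem_inter_iff, Set.mem_Iic, Set.mem_Ioi, Set.mem_empty_iff_false, iff_false]
        intro hx
        linarith [hx.1, hx.2]
      rw [h1]
      simp only [Measure.restrict_empty, lintegral_zero_measure]
      exact measure_mono_null (Set.Iic_subset_Iic.2 hr) h0
    · have h1 : Set.Iic r ∩ Set.Ioi (0 : ℝ) = Set.Ioc 0 r := by
        ext x
        simp only [Set.mem_inter_iff, Set.mem_Iic, Set.mem_Ioi, Set.mem_Ioc]
        exact and_comm
      rw [h1, h r hr, ← ofReal_integral_eq_lintegral_ofReal]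
      · congr 1
        rw [← intervalIntegral.integral_of_le hr.le, intervalIntegral.integral_const_mul,
          integral_pow]
        have : (d : ℝ) + 1 ≠ 0 := by positivity
        field_simp
        simp
      · exact (Continuous.integrableOn_Icc (by fun_prop)).mono_set Set.Ioc_subset_Icc_self
      · refine (ae_restrict_iff' measurableSet_Ioc).2 (Eventually.of_forall fun x hx => ?_)
        have := hx.1
        show 0 ≤ c * (d + 1) * x ^ d
        positivity
  have hfin : ∀ r : ℝ, m (Set.Iic r) ≠ ∞ := by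
    intro r
    refine ne_top_of_le_ne_top ?_ (measure_mono (Set.Iic_subset_Iic.2 (le_max_left r 1)))
    rw [h _ (lt_of_lt_of_le one_pos (le_max_right r 1))]
    exact ENNReal.ofReal_ne_top
  refine Measure.ext_of_Ioc' m _ (fun a b _ => ?_) fun a b hab => ?_
  · exact ne_top_of_le_ne_top (hfin b) (measure_mono Set.Ioc_subset_Iic_self)
  · rw [← Set.Iic_sdiff_Iic, measure_sdiff (Set.Iic_subset_Iic.2 hab.le)
      measurableSet_Iic.nullMeasurableSet (hfin a), measure_sdiff (Set.Iic_subset_Iic.2 hab.le)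
      measurableSet_Iic.nullMeasurableSet (key a ▸ hfin a), key a, key b]

theorem beta_int {a M : ℕ} (h : a + 2 ≤ M) :
    IntegrableOn (fun r : ℝ => r ^ a / (1 + r) ^ M) (Set.Ioi 0) := by
  have hc : ContinuousOn (fun r : ℝ => r ^ a / (1 + r) ^ M) (Set.Ici 0) := by
    refine ContinuousOn.div (by fun_prop) (by fun_prop) fun x hx => ?_
    have : (0 : ℝ) ≤ x := hx
    positivity
  have h1 : IntegrableOn (fun r : ℝ => r ^ a / (1 + r) ^ M) (Set.Ioc 0 1) :=
    ((hc.mono Set.Icc_subset_Ici_self).integrableOn_Icc).mono_set Set.Ioc_subset_Icc_self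
  have h2 : IntegrableOn (fun r : ℝ => r ^ a / (1 + r) ^ M) (Set.Ioi 1) := by
    have h3 := integrableOn_Ioi_rpow_of_lt (a := (-2 : ℝ)) (by norm_num) one_pos
    refine Integrable.mono' h3 ?_ ?_
    · have hs : Set.Ioi (1 : ℝ) ⊆ Set.Ici 0 := fun x hx =>
        Set.mem_Ici.2 (le_trans zero_le_one (Set.mem_Ioi.1 hx).le)
      exact (hc.mono hs).aestronglyMeasurable measurableSet_Ioi
    · refine (ae_restrict_iff' measurableSet_Ioi).2 (Eventually.of_forall fun x hx => ?_)
      have hx1 : (1 : ℝ) < x := hx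
      have hx0 : (0 : ℝ) < x := by linarith
      rw [Real.norm_of_nonneg (by positivity), Real.rpow_neg hx0.le,
        show (2 : ℝ) = ((2 : ℕ) : ℝ) by norm_num, Real.rpow_natCast, div_le_iff₀ (by positivity),
        inv_mul_eq_div, le_div_iff₀ (by positivity), ← pow_add]
      calc x ^ (a + 2) ≤ x ^ M := pow_le_pow_right₀ hx1.le h
        _ ≤ (1 + x) ^ M := pow_le_pow_left₀ hx0.le (by linarith) _
  have := h1.union h2
  rwa [Set.Ioc_union_Ioi_eq_Ioi zero_le_one] at this

theorem beta_rec {a M : ℕ} (h : a + 3 ≤ M) :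
    ((a : ℝ) + 1) * ∫ r in Set.Ioi (0 : ℝ), r ^ a / (1 + r) ^ M =
      ((M : ℝ) - a - 2) * ∫ r in Set.Ioi (0 : ℝ), r ^ (a + 1) / (1 + r) ^ M := by
  obtain ⟨N, rfl⟩ : ∃ N, M = N + 2 := ⟨M - 2, by omega⟩
  have i1 := beta_int (a := a) (M := N + 2) (by omega)
  have i2 := beta_int (a := a + 1) (M := N + 2) (by omega)
  have hd : ∀ x ∈ Set.Ioi (0 : ℝ), HasDerivAt (fun r : ℝ => r ^ (a + 1) / (1 + r) ^ (N + 1))
      (((a : ℝ) + 1) * (x ^ a / (1 + x) ^ (N + 2)) -
        (((N + 2 : ℕ) : ℝ) - a - 2) * (x ^ (a + 1) / (1 + x) ^ (N + 2))) x := by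
    intro x hx
    have hx0 : (0 : ℝ) < x := hx
    have h1 : HasDerivAt (fun r : ℝ => r ^ (a + 1)) (((a + 1 : ℕ) : ℝ) * x ^ a) x := by
      simpa using hasDerivAt_pow (a + 1) x
    have h2 : HasDerivAt (fun r : ℝ => (1 + r) ^ (N + 1)) (((N + 1 : ℕ) : ℝ) * (1 + x) ^ N) x := by
      have h4 := (hasDerivAt_pow (N + 1) (1 + x)).comp x ((hasDerivAt_id x).const_add 1)
      simp only [mul_one, Nat.add_sub_cancel] at h4
      exact h4
    have h3 := h1.div h2 (by positivity)
    refine HasDerivAt.congr_deriv h3 ?_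
    have : (1 + x) ≠ 0 := by positivity
    push_cast
    field_simp
    ring
  have hcont : ContinuousWithinAt (fun r : ℝ => r ^ (a + 1) / (1 + r) ^ (N + 1)) (Set.Ici 0) 0 := by
    refine ContinuousAt.continuousWithinAt ?_
    exact ContinuousAt.div (by fun_prop) (by fun_prop) (by norm_num)
  have hlim : Tendsto (fun r : ℝ => r ^ (a + 1) / (1 + r) ^ (N + 1)) atTop (𝓝 0) := by
    refine squeeze_zero' (g := fun r : ℝ => r⁻¹) ?_ ?_ tendsto_inv_atTop_zero
    · filter_upwards [eventually_gt_atTop 0] with x hx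
      positivity
    · filter_upwards [eventually_gt_atTop 1] with x hx
      have hx0 : (0 : ℝ) < x := by linarith
      rw [div_le_iff₀ (by positivity), inv_mul_eq_div, le_div_iff₀ hx0, ← pow_succ]
      calc x ^ (a + 1 + 1) ≤ x ^ (N + 1) := pow_le_pow_right₀ hx.le (by omega)
        _ ≤ (1 + x) ^ (N + 1) := pow_le_pow_left₀ hx0.le (by linarith) _
  have key := integral_Ioi_of_hasDerivAt_of_tendsto hcont hd
    ((i1.const_mul _).sub (i2.const_mul _)) hlim
  rw [integral_sub (i1.const_mul _) (i2.const_mul _), integral_const_mul, integral_const_mul] at key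
  simp only [ne_eq, Nat.add_eq_zero_iff, one_ne_zero, and_false, not_false_eq_true, zero_pow,
    add_zero, one_pow, div_one, sub_self] at key
  linarith

end Vale.Agent.P282
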