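import Vale.Agent.P282.SVs

open scoped ENNReal TensorProduct Topology
open Filter MeasureTheory

noncomputable section

namespace Vale.Agent.P282

variable {R K : Type} [CommRing R] [IsDomain R] [Algebra ℂ R] [Algebra.FiniteType ℂ R]
  [IsIntegrallyClosed R] [Field K] [Algebra R K] [IsFractionRing R K] [Algebra ℂ K]
  [IsScalarTower ℂ R K] {n : ℕ}

theorem SGi_log {x y t m k k₀ s : ℝ} (hx : 0 < x) (hy : 1 ≤ y) (ht : 0 < t) (hk : k₀ ≤ k)
    (h : Real.exp t ≤ x ^ (-(1 / m)) * y ^ (-k) * y ^ s) :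
    1 + (k₀ - s) * (Real.log y / t) ≤ (-Real.log x / t) / m := by
  have hy0 : 0 < y := one_pos.trans_le hy
  rw [Real.rpow_def_of_pos hx, Real.rpow_def_of_pos hy0, Real.rpow_def_of_pos hy0,
    ← Real.exp_add, ← Real.exp_add, Real.exp_le_exp] at h
  have h1 : 0 ≤ Real.log y := Real.log_nonneg hy
  have h2 : t + (k₀ - s) * Real.log y ≤ -Real.log x / m := by
    have : Real.log x * -(1 / m) = -Real.log x / m := by ring
    nlinarith
  have h3 := div_le_div_of_nonneg_right h2 ht.le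
  rw [add_div, div_self ht.ne', mul_div_assoc, div_right_comm] at h3
  exact h3

/-- klt implies finite volume -/
theorem gi (G : WS R K n) (π : Proj R n) (A : An π (G.ρ π.y)) :
    ∃ M : ℝ, ∫⁻ p, ENNReal.ofReal (dens G π M p.1) ∂A.S.μ ≠ ⊤ := by
  by_contra hc
  have hc' : ∀ M : ℝ, ∫⁻ p, ENNReal.ofReal (dens G π M p.1) ∂A.S.μ = ⊤ := fun M =>
    by_contra fun e => hc ⟨M, e⟩
  have := A.nu0_fin
  have hm : ∀ M : ℝ, Measurable fun p : π.W A.Δ => dens G π M p.1 := fun M =>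
    (dens_meas G π M).comp measurable_subtype_coe
  have hgr : Measurable fun p : π.W A.Δ => gr (π.at p.1) :=
    (gr_cont.comp π.at_cont).measurable.comp measurable_subtype_coe
  obtain ⟨t, ht, hΩ⟩ := vs_seq' A.nu0
    (g := fun (k : ℕ) (p : π.W A.Δ) => dens G π k p.1 * gr (π.at p.1) ^ (2 * n + 1 : ℝ))
    (fun k => (hm k).fun_mul (hgr.pow_const _)) fun k => (A.lint_nu0 (hm k)).trans (hc' k)
  obtain ⟨U, w, b, h1, h2, h3, h4, h5, h6⟩ := vs G π A _ t ht hΩ
  have hρ : G.ρ π.y ≠ 0 := by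
    obtain ⟨q, -⟩ := h2.exists
    exact fun e => A.g_ne q.2 ((congrArg q.2.1 e).trans (map_zero _))
  have ht' : ∀ᶠ q in (U : Filter (ℕ × π.W A.Δ)), 0 < t q.1 :=
    (ht.comp h1).eventually_gt_atTop 0
  have hb : 0 ≤ b := ge_of_tendsto h4 (ht'.mono fun q hq =>
    div_nonneg (Real.log_nonneg (one_le_gr _)) hq.le)
  have key : ∀ k₀ : ℕ, 1 + ((k₀ : ℝ) - (2 * n + 1)) * b ≤
      w.v (algebraMap R K (G.ρ π.y)) / G.ω.m := by
    intro k₀
    refine le_of_tendsto_of_tendsto ((h4.const_mul _).const_add 1) ((h3 _ hρ).2.div_const _) ?_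
    filter_upwards [h2, ht', h1.eventually_ge_atTop k₀] with q q1 q2 q3
    exact SGi_log (pow_pos (norm_pos_iff.2 (A.g_ne q.2)) 2) (one_le_gr _) q2
      (Nat.cast_le.2 q3) q1
  have hb0 : b = 0 := by
    refine le_antisymm (not_lt.1 fun hb' => ?_) hb
    obtain ⟨k₀, hk⟩ := exists_nat_gt
      (w.v (algebraMap R K (G.ρ π.y)) / G.ω.m / b + (2 * n + 1))
    have h7 := key k₀
    have h8 : w.v (algebraMap R K (G.ρ π.y)) / G.ω.m / b < k₀ - (2 * n + 1) := by linarith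
    rw [div_lt_iff₀ hb'] at h8
    linarith
  have h7 := key 0
  rw [hb0, mul_zero, add_zero] at h7
  have h8 : 0 < G.ω.A w := by
    refine G.klt w ⟨algebraMap R K (G.ρ π.y), ?_, fun e => ?_⟩ (h6 hb0)
    · exact (map_ne_zero_iff _ (IsFractionRing.injective R K)).2 hρ
    · rw [e, zero_div] at h7
      linarith
  have h9 := h8.trans_le h5
  rw [← EReal.coe_zero, EReal.coe_lt_coe_iff] at h9
  linarith

end Vale.Agent.P282
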