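import Vale.Agent.P282.OSym
import Vale.Agent.P282.ORad0
import Vale.Agent.P282.SGi

set_option linter.unusedSectionVars false

open scoped ENNReal TensorProduct Topology
open Filter MeasureTheory

noncomputable section

namespace Vale.Agent.P282

variable {R K : Type} [CommRing R] [IsDomain R] [Algebra ℂ R] [Algebra.FiniteType ℂ R]
  [IsIntegrallyClosed R] [Field K] [Algebra R K] [IsFractionRing R K] [Algebra ℂ K]
  [IsScalarTower ℂ R K] {n : ℕ}

variable {G : WS R K n} {π : Proj R n} {z : Fin (n + 1) → R}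

variable (A : An π (G.ρ π.y))

theorem ORad_fin (h : Cone G π z) : A.nu G {p | nz z p ≤ 1} ≠ ⊤ := by
  obtain ⟨M, hM⟩ := gi G π A
  have hS : MeasurableSet {p : Pt R | nz z p ≤ 1} :=
    measurableSet_le (nz_cont z).measurable measurable_const
  rw [← lintegral_indicator_one hS, A.lint_nu G (measurable_one.indicator hS)]
  refine ne_top_of_le_ne_top (ENNReal.mul_ne_top (a := ENNReal.ofReal (2 ^ max M 0))
    ENNReal.ofReal_ne_top hM) ?_
  rw [← lintegral_const_mul' _ _ ENNReal.ofReal_ne_top]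
  refine lintegral_mono fun p => ?_
  by_cases hp : nz z p.1 ≤ 1
  · rw [Set.indicator_of_mem (show p.1 ∈ {p : Pt R | nz z p ≤ 1} from hp), Pi.one_apply, one_mul,
      ← ENNReal.ofReal_mul (by positivity)]
    refine ENNReal.ofReal_le_ofReal ?_
    have h1 := dens_add G π (max M 0) (-max M 0) p.1
    rw [add_neg_cancel, neg_neg] at h1
    have h2 : gr (π.at p.1) ≤ 2 := by
      unfold nz at hp
      rw [Fin.sum_univ_succ] at hp
      have h3 : ∑ i, ‖π.at p.1 i‖ ^ 2 = ∑ i : Fin n, ‖p.1 (z i.succ)‖ ^ 2 :=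
        Finset.sum_congr rfl fun i _ => by rw [← h.y i]; rfl
      unfold gr
      rw [h3]
      linarith [sq_nonneg ‖p.1 (z 0)‖]
    rw [h1, mul_comm]
    exact mul_le_mul (Real.rpow_le_rpow (SGr_pos _).le h2 (le_max_right _ _))
      (dens_anti G π (le_max_left _ _) _) (dens_nonneg _ _ _ _) (by positivity)
  · rw [Set.indicator_of_notMem (show p.1 ∉ {p : Pt R | nz z p ≤ 1} from hp), zero_mul]
    exact zero_le

theorem ORad_zero (h : Cone G π z) : A.nu G {p | nz z p ≤ 0} = 0 := by
  have hn : 0 < n := lt_of_lt_of_le two_pos h.two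
  refine measure_mono_null (fun p hp => ?_) (A.nu_null G (π.ind.ne_zero ⟨0, hn⟩))
  have h1 : ‖p (z (Fin.succ ⟨0, hn⟩))‖ ^ 2 ≤ nz z p :=
    Finset.single_le_sum (f := fun i => ‖p (z i)‖ ^ 2) (fun _ _ => sq_nonneg _)
      (Finset.mem_univ _)
  have h2 : ‖p (z (Fin.succ ⟨0, hn⟩))‖ ^ 2 = 0 := le_antisymm (h1.trans hp) (sq_nonneg _)
  show p (π.y ⟨0, hn⟩) = 0
  rw [h.y]
  simpa using h2

theorem ORad_scale (h : Cone G π z) {r : ℝ} (hr : 0 < r) :
    A.nu G {p | nz z p ≤ r} = ENNReal.ofReal (r ^ (n - 1)) * A.nu G {p | nz z p ≤ 1} := by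
  have hc : ((√r : ℝ) : ℂ) ≠ 0 := Complex.ofReal_ne_zero.2 (Real.sqrt_pos.2 hr).ne'
  obtain ⟨φ, -, h1, h2⟩ := h.scale A hc
  have h3 : ‖((√r : ℝ) : ℂ)‖ ^ 2 = r := by
    rw [Complex.norm_real, Real.norm_eq_abs, sq_abs, Real.sq_sqrt hr.le]
  rw [h3] at h1 h2
  have hS : MeasurableSet {p : Pt R | nz z p ≤ r} :=
    measurableSet_le (nz_cont z).measurable measurable_const
  have h4 := congrArg (fun μ : Measure (Pt R) => μ {p | nz z p ≤ r}) h2
  simp only [Measure.smul_apply, smul_eq_mul] at h4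
  rw [Measure.map_apply (Pt.pull_cont φ).measurable hS] at h4
  have h5 : Pt.pull φ ⁻¹' {p | nz z p ≤ r} = {p | nz z p ≤ 1} := by
    ext p
    simp only [Set.mem_preimage, Set.mem_ofPred_eq, h1]
    exact mul_le_iff_le_one_right hr
  rw [← h5, h4, ← mul_assoc, ← ENNReal.ofReal_mul (by positivity), ← mul_pow,
    mul_inv_cancel₀ hr.ne', one_pow, ENNReal.ofReal_one, one_mul]

theorem ORad_map (h : Cone G π z) : ∃ c : ℝ, 0 < c ∧ (A.nu G).map (nz z) =
    (volume.restrict (Set.Ioi 0)).withDensity fun r => ENNReal.ofReal (c * r ^ (n - 2)) := by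
  have hm := (nz_cont z).measurable
  have hn := h.two
  have key := meas_hom ((A.nu G).map (nz z)) (c := (A.nu G {p | nz z p ≤ 1}).toReal)
    ENNReal.toReal_nonneg (d := n - 2)
    (by rw [Measure.map_apply hm measurableSet_Iic]; exact ORad_zero A h) fun r hr => by
      rw [Measure.map_apply hm measurableSet_Iic, ENNReal.ofReal_mul ENNReal.toReal_nonneg,
        ENNReal.ofReal_toReal (ORad_fin A h), mul_comm, show n - 2 + 1 = n - 1 by omega]
      exact ORad_scale A h hr
  refine ⟨_, mul_pos (lt_of_le_of_ne ENNReal.toReal_nonneg fun e => ?_) (by positivity), key⟩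
  rw [← e] at key
  simp only [zero_mul, ENNReal.ofReal_zero] at key
  have h1 : (A.nu G).map (nz z) = 0 := key.trans withDensity_zero
  exact A.nu_ne G ((Measure.map_eq_zero_iff hm.aemeasurable).1 h1)

theorem ORad_ae {c : ℝ} (hc : 0 < c) (j M d : ℕ) :
    (fun r : ℝ => (c * r ^ d).toNNReal • (r ^ j / (1 + r) ^ M)) =ᵐ[volume.restrict (Set.Ioi 0)]
      fun r => c * (r ^ (j + d) / (1 + r) ^ M) := by
  filter_upwards [ae_restrict_mem measurableSet_Ioi] with r hr
  have h0 : (0 : ℝ) < r := hr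
  rw [NNReal.smul_def, Real.coe_toNNReal _ (by positivity), smul_eq_mul]
  ring

theorem ORad_II (h : Cone G π z) : ∃ c : ℝ, 0 < c ∧ ∀ j M : ℕ,
    II G A z j M = c * ∫ r in Set.Ioi (0 : ℝ), r ^ (j + (n - 2)) / (1 + r) ^ M := by
  obtain ⟨c, hc, e⟩ := ORad_map A h
  refine ⟨c, hc, fun j M => ?_⟩
  have hf : Measurable fun r : ℝ => r ^ j / (1 + r) ^ M := by fun_prop
  have hd : Measurable fun r : ℝ => (c * r ^ (n - 2)).toNNReal := by fun_prop
  have h1 := integral_map (μ := A.nu G) (nz_cont z).measurable.aemeasurable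
    hf.aestronglyMeasurable
  unfold II
  rw [← h1, e]
  refine (integral_withDensity_eq_integral_smul hd _).trans ?_
  rw [integral_congr_ae (ORad_ae hc j M _), integral_const_mul]

theorem Cone.rad_int (h : Cone G π z) {j M : ℕ} (hM : j + n ≤ M) :
    Integrable (fun p => nz z p ^ j / (1 + nz z p) ^ M) (A.nu G) := by
  obtain ⟨c, hc, e⟩ := ORad_map A h
  have hn := h.two
  have hf : Measurable fun r : ℝ => r ^ j / (1 + r) ^ M := by fun_prop
  have hd : Measurable fun r : ℝ => (c * r ^ (n - 2)).toNNReal := by fun_prop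
  refine (integrable_map_measure hf.aestronglyMeasurable
    (nz_cont z).measurable.aemeasurable).1 ?_
  rw [e]
  refine (integrable_withDensity_iff_integrable_smul hd).2 ?_
  exact (Integrable.const_mul (beta_int (a := j + (n - 2)) (M := M) (by omega)) c).congr
    (ORad_ae hc j M _).symm

theorem Cone.II_pos (h : Cone G π z) {j M : ℕ} (hM : j + n ≤ M) : 0 < II G A z j M := by
  obtain ⟨c, hc, e⟩ := ORad_II A h
  have hn := h.two
  rw [e]
  refine mul_pos hc ((setIntegral_pos_iff_support_of_nonneg_ae ?_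
    (beta_int (a := j + (n - 2)) (M := M) (by omega))).2 ?_)
  · filter_upwards [ae_restrict_mem measurableSet_Ioi] with r hr
    have h0 : (0 : ℝ) < r := hr
    positivity
  · rw [Set.inter_eq_self_of_subset_right, Real.volume_Ioi]
    · exact ENNReal.zero_lt_top
    · intro r hr
      have h0 : (0 : ℝ) < r := hr
      exact (by positivity : (0 : ℝ) < r ^ (j + (n - 2)) / (1 + r) ^ M).ne'

theorem Cone.II_rec (h : Cone G π z) {j M : ℕ} (hM : j + n + 1 ≤ M) :
    ((j : ℝ) + n - 1) * II G A z j M = ((M : ℝ) - j - n) * II G A z (j + 1) M := by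
  obtain ⟨c, hc, e⟩ := ORad_II A h
  have hn := h.two
  have h1 := beta_rec (a := j + (n - 2)) (M := M) (by omega)
  rw [e, e, show j + 1 + (n - 2) = j + (n - 2) + 1 by omega]
  push_cast [Nat.cast_sub hn] at h1
  linear_combination c * h1

theorem ORad_binom (k : ℕ) (r : ℝ) :
    ∑ j : Fin (k + 1), (k.choose j : ℝ) * r ^ (j : ℕ) = (1 + r) ^ k := by
  rw [add_comm 1 r, add_pow, Fin.sum_univ_eq_sum_range (fun j => (k.choose j : ℝ) * r ^ j)]
  exact Finset.sum_congr rfl fun j _ => by ring

theorem ORad_binom' (k : ℕ) (r : ℝ) :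
    ∑ j : Fin (k + 1 + 1), (j : ℝ) * (((k + 1).choose j : ℝ) * r ^ (j : ℕ)) =
      (k + 1) * (r * (1 + r) ^ k) := by
  rw [Fin.sum_univ_succ, ← ORad_binom, Finset.mul_sum, Finset.mul_sum]
  simp only [Fin.val_zero, Nat.cast_zero, zero_mul, zero_add, Fin.val_succ]
  refine Finset.sum_congr rfl fun j _ => ?_
  have h1 : ((k + 1 : ℕ) : ℝ) * k.choose j = (k + 1).choose (j + 1) * ((j + 1 : ℕ) : ℝ) := by
    exact_mod_cast Nat.add_one_mul_choose_eq k j
  push_cast at h1 ⊢
  linear_combination -(r ^ ((j : ℕ) + 1)) * h1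

theorem Cone.II_sum (h : Cone G π z) (k : ℕ) :
    ∑ j : Fin (k + 1), (k.choose j : ℝ) * II G A z j (k + n) = II G A z 0 n ∧
    (n : ℝ) * ∑ j : Fin (k + 1), (j : ℝ) * ((k.choose j : ℝ) * II G A z j (k + n)) =
      k * (n - 1) * II G A z 0 n := by
  have hi : ∀ j : Fin (k + 1), Integrable (fun p => nz z p ^ (j : ℕ) / (1 + nz z p) ^ (k + n))
      (A.nu G) := fun j => h.rad_int A (by have := j.2; omega)
  have hp : ∀ p, 1 + nz z p ≠ 0 := fun p => by linarith [nz_nonneg z p]
  refine ⟨?_, ?_⟩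
  · unfold II
    simp only [← integral_const_mul]
    rw [← integral_finsetSum _ fun j _ => (hi j).const_mul _]
    refine integral_congr_ae (Eventually.of_forall fun p => ?_)
    have := hp p
    simp only [← mul_div_assoc, ← Finset.sum_div, ORad_binom]
    rw [pow_add]
    field_simp
  · rcases k with _ | k
    · simp
    have h1 : ∑ j : Fin (k + 1 + 1), (j : ℝ) * (((k + 1).choose j : ℝ) *
        II G A z j (k + 1 + n)) = (k + 1) * II G A z 1 (n + 1) := by
      unfold II
      simp only [← integral_const_mul]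
      rw [← integral_finsetSum _ fun j _ => ((hi j).const_mul _).const_mul _]
      refine integral_congr_ae (Eventually.of_forall fun p => ?_)
      have := hp p
      simp only [← mul_div_assoc, ← Finset.sum_div, ORad_binom']
      rw [show k + 1 + n = k + (n + 1) by omega, pow_add _ k]
      field_simp
    have h2 : II G A z 0 n = II G A z 0 (n + 1) + II G A z 1 (n + 1) := by
      unfold II
      rw [← integral_add (h.rad_int A (by omega)) (h.rad_int A (by omega))]
      refine integral_congr_ae (Eventually.of_forall fun p => ?_)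
      have := hp p
      simp only [pow_succ]
      field_simp
    have h3 := h.II_rec A (j := 0) (M := n + 1) (by omega)
    rw [h1, h2]
    push_cast at h3 ⊢
    linear_combination -((k : ℝ) + 1) * h3

end Vale.Agent.P282
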