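import Vale.Agent.P282.OOnb
import Vale.Agent.P282.ORad
import Vale.Agent.P282.ODim

set_option linter.unusedSectionVars false

open scoped ENNReal TensorProduct Topology ContDiff ComplexConjugate
open Filter MeasureTheory

noncomputable section

namespace Vale.Agent.P282

variable {R K : Type} [CommRing R] [IsDomain R] [Algebra ℂ R] [Algebra.FiniteType ℂ R]
  [IsIntegrallyClosed R] [Field K] [Algebra R K] [IsFractionRing R K] [Algebra ℂ K]
  [IsScalarTower ℂ R K] {n : ℕ}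

variable {G : WS R K n} {π : Proj R n} {z : Fin (n + 1) → R}

variable (A : An π (G.ρ π.y))

theorem OBerg_hom (h : Cone G π z) {j : ℕ} {ι : Type} [Fintype ι] {e : ι → R}
    (he : ∀ a, e a ∈ Rj z j)
    (hr : ∀ φ : R ≃ₐ[ℂ] R, (∀ r ∈ Rj z j, φ r ∈ Rj z j) → (∀ p, nz z (Pt.pull φ p) = nz z p) →
      (A.nu G).map (Pt.pull φ) = A.nu G →
      ∀ p : Pt R, ∑ a, ‖Pt.pull φ p (e a)‖ ^ 2 = ∑ a, ‖p (e a)‖ ^ 2) :
    ∃ β : ℝ, ∀ p : Pt R, ∑ a, ‖p (e a)‖ ^ 2 = β * nz z p ^ j := by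
  rcases Nat.eq_zero_or_pos j with rfl | hj
  · have : ∀ a, ∃ c : ℂ, e a = algebraMap ℂ R c := fun a => by
      obtain ⟨P, hP, h1⟩ := he a
      have h2 := MvPolynomial.totalDegree_eq_zero_iff_eq_C.1
        (Nat.le_zero.1 (MvPolynomial.IsHomogeneous.totalDegree_le hP))
      exact ⟨P.coeff 0, by rw [← h1, h2]; simp⟩
    choose c hc using this
    exact ⟨∑ a, ‖c a‖ ^ 2, fun p => by simp [hc, AlgHomClass.commutes]⟩
  have h0 : ∀ p : Pt R, nz z p = 0 → ∑ a, ‖p (e a)‖ ^ 2 = 0 := fun p hp =>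
    Finset.sum_eq_zero fun a _ => by
      obtain ⟨C, hC⟩ := Rj_le (he a)
      exact le_antisymm (by simpa [hp, hj.ne'] using hC p) (sq_nonneg _)
  by_cases hx : ∃ p0 : Pt R, nz z p0 ≠ 0
  swap
  · push Not at hx
    exact ⟨0, fun p => by rw [h0 p (hx p), zero_mul]⟩
  obtain ⟨p0, hp0⟩ := hx
  refine ⟨(∑ a, ‖p0 (e a)‖ ^ 2) / nz z p0 ^ j, fun p => ?_⟩
  by_cases hp : nz z p = 0
  · rw [h0 p hp, hp, zero_pow hj.ne', mul_zero]
  have hq : 0 < nz z p / nz z p0 :=
    div_pos ((nz_nonneg z p).lt_of_ne' hp) ((nz_nonneg z p0).lt_of_ne' hp0)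
  have hc : ‖(√(nz z p / nz z p0) : ℂ)‖ ^ 2 = nz z p / nz z p0 := by
    rw [Complex.norm_real, Real.norm_eq_abs, sq_abs, Real.sq_sqrt hq.le]
  obtain ⟨φ, h1, h2, -⟩ := h.scale A (c := √(nz z p / nz z p0))
    (Complex.ofReal_ne_zero.2 (Real.sqrt_pos.2 hq).ne')
  obtain ⟨φ', h3, h4, h5, h6⟩ := h.rot A (p := Pt.pull φ p0) (q := p)
    (by rw [h2, hc, div_mul_cancel₀ _ hp0])
  have h7 := hr φ' (h4 j) h5 h6 (Pt.pull φ p0)
  rw [h3] at h7
  rw [h7, div_mul_eq_mul_div, mul_div_assoc, ← div_pow, Finset.sum_mul]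
  refine Finset.sum_congr rfl fun a _ => ?_
  have h8 : Pt.pull φ p0 (e a) = p0 (φ (e a)) := rfl
  rw [h8, h1 j _ (he a), map_smul, smul_eq_mul, norm_mul, norm_pow, mul_pow, ← pow_mul, mul_comm j,
    pow_mul, hc, mul_comm]

theorem OBerg_cont (M : ℕ) : Continuous fun p : Pt R => 1 / (1 + nz z p) ^ M :=
  continuous_const.div ((continuous_const.add (nz_cont z)).pow M) fun p =>
    (pow_pos (by linarith [nz_nonneg z p]) M).ne'

theorem OBerg_int (h : Cone G π z) {j M : ℕ} (hM : j + n ≤ M) {r : R} (hr : r ∈ Rj z j) :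
    Integrable (fun p : Pt R => ‖p r‖ ^ 2 * (1 / (1 + nz z p) ^ M)) (A.nu G) := by
  obtain ⟨C, hC⟩ := Rj_le hr
  refine ((h.rad_int A hM).const_mul C).mono'
    (((Pt.cont r).norm.pow 2).mul (OBerg_cont M)).aestronglyMeasurable (ae_of_all _ fun p => ?_)
  have h1 : 0 < (1 + nz z p) ^ M := pow_pos (by linarith [nz_nonneg z p]) M
  rw [Real.norm_of_nonneg (by positivity), mul_one_div, ← mul_div_assoc]
  exact div_le_div_of_nonneg_right (hC p) h1.le

theorem OBerg_deg (h : Cone G π z) {j M : ℕ} (hM : j + n ≤ M) {w : ℝ} (hw : 0 ≤ w) :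
    ∃ e : Fin (dd n j) → R, (∀ a, e a ∈ Rj z j) ∧
      (∀ a b, ∫ p : Pt R, p (e a) * conj (p (e b)) * ((1 / (1 + nz z p) ^ M : ℝ) : ℂ) ∂A.nu G =
        if a = b then ((w * II G A z j M / dd n j : ℝ) : ℂ) else 0) ∧
      ∀ p : Pt R, ∑ a, ‖p (e a)‖ ^ 2 = w * nz z p ^ j := by
  have := Rj_fin (z := z) j
  have hd : (0 : ℝ) < dd n j := Nat.cast_pos.2 (dd_pos h.two j)
  have hW : 0 ≤ w * II G A z j M / dd n j := by
    have := h.II_pos A hM
    positivity
  have key := exists_onb G A (Rj z j) (OBerg_cont (z := z) M).measurable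
    (fun p => one_div_pos.2 (pow_pos (by linarith [nz_nonneg z p]) M))
    fun r hr => OBerg_int A h hM hr
  rw [h.finrank j] at key
  obtain ⟨e, h1, h2, h3⟩ := key
  obtain ⟨β, hβ⟩ := OBerg_hom A h h1 fun φ a1 a2 a3 => h3 φ a1 (fun p => by rw [a2]) a3
  have h4 : ∀ a, ∫ p : Pt R, ‖p (e a)‖ ^ 2 * (1 / (1 + nz z p) ^ M) ∂A.nu G = 1 := fun a => by
    have h5 := h2 a a
    rw [if_pos rfl] at h5
    refine Complex.ofReal_injective ((integral_ofReal (𝕜 := ℂ)).symm.trans (Eq.trans ?_ h5))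
    refine integral_congr_ae (ae_of_all _ fun p => ?_)
    simp only [Complex.mul_conj', Complex.coe_algebraMap, Complex.ofReal_mul, Complex.ofReal_pow]
  have h5 : β * II G A z j M = dd n j := by
    have := integral_finsetSum (μ := A.nu G) Finset.univ fun a _ => OBerg_int A h hM (h1 a)
    simp only [← Finset.sum_mul, hβ, h4, Finset.sum_const, Finset.card_univ, Fintype.card_fin,
      nsmul_eq_mul, mul_one] at this
    rw [← this, II, ← integral_const_mul]
    exact integral_congr_ae (ae_of_all _ fun p => by simp only [mul_one_div, mul_div_assoc])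
  set W := w * II G A z j M / dd n j with hWd
  refine ⟨fun a => (√W : ℂ) • e a, fun a => Submodule.smul_mem _ _ (h1 a), fun a b => ?_,
    fun p => ?_⟩
  · have h6 : ∀ p : Pt R, p ((√W : ℂ) • e a) * conj (p ((√W : ℂ) • e b)) *
        ((1 / (1 + nz z p) ^ M : ℝ) : ℂ) =
        W * (p (e a) * conj (p (e b)) * ((1 / (1 + nz z p) ^ M : ℝ) : ℂ)) := fun p => by
      have h7 : (W : ℂ) = √W * √W := by rw [← Complex.ofReal_mul, Real.mul_self_sqrt hW]
      rw [map_smul, map_smul, smul_eq_mul, smul_eq_mul, map_mul, Complex.conj_ofReal]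
      conv_rhs => rw [h7]
      ring
    simp only [h6]
    rw [integral_const_mul, h2, mul_ite, mul_one, mul_zero]
  · simp only [map_smul, smul_eq_mul, norm_mul, mul_pow, Complex.norm_real, Real.norm_eq_abs,
      sq_abs, Real.sq_sqrt hW, ← Finset.mul_sum, hβ]
    rw [hWd, ← h5]
    have : β * II G A z j M ≠ 0 := h5 ▸ hd.ne'
    have h6 := left_ne_zero_of_mul this
    have h7 := right_ne_zero_of_mul this
    field_simp

theorem OBerg_orth (h : Cone G π z) {j l : ℕ} (hjl : j ≠ l) (M : ℕ) {r s : R} (hr : r ∈ Rj z j)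
    (hs : s ∈ Rj z l) :
    ∫ p : Pt R, p r * conj (p s) * ((1 / (1 + nz z p) ^ M : ℝ) : ℂ) ∂A.nu G = 0 := by
  have h0 : (j : ℝ) - l ≠ 0 := sub_ne_zero.2 (Nat.cast_injective.ne hjl)
  set θ : ℝ := Real.pi / (j - l) with hθ
  have hc : Complex.exp (θ * Complex.I) ^ j * conj (Complex.exp (θ * Complex.I)) ^ l = -1 := by
    have h1 : ((j : ℂ) - l) * θ = Real.pi := by
      rw [hθ]
      exact_mod_cast mul_div_cancel₀ Real.pi h0
    rw [← Complex.exp_conj, ← Complex.exp_nat_mul, ← Complex.exp_nat_mul, ← Complex.exp_add,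
      ← Complex.exp_pi_mul_I, ← h1, map_mul, Complex.conj_ofReal, Complex.conj_I]
    congr 1
    ring
  obtain ⟨φ, h1, h2, h3⟩ := h.scale A (Complex.exp_ne_zero (θ * Complex.I))
  simp only [Complex.norm_exp_ofReal_mul_I, one_pow, inv_one, ENNReal.ofReal_one, one_smul,
    one_mul] at h2 h3
  have hF : Continuous fun p : Pt R => p r * conj (p s) * ((1 / (1 + nz z p) ^ M : ℝ) : ℂ) :=
    ((Pt.cont r).mul (Complex.continuous_conj.comp (Pt.cont s))).mul
      (Complex.continuous_ofReal.comp (OBerg_cont M))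
  have h4 := integral_map (μ := A.nu G) (Pt.pull_cont φ).aemeasurable hF.aestronglyMeasurable
  have h5 : ∀ p : Pt R, Pt.pull φ p r * conj (Pt.pull φ p s) *
      ((1 / (1 + nz z (Pt.pull φ p)) ^ M : ℝ) : ℂ) =
      -(p r * conj (p s) * ((1 / (1 + nz z p) ^ M : ℝ) : ℂ)) := fun p => by
    have h6 : ∀ x, Pt.pull φ p x = p (φ x) := fun _ => rfl
    rw [h2, h6, h6, h1 j r hr, h1 l s hs, map_smul, map_smul, smul_eq_mul, smul_eq_mul, map_mul,
      map_pow]
    linear_combination (p r * conj (p s) * ((1 / (1 + nz z p) ^ M : ℝ) : ℂ)) * hc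
  simp only [h3, h5, integral_neg] at h4
  exact self_eq_neg.1 h4

/-- the Bergman kernel -/
theorem Cone.berg (h : Cone G π z) (k : ℕ) : ∃ e : (Σ j : Fin (k + 1), Fin (dd n j)) → R,
    (∀ a, e a ∈ Rj z a.1) ∧
    (∀ a b, ∫ p : Pt R, p (e a) * conj (p (e b)) * ((1 / (1 + nz z p) ^ (k + n) : ℝ) : ℂ) ∂A.nu G =
      if a = b then (((k.choose a.1 : ℝ) * II G A z a.1 (k + n) / dd n a.1 : ℝ) : ℂ) else 0) ∧
    ∀ p : Pt R, ∑ a, ‖p (e a)‖ ^ 2 = (1 + nz z p) ^ k := by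
  choose e h1 h2 h3 using fun j : Fin (k + 1) => OBerg_deg A h (j := j) (M := k + n)
    (by omega) (Nat.cast_nonneg (k.choose j))
  refine ⟨fun a => e a.1 a.2, fun a => h1 _ _, fun ⟨j, a⟩ ⟨l, b⟩ => ?_, fun p => ?_⟩
  · by_cases hjl : j = l
    · subst hjl
      simp only [h2, Sigma.mk.injEq, heq_eq_eq, true_and]
    · rw [if_neg fun h' => hjl (congrArg Sigma.fst h')]
      exact OBerg_orth A h (Fin.val_injective.ne hjl) _ (h1 _ _) (h1 _ _)
  · rw [Fintype.sum_sigma]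
    simp only [h3]
    rw [Fin.sum_univ_eq_sum_range (fun j => (k.choose j : ℝ) * nz z p ^ j), add_comm 1, add_pow]
    exact Finset.sum_congr rfl fun j _ => by ring

end Vale.Agent.P282
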