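import Vale.Agent.P282.Base

set_option linter.unusedSectionVars false

open scoped ENNReal TensorProduct Topology
open Filter MeasureTheory

noncomputable section

namespace Vale.Agent.P282

variable {R K : Type} [CommRing R] [IsDomain R] [Algebra ℂ R] [Algebra.FiniteType ℂ R]
  [IsIntegrallyClosed R] [Field K] [Algebra R K] [IsFractionRing R K] [Algebra ℂ K]
  [IsScalarTower ℂ R K] {n : ℕ}

theorem ONum_cnt {l κ C : ℝ} (hl : 0 ≤ l) (hκ : 0 ≤ κ) (hC : 0 ≤ C) (j : ℕ) :
    ∑ r ∈ Finset.range j, (if l < κ * (r + 1) - C then 0 else κ) ≤ l + C := by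
  induction j with
  | zero => simp; linarith
  | succ j ih =>
    rw [Finset.sum_range_succ]
    split_ifs with hj
    · linarith
    · have : ∑ r ∈ Finset.range j, (if l < κ * (r + 1) - C then 0 else κ) ≤
          ∑ r ∈ Finset.range j, κ := Finset.sum_le_sum fun r _ => by split_ifs <;> linarith
      rw [Finset.sum_const, Finset.card_range, nsmul_eq_mul] at this
      push Not at hj
      linarith

theorem ONum_tri (d : ℕ → ℝ) (j : ℕ) :
    ∑ r ∈ Finset.range j, (∑ s ∈ Finset.range (j + 1), d s - ∑ s ∈ Finset.range (r + 1), d s) =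
      ∑ s ∈ Finset.range (j + 1), s * d s := by
  induction j with
  | zero => simp
  | succ j ih =>
    rw [Finset.sum_range_succ, Finset.sum_range_succ (fun s => (s : ℝ) * d s), ← ih,
      Finset.sum_range_succ d (j + 1)]
    simp only [Finset.sum_sub_distrib, Finset.sum_const, Finset.card_range, nsmul_eq_mul]
    push_cast
    ring

theorem ONum_one {ι : Type} [Fintype ι] (θ l : ι → ℝ) (d : ℕ → ℕ) (j : ℕ) {κ C : ℝ}
    (hl : ∀ i, 0 ≤ l i) (h0 : ∀ i, 0 ≤ θ i) (h1 : ∀ i, θ i ≤ 1) (hκ : 0 ≤ κ) (hC : 0 ≤ C)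
    (hs : ∑ i, θ i = ∑ s ∈ Finset.range (j + 1), (d s : ℝ))
    (h : ∀ r < j, {i | l i < κ * (r + 1) - C}.ncard ≤ ∑ s ∈ Finset.range (r + 1), d s) :
    κ * ∑ s ∈ Finset.range (j + 1), (s : ℝ) * d s - C * ∑ s ∈ Finset.range (j + 1), (d s : ℝ) ≤
      ∑ i, l i * θ i := by
  classical
  have a1 : ∑ i, (∑ r ∈ Finset.range j, (if l i < κ * (r + 1) - C then 0 else κ)) * θ i ≤
      ∑ i, (l i + C) * θ i :=
    Finset.sum_le_sum fun i _ => mul_le_mul_of_nonneg_right (ONum_cnt (hl i) hκ hC j) (h0 i)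
  have a2 : ∑ i, (l i + C) * θ i = ∑ i, l i * θ i + C * ∑ i, θ i := by
    simp only [add_mul, Finset.sum_add_distrib, Finset.mul_sum]
  have a3 : ∀ r ∈ Finset.range j,
      κ * (∑ s ∈ Finset.range (j + 1), (d s : ℝ) - ∑ s ∈ Finset.range (r + 1), (d s : ℝ)) ≤
        ∑ i, (if l i < κ * (r + 1) - C then 0 else κ) * θ i := by
    intro r hr
    have b1 := h r (Finset.mem_range.mp hr)
    have b2 : {i | l i < κ * (r + 1) - C}.ncard =
        (Finset.univ.filter fun i => l i < κ * (r + 1) - C).card := by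
      rw [← Set.ncard_coe_finset]; simp
    rw [b2] at b1
    have b3 : ((Finset.univ.filter fun i => l i < κ * (r + 1) - C).card : ℝ) ≤
        ∑ s ∈ Finset.range (r + 1), (d s : ℝ) := by exact_mod_cast b1
    have b4 : ∑ i, (if l i < κ * (r + 1) - C then 0 else κ) * θ i =
        κ * (∑ i, θ i - ∑ i, if l i < κ * (r + 1) - C then θ i else 0) := by
      rw [← Finset.sum_sub_distrib, Finset.mul_sum]
      refine Finset.sum_congr rfl fun i _ => ?_
      split_ifs <;> ring
    have b5 : (∑ i, if l i < κ * (r + 1) - C then θ i else 0) ≤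
        ((Finset.univ.filter fun i => l i < κ * (r + 1) - C).card : ℝ) := by
      rw [Finset.card_filter]
      push_cast
      refine Finset.sum_le_sum fun i _ => ?_
      split_ifs
      · exact h1 i
      · exact le_rfl
    rw [b4, hs]
    exact mul_le_mul_of_nonneg_left (by linarith) hκ
  have a4 := Finset.sum_le_sum a3
  rw [← Finset.mul_sum, ONum_tri (fun s => (d s : ℝ)) j, Finset.sum_comm] at a4
  simp only [Finset.sum_mul] at a1
  rw [a2, hs] at a1
  linarith

theorem ONum_abel (W : ℕ → ℝ) (k s : ℕ) (hs : s ≤ k) (hW : W (k + 1) = 0) :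
    W s = ∑ j ∈ Finset.range (k + 1), if s ≤ j then W j - W (j + 1) else 0 := by
  rw [← Finset.sum_filter]
  have : (Finset.range (k + 1)).filter (fun j => s ≤ j) = Finset.Ico s (k + 1) := by
    ext j; simp [Finset.mem_Ico]; omega
  rw [this, Finset.sum_Ico_eq_sum_range]
  have e := Finset.sum_range_sub' (fun j => W (s + j)) (k + 1 - s)
  simp only [add_zero, ← add_assoc] at e
  rw [e, show s + (k + 1 - s) = k + 1 by omega, hW, sub_zero]

theorem ONum_fin (k j : ℕ) (hj : j ≤ k) (f : ℕ → ℝ) :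
    ∑ s : Fin (k + 1), (if (s : ℕ) ≤ j then f s else 0) = ∑ s ∈ Finset.range (j + 1), f s := by
  rw [Fin.sum_univ_eq_sum_range (fun s => if s ≤ j then f s else 0), ← Finset.sum_filter]
  congr 1
  ext s; simp; omega

/-- rearrangement -/
theorem bathtub {k : ℕ} (d : ℕ → ℕ) (U : Matrix (Σ j : Fin (k + 1), Fin (d j))
    (Σ j : Fin (k + 1), Fin (d j)) ℂ) (hU : U * U.conjTranspose = 1)
    {l : (Σ j : Fin (k + 1), Fin (d j)) → ℝ} (hl : ∀ i, 0 ≤ l i) {V : ℕ → ℝ}
    (hV0 : ∀ j ≤ k, 0 ≤ V j) (hV : ∀ j < k, V (j + 1) ≤ V j) {κ C : ℝ} (hκ : 0 ≤ κ) (hC : 0 ≤ C)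
    (h : ∀ j < k, {i | l i < κ * (j + 1) - C}.ncard ≤ ∑ s ∈ Finset.range (j + 1), d s) :
    κ * ∑ j : Fin (k + 1), (j : ℝ) * (d j * V j) - C * ∑ j : Fin (k + 1), d j * V j ≤
      ∑ i, l i * ∑ a, ‖U i a‖ ^ 2 * V a.1 := by
  classical
  have hU' : U.conjTranspose * U = 1 := mul_eq_one_comm.mp hU
  have row : ∀ i, ∑ a, ‖U i a‖ ^ 2 = 1 := by
    intro i
    have := congrFun (congrFun hU i) i
    rw [Matrix.mul_apply, Matrix.one_apply_eq] at this
    simp only [Matrix.conjTranspose_apply, RCLike.star_def, Complex.mul_conj'] at this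
    exact_mod_cast this
  have col : ∀ a, ∑ i, ‖U i a‖ ^ 2 = 1 := by
    intro a
    have := congrFun (congrFun hU' a) a
    rw [Matrix.mul_apply, Matrix.one_apply_eq] at this
    simp only [Matrix.conjTranspose_apply, RCLike.star_def, Complex.conj_mul'] at this
    exact_mod_cast this
  set W : ℕ → ℝ := fun j => if j ≤ k then V j else 0 with hW
  have hWk : W (k + 1) = 0 := by simp [hW]
  have hδ : ∀ j ∈ Finset.range (k + 1), 0 ≤ W j - W (j + 1) := by
    intro j hj
    have hj' : j ≤ k := Nat.lt_succ_iff.mp (Finset.mem_range.mp hj)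
    simp only [hW, if_pos hj']
    split_ifs with h1
    · exact sub_nonneg.mpr (hV j (by omega))
    · simpa using hV0 j hj'
  have hVW : ∀ s : Fin (k + 1), V s =
      ∑ j ∈ Finset.range (k + 1), if (s : ℕ) ≤ j then W j - W (j + 1) else 0 := by
    intro s
    have hs : (s : ℕ) ≤ k := Nat.lt_succ_iff.mp s.2
    rw [← ONum_abel W k s hs hWk]
    simp [hW, hs]
  set θ : (Σ j : Fin (k + 1), Fin (d j)) → ℕ → ℝ :=
    fun i j => ∑ a, if (a.1 : ℕ) ≤ j then ‖U i a‖ ^ 2 else 0 with hθ
  have key : ∀ j ∈ Finset.range (k + 1),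
      (W j - W (j + 1)) * (κ * ∑ s ∈ Finset.range (j + 1), (s : ℝ) * d s -
        C * ∑ s ∈ Finset.range (j + 1), (d s : ℝ)) ≤ (W j - W (j + 1)) * ∑ i, l i * θ i j := by
    intro j hj
    have hj' : j ≤ k := Nat.lt_succ_iff.mp (Finset.mem_range.mp hj)
    refine mul_le_mul_of_nonneg_left (ONum_one (fun i => θ i j) l d j hl (fun i => ?_)
      (fun i => ?_) hκ hC ?_ fun r hr => h r (by omega)) (hδ j hj)
    · exact Finset.sum_nonneg fun a _ => by split_ifs <;> positivity
    · rw [← row i]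
      exact Finset.sum_le_sum fun a _ => by
        split_ifs
        · exact le_rfl
        · positivity
    · simp only [hθ]
      rw [Finset.sum_comm, ← ONum_fin k j hj' (fun s => (d s : ℝ)), Fintype.sum_sigma]
      refine Finset.sum_congr rfl fun s _ => ?_
      split_ifs with hs
      · simp only [col]; simp
      · simp
  have tot := Finset.sum_le_sum key
  have e1 : ∑ i, l i * ∑ a, ‖U i a‖ ^ 2 * V a.1 =
      ∑ j ∈ Finset.range (k + 1), (W j - W (j + 1)) * ∑ i, l i * θ i j := by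
    simp only [hVW, hθ, Finset.mul_sum]
    rw [Finset.sum_comm (s := Finset.range (k + 1))]
    refine Finset.sum_congr rfl fun i _ => ?_
    rw [Finset.sum_comm (s := Finset.range (k + 1))]
    refine Finset.sum_congr rfl fun a _ => Finset.sum_congr rfl fun j _ => ?_
    split_ifs <;> ring
  have e2 : ∀ f : ℕ → ℝ, ∑ s : Fin (k + 1), f s * V s =
      ∑ j ∈ Finset.range (k + 1), (W j - W (j + 1)) * ∑ s ∈ Finset.range (j + 1), f s := by
    intro f
    simp only [hVW, Finset.mul_sum]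
    rw [Finset.sum_comm]
    refine Finset.sum_congr rfl fun j hj => ?_
    have hj' : j ≤ k := Nat.lt_succ_iff.mp (Finset.mem_range.mp hj)
    rw [← ONum_fin k j hj' (fun s => (W j - W (j + 1)) * f s)]
    refine Finset.sum_congr rfl fun s _ => ?_
    split_ifs <;> ring
  have e3 := e2 fun s => (s : ℝ) * d s
  have e4 := e2 fun s => (d s : ℝ)
  simp only [mul_assoc] at e3
  rw [e1, e3, e4, Finset.mul_sum, Finset.mul_sum, ← Finset.sum_sub_distrib]
  refine le_trans (le_of_eq (Finset.sum_congr rfl fun j _ => ?_)) tot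
  ring

end Vale.Agent.P282
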