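import Vale.Agent.P282.OSlope
import Vale.Agent.P282.OBerg
import Vale.Agent.P282.OAd
import Vale.Agent.P282.ONum
import Vale.Agent.P282.SAn1
import Vale.Agent.P282.AProj0

set_option linter.unusedSectionVars false

open scoped ENNReal TensorProduct Topology ComplexConjugate
open Filter MeasureTheory

noncomputable section

namespace Vale.Agent.P282

variable {R K : Type} [CommRing R] [IsDomain R] [Algebra ℂ R] [Algebra.FiniteType ℂ R]
  [IsIntegrallyClosed R] [Field K] [Algebra R K] [IsFractionRing R K] [Algebra ℂ K]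
  [IsScalarTower ℂ R K] {n : ℕ}

variable {G : WS R K n} {π : Proj R n} {z : Fin (n + 1) → R}

theorem OCone_unit {ι : Type} [Fintype ι] [DecidableEq ι] (U : Matrix ι ι ℂ)
    (hU : U * U.conjTranspose = 1) (x : ι → ℂ) :
    ∑ i, ‖∑ a, U i a * x a‖ ^ 2 = ∑ a, ‖x a‖ ^ 2 := by
  have h1 : U.conjTranspose * U = 1 := mul_eq_one_comm.1 hU
  have h2 : ∀ a b, ∑ i, conj (U i a) * U i b = if a = b then 1 else 0 := fun a b => by
    have := congrFun (congrFun h1 a) b
    simpa [Matrix.mul_apply, Matrix.one_apply] using this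
  have h3 : ∀ c : ℂ, ((‖c‖ ^ 2 : ℝ) : ℂ) = conj c * c := fun c => by
    rw [Complex.conj_mul']; push_cast; rfl
  apply Complex.ofReal_injective
  rw [Complex.ofReal_sum, Complex.ofReal_sum]
  simp only [h3, map_sum, map_mul, Finset.sum_mul, Finset.mul_sum]
  rw [Finset.sum_comm]
  refine Finset.sum_congr rfl fun b _ => ?_
  rw [Finset.sum_comm]
  have h4 : ∀ a, ∑ i, conj (U i a) * conj (x a) * (U i b * x b) =
      (if a = b then 1 else 0) * (conj (x a) * x b) := fun a => by
    rw [← h2, Finset.sum_mul]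
    exact Finset.sum_congr rfl fun i _ => by ring
  simp only [h4]
  simp

theorem OCone_nz (p : Pt R) : 0 ≤ nz z p := Finset.sum_nonneg fun _ _ => by positivity

theorem OCone_cont : Continuous fun p : Pt R => nz z p :=
  continuous_finsetSum _ fun i _ => ((Pt.cont (z i)).norm.pow 2)

theorem OCone_int (A : An π (G.ρ π.y)) (h : Cone G π z) {k : ℕ} {ι : Type} [Fintype ι]
    [DecidableEq ι] {e : ι → R} {W : ι → ℝ}
    (h2 : ∀ a b, ∫ p : Pt R, p (e a) * conj (p (e b)) *
      ((1 / (1 + nz z p) ^ (k + n) : ℝ) : ℂ) ∂A.nu G = if a = b then ((W a : ℝ) : ℂ) else 0)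
    (h3 : ∀ p : Pt R, ∑ a, ‖p (e a)‖ ^ 2 = (1 + nz z p) ^ k) (c : ι → ℂ) :
    ∫ p : Pt R, ‖p (∑ a, c a • e a)‖ ^ 2 / (1 + nz z p) ^ (k + n) ∂A.nu G =
      ∑ a, ‖c a‖ ^ 2 * W a := by
  have hi : ∀ a b, Integrable (fun p : Pt R => p (e a) * conj (p (e b)) *
      ((1 / (1 + nz z p) ^ (k + n) : ℝ) : ℂ)) (A.nu G) := fun a b => by
    refine (h.rad_int A (j := 0) (M := n) (by omega)).mono' ?_ (.of_forall fun p => ?_)
    · refine Continuous.aestronglyMeasurable ?_
      refine ((Pt.cont _).mul (Complex.continuous_conj.comp (Pt.cont _))).mul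
        (Complex.continuous_ofReal.comp (continuous_const.div
          ((continuous_const.add OCone_cont).pow _) fun p => ?_))
      have := OCone_nz (z := z) p
      positivity
    · have h0 := OCone_nz (z := z) p
      have ha : ‖p (e a)‖ ^ 2 ≤ (1 + nz z p) ^ k := by
        rw [← h3]
        exact Finset.single_le_sum (f := fun a => ‖p (e a)‖ ^ 2) (fun _ _ => by positivity)
          (Finset.mem_univ a)
      have hb : ‖p (e b)‖ ^ 2 ≤ (1 + nz z p) ^ k := by
        rw [← h3]
        exact Finset.single_le_sum (f := fun a => ‖p (e a)‖ ^ 2) (fun _ _ => by positivity)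
          (Finset.mem_univ b)
      have hab : ‖p (e a)‖ * ‖p (e b)‖ ≤ (1 + nz z p) ^ k := by
        nlinarith [sq_nonneg (‖p (e a)‖ - ‖p (e b)‖)]
      rw [norm_mul, norm_mul, Complex.norm_conj, Complex.norm_real, Real.norm_of_nonneg
        (by positivity), pow_zero, pow_add, mul_one_div, div_le_div_iff₀ (by positivity)
        (by positivity)]
      rw [one_mul]
      gcongr
  have h4 : ∀ c : ℂ, ((‖c‖ ^ 2 : ℝ) : ℂ) = c * conj c := fun c => by
    rw [Complex.mul_conj']; push_cast; rfl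
  apply Complex.ofReal_injective
  rw [← integral_complex_ofReal]
  have h5 : ∀ p : Pt R, ((‖p (∑ a, c a • e a)‖ ^ 2 / (1 + nz z p) ^ (k + n) : ℝ) : ℂ) =
      ∑ a, ∑ b, c a * conj (c b) * (p (e a) * conj (p (e b)) *
        ((1 / (1 + nz z p) ^ (k + n) : ℝ) : ℂ)) := fun p => by
    rw [div_eq_mul_one_div, Complex.ofReal_mul, h4]
    simp only [map_sum, map_smul, smul_eq_mul, map_mul, Finset.sum_mul, Finset.mul_sum]
    rw [Finset.sum_comm]
    exact Finset.sum_congr rfl fun a _ => Finset.sum_congr rfl fun b _ => by ring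
  simp only [h5]
  rw [integral_finsetSum _ fun a _ => integrable_finsetSum _ fun b _ => (hi a b).const_mul _,
    Complex.ofReal_sum]
  refine Finset.sum_congr rfl fun a _ => ?_
  rw [integral_finsetSum _ fun b _ => (hi a b).const_mul _]
  simp only [integral_const_mul, h2]
  rw [Complex.ofReal_mul, h4]
  simp

theorem OCone_anti (A : An π (G.ρ π.y)) (h : Cone G π z) {k j : ℕ} (hj : j < k) :
    (k.choose (j + 1) : ℝ) * II G A z (j + 1) (k + n) / dd n (j + 1) ≤
      (k.choose j : ℝ) * II G A z j (k + n) / dd n j := by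
  have hn := h.two
  have h1 := h.II_rec A (j := j) (M := k + n) (by omega)
  have h2 : (k.choose (j + 1) : ℝ) * (j + 1) = k.choose j * ((k : ℝ) - j) := by
    have := congrArg (Nat.cast (R := ℝ)) (Nat.choose_succ_right_eq k j)
    rw [Nat.cast_mul, Nat.cast_mul, Nat.cast_sub hj.le] at this
    exact_mod_cast this
  have h3 : ((j : ℝ) + n - 1) * dd n j ≤ (j + 1) * dd n (j + 1) := by
    have := dd_mono hn j
    have h' : ((j + n - 1 : ℕ) : ℝ) = (j : ℝ) + n - 1 := by
      rw [Nat.cast_sub (by omega)]; push_cast; ring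
    rw [← h']
    exact_mod_cast this
  have h4 : (0 : ℝ) < dd n j := by exact_mod_cast dd_pos hn j
  have h5 : (0 : ℝ) < dd n (j + 1) := by exact_mod_cast dd_pos hn (j + 1)
  have h6 := h.II_pos A (j := j) (M := k + n) (by omega)
  have h7 : (0 : ℝ) < (j : ℝ) + 1 := by positivity
  have h8 : (k.choose (j + 1) : ℝ) * II G A z (j + 1) (k + n) * (j + 1) =
      k.choose j * II G A z j (k + n) * ((j : ℝ) + n - 1) := by
    push_cast at h1
    linear_combination II G A z (j + 1) (k + n) * h2 - (k.choose j : ℝ) * h1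
  rw [div_le_div_iff₀ h5 h4]
  refine le_of_mul_le_mul_right ?_ h7
  have h9 : (0 : ℝ) ≤ k.choose j * II G A z j (k + n) := by positivity
  calc _ = (k.choose (j + 1) : ℝ) * II G A z (j + 1) (k + n) * (j + 1) * dd n j := by ring
    _ = k.choose j * II G A z j (k + n) * (((j : ℝ) + n - 1) * dd n j) := by rw [h8]; ring
    _ ≤ k.choose j * II G A z j (k + n) * ((j + 1) * dd n (j + 1)) := by gcongr
    _ = _ := by ring

theorem Cone.step (h : Cone G π z) (x : Pt R) {w : RVal K} (hw : w.CenteredAt x.m)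
    (hA : G.ω.A w ≠ ⊤) {κ t₀ : ℝ} (hκ : 0 ≤ κ) (ht : 0 ≤ t₀)
    (hv : ∀ l : ℕ, t₀ ≤ κ * l →
      (n.factorial : ℝ) * Module.finrank ℂ (R ⧸ w.sub R (κ * l)) ≤ 2 * l ^ n) {k : ℕ} (hk : 0 < k) :
    κ * (n - 1) - n / k * (κ + t₀) ≤ (G.ω.A w).toReal := by
  have hn := h.two
  obtain ⟨A⟩ := exists_an π (G.ρ_ne π)
  obtain ⟨e, -, h2, h3⟩ := h.berg A k
  set V : ℕ → ℝ := fun j => (k.choose j : ℝ) * II G A z j (k + n) / dd n j with hV
  have hVp : ∀ j ≤ k, 0 < V j := fun j hj => by
    have h4 : (0 : ℝ) < dd n j := by exact_mod_cast dd_pos hn j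
    have h5 : (0 : ℝ) < k.choose j := by exact_mod_cast Nat.choose_pos hj
    have h6 := h.II_pos A (j := j) (M := k + n) (by omega)
    exact div_pos (mul_pos h5 h6) h4
  have hI := OCone_int A h (W := fun a => V a.1) h2 h3
  have he : LinearIndependent ℂ e := by
    rw [Fintype.linearIndependent_iff]
    intro c hc a
    have h4 := hI c
    rw [hc] at h4
    simp only [map_zero, norm_zero, ne_eq, OfNat.ofNat_ne_zero, not_false_eq_true, zero_pow,
      zero_div, integral_zero] at h4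
    have h5 := (Finset.sum_eq_zero_iff_of_nonneg fun b _ =>
      mul_nonneg (sq_nonneg _) (hVp b.1 (Nat.lt_succ_iff.1 b.1.2)).le).1 h4.symm a
      (Finset.mem_univ a)
    have h6 := hVp a.1 (Nat.lt_succ_iff.1 a.1.2)
    simpa [h6.ne'] using h5
  obtain ⟨U, hU, hU0, hU1⟩ := exists_adapted he x hw
  have h4 := h.slope A (fun i => ∑ a, U i a • e a) hU0 hk (fun p => by
    rw [← h3, ← OCone_unit U hU fun a => p (e a)]
    simp only [map_sum, map_smul, smul_eq_mul]) w hw.1 hA
  simp only [hI] at h4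
  have hl : ∀ i, 0 ≤ w.v (algebraMap R K (∑ a, U i a • e a)) := fun i =>
    (hw.1 _).resolve_left ((map_ne_zero_iff _ (IsFractionRing.injective R K)).2 (hU0 i))
  have h5 := bathtub (dd n) U hU hl (V := V) (fun j hj => (hVp j hj).le)
    (fun j hj => OCone_anti A h hj) hκ (add_nonneg hκ ht) (fun j _ => by
      by_cases hj : t₀ ≤ κ * j
      · have a1 := hv j hj
        have a2 : (2 : ℝ) * j ^ n ≤ n.factorial * (∑ s ∈ Finset.range (j + 1), dd n s : ℕ) := by
          exact_mod_cast dd_sum hn j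
        have a3 : (0 : ℝ) < n.factorial := by exact_mod_cast n.factorial_pos
        have a4 : Module.finrank ℂ (R ⧸ w.sub R (κ * j)) ≤ ∑ s ∈ Finset.range (j + 1), dd n s := by
          exact_mod_cast le_of_mul_le_mul_left (a1.trans a2) a3
        refine le_trans (Set.ncard_le_ncard (fun i hi => ?_) (Set.toFinite _))
          ((hU1 (κ * j)).trans a4)
        simp only [Set.mem_ofPred_eq] at hi ⊢
        linarith
      · have a1 : {i | w.v (algebraMap R K (∑ a, U i a • e a)) < κ * (j + 1) - (κ + t₀)} = ∅ :=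
          Set.eq_empty_of_forall_notMem fun i hi => by
            simp only [Set.mem_ofPred_eq] at hi
            have := hl i
            linarith
        rw [a1, Set.ncard_empty]
        exact Nat.zero_le _)
  have h6 : ∀ j : ℕ, (dd n j : ℝ) * V j = (k.choose j : ℝ) * II G A z j (k + n) := fun j => by
    have h4 : (0 : ℝ) < dd n j := by exact_mod_cast dd_pos hn j
    simp only [hV]
    field_simp
  simp only [h6] at h5
  obtain ⟨h7, h8⟩ := h.II_sum A k
  rw [h7] at h5
  have h9 := h.II_pos A (j := 0) (M := n) (by omega)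
  have hk' : (0 : ℝ) < k := by exact_mod_cast hk
  refine le_of_mul_le_mul_right (le_trans ?_ h4) h9
  refine le_trans (le_of_eq ?_) (mul_le_mul_of_nonneg_left h5 (by positivity))
  have h10 : (k : ℝ) * (k : ℝ)⁻¹ = 1 := mul_inv_cancel₀ hk'.ne'
  linear_combination (-κ * (k : ℝ)⁻¹) * h8 - κ * (n - 1) * II G A z 0 n * h10

/-- the lower bound on the cone -/
theorem Cone.low (h : Cone G π z) (x : Pt R) {w : RVal K} (hw : w.CenteredAt x.m)
    (hA : G.ω.A w ≠ ⊤) : bd n ≤ nv G.ω x.m w := by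
  have hn := h.two
  have hpos : 0 < G.ω.A w := by
    refine G.klt w ?_ hw.1
    let i : Fin n := ⟨0, by omega⟩
    have h1 : π.y i - algebraMap ℂ R (x (π.y i)) ≠ 0 := fun h0 => by
      have h2 : MvPolynomial.aeval π.y (MvPolynomial.X i - MvPolynomial.C (x (π.y i)) :
          MvPolynomial (Fin n) ℂ) = 0 := by simpa using h0
      have h3 := π.ind.eq_zero_of_aeval_eq_zero _ h2
      have h4 := congrArg (MvPolynomial.eval fun _ => x (π.y i) + 1) h3
      simp at h4
    have h2 := (map_ne_zero_iff _ (IsFractionRing.injective R K)).2 h1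
    refine ⟨_, h2, ((hw.2 _ h2).2 ?_).ne'⟩
    rw [Pt.mem_m, map_sub, AlgHomClass.commutes]
    simp
  have ha : 0 < (G.ω.A w).toReal := EReal.toReal_pos hpos hA
  have key : ∀ V : ℝ, 0 < V → vol x.m n w < ENNReal.ofReal V →
      2 * ((n : ℝ) - 1) ^ n ≤ (G.ω.A w).toReal ^ n * V := fun V hV hlt => by
    obtain ⟨t, ht⟩ := eventually_atTop.1 (le_of_vol x hw hlt)
    set κ : ℝ := (2 / V) ^ ((n : ℝ)⁻¹) with hκ
    have hκ0 : 0 ≤ κ := by positivity
    have hκ1 : κ ^ n = 2 / V := Real.rpow_inv_natCast_pow (by positivity) (by omega)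
    have h1 : ∀ k : ℕ, 0 < k → κ * (n - 1) - n / k * (κ + max t 0) ≤ (G.ω.A w).toReal :=
      fun k hk => h.step x hw hA hκ0 (le_max_right _ _) (fun l hl => by
        refine (ht _ ((le_max_left _ _).trans hl)).trans (le_of_eq ?_)
        rw [mul_pow, hκ1]
        field_simp) hk
    have h2 : Tendsto (fun k : ℕ => κ * (n - 1) - n / k * (κ + max t 0)) atTop
        (𝓝 (κ * (n - 1) - 0 * (κ + max t 0))) :=
      tendsto_const_nhds.sub ((tendsto_const_div_atTop_nhds_zero_nat (n : ℝ)).mul_const _)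
    have h3 := le_of_tendsto h2 ((eventually_gt_atTop 0).mono h1)
    rw [zero_mul, sub_zero] at h3
    have h4 : (1 : ℝ) ≤ n := by exact_mod_cast (by omega : 1 ≤ n)
    have h5 := pow_le_pow_left₀ (mul_nonneg hκ0 (sub_nonneg.2 h4)) h3 n
    rw [mul_pow, hκ1, div_mul_eq_mul_div, div_le_iff₀ hV] at h5
    exact h5
  unfold nv bd
  by_cases hv : vol x.m n w = ⊤
  · rw [hv, ENNReal.mul_top (by simpa using pow_pos ha n)]
    exact le_top
  have h1 : 2 * ((n : ℝ) - 1) ^ n ≤ (G.ω.A w).toReal ^ n * (vol x.m n w).toReal := by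
    have h2 : Tendsto (fun V : ℝ => (G.ω.A w).toReal ^ n * V) (𝓝[>] (vol x.m n w).toReal)
        (𝓝 ((G.ω.A w).toReal ^ n * (vol x.m n w).toReal)) :=
      ((continuous_const.mul continuous_id).tendsto _).mono_left nhdsWithin_le_nhds
    refine ge_of_tendsto h2 (eventually_nhdsWithin_of_forall fun V hV => ?_)
    exact key V (lt_of_le_of_lt ENNReal.toReal_nonneg hV)
      ((ENNReal.lt_ofReal_iff_toReal_lt hv).2 hV)
  have h2 : (2 : ℝ≥0∞) * ((n - 1 : ℕ) : ℝ≥0∞) ^ n = ENNReal.ofReal (2 * ((n : ℝ) - 1) ^ n) := by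
    have h3 : ((n : ℝ) - 1) = ((n - 1 : ℕ) : ℝ) := by
      rw [Nat.cast_sub (by omega)]; simp
    rw [h3, ENNReal.ofReal_mul (by norm_num), ENNReal.ofReal_pow (Nat.cast_nonneg _),
      ENNReal.ofReal_natCast]
    simp
  rw [h2]
  refine (ENNReal.ofReal_le_ofReal h1).trans (le_of_eq ?_)
  rw [ENNReal.ofReal_mul (by positivity), ENNReal.ofReal_toReal hv]

end Vale.Agent.P282
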