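import Vale.Agent.P282.Base

set_option linter.unusedSectionVars false

open scoped ENNReal TensorProduct Topology
open Filter MeasureTheory

noncomputable section

namespace Vale.Agent.P282

variable {R K : Type} [CommRing R] [IsDomain R] [Algebra ℂ R] [Algebra.FiniteType ℂ R]
  [IsIntegrallyClosed R] [Field K] [Algebra R K] [IsFractionRing R K] [Algebra ℂ K]
  [IsScalarTower ℂ R K] {n : ℕ}

/-- weighted exponential sums -/
def OConv_S {Y J : Type} [Fintype J] (a : J → Y → ℝ) (l : J → ℝ) (k : ℕ) (τ : ℝ) (p : Y) : ℝ :=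
  ∑ j, l j ^ k * (Real.exp (τ * l j) * a j p)

theorem OConv_der {Y J : Type} [Fintype J] (a : J → Y → ℝ) (l : J → ℝ) (k : ℕ) (τ : ℝ) (p : Y) :
    HasDerivAt (fun t => OConv_S a l k t p) (OConv_S a l (k + 1) τ p) τ := by
  refine HasDerivAt.fun_sum fun j _ => ?_
  refine ((((hasDerivAt_id' τ).mul_const (l j)).exp.mul_const (a j p)).const_mul
    (l j ^ k)).congr_deriv ?_
  ring

theorem OConv_meas {Y J : Type} [MeasurableSpace Y] [Fintype J] {a : J → Y → ℝ}
    (hm : ∀ j, Measurable (a j)) (l : J → ℝ) (k : ℕ) (τ : ℝ) : Measurable (OConv_S a l k τ) :=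
  Finset.measurable_fun_sum _ fun j _ => ((hm j).const_mul _).const_mul _

theorem OConv_low {Y J : Type} [Fintype J] {a : J → Y → ℝ} (h0 : ∀ j p, 0 ≤ a j p) {l : J → ℝ}
    (hl : ∀ j, 0 ≤ l j) {τ : ℝ} (hτ : -1 < τ) (p : Y) :
    Real.exp (-∑ j, l j) * ∑ j, a j p ≤ OConv_S a l 0 τ p := by
  rw [Finset.mul_sum]
  refine Finset.sum_le_sum fun j _ => ?_
  rw [pow_zero, one_mul]
  refine mul_le_mul_of_nonneg_right (Real.exp_le_exp.2 ?_) (h0 j p)
  have := Finset.single_le_sum (fun j _ => hl j) (Finset.mem_univ j)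
  nlinarith [hl j]

theorem OConv_rat {Y J : Type} [Fintype J] {a : J → Y → ℝ} (h0 : ∀ j p, 0 ≤ a j p) {l : J → ℝ}
    (hl : ∀ j, 0 ≤ l j) (k : ℕ) (τ : ℝ) (p : Y) :
    |OConv_S a l k τ p / OConv_S a l 0 τ p| ≤ (∑ j, l j) ^ k := by
  have q : ∀ j, 0 ≤ Real.exp (τ * l j) * a j p := fun j => mul_nonneg (Real.exp_pos _).le (h0 j p)
  have z : ∀ k, 0 ≤ OConv_S a l k τ p := fun k =>
    Finset.sum_nonneg fun j _ => mul_nonneg (pow_nonneg (hl j) k) (q j)
  rw [abs_of_nonneg (div_nonneg (z k) (z 0))]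
  refine div_le_of_le_mul₀ (z 0) (pow_nonneg (Finset.sum_nonneg fun j _ => hl j) k) ?_
  unfold OConv_S
  rw [Finset.mul_sum]
  refine Finset.sum_le_sum fun j _ => ?_
  rw [pow_zero, one_mul]
  exact mul_le_mul_of_nonneg_right (pow_le_pow_left₀ (hl j)
    (Finset.single_le_sum (fun j _ => hl j) (Finset.mem_univ j)) k) (q j)

theorem OConv_int {Y : Type} [MeasurableSpace Y] {ν : Measure Y} {w : Y → ℝ} (hw : Integrable w ν)
    {F F' : ℝ → Y → ℝ} (hF : ∀ t, Integrable (F t) ν ∨ t ≤ -1) (hF' : ∀ t, Measurable (F' t))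
    {M : ℝ} (hb : ∀ t, -1 < t → ∀ p, |F' t p| ≤ M * w p)
    (hd : ∀ t p, HasDerivAt (F · p) (F' t p) t) {t : ℝ} (ht : 0 ≤ t) :
    HasDerivAt (fun t => ∫ p, F t p ∂ν) (∫ p, F' t p ∂ν) t := by
  have n : Set.Ioi (-1 : ℝ) ∈ 𝓝 t := Ioi_mem_nhds (by linarith)
  have i : ∀ t, -1 < t → Integrable (F t) ν := fun t h => (hF t).resolve_right h.not_ge
  exact (hasDerivAt_integral_of_dominated_loc_of_deriv_le n
    (mem_of_superset n fun t h => (i t h).1) (i t (by linarith)) (hF' t).aestronglyMeasurable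
    (.of_forall fun p s hs => hb s hs p) (hw.const_mul M) (.of_forall fun p s _ => hd s p)).2

theorem OConv_end {I A V B : ℝ → ℝ} {c α C : ℝ} (hc : 0 < c) (hC : 0 < C)
    (p : ∀ t, 0 ≤ t → 0 < I t) (d1 : ∀ t, 0 ≤ t → HasDerivAt I (-c * A t) t)
    (d2 : ∀ t, 0 ≤ t → HasDerivAt A (V t - c * B t) t)
    (hv : ∀ t, 0 ≤ t → c * (I t * B t - A t ^ 2) ≤ I t * V t)
    (hα : ∀ᶠ τ : ℝ in atTop, C⁻¹ * Real.exp (-τ * α) ≤ I τ) : c * A 0 ≤ α * I 0 := by
  have d3 := fun t (ht : 0 ≤ t) => (d2 t ht).fun_div (d1 t ht) (p t ht).ne'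
  have m1 : MonotoneOn (fun t => A t / I t) (Set.Ici 0) :=
    monotoneOn_of_hasDerivWithinAt_nonneg (convex_Ici 0)
      (fun t ht => (d3 t ht).continuousAt.continuousWithinAt)
      (fun t ht => (d3 t (interior_subset ht)).hasDerivWithinAt) fun t ht =>
        div_nonneg (by linarith [hv t (interior_subset ht)]) (sq_nonneg _)
  set g := c * (A 0 / I 0) with hg
  have d4 := fun t (ht : 0 ≤ t) => (d1 t ht).fun_mul ((hasDerivAt_id' t).mul_const g).exp
  have m2 : AntitoneOn (fun t => I t * Real.exp (t * g)) (Set.Ici 0) :=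
    antitoneOn_of_hasDerivWithinAt_nonpos (convex_Ici 0)
      (fun t ht => (d4 t ht).continuousAt.continuousWithinAt)
      (fun t ht => (d4 t (interior_subset ht)).hasDerivWithinAt) fun t ht => by
        have h : 0 ≤ t := interior_subset ht
        have q := (le_div_iff₀ (p t h)).1 (m1 Set.self_mem_Ici h h)
        have q2 := mul_le_mul_of_nonneg_left (mul_le_mul_of_nonneg_left q hc.le)
          (Real.exp_pos (t * g)).le
        rw [← mul_assoc c, ← hg] at q2
        linarith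
  have key : g ≤ α := by
    by_contra h
    have t : Tendsto (fun t : ℝ => C⁻¹ * Real.exp (t * (g - α))) atTop atTop :=
      (Real.tendsto_exp_atTop.comp (tendsto_id.atTop_mul_const (by linarith))).const_mul_atTop
        (inv_pos.2 hC)
    obtain ⟨t, h1, h2, h3⟩ := (hα.and ((t.eventually_gt_atTop (I 0)).and
      (eventually_ge_atTop 0))).exists
    have q := m2 Set.self_mem_Ici h3 h3
    have q2 := mul_le_mul_of_nonneg_right h1 (Real.exp_pos (t * g)).le
    rw [mul_assoc, ← Real.exp_add, show -t * α + t * g = t * (g - α) by ring] at q2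
    simp only [zero_mul, Real.exp_zero, mul_one] at q
    linarith
  rwa [hg, ← mul_div_assoc, div_le_iff₀ (p 0 le_rfl)] at key

/-- convexity and the slope at the origin -/
theorem conv_slope {Y J : Type} [MeasurableSpace Y] (ν : Measure Y) [Fintype J] {a : J → Y → ℝ}
    (hm : ∀ j, Measurable (a j)) (h0 : ∀ j p, 0 ≤ a j p) (h1 : ∀ p, 0 < ∑ j, a j p) {l : J → ℝ}
    (hl : ∀ j, 0 ≤ l j) {c : ℝ} (hc : 0 < c) (hi : Integrable (fun p => (∑ j, a j p) ^ (-c)) ν)
    (hv : ∀ τ : ℝ, 0 ≤ τ → ∀ S S₁ S₂ : Y → ℝ, (S = fun p => ∑ j, Real.exp (τ * l j) * a j p) →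
      (S₁ = fun p => ∑ j, l j * (Real.exp (τ * l j) * a j p)) →
      (S₂ = fun p => ∑ j, l j ^ 2 * (Real.exp (τ * l j) * a j p)) →
      c * ((∫ p, S p ^ (-c) ∂ν) * (∫ p, (S₁ p / S p) ^ 2 * S p ^ (-c) ∂ν) -
          (∫ p, S₁ p / S p * S p ^ (-c) ∂ν) ^ 2) ≤
        (∫ p, S p ^ (-c) ∂ν) * ∫ p, (S₂ p / S p - (S₁ p / S p) ^ 2) * S p ^ (-c) ∂ν)
    {α C : ℝ} (hC : 0 < C) (hα : ∀ᶠ τ : ℝ in atTop, C⁻¹ * Real.exp (-τ * α) ≤
      ∫ p, (∑ j, Real.exp (τ * l j) * a j p) ^ (-c) ∂ν) :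
    c * ∫ p, (∑ j, l j * a j p) / (∑ j, a j p) * (∑ j, a j p) ^ (-c) ∂ν ≤
      α * ∫ p, (∑ j, a j p) ^ (-c) ∂ν := by
  set L := ∑ j, l j with hL
  have L0 : 0 ≤ L := Finset.sum_nonneg fun j _ => hl j
  have e0 : ∀ τ p, ∑ j, Real.exp (τ * l j) * a j p = OConv_S a l 0 τ p := fun τ p => by
    simp only [OConv_S, pow_zero, one_mul]
  have e1 : ∀ τ p, ∑ j, l j * (Real.exp (τ * l j) * a j p) = OConv_S a l 1 τ p := fun τ p => by
    simp only [OConv_S, pow_one]
  have pos : ∀ τ p, 0 < OConv_S a l 0 τ p := fun τ p => by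
    obtain ⟨j, -, hj⟩ := Finset.exists_ne_zero_of_sum_ne_zero (h1 p).ne'
    rw [← e0]
    exact Finset.sum_pos' (fun j _ => mul_nonneg (Real.exp_pos _).le (h0 j p))
      ⟨j, Finset.mem_univ j, mul_pos (Real.exp_pos _) ((h0 j p).lt_of_ne' hj)⟩
  have m := OConv_meas hm l
  have mw : ∀ t, Measurable fun p => OConv_S a l 0 t p ^ (-c) := fun t => (m 0 t).pow_const _
  have bd : ∀ {u : ℝ} {M t : ℝ} (p : Y), |u| ≤ M → -1 < t → |u * OConv_S a l 0 t p ^ (-c)| ≤
      M * Real.exp (-L) ^ (-c) * (∑ j, a j p) ^ (-c) := fun {u M t} p hu ht => by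
    rw [abs_mul, mul_assoc, ← Real.mul_rpow (Real.exp_pos _).le (h1 p).le,
      abs_of_pos (Real.rpow_pos_of_pos (pos t p) _)]
    exact mul_le_mul hu (Real.rpow_le_rpow_of_nonpos (mul_pos (Real.exp_pos _) (h1 p))
      (OConv_low h0 hl ht p) (by linarith)) (Real.rpow_pos_of_pos (pos t p) _).le
      ((abs_nonneg u).trans hu)
  have it : ∀ {u : Y → ℝ} {M t : ℝ}, Measurable u → (∀ p, |u p| ≤ M) → -1 < t →
      Integrable (fun p => u p * OConv_S a l 0 t p ^ (-c)) ν := fun {u M t} hu hM ht =>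
    (hi.const_mul _).mono' (hu.mul (mw t)).aestronglyMeasurable (.of_forall fun p => bd p (hM p) ht)
  have r := OConv_rat h0 hl
  have r2 : ∀ t p, |(OConv_S a l 1 t p / OConv_S a l 0 t p) ^ 2| ≤ (L ^ 1) ^ 2 := fun t p => by
    rw [abs_pow]
    exact pow_le_pow_left₀ (abs_nonneg _) (r 1 t p) 2
  have r3 : ∀ t p, |OConv_S a l 2 t p / OConv_S a l 0 t p -
      (OConv_S a l 1 t p / OConv_S a l 0 t p) ^ 2| ≤ L ^ 2 + (L ^ 1) ^ 2 := fun t p =>
    (abs_sub _ _).trans (add_le_add (r 2 t p) (r2 t p))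
  have m1 := fun t => (m 1 t).fun_div (m 0 t)
  have m2 := fun t => (m1 t).pow_const 2
  have m3 := fun t => ((m 2 t).fun_div (m 0 t)).fun_sub (m2 t)
  have i0 : ∀ t, -1 < t → Integrable (fun p => OConv_S a l 0 t p ^ (-c)) ν := fun t ht => by
    simpa only [one_mul] using it (u := fun _ => 1) measurable_const (fun _ => le_rfl) ht
  have dw : ∀ t p, HasDerivAt (fun t => OConv_S a l 0 t p ^ (-c))
      (-c * (OConv_S a l 1 t p / OConv_S a l 0 t p) * OConv_S a l 0 t p ^ (-c)) t := fun t p => by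
    refine ((OConv_der a l 0 t p).rpow_const (.inl (pos t p).ne')).congr_deriv ?_
    rw [Real.rpow_sub_one (pos t p).ne']
    ring
  have hν : ν ≠ 0 := by
    rintro rfl
    obtain ⟨t, ht⟩ := hα.exists
    rw [integral_zero_measure] at ht
    exact ht.not_gt (by positivity)
  have := OConv_end (I := fun t => ∫ p, OConv_S a l 0 t p ^ (-c) ∂ν)
    (A := fun t => ∫ p, OConv_S a l 1 t p / OConv_S a l 0 t p * OConv_S a l 0 t p ^ (-c) ∂ν)
    (B := fun t => ∫ p, (OConv_S a l 1 t p / OConv_S a l 0 t p) ^ 2 * OConv_S a l 0 t p ^ (-c) ∂ν)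
    (V := fun t => ∫ p, (OConv_S a l 2 t p / OConv_S a l 0 t p -
      (OConv_S a l 1 t p / OConv_S a l 0 t p) ^ 2) * OConv_S a l 0 t p ^ (-c) ∂ν) hc hC
    (fun t ht => ?_) (fun t ht => ?_) (fun t ht => ?_)
    (fun t ht => hv t ht _ _ _ (funext fun p => (e0 t p).symm) (funext fun p => (e1 t p).symm) rfl)
    (by simpa only [e0] using hα)
  · simpa only [← e0, ← e1, zero_mul, Real.exp_zero, one_mul] using this
  · refine (integral_pos_iff_support_of_nonneg (fun p => (Real.rpow_pos_of_pos (pos t p) _).le)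
      (i0 t (by linarith))).2 ?_
    rw [Function.support_eq_univ fun p => (Real.rpow_pos_of_pos (pos t p) _).ne']
    exact Measure.measure_univ_pos.2 hν
  · refine (OConv_int hi (fun t => (lt_or_ge (-1) t).imp_left (i0 t))
      (fun t => ((m1 t).const_mul (-c)).fun_mul (mw t)) (fun t ht p => bd (M := c * L ^ 1) p ?_ ht)
      dw ht).congr_deriv ?_
    · rw [abs_mul, abs_neg, abs_of_pos hc]
      exact mul_le_mul_of_nonneg_left (r 1 t p) hc.le
    · simp only [mul_assoc, integral_const_mul]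
  · refine (OConv_int hi (fun t => (lt_or_ge (-1) t).imp_left (it (m1 t) (r 1 t)))
      (fun t => ((m3 t).fun_sub ((m2 t).const_mul c)).fun_mul (mw t))
      (fun t ht p => bd (M := L ^ 2 + (L ^ 1) ^ 2 + c * (L ^ 1) ^ 2) p ?_ ht)
      (fun t p => ?_) ht).congr_deriv ?_
    · refine (abs_sub _ _).trans (add_le_add (r3 t p) ?_)
      rw [abs_mul, abs_of_pos hc]
      exact mul_le_mul_of_nonneg_left (r2 t p) hc.le
    · refine (((OConv_der a l 1 t p).fun_div (OConv_der a l 0 t p) (pos t p).ne').fun_mul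
        (dw t p)).congr_deriv ?_
      have := (pos t p).ne'
      field_simp
      ring
    · have ht' : -1 < t := by linarith
      rw [← integral_const_mul, ← integral_sub (it (m3 t) (r3 t) ht')
        ((it (m2 t) (r2 t) ht').const_mul c)]
      exact integral_congr_ae (.of_forall fun p => by ring)

end Vale.Agent.P282
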