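import Vale.Agent.P282.SGr
import Vale.Agent.P282.KDefs

set_option linter.unusedSectionVars false

open scoped ENNReal TensorProduct Topology
open Filter MeasureTheory

noncomputable section

namespace Vale.Agent.P282

variable {R K : Type} [CommRing R] [IsDomain R] [Algebra ℂ R] [Algebra.FiniteType ℂ R]
  [IsIntegrallyClosed R] [Field K] [Algebra R K] [IsFractionRing R K] [Algebra ℂ K]
  [IsScalarTower ℂ R K] {n : ℕ}

/-- The quadric cone with its standard projection and volume form. -/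
structure Cone (G : WS R K n) (π : Proj R n) (z : Fin (n + 1) → R) : Prop where
  two : 2 ≤ n
  m : G.ω.m = 1
  y : ∀ i, π.y i = z i.succ
  rel : ∑ i, z i ^ 2 = 0
  gen : Algebra.adjoin ℂ (Set.range z) = ⊤
  ker : ∀ P : MvPolynomial (Fin (n + 1)) ℂ, MvPolynomial.aeval z P = 0 →
    (∑ i, MvPolynomial.X i ^ 2) ∣ P
  rho : G.ρ π.y = z 0

/-- Pull back of points. -/
def Pt.pull (φ : R ≃ₐ[ℂ] R) (p : Pt R) : Pt R := p.hom.comp φ.toAlgHom

/-- The volume measure. -/
def An.nu (G : WS R K n) {π : Proj R n} (A : An π (G.ρ π.y)) : Measure (Pt R) :=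
  (A.S.μ.withDensity fun p => ENNReal.ofReal (dens G π 0 p.1)).map Subtype.val

/-- `|z|²`. -/
def nz (z : Fin (n + 1) → R) (p : Pt R) : ℝ := ∑ i, ‖p (z i)‖ ^ 2

/-- Forms of degree `j`. -/
def Rj (z : Fin (n + 1) → R) (j : ℕ) : Submodule ℂ R :=
  (MvPolynomial.homogeneousSubmodule (Fin (n + 1)) ℂ j).map (MvPolynomial.aeval z).toLinearMap

/-- The dimension of the forms of degree `j`. -/
def dd (n j : ℕ) : ℕ := (j + n - 1).choose (n - 1) + (j + n - 2).choose (n - 1)

/-- Radial integrals. -/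
def II (G : WS R K n) {π : Proj R n} (A : An π (G.ρ π.y)) (z : Fin (n + 1) → R) (j M : ℕ) : ℝ :=
  ∫ p, nz z p ^ j / (1 + nz z p) ^ M ∂A.nu G

/-- The coordinate ring of the cone. -/
abbrev Qc (n : ℕ) : Type :=
  MvPolynomial (Fin (n + 1)) ℂ ⧸
    Ideal.span {(∑ i, MvPolynomial.X i ^ 2 : MvPolynomial (Fin (n + 1)) ℂ)}

/-- The differentials of the squares. -/
def th (K : Type) [Field K] [Algebra R K] [Algebra ℂ K] (ζ d : Fin (n + 1) → R) (j : Fin (n + 1)) :
    KaehlerDifferential ℂ K :=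
  algebraMap R K (2 * d j) • KaehlerDifferential.D ℂ K (algebraMap R K (ζ j)) +
    algebraMap R K (ζ j) • KaehlerDifferential.D ℂ K (algebraMap R K (d j))

end Vale.Agent.P282
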