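import Vale.Agent.P282.ODefs
import Vale.Agent.P282.KJac

set_option linter.unusedSectionVars false

open scoped ENNReal TensorProduct Topology
open Filter MeasureTheory

noncomputable section

namespace Vale.Agent.P282

variable {R K : Type} [CommRing R] [IsDomain R] [Algebra ℂ R] [Algebra.FiniteType ℂ R]
  [IsIntegrallyClosed R] [Field K] [Algebra R K] [IsFractionRing R K] [Algebra ℂ K]
  [IsScalarTower ℂ R K] {n : ℕ}

theorem ODet_mul {F M : Type} [Field F] [AddCommGroup M] [Module F M]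
    (b : Module.Basis (Fin n) F M) (θ : Fin n → M) (N : Matrix (Fin n) (Fin n) F) :
    (b.det fun i => ∑ j, N i j • θ j) = N.det * b.det θ := by
  rw [b.det_apply, b.det_apply, ← Matrix.det_transpose N, mul_comm, ← Matrix.det_mul]
  congr 1
  ext i j
  simp [Module.Basis.toMatrix_apply, Matrix.mul_apply, mul_comm]

theorem det_theta {F M : Type} [Field F] [AddCommGroup M] [Module F M]
    (b : Module.Basis (Fin n) F M) (θ : Fin (n + 1) → M) (ζ : Fin (n + 1) → F) (h0 : ζ 0 ≠ 0)
    (h : ∑ j, ζ j • θ j = 0) (c : Fin n → Fin (n + 1) → F) :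
    ζ 0 * (b.det fun i => ∑ j, c i j • θ j) =
      (Matrix.of (Fin.cons ζ c : Fin (n + 1) → Fin (n + 1) → F)).det * b.det fun j => θ j.succ := by
  set N : Matrix (Fin n) (Fin n) F :=
    Matrix.of fun i j => c i j.succ - c i 0 / ζ 0 * ζ j.succ with hN
  have h1 : θ 0 = -∑ j : Fin n, (ζ j.succ / ζ 0) • θ j.succ := by
    rw [Fin.sum_univ_succ] at h
    have h2 : ζ 0 • θ 0 = -∑ j : Fin n, ζ j.succ • θ j.succ := eq_neg_of_add_eq_zero_left h
    calc θ 0 = (ζ 0)⁻¹ • ζ 0 • θ 0 := by rw [smul_smul, inv_mul_cancel₀ h0, one_smul]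
      _ = _ := by
        rw [h2, smul_neg, Finset.smul_sum]
        simp only [smul_smul, div_eq_inv_mul]
  have h3 : (fun i => ∑ j, c i j • θ j) = fun i => ∑ j, N i j • θ j.succ := by
    funext i
    rw [Fin.sum_univ_succ, h1, smul_neg, Finset.smul_sum, neg_add_eq_sub, ← Finset.sum_sub_distrib]
    refine Finset.sum_congr rfl fun j _ => ?_
    rw [smul_smul, ← sub_smul, hN, Matrix.of_apply]
    congr 1
    ring
  have h4 : (Matrix.of (Fin.cons ζ c : Fin (n + 1) → Fin (n + 1) → F)).det = ζ 0 * N.det := by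
    set B : Matrix (Fin (n + 1)) (Fin (n + 1)) F :=
      Matrix.of (Fin.cons ζ (fun i j => c i j - c i 0 / ζ 0 * ζ j) :
        Fin (n + 1) → Fin (n + 1) → F) with hB
    rw [Matrix.det_eq_of_forall_row_eq_smul_add_const (B := B)
      (Fin.cons 0 fun i => c i 0 / ζ 0) 0 rfl, Matrix.det_succ_column_zero, Fin.sum_univ_succ,
      Finset.sum_eq_zero]
    · simp only [hB, Fin.val_zero, pow_zero, one_mul, Matrix.of_apply, Fin.cons_zero, add_zero,
        Fin.succAbove_zero]
      congr 2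
    · intro i _
      simp [hB, div_mul_cancel₀ _ h0]
    · intro i j
      refine Fin.cases ?_ (fun i => ?_) i <;> simp [hB]
  rw [h3, ODet_mul, h4, mul_assoc]

variable {G : WS R K n} {π : Proj R n} {z : Fin (n + 1) → R}

theorem ODet_surj (h : Cone G π z) :
    Function.Surjective (MvPolynomial.aeval z : MvPolynomial (Fin (n + 1)) ℂ →ₐ[ℂ] R) := by
  rw [← AlgHom.range_eq_top, ← Algebra.adjoin_range_eq_range_aeval, h.gen]

theorem ODet_hom (h : Cone G π z) (A : Matrix (Fin (n + 1)) (Fin (n + 1)) ℂ) {l : ℂ}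
    (hA : A.transpose * A = l • 1) : ∃ φ : R →ₐ[ℂ] R, ∀ i, φ (z i) = ∑ j, A i j • z j := by
  have hq : ∑ i, (∑ j, A i j • z j) ^ 2 = 0 := by
    have e : ∀ j k, ∑ i, A i j * A i k = if j = k then l else 0 := by
      intro j k
      have := congrFun (congrFun hA j) k
      simpa [Matrix.mul_apply, Matrix.one_apply] using this
    calc ∑ i, (∑ j, A i j • z j) ^ 2 = ∑ i, ∑ j, ∑ k, (A i j * A i k) • (z j * z k) := by
          refine Finset.sum_congr rfl fun i _ => ?_
          rw [sq, Finset.sum_mul_sum]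
          simp only [smul_mul_smul_comm]
      _ = ∑ j, ∑ k, (∑ i, A i j * A i k) • (z j * z k) := by
          rw [Finset.sum_comm]
          refine Finset.sum_congr rfl fun j _ => ?_
          rw [Finset.sum_comm]
          simp only [Finset.sum_smul]
      _ = l • ∑ j, z j ^ 2 := by
          simp only [e, ite_smul, zero_smul, Finset.sum_ite_eq, Finset.mem_univ, if_true,
            Finset.smul_sum, sq]
      _ = 0 := by rw [h.rel, smul_zero]
  refine ⟨AlgHom.liftOfSurjective _ (ODet_surj h)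
    (MvPolynomial.aeval fun i => ∑ j, A i j • z j) ?_, fun i => ?_⟩
  · intro P hP
    obtain ⟨Q, rfl⟩ := h.ker P hP
    change MvPolynomial.aeval _ _ = 0
    rw [map_mul, map_sum]
    simp only [map_pow, MvPolynomial.aeval_X, hq, zero_mul]
  · have : z i = MvPolynomial.aeval z (MvPolynomial.X i : MvPolynomial (Fin (n + 1)) ℂ) := by simp
    conv_lhs => rw [this, AlgHom.liftOfSurjective_apply, MvPolynomial.aeval_X]

theorem ODet_inv (h : Cone G π z) {A B : Matrix (Fin (n + 1)) (Fin (n + 1)) ℂ} {φ ψ : R →ₐ[ℂ] R}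
    (hφ : ∀ i, φ (z i) = ∑ j, A i j • z j) (hψ : ∀ i, ψ (z i) = ∑ j, B i j • z j)
    (hBA : B * A = 1) : φ.comp ψ = AlgHom.id ℂ R := by
  refine AlgHom.ext_of_adjoin_eq_top h.gen ?_
  rintro _ ⟨i, rfl⟩
  have e : ∀ k, ∑ j, B i j * A j k = if i = k then 1 else 0 := by
    intro k
    have := congrFun (congrFun hBA i) k
    simpa [Matrix.mul_apply, Matrix.one_apply] using this
  simp only [AlgHom.coe_comp, Function.comp_apply, hψ, map_sum, map_smul, hφ, Finset.smul_sum,
    smul_smul, AlgHom.coe_id, id_eq]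
  rw [Finset.sum_comm]
  simp only [← Finset.sum_smul, e, ite_smul, one_smul, zero_smul, Finset.sum_ite_eq,
    Finset.mem_univ, if_true]

theorem ODet_ne (h : Cone G π z) (i : Fin (n + 1)) : z i ≠ 0 := by
  intro h0
  obtain ⟨Q, hQ⟩ := h.ker (MvPolynomial.X i) (by simpa using h0)
  have := congrArg (MvPolynomial.aeval fun _ => (DualNumber.eps : DualNumber ℂ)) hQ
  simp only [MvPolynomial.aeval_X, map_mul, map_sum, map_pow, DualNumber.eps_pow_two,
    Finset.sum_const_zero, zero_mul] at this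
  have h2 := congrArg TrivSqZeroExt.snd this
  simp at h2

theorem ODet_rho (h : Cone G π z) (A : Matrix (Fin (n + 1)) (Fin (n + 1)) ℂ) :
    algebraMap R K (G.ρ fun i => ∑ j, A i.succ j • z j) =
      (Matrix.of (Fin.cons (fun j => algebraMap R K (z j))
        (fun i j => algebraMap ℂ K (A i.succ j)) : Fin (n + 1) → Fin (n + 1) → K)).det := by
  have h0 : algebraMap R K (z 0) ≠ 0 := by
    rw [Ne, FaithfulSMul.algebraMap_eq_zero_iff]
    exact ODet_ne h 0
  have hr : ∑ j, algebraMap R K (z j) • KaehlerDifferential.D ℂ K (algebraMap R K (z j)) = 0 := by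
    have h1 := congrArg (fun r => KaehlerDifferential.D ℂ K (algebraMap R K r)) h.rel
    simp only [map_sum, map_pow, map_zero, Derivation.leibniz_pow] at h1
    have h2 : (2 : K) • ∑ j, algebraMap R K (z j) •
        KaehlerDifferential.D ℂ K (algebraMap R K (z j)) = 0 := by
      rw [← h1, Finset.smul_sum]
      refine Finset.sum_congr rfl fun j _ => ?_
      rw [two_smul, two_smul]
      simp
    have h3 : (2 : K) ≠ 0 := by
      have := (map_ne_zero (algebraMap ℂ K)).2 (two_ne_zero (α := ℂ))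
      rwa [map_ofNat] at this
    exact (smul_eq_zero.1 h2).resolve_left h3
  have h1 := det_theta G.ω.b _ _ h0 hr fun i j => algebraMap ℂ K (A i.succ j)
  have h2 : G.ω.b.det (fun j => KaehlerDifferential.D ℂ K (algebraMap R K (z j.succ))) =
      algebraMap R K (z 0) * G.ω.h := by
    have := G.ρ_eq π.y
    rw [h.rho, PForm.rho, h.m, pow_one, eq_div_iff G.ω.h_ne, PForm.jac] at this
    simp only [h.y] at this
    exact this.symm
  rw [h2, mul_left_comm] at h1
  have h3 := mul_left_cancel₀ h0 h1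
  rw [G.ρ_eq, PForm.rho, h.m, pow_one, div_eq_iff G.ω.h_ne, ← h3, PForm.jac]
  congr 1
  funext i
  simp only [map_sum, algebraMap_smul]
  refine Finset.sum_congr rfl fun j _ => ?_
  rw [Algebra.smul_def, map_mul, ← IsScalarTower.algebraMap_apply, ← Algebra.smul_def,
    Derivation.map_smul]

/-- similitudes act on the cone -/
theorem Cone.aut (h : Cone G π z) (g : Matrix (Fin (n + 1)) (Fin (n + 1)) ℝ)
    (hg : g * g.transpose = 1) {c : ℂ} (hc : c ≠ 0) : ∃ (φ : R ≃ₐ[ℂ] R) (κ : ℂ),
      (∀ i, φ (z i) = c • ∑ j, (g i j : ℂ) • z j) ∧ ‖κ‖ = ‖c‖ ^ (n - 1) ∧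
      (G.ρ fun i => φ (π.y i)) = κ • φ (G.ρ π.y) := by
  set g' : Matrix (Fin (n + 1)) (Fin (n + 1)) ℂ := g.map (algebraMap ℝ ℂ) with hg'
  have e1 : g' * g'.transpose = 1 := by
    rw [hg', ← Matrix.transpose_map, ← Matrix.map_mul, hg]
    exact Matrix.map_one _ (map_zero _) (map_one _)
  have e2 : g'.transpose * g' = 1 := mul_eq_one_comm.1 e1
  obtain ⟨φ, hφ⟩ := ODet_hom h (c • g') (l := c * c) (by
    rw [Matrix.transpose_smul, Matrix.smul_mul, Matrix.mul_smul, e2, smul_smul])
  obtain ⟨ψ, hψ⟩ := ODet_hom h (c⁻¹ • g'.transpose) (l := c⁻¹ * c⁻¹) (by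
    rw [Matrix.transpose_smul, Matrix.smul_mul, Matrix.mul_smul, Matrix.transpose_transpose, e1,
      smul_smul])
  have i1 : (c⁻¹ • g'.transpose) * (c • g') = 1 := by
    rw [Matrix.smul_mul, Matrix.mul_smul, e2, smul_smul, inv_mul_cancel₀ hc, one_smul]
  have i2 : (c • g') * (c⁻¹ • g'.transpose) = 1 := mul_eq_one_comm.1 i1
  have hd : ‖g'.det‖ = 1 := by
    have := congrArg (fun M => ‖Matrix.det M‖) e1
    simp only [Matrix.det_mul, Matrix.det_transpose, Matrix.det_one, norm_mul, norm_one] at this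
    nlinarith [norm_nonneg g'.det]
  refine ⟨AlgEquiv.ofAlgHom φ ψ (ODet_inv h hφ hψ i1) (ODet_inv h hψ hφ i2),
    c ^ (n - 1) * g'.det, fun i => ?_, by rw [norm_mul, hd, norm_pow, mul_one], ?_⟩
  · change φ (z i) = _
    rw [hφ, Finset.smul_sum]
    refine Finset.sum_congr rfl fun j _ => ?_
    rw [smul_smul]
    rfl
  · change (G.ρ fun i => φ (π.y i)) = _ • φ _
    apply FaithfulSMul.algebraMap_injective R K
    simp only [h.y, hφ]
    rw [ODet_rho h, h.rho]
    set A : Matrix (Fin (n + 1)) (Fin (n + 1)) K := (c • g').map (algebraMap ℂ K) with hA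
    have hz : (fun j => algebraMap R K (z j)) =
        ∑ k, algebraMap R K ((c⁻¹ * c⁻¹) • φ (z k)) • A k := by
      funext j
      have e := congrArg (fun f : R →ₐ[ℂ] R => f (z j)) (ODet_inv h hφ hψ i1)
      simp only [AlgHom.coe_comp, Function.comp_apply, hψ, map_sum, map_smul, AlgHom.coe_id,
        id_eq] at e
      rw [← e, Finset.sum_apply, map_sum]
      refine Finset.sum_congr rfl fun k _ => ?_
      simp only [hA, Pi.smul_apply, Matrix.map_apply, Matrix.smul_apply, Matrix.transpose_apply,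
        smul_eq_mul]
      simp only [Algebra.smul_def, map_mul, ← IsScalarTower.algebraMap_apply, map_inv₀]
      have : algebraMap ℂ K c ≠ 0 := by simpa using hc
      field_simp
    have hM : (Matrix.of (Fin.cons (fun j => algebraMap R K (z j))
        (fun i j => algebraMap ℂ K ((c • g') i.succ j)) : Fin (n + 1) → Fin (n + 1) → K)) =
        A.updateRow 0 (∑ k, algebraMap R K ((c⁻¹ * c⁻¹) • φ (z k)) • A k) := by
      rw [← hz]
      ext i j
      refine Fin.cases ?_ (fun i => ?_) i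
      · simp
      · simp [hA]
    rw [hM, Matrix.det_updateRow_sum, hA, ← RingHom.mapMatrix_apply, ← RingHom.map_det,
      Matrix.det_smul, Fintype.card_fin]
    simp only [Algebra.smul_def, map_mul, ← IsScalarTower.algebraMap_apply, map_pow, map_inv₀,
      Algebra.algebraMap_self, RingHom.id_apply]
    have : algebraMap ℂ K c ≠ 0 := by simpa using hc
    obtain ⟨k, rfl⟩ : ∃ k, n = k + 1 := ⟨n - 1, by have := h.two; omega⟩
    rw [Nat.add_sub_cancel]
    field_simp
    ring

theorem Cone.z_ne (h : Cone G π z) (i : Fin (n + 1)) : z i ≠ 0 := ODet_ne h i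

theorem Cone.pt_ext (h : Cone G π z) {p q : Pt R} (e : ∀ i, p (z i) = q (z i)) : p = q := by
  refine AlgHom.ext_of_adjoin_eq_top (φ₁ := p.hom) (φ₂ := q.hom) h.gen ?_
  rintro _ ⟨i, rfl⟩
  exact e i

theorem Cone.gr_le (h : Cone G π z) (p : Pt R) :
    gr (π.at p) ≤ 1 + nz z p ∧ 1 + nz z p ≤ 2 * gr (π.at p) := by
  have h1 := congrArg p h.rel
  rw [map_sum, map_zero, Fin.sum_univ_succ] at h1
  simp only [map_pow] at h1
  have h2 : ‖p (z 0)‖ ^ 2 ≤ ∑ i : Fin n, ‖p (z i.succ)‖ ^ 2 := by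
    rw [← norm_pow, eq_neg_of_add_eq_zero_left h1, norm_neg]
    refine (norm_sum_le _ _).trans (le_of_eq ?_)
    simp only [norm_pow]
  simp only [gr, nz, Proj.at, h.y, Fin.sum_univ_succ]
  constructor <;> nlinarith [sq_nonneg ‖p (z 0)‖]

end Vale.Agent.P282
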