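import Vale.Agent.P271.HMain

/-! The L² existence theorem with the sharp constant. -/

namespace Fuj

open MeasureTheory Set Filter Topology Complex
open scoped ENNReal ContDiff ComplexConjugate

noncomputable section

namespace Sheets

variable {E W : Type*} [NormedAddCommGroup E] [NormedSpace ℝ E] [NormedSpace ℂ E]
  [IsScalarTower ℝ ℂ E] [FiniteDimensional ℂ E] [MeasurableSpace E] [BorelSpace E]
  [TopologicalSpace W] [T2Space W] [MeasurableSpace W] [BorelSpace W]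
  {vol : Measure E} [vol.IsAddHaarMeasure] (S : Sheets E W vol)
  {κ : Type*} [Fintype κ] (b : Module.Basis κ ℂ E)

theorem OHor_cut {s : ℝ} (hs : 0 < s) {φ ψ : W → ℝ} (hφ : S.SmW φ) (hψ : S.SmF ψ)
    (hpos : ∀ p ξ, (1 + s⁻¹) * ‖S.Dz ψ p ξ‖ ^ 2 ≤ S.Lv (fun q => φ q + ψ q) p ξ)
    {γ : κ → W → ℂ} {g : W → ℂ} (hw : S.Wk b φ γ g (fun _ _ _ => 0))
    {χ : W → ℝ} (hχ : S.SmF χ) (hχc : HasCompactSupport χ) (hχ1 : ∀ p, 0 ≤ χ p ∧ χ p ≤ 1)
    {c₀ : ℝ} (hc₀ : ∀ p, (∑ j, ‖S.Dz χ p (b j)‖ ^ 2) * Real.exp (-ψ p) ≤ c₀) {t : ℝ} (ht : 0 < t) :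
    ∫⁻ p, ENNReal.ofReal (χ p ^ 2 * (S.Lv (fun q => φ q + ψ q) p (vec b γ p) -
        (1 + s⁻¹) * ‖S.Dz ψ p (vec b γ p)‖ ^ 2) * Real.exp (-(φ p + ψ p))) ∂S.μ ≤
      ENNReal.ofReal ((1 + s) * (1 + t)) * S.nn (fun q => φ q + ψ q) g +
        ENNReal.ofReal (((1 + s) * (1 + t⁻¹) + 4 * Fintype.card κ) * c₀) * ∑ j, S.nn φ (γ j) := by
  rcases isEmpty_or_nonempty W with hW | ⟨⟨p₀⟩⟩
  · rw [lintegral_of_isEmpty]
    exact zero_le
  have hc0 : 0 ≤ c₀ := le_trans (by positivity) (hc₀ p₀)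
  have hΦ := SmW.add S hφ hψ
  have mφ := SmW.measurable S hφ
  have mΦ := SmW.measurable S hΦ
  have mγ : ∀ j, Measurable (γ j) := fun j => (hw.lγ j).1
  have hw1 := Wk.mul S b hφ hw hχ
  have hw2 := Wk.weight S b hφ hψ hw1
  have hz : ∀ p, p ∉ tsupport χ → χ p = 0 ∧ ∀ ξ, S.Dz χ p ξ = 0 := fun p hp =>
    ⟨image_eq_zero_of_notMem_tsupport hp, S.Dz_eq_zero hp⟩
  have hB := S.bkn_weak b hΦ (fun p ξ => le_trans (by positivity) (hpos p ξ)) hw2 hχc.isCompact
    fun p hp => by simp [(hz p hp).1, (hz p hp).2]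
  set c : W → ℂ := fun p => ∑ j, S.Dz ψ p (b j) * ((χ p : ℂ) * γ j p) with hc
  have lc : S.LocL2 c :=
    S.locL2_sum _ fun j _ => LocL2.mul S (S.continuous_Dz hψ _) (hw1.lγ j)
  have fc : S.nn (fun q => φ q + ψ q) c ≠ ⊤ :=
    LocL2.nn_ne_top S hΦ lc hχc.isCompact fun p hp => by simp [hc, (hz p hp).1]
  have mc := lc.1
  have ec : ∀ p, ‖c p‖ ^ 2 = χ p ^ 2 * ‖S.Dz ψ p (vec b γ p)‖ ^ 2 := fun p => by
    have : c p = χ p * S.Dz ψ p (vec b γ p) := by
      rw [S.Dz_vec, Finset.mul_sum]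
      exact Finset.sum_congr rfl fun j _ => by ring
    rw [this, norm_mul, mul_pow, Complex.norm_real, Real.norm_eq_abs, sq_abs]
  have e1 : ∫⁻ p, ENNReal.ofReal (S.Lv (fun q => φ q + ψ q) p
      (vec b (fun j p => (χ p : ℂ) * γ j p) p) * Real.exp (-(φ p + ψ p))) ∂S.μ =
      ∫⁻ p, ENNReal.ofReal (χ p ^ 2 * (S.Lv (fun q => φ q + ψ q) p (vec b γ p) -
        (1 + s⁻¹) * ‖S.Dz ψ p (vec b γ p)‖ ^ 2) * Real.exp (-(φ p + ψ p))) ∂S.μ +
        ENNReal.ofReal (1 + s⁻¹) * S.nn (fun q => φ q + ψ q) c := by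
    rw [nn, ← lintegral_const_mul' _ _ ENNReal.ofReal_ne_top,
      ← lintegral_add_right _ (by fun_prop)]
    refine lintegral_congr fun p => ?_
    have a1 : vec b (fun j p => (χ p : ℂ) * γ j p) p = (χ p : ℂ) • vec b γ p := by
      simp only [vec, Finset.smul_sum, smul_smul]
    have a2 := sub_nonneg.2 (hpos p (vec b γ p))
    rw [a1, S.Lv_smul hΦ, ec, ← ENNReal.ofReal_mul (by positivity),
      ← ENNReal.ofReal_add (by positivity) (by positivity), Complex.norm_real, Real.norm_eq_abs,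
      sq_abs]
    congr 1
    ring
  have ma : Measurable fun p => (χ p : ℂ) * g p :=
    (Complex.measurable_ofReal.comp (SmF.continuous S hχ).measurable).mul hw.lg.1
  have e2 := S.nn_add_le mΦ hw1.lg.1 (fun p => -c p) hs
  rw [S.nn_neg] at e2
  have e3 := S.nn_add_le mΦ ma (fun p => ∑ j, S.Dz χ p (b j) * γ j p) ht
  have e4 : S.nn (fun q => φ q + ψ q) (fun p => (χ p : ℂ) * g p) ≤
      S.nn (fun q => φ q + ψ q) g := by
    have := S.nn_mono (fun q => φ q + ψ q) (f := fun p => (χ p : ℂ) * g p) (g := g) zero_le_one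
      fun p => by
        rw [norm_mul, mul_pow, Complex.norm_real, Real.norm_eq_abs, sq_abs]
        exact mul_le_mul_of_nonneg_right (pow_le_one₀ (hχ1 p).1 (hχ1 p).2) (by positivity)
    simpa using this
  have ee : ∀ p, Real.exp (-(φ p + ψ p)) = Real.exp (-ψ p) * Real.exp (-φ p) := fun p => by
    rw [← Real.exp_add]
    congr 1
    ring
  have e5 : S.nn (fun q => φ q + ψ q) (fun p => ∑ j, S.Dz χ p (b j) * γ j p) ≤
      ENNReal.ofReal c₀ * ∑ j, S.nn φ (γ j) :=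
    S.HTw1_sum mφ _ mγ hc0 fun p => by
      rw [ee, ← Finset.sum_mul]
      calc _ ≤ ((∑ j, ‖S.Dz χ p (b j)‖ ^ 2) * ∑ j, ‖γ j p‖ ^ 2) *
            (Real.exp (-ψ p) * Real.exp (-φ p)) :=
            mul_le_mul_of_nonneg_right (HTw1_cs _ _) (by positivity)
        _ = ((∑ j, ‖S.Dz χ p (b j)‖ ^ 2) * Real.exp (-ψ p)) *
            ((∑ j, ‖γ j p‖ ^ 2) * Real.exp (-φ p)) := by ring
        _ ≤ _ := mul_le_mul_of_nonneg_right (hc₀ p) (by positivity)
  have e6 : ∀ j k, S.nn (fun q => φ q + ψ q) (fun p => (χ p : ℂ) * 0 +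
      (conj (S.Dz χ p (b j)) * γ k p - conj (S.Dz χ p (b k)) * γ j p)) ≤
      ENNReal.ofReal (2 * c₀) * (S.nn φ (γ k) + S.nn φ (γ j)) := fun j k =>
    S.HTw1_two mφ (mγ k) (mγ j) (by positivity) fun p => by
      have a1 := normSq_add_le (conj (S.Dz χ p (b j)) * γ k p)
        (-(conj (S.Dz χ p (b k)) * γ j p)) one_pos
      have a2 : ∀ l, ‖S.Dz χ p (b l)‖ ^ 2 * Real.exp (-ψ p) ≤ c₀ := fun l =>
        (mul_le_mul_of_nonneg_right (Finset.single_le_sum (f := fun l => ‖S.Dz χ p (b l)‖ ^ 2)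
          (fun _ _ => by positivity) (Finset.mem_univ l)) (by positivity)).trans (hc₀ p)
      simp only [norm_neg, norm_mul, mul_pow, Complex.norm_conj, inv_one, ← sub_eq_add_neg] at a1
      rw [mul_zero, zero_add, ee]
      have a3 := mul_le_mul_of_nonneg_right (a2 j)
        (by positivity : 0 ≤ ‖γ k p‖ ^ 2 * Real.exp (-φ p))
      have a4 := mul_le_mul_of_nonneg_right (a2 k)
        (by positivity : 0 ≤ ‖γ j p‖ ^ 2 * Real.exp (-φ p))
      have a5 := mul_le_mul_of_nonneg_right a1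
        (by positivity : 0 ≤ Real.exp (-ψ p) * Real.exp (-φ p))
      nlinarith
  have e7 := Finset.sum_le_sum fun j (_ : j ∈ Finset.univ) =>
    Finset.sum_le_sum fun k (_ : k ∈ Finset.univ) => e6 j k
  simp only [← Finset.mul_sum, Finset.sum_add_distrib, Finset.sum_const, Finset.card_univ,
    nsmul_eq_mul] at e7
  rw [e1] at hB
  have e8 := hB.trans (add_le_add (e2.trans (add_le_add (mul_le_mul_right
    (e3.trans (add_le_add (mul_le_mul_right e4 _) (mul_le_mul_right e5 _))) _) le_rfl)) e7)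
  rw [add_right_comm, ENNReal.add_le_add_iff_right
    (ENNReal.mul_ne_top ENNReal.ofReal_ne_top fc)] at e8
  refine e8.trans_eq ?_
  have ht' : 0 ≤ 1 + t⁻¹ := by positivity
  have q1 : ENNReal.ofReal ((1 + s) * (1 + t)) =
      ENNReal.ofReal (1 + s) * ENNReal.ofReal (1 + t) := ENNReal.ofReal_mul (by positivity)
  have q2 : ENNReal.ofReal (2 * c₀) = 2 * ENNReal.ofReal c₀ := by
    rw [ENNReal.ofReal_mul zero_le_two, ENNReal.ofReal_ofNat]
  have q3 : ENNReal.ofReal (((1 + s) * (1 + t⁻¹) + 4 * Fintype.card κ) * c₀) =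
      (ENNReal.ofReal (1 + s) * ENNReal.ofReal (1 + t⁻¹) + 4 * Fintype.card κ) *
        ENNReal.ofReal c₀ := by
    rw [ENNReal.ofReal_mul (by positivity), ENNReal.ofReal_add (by positivity) (by positivity),
      ENNReal.ofReal_mul (by positivity), ENNReal.ofReal_mul (by norm_num : (0 : ℝ) ≤ 4),
      ENNReal.ofReal_natCast, ENNReal.ofReal_ofNat]
  rw [q1, q2, q3]
  ring

theorem OHor_tw {s : ℝ} (hs : 0 < s) {φ ψ : W → ℝ} (hφ : S.SmW φ) (hψ : S.SmF ψ)
    (hpos : ∀ p ξ, (1 + s⁻¹) * ‖S.Dz ψ p ξ‖ ^ 2 ≤ S.Lv (fun q => φ q + ψ q) p ξ)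
    {χ : ℕ → W → ℝ} {c : ℕ → ℝ}
    (hχ : ∀ k, S.SmF (χ k) ∧ HasCompactSupport (χ k) ∧ ∀ p, 0 ≤ χ k p ∧ χ k p ≤ 1)
    (hχ1 : ∀ K, IsCompact K → ∀ᶠ k in atTop, ∀ p ∈ K, χ k p = 1)
    (hc : ∀ k p, (∑ j, ‖S.Dz (χ k) p (b j)‖ ^ 2) * Real.exp (-ψ p) ≤ c k)
    (hc0 : Tendsto c atTop (𝓝 0)) {f : W → ℂ} (hf : S.SmS f)
    (hf2 : S.nn (fun q => φ q - ψ q) f ≠ ⊤) {A : W → ℝ} (hA : Measurable A) (hA0 : ∀ p, 0 ≤ A p)
    (hfA : ∀ p ξ, ‖S.Db ξ f p‖ ^ 2 ≤
      A p * (S.Lv (fun q => φ q + ψ q) p ξ - (1 + s⁻¹) * ‖S.Dz ψ p ξ‖ ^ 2))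
    (hM : ∫⁻ p, ENNReal.ofReal (A p * Real.exp (ψ p - φ p)) ∂S.μ ≠ ⊤)
    {γ : κ → W → ℂ} (hγ : ∀ j, S.Test (γ j)) :
    ENNReal.ofReal (‖∑ j, S.ip φ (S.Db (b j) f) (γ j)‖ ^ 2) ≤
      ENNReal.ofReal (1 + s) * (∫⁻ p, ENNReal.ofReal (A p * Real.exp (ψ p - φ p)) ∂S.μ) *
        S.nn (fun q => φ q + ψ q) (S.Div b φ γ) := by
  rcases isEmpty_or_nonempty W with hW | ⟨⟨p₀⟩⟩
  · have : ∀ j, S.ip φ (S.Db (b j) f) (γ j) = 0 := fun j => integral_of_isEmpty
    simp [this]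
  have hc0' : ∀ k, 0 ≤ c k := fun k => le_trans (by positivity) (hc k p₀)
  obtain ⟨γ₁, h1, hw, hpr⟩ := S.exists_proj b hφ hγ
  have hΦ := SmW.add S hφ hψ
  have mφ := SmW.measurable S hφ
  have mψ := (SmF.continuous S hψ).measurable
  have mf := SmS.measurable S hf
  have mγ : ∀ j, Measurable (γ₁ j) := fun j => (h1 j).1
  have key : ∀ x : ℝ≥0∞, x ≠ ⊤ → ∃ r : ℝ, 0 ≤ r ∧ x = ENNReal.ofReal r := fun x hx =>
    ⟨x.toReal, ENNReal.toReal_nonneg, (ENNReal.ofReal_toReal hx).symm⟩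
  obtain ⟨m, hm0, hm⟩ := key _ hM
  obtain ⟨n, hn0, hn⟩ := key _ (Test.nn_ne_top S hΦ (S.test_Div b hφ hγ))
  obtain ⟨G, hG0, hG⟩ := key (∑ j, S.nn φ (γ₁ j)) (ENNReal.sum_ne_top.2 fun j _ => (h1 j).2)
  obtain ⟨F, hF0, hF⟩ := key _ hf2
  have := S.locallyCompact
  obtain ⟨K, hK, hKK⟩ := exists_compact_superset
    (isCompact_iUnion fun j => (hγ j).2.isCompact : IsCompact (⋃ j, tsupport (γ j)))
  have mD : ∀ {h : W → ℝ}, S.SmF h → Measurable fun p => S.Dz h p (vec b γ₁ p) := fun {h} hh => by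
    simp only [S.Dz_vec]
    exact Finset.measurable_sum _ fun j _ => (S.continuous_Dz hh _).measurable.mul (mγ j)
  have main : ∀ t : ℝ, 0 < t → ∀ᶠ k in atTop, ‖∑ j, S.ip φ (S.Db (b j) f) (γ j)‖ ^ 2 ≤
      (1 + t) * (m * ((1 + s) * (1 + t) * n + ((1 + s) * (1 + t⁻¹) + 4 * Fintype.card κ) * c k * G)) +
        (1 + t⁻¹) * (F * (c k * G)) := by
    intro t ht
    filter_upwards [hχ1 K hK] with k hk
    obtain ⟨χs, χc, χ01⟩ := hχ k
    have mχ := (SmF.continuous S χs).measurable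
    have hσ := S.test_cut χs χc hf
    have e1 : ∑ j, S.ip φ (S.Db (b j) f) (γ j) =
        ∑ j, S.ip φ (S.Db (b j) fun p => (χ k p : ℂ) * f p) (γ j) := by
      refine Finset.sum_congr rfl fun j _ => integral_congr_ae (Eventually.of_forall fun p => ?_)
      by_cases hp : p ∈ tsupport (γ j)
      · have : f =ᶠ[𝓝 p] fun p => (χ k p : ℂ) * f p := by
          filter_upwards [mem_interior_iff_mem_nhds.1 (hKK (mem_iUnion.2 ⟨j, hp⟩))] with q hq
          simp [hk q hq]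
        simp only [S.Db_congr this]
      · simp [image_eq_zero_of_notMem_tsupport hp]
    have iT : ∀ j, Integrable (fun p => S.Db (b j) (fun p => (χ k p : ℂ) * f p) p *
        conj (γ₁ j p) * (Real.exp (-φ p) : ℝ)) S.μ := fun j =>
      S.integrable_pair mφ (SmS.measurable S (Test.Db S hσ _).1) (mγ j)
        (Test.nn_ne_top S hφ (Test.Db S hσ _)) (h1 j).2
    set x : W → ℂ := fun p => (χ k p : ℂ) * S.Db (vec b γ₁ p) f p * (Real.exp (-φ p) : ℝ) with hx
    set y : W → ℂ := fun p => conj (S.Dz (χ k) p (vec b γ₁ p)) * f p * (Real.exp (-φ p) : ℝ)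
      with hy
    have eT : ∀ p, ∑ j, S.Db (b j) (fun p => (χ k p : ℂ) * f p) p *
        conj (γ₁ j p) * (Real.exp (-φ p) : ℝ) = x p + y p := fun p => by
      rw [← Finset.sum_mul, ← S.Db_vec, S.Db_mulF χs hf]
      ring
    have ee : ∀ p, Real.exp (-φ p) ^ 2 = Real.exp (ψ p - φ p) * Real.exp (-(φ p + ψ p)) :=
      fun p => by
        rw [← Real.exp_add, sq, ← Real.exp_add]
        congr 1
        ring
    have ee' : ∀ p, Real.exp (-φ p) ^ 2 =
        Real.exp (-ψ p) * Real.exp (-(φ p - ψ p)) * Real.exp (-φ p) := fun p => by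
      rw [← Real.exp_add, ← Real.exp_add, sq, ← Real.exp_add]
      congr 1
      ring
    have my : ∀ p, ‖y p‖ ^ 2 ≤ (‖f p‖ ^ 2 * Real.exp (-(φ p - ψ p))) *
        (c k * ∑ j, ‖γ₁ j p‖ ^ 2 * Real.exp (-φ p)) := fun p => by
      simp only [hy, norm_mul, mul_pow, Complex.norm_conj, Complex.norm_real, Real.norm_eq_abs,
        sq_abs]
      rw [ee', S.Dz_vec, ← Finset.sum_mul]
      calc _ ≤ ((∑ j, ‖S.Dz (χ k) p (b j)‖ ^ 2) * ∑ j, ‖γ₁ j p‖ ^ 2) * ‖f p‖ ^ 2 *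
            (Real.exp (-ψ p) * Real.exp (-(φ p - ψ p)) * Real.exp (-φ p)) := by
            gcongr
            exact HTw1_cs _ _
        _ = ((∑ j, ‖S.Dz (χ k) p (b j)‖ ^ 2) * Real.exp (-ψ p)) *
            (‖f p‖ ^ 2 * Real.exp (-(φ p - ψ p)) *
              ((∑ j, ‖γ₁ j p‖ ^ 2) * Real.exp (-φ p))) := by ring
        _ ≤ c k * (‖f p‖ ^ 2 * Real.exp (-(φ p - ψ p)) *
              ((∑ j, ‖γ₁ j p‖ ^ 2) * Real.exp (-φ p))) :=
            mul_le_mul_of_nonneg_right (hc k p) (by positivity)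
        _ = _ := by ring
    have hck := hc0' k
    have eG : ∫⁻ p, ENNReal.ofReal (c k * ∑ j, ‖γ₁ j p‖ ^ 2 * Real.exp (-φ p)) ∂S.μ =
        ENNReal.ofReal (c k * G) := by
      rw [ENNReal.ofReal_mul hck, ← hG]
      unfold nn
      rw [← lintegral_finsetSum _ fun j _ => by fun_prop,
        ← lintegral_const_mul' _ _ ENNReal.ofReal_ne_top]
      refine lintegral_congr fun p => ?_
      rw [← ENNReal.ofReal_sum_of_nonneg fun j _ => by positivity, ← ENNReal.ofReal_mul hck]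
    have mDχ := mD χs
    have iy : Integrable y S.μ := by
      refine integrable_of_cs S.μ (Measurable.aestronglyMeasurable ?_) (by fun_prop) (by fun_prop)
        (fun p => by positivity) (fun p => by positivity) my hf2
        (by rw [eG]; exact ENNReal.ofReal_ne_top)
      exact ((Complex.continuous_conj.measurable.comp mDχ).mul mf).mul (by fun_prop)
    have ixy : Integrable (fun p => x p + y p) S.μ := by
      simpa only [eT] using integrable_finsetSum Finset.univ fun j _ => iT j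
    have ix : Integrable x S.μ :=
      (ixy.sub iy).congr (Eventually.of_forall fun p => add_sub_cancel_right _ _)
    have e2 : ∑ j, S.ip φ (S.Db (b j) f) (γ j) = ∫ p, x p ∂S.μ + ∫ p, y p ∂S.μ := by
      rw [e1, hpr _ hσ, ← integral_add ix iy]
      unfold ip
      rw [← integral_finsetSum _ fun j _ => iT j]
      simp only [eT]
    have bY := cs_lintegral S.μ (by fun_prop) (by fun_prop) (fun p => by positivity)
      (fun p => by positivity) my
    have mL := S.measurable_Lv_vec b hΦ mγ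
    have mDψ := mD hψ
    have bX := cs_lintegral S.μ (h := x) (a := fun p => A p * Real.exp (ψ p - φ p))
      (c := fun p => χ k p ^ 2 * (S.Lv (fun q => φ q + ψ q) p (vec b γ₁ p) -
        (1 + s⁻¹) * ‖S.Dz ψ p (vec b γ₁ p)‖ ^ 2) * Real.exp (-(φ p + ψ p))) (by fun_prop) (by fun_prop)
      (fun p => mul_nonneg (hA0 p) (by positivity))
      (fun p => mul_nonneg (mul_nonneg (by positivity) (sub_nonneg.2 (hpos p _))) (by positivity))
      fun p => by
        simp only [hx, norm_mul, mul_pow, Complex.norm_real, Real.norm_eq_abs, sq_abs]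
        rw [ee]
        calc _ ≤ χ k p ^ 2 * (A p * (S.Lv (fun q => φ q + ψ q) p (vec b γ₁ p) -
              (1 + s⁻¹) * ‖S.Dz ψ p (vec b γ₁ p)‖ ^ 2)) *
              (Real.exp (ψ p - φ p) * Real.exp (-(φ p + ψ p))) := by
              gcongr
              exact hfA p _
          _ = _ := by ring
    have bX2 := bX.trans (mul_le_mul_right (S.OHor_cut b hs hφ hψ hpos hw χs χc χ01 (hc k) ht) _)
    rw [hm, hn, hG, ← ENNReal.ofReal_mul (by positivity), ← ENNReal.ofReal_mul (by positivity),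
      ← ENNReal.ofReal_add (by positivity) (by positivity), ← ENNReal.ofReal_mul hm0,
      ENNReal.ofReal_le_ofReal_iff (by positivity)] at bX2
    change _ ≤ S.nn (fun q => φ q - ψ q) f * _ at bY
    rw [eG, hF, ← ENNReal.ofReal_mul hF0, ENNReal.ofReal_le_ofReal_iff (by positivity)] at bY
    rw [e2]
    refine (normSq_add_le _ _ ht).trans ?_
    gcongr
  have lim1 : ∀ t : ℝ, 0 < t → ‖∑ j, S.ip φ (S.Db (b j) f) (γ j)‖ ^ 2 ≤
      (1 + t) * (m * ((1 + s) * (1 + t) * n)) := fun t ht => by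
    have : Tendsto (fun k => (1 + t) * (m * ((1 + s) * (1 + t) * n +
        ((1 + s) * (1 + t⁻¹) + 4 * Fintype.card κ) * c k * G)) + (1 + t⁻¹) * (F * (c k * G))) atTop
        (𝓝 ((1 + t) * (m * ((1 + s) * (1 + t) * n + ((1 + s) * (1 + t⁻¹) + 4 * Fintype.card κ) * 0 * G)) +
          (1 + t⁻¹) * (F * (0 * G)))) :=
      ((((hc0.const_mul _).mul_const _).const_add _).const_mul _ |>.const_mul _).add
        (((hc0.mul_const _).const_mul _).const_mul _)
    simpa using ge_of_tendsto this (main t ht)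
  have lim2 : ‖∑ j, S.ip φ (S.Db (b j) f) (γ j)‖ ^ 2 ≤ (1 + s) * m * n := by
    have : Tendsto (fun t : ℝ => (1 + t) * (m * ((1 + s) * (1 + t) * n))) (𝓝[>] 0)
        (𝓝 ((1 + 0) * (m * ((1 + s) * (1 + 0) * n)))) :=
      (Continuous.tendsto (by fun_prop) _).mono_left nhdsWithin_le_nhds
    have := ge_of_tendsto this (eventually_nhdsWithin_of_forall lim1)
    linarith
  rw [hm, hn, ← ENNReal.ofReal_mul (by positivity),
    ← ENNReal.ofReal_mul (by positivity)]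
  exact ENNReal.ofReal_le_ofReal lim2

theorem OHor_ap {s : ℝ} (hs : 0 < s) {u φ : W → ℝ} (hu : S.SmF u) (hup : ∀ p ξ, 0 ≤ S.LvF u p ξ)
    (huc : ∀ c, IsCompact {p | u p ≤ c}) {C₀ : ℝ}
    (hug : ∀ p ξ, ‖S.Dz u p ξ‖ ^ 2 ≤ C₀ * (1 + Real.exp (u p)) * ‖ξ‖ ^ 2)
    (hφ : S.SmW φ) (hφp : ∀ p ξ, 0 ≤ S.Lv φ p ξ) {f : W → ℂ} (hf : S.SmS f) (hf2 : S.nn φ f ≠ ⊤)
    {A : W → ℝ} (hA : Measurable A) (hA0 : ∀ p, 0 ≤ A p)
    (hfA : ∀ p ξ, ‖S.Db ξ f p‖ ^ 2 ≤ A p * S.Lv φ p ξ)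
    (hM : ∫⁻ p, ENNReal.ofReal (A p * Real.exp (-φ p)) ∂S.μ ≠ ⊤)
    {γ : κ → W → ℂ} (hγ : ∀ j, S.Test (γ j)) :
    ENNReal.ofReal (‖∑ j, S.ip φ (S.Db (b j) f) (γ j)‖ ^ 2) ≤
      ENNReal.ofReal (1 + s) * (∫⁻ p, ENNReal.ofReal (A p * Real.exp (-φ p)) ∂S.μ) * S.nn φ (S.Div b φ γ) := by
  obtain ⟨χ, c, hχ, hχ1, hc, hc0, hcl⟩ := S.HAp_cut b hu huc hug
  have hD := S.test_Div b hφ hγ
  obtain ⟨a, ha⟩ := hD.2.isCompact.exists_bound_of_continuousOn (SmF.continuous S hu).continuousOn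
  have key : ∀ x : ℝ≥0∞, x ≠ ⊤ → ∃ r : ℝ, 0 ≤ r ∧ x = ENNReal.ofReal r := fun x hx =>
    ⟨x.toReal, ENNReal.toReal_nonneg, (ENNReal.ofReal_toReal hx).symm⟩
  obtain ⟨m, hm0, hm⟩ := key _ hM
  obtain ⟨n, hn0, hn⟩ := key _ (Test.nn_ne_top S hφ hD)
  have main : ∀ δ : ℝ, δ ∈ Ioc (0 : ℝ) 1 → ‖∑ j, S.ip φ (S.Db (b j) f) (γ j)‖ ^ 2 ≤
      (1 + s) * m * (Real.exp ((1 + s⁻¹) * δ * Real.exp a) * n) := by
    rintro δ ⟨hδ, hδ1⟩
    have d1 : ∀ x, HasDerivAt (fun x => (1 + s⁻¹) * δ * Real.exp x) ((1 + s⁻¹) * δ * Real.exp x) x := fun x =>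
      (Real.hasDerivAt_exp x).const_mul _
    have d0 : ∀ x, HasDerivAt (fun x => 1 + δ * Real.exp x) (δ * Real.exp x) x := fun x =>
      ((Real.hasDerivAt_exp x).const_mul δ).const_add 1
    have p0 : ∀ x, 0 < 1 + δ * Real.exp x := fun x => by positivity
    have d2 : ∀ x, HasDerivAt (fun x => Real.log (1 + δ * Real.exp x))
        (δ * Real.exp x / (1 + δ * Real.exp x)) x := fun x => (d0 x).log (p0 x).ne'
    have d3 : ∀ x, HasDerivAt (fun x => δ * Real.exp x / (1 + δ * Real.exp x))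
        (δ * Real.exp x / (1 + δ * Real.exp x) ^ 2) x := fun x => by
      refine (((Real.hasDerivAt_exp x).const_mul δ).div (d0 x) (p0 x).ne').congr_deriv ?_
      ring
    have hy : S.SmF fun q => (1 + s⁻¹) * δ * Real.exp (u q) :=
      SmF.comp S (g := fun x => (1 + s⁻¹) * δ * Real.exp x) (by fun_prop) hu
    have hψ : S.SmF fun q => Real.log (1 + δ * Real.exp (u q)) :=
      SmF.comp S (g := fun x => Real.log (1 + δ * Real.exp x))
        (ContDiff.log (by fun_prop) fun x => (p0 x).ne') hu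
    have hφ' := SmW.add S hφ hy
    have hL : ∀ p ξ, S.Lv φ p ξ ≤ S.Lv (fun q => (φ q + (1 + s⁻¹) * δ * Real.exp (u q)) +
        Real.log (1 + δ * Real.exp (u q))) p ξ -
        (1 + s⁻¹) * ‖S.Dz (fun q => Real.log (1 + δ * Real.exp (u q))) p ξ‖ ^ 2 := fun p ξ => by
      rw [S.Lv_add hφ' hψ, S.Lv_add hφ hy, S.LvF_comp d1 d1 hu, S.LvF_comp d2 d3 hu,
        S.Dz_comp d2 hu, norm_mul, mul_pow, Complex.norm_real, Real.norm_eq_abs, sq_abs]
      have q0 := hup p ξ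
      have q1 : (δ * Real.exp (u p) / (1 + δ * Real.exp (u p))) ^ 2 ≤ δ * Real.exp (u p) := by
        have : 0 < δ * Real.exp (u p) := by positivity
        rw [div_pow, div_le_iff₀ (by positivity)]
        nlinarith [mul_pos this this, mul_pos this (mul_pos this this)]
      have q2 := mul_le_mul_of_nonneg_left (mul_le_mul_of_nonneg_right q1 (sq_nonneg ‖S.Dz u p ξ‖))
        (by positivity : 0 ≤ 1 + s⁻¹)
      have q3 : 0 ≤ (1 + s⁻¹) * δ * Real.exp (u p) * S.LvF u p ξ := by positivity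
      have q4 : 0 ≤ δ * Real.exp (u p) / (1 + δ * Real.exp (u p)) * S.LvF u p ξ := by positivity
      have q5 : 0 ≤ δ * Real.exp (u p) / (1 + δ * Real.exp (u p)) ^ 2 * ‖S.Dz u p ξ‖ ^ 2 := by
        positivity
      linarith
    have hψy : ∀ p, Real.log (1 + δ * Real.exp (u p)) ≤ (1 + s⁻¹) * δ * Real.exp (u p) := fun p => by
      have := Real.log_le_sub_one_of_pos (p0 (u p))
      have : 0 < s⁻¹ * δ * Real.exp (u p) := by positivity
      linarith
    have hψ0 : ∀ p, 0 ≤ Real.log (1 + δ * Real.exp (u p)) := fun p =>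
      Real.log_nonneg (le_add_of_nonneg_right (by positivity))
    have hM' : ∫⁻ p, ENNReal.ofReal (A p * Real.exp (Real.log (1 + δ * Real.exp (u p)) -
        (φ p + (1 + s⁻¹) * δ * Real.exp (u p)))) ∂S.μ ≤ ENNReal.ofReal m := by
      rw [← hm]
      refine lintegral_mono fun p => ENNReal.ofReal_le_ofReal ?_
      exact mul_le_mul_of_nonneg_left (Real.exp_le_exp.2 (by linarith [hψy p])) (hA0 p)
    have hE : S.SmF fun q => Real.exp ((1 + s⁻¹) * δ * Real.exp (u q)) := SmF.comp S Real.contDiff_exp hy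
    have T := S.OHor_tw b hs hφ' hψ (fun p ξ => by linarith [hL p ξ, hφp p ξ]) (c := fun k => c k * δ⁻¹)
      hχ hχ1 (fun k p => by
        refine (mul_le_mul_of_nonneg_right (hc k p) (by positivity)).trans ?_
        rw [mul_assoc]
        refine mul_le_mul_of_nonneg_left ?_ (hc0 k)
        rw [Real.exp_neg, Real.exp_log (p0 _), ← div_eq_mul_inv, div_le_iff₀ (p0 _),
          mul_add, ← mul_assoc, inv_mul_cancel₀ hδ.ne', mul_one, one_mul]
        have := one_le_inv₀ hδ |>.2 hδ1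
        linarith)
      (by simpa using hcl.mul_const δ⁻¹) hf
      (ne_top_of_le_ne_top hf2 (lintegral_mono fun p => ENNReal.ofReal_le_ofReal
        (mul_le_mul_of_nonneg_left (Real.exp_le_exp.2 (by linarith [hψy p])) (by positivity))))
      hA hA0 (fun p ξ => (hfA p ξ).trans (mul_le_mul_of_nonneg_left (hL p ξ) (hA0 p)))
      (ne_top_of_le_ne_top ENNReal.ofReal_ne_top hM') (fun j => Test.mulF S hE (hγ j))
    have e1 : ∀ j, S.ip (fun q => φ q + (1 + s⁻¹) * δ * Real.exp (u q)) (S.Db (b j) f)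
        (fun p => (Real.exp ((1 + s⁻¹) * δ * Real.exp (u p)) : ℂ) * γ j p) =
        S.ip φ (S.Db (b j) f) (γ j) := fun j => by
      refine integral_congr_ae (Eventually.of_forall fun p => ?_)
      have : Real.exp (-φ p) = Real.exp ((1 + s⁻¹) * δ * Real.exp (u p)) *
          Real.exp (-(φ p + (1 + s⁻¹) * δ * Real.exp (u p))) := by
        rw [← Real.exp_add]
        congr 1
        ring
      simp only [this, map_mul, Complex.conj_ofReal, Complex.ofReal_mul]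
      ring
    have e2 : ∀ p, S.Div b (fun q => φ q + (1 + s⁻¹) * δ * Real.exp (u q))
        (fun j p => (Real.exp ((1 + s⁻¹) * δ * Real.exp (u p)) : ℂ) * γ j p) p =
        (Real.exp ((1 + s⁻¹) * δ * Real.exp (u p)) : ℂ) * S.Div b φ γ p := fun p => by
      unfold Div
      rw [Finset.mul_sum]
      refine Finset.sum_congr rfl fun j _ => ?_
      rw [S.Dl_weight hφ hy, S.Dl_mulF φ hE (hγ j).1, S.Dz_comp Real.hasDerivAt_exp hy]
      ring
    have e3 : S.nn (fun q => (φ q + (1 + s⁻¹) * δ * Real.exp (u q)) + Real.log (1 + δ * Real.exp (u q)))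
        (S.Div b (fun q => φ q + (1 + s⁻¹) * δ * Real.exp (u q))
          (fun j p => (Real.exp ((1 + s⁻¹) * δ * Real.exp (u p)) : ℂ) * γ j p)) ≤
        ENNReal.ofReal (Real.exp ((1 + s⁻¹) * δ * Real.exp a) * n) := by
      rw [ENNReal.ofReal_mul (by positivity), ← hn]
      unfold nn
      rw [← lintegral_const_mul' _ _ ENNReal.ofReal_ne_top]
      refine lintegral_mono fun p => ?_
      rw [← ENNReal.ofReal_mul (by positivity), e2]
      refine ENNReal.ofReal_le_ofReal ?_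
      by_cases hp : p ∈ tsupport (S.Div b φ γ)
      · have h1 : u p ≤ a := (le_abs_self _).trans (ha p hp)
        have h2 : (1 + s⁻¹) * δ * Real.exp (u p) ≤ (1 + s⁻¹) * δ * Real.exp a := by gcongr
        rw [norm_mul, mul_pow, Complex.norm_real, Real.norm_eq_abs, sq_abs, mul_right_comm,
          mul_left_comm, mul_comm, sq (Real.exp _), ← Real.exp_add, ← Real.exp_add,
          ← Real.exp_add]
        exact mul_le_mul_of_nonneg_left (Real.exp_le_exp.2 (by linarith [hψ0 p])) (by positivity)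
      · simp [image_eq_zero_of_notMem_tsupport hp]
    simp only [e1] at T
    have T2 := T.trans (mul_le_mul' (mul_le_mul_right hM' _) e3)
    rwa [← ENNReal.ofReal_mul (by positivity),
      ← ENNReal.ofReal_mul (by positivity), ENNReal.ofReal_le_ofReal_iff (by positivity)] at T2
  have lim : ‖∑ j, S.ip φ (S.Db (b j) f) (γ j)‖ ^ 2 ≤ (1 + s) * m * n := by
    have : Tendsto (fun δ : ℝ => (1 + s) * m * (Real.exp ((1 + s⁻¹) * δ * Real.exp a) * n)) (𝓝[>] 0)
        (𝓝 ((1 + s) * m * (Real.exp ((1 + s⁻¹) * 0 * Real.exp a) * n))) :=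
      (Continuous.tendsto (by fun_prop) _).mono_left nhdsWithin_le_nhds
    have := ge_of_tendsto this (mem_of_superset (Ioc_mem_nhdsGT one_pos) main)
    simpa using this
  rw [hm, hn, ← ENNReal.ofReal_mul (by positivity),
    ← ENNReal.ofReal_mul (by positivity)]
  exact ENNReal.ofReal_le_ofReal lim

theorem OHor_main' {s : ℝ} (hs : 0 < s) {u φ : W → ℝ} (hu : S.SmF u) (hup : ∀ p ξ, 0 ≤ S.LvF u p ξ)
    (huc : ∀ c, IsCompact {p | u p ≤ c}) {C₀ : ℝ}
    (hug : ∀ p ξ, ‖S.Dz u p ξ‖ ^ 2 ≤ C₀ * (1 + Real.exp (u p)) * ‖ξ‖ ^ 2)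
    (hφ : S.SmW φ) (hφp : ∀ p ξ, 0 ≤ S.Lv φ p ξ) {f : W → ℂ} (hf : S.SmS f) (hf2 : S.nn φ f ≠ ⊤)
    {A : W → ℝ} (hA : Measurable A) (hA0 : ∀ p, 0 ≤ A p)
    (hfA : ∀ p ξ, ‖S.Db ξ f p‖ ^ 2 ≤ A p * S.Lv φ p ξ) :
    ∃ F, S.HolS F ∧ S.nn φ (fun p => F p - f p) ≤
      ENNReal.ofReal (1 + s) * ∫⁻ p, ENNReal.ofReal (A p * Real.exp (-φ p)) ∂S.μ := by
  classical
  by_cases hM : ∫⁻ p, ENNReal.ofReal (A p * Real.exp (-φ p)) ∂S.μ = ⊤
  · refine ⟨fun _ => 0, fun i => (differentiableOn_const 0).congr fun z _ => mul_zero _, ?_⟩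
    rw [hM, ENNReal.mul_top (ENNReal.ofReal_pos.2 (by positivity)).ne']
    exact le_top
  let b := Module.finBasis ℂ E
  have mφ := SmW.measurable S hφ
  let G : Submodule ℂ ((W → ℂ) × ℂ) :=
    { carrier := {t | ∃ γ, (∀ j, S.Test (γ j)) ∧ (S.Div b φ γ, -S.ip φ (S.Div b φ γ) f) = t}
      add_mem' := by
        rintro _ _ ⟨γ, hγ, rfl⟩ ⟨γ', hγ', rfl⟩
        have e : S.Div b φ (fun j p => γ j p + γ' j p) = S.Div b φ γ + S.Div b φ γ' := by
          funext p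
          simp only [Div, Pi.add_apply, Dl_add S φ (hγ _).1 (hγ' _).1, Finset.sum_add_distrib]
        refine ⟨fun j p => γ j p + γ' j p, fun j => Test.add S (hγ j) (hγ' j), Prod.ext e ?_⟩
        simp only [e, ip, Prod.snd_add, Pi.add_apply, add_mul]
        rw [integral_add (integrable_test_left S hφ (test_Div S b hφ hγ) hf)
          (integrable_test_left S hφ (test_Div S b hφ hγ') hf), neg_add]
      zero_mem' := by
        have e : S.Div b φ (fun _ _ => 0) = 0 := funext fun p =>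
          Finset.sum_eq_zero fun j _ => Dl_eq_zero S φ (by simp [tsupport]) _
        exact ⟨fun _ _ => 0, fun _ => test_zero S, Prod.ext e (by simp [e, ip])⟩
      smul_mem' := by
        rintro c _ ⟨γ, hγ, rfl⟩
        have e : S.Div b φ (fun j p => c * γ j p) = c • S.Div b φ γ := by
          funext p
          simp only [Div, Pi.smul_apply, smul_eq_mul, Dl_const_mul S φ (hγ _).1, Finset.mul_sum]
        refine ⟨fun j p => c * γ j p, fun j => Test.const_mul S (hγ j) c, Prod.ext e ?_⟩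
        simp only [e, ip, Prod.smul_snd, Pi.smul_apply, smul_eq_mul, mul_assoc,
          integral_const_mul, mul_neg] }
  have hM2 := ENNReal.mul_ne_top (ENNReal.ofReal_ne_top (r := 1 + s)) hM
  obtain ⟨v, mv, hv, hG⟩ := l2_riesz S.μ (w := fun p => Real.exp (-φ p)) mφ.neg.exp
    (fun p => Real.exp_pos _) G hM2 (by
      rintro _ ⟨γ, hγ, rfl⟩
      have ht := test_Div S b hφ hγ
      refine ⟨SmS.measurable S ht.1, Test.nn_ne_top S hφ ht,
        le_trans (le_of_eq ?_) (OHor_ap S b hs hu hup huc hug hφ hφp hf hf2 hA hA0 hfA hM hγ)⟩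
      simp only [fun j => adj S hφ hf (hγ j).1 (.inr (hγ j).2) (b j), Finset.sum_neg_distrib,
        norm_neg]
      rw [← ip_conj, Complex.norm_conj]
      simp only [ip, Div, map_sum, Finset.mul_sum, Finset.sum_mul]
      rw [integral_finsetSum _ fun j _ => integrable_test_right S hφ hf (Test.Dl S hφ (hγ j) _)])
  have hv' : S.nn φ v ≠ ⊤ := ne_top_of_le_ne_top hM2 hv
  obtain ⟨F, hF, e⟩ := hol_of_weak S b hφ
    (LocL2.add S (SmS.locL2 S hf) (locL2_of_nn S hφ mv hv')) fun σ hσ j => by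
      have ht := Test.Dl S hφ hσ (b j)
      have e : S.Div b φ (fun k => if k = j then σ else fun _ => 0) = S.Dl φ (b j) σ := by
        funext p
        rw [Div, Finset.sum_eq_single j (fun k _ hk => by
          rw [if_neg hk]
          exact Dl_eq_zero S φ (by simp [tsupport]) _) (by simp), if_pos rfl]
      have h1 := hG _ ⟨fun k => if k = j then σ else fun _ => 0, fun k => by
        beta_reduce
        split_ifs
        exacts [hσ, test_zero S], rfl⟩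
      simp only [e, ip, map_add, mul_add, add_mul] at h1 ⊢
      rw [integral_add (integrable_test_left S hφ ht hf)
        (integrable_pair S mφ (SmS.measurable S ht.1) mv (Test.nn_ne_top S hφ ht) hv'), ← h1,
        add_neg_cancel]
  refine ⟨F, hF, le_trans (le_of_eq (lintegral_congr_ae (e.mono fun p hp => ?_))) hv⟩
  simp only [hp, add_sub_cancel_left]

/-- The same with hypotheses in the charts (use the chart idx p, Db_eq, τ_ne). -/
theorem OHor_main {s : ℝ} (hs : 0 < s) {u φ : W → ℝ} (hu : S.SmF u)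
    (hup : ∀ i, ∀ z ∈ (S.e i).target, ∀ ξ, 0 ≤ levi (S.loc i u) z ξ)
    (huc : ∀ c, IsCompact {p | u p ≤ c}) {C₀ : ℝ}
    (hug : ∀ i, ∀ z ∈ (S.e i).target, ∀ ξ,
      ‖dzr (S.loc i u) z ξ‖ ^ 2 ≤ C₀ * (1 + Real.exp (S.loc i u z)) * ‖ξ‖ ^ 2)
    (hφ : S.SmW φ) (hφp : ∀ i, ∀ z ∈ (S.e i).target, ∀ ξ, 0 ≤ levi (S.wt i φ) z ξ)
    {f : W → ℂ} (hf : S.SmS f) (hf2 : S.nn φ f ≠ ⊤)
    {A : W → ℝ} (hA : Measurable A) (hA0 : ∀ p, 0 ≤ A p)
    (hfA : ∀ i, ∀ z ∈ (S.e i).target, ∀ ξ, ‖db (S.rep i f) z ξ‖ ^ 2 ≤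
      ‖S.τ i ((S.e i).symm z)‖ ^ 2 * S.loc i A z * levi (S.wt i φ) z ξ) :
    ∃ F, S.HolS F ∧ S.nn φ (fun p => F p - f p) ≤
      ENNReal.ofReal (1 + s) * ∫⁻ p, ENNReal.ofReal (A p * Real.exp (-φ p)) ∂S.μ := by
  have hm := fun p => S.π_mem (S.idx_mem p)
  refine OHor_main' S hs hu (fun p ξ => hup _ _ (hm p) ξ) huc (C₀ := C₀) (fun p ξ => ?_) hφ
    (fun p ξ => hφp _ _ (hm p) ξ) hf hf2 hA hA0 fun p ξ => ?_
  · have h1 := hug _ _ (hm p) ξ
    rwa [S.loc_π (S.idx_mem p)] at h1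
  · have h1 := hfA _ _ (hm p) ξ
    rw [S.loc_π (S.idx_mem p), S.symm_π (S.idx_mem p), ← Db_eq S hf (S.idx_mem p), norm_mul,
      mul_pow, mul_assoc] at h1
    exact le_of_mul_le_mul_left h1 (pow_pos (norm_pos_iff.2 (S.τ_ne _ _ (S.idx_mem p))) 2)

end Sheets

end

end Fuj
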