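import Vale.Agent.P282.SDefs
import Vale.Agent.P282.OHor_a

set_option linter.unusedSectionVars false

open scoped ENNReal TensorProduct Topology ContDiff
open Filter MeasureTheory

noncomputable section

namespace Vale.Agent.P282

variable {X W : Type} [NormedAddCommGroup X] [NormedSpace ℝ X] [NormedSpace ℂ X]
  [IsScalarTower ℝ ℂ X] [FiniteDimensional ℂ X] [MeasurableSpace X] [BorelSpace X]
  [TopologicalSpace W] [T2Space W] [MeasurableSpace W] [BorelSpace W]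
  {vol : Measure X} [vol.IsAddHaarMeasure]

/-- the existence theorem with the sharp constant -/
theorem horm_sharp (S : Fuj.Sheets X W vol) (hS : Exh S) {φ : W → ℝ} (hφ : S.SmW φ)
    (hφp : ∀ i, ∀ z ∈ (S.e i).target, ∀ ξ, 0 ≤ Fuj.levi (S.wt i φ) z ξ)
    {f : W → ℂ} (hf : S.SmS f) (hf2 : S.nn φ f ≠ ⊤)
    {a : W → ℝ} (ha : Measurable a) (ha0 : ∀ p, 0 ≤ a p)
    (hfa : ∀ i, ∀ z ∈ (S.e i).target, ∀ ξ, ‖Fuj.db (S.rep i f) z ξ‖ ^ 2 ≤
      ‖S.τ i ((S.e i).symm z)‖ ^ 2 * S.loc i a z * Fuj.levi (S.wt i φ) z ξ) {s : ℝ} (hs : 0 < s) :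
    ∃ F, S.HolS F ∧ S.nn φ (fun p => F p - f p) ≤
      ENNReal.ofReal (1 + s) * ∫⁻ p, ENNReal.ofReal (a p * Real.exp (-φ p)) ∂S.μ := by
  obtain ⟨u, C₀, hu, hup, huc, hug⟩ := hS
  exact S.OHor_main hs hu hup huc hug hφ hφp hf hf2 ha ha0 hfa

end Vale.Agent.P282
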