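import Vale.Agent.P282.ODefs

set_option linter.unusedSectionVars false

open scoped ENNReal TensorProduct Topology
open Filter MeasureTheory

noncomputable section

namespace Vale.Agent.P282

variable {R K : Type} [CommRing R] [IsDomain R] [Algebra ℂ R] [Algebra.FiniteType ℂ R]
  [IsIntegrallyClosed R] [Field K] [Algebra R K] [IsFractionRing R K] [Algebra ℂ K]
  [IsScalarTower ℂ R K] {n : ℕ}

omit [IsIntegrallyClosed R] in
theorem Pt.pull_cont (φ : R ≃ₐ[ℂ] R) : Continuous (Pt.pull φ) :=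
  continuous_induced_rng.2 (continuous_pi fun r => Pt.cont (φ r))

theorem OInv_inj (φ : R ≃ₐ[ℂ] R) : Function.Injective (Pt.pull φ) := fun p q h =>
  DFunLike.ext p q fun r => by
    have h1 : p (φ (φ.symm r)) = q (φ (φ.symm r)) := DFunLike.congr_fun h (φ.symm r)
    rwa [φ.apply_symm_apply] at h1

theorem OInv_emb (π : Proj R n) (Δ : MvPolynomial (Fin n) ℂ) :
    MeasurableEmbedding (Subtype.val : π.W Δ → Pt R) :=
  MeasurableEmbedding.subtype_coe
    (isOpen_ne_fun ((MvPolynomial.continuous_eval Δ).comp π.at_cont) continuous_const).measurableSet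

theorem OInv_piece {π : Proj R n} {g : R} (A : An π g) (φ : R ≃ₐ[ℂ] R) {T : Set (π.W A.Δ)}
    (hT : MeasurableSet T) {s : E n → π.W A.Δ} (hs : Measurable s)
    (h1 : ∀ q ∈ T, s (π.at q.1) = q) (h2 : ∀ q ∈ T, ∃ p : π.W A.Δ, Pt.pull φ p.1 = q.1)
    {H : Pt R → ℝ≥0∞} (hH : Measurable H) :
    ∫⁻ p in {p : π.W A.Δ | Pt.pull φ p.1 ∈ Subtype.val '' T},
      H (Pt.pull φ p.1) * ENNReal.ofReal (‖A.jd (fun j => φ (π.y j)) p‖ ^ 2) ∂A.S.μ =
      ∫⁻ z in (fun q : π.W A.Δ => π.at q.1) '' T, H (s z).1 := by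
  have m1 : MeasurableSet {p : π.W A.Δ | Pt.pull φ p.1 ∈ Subtype.val '' T} :=
    ((Pt.pull_cont φ).measurable.comp measurable_subtype_coe)
      ((OInv_emb π A.Δ).measurableSet_image.2 hT)
  have k1 : ∀ p : π.W A.Δ, Pt.pull φ p.1 ∈ Subtype.val '' T →
      (s fun j => p.1 (φ (π.y j))).1 = Pt.pull φ p.1 := by
    rintro p ⟨q, hq, e⟩
    have e2 : (fun j => p.1 (φ (π.y j))) = π.at q.1 := by
      rw [e]
      rfl
    rw [e2, h1 q hq, e]
  have k2 : Set.InjOn (fun p : π.W A.Δ => fun j => p.1 (φ (π.y j)))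
      {p : π.W A.Δ | Pt.pull φ p.1 ∈ Subtype.val '' T} := fun p hp q hq h => by
    refine Subtype.ext (OInv_inj φ ?_)
    rw [← k1 p hp, ← k1 q hq]
    exact congrArg (fun z => (s z).1) h
  have k3 : (fun p : π.W A.Δ => fun j => p.1 (φ (π.y j))) ''
      {p : π.W A.Δ | Pt.pull φ p.1 ∈ Subtype.val '' T} = (fun q : π.W A.Δ => π.at q.1) '' T := by
    ext z
    constructor
    · rintro ⟨p, ⟨q, hq, e⟩, rfl⟩
      refine ⟨q, hq, ?_⟩
      show π.at q.1 = _
      rw [e]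
      rfl
    · rintro ⟨q, hq, rfl⟩
      obtain ⟨p, e⟩ := h2 q hq
      refine ⟨p, ⟨q, hq, e.symm⟩, ?_⟩
      show _ = π.at q.1
      rw [← e]
      rfl
  rw [← k3, ← A.area_inj (fun j => φ (π.y j)) m1 k2 (F := fun z => H (s z).1)
    (hH.comp (measurable_subtype_coe.comp hs))]
  refine setLIntegral_congr_fun m1 fun p hp => ?_
  simp only [k1 p hp]

theorem OInv_ne {π : Proj R n} {g : R} (A : An π g) : Nonempty (π.W A.Δ) := by
  by_contra hc
  exact one_ne_zero (A.inj (r := 1) fun p => (hc ⟨p⟩).elim)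

theorem OInv_ae {π : Proj R n} {g : R} (A : An π g) (φ : R ≃ₐ[ℂ] R) :
    ∀ᵐ p ∂A.S.μ, MvPolynomial.eval (π.at (Pt.pull φ p.1)) A.Δ ≠ 0 := by
  have h1 : φ (MvPolynomial.aeval π.y A.Δ) ≠ 0 := fun h =>
    A.Δ_ne (π.ind (by rw [map_zero]; exact (map_eq_zero_iff φ φ.injective).1 h))
  filter_upwards [measure_eq_zero_iff_ae_notMem.1 (A.null_zero h1)] with p hp
  rw [← SAn1_aeval]
  exact hp

theorem OInv_cov (G : WS R K n) {π : Proj R n} (A : An π (G.ρ π.y)) (φ : R ≃ₐ[ℂ] R)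
    {H : Pt R → ℝ≥0∞} (hH : Measurable H) :
    ∫⁻ p, H (Pt.pull φ p.1) * ENNReal.ofReal (‖A.jd (fun j => φ (π.y j)) p‖ ^ 2) ∂A.S.μ =
      ∫⁻ p, H p.1 ∂A.S.μ := by
  classical
  have := A.S.cnt
  obtain ⟨D, d1, d2, d3, d4⟩ := Fuj.meas_exists_disj (fun k => (A.S.e k).source)
    fun k => (A.S.e k).open_source.measurableSet
  set U : Set (π.W A.Δ) := {q | MvPolynomial.eval (π.at (Pt.pull φ.symm q.1)) A.Δ ≠ 0} with hU
  have mU : MeasurableSet U := (isOpen_ne_fun ((MvPolynomial.continuous_eval A.Δ).comp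
    (π.at_cont.comp ((Pt.pull_cont φ.symm).comp continuous_subtype_val)))
      continuous_const).measurableSet
  have c1 : ∀ p : Pt R, Pt.pull φ (Pt.pull φ.symm p) = p := fun p =>
    DFunLike.ext _ _ fun r => congrArg p (φ.symm_apply_apply r)
  have c2 : ∀ p : Pt R, Pt.pull φ.symm (Pt.pull φ p) = p := fun p =>
    DFunLike.ext _ _ fun r => congrArg p (φ.apply_symm_apply r)
  have mQ : ∀ i, MeasurableSet {p : π.W A.Δ | Pt.pull φ p.1 ∈ Subtype.val '' (D i ∩ U)} :=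
    fun i => ((Pt.pull_cont φ).measurable.comp measurable_subtype_coe)
      ((OInv_emb π A.Δ).measurableSet_image.2 ((d1 i).inter mU))
  have key : ∀ i, ∫⁻ p in {p : π.W A.Δ | Pt.pull φ p.1 ∈ Subtype.val '' (D i ∩ U)},
      H (Pt.pull φ p.1) * ENNReal.ofReal (‖A.jd (fun j => φ (π.y j)) p‖ ^ 2) ∂A.S.μ =
      ∫⁻ p in D i ∩ U, H p.1 ∂A.S.μ := by
    intro i
    have hs := (A.S.e i).continuousOn_symm.measurable_piecewise
      (g := fun _ => (A.S.e i).symm 0) continuousOn_const (A.S.e i).open_target.measurableSet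
    have h1 : ∀ q ∈ D i ∩ U, (A.S.e i).target.piecewise (A.S.e i).symm
        (fun _ => (A.S.e i).symm 0) (π.at q.1) = q := fun q hq => by
      rw [← A.π_eq, ← A.S.e_eq i q (d3 i hq.1),
        Set.piecewise_eq_of_mem _ _ _ ((A.S.e i).map_source (d3 i hq.1)),
        (A.S.e i).left_inv (d3 i hq.1)]
    rw [OInv_piece A φ ((d1 i).inter mU) hs h1 (fun q hq => ⟨⟨_, hq.2⟩, c1 q.1⟩) hH,
      ← OInv_piece A AlgEquiv.refl ((d1 i).inter mU) hs h1 (fun q _ => ⟨q, rfl⟩) hH]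
    have e1 : {p : π.W A.Δ | Pt.pull AlgEquiv.refl p.1 ∈ Subtype.val '' (D i ∩ U)} = D i ∩ U :=
      Set.preimage_image_eq _ Subtype.val_injective
    rw [e1]
    refine lintegral_congr fun p => ?_
    have h2 := A.jd_rho G π.y p
    have h3 : ‖A.jd π.y p‖ = 1 := by
      have h4 := congrArg norm ((mul_eq_right₀ (A.g_ne p)).1 h2)
      rw [norm_pow, norm_one] at h4
      exact (pow_eq_one_iff_of_nonneg (norm_nonneg _) G.ω.m_pos.ne').1 h4
    show H p.1 * ENNReal.ofReal (‖A.jd π.y p‖ ^ 2) = _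
    rw [h3, one_pow, ENNReal.ofReal_one, mul_one]
  have e1 : A.S.μ.restrict (⋃ i, {p : π.W A.Δ | Pt.pull φ p.1 ∈ Subtype.val '' (D i ∩ U)}) =
      A.S.μ := Measure.restrict_eq_self_of_ae_mem (by
    filter_upwards [OInv_ae A φ] with p hp
    obtain ⟨i, hi⟩ := Set.mem_iUnion.1 (d4 _ (A.S.idx_mem ⟨_, hp⟩))
    refine Set.mem_iUnion.2 ⟨i, ⟨_, hp⟩, ⟨hi, ?_⟩, rfl⟩
    show MvPolynomial.eval (π.at (Pt.pull φ.symm (Pt.pull φ p.1))) A.Δ ≠ 0
    rw [c2]
    exact p.2)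
  have e2 : A.S.μ.restrict (⋃ i, D i ∩ U) = A.S.μ := Measure.restrict_eq_self_of_ae_mem (by
    filter_upwards [OInv_ae A φ.symm] with p hp
    obtain ⟨i, hi⟩ := Set.mem_iUnion.1 (d4 _ (A.S.idx_mem p))
    exact Set.mem_iUnion.2 ⟨i, hi, hp⟩)
  conv_lhs => rw [← e1]
  conv_rhs => rw [← e2]
  rw [lintegral_iUnion mQ fun i j h => Set.disjoint_left.2 fun p ⟨q, hq, e⟩ ⟨q', hq', e'⟩ =>
      Set.disjoint_left.1 (d2 h) hq.1 (Subtype.ext (e'.trans e.symm) ▸ hq'.1),
    lintegral_iUnion (fun i => (d1 i).inter mU) fun i j h =>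
      (d2 h).mono Set.inter_subset_left Set.inter_subset_left]
  exact tsum_congr key

theorem An.lint_nu (G : WS R K n) {π : Proj R n} (A : An π (G.ρ π.y)) {F : Pt R → ℝ≥0∞}
    (hF : Measurable F) :
    ∫⁻ p, F p ∂A.nu G = ∫⁻ p, F p.1 * ENNReal.ofReal (dens G π 0 p.1) ∂A.S.μ := by
  rw [An.nu, lintegral_map hF measurable_subtype_coe]
  exact (lintegral_withDensity_eq_lintegral_mul _
    ((dens_meas G π 0).comp measurable_subtype_coe).ennreal_ofReal
    (hF.comp measurable_subtype_coe)).trans (lintegral_congr fun p => mul_comm _ _)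

theorem An.nu_null (G : WS R K n) {π : Proj R n} (A : An π (G.ρ π.y)) {r : R} (hr : r ≠ 0) :
    A.nu G {p | p r = 0} = 0 := by
  rw [An.nu, Measure.map_apply measurable_subtype_coe
    (isClosed_eq (Pt.cont r) continuous_const).measurableSet]
  exact withDensity_absolutelyContinuous _ _ (A.null_zero hr)

theorem An.nu_ne (G : WS R K n) {π : Proj R n} (A : An π (G.ρ π.y)) : A.nu G ≠ 0 := by
  intro h
  have h1 := A.lint_nu G (F := fun _ => 1) measurable_const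
  rw [h, lintegral_zero_measure, eq_comm] at h1
  have h0 := (lintegral_eq_zero_iff (measurable_const.mul
    ((dens_meas G π 0).comp measurable_subtype_coe).ennreal_ofReal)).1 h1
  have h2 : A.S.μ = 0 := ae_eq_bot.1 (eventually_false_iff_eq_bot.1 (h0.mono fun p hp => by
    have h3 : 0 < dens G π 0 p.1 := mul_pos
      (Real.rpow_pos_of_pos (pow_pos (norm_pos_iff.2 (A.g_ne p)) 2) _)
      (Real.rpow_pos_of_pos (SGr_pos _) _)
    have h4 : ENNReal.ofReal (dens G π 0 p.1) = 0 := (one_mul _).symm.trans hp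
    exact h3.not_ge (ENNReal.ofReal_eq_zero.1 h4)))
  obtain ⟨p⟩ := OInv_ne A
  obtain ⟨i, hi⟩ := A.S.cover p
  have h5 := A.S.μ_eq i
  rw [h2, Measure.restrict_zero, Measure.map_eq_zero_iff ((A.S.e i).continuousOn_symm.aemeasurable
    (A.S.e i).open_target.measurableSet), Measure.restrict_eq_zero] at h5
  exact ((A.S.e i).open_target.measure_pos volume ⟨_, (A.S.e i).map_source hi⟩).ne' h5

/-- automorphisms that scale the form scale the measure -/
theorem An.nu_inv (G : WS R K n) {π : Proj R n} (A : An π (G.ρ π.y)) (φ : R ≃ₐ[ℂ] R) {κ : ℂ}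
    (hκ : κ ≠ 0) (h : (G.ρ fun i => φ (π.y i)) = κ • φ (G.ρ π.y)) :
    (A.nu G).map (Pt.pull φ) = ENNReal.ofReal ((‖κ‖ ^ 2) ^ (-(1 / G.ω.m : ℝ))) • A.nu G := by
  refine Measure.ext_of_lintegral _ fun F hF => ?_
  rw [lintegral_map hF (Pt.pull_cont φ).measurable, lintegral_smul_measure,
    A.lint_nu G (F := fun p => F (Pt.pull φ p)) (hF.comp (Pt.pull_cont φ).measurable),
    A.lint_nu G hF,
    ← OInv_cov G A φ (H := fun p => F p * ENNReal.ofReal (dens G π 0 p))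
      (hF.mul (dens_meas G π 0).ennreal_ofReal), smul_eq_mul,
    ← lintegral_const_mul' _ _ ENNReal.ofReal_ne_top]
  have h0 : φ (G.ρ π.y) ≠ 0 := fun h0 => by
    obtain ⟨p⟩ := OInv_ne A
    exact A.g_ne p ((congrArg p.1 ((map_eq_zero_iff φ φ.injective).1 h0)).trans (map_zero _))
  refine lintegral_congr_ae ?_
  filter_upwards [measure_eq_zero_iff_ae_notMem.1 (A.null_zero h0)] with p hp
  have h1 := A.jd_rho G (fun i => φ (π.y i)) p
  rw [h, map_smul, smul_eq_mul] at h1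
  have hj : A.jd (fun i => φ (π.y i)) p ≠ 0 := fun hj => by
    rw [hj, zero_pow G.ω.m_pos.ne', zero_mul] at h1
    exact mul_ne_zero hκ hp h1.symm
  have hm : (G.ω.m : ℝ) ≠ 0 := Nat.cast_ne_zero.2 G.ω.m_pos.ne'
  have h2 := congrArg (fun x => ‖x‖ ^ 2) h1
  simp only [norm_mul, norm_pow, mul_pow] at h2
  have h3 : dens G π 0 p.1 = (‖κ‖ ^ 2) ^ (-(1 / G.ω.m : ℝ)) *
      (dens G π 0 (Pt.pull φ p.1) * ‖A.jd (fun j => φ (π.y j)) p‖ ^ 2) := by
    simp only [dens, neg_zero, Real.rpow_zero, mul_one]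
    show _ = _ * ((‖p.1 (φ (G.ρ π.y))‖ ^ 2) ^ (-(1 / G.ω.m : ℝ)) * _)
    rw [← mul_assoc, ← Real.mul_rpow (by positivity) (by positivity), ← h2,
      Real.mul_rpow (by positivity) (by positivity), ← pow_mul, mul_comm G.ω.m 2, pow_mul,
      ← Real.rpow_natCast _ G.ω.m, ← Real.rpow_mul (by positivity), mul_neg, mul_one_div_cancel hm,
      Real.rpow_neg_one, mul_right_comm, inv_mul_cancel₀ (pow_ne_zero 2 (norm_ne_zero_iff.2 hj)),
      one_mul]
  rw [h3, ENNReal.ofReal_mul (by positivity), ENNReal.ofReal_mul (dens_nonneg G π 0 _)]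
  ring

end Vale.Agent.P282
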