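import Vale.Agent.P282.SDefs

set_option linter.unusedSectionVars false

open scoped ENNReal TensorProduct Topology ContDiff
open Filter MeasureTheory

noncomputable section

namespace Vale.Agent.P282

variable {X W : Type} [NormedAddCommGroup X] [NormedSpace ℝ X] [NormedSpace ℂ X]
  [IsScalarTower ℝ ℂ X] [FiniteDimensional ℂ X] [MeasurableSpace X] [BorelSpace X]
  [TopologicalSpace W] [T2Space W] [MeasurableSpace W] [BorelSpace W]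
  {vol : Measure X} [vol.IsAddHaarMeasure]

open scoped ComplexConjugate in
theorem OLevi_alg {J : Type} [Fintype J] (f d : J → ℂ) (l : J → ℝ) (h0 : 0 < ∑ j, ‖f j‖ ^ 2) :
    ‖(∑ j, l j * (d j * conj (f j))) * (((∑ j, ‖f j‖ ^ 2)⁻¹ : ℝ) : ℂ) +
      ((∑ j, l j * ‖f j‖ ^ 2 : ℝ) : ℂ) * (((-((∑ j, ‖f j‖ ^ 2) ^ 2)⁻¹ : ℝ) : ℂ) *
        ∑ j, d j * conj (f j))‖ ^ 2 ≤
      ((∑ j, l j ^ 2 * ‖f j‖ ^ 2) / (∑ j, ‖f j‖ ^ 2) -
        ((∑ j, l j * ‖f j‖ ^ 2) / ∑ j, ‖f j‖ ^ 2) ^ 2) *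
      ((∑ j, ‖f j‖ ^ 2)⁻¹ * ∑ j, ‖d j‖ ^ 2 +
        -((∑ j, ‖f j‖ ^ 2) ^ 2)⁻¹ * ‖∑ j, d j * conj (f j)‖ ^ 2) := by
  obtain ⟨S, hS⟩ : ∃ S, S = ∑ j, ‖f j‖ ^ 2 := ⟨_, rfl⟩
  obtain ⟨T, hT⟩ : ∃ T, T = ∑ j, l j * ‖f j‖ ^ 2 := ⟨_, rfl⟩
  obtain ⟨D, hD⟩ : ∃ D, D = ∑ j, d j * conj (f j) := ⟨_, rfl⟩
  rw [← hS] at h0
  have h1 : (S : ℂ) ≠ 0 := by exact_mod_cast h0.ne'
  have n1 : ∀ j, f j * conj (f j) = ((‖f j‖ ^ 2 : ℝ) : ℂ) := fun j => by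
    rw [Complex.mul_conj, Complex.normSq_eq_norm_sq]
  have e1 : ∑ j, ((l j - T / S : ℝ) : ℂ) * conj (f j) * (d j - D / S * f j) =
      (∑ j, l j * (d j * conj (f j))) - D * T / S := by
    have : ∀ j, ((l j - T / S : ℝ) : ℂ) * conj (f j) * (d j - D / S * f j) =
        l j * (d j * conj (f j)) - D / S * ((l j * ‖f j‖ ^ 2 : ℝ) : ℂ) -
          T / S * (d j * conj (f j)) + T / S * (D / S) * ((‖f j‖ ^ 2 : ℝ) : ℂ) := fun j => by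
      rw [Complex.ofReal_mul, ← n1]
      push_cast
      ring
    simp only [this, Finset.sum_add_distrib, Finset.sum_sub_distrib, ← Finset.mul_sum,
      ← Complex.ofReal_sum, ← hS, ← hT, ← hD]
    field_simp
    ring
  have e2 : ∑ j, (|l j - T / S| * ‖f j‖) ^ 2 = (∑ j, l j ^ 2 * ‖f j‖ ^ 2) - T ^ 2 / S := by
    have : ∀ j, (|l j - T / S| * ‖f j‖) ^ 2 = l j ^ 2 * ‖f j‖ ^ 2 -
        2 * (T / S) * (l j * ‖f j‖ ^ 2) + (T / S) ^ 2 * ‖f j‖ ^ 2 := fun j => by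
      rw [mul_pow, sq_abs]
      ring
    simp only [this, Finset.sum_add_distrib, Finset.sum_sub_distrib, ← Finset.mul_sum, ← hS, ← hT]
    field_simp
    ring
  have e3 : ∑ j, ‖d j - D / S * f j‖ ^ 2 = (∑ j, ‖d j‖ ^ 2) - ‖D‖ ^ 2 / S := by
    have : ∀ j, ((‖d j - D / S * f j‖ ^ 2 : ℝ) : ℂ) = ((‖d j‖ ^ 2 : ℝ) : ℂ) -
        conj D / S * (d j * conj (f j)) - D / S * conj (d j * conj (f j)) +
          D * conj D / S ^ 2 * ((‖f j‖ ^ 2 : ℝ) : ℂ) := fun j => by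
      rw [← n1, ← Complex.normSq_eq_norm_sq, ← Complex.normSq_eq_norm_sq, ← Complex.mul_conj,
        ← Complex.mul_conj]
      simp only [map_sub, map_mul, map_div₀, Complex.conj_ofReal, Complex.conj_conj]
      ring
    apply Complex.ofReal_injective
    rw [Complex.ofReal_sum, Complex.ofReal_sub, Complex.ofReal_div, ← Complex.normSq_eq_norm_sq D,
      ← Complex.mul_conj]
    simp only [this, Finset.sum_add_distrib, Finset.sum_sub_distrib, ← Finset.mul_sum,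
      ← Complex.ofReal_sum, ← map_sum, ← hS, ← hD]
    field_simp
    ring
  have h5 : ‖(∑ j, l j * (d j * conj (f j))) - D * T / S‖ ^ 2 ≤
      ((∑ j, l j ^ 2 * ‖f j‖ ^ 2) - T ^ 2 / S) * ((∑ j, ‖d j‖ ^ 2) - ‖D‖ ^ 2 / S) := by
    rw [← e1, ← e2, ← e3]
    refine le_trans ?_ (Finset.sum_mul_sq_le_sq_mul_sq _ _ _)
    gcongr
    refine (norm_sum_le _ _).trans (le_of_eq (Finset.sum_congr rfl fun j _ => ?_))
    rw [norm_mul, norm_mul, Complex.norm_real, Real.norm_eq_abs, Complex.norm_conj]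
  rw [← hS, ← hT, ← hD]
  have e4 : (∑ j, l j * (d j * conj (f j))) * ((S⁻¹ : ℝ) : ℂ) + (T : ℂ) *
      (((-(S ^ 2)⁻¹ : ℝ) : ℂ) * D) = ((∑ j, l j * (d j * conj (f j))) - D * T / S) / S := by
    push_cast
    field_simp
    ring
  rw [e4, norm_div, div_pow, Complex.norm_real, Real.norm_eq_abs, sq_abs, div_le_iff₀ (by positivity)]
  refine h5.trans (le_of_eq ?_)
  field_simp
  ring

open Fuj in
theorem levi_var {J : Type} [Fintype J] {f : J → X → ℂ} {z : X}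
    (hf : ∀ j, ∀ᶠ y in 𝓝 z, DifferentiableAt ℂ (f j) y) (h0 : 0 < ∑ j, ‖f j z‖ ^ 2) (l : J → ℝ)
    (ξ : X) :
    ‖Fuj.db (fun y => (((∑ j, l j * ‖f j y‖ ^ 2) / ∑ j, ‖f j y‖ ^ 2 : ℝ) : ℂ)) z ξ‖ ^ 2 ≤
      ((∑ j, l j ^ 2 * ‖f j z‖ ^ 2) / (∑ j, ‖f j z‖ ^ 2) -
        ((∑ j, l j * ‖f j z‖ ^ 2) / ∑ j, ‖f j z‖ ^ 2) ^ 2) *
      Fuj.levi (fun y => Real.log (∑ j, ‖f j y‖ ^ 2)) z ξ := by
  have hd : ∀ j, DifferentiableAt ℝ (fun y => ‖f j y‖ ^ 2) z := fun j =>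
    (c2_cd (hf j)).differentiableAt (by simp)
  have hS : ContDiffAt ℝ 2 (fun y => ∑ j, ‖f j y‖ ^ 2) z := ContDiffAt.sum fun j _ => c2_cd (hf j)
  have hS1 := hS.differentiableAt (by simp)
  have h1 : ∀ᶠ s in 𝓝 (∑ j, ‖f j z‖ ^ 2), HasDerivAt Real.log s⁻¹ s :=
    (eventually_ne_nhds h0.ne').mono fun s hs => Real.hasDerivAt_log hs
  have h2 := levi_comp (h := Real.log) (h' := fun s => s⁻¹) hS h1 (hasDerivAt_inv h0.ne') ξ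
  have h3 : levi (fun y => ∑ j, ‖f j y‖ ^ 2) z ξ = ∑ j, ‖fderiv ℂ (f j) z ξ‖ ^ 2 := by
    rw [levi_sum _ (f := fun j y => ‖f j y‖ ^ 2) fun j _ => c2_cd (hf j)]
    exact Finset.sum_congr rfl fun j _ => levi_normSq (hf j) ξ
  have h4 : dzr (fun y => ∑ j, ‖f j y‖ ^ 2) z ξ =
      ∑ j, fderiv ℂ (f j) z ξ * starRingEnd ℂ (f j z) := by
    rw [c2_dzr_sum _ (g := fun j y => ‖f j y‖ ^ 2) fun j _ => hd j]
    exact Finset.sum_congr rfl fun j _ => dzr_normSq (hf j).self_of_nhds ξ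
  have h5 : dzr (fun y => ∑ j, l j * ‖f j y‖ ^ 2) z ξ =
      ∑ j, l j * (fderiv ℂ (f j) z ξ * starRingEnd ℂ (f j z)) := by
    rw [c2_dzr_sum _ (g := fun j y => l j * ‖f j y‖ ^ 2) fun j _ => (hd j).const_mul _]
    exact Finset.sum_congr rfl fun j _ => by
      rw [dzr_const_mul (hd j), dzr_normSq (hf j).self_of_nhds ξ]
  have h6 := dzr_comp (h := fun s => s⁻¹) hS1 (hasDerivAt_inv h0.ne') ξ
  have h7 := dzr_mul (f := fun y => ∑ j, l j * ‖f j y‖ ^ 2) (g := fun y => (∑ j, ‖f j y‖ ^ 2)⁻¹)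
    (DifferentiableAt.fun_sum fun j _ => (hd j).const_mul _) (hS1.fun_inv h0.ne') ξ
  have e : (fun y => (∑ j, l j * ‖f j y‖ ^ 2) / ∑ j, ‖f j y‖ ^ 2) =
      fun y => (∑ j, l j * ‖f j y‖ ^ 2) * (∑ j, ‖f j y‖ ^ 2)⁻¹ := funext fun y => div_eq_mul_inv _ _
  rw [db_ofReal (fun y => (∑ j, l j * ‖f j y‖ ^ 2) / ∑ j, ‖f j y‖ ^ 2), Complex.norm_conj, e, h7,
    h6, h2, h3, h4, h5]
  exact OLevi_alg (fun j => f j z) (fun j => fderiv ℂ (f j) z ξ) l h0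

end Vale.Agent.P282
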