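import Vale.Agent.P282.ODefs

set_option linter.unusedSectionVars false

open scoped ENNReal TensorProduct Topology
open Filter MeasureTheory

noncomputable section

namespace Vale.Agent.P282

variable {R K : Type} [CommRing R] [IsDomain R] [Algebra ℂ R] [Algebra.FiniteType ℂ R]
  [IsIntegrallyClosed R] [Field K] [Algebra R K] [IsFractionRing R K] [Algebra ℂ K]
  [IsScalarTower ℂ R K] {n : ℕ}

omit [IsIntegrallyClosed R] in
theorem OMor_ind (x : Pt R) : ∀ (N : ℕ) (z : Fin N → R) (h : Fin N → Fin N → R),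
    (∀ i, z i ∈ x.m) → (∀ i j, i ≠ j → x (h i j) = 0) → (∀ i, x (h i i) ≠ 0) →
    ∃ (u : R) (d ζ e : Fin N → R), (∀ i, x (d i) ≠ 0) ∧ (∀ i, x (e i) ≠ 0) ∧
      (∀ i, ζ i - e i * z i ∈ x.m ^ 2) ∧ x u ≠ 0 ∧
      u * ∑ i, ∑ j, h i j * z i * z j = ∑ i, d i * ζ i ^ 2 := by
  intro N
  induction N with
  | zero => exact fun z h _ _ _ => ⟨1, z, z, z, nofun, nofun, nofun, by simp, by simp⟩
  | succ N ih =>
    intro z h hz h1 h2
    obtain ⟨a, ha⟩ : ∃ a : Fin N → R, ∀ j, a j = h 0 j.succ + h j.succ 0 := ⟨_, fun _ => rfl⟩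
    have h3 : ∀ j, x (a j) = 0 := fun j => by
      rw [ha, map_add, h1 _ _ (Fin.succ_ne_zero j).symm, h1 _ _ (Fin.succ_ne_zero j), add_zero]
    have h4 : x (4 * h 0 0) ≠ 0 := by
      rw [map_mul, map_ofNat]
      exact mul_ne_zero (by norm_num) (h2 0)
    obtain ⟨u, d, ζ, e, d1, d2, d3, d4, d5⟩ := ih (fun i => z i.succ)
      (fun i j => 4 * h 0 0 * h i.succ j.succ - a i * a j) (fun i => hz _)
      (fun i j hij => by simp [h3, h1 _ _ fun e => hij (Fin.succ_injective _ e)])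
      (fun i => by
        rw [map_sub, map_mul x (a i), h3, zero_mul, sub_zero, map_mul]
        exact mul_ne_zero h4 (h2 _))
    refine ⟨u * (4 * h 0 0), Fin.cons u d, Fin.cons (2 * h 0 0 * z 0 + ∑ j, a j * z j.succ) ζ,
      Fin.cons (2 * h 0 0) e, Fin.forall_fin_succ.2 ⟨d4, d1⟩, Fin.forall_fin_succ.2 ⟨?_, d2⟩,
      Fin.forall_fin_succ.2 ⟨?_, d3⟩, ?_, ?_⟩
    · rw [Fin.cons_zero, map_mul, map_ofNat]
      exact mul_ne_zero two_ne_zero (h2 0)
    · rw [Fin.cons_zero, Fin.cons_zero, add_sub_cancel_left, sq]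
      exact Ideal.sum_mem _ fun j _ => Ideal.mul_mem_mul (h3 j) (hz _)
    · rw [map_mul]
      exact mul_ne_zero d4 h4
    · have e1 : ∑ i, ∑ j, (4 * h 0 0 * h i.succ j.succ - a i * a j) * z i.succ * z j.succ =
          4 * h 0 0 * ∑ i : Fin N, ∑ j : Fin N, h i.succ j.succ * z i.succ * z j.succ -
            (∑ j, a j * z j.succ) ^ 2 := by
        rw [sq, Finset.sum_mul_sum]
        simp only [Finset.mul_sum, ← Finset.sum_sub_distrib]
        exact Finset.sum_congr rfl fun i _ => Finset.sum_congr rfl fun j _ => by ring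
      have e2 : z 0 * ∑ j, a j * z j.succ = ∑ j : Fin N, h 0 j.succ * z 0 * z j.succ +
          ∑ j : Fin N, h j.succ 0 * z j.succ * z 0 := by
        rw [Finset.mul_sum, ← Finset.sum_add_distrib]
        exact Finset.sum_congr rfl fun j _ => by rw [ha]; ring
      simp only [Fin.sum_univ_succ, Fin.cons_zero, Fin.cons_succ, Finset.sum_add_distrib]
      rw [← d5, e1]
      linear_combination (-4 * u * h 0 0) * e2

omit [IsIntegrallyClosed R] in
/-- algebraic Morse lemma -/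
theorem morse (x : Pt R) (hx : x.m ≠ ⊥) (h : DP n x.m) : ∃ ζ d : Fin (n + 1) → R,
    (∀ i, ζ i ∈ x.m) ∧ (∀ i, x (d i) ≠ 0) ∧ x.m ≤ Ideal.span (Set.range ζ) ⊔ x.m ^ 2 ∧
      ∑ i, d i * ζ i ^ 2 = 0 ∧ ζ 0 ≠ 0 := by
  have : IsNoetherianRing R := Algebra.FiniteType.isNoetherianRing ℂ R
  have hfg : x.m.FG := IsNoetherian.noetherian _
  obtain ⟨z, hz, h1, h2⟩ := h
  obtain ⟨r, hr, h3⟩ := Submodule.exists_sub_one_mem_and_smul_le_of_fg_of_le_sup (I := x.m) hfg
    le_rfl (N := Ideal.span (Set.range z)) (by rwa [smul_eq_mul, ← sq])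
  have hr1 : x r = 1 := by rwa [Pt.mem_m, map_sub, map_one, sub_eq_zero] at hr
  have h4 : Ideal.span {r} * x.m ≤ Ideal.span (Set.range z) := by
    rwa [← smul_eq_mul, Submodule.ideal_span_singleton_smul]
  have h5 : r ^ 2 * ∑ i, z i ^ 2 ∈ x.m • Submodule.span R
      (Set.range fun p : Fin (n + 1) × Fin (n + 1) => z p.1 * z p.2) := by
    have h6 := Ideal.mul_mem_mul (Ideal.pow_mem_pow (Ideal.mem_span_singleton_self r) 2) h2
    rw [show Ideal.span {r} ^ 2 * x.m ^ 3 =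
      x.m * (Ideal.span {r} * x.m * (Ideal.span {r} * x.m)) by ring] at h6
    refine Ideal.mul_mono_right ((Ideal.mul_mono h4 h4).trans ?_) h6
    rw [Ideal.span_mul_span']
    refine Ideal.span_mono ?_
    rintro _ ⟨_, ⟨i, rfl⟩, _, ⟨j, rfl⟩, rfl⟩
    exact ⟨(i, j), rfl⟩
  obtain ⟨c, hc, h6⟩ := (Submodule.mem_ideal_smul_span_iff_exists_sum _ _ _).1 h5
  rw [Finsupp.sum_fintype _ _ (by simp), Fintype.sum_prod_type] at h6
  obtain ⟨u, d, ζ, e, d1, d2, d3, -, d5⟩ := OMor_ind x _ z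
    (fun i j => (if i = j then r ^ 2 else 0) - c (i, j)) hz
    (fun i j hij => by rw [if_neg hij, map_sub, map_zero, zero_sub, neg_eq_zero]; exact hc _)
    (fun i => by simp [hr1, Pt.mem_m.1 (hc _)])
  have h7 : ∑ i, d i * ζ i ^ 2 = 0 := by
    rw [← d5]
    refine mul_eq_zero_of_right _ ?_
    simp only [sub_mul, Finset.sum_sub_distrib, ite_mul, zero_mul, Finset.sum_ite_eq,
      Finset.mem_univ, if_true, sub_eq_zero, mul_assoc]
    rw [← Finset.mul_sum]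
    simpa only [sq, smul_eq_mul] using h6.symm
  have h8 : x.m ≤ Ideal.span (Set.range ζ) ⊔ x.m ^ 2 := by
    refine h1.trans (sup_le (Ideal.span_le.2 ?_) le_sup_right)
    rintro _ ⟨i, rfl⟩
    have h9 : 1 - algebraMap ℂ R (x (e i))⁻¹ * e i ∈ x.m := by
      rw [Pt.mem_m, map_sub, map_mul, AlgHomClass.commutes, map_one]
      exact sub_eq_zero.2 (inv_mul_cancel₀ (d2 i)).symm
    rw [show z i = algebraMap ℂ R (x (e i))⁻¹ * ζ i + ((1 - algebraMap ℂ R (x (e i))⁻¹ * e i) * z i -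
      algebraMap ℂ R (x (e i))⁻¹ * (ζ i - e i * z i)) by ring]
    exact Submodule.add_mem_sup (Ideal.mul_mem_left _ _ (Ideal.subset_span ⟨i, rfl⟩))
      (sub_mem (sq x.m ▸ Ideal.mul_mem_mul h9 (hz i)) (Ideal.mul_mem_left _ _ (d3 i)))
  obtain ⟨k, hk⟩ : ∃ k, ζ k ≠ 0 := by
    by_contra! h9
    rw [Ideal.span_eq_bot.2 (by rintro _ ⟨i, rfl⟩; exact h9 i), bot_sup_eq, sq] at h8
    obtain ⟨t, ht, h10⟩ :=
      Submodule.exists_sub_one_mem_and_smul_eq_zero_of_fg_of_le_smul x.m x.m hfg h8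
    refine hx (eq_bot_iff.2 fun w hw => (mul_eq_zero.1 (h10 w hw)).resolve_left fun h11 => ?_)
    simp [h11, Pt.mem_m] at ht
  refine ⟨ζ ∘ Equiv.swap 0 k, d ∘ Equiv.swap 0 k, fun i => ?_, fun i => d1 _, ?_, ?_, ?_⟩
  · rw [Function.comp, ← sub_add_cancel (ζ _) (e _ * z _)]
    exact add_mem (Ideal.pow_le_self two_ne_zero (d3 _)) (Ideal.mul_mem_left _ _ (hz _))
  · rwa [(Equiv.swap 0 k).surjective.range_comp]
  · exact (Equiv.sum_comp (Equiv.swap 0 k) fun i => d i * ζ i ^ 2).trans h7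
  · rwa [Function.comp, Equiv.swap_apply_left]

end Vale.Agent.P282
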