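import Vale.Agent.P282.OInv

set_option linter.unusedSectionVars false

open scoped ENNReal TensorProduct Topology ContDiff ComplexConjugate
open Filter MeasureTheory

noncomputable section

namespace Vale.Agent.P282

variable {R K : Type} [CommRing R] [IsDomain R] [Algebra ℂ R] [Algebra.FiniteType ℂ R]
  [IsIntegrallyClosed R] [Field K] [Algebra R K] [IsFractionRing R K] [Algebra ℂ K]
  [IsScalarTower ℂ R K] {n : ℕ}

theorem OOnb_abs {V : Type} [NormedAddCommGroup V] [InnerProductSpace ℂ V] [FiniteDimensional ℂ V]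
    {ι : Type} [Fintype ι] (b : OrthonormalBasis ι ℂ V) (T : V →ₗ[ℂ] V)
    (hT : ∀ x y, inner ℂ (T x) (T y) = inner ℂ x y) (l : V →ₗ[ℂ] ℂ) :
    ∑ a, ‖l (T (b a))‖ ^ 2 = ∑ a, ‖l (b a)‖ ^ 2 := by
  have := FiniteDimensional.complete ℂ V
  let v := (InnerProductSpace.toDual ℂ V).symm (LinearMap.toContinuousLinearMap l)
  have hv : ∀ x, l x = inner ℂ v x := fun x =>
    (InnerProductSpace.toDual_symm_apply (y := LinearMap.toContinuousLinearMap l)).symm
  have h1 := (b.map ((T.isometryOfInner hT).toLinearIsometryEquiv rfl)).sum_sq_norm_inner_left v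
  simp only [hv]
  rw [b.sum_sq_norm_inner_left v, ← h1]
  rfl

theorem OOnb_core {V : Type} [AddCommGroup V] [Module ℂ V] [FiniteDimensional ℂ V]
    (c : InnerProductSpace.Core ℂ V) : ∃ e : Fin (Module.finrank ℂ V) → V,
      (∀ a b, c.inner (e b) (e a) = if a = b then 1 else 0) ∧
      ∀ T : V →ₗ[ℂ] V, (∀ x y, c.inner (T x) (T y) = c.inner x y) → ∀ l : V →ₗ[ℂ] ℂ,
        ∑ a, ‖l (T (e a))‖ ^ 2 = ∑ a, ‖l (e a)‖ ^ 2 := by
  let _ : NormedAddCommGroup V := c.toNormedAddCommGroup
  let _ : InnerProductSpace ℂ V := InnerProductSpace.ofCore c.toCore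
  refine ⟨stdOrthonormalBasis ℂ V, fun a b => ?_, fun T hT l => OOnb_abs _ T hT l⟩
  have h := orthonormal_iff_ite.1 (stdOrthonormalBasis ℂ V).orthonormal b a
  rw [if_congr eq_comm rfl rfl]
  exact h

/-- orthonormal bases -/
theorem exists_onb (G : WS R K n) {π : Proj R n} (A : An π (G.ρ π.y)) (V : Submodule ℂ R)
    [FiniteDimensional ℂ V] {ψ : Pt R → ℝ} (hψ : Measurable ψ) (h0 : ∀ p, 0 < ψ p)
    (hi : ∀ r ∈ V, Integrable (fun p : Pt R => ‖p r‖ ^ 2 * ψ p) (A.nu G)) :
    ∃ e : Fin (Module.finrank ℂ V) → R, (∀ a, e a ∈ V) ∧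
      (∀ a b, ∫ p : Pt R, p (e a) * conj (p (e b)) * (ψ p : ℂ) ∂A.nu G = if a = b then 1 else 0) ∧
      ∀ φ : R ≃ₐ[ℂ] R, (∀ r ∈ V, φ r ∈ V) → (∀ p, ψ (Pt.pull φ p) = ψ p) →
        (A.nu G).map (Pt.pull φ) = A.nu G →
        ∀ p : Pt R, ∑ a, ‖Pt.pull φ p (e a)‖ ^ 2 = ∑ a, ‖p (e a)‖ ^ 2 := by
  have hm : ∀ r s : R, Measurable fun p : Pt R => p r * conj (p s) * (ψ p : ℂ) := fun r s =>
    ((Pt.cont r).measurable.mul (Complex.continuous_conj.comp (Pt.cont s)).measurable).mul
      (Complex.measurable_ofReal.comp hψ)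
  have hI : ∀ r s : V, Integrable (fun p : Pt R => p r * conj (p s) * (ψ p : ℂ)) (A.nu G) :=
    fun r s => ((hi r r.2).add (hi s s.2)).mono' (hm r s).aestronglyMeasurable
      (Eventually.of_forall fun p => by
        rw [norm_mul, norm_mul, Complex.norm_conj, Complex.norm_real, Real.norm_of_nonneg (h0 p).le,
          Pi.add_apply, ← add_mul]
        refine mul_le_mul_of_nonneg_right ?_ (h0 p).le
        nlinarith [sq_nonneg (‖p r‖ - ‖p s‖), norm_nonneg (p r), norm_nonneg (p s)])
  have hd : ∀ r : R, ∫ p : Pt R, p r * conj (p r) * (ψ p : ℂ) ∂A.nu G =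
      ((∫ p : Pt R, ‖p r‖ ^ 2 * ψ p ∂A.nu G : ℝ) : ℂ) := fun r => by
    rw [← integral_complex_ofReal]
    refine integral_congr_ae (Eventually.of_forall fun p => ?_)
    simp only [Complex.mul_conj, Complex.normSq_eq_norm_sq, Complex.ofReal_mul]
  let c : InnerProductSpace.Core ℂ V :=
    { inner := fun s r => ∫ p : Pt R, p r * conj (p s) * (ψ p : ℂ) ∂A.nu G
      conj_inner_symm := fun s r => by
        rw [← integral_conj]
        refine integral_congr_ae (Eventually.of_forall fun p => ?_)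
        simp only [map_mul, Complex.conj_conj, Complex.conj_ofReal]
        ring
      re_inner_nonneg := fun r => by
        rw [hd]
        exact integral_nonneg fun p => mul_nonneg (sq_nonneg _) (h0 p).le
      add_left := fun s s' r => by
        rw [← integral_add (hI r s) (hI r s')]
        refine integral_congr_ae (Eventually.of_forall fun p => ?_)
        simp only [Submodule.coe_add, map_add]
        ring
      smul_left := fun s r a => by
        rw [← integral_const_mul]
        refine integral_congr_ae (Eventually.of_forall fun p => ?_)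
        simp only [Submodule.coe_smul, map_smul, smul_eq_mul, map_mul]
        ring
      definite := fun r hr => by
        by_contra h
        rw [hd, Complex.ofReal_eq_zero, integral_eq_zero_iff_of_nonneg
          (fun p => mul_nonneg (sq_nonneg _) (h0 p).le) (hi r r.2)] at hr
        refine A.nu_ne G (ae_eq_bot.1 (eventually_false_iff_eq_bot.1 ?_))
        filter_upwards [hr, measure_eq_zero_iff_ae_notMem.1
          (A.nu_null G (r := r) fun h1 => h (Subtype.ext h1))] with p h1 h2
        exact (mul_pos (pow_pos (norm_pos_iff.2 h2) 2) (h0 p)).ne' h1 }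
  obtain ⟨e, he, hT⟩ := OOnb_core c
  refine ⟨fun a => e a, fun a => (e a).2, he, fun φ hφ hψφ hν p => ?_⟩
  refine hT (φ.toLinearMap.restrict hφ) (fun s r => ?_) (p.hom.toLinearMap.domRestrict V)
  change ∫ p : Pt R, p (φ r) * conj (p (φ s)) * (ψ p : ℂ) ∂A.nu G =
    ∫ p : Pt R, p r * conj (p s) * (ψ p : ℂ) ∂A.nu G
  conv_rhs => rw [← hν]
  rw [integral_map (Pt.pull_cont φ).measurable.aemeasurable (hm r s).aestronglyMeasurable]
  simp only [hψφ]
  rfl

end Vale.Agent.P282
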