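import Vale.Agent.P282.ODet
import Vale.Agent.P282.KLoc

set_option linter.unusedSectionVars false

open scoped ENNReal TensorProduct Topology
open Filter MeasureTheory

noncomputable section

namespace Vale.Agent.P282

variable {R K : Type} [CommRing R] [IsDomain R] [Algebra ℂ R] [Algebra.FiniteType ℂ R]
  [IsIntegrallyClosed R] [Field K] [Algebra R K] [IsFractionRing R K] [Algebra ℂ K]
  [IsScalarTower ℂ R K] {n : ℕ}

theorem rho_morse (G : WS R K n) (x : Pt R) {ζ d : Fin (n + 1) → R} (h0 : ∀ i, ζ i ∈ x.m)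
    (hd : ∀ i, x (d i) ≠ 0) (hz : x.m ≤ Ideal.span (Set.range ζ) ⊔ x.m ^ 2)
    (hr : ∑ i, d i * ζ i ^ 2 = 0) (hζ : ζ 0 ≠ 0) :
    (G.ω.b.det fun j => th K ζ d j.succ) ≠ 0 ∧ ∀ w : RVal K, w.CenteredAt x.m →
      w.v ((G.ω.b.det fun j => th K ζ d j.succ) ^ G.ω.m / G.ω.h) ≤
        G.ω.m * w.v (algebraMap R K (ζ 0)) := by
  have inj := IsFractionRing.injective R K
  let θ : Fin (n + 1) → KaehlerDifferential ℂ R := fun j =>
    (2 * d j) • KaehlerDifferential.D ℂ R (ζ j) + ζ j • KaehlerDifferential.D ℂ R (d j)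
  have hθ : ∀ j, KaehlerDifferential.map ℂ ℂ R K (θ j) = th K ζ d j := fun j => by
    simp only [θ, th, map_add, map_smul, KaehlerDifferential.map_D, algebraMap_smul]
  obtain ⟨s, hs, hc⟩ := D_gen x θ ζ h0 hz fun i => by
    have h2 : (2 * x (d i)) ≠ 0 := mul_ne_zero two_ne_zero (hd i)
    have e : KaehlerDifferential.D ℂ R (ζ i) = algebraMap ℂ R (2 * x (d i))⁻¹ • (θ i +
        (-(ζ i • KaehlerDifferential.D ℂ R (d i)) +
          (algebraMap ℂ R (2 * x (d i)) - 2 * d i) • KaehlerDifferential.D ℂ R (ζ i))) := by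
      have e1 : θ i + (-(ζ i • KaehlerDifferential.D ℂ R (d i)) +
          (algebraMap ℂ R (2 * x (d i)) - 2 * d i) • KaehlerDifferential.D ℂ R (ζ i)) =
          algebraMap ℂ R (2 * x (d i)) • KaehlerDifferential.D ℂ R (ζ i) := by
        simp only [θ, sub_smul]
        abel
      rw [e1, smul_smul, ← map_mul, inv_mul_cancel₀ h2, map_one, one_smul]
    rw [e]
    refine Submodule.smul_mem _ _ (Submodule.add_mem_sup (Submodule.subset_span ⟨i, rfl⟩)
      (add_mem (neg_mem (Submodule.smul_mem_smul (h0 i) trivial))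
        (Submodule.smul_mem_smul ?_ trivial)))
    rw [Pt.mem_m, map_sub, map_mul x, AlgHomClass.commutes, map_ofNat]
    simp
  have s0 : s ≠ 0 := fun h => hs (by rw [h, map_zero])
  have hs' : algebraMap R K s ≠ 0 := (map_ne_zero_iff _ inj).2 s0
  have hζ' : algebraMap R K (ζ 0) ≠ 0 := (map_ne_zero_iff _ inj).2 hζ
  have rel : ∑ j, algebraMap R K (ζ j) • th K ζ d j = 0 := by
    have e := congrArg (fun r => KaehlerDifferential.D ℂ K (algebraMap R K r)) hr
    simp only [map_sum, map_mul, map_pow, map_zero, Derivation.leibniz, Derivation.leibniz_pow] at e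
    rw [← e]
    refine Finset.sum_congr rfl fun j _ => ?_
    simp only [th, smul_add, smul_smul, map_mul, map_ofNat, ← Nat.cast_smul_eq_nsmul K]
    congr 2 <;> push_cast <;> ring
  set Δ := G.ω.b.det fun j => th K ζ d j.succ with hΔ
  have key : ∀ f : Fin n → R, ∃ e : R, algebraMap R K (ζ 0) * (algebraMap R K s ^ n *
      G.ω.jac fun i => algebraMap R K (f i)) = algebraMap R K e * Δ := fun f => by
    choose c hc using fun i => hc (f i)
    have h2 := det_theta G.ω.b (th K ζ d) (fun j => algebraMap R K (ζ j)) hζ' rel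
      fun i j => algebraMap R K (c i j)
    have h3 : (fun i => ∑ j, algebraMap R K (c i j) • th K ζ d j) =
        fun i => algebraMap R K s • KaehlerDifferential.D ℂ K (algebraMap R K (f i)) := by
      funext i
      have e := congrArg (KaehlerDifferential.map ℂ ℂ R K) (hc i)
      simp only [map_smul, map_sum, KaehlerDifferential.map_D, hθ] at e
      simp only [algebraMap_smul]
      exact e.symm
    rw [h3, AlternatingMap.map_smul_univ, Finset.prod_const, Finset.card_univ, Fintype.card_fin,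
      smul_eq_mul] at h2
    refine ⟨(Matrix.of (Fin.cons ζ c : Fin (n + 1) → Fin (n + 1) → R)).det, h2.trans ?_⟩
    rw [RingHom.map_det]
    congr 2
    ext i j
    refine Fin.cases ?_ (fun i => ?_) i <;> rfl
  obtain ⟨π⟩ := exists_proj' (trdeg_eq G.ω R)
  have hΔ0 : Δ ≠ 0 := fun h => by
    obtain ⟨e, he⟩ := key π.y
    rw [h, mul_zero] at he
    exact mul_ne_zero hζ' (mul_ne_zero (pow_ne_zero _ hs') (π.jac_ne G.ω)) he
  refine ⟨hΔ0, fun w hw => ?_⟩
  have hq : Δ ^ G.ω.m / G.ω.h ≠ 0 := div_ne_zero (pow_ne_zero _ hΔ0) G.ω.h_ne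
  obtain ⟨k, r, hk⟩ := hartogs_loc (a := algebraMap R K (ζ 0) ^ G.ω.m / (Δ ^ G.ω.m / G.ω.h)) s0
    fun p hp h1 hsp => by
      obtain ⟨f, hf⟩ := G.gen p hp h1
      obtain ⟨e, he⟩ := key f
      refine ⟨e ^ G.ω.m, (s ^ n) ^ G.ω.m * G.ρ f, fun h => ?_, ?_⟩
      · exact hf ((hp.mem_or_mem h).resolve_left fun h4 =>
          hsp (hp.mem_of_pow_mem _ (hp.mem_of_pow_mem _ h4)))
      · have he' := congrArg (· ^ G.ω.m) he
        simp only [mul_pow] at he'
        rw [map_mul, G.ρ_eq, PForm.rho, map_pow, map_pow, map_pow]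
        have := G.ω.h_ne
        field_simp
        linear_combination he'
  have ha : algebraMap R K (ζ 0) ^ G.ω.m / (Δ ^ G.ω.m / G.ω.h) ≠ 0 :=
    div_ne_zero (pow_ne_zero _ hζ') hq
  have hsk : algebraMap R K (s ^ k) ≠ 0 := by rw [map_pow]; exact pow_ne_zero _ hs'
  have h1 := (hw.1 r).resolve_left (hk ▸ mul_ne_zero hsk ha)
  have h2 : ¬ 0 < w.v (algebraMap R K (s ^ k)) := fun h => by
    have := (hw.2 _ hsk).1 h
    rw [Pt.mem_m, map_pow] at this
    exact hs (pow_eq_zero_iff (by rintro rfl; simp at this) |>.1 this)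
  rw [← hk, w.mul _ _ hsk ha, w.v_div _ _ (pow_ne_zero _ hζ') hq, w.v_pow _ hζ'] at h1
  linarith

/-- comparison of two forms -/
theorem A_le_A {F : Type} [Field F] [Algebra ℂ F] (ω₁ ω₂ : PForm F n) (w : RVal F) (f : Fin n → F)
    (hf : ω₁.jac f ≠ 0) (h : w.v (ω₂.rho f) / ω₂.m ≤ w.v (ω₁.rho f) / ω₁.m) :
    ω₁.A w ≤ ω₂.A w := by
  obtain ⟨c, c0, hc⟩ : ∃ c : F, c ≠ 0 ∧ ∀ g, ω₂.jac g = c * ω₁.jac g :=
    ⟨ω₂.b.det ω₁.b, (ω₂.b.isUnit_det ω₁.b).ne_zero, fun g =>
      DFunLike.congr_fun (AlternatingMap.eq_smul_basis_det ω₁.b ω₂.b.det) _⟩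
  have hm₁ : (ω₁.m : ℝ) ≠ 0 := by exact_mod_cast ω₁.m_pos.ne'
  have hm₂ : (ω₂.m : ℝ) ≠ 0 := by exact_mod_cast ω₂.m_pos.ne'
  have e : ∀ (ω : PForm F n) (g : Fin n → F), ω.jac g ≠ 0 →
      w.v (ω.rho g) / ω.m = w.v (ω.jac g) - w.v ω.h / ω.m := fun ω g hg => by
    have := UTame_wt ω w hg
    unfold PForm.wt at this
    linarith
  have n2 : ∀ g, ω₁.jac g ≠ 0 → ω₂.jac g ≠ 0 := fun g hg => by
    rw [hc]; exact mul_ne_zero c0 hg
  refine iSup_le fun g => le_trans ?_ (ω₂.le_A w g.1 g.2.1 (n2 _ g.2.2))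
  rw [EReal.coe_le_coe_iff]
  rw [e _ _ hf, e _ _ (n2 _ hf), hc, w.mul _ _ c0 hf] at h
  unfold PForm.wt
  rw [e _ _ g.2.2, e _ _ (n2 _ g.2.2), hc, w.mul _ _ c0 g.2.2]
  linarith

theorem ind_of_jac {F : Type} [Field F] [Algebra ℂ F] (ω : PForm F n) {f : Fin n → F}
    (hf : ω.jac f ≠ 0) : AlgebraicIndependent ℂ f := by
  have hl : LinearIndependent F fun i => KaehlerDifferential.D ℂ F (f i) :=
    ((ω.b.is_basis_iff_det).2 (isUnit_iff_ne_zero.2 hf)).1
  rw [algebraicIndependent_iff]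
  intro P hP
  by_contra h0
  obtain ⟨m, hm, hmax⟩ := Finset.exists_max_image P.support (fun m => m.degree)
    (MvPolynomial.support_nonempty.2 h0)
  refine MvPolynomial.mem_support_iff.1 hm (AJac_ind f (fun Q hQ => ?_) _ m rfl P hP hmax)
  refine Fintype.linearIndependent_iff.1 hl _ ?_
  rw [← AJac_D_aeval, hQ, map_zero]

end Vale.Agent.P282
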