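import Vale.Agent.P282.OVar
import Vale.Agent.P282.OConv
import Vale.Agent.P282.UVq

set_option linter.unusedSectionVars false

open scoped ENNReal TensorProduct Topology
open Filter MeasureTheory

noncomputable section

namespace Vale.Agent.P282

variable {R K : Type} [CommRing R] [IsDomain R] [Algebra ℂ R] [Algebra.FiniteType ℂ R]
  [IsIntegrallyClosed R] [Field K] [Algebra R K] [IsFractionRing R K] [Algebra ℂ K]
  [IsScalarTower ℂ R K] {n : ℕ}

variable {G : WS R K n} {π : Proj R n} {z : Fin (n + 1) → R}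

variable (A : An π (G.ρ π.y))


theorem OSlope_pow {x : ℝ} (hx : 0 < x) {k : ℕ} (hk : 0 < k) (n : ℕ) :
    (x ^ k) ^ (-(n / k : ℝ)) = (x ^ n)⁻¹ := by
  have h : (k : ℝ) ≠ 0 := Nat.cast_ne_zero.2 hk.ne'
  rw [← Real.rpow_natCast, ← Real.rpow_mul hx.le, ← Real.rpow_natCast, ← Real.rpow_neg hx.le]
  congr 1
  field_simp

theorem OSlope_norm (p : Pt R) (r : R) (t : ℝ) :
    ‖p (((Real.exp (t / 2) : ℝ) : ℂ) • r)‖ ^ 2 = Real.exp t * ‖p r‖ ^ 2 := by
  rw [map_smul, norm_smul, mul_pow, Complex.norm_real, Real.norm_eq_abs, sq_abs, sq,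
    ← Real.exp_add, add_halves]

theorem OSlope_low {J : Type} [Fintype J] (s : J → R) (hs : ∀ j, s j ≠ 0)
    (h1 : ∀ p : Pt R, 0 < ∑ j, ‖p (s j)‖ ^ 2) (w : RVal K) (hw : w.OnSpec R)
    (hA : G.ω.A w ≠ ⊤) {c : ℝ} (hc : 0 < c)
    (hi : Integrable (fun p : Pt R => (∑ j, ‖p (s j)‖ ^ 2) ^ (-c)) (A.nu G)) :
    ∃ C : ℝ, 0 < C ∧ ∀ᶠ τ : ℝ in atTop, C⁻¹ * Real.exp (-τ * (G.ω.A w).toReal) ≤
      ∫ p : Pt R, (∑ j, Real.exp (τ * w.v (algebraMap R K (s j))) * ‖p (s j)‖ ^ 2) ^ (-c)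
        ∂A.nu G := by
  obtain ⟨C, hC, hev⟩ := vq G π A w hw hA s hs
  have hl : ∀ j, 0 ≤ w.v (algebraMap R K (s j)) := fun j => (hw _).resolve_left
    ((map_ne_zero_iff _ (IsFractionRing.injective R K)).2 (hs j))
  have hD : 0 < (Fintype.card J + 1 : ℝ) * C := by positivity
  have hE := Real.rpow_pos_of_pos hD (-c)
  refine ⟨C / ((Fintype.card J + 1 : ℝ) * C) ^ (-c), div_pos hC hE, ?_⟩
  filter_upwards [hev, eventually_ge_atTop 0] with τ hτ hτ0
  have hge : ∀ p : Pt R, ∑ j, ‖p (s j)‖ ^ 2 ≤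
      ∑ j, Real.exp (τ * w.v (algebraMap R K (s j))) * ‖p (s j)‖ ^ 2 := fun p =>
    Finset.sum_le_sum fun j _ => le_mul_of_one_le_left (sq_nonneg _)
      (Real.one_le_exp (mul_nonneg hτ0 (hl j)))
  have hm : Measurable fun p : Pt R =>
      (∑ j, Real.exp (τ * w.v (algebraMap R K (s j))) * ‖p (s j)‖ ^ 2) ^ (-c) :=
    (continuous_finsetSum _ fun j _ =>
      continuous_const.mul ((Pt.cont (s j)).norm.pow 2)).measurable.pow_const _
  have hn : ∀ p : Pt R,
      0 ≤ (∑ j, Real.exp (τ * w.v (algebraMap R K (s j))) * ‖p (s j)‖ ^ 2) ^ (-c) := fun p =>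
    Real.rpow_nonneg ((h1 p).le.trans (hge p)) _
  have hI : Integrable (fun p : Pt R =>
      (∑ j, Real.exp (τ * w.v (algebraMap R K (s j))) * ‖p (s j)‖ ^ 2) ^ (-c)) (A.nu G) :=
    hi.mono' hm.aestronglyMeasurable (.of_forall fun p => by
      rw [Real.norm_of_nonneg (hn p)]
      exact Real.rpow_le_rpow_of_nonpos (h1 p) (hge p) (by linarith))
  rw [← ENNReal.ofReal_le_ofReal_iff (integral_nonneg hn),
    ofReal_integral_eq_lintegral_ofReal hI (.of_forall hn), A.lint_nu G hm.ennreal_ofReal,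
    inv_div, div_eq_mul_inv, mul_assoc, ENNReal.ofReal_mul hE.le]
  refine le_trans (mul_le_mul_right hτ _) ?_
  rw [← lintegral_const_mul' _ _ ENNReal.ofReal_ne_top]
  refine le_trans (setLIntegral_mono ((hm.ennreal_ofReal.comp measurable_subtype_coe).mul
    ((dens_meas G π 0).comp measurable_subtype_coe).ennreal_ofReal) fun p hp => ?_)
    (setLIntegral_le_lintegral _ _)
  refine mul_le_mul_left (ENNReal.ofReal_le_ofReal (Real.rpow_le_rpow_of_nonpos
    ((h1 p.1).trans_le (hge p.1)) ?_ (by linarith))) _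
  have h2 : ∀ j, Real.exp (τ * w.v (algebraMap R K (s j))) * ‖p.1 (s j)‖ ^ 2 ≤ C := fun j => by
    refine (mul_le_mul_of_nonneg_left (hp.2 j).2 (Real.exp_pos _).le).trans_eq ?_
    rw [mul_left_comm, ← Real.exp_add, neg_mul, add_neg_cancel, Real.exp_zero, mul_one]
  have h3 := Finset.sum_le_sum (s := Finset.univ) fun j _ => h2 j
  rw [Finset.sum_const, Finset.card_univ, nsmul_eq_mul] at h3
  linarith

/-- the log discrepancy bounds the mean value of the valuation -/
theorem Cone.slope (h : Cone G π z) {J : Type} [Fintype J] (s : J → R) (hs : ∀ j, s j ≠ 0) {k : ℕ}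
    (hk : 0 < k) (h1 : ∀ p : Pt R, ∑ j, ‖p (s j)‖ ^ 2 = (1 + nz z p) ^ k) (w : RVal K)
    (hw : w.OnSpec R) (hA : G.ω.A w ≠ ⊤) :
    (n / k : ℝ) * ∑ j, w.v (algebraMap R K (s j)) *
        ∫ p : Pt R, ‖p (s j)‖ ^ 2 / (1 + nz z p) ^ (k + n) ∂A.nu G ≤
      (G.ω.A w).toReal * II G A z 0 n := by
  have hl : ∀ j, 0 ≤ w.v (algebraMap R K (s j)) := fun j => (hw _).resolve_left
    ((map_ne_zero_iff _ (IsFractionRing.injective R K)).2 (hs j))
  have hz : ∀ p : Pt R, 0 < 1 + nz z p := fun p =>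
    add_pos_of_pos_of_nonneg one_pos (nz_nonneg z p)
  have hn : 0 < n := lt_of_lt_of_le two_pos h.two
  have hc : (0 : ℝ) < n / k := div_pos (Nat.cast_pos.2 hn) (Nat.cast_pos.2 hk)
  have hp : ∀ p : Pt R, 0 < ∑ j, ‖p (s j)‖ ^ 2 := fun p => (h1 p).symm ▸ pow_pos (hz p) k
  have e : ∀ p : Pt R, (∑ j, ‖p (s j)‖ ^ 2) ^ (-(n / k : ℝ)) = nz z p ^ 0 / (1 + nz z p) ^ n :=
    fun p => by rw [h1, OSlope_pow (hz p) hk, pow_zero, one_div]
  have hi : Integrable (fun p : Pt R => (∑ j, ‖p (s j)‖ ^ 2) ^ (-(n / k : ℝ))) (A.nu G) := by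
    simp only [e]
    exact h.rad_int A (zero_add n).le
  have ma : ∀ j, Measurable fun p : Pt R => ‖p (s j)‖ ^ 2 := fun j =>
    ((Pt.cont (s j)).norm.pow 2).measurable
  obtain ⟨C, hC, hα⟩ := OSlope_low A s hs hp w hw hA hc hi
  have key := conv_slope (A.nu G) (a := fun j p => ‖p (s j)‖ ^ 2) ma (fun j p => sq_nonneg _) hp
    hl hc hi (fun τ hτ S S₁ S₂ hS hS₁ hS₂ => ?_) hC hα
  · have i2 : ∀ j, Integrable (fun p : Pt R => ‖p (s j)‖ ^ 2 / (1 + nz z p) ^ (k + n))
        (A.nu G) := fun j => by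
      refine hi.mono' ((ma j).div ((continuous_const.add (nz_cont z)).pow _).measurable
        ).aestronglyMeasurable (.of_forall fun p => ?_)
      have q := Finset.single_le_sum (f := fun j => ‖p (s j)‖ ^ 2) (fun j _ => sq_nonneg _)
        (Finset.mem_univ j)
      have q2 := hz p
      rw [h1] at q
      rw [e, Real.norm_of_nonneg (by positivity), pow_zero, pow_add, ← div_div]
      exact div_le_div_of_nonneg_right (div_le_one_of_le₀ q (by positivity)) (by positivity)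
    simp only [e] at key
    refine le_of_eq_of_le ?_ key
    congr 1
    simp only [← integral_const_mul]
    rw [← integral_finsetSum _ fun j _ => (i2 j).const_mul _]
    refine integral_congr_ae (.of_forall fun p => ?_)
    simp only [h1, pow_zero]
    rw [div_mul_div_comm, mul_one, ← pow_add, Finset.sum_div]
    exact Finset.sum_congr rfl fun j _ => (mul_div_assoc _ _ _).symm
  · have q := fun (p : Pt R) j => OSlope_norm p (s j) (τ * w.v (algebraMap R K (s j)))
    refine h.var A (fun j => ((Real.exp (τ * w.v (algebraMap R K (s j)) / 2) : ℝ) : ℂ) • s j)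
      (fun j => w.v (algebraMap R K (s j))) hk
      (Real.exp_pos (τ * ∑ j, w.v (algebraMap R K (s j)))) (fun p => ?_) (fun p => ?_) S S₁ S₂
      (by simp only [hS, q]) (by simp only [hS₁, q]) (by simp only [hS₂, q]) rfl
    · simp only [q, ← h1]
      exact Finset.sum_le_sum fun j _ => le_mul_of_one_le_left (sq_nonneg _)
        (Real.one_le_exp (mul_nonneg hτ (hl j)))
    · simp only [q, ← h1]
      rw [Finset.mul_sum]
      exact Finset.sum_le_sum fun j _ => mul_le_mul_of_nonneg_right (Real.exp_le_exp.2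
        (mul_le_mul_of_nonneg_left (Finset.single_le_sum (fun j _ => hl j) (Finset.mem_univ j))
          hτ)) (sq_nonneg _)

end Vale.Agent.P282
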