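import Vale.Agent.P282.OInv
import Vale.Agent.P282.ODet

set_option linter.unusedSectionVars false

open scoped ENNReal TensorProduct Topology
open Filter MeasureTheory

noncomputable section

namespace Vale.Agent.P282

variable {R K : Type} [CommRing R] [IsDomain R] [Algebra ℂ R] [Algebra.FiniteType ℂ R]
  [IsIntegrallyClosed R] [Field K] [Algebra R K] [IsFractionRing R K] [Algebra ℂ K]
  [IsScalarTower ℂ R K] {n : ℕ}

variable {G : WS R K n} {π : Proj R n} {z : Fin (n + 1) → R}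

variable (A : An π (G.ρ π.y))


theorem OSym_basis {m : ℕ} (hm : 1 ≤ m) (a b : Fin (m + 1) → ℝ) (ha : a ⬝ᵥ a = 1)
    (hb : b ⬝ᵥ b = 1) (hab : a ⬝ᵥ b = 0) : ∃ B : Matrix (Fin (m + 1)) (Fin (m + 1)) ℝ,
    B.transpose * B = 1 ∧ (∀ i, B i 0 = a i) ∧ ∀ i, B i (Fin.last m) = b i := by
  classical
  have h0 : (0 : Fin (m + 1)) ≠ Fin.last m := by
    intro h
    have := congrArg Fin.val h
    simp at this
    omega
  let v : Fin (m + 1) → EuclideanSpace ℝ (Fin (m + 1)) :=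
    fun k => if k = 0 then WithLp.toLp 2 a else WithLp.toLp 2 b
  have hin : ∀ x y : Fin (m + 1) → ℝ,
      inner ℝ (WithLp.toLp 2 x : EuclideanSpace ℝ (Fin (m + 1))) (WithLp.toLp 2 y) = x ⬝ᵥ y := by
    intro x y
    simp [PiLp.inner_apply, dotProduct, mul_comm]
  have hv : Orthonormal ℝ (Set.domRestrict ({0, Fin.last m} : Set (Fin (m + 1))) v) := by
    rw [orthonormal_iff_ite]
    rintro ⟨i, hi⟩ ⟨j, hj⟩
    have hba : b ⬝ᵥ a = 0 := by rw [dotProduct_comm]; exact hab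
    have v0 : v 0 = WithLp.toLp 2 a := if_pos rfl
    have v1 : v (Fin.last m) = WithLp.toLp 2 b := if_neg h0.symm
    change inner ℝ (v i) (v j) = _
    simp only [Subtype.mk.injEq]
    rcases hi with rfl | rfl <;> rcases hj with rfl | rfl
    · rw [v0, hin, ha, if_pos rfl]
    · rw [v0, v1, hin, hab, if_neg h0]
    · rw [v0, v1, hin, hba, if_neg h0.symm]
    · rw [v1, hin, hb, if_pos rfl]
  obtain ⟨e, he⟩ := hv.exists_orthonormalBasis_extension_of_card_eq (by simp)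
  refine ⟨Matrix.of fun i k => e k i, ?_, ?_, ?_⟩
  · ext k l
    have := orthonormal_iff_ite.1 e.orthonormal k l
    rw [Matrix.mul_apply, Matrix.one_apply, ← this]
    simp [PiLp.inner_apply, mul_comm]
  · intro i
    simp [he 0 (by simp), v]
  · intro i
    simp [he (Fin.last m) (by simp), v, h0.symm]

theorem OSym_orth {m : ℕ} (hm : 1 ≤ m) (a b a' b' : Fin (m + 1) → ℝ) (hb : b ⬝ᵥ b = a ⬝ᵥ a)
    (ha' : a' ⬝ᵥ a' = a ⬝ᵥ a) (hb' : b' ⬝ᵥ b' = a ⬝ᵥ a) (hab : a ⬝ᵥ b = 0)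
    (hab' : a' ⬝ᵥ b' = 0) : ∃ g : Matrix (Fin (m + 1)) (Fin (m + 1)) ℝ,
    g * g.transpose = 1 ∧ g.mulVec a = a' ∧ g.mulVec b = b' := by
  classical
  by_cases h : a ⬝ᵥ a = 0
  · rw [h] at hb ha' hb'
    rw [dotProduct_self_eq_zero] at h hb ha' hb'
    exact ⟨1, by simp, by simp [h, ha'], by simp [hb, hb']⟩
  have hpos : 0 < a ⬝ᵥ a :=
    lt_of_le_of_ne (Finset.sum_nonneg fun i _ => mul_self_nonneg (a i)) (Ne.symm h)
  obtain ⟨s, hs0, hs⟩ : ∃ s : ℝ, s ≠ 0 ∧ s * s = a ⬝ᵥ a :=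
    ⟨√(a ⬝ᵥ a), (Real.sqrt_pos.2 hpos).ne', Real.mul_self_sqrt hpos.le⟩
  have h1 : ∀ x : Fin (m + 1) → ℝ, x ⬝ᵥ x = a ⬝ᵥ a → (s⁻¹ • x) ⬝ᵥ (s⁻¹ • x) = 1 := by
    intro x hx
    rw [smul_dotProduct, dotProduct_smul, hx, ← hs, smul_eq_mul, smul_eq_mul]
    field_simp
  have h2 : ∀ x y : Fin (m + 1) → ℝ, x ⬝ᵥ y = 0 → (s⁻¹ • x) ⬝ᵥ (s⁻¹ • y) = 0 := by
    intro x y hx
    rw [smul_dotProduct, dotProduct_smul, hx]
    simp
  obtain ⟨B, hB, hBa, hBb⟩ := OSym_basis hm _ _ (h1 a rfl) (h1 b hb) (h2 a b hab)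
  obtain ⟨C, hC, hCa, hCb⟩ := OSym_basis hm _ _ (h1 a' ha') (h1 b' hb') (h2 a' b' hab')
  have hC' : C * C.transpose = 1 := mul_eq_one_comm.1 hC
  have key : ∀ (k : Fin (m + 1)) (x y : Fin (m + 1) → ℝ), (∀ i, B i k = (s⁻¹ • x) i) →
      (∀ i, C i k = (s⁻¹ • y) i) → (C * B.transpose).mulVec x = y := by
    intro k x y hx hy
    have ex : x = B.mulVec (Pi.single k s) := by
      funext i
      rw [Matrix.mulVec_single]
      simp [hx i]
      field_simp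
    have ey : y = C.mulVec (Pi.single k s) := by
      funext i
      rw [Matrix.mulVec_single]
      simp [hy i]
      field_simp
    rw [ex, Matrix.mulVec_mulVec, Matrix.mul_assoc, hB, Matrix.mul_one, ← ey]
  refine ⟨C * B.transpose, ?_, key 0 _ _ hBa hCa, key _ _ _ hBb hCb⟩
  rw [Matrix.transpose_mul, Matrix.transpose_transpose, Matrix.mul_assoc,
    ← Matrix.mul_assoc B.transpose, hB, Matrix.one_mul, hC']

theorem OSym_dot {m : ℕ} (g : Matrix (Fin m) (Fin m) ℝ) (hg : g * g.transpose = 1)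
    (u : Fin m → ℝ) : g.mulVec u ⬝ᵥ g.mulVec u = u ⬝ᵥ u := by
  have hg' : g.transpose * g = 1 := mul_eq_one_comm.1 hg
  rw [Matrix.dotProduct_mulVec, Matrix.vecMul_mulVec, hg', Matrix.vecMul_one]

theorem OSym_sq {m : ℕ} (w : Fin m → ℂ) : ∑ i, ‖w i‖ ^ 2 =
    (fun i => (w i).re) ⬝ᵥ (fun i => (w i).re) + (fun i => (w i).im) ⬝ᵥ (fun i => (w i).im) := by
  simp only [dotProduct, ← Finset.sum_add_distrib]
  refine Finset.sum_congr rfl fun i _ => ?_
  rw [Complex.sq_norm, Complex.normSq_apply]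

theorem OSym_norm {m : ℕ} (g : Matrix (Fin m) (Fin m) ℝ) (hg : g * g.transpose = 1)
    (w : Fin m → ℂ) : ∑ i, ‖∑ j, (g i j : ℂ) * w j‖ ^ 2 = ∑ i, ‖w i‖ ^ 2 := by
  rw [OSym_sq, OSym_sq w, ← OSym_dot g hg fun i => (w i).re, ← OSym_dot g hg fun i => (w i).im]
  congr 2 <;> funext i <;> simp [Matrix.mulVec, dotProduct]

theorem OSym_pull (φ : R ≃ₐ[ℂ] R) (p : Pt R) (r : R) : Pt.pull φ p r = p (φ r) := rfl

theorem OSym_nz (g : Matrix (Fin (n + 1)) (Fin (n + 1)) ℝ) (hg : g * g.transpose = 1) {c : ℂ}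
    {φ : R ≃ₐ[ℂ] R} (hφ : ∀ i, φ (z i) = c • ∑ j, (g i j : ℂ) • z j) (p : Pt R) :
    nz z (Pt.pull φ p) = ‖c‖ ^ 2 * nz z p := by
  unfold nz
  rw [← OSym_norm g hg fun i => p (z i), Finset.mul_sum]
  refine Finset.sum_congr rfl fun i _ => ?_
  rw [OSym_pull, hφ, map_smul, map_sum, smul_eq_mul, norm_mul, mul_pow]
  simp only [map_smul, smul_eq_mul]

theorem OSym_deg {j : ℕ} {P : MvPolynomial (Fin (n + 1)) ℂ} (hP : P.IsHomogeneous j)
    {d : Fin (n + 1) →₀ ℕ} (hd : d ∈ P.support) : ∑ i, d i = j := by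
  rw [hP.degree_eq_sum_deg_support hd]
  exact (Finset.sum_subset (Finset.subset_univ _) fun i _ hi => by simpa using hi).symm

theorem nz_cont (z : Fin (n + 1) → R) : Continuous (nz z) :=
  continuous_finsetSum _ fun i _ => ((Pt.cont (z i)).norm).pow 2

theorem nz_nonneg (z : Fin (n + 1) → R) (p : Pt R) : 0 ≤ nz z p :=
  Finset.sum_nonneg fun _ _ => sq_nonneg _

/-- scalings -/
theorem Cone.scale (h : Cone G π z) {c : ℂ} (hc : c ≠ 0) : ∃ φ : R ≃ₐ[ℂ] R,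
    (∀ j, ∀ r ∈ Rj z j, φ r = c ^ j • r) ∧ (∀ p, nz z (Pt.pull φ p) = ‖c‖ ^ 2 * nz z p) ∧
    (A.nu G).map (Pt.pull φ) = ENNReal.ofReal ((‖c‖ ^ 2)⁻¹ ^ (n - 1)) • A.nu G := by
  classical
  obtain ⟨φ, κ, hφ, hκ, hρ⟩ := h.aut 1 (by simp) hc
  have hκ0 : κ ≠ 0 := by
    rw [← norm_ne_zero_iff, hκ]
    exact pow_ne_zero _ (norm_ne_zero_iff.2 hc)
  have hz : ∀ i, φ (z i) = c • z i := by
    intro i
    rw [hφ, Finset.sum_eq_single i]
    · simp
    · intro b _ hb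
      simp [Matrix.one_apply_ne hb.symm]
    · simp
  refine ⟨φ, ?_, OSym_nz 1 (by simp) hφ, ?_⟩
  · rintro j _ ⟨P, hP, rfl⟩
    have hP' : P.IsHomogeneous j := hP
    change φ (MvPolynomial.aeval z P) = c ^ j • MvPolynomial.aeval z P
    rw [MvPolynomial.aeval_def, MvPolynomial.eval₂_eq', map_sum, Finset.smul_sum]
    refine Finset.sum_congr rfl fun d hd => ?_
    rw [map_mul, AlgEquiv.commutes, map_prod, ← OSym_deg hP' hd, ← mul_smul_comm,
      ← Finset.prod_pow_eq_pow_sum, ← Finset.prod_smul]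
    simp only [map_pow, hz, smul_pow]
  · rw [A.nu_inv G φ hκ0 hρ, h.m, hκ]
    congr 2
    rw [Nat.cast_one, div_one, Real.rpow_neg_one, inv_pow, ← pow_mul, ← pow_mul, mul_comm]

/-- rotations act transitively on the spheres -/
theorem Cone.rot (h : Cone G π z) {p q : Pt R} (e : nz z p = nz z q) : ∃ φ : R ≃ₐ[ℂ] R,
    Pt.pull φ p = q ∧ (∀ j, ∀ r ∈ Rj z j, φ r ∈ Rj z j) ∧ (∀ p, nz z (Pt.pull φ p) = nz z p) ∧
    (A.nu G).map (Pt.pull φ) = A.nu G := by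
  classical
  have hrel : ∀ p : Pt R, (fun i => (p (z i)).im) ⬝ᵥ (fun i => (p (z i)).im) =
      (fun i => (p (z i)).re) ⬝ᵥ (fun i => (p (z i)).re) ∧
      (fun i => (p (z i)).re) ⬝ᵥ (fun i => (p (z i)).im) = 0 := by
    intro p
    have h1 : ∑ i, p (z i) ^ 2 = 0 := by
      have := congrArg p h.rel
      simpa [map_sum] using this
    have h2 := congrArg Complex.re h1
    have h3 := congrArg Complex.im h1
    simp only [Complex.re_sum, Complex.im_sum, sq, Complex.mul_re, Complex.mul_im,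
      Complex.zero_re, Complex.zero_im, Finset.sum_sub_distrib, Finset.sum_add_distrib] at h2 h3
    simp only [dotProduct]
    refine ⟨by linarith, ?_⟩
    have h4 : ∑ i, (p (z i)).im * (p (z i)).re = ∑ i, (p (z i)).re * (p (z i)).im :=
      Finset.sum_congr rfl fun i _ => mul_comm _ _
    linarith
  have e' := e
  unfold nz at e'
  rw [OSym_sq, OSym_sq] at e'
  obtain ⟨p1, p2⟩ := hrel p
  obtain ⟨q1, q2⟩ := hrel q
  obtain ⟨g, hg, ga, gb⟩ := OSym_orth (m := n) (by have := h.two; omega)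
    (fun i => (p (z i)).re) (fun i => (p (z i)).im) (fun i => (q (z i)).re)
    (fun i => (q (z i)).im) p1 (by linarith) (by linarith) p2 q2
  obtain ⟨φ, κ, hφ, hκ, hρ⟩ := h.aut g hg one_ne_zero
  have hκ1 : ‖κ‖ = 1 := by simpa using hκ
  have hκ0 : κ ≠ 0 := by
    rw [← norm_ne_zero_iff, hκ1]
    exact one_ne_zero
  refine ⟨φ, ?_, ?_, fun p => by simpa using OSym_nz g hg hφ p, ?_⟩
  · refine h.pt_ext fun i => ?_
    rw [OSym_pull, hφ, one_smul, map_sum]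
    simp only [map_smul, smul_eq_mul]
    have a1 := congrFun ga i
    have b1 := congrFun gb i
    simp only [Matrix.mulVec, dotProduct] at a1 b1
    apply Complex.ext
    · rw [← a1]
      simp
    · rw [← b1]
      simp
  · rintro j _ ⟨P, hP, rfl⟩
    have hP' : P.IsHomogeneous j := hP
    let L : Fin (n + 1) → MvPolynomial (Fin (n + 1)) ℂ :=
      fun i => ∑ k, MvPolynomial.C (g i k : ℂ) * MvPolynomial.X k
    have hL : ∀ i, (L i).IsHomogeneous 1 := fun i =>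
      MvPolynomial.IsHomogeneous.sum _ _ _ fun k _ => MvPolynomial.isHomogeneous_C_mul_X _ _
    refine ⟨MvPolynomial.aeval L P, by simpa using hP'.aeval L hL, ?_⟩
    change MvPolynomial.aeval z (MvPolynomial.aeval L P) = φ.toAlgHom (MvPolynomial.aeval z P)
    rw [MvPolynomial.comp_aeval_apply, MvPolynomial.comp_aeval_apply]
    congr 2
    funext i
    change _ = φ (z i)
    rw [hφ, one_smul]
    simp [L, Algebra.smul_def]
  · rw [A.nu_inv G φ hκ0 hρ, hκ1]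
    simp

theorem Rj_le {j : ℕ} {r : R} (hr : r ∈ Rj z j) : ∃ C : ℝ, ∀ p : Pt R,
    ‖p r‖ ^ 2 ≤ C * nz z p ^ j := by
  obtain ⟨P, hP, rfl⟩ := hr
  have hP' : P.IsHomogeneous j := hP
  refine ⟨(∑ d ∈ P.support, ‖P.coeff d‖) ^ 2, fun p => ?_⟩
  have h0 := nz_nonneg z p
  have hs : ∀ i, ‖p (z i)‖ ≤ √(nz z p) := fun i =>
    Real.le_sqrt_of_sq_le (Finset.single_le_sum (f := fun i => ‖p (z i)‖ ^ 2)
      (fun _ _ => sq_nonneg _) (Finset.mem_univ i))
  have key : ‖p (MvPolynomial.aeval z P)‖ ≤ (∑ d ∈ P.support, ‖P.coeff d‖) * √(nz z p) ^ j := by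
    rw [MvPolynomial.aeval_def, MvPolynomial.eval₂_eq', map_sum, Finset.sum_mul]
    refine (norm_sum_le _ _).trans (Finset.sum_le_sum fun d hd => ?_)
    rw [map_mul, AlgHomClass.commutes, map_prod, norm_mul, norm_prod, ← OSym_deg hP' hd,
      ← Finset.prod_pow_eq_pow_sum]
    refine mul_le_mul (by simp) (Finset.prod_le_prod (fun _ _ => norm_nonneg _) fun i _ => ?_)
      (Finset.prod_nonneg fun _ _ => norm_nonneg _) (norm_nonneg _)
    rw [map_pow, norm_pow]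
    exact pow_le_pow_left₀ (norm_nonneg _) (hs i) _
  calc ‖p (MvPolynomial.aeval z P)‖ ^ 2
      ≤ ((∑ d ∈ P.support, ‖P.coeff d‖) * √(nz z p) ^ j) ^ 2 :=
        pow_le_pow_left₀ (norm_nonneg _) key 2
    _ = _ := by rw [mul_pow, ← pow_mul, mul_comm j 2, pow_mul, Real.sq_sqrt h0]

end Vale.Agent.P282
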