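import Vale.Agent.P282.ORho
import Vale.Agent.P282.OApx
import Vale.Agent.P282.OMor
import Vale.Agent.P282.OCone
import Vale.Agent.P282.UJx
import Vale.Agent.P282.AJac
import Vale.Agent.P282.AProj2
import Vale.Agent.P282.ATd0

set_option linter.unusedSectionVars false

open scoped ENNReal TensorProduct Topology
open Filter MeasureTheory

noncomputable section

namespace Vale.Agent.P282

variable {R K : Type} [CommRing R] [IsDomain R] [Algebra ℂ R] [Algebra.FiniteType ℂ R]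
  [IsIntegrallyClosed R] [Field K] [Algebra R K] [IsFractionRing R K] [Algebra ℂ K]
  [IsScalarTower ℂ R K] {n : ℕ}

theorem OTr_ge {w w' : RVal K} (h : ∀ a, a ≠ 0 → w'.v a = w.v a) (a : K) (t : ℝ) :
    w'.Ge a t ↔ w.Ge a t := by
  by_cases ha : a = 0
  · simp [RVal.Ge, ha]
  · simp [RVal.Ge, h a ha]

theorem OTr_cen {w w' : RVal K} (h : ∀ a, a ≠ 0 → w'.v a = w.v a) {m : Ideal R}
    (hw : w.CenteredAt m) : w'.CenteredAt m :=
  ⟨fun r => (OTr_ge h _ _).2 (hw.1 r), fun r hr => by rw [h _ hr]; exact hw.2 r hr⟩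

theorem OTr_vol {w w' : RVal K} (h : ∀ a, a ≠ 0 → w'.v a = w.v a) (m : Ideal R) [m.IsPrime] :
    vol m n w' = vol m n w := by
  have e : valIdeal m w' = valIdeal m w := by
    funext t
    unfold valIdeal
    simp only [OTr_ge h]
  unfold vol
  rw [e]

/-- pull back of a form, with the determinant of any family of differentials -/
theorem OTr_pull {L : Type} [Field L] [Algebra ℂ L] [Algebra K L] [IsScalarTower ℂ K L]
    [Algebra.IsAlgebraic K L] (ω : PForm K n) : ∃ ω' : PForm L n, ω'.m = ω.m ∧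
      ω'.h = algebraMap K L ω.h ∧ ∀ v : Fin n → KaehlerDifferential ℂ K,
        (ω'.b.det fun i => KaehlerDifferential.map ℂ ℂ K L (v i)) = algebraMap K L (ω.b.det v) := by
  have : CharZero K := ((algebraMap ℂ K).charZero_iff (algebraMap ℂ K).injective).1 inferInstance
  have : Algebra.FormallyEtale K L := Algebra.FormallyEtale.of_isSeparable K L
  let e := KaehlerDifferential.tensorKaehlerEquivOfFormallyEtale ℂ K L
  refine ⟨⟨ω.m, ω.m_pos, (ω.b.baseChange L).map e, algebraMap K L ω.h,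
    (map_ne_zero _).2 ω.h_ne⟩, rfl, rfl, fun v => ?_⟩
  have he : ∀ x : KaehlerDifferential ℂ K, KaehlerDifferential.map ℂ ℂ K L x = e (1 ⊗ₜ x) :=
    fun x => by
      rw [KaehlerDifferential.tensorKaehlerEquivOfFormallyEtale_apply,
        KaehlerDifferential.mapBaseChange_tmul, one_smul]
  simp only [Module.Basis.det_apply, RingHom.map_det]
  congr 1
  ext i j
  simp only [Module.Basis.toMatrix_apply, he, Module.Basis.map_repr, LinearEquiv.trans_apply,
    LinearEquiv.symm_apply_apply, Module.Basis.baseChange_repr_tmul, RingHom.mapMatrix_apply,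
    Matrix.map_apply, Algebra.smul_def, mul_one]

theorem OTr_A {L : Type} [Field L] [Algebra ℂ L] [Algebra K L] [IsScalarTower ℂ K L]
    [Algebra.IsAlgebraic K L] (ω : PForm K n) (ω' : PForm L n) (hm : ω'.m = ω.m)
    (hh : ω'.h = algebraMap K L ω.h)
    (hj : ∀ f : Fin n → K, (ω'.jac fun i => algebraMap K L (f i)) = algebraMap K L (ω.jac f))
    (w : RVal K) (w' : RVal L) (hw : ∀ a, a ≠ 0 → w'.v (algebraMap K L a) = w.v a) :
    ω'.A w' = ω.A w := by
  refine A_pull ω ω' (fun f hf => ?_) (fun f hf => ?_) w w' hw fun f hf => ?_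
  · rw [hj]
    exact (map_ne_zero _).2 hf
  · rw [hj] at hf
    exact (map_ne_zero _).1 hf
  · rw [← hw _ (ω.rho_ne hf), hm]
    unfold PForm.rho
    rw [hj, hm, hh, map_div₀, map_pow]

/-- maps out of the cone -/
theorem OTr_lift {G : WS R K n} {π : Proj R n} {z : Fin (n + 1) → R} (h : Cone G π z) {B : Type}
    [CommRing B] [Algebra ℂ B] (u : Fin (n + 1) → B) (hu : ∑ i, u i ^ 2 = 0) :
    ∃ φ : R →ₐ[ℂ] B, ∀ i, φ (z i) = u i := by
  have hs : Function.Surjective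
      (MvPolynomial.aeval z : MvPolynomial (Fin (n + 1)) ℂ →ₐ[ℂ] R) := by
    rw [← AlgHom.range_eq_top, ← Algebra.adjoin_range_eq_range_aeval, h.gen]
  refine ⟨AlgHom.liftOfSurjective _ hs (MvPolynomial.aeval u) fun P hP => ?_, fun i => ?_⟩
  · obtain ⟨Q, rfl⟩ := h.ker P hP
    show MvPolynomial.aeval u _ = 0
    simp [hu]
  · have := AlgHom.liftOfSurjective_apply _ hs (MvPolynomial.aeval u) (fun P hP => by
      obtain ⟨Q, rfl⟩ := h.ker P hP
      show MvPolynomial.aeval u _ = 0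
      simp [hu]) (MvPolynomial.X i)
    simpa using this

/-- the vertex -/
theorem OTr_vertex {G : WS R K n} {π : Proj R n} {z : Fin (n + 1) → R} (h : Cone G π z) :
    ∃ x : Pt R, x.m ≤ Ideal.span (Set.range z) := by
  obtain ⟨φ, hφ⟩ := OTr_lift h (B := ℂ) 0 (by simp)
  have key : ∀ r ∈ Algebra.adjoin ℂ (Set.range z),
      r - algebraMap ℂ R (φ r) ∈ Ideal.span (Set.range z) := by
    intro r hr
    induction hr using Algebra.adjoin_induction with
    | mem a ha =>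
      obtain ⟨i, rfl⟩ := ha
      rw [hφ, Pi.zero_apply, map_zero, sub_zero]
      exact Ideal.subset_span ⟨i, rfl⟩
    | algebraMap c => simp
    | add a b _ _ ha hb =>
      have := Ideal.add_mem _ ha hb
      convert this using 1
      simp only [map_add]
      ring
    | mul a b _ _ ha hb =>
      have := Ideal.add_mem _ (Ideal.mul_mem_left _ a hb)
        (Ideal.mul_mem_left _ (algebraMap ℂ R (φ b)) ha)
      convert this using 1
      simp only [map_mul]
      ring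
  refine ⟨φ, fun r hr => ?_⟩
  have h0 : φ r = 0 := hr
  simpa [h0] using key r (h.gen ▸ Algebra.mem_top)

theorem OTr_inj (π : Proj R n) {B : Type} [CommRing B] [IsDomain B] [Algebra ℂ B] (φ : R →ₐ[ℂ] B)
    (h : AlgebraicIndependent ℂ fun i => φ (π.y i)) : Function.Injective φ := by
  rw [injective_iff_map_eq_zero']
  by_contra hne
  have hp : RingHom.ker φ ≠ ⊥ := fun e => hne fun a => by
    rw [← RingHom.mem_ker, e, Ideal.mem_bot]
  have : (RingHom.ker φ).IsPrime := RingHom.ker_isPrime φ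
  have h1 := ATd0_ne_bot hp
  have h2 : AlgebraicIndependent ℂ fun i => Ideal.Quotient.mk (RingHom.ker φ) (π.y i) :=
    AlgebraicIndependent.of_comp (Ideal.kerLiftAlg φ) h
  have h3 := h2.cardinalMk_le_trdeg
  rw [π.trdeg] at h1
  simp only [Cardinal.mk_fintype, Fintype.card_fin] at h3
  exact absurd h1 (not_lt.2 h3)

theorem OTr_alg {L : Type} [Field L] [Algebra ℂ L] [Algebra K L] [IsScalarTower ℂ K L]
    (ω : PForm K n) (ω' : PForm L n) : Algebra.IsAlgebraic K L := by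
  have h := trdeg_add_eq ℂ K (A := L)
  rw [AJac_trdeg ω.b, AJac_trdeg ω'.b] at h
  rw [← trdeg_eq_zero_iff]
  have h2 : Algebra.trdeg K L + (n : Cardinal) = 0 + (n : Cardinal) := by
    rw [add_comm, h, zero_add]
  exact (Cardinal.add_nat_inj n).1 h2

/-- the differential of the normalized coordinates -/
theorem OTr_D {F : Type} [Field F] [Algebra ℂ F] [Algebra K F] [IsScalarTower ℂ K F]
    (ζ d : Fin (n + 1) → R) (j : Fin (n + 1)) {e : F} (he : e ≠ 0)
    (h : e ^ 2 = algebraMap K F (algebraMap R K (d j))) :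
    KaehlerDifferential.D ℂ F (e * algebraMap K F (algebraMap R K (ζ j))) =
      (2 * e)⁻¹ • KaehlerDifferential.map ℂ ℂ K F (th K ζ d j) := by
  have : CharZero F := ((algebraMap ℂ F).charZero_iff (algebraMap ℂ F).injective).1 inferInstance
  have h2 : (2 * e) ≠ 0 := mul_ne_zero two_ne_zero he
  rw [eq_inv_smul_iff₀ h2]
  unfold th
  have h3 : algebraMap K F (algebraMap R K (2 * d j)) = 2 * e ^ 2 := by
    rw [h, map_mul, map_mul, map_ofNat, map_ofNat]
  rw [map_add, map_smul, map_smul, KaehlerDifferential.map_D, KaehlerDifferential.map_D,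
    ← algebraMap_smul F (algebraMap R K (2 * d j)), ← algebraMap_smul F (algebraMap R K (ζ j)),
    h3, ← h, Derivation.leibniz, Derivation.leibniz_pow]
  module

/-- the transfer inside a field containing the normalized coordinates -/
theorem OTr_core (G : WS R K n) (x : Pt R) (w : RVal K) (hw : w.CenteredAt x.m)
    (hA : G.ω.A w ≠ ⊤) {R₀ K₀ : Type} [CommRing R₀] [IsDomain R₀]
    [Algebra ℂ R₀] [Algebra.FiniteType ℂ R₀] [IsIntegrallyClosed R₀] [Field K₀] [Algebra R₀ K₀]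
    [IsFractionRing R₀ K₀] [Algebra ℂ K₀] [IsScalarTower ℂ R₀ K₀] {G₀ : WS R₀ K₀ n}
    {π₀ : Proj R₀ n} {z : Fin (n + 1) → R₀} (h : Cone G₀ π₀ z) {F : Type} [Field F] [Algebra ℂ F]
    [Algebra K F] [IsScalarTower ℂ K F] (w₁ : RVal F)
    (hw₁ : ∀ a, a ≠ 0 → w₁.v (algebraMap K F a) = w.v a) (ω₁ : PForm F n)
    (hA₁ : ω₁.A w₁ = G.ω.A w) (u : Fin (n + 1) → F) (hu : ∑ i, u i ^ 2 = 0) (hu0 : u 0 ≠ 0)
    {t : ℝ} (ht : 0 < t) (hut : ∀ i, w₁.Ge (u i) t)
    (hap : ∀ i (s : ℝ), ∃ r : R, w₁.Ge (u i - algebraMap K F (algebraMap R K r)) s)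
    (hj : (ω₁.jac fun i => u i.succ) ≠ 0)
    (hρ : w₁.v (ω₁.rho fun i => u i.succ) / ω₁.m ≤ w₁.v (u 0)) : bd n ≤ nv G.ω x.m w := by
  obtain ⟨ψ₀, hψ₀⟩ := OTr_lift h u hu
  have hy : ∀ i, ψ₀ (π₀.y i) = u i.succ := fun i => by rw [h.y, hψ₀]
  have hinj : Function.Injective ψ₀ := OTr_inj π₀ ψ₀ (by
    simp only [hy]
    exact ind_of_jac ω₁ hj)
  let ψ : K₀ →ₐ[ℂ] F := IsFractionRing.liftAlgHom hinj
  have hψ : ∀ r, ψ (algebraMap R₀ K₀ r) = ψ₀ r := fun r =>
    IsFractionRing.lift_algebraMap (g := ψ₀.toRingHom) hinj r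
  let _ : Algebra K₀ F := ψ.toRingHom.toAlgebra
  have : IsScalarTower ℂ K₀ F := IsScalarTower.of_algebraMap_eq fun c => (ψ.commutes c).symm
  have : Algebra.IsAlgebraic K₀ F := OTr_alg G₀.ω ω₁
  have hal : ∀ a, algebraMap K₀ F a = ψ a := fun _ => rfl
  obtain ⟨ω₀, m₀, h₀, j₀⟩ := exists_pull (L := F) G₀.ω
  have hA₀ : ω₀.A w₁ = G₀.ω.A (w₁.comap ψ) := OTr_A G₀.ω ω₀ m₀ h₀ j₀ _ w₁ fun _ _ => rfl
  have hf : (fun i => algebraMap K₀ F (algebraMap R₀ K₀ (π₀.y i))) = fun i => u i.succ :=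
    funext fun i => by rw [hal, hψ, hy]
  have hr : (ω₀.rho fun i => u i.succ) = u 0 := by
    rw [← hψ₀, ← hψ, ← h.rho, G₀.ρ_eq, ← hf]
    unfold PForm.rho
    rw [j₀, m₀, h₀, map_div₀, map_pow]
    rfl
  have hj₀ : (ω₀.jac fun i => u i.succ) ≠ 0 := fun e => hu0 (by
    rw [← hr]
    unfold PForm.rho
    rw [e, zero_pow ω₀.m_pos.ne', zero_div])
  have hle : G₀.ω.A (w₁.comap ψ) ≤ G.ω.A w := by
    rw [← hA₀, ← hA₁]
    refine A_le_A ω₀ ω₁ w₁ _ hj₀ ?_
    rw [hr, m₀, h.m, Nat.cast_one, div_one]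
    exact hρ
  have hz : ∀ i, (w₁.comap ψ).Ge (algebraMap R₀ K₀ (z i)) t := fun i => by
    rcases hut i with e | e
    · left
      apply ψ.toRingHom.injective
      rw [map_zero]
      exact (hψ _).trans ((hψ₀ i).trans e)
    · right
      show t ≤ w₁.v (ψ _)
      rwa [hψ, hψ₀]
  have hos : (w₁.comap ψ).OnSpec R₀ :=
    RVal.onSpec_of_proj π₀ fun i => by rw [h.y]; exact (hz _).mono ht.le
  obtain ⟨x₀, hx₀⟩ := OTr_vertex h
  have hc₀ : (w₁.comap ψ).CenteredAt x₀.m :=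
    RVal.centeredAt_of_le hos ht fun r hr =>
      RVal.Ge.of_span hos (by rintro _ ⟨i, rfl⟩; exact hz i) (hx₀ hr)
  have hcg : ∀ a, a ≠ 0 → (w₁.comap (IsScalarTower.toAlgHom ℂ K F)).v a = w.v a := hw₁
  have hc := OTr_cen hcg hw
  have hv : vol x₀.m n (w₁.comap ψ) ≤ vol x.m n w := by
    rw [← OTr_vol hcg]
    refine vol_le_apx ψ x x₀ w₁ hc hc₀ fun a s => ?_
    refine apx_adjoin x w₁ hc (S := Set.range u) (by rintro _ ⟨i, rfl⟩; exact hap i) ?_ s
    have e : Set.range u = ψ₀ '' Set.range z := by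
      rw [← Set.range_comp]
      exact congrArg _ (funext fun i => (hψ₀ i).symm)
    rw [hψ, e, Algebra.adjoin_image, h.gen]
    exact ⟨a, Algebra.mem_top, rfl⟩
  have hz0 : algebraMap R₀ K₀ (z 0) ≠ 0 := fun e => hu0 (by rw [← hψ₀, ← hψ, e, map_zero])
  have hpos : 0 < G₀.ω.A (w₁.comap ψ) :=
    G₀.klt _ ⟨_, hz0, (ht.trans_le ((hz 0).resolve_left hz0)).ne'⟩ hos
  have hne : G₀.ω.A (w₁.comap ψ) ≠ ⊤ := ne_top_of_le_ne_top hA hle
  refine (h.low x₀ hc₀ hne).trans ?_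
  unfold nv
  refine mul_le_mul' (ENNReal.ofReal_le_ofReal ?_) hv
  exact pow_le_pow_left₀ (EReal.toReal_nonneg hpos.le)
    (EReal.toReal_le_toReal hle (ne_bot_of_gt hpos) hA) n

/-- transfer from a cone -/
theorem odp_low' (G : WS R K n) (x : Pt R) (hd : DP n x.m) (w : RVal K)
    (hw : w.CenteredAt x.m) (hA : G.ω.A w ≠ ⊤) {R₀ K₀ : Type} [CommRing R₀] [IsDomain R₀]
    [Algebra ℂ R₀] [Algebra.FiniteType ℂ R₀] [IsIntegrallyClosed R₀] [Field K₀] [Algebra R₀ K₀]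
    [IsFractionRing R₀ K₀] [Algebra ℂ K₀] [IsScalarTower ℂ R₀ K₀] {G₀ : WS R₀ K₀ n}
    {π₀ : Proj R₀ n} {z : Fin (n + 1) → R₀} (h : Cone G₀ π₀ z) : bd n ≤ nv G.ω x.m w := by
  obtain ⟨π⟩ := exists_proj' (trdeg_eq G.ω R)
  have hx : x.m ≠ ⊥ := fun e => by
    have h1 := height_pt π x
    have h2 := h.two
    rw [e, Ideal.height_bot] at h1
    have h3 : n = 0 := by exact_mod_cast h1.symm
    omega
  obtain ⟨ζ, d, h0, hd', hz, hr, hζ⟩ := morse x hx hd
  obtain ⟨hΔ, hρ⟩ := rho_morse G x h0 hd' hz hr hζ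
  obtain ⟨w₁, hw₁⟩ := ext_val (L := Cl K) w
  have hcg : ∀ a, a ≠ 0 → (w₁.comap (IsScalarTower.toAlgHom ℂ K (Cl K))).v a = w.v a := hw₁
  have hc := OTr_cen hcg hw
  choose e he he0 hev hap using fun i => sqrt_apx (F := Cl K) x w₁ hc (hd' i)
  obtain ⟨ω₁, m₁, h₁, j₁⟩ := OTr_pull (L := Cl K) G.ω
  have hA₁ : ω₁.A w₁ = G.ω.A w := by
    refine OTr_A G.ω ω₁ m₁ h₁ (fun f => ?_) w w₁ hw₁
    unfold PForm.jac
    rw [← j₁]
    simp only [KaehlerDifferential.map_D]
  obtain ⟨t, ht, hm⟩ := RVal.exists_pos hw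
  have hge : ∀ {a : K} {s : ℝ}, w.Ge a s → w₁.Ge (algebraMap K (Cl K) a) s := by
    intro a s ha
    by_cases h0 : a = 0
    · exact Or.inl (by rw [h0, map_zero])
    · exact Or.inr (by rw [hw₁ a h0]; exact ha.resolve_left h0)
  have hζ' : algebraMap R K (ζ 0) ≠ 0 := (map_ne_zero_iff _ (IsFractionRing.injective R K)).2 hζ
  have : CharZero (Cl K) :=
    ((algebraMap ℂ (Cl K)).charZero_iff (algebraMap ℂ (Cl K)).injective).1 inferInstance
  have h2 : ∀ i, (2 * e i)⁻¹ ≠ 0 := fun i => inv_ne_zero (mul_ne_zero two_ne_zero (he0 i))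
  have hv2 : ∀ i, w₁.v (2 * e i)⁻¹ = 0 := fun i => by
    have := w₁.const 2 two_ne_zero
    rw [map_ofNat] at this
    rw [w₁.v_inv _ (mul_ne_zero two_ne_zero (he0 i)), w₁.mul _ _ two_ne_zero (he0 i), this, hev,
      add_zero, neg_zero]
  have hp : (∏ i : Fin n, (2 * e i.succ)⁻¹) ≠ 0 := Finset.prod_ne_zero_iff.2 fun i _ => h2 _
  have hj : (ω₁.jac fun i => e i.succ * algebraMap K (Cl K) (algebraMap R K (ζ i.succ))) =
      (∏ i : Fin n, (2 * e i.succ)⁻¹) *
        algebraMap K (Cl K) (G.ω.b.det fun j => th K ζ d j.succ) := by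
    unfold PForm.jac
    rw [← j₁, ← smul_eq_mul, ← AlternatingMap.map_smul_univ]
    congr 1
    funext i
    exact OTr_D ζ d i.succ (he0 _) (he _)
  refine OTr_core G x w hw hA h w₁ hw₁ ω₁ hA₁
    (fun i => e i * algebraMap K (Cl K) (algebraMap R K (ζ i))) ?_
    (mul_ne_zero (he0 0) ((map_ne_zero _).2 hζ')) ht (fun i => ?_) (fun i s => ?_) ?_ ?_
  · have := congrArg (fun r => algebraMap K (Cl K) (algebraMap R K r)) hr
    simp only [map_sum, map_mul, map_pow, map_zero] at this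
    simp only [mul_pow, he]
    exact this
  · have := RVal.Ge.mul (w := w₁) (Or.inr (hev i).ge) (hge (hm _ (h0 i)))
    rwa [zero_add] at this
  · obtain ⟨r, hr⟩ := hap i s
    refine ⟨r * ζ i, ?_⟩
    have := hr.mul (hge (hw.1 (ζ i)))
    rw [add_zero, sub_mul] at this
    rwa [map_mul, map_mul]
  · rw [hj]
    exact mul_ne_zero hp ((map_ne_zero _).2 hΔ)
  · have hm0 : (0 : ℝ) < G.ω.m := by exact_mod_cast G.ω.m_pos
    have hq : (G.ω.b.det fun j => th K ζ d j.succ) ^ G.ω.m / G.ω.h ≠ 0 :=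
      div_ne_zero (pow_ne_zero _ hΔ) G.ω.h_ne
    unfold PForm.rho
    rw [hj, m₁, h₁, mul_pow, mul_div_assoc, ← map_pow, ← map_div₀,
      w₁.mul _ _ (pow_ne_zero _ hp) ((map_ne_zero _).2 hq), w₁.v_pow _ hp,
      w₁.v_prod _ _ fun i _ => h2 _, hw₁ _ hq, w₁.mul _ _ (he0 0) ((map_ne_zero _).2 hζ'),
      hev, hw₁ _ hζ', div_le_iff₀ hm0]
    simp only [hv2, Finset.sum_const_zero, mul_zero, zero_add]
    rw [mul_comm]
    exact hρ w hw

end Vale.Agent.P282
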