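import Vale.Agent.P282.SGr
import Vale.Agent.P271.GU
import Vale.Agent.P271.GTay

set_option linter.unusedSectionVars false

open scoped ENNReal TensorProduct Topology
open Filter MeasureTheory

noncomputable section

namespace Vale.Agent.P282

variable {R K : Type} [CommRing R] [IsDomain R] [Algebra ℂ R] [Algebra.FiniteType ℂ R]
  [IsIntegrallyClosed R] [Field K] [Algebra R K] [IsFractionRing R K] [Algebra ℂ K]
  [IsScalarTower ℂ R K] {n : ℕ}

theorem An.exh {π : Proj R n} {g : R} (A : An π g) : Exh A.S := by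
  obtain ⟨B, -, hB⟩ := Fuj.poly_growth A.Δ le_rfl
  obtain ⟨u, C₀, h1, h2⟩ := Fuj.exists_u (c := fun z => MvPolynomial.eval z A.Δ)
    (AnalyticOnNhd.eval_mvPolynomial A.Δ) hB
  have k0 : ∀ i, ∀ z ∈ (A.S.e i).target, π.at ((A.S.e i).symm z).1 = z := fun i z hz =>
    (A.π_eq _).symm.trans (A.S.π_symm hz)
  have k1 : ∀ i, ∀ z ∈ (A.S.e i).target, A.S.loc i (fun p => u (π.at p.1)) z = u z :=
    fun i z hz => congrArg u (k0 i z hz)
  have k2 : ∀ i, ∀ z ∈ (A.S.e i).target, A.S.loc i (fun p => u (π.at p.1)) =ᶠ[𝓝 z] u :=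
    fun i z hz => Filter.eventually_of_mem ((A.S.e i).open_target.mem_nhds hz) (k1 i)
  have k3 : ∀ i, ∀ z ∈ (A.S.e i).target, MvPolynomial.eval z A.Δ ≠ 0 := fun i z hz => by
    have := ((A.S.e i).symm z).2
    rwa [k0 i z hz] at this
  refine ⟨fun p => u (π.at p.1), C₀,
    fun i z hz => ((h1 z (k3 i z hz)).1.congr_of_eventuallyEq (k2 i z hz)).contDiffWithinAt,
    fun i z hz ξ => ?_, fun c => ?_, fun i z hz ξ => ?_⟩
  · rw [Fuj.levi_congr (k2 i z hz)]
    exact ((h1 z (k3 i z hz)).2 ξ).1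
  · have e : {p : π.W A.Δ | u (π.at p.1) ≤ c} =
        {p : π.W A.Δ | π.at p.1 ∈ {z | MvPolynomial.eval z A.Δ ≠ 0 ∧ u z ≤ c}} :=
      Set.ext fun p => ⟨fun h => ⟨p.2, h⟩, fun h => h.2⟩
    rw [e]
    exact A.compact (h2 c) fun z hz => hz.1
  · rw [Fuj.dzr_congr (k2 i z hz), k1 i z hz]
    exact ((h1 z (k3 i z hz)).2 ξ).2

end Vale.Agent.P282
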