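import Vale.Agent.P282.SGr
import Vale.Agent.P271.GLevi

set_option linter.unusedSectionVars false

open scoped ENNReal TensorProduct Topology
open Filter MeasureTheory

noncomputable section

namespace Vale.Agent.P282

section SWt1

open scoped ContDiff

variable {Y : Type} [NormedAddCommGroup Y] [NormedSpace ℝ Y] [NormedSpace ℂ Y]
  [IsScalarTower ℝ ℂ Y] [FiniteDimensional ℂ Y] {U : Set Y}

/-- Sums of squares of holomorphic functions. -/
def SWt1_SoS (U : Set Y) (g : Y → ℝ) : Prop :=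
  ∃ (J : Type) (_ : Fintype J) (f : J → Y → ℂ), (∀ j, DifferentiableOn ℂ (f j) U) ∧
    ∀ y, g y = ∑ j, ‖f j y‖ ^ 2

/-- Smooth plurisubharmonic functions. -/
def SWt1_Psh (U : Set Y) (ψ : Y → ℝ) : Prop :=
  ContDiffOn ℝ ∞ ψ U ∧ ∀ q ∈ U, ∀ ξ, 0 ≤ Fuj.levi ψ q ξ

theorem SWt1_sq {f : Y → ℂ} (hf : DifferentiableOn ℂ f U) : SWt1_SoS U fun y => ‖f y‖ ^ 2 :=
  ⟨Unit, inferInstance, fun _ => f, fun _ => hf, fun y => by simp⟩

theorem SWt1_const {c : ℝ} (hc : 0 ≤ c) : SWt1_SoS U fun _ => c :=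
  ⟨Unit, inferInstance, fun _ _ => (√c : ℝ), fun _ => differentiableOn_const _, fun y => by
    simp [Real.sq_sqrt hc]⟩

theorem SWt1_add {g g' : Y → ℝ} (h : SWt1_SoS U g) (h' : SWt1_SoS U g') :
    SWt1_SoS U fun y => g y + g' y := by
  obtain ⟨J, _, f, hf, e⟩ := h
  obtain ⟨J', _, f', hf', e'⟩ := h'
  refine ⟨J ⊕ J', inferInstance, Sum.elim f f', fun j => ?_, fun y => ?_⟩
  · rcases j with j | j
    · exact hf j
    · exact hf' j
  · simp [Fintype.sum_sum_type, e, e']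

theorem SWt1_mul {g g' : Y → ℝ} (h : SWt1_SoS U g) (h' : SWt1_SoS U g') :
    SWt1_SoS U fun y => g y * g' y := by
  obtain ⟨J, _, f, hf, e⟩ := h
  obtain ⟨J', _, f', hf', e'⟩ := h'
  refine ⟨J × J', inferInstance, fun j y => f j.1 y * f' j.2 y, fun j => (hf j.1).mul (hf' j.2),
    fun y => ?_⟩
  simp only [e, e', Fintype.sum_prod_type, Finset.sum_mul_sum, norm_mul, mul_pow]

theorem SWt1_pow {g : Y → ℝ} (h : SWt1_SoS U g) (k : ℕ) : SWt1_SoS U fun y => g y ^ k := by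
  induction k with
  | zero => simpa using SWt1_const (U := U) zero_le_one
  | succ k ih => simpa only [pow_succ] using SWt1_mul ih h

theorem SWt1_sum {ι : Type} (s : Finset ι) {g : ι → Y → ℝ} (h : ∀ i ∈ s, SWt1_SoS U (g i)) :
    SWt1_SoS U fun y => ∑ i ∈ s, g i y := by
  classical
  induction s using Finset.induction_on with
  | empty => simpa using SWt1_const (U := U) le_rfl
  | insert a s ha ih =>
    simpa only [Finset.sum_insert ha] using SWt1_add (h a (Finset.mem_insert_self a s))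
      (ih fun i hi => h i (Finset.mem_insert_of_mem hi))

theorem SWt1_two : (2 : WithTop ℕ∞) ≤ ((⊤ : ℕ∞) : WithTop ℕ∞) := by norm_cast

theorem SWt1_log (hU : IsOpen U) {g : Y → ℝ} (h : SWt1_SoS U g) (h0 : ∀ y ∈ U, 0 < g y) :
    SWt1_Psh U fun y => Real.log (g y) := by
  obtain ⟨J, _, f, hf, e⟩ := h
  obtain rfl : g = fun y => ∑ j, ‖f j y‖ ^ 2 := funext e
  refine ⟨(ContDiffOn.sum fun j _ => Fuj.contDiff_normSq.comp_contDiffOn
    (Fuj.contDiffOn_of_hol hU (hf j))).log fun y hy => (h0 y hy).ne', fun q hq ξ => ?_⟩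
  have hd : ∀ j, ∀ᶠ y in 𝓝 q, DifferentiableAt ℂ (f j) y := fun j =>
    eventually_of_mem (hU.mem_nhds hq) fun y hy => (hf j).differentiableAt (hU.mem_nhds hy)
  simpa using Fuj.levi_log_sum_ge (c := 0) hd le_rfl (by simpa using h0 q hq) ξ

theorem SWt1_padd (hU : IsOpen U) {ψ ψ' : Y → ℝ} (h : SWt1_Psh U ψ) (h' : SWt1_Psh U ψ') :
    SWt1_Psh U fun y => ψ y + ψ' y := by
  refine ⟨h.1.add h'.1, fun q hq ξ => ?_⟩
  rw [Fuj.levi_add ((h.1.contDiffAt (hU.mem_nhds hq)).of_le SWt1_two)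
    ((h'.1.contDiffAt (hU.mem_nhds hq)).of_le SWt1_two)]
  exact add_nonneg (h.2 q hq ξ) (h'.2 q hq ξ)

theorem SWt1_pmul (hU : IsOpen U) {ψ : Y → ℝ} {c : ℝ} (hc : 0 ≤ c) (h : SWt1_Psh U ψ) :
    SWt1_Psh U fun y => c * ψ y := by
  refine ⟨contDiffOn_const.mul h.1, fun q hq ξ => ?_⟩
  rw [Fuj.levi_const_mul ((h.1.contDiffAt (hU.mem_nhds hq)).of_le SWt1_two)]
  exact mul_nonneg hc (h.2 q hq ξ)

end SWt1

variable {R K : Type} [CommRing R] [IsDomain R] [Algebra ℂ R] [Algebra.FiniteType ℂ R]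
  [IsIntegrallyClosed R] [Field K] [Algebra R K] [IsFractionRing R K] [Algebra ℂ K]
  [IsScalarTower ℂ R K] {n : ℕ}

theorem SWt1_hol {π : Proj R n} {g : R} (A : An π g) (u : R) (i : A.S.ι) (r : ℝ) :
    DifferentiableOn ℂ (fun q : E n × ℂ => ((A.S.e i).symm q.1).1 u) (Tg A.S i r) := by
  have h : DifferentiableOn ℂ (fun z => ((A.S.e i).symm z).1 u) (A.S.e i).target :=
    (A.hol u i).congr fun z _ => by simp [Fuj.Sheets.rep, A.τ_eq]
  exact h.comp differentiableOn_fst fun q hq => hq.1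

theorem SWt1_fam {π : Proj R n} {g : R} (A : An π g) {F : ℂ → R} (hF : AFam F) :
    ∀ᶠ r in 𝓝[>] (0 : ℝ), ∀ i,
      DifferentiableOn ℂ (fun q : E n × ℂ => ((A.S.e i).symm q.1).1 (F q.2)) (Tg A.S i r) := by
  obtain ⟨k, a, u, ha, e⟩ := hF
  have h1 : ∀ᶠ t in 𝓝 (0 : ℂ), ∀ l, DifferentiableAt ℂ (a l) t :=
    eventually_all.2 fun l => (ha l).eventually_analyticAt.mono fun _ h => h.differentiableAt
  obtain ⟨r₀, hr, h2⟩ := Metric.eventually_nhds_iff_ball.1 h1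
  filter_upwards [Ioo_mem_nhdsGT hr] with r hr' i
  have h3 : ∀ q : E n × ℂ, ((A.S.e i).symm q.1).1 (F q.2) =
      ∑ l, a l q.2 * ((A.S.e i).symm q.1).1 (u l) := fun q => by
    rw [e, map_sum]
    exact Finset.sum_congr rfl fun l _ => by rw [map_smul, smul_eq_mul]
  simp only [h3]
  refine DifferentiableOn.fun_sum fun l _ => DifferentiableOn.mul (fun q hq => ?_) (SWt1_hol A _ i r)
  exact ((h2 q.2 (Metric.ball_subset_ball hr'.2.le hq.2) l).comp q
    differentiableAt_snd).differentiableWithinAt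

theorem SWt1_gr {π : Proj R n} {g : R} (A : An π g) (i : A.S.ι) (r : ℝ) :
    SWt1_SoS (Tg A.S i r) fun q : E n × ℂ => gr (π.at ((A.S.e i).symm q.1).1) :=
  SWt1_add (SWt1_const zero_le_one)
    (SWt1_sum Finset.univ fun k _ => SWt1_sq (SWt1_hol A (π.y k) i r))

theorem SWt1_gr_pos (z : E n) : 0 < gr z := by
  unfold gr
  positivity

/-- the weight is plurisubharmonic -/
theorem phi_psh (G : WS R K n) (π : Proj R n) (A : An π (G.ρ π.y)) (j : ℕ → ℕ) (F : ℕ → ℂ → R)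
    (hF : ∀ l, AFam (F l)) (L : ℕ) : ∃ r : ℝ, 0 < r ∧ ∀ (N D : ℕ) (ε c M : ℝ), 0 < ε → 0 ≤ c →
      0 ≤ M → PshP A.S r fun p t => Phi G π j F L N D ε c M p.1 t := by
  have h1 := (eventually_all_finset (Finset.range L)).2 fun l _ => SWt1_fam A (hF l)
  obtain ⟨r, h2, hr⟩ := (h1.and self_mem_nhdsWithin).exists
  refine ⟨r, hr, fun N D ε c M hε hc hM i => ?_⟩
  have hU : IsOpen (Tg A.S i r) := (A.S.e i).open_target.prod Metric.isOpen_ball
  have s1 : SWt1_SoS (Tg A.S i r) fun q : E n × ℂ =>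
      rs π j (fun l => F l q.2) L N D ε ((A.S.e i).symm q.1).1 :=
    SWt1_add (SWt1_sum _ fun l hl => SWt1_pow (SWt1_sq (h2 l hl i)) _)
      (SWt1_mul (SWt1_const hε.le) (SWt1_pow (SWt1_gr A i r) D))
  have p1 := SWt1_log hU s1 fun q _ => add_pos_of_nonneg_of_pos
    (Finset.sum_nonneg fun l _ => by positivity) (mul_pos hε (pow_pos (SWt1_gr_pos _) D))
  have p2 := SWt1_log hU (SWt1_sq (SWt1_hol A (G.ρ π.y) i r)) fun q _ =>
    pow_pos (norm_pos_iff.2 (A.g_ne _)) 2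
  have p3 := SWt1_log hU (SWt1_gr A i r) fun q _ => SWt1_gr_pos _
  exact SWt1_padd hU (SWt1_padd hU (SWt1_pmul hU (c := c / N) (by positivity) p1)
    (SWt1_pmul hU (c := 1 / G.ω.m) (by positivity) p2)) (SWt1_pmul hU hM p3)

end Vale.Agent.P282
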