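import Vale.Agent.P282.OA2
import Vale.Agent.P282.OHor
import Vale.Agent.P282.OLevi
import Vale.Agent.P282.SExh
import Vale.Agent.P282.SWt1

set_option linter.unusedSectionVars false

open scoped ENNReal TensorProduct Topology
open Filter MeasureTheory

noncomputable section

namespace Vale.Agent.P282

variable {R K : Type} [CommRing R] [IsDomain R] [Algebra ℂ R] [Algebra.FiniteType ℂ R]
  [IsIntegrallyClosed R] [Field K] [Algebra R K] [IsFractionRing R K] [Algebra ℂ K]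
  [IsScalarTower ℂ R K] {n : ℕ}

variable {G : WS R K n} {π : Proj R n} {z : Fin (n + 1) → R}

variable (A : An π (G.ρ π.y))


theorem OVar_alg {J : Type} [Fintype J] {a : J → ℝ} (h0 : ∀ j, 0 ≤ a j) (h1 : 0 < ∑ j, a j)
    (l : J → ℝ) : ((∑ j, l j * a j) / ∑ j, a j) ^ 2 ≤ (∑ j, l j ^ 2 * a j) / ∑ j, a j ∧
      (∑ j, l j ^ 2 * a j) / ∑ j, a j ≤ ∑ j, l j ^ 2 := by
  constructor
  · rw [div_pow, div_le_div_iff₀ (pow_pos h1 2) h1, pow_two (∑ j, a j), ← mul_assoc]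
    exact mul_le_mul_of_nonneg_right (Finset.sum_sq_le_sum_mul_sum_of_sq_le_mul _
      (fun j _ => mul_nonneg (sq_nonneg _) (h0 j)) (fun j _ => h0 j) fun j _ =>
        le_of_eq (by ring)) h1.le
  · rw [div_le_iff₀ h1, Finset.sum_mul]
    exact Finset.sum_le_sum fun j _ => mul_le_mul_of_nonneg_left
      (Finset.single_le_sum (fun j _ => h0 j) (Finset.mem_univ j)) (sq_nonneg _)

theorem OVar_end {Z U B V c : ℝ} (hc : 0 < c) (hZ : 0 ≤ Z) (hV : 0 ≤ V)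
    (h : ∀ s : ℝ, 0 < s → ∃ x : ℝ, x ^ 2 * Z - 2 * x * U + B ≤ (1 + s) * (c⁻¹ * V)) :
    c * (Z * B - U ^ 2) ≤ Z * V := by
  refine le_of_forall_pos_le_add fun ε hε => ?_
  have p : 0 < Z * V + 1 := by positivity
  obtain ⟨x, hx⟩ := h (ε / (Z * V + 1)) (div_pos hε p)
  have q := mul_le_mul_of_nonneg_left hx (mul_nonneg hc.le hZ)
  have e : c * Z * ((1 + ε / (Z * V + 1)) * (c⁻¹ * V)) = Z * V + ε - ε / (Z * V + 1) := by
    field_simp
    ring
  have := mul_nonneg hc.le (sq_nonneg (x * Z - U))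
  have := div_pos hε p
  linarith

theorem OVar_hol {g : R} (A : An π g) (u : R) (i : A.S.ι) :
    DifferentiableOn ℂ (fun z => ((A.S.e i).symm z).1 u) (A.S.e i).target :=
  (A.hol u i).congr fun z _ => by simp [Fuj.Sheets.rep, A.τ_eq]

/-- the existence theorem for the weight `c log S + log |ρ|²` -/
theorem OVar_solve {J : Type} [Fintype J] (s : J → R) (l : J → ℝ)
    (h1 : ∀ p : Pt R, 0 < ∑ j, ‖p (s j)‖ ^ 2) {c : ℝ} (hc : 0 < c) {φ : π.W A.Δ → ℝ}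
    (hφ : φ = fun p => c * Real.log (∑ j, ‖p.1 (s j)‖ ^ 2) + Real.log (‖p.1 (G.ρ π.y)‖ ^ 2))
    {u v : Pt R → ℝ} (hu : u = fun p => (∑ j, l j * ‖p (s j)‖ ^ 2) / ∑ j, ‖p (s j)‖ ^ 2)
    (hv : v = fun p => (∑ j, l j ^ 2 * ‖p (s j)‖ ^ 2) / (∑ j, ‖p (s j)‖ ^ 2) - u p ^ 2)
    (mv : Measurable v) (v0 : ∀ p, 0 ≤ v p) (hf2 : A.S.nn φ (fun p => u p.1) ≠ ⊤) {t : ℝ}
    (ht : 0 < t) : ∃ F, A.S.HolS F ∧ A.S.nn φ (fun p => F p - u p.1) ≤
      ENNReal.ofReal (1 + t) * ∫⁻ p, ENNReal.ofReal (c⁻¹ * v p.1 * Real.exp (-φ p)) ∂A.S.μ := by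
  have hU := fun i => (A.S.e i).open_target
  have e1 : ∀ i, A.S.wt i φ = fun y => c * Real.log (∑ j, ‖((A.S.e i).symm y).1 (s j)‖ ^ 2) +
      Real.log (‖((A.S.e i).symm y).1 (G.ρ π.y)‖ ^ 2) := fun i => funext fun y => by
    simp only [Fuj.Sheets.wt, A.τ_eq, hφ, norm_one, one_pow, Real.log_one, add_zero]
  have e2 : ∀ i, A.S.rep i (fun p => u p.1) = fun y =>
      (((∑ j, l j * ‖((A.S.e i).symm y).1 (s j)‖ ^ 2) /
        ∑ j, ‖((A.S.e i).symm y).1 (s j)‖ ^ 2 : ℝ) : ℂ) := fun i => funext fun y => by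
    simp only [Fuj.Sheets.rep, A.τ_eq, hu, one_mul]
  have p1 := fun i => SWt1_log (hU i)
    (SWt1_sum Finset.univ fun j _ => SWt1_sq (OVar_hol A (s j) i)) fun y _ => h1 _
  have p2 := fun i => SWt1_log (hU i) (SWt1_sq (OVar_hol A (G.ρ π.y) i)) fun y _ =>
    pow_pos (norm_pos_iff.2 (A.g_ne _)) 2
  have p3 := fun i => SWt1_padd (hU i) (SWt1_pmul (hU i) hc.le (p1 i)) (p2 i)
  have sq := fun i j => Fuj.contDiff_normSq.comp_contDiffOn
    (Fuj.contDiffOn_of_hol (hU i) (OVar_hol A (s j) i))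
  refine horm_sharp A.S A.exh (fun i => e1 i ▸ (p3 i).1) (fun i => e1 i ▸ (p3 i).2) (fun i => ?_)
    hf2 ((mv.comp measurable_subtype_coe).const_mul _)
    (fun p => mul_nonneg (inv_pos.2 hc).le (v0 _)) (fun i y hy ξ => ?_) ht
  · rw [e2]
    exact Complex.ofRealCLM.contDiff.comp_contDiffOn
      ((ContDiffOn.sum fun j _ => contDiffOn_const.mul (sq i j)).div
        (ContDiffOn.sum fun j _ => sq i j) fun y _ => (h1 _).ne')
  · have n := (hU i).mem_nhds hy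
    have d1 := ((p1 i).1.contDiffAt n).of_le SWt1_two
    rw [e1, e2, Fuj.levi_add (contDiffAt_const.mul d1) (((p2 i).1.contDiffAt n).of_le SWt1_two),
      Fuj.levi_const_mul d1, A.τ_eq, norm_one, one_pow, one_mul, Fuj.Sheets.loc, mul_add,
      mul_mul_mul_comm, inv_mul_cancel₀ hc.ne', one_mul]
    refine (levi_var (f := fun j y => ((A.S.e i).symm y).1 (s j)) (fun j => eventually_of_mem n
      fun y hy => (OVar_hol A (s j) i).differentiableAt ((hU i).mem_nhds hy)) (h1 _) l ξ).trans ?_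
    refine le_add_of_le_of_nonneg (le_of_eq ?_)
      (mul_nonneg (mul_nonneg (inv_pos.2 hc).le (v0 _)) ((p2 i).2 y hy ξ))
    simp only [hv, hu, Function.comp_apply]

/-- the variance inequality -/
theorem Cone.var (h : Cone G π z) {J : Type} [Fintype J] (s : J → R) (l : J → ℝ) {k : ℕ}
    (hk : 0 < k) {C : ℝ} (hC : 0 < C) (h1 : ∀ p : Pt R, (1 + nz z p) ^ k ≤ ∑ j, ‖p (s j)‖ ^ 2)
    (h2 : ∀ p : Pt R, ∑ j, ‖p (s j)‖ ^ 2 ≤ C * (1 + nz z p) ^ k) (S S₁ S₂ : Pt R → ℝ)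
    (hS : S = fun p => ∑ j, ‖p (s j)‖ ^ 2) (hS₁ : S₁ = fun p => ∑ j, l j * ‖p (s j)‖ ^ 2)
    (hS₂ : S₂ = fun p => ∑ j, l j ^ 2 * ‖p (s j)‖ ^ 2) {c : ℝ} (hc : c = n / k) :
    c * ((∫ p, S p ^ (-c) ∂A.nu G) * (∫ p, (S₁ p / S p) ^ 2 * S p ^ (-c) ∂A.nu G) -
        (∫ p, S₁ p / S p * S p ^ (-c) ∂A.nu G) ^ 2) ≤
      (∫ p, S p ^ (-c) ∂A.nu G) * ∫ p, (S₂ p / S p - (S₁ p / S p) ^ 2) * S p ^ (-c) ∂A.nu G := by
  have n2 := h.two
  have k0 : (0 : ℝ) < k := Nat.cast_pos.2 hk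
  have c0 : 0 < c := hc ▸ div_pos (Nat.cast_pos.2 (by omega)) k0
  have z0 : ∀ p : Pt R, 0 < 1 + nz z p := fun p => by linarith [nz_nonneg z p]
  have pos : ∀ p : Pt R, 0 < ∑ j, ‖p (s j)‖ ^ 2 := fun p => (pow_pos (z0 p) k).trans_le (h1 p)
  have S0 : ∀ p, 0 < S p := hS ▸ pos
  have w0 : ∀ p, 0 < S p ^ (-c) := fun p => Real.rpow_pos_of_pos (S0 p) _
  have pw : ∀ p : Pt R, ((1 + nz z p) ^ k) ^ (-c) = ((1 + nz z p) ^ n)⁻¹ := fun p => by
    rw [← Real.rpow_natCast, ← Real.rpow_mul (z0 p).le, hc, mul_neg, mul_div_cancel₀ _ k0.ne',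
      Real.rpow_neg (z0 p).le, Real.rpow_natCast]
  have up : ∀ p, S p ^ (-c) ≤ ((1 + nz z p) ^ n)⁻¹ := fun p => by
    rw [← pw, hS]
    exact Real.rpow_le_rpow_of_nonpos (pow_pos (z0 p) k) (h1 p) (by linarith)
  have lo : ∀ p, ((1 + nz z p) ^ n)⁻¹ ≤ C ^ c * S p ^ (-c) := fun p => by
    have := Real.rpow_le_rpow_of_nonpos (pos p) (h2 p) (by linarith : -c ≤ 0)
    rw [Real.mul_rpow hC.le (pow_pos (z0 p) k).le, pw, Real.rpow_neg hC.le,
      inv_mul_le_iff₀ (Real.rpow_pos_of_pos hC c)] at this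
    rw [hS]
    exact this
  have ms : ∀ j, Measurable fun p : Pt R => ‖p (s j)‖ ^ 2 := fun j =>
    ((Pt.cont (s j)).norm.pow 2).measurable
  have mS : Measurable S := hS ▸ Finset.measurable_fun_sum _ fun j _ => ms j
  have mS1 : Measurable S₁ := hS₁ ▸ Finset.measurable_fun_sum _ fun j _ => (ms j).const_mul _
  have mS2 : Measurable S₂ := hS₂ ▸ Finset.measurable_fun_sum _ fun j _ => (ms j).const_mul _
  have mw := mS.pow_const (-c)
  have mu := mS1.fun_div mS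
  have mv := (mS2.fun_div mS).fun_sub (mu.pow_const 2)
  have al : ∀ p, (S₁ p / S p) ^ 2 ≤ S₂ p / S p ∧ S₂ p / S p ≤ ∑ j, l j ^ 2 := fun p => by
    rw [hS, hS₁, hS₂]
    exact OVar_alg (fun j => sq_nonneg _) (pos p) l
  have v0 : ∀ p, 0 ≤ S₂ p / S p - (S₁ p / S p) ^ 2 := fun p => sub_nonneg.2 (al p).1
  have iw : Integrable (fun p => S p ^ (-c)) (A.nu G) :=
    (h.rad_int A (j := 0) (M := n) (by omega)).mono' mw.aestronglyMeasurable
      (.of_forall fun p => by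
        rw [Real.norm_of_nonneg (w0 p).le, pow_zero, one_div]
        exact up p)
  have it : ∀ {g : Pt R → ℝ} (M : ℝ), Measurable g → (∀ p, |g p| ≤ M) →
      Integrable (fun p => g p * S p ^ (-c)) (A.nu G) := fun M hg hM =>
    iw.bdd_mul hg.aestronglyMeasurable (.of_forall hM)
  have i1 := it (1 + ∑ j, l j ^ 2) mu fun p => by
    have := (al p).1.trans (al p).2
    rw [← sq_abs] at this
    nlinarith [sq_nonneg (|S₁ p / S p| - 1), sq_nonneg |S₁ p / S p|]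
  have i2 := it _ (mu.pow_const 2) fun p => (abs_of_nonneg (sq_nonneg _)).trans_le
    ((al p).1.trans (al p).2)
  have i3 := it (∑ j, l j ^ 2) mv fun p => by
    rw [abs_of_nonneg (v0 p)]
    linarith [(al p).2, sq_nonneg (S₁ p / S p)]
  obtain ⟨φ, hφ⟩ : ∃ φ : π.W A.Δ → ℝ, φ = fun p => c * Real.log (∑ j, ‖p.1 (s j)‖ ^ 2) +
    Real.log (‖p.1 (G.ρ π.y)‖ ^ 2) := ⟨_, rfl⟩
  have ex : ∀ p, Real.exp (-φ p) = S p.1 ^ (-c) * dens G π 0 p.1 := fun p => by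
    have := pow_pos (norm_pos_iff.2 (A.g_ne p)) 2
    rw [dens, h.m, neg_zero, Real.rpow_zero, mul_one, Real.rpow_def_of_pos this,
      Real.rpow_def_of_pos (S0 _), ← Real.exp_add, hφ, hS]
    congr 1
    push_cast
    ring
  have cv : ∀ {g : Pt R → ℝ}, Measurable g → (∀ p, 0 ≤ g p) →
      Integrable (fun p => g p * S p ^ (-c)) (A.nu G) →
      ∫⁻ p, ENNReal.ofReal (g p.1 * Real.exp (-φ p)) ∂A.S.μ =
        ENNReal.ofReal (∫ p, g p * S p ^ (-c) ∂A.nu G) := fun {g} hg g0 gi => by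
    rw [ofReal_integral_eq_lintegral_ofReal gi (.of_forall fun p => mul_nonneg (g0 p) (w0 p).le),
      A.lint_nu G (hg.fun_mul mw).ennreal_ofReal]
    refine lintegral_congr fun p => ?_
    rw [ex, ← mul_assoc, ENNReal.ofReal_mul (mul_nonneg (g0 _) (w0 _).le)]
  have f2 : ∫⁻ p, ENNReal.ofReal ((S₁ p.1 / S p.1) ^ 2 * Real.exp (-φ p)) ∂A.S.μ ≠ ⊤ := by
    rw [cv (mu.pow_const 2) (fun p => sq_nonneg _) i2]
    exact ENNReal.ofReal_ne_top
  have V0 : 0 ≤ ∫ p, (S₂ p / S p - (S₁ p / S p) ^ 2) * S p ^ (-c) ∂A.nu G :=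
    integral_nonneg fun p => mul_nonneg (v0 p) (w0 p).le
  refine OVar_end c0 (integral_nonneg fun p => (w0 p).le) V0 fun t ht => ?_
  obtain ⟨F, hF, b⟩ := OVar_solve A s l pos c0 hφ (u := fun p => S₁ p / S p)
    (v := fun p => S₂ p / S p - (S₁ p / S p) ^ 2) (by rw [hS, hS₁]) (by rw [hS, hS₂]) mv v0
    (by simpa only [Fuj.Sheets.nn, Complex.norm_real, Real.norm_eq_abs, sq_abs] using f2) ht
  rw [cv (mv.const_mul c⁻¹) (fun p => mul_nonneg (inv_pos.2 c0).le (v0 p))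
    (by simpa only [mul_assoc] using i3.const_mul c⁻¹), ← ENNReal.ofReal_mul (by linarith)] at b
  simp only [mul_assoc c⁻¹, integral_const_mul, Fuj.Sheets.nn] at b
  obtain ⟨x, hx⟩ := h.a2 A hF (by
    have m2 : Measurable fun p : π.W A.Δ =>
        ENNReal.ofReal ((S₁ p.1 / S p.1) ^ 2 * Real.exp (-φ p)) := by
      simp only [ex]
      exact (((mu.pow_const 2).fun_mul (mw.fun_mul (dens_meas G π 0))).comp
        measurable_subtype_coe).ennreal_ofReal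
    refine ne_top_of_le_ne_top (ENNReal.mul_ne_top (a := ENNReal.ofReal (2 * C ^ c))
      ENNReal.ofReal_ne_top (ENNReal.add_ne_top.2 ⟨ne_top_of_le_ne_top ENNReal.ofReal_ne_top b,
        f2⟩)) ?_
    rw [← lintegral_add_right _ m2, ← lintegral_const_mul' _ _ ENNReal.ofReal_ne_top]
    refine lintegral_mono fun p => ?_
    have cp := Real.rpow_pos_of_pos hC c
    rw [← ENNReal.ofReal_add (by positivity) (by positivity), ← ENNReal.ofReal_mul (by positivity)]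
    refine ENNReal.ofReal_le_ofReal ?_
    have a1 : ‖F p‖ ≤ ‖F p - (S₁ p.1 / S p.1 : ℝ)‖ + |S₁ p.1 / S p.1| := by
      rw [← Real.norm_eq_abs, ← Complex.norm_real]
      exact norm_le_norm_sub_add _ _
    have a2 : ‖F p‖ ^ 2 ≤ 2 * (‖F p - (S₁ p.1 / S p.1 : ℝ)‖ ^ 2 + (S₁ p.1 / S p.1) ^ 2) := by
      rw [← sq_abs (S₁ p.1 / S p.1)]
      nlinarith [pow_le_pow_left₀ (norm_nonneg _) a1 2,
        sq_nonneg (‖F p - (S₁ p.1 / S p.1 : ℝ)‖ - |S₁ p.1 / S p.1|)]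
    have a3 := mul_le_mul_of_nonneg_right (mul_le_mul a2 (lo p.1) (inv_pos.2 (pow_pos (z0 _) n)).le
      (by positivity)) (dens_nonneg G π 0 p.1)
    rw [ex, div_eq_mul_inv (‖F p‖ ^ 2)]
    linarith)
  have j1 := iw.const_mul (x.re ^ 2)
  have j2 := i1.const_mul (2 * x.re)
  have j3 : Integrable (fun p => (x.re - S₁ p / S p) ^ 2 * S p ^ (-c)) (A.nu G) :=
    ((j1.sub j2).add i2).congr (.of_forall fun p => by
      simp only [Pi.add_apply, Pi.sub_apply]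
      ring)
  refine ⟨x.re, le_trans (le_of_eq ?_) ((ENNReal.ofReal_le_ofReal_iff (by positivity)).1
    ((cv ((mu.const_sub x.re).pow_const 2) (fun p => sq_nonneg _) j3).symm.trans_le
      ((lintegral_mono fun p => ENNReal.ofReal_le_ofReal ?_).trans b)))⟩
  · rw [← integral_const_mul, ← integral_const_mul, ← integral_sub j1 j2]
    refine (integral_add (j1.sub j2) i2).symm.trans (integral_congr_ae (.of_forall fun p => ?_))
    simp only [Pi.sub_apply]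
    ring
  · refine mul_le_mul_of_nonneg_right ?_ (Real.exp_pos _).le
    rw [hx, ← sq_abs]
    exact pow_le_pow_left₀ (abs_nonneg _) (Complex.abs_re_le_norm (x - (S₁ p.1 / S p.1 : ℝ))) 2

end Vale.Agent.P282
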