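import Vale.Agent.P282.QDefs

set_option linter.unusedSectionVars false

open scoped ENNReal TensorProduct Topology
open Filter MeasureTheory

noncomputable section

namespace Vale.Agent.P282

variable {R K : Type} [CommRing R] [IsDomain R] [Algebra ℂ R] [Algebra.FiniteType ℂ R]
  [IsIntegrallyClosed R] [Field K] [Algebra R K] [IsFractionRing R K] [Algebra ℂ K]
  [IsScalarTower ℂ R K] {n : ℕ}

theorem QAnn_ev {P : ℂ → Prop} (h : ∀ᶠ t in 𝓝[≠] (0 : ℂ), P t) :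
    ∀ᶠ δ in 𝓝[>] (0 : ℝ), ∀ t : ℂ, δ ≤ ‖t‖ → ‖t‖ ≤ 2 * δ → P t := by
  obtain ⟨r, hr, h⟩ := Metric.mem_nhdsWithin_iff.1 h
  filter_upwards [Ioo_mem_nhdsGT (half_pos hr)] with δ hδ t h1 h2
  refine h ⟨?_, ?_⟩
  · rw [mem_ball_zero_iff]
    linarith [hδ.2]
  · exact norm_pos_iff.1 (hδ.1.trans_le h1)

theorem QAnn_two {P Q S : ℝ → ℝ → ℂ → Prop} (hP : Ann P) (hQ : Ann Q)
    (h : ∀ C ρ C' ρ' : ℝ, 0 < C → 0 < ρ → ρ ≤ 1 → 0 < C' → 0 < ρ' → ∃ C'' ρ'' : ℝ, 0 < C'' ∧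
      0 < ρ'' ∧ ρ'' ≤ 1 ∧ ∀ t, P C ρ t → Q C' ρ' t → S C'' ρ'' t) : Ann S := by
  filter_upwards [hP, hQ] with δ ⟨C, ρ, h1, h2, h3, h4⟩ ⟨C', ρ', h1', h2', _, h4'⟩
  obtain ⟨C'', ρ'', g1, g2, g3, g4⟩ := h C ρ C' ρ' h1 h2 h3 h1' h2'
  exact ⟨C'', ρ'', g1, g2, g3, fun t a b => g4 t (h4 t a b) (h4' t a b)⟩

theorem Ann.and {P Q : ℝ → ℝ → ℂ → Prop} (hP : Ann P) (hQ : Ann Q)
    (mP : ∀ C C' ρ ρ' t, C ≤ C' → 0 < ρ' → ρ' ≤ ρ → P C ρ t → P C' ρ' t)
    (mQ : ∀ C C' ρ ρ' t, C ≤ C' → 0 < ρ' → ρ' ≤ ρ → Q C ρ t → Q C' ρ' t) :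
    Ann fun C ρ t => P C ρ t ∧ Q C ρ t :=
  QAnn_two hP hQ fun C ρ C' ρ' h1 h2 h3 _ h5 =>
    ⟨max C C', min ρ ρ', lt_max_of_lt_left h1, lt_min h2 h5, min_le_of_left_le h3, fun t a b =>
      ⟨mP _ _ _ _ t (le_max_left _ _) (lt_min h2 h5) (min_le_left _ _) a,
        mQ _ _ _ _ t (le_max_right _ _) (lt_min h2 h5) (min_le_right _ _) b⟩⟩

theorem Ann.all {ι : Type} [Finite ι] {P : ι → ℝ → ℝ → ℂ → Prop} (hP : ∀ i, Ann (P i))
    (mP : ∀ i C C' ρ ρ' t, C ≤ C' → 0 < ρ' → ρ' ≤ ρ → P i C ρ t → P i C' ρ' t) :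
    Ann fun C ρ t => ∀ i, P i C ρ t := by
  classical
  have := Fintype.ofFinite ι
  have key : ∀ s : Finset ι, Ann fun C ρ t => ∀ i ∈ s, P i C ρ t := by
    intro s
    induction s using Finset.induction_on with
    | empty => exact Eventually.of_forall fun δ => ⟨1, 1, one_pos, one_pos, le_rfl, by simp⟩
    | insert j s _ ih =>
      simpa only [Finset.forall_mem_insert] using (hP j).and ih (mP j)
        fun C C' ρ ρ' t h1 h2 h3 h4 i hi => mP i _ _ _ _ t h1 h2 h3 (h4 i hi)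
  simpa only [Finset.mem_univ, forall_true_left] using key Finset.univ

theorem Ann.of_ev {P : ℂ → Prop} (h : ∀ᶠ t in 𝓝[≠] (0 : ℂ), P t) : Ann fun _ _ t => P t :=
  (QAnn_ev h).mono fun _ hδ => ⟨1, 1, one_pos, one_pos, le_rfl, hδ⟩

theorem Ann.rep {b : MK} {f : ℂ → ℂ} (h : b.Rep f) : Ann fun C _ t => ‖f t‖ ≤ C := by
  obtain ⟨g, hg, hb⟩ := b.exists_rep
  filter_upwards [QAnn_ev (hg.eventually_analyticAt.and (h.unique hb))] with δ hδ
  have hc : IsCompact {t : ℂ | δ ≤ ‖t‖ ∧ ‖t‖ ≤ 2 * δ} :=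
    (isCompact_closedBall (0 : ℂ) (2 * δ)).of_isClosed_subset
      ((isClosed_le continuous_const continuous_norm).inter
        (isClosed_le continuous_norm continuous_const))
      fun t ht => mem_closedBall_zero_iff.2 ht.2
  obtain ⟨M, hM⟩ := hc.exists_bound_of_continuousOn (f := g)
    fun t ht => (hδ t ht.1 ht.2).1.continuousAt.continuousWithinAt
  refine ⟨max M 1, 1, lt_max_of_lt_right one_pos, one_pos, le_rfl, fun t h1 h2 => ?_⟩
  rw [(hδ t h1 h2).2]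
  exact (hM t ⟨h1, h2⟩).trans (le_max_left _ _)

section Aux

omit [IsDomain R] [Algebra.FiniteType ℂ R] [IsIntegrallyClosed R]

/-- The family is bounded by the weight near the arc. -/
def QAnn_B (a : Arc R) {k : ℕ} (z : Fin k → R) (F : ℂ → R) (w : ℂ → Pt R → ℝ) : Prop :=
  Ann fun C _ t => ∀ p : Pt R, dst z p (a.γ t) ≤ 1 → ‖p (F t)‖ ≤ C * w t p

variable {a : Arc R} {k : ℕ} {z : Fin k → R} {F G : ℂ → R} {w w' : ℂ → Pt R → ℝ}

theorem QAnn_of (h : ∀ t p, ‖p (F t)‖ ≤ w t p) : QAnn_B a z F w :=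
  Eventually.of_forall fun _ =>
    ⟨1, 1, one_pos, one_pos, le_rfl, fun t _ _ p _ => by rw [one_mul]; exact h t p⟩

theorem QAnn_congr (h : QAnn_B a z F w) (e : F =ᶠ[𝓝[≠] 0] G) : QAnn_B a z G w :=
  QAnn_two h (Ann.of_ev e) fun C ρ _ _ h1 h2 h3 _ _ =>
    ⟨C, ρ, h1, h2, h3, fun t b c => by rw [← c]; exact b⟩

theorem QAnn_mono (h : QAnn_B a z F w) (e : ∀ t p, w t p ≤ w' t p) : QAnn_B a z F w' :=
  QAnn_two h h fun C ρ _ _ h1 h2 h3 _ _ => ⟨C, ρ, h1, h2, h3, fun t b _ p hp =>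
    (b p hp).trans (mul_le_mul_of_nonneg_left (e t p) h1.le)⟩

theorem QAnn_add (h : QAnn_B a z F w) (h' : QAnn_B a z G w) :
    QAnn_B a z (fun t => F t + G t) w :=
  QAnn_two h h' fun C ρ C' _ h1 h2 h3 h4 _ => ⟨C + C', ρ, add_pos h1 h4, h2, h3, fun t b c p hp => by
    rw [map_add, add_mul]
    exact (norm_add_le _ _).trans (add_le_add (b p hp) (c p hp))⟩

theorem QAnn_mul (h : QAnn_B a z F w) (h' : QAnn_B a z G w') :
    QAnn_B a z (fun t => F t * G t) fun t p => w t p * w' t p :=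
  QAnn_two h h' fun C ρ C' _ h1 h2 h3 h4 _ => ⟨C * C', ρ, mul_pos h1 h4, h2, h3, fun t b c p hp => by
    rw [map_mul, norm_mul, mul_mul_mul_comm]
    exact mul_le_mul (b p hp) (c p hp) (norm_nonneg _) ((norm_nonneg _).trans (b p hp))⟩

theorem QAnn_smul {b : MK} {f : ℂ → ℂ} (hf : b.Rep f) (h : QAnn_B a z F w) :
    QAnn_B a z (fun t => f t • F t) w :=
  QAnn_two (Ann.rep hf) h fun C ρ C' _ h1 h2 h3 h4 _ =>
    ⟨C * C', ρ, mul_pos h1 h4, h2, h3, fun t b c p hp => by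
      rw [map_smul, norm_smul, mul_assoc]
      exact mul_le_mul b (c p hp) (norm_nonneg _) h1.le⟩

theorem QAnn_sum {ι : Type} (s : Finset ι) {H : ι → ℂ → R} (hw : ∀ t p, 0 ≤ w t p)
    (h : ∀ i ∈ s, QAnn_B a z (H i) w) : QAnn_B a z (fun t => ∑ i ∈ s, H i t) w := by
  classical
  induction s using Finset.induction_on with
  | empty => exact QAnn_of fun t p => by simpa using hw t p
  | insert j s hj ih =>
    simp only [Finset.sum_insert hj]
    exact QAnn_add (h j (Finset.mem_insert_self _ _))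
      (ih fun i hi => h i (Finset.mem_insert_of_mem hi))

theorem QAnn_le_dst (p q : Pt R) (i : Fin k) : ‖p (z i) - q (z i)‖ ≤ dst z p q :=
  Finset.single_le_sum (f := fun i => ‖p (z i) - q (z i)‖) (fun _ _ => norm_nonneg _)
    (Finset.mem_univ i)

theorem QAnn_dst_nonneg (p q : Pt R) : 0 ≤ dst z p q :=
  Finset.sum_nonneg fun _ _ => norm_nonneg _

theorem QAnn_const (hz : Algebra.adjoin ℂ (Set.range z) = ⊤) (u : R) :
    QAnn_B a z (fun _ => u) fun _ _ => 1 := by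
  have hu : u ∈ Algebra.adjoin ℂ (Set.range z) := hz ▸ Algebra.mem_top
  induction hu using Algebra.adjoin_induction with
  | mem x hx =>
    obtain ⟨i, rfl⟩ := hx
    refine QAnn_two (Ann.rep (a.hom_rep (z i))) (Ann.rep (a.hom_rep (z i)))
      fun C ρ _ _ h1 h2 h3 _ _ => ⟨C + 1, ρ, by linarith, h2, h3, fun t b _ p hp => ?_⟩
    have h4 := (QAnn_le_dst (z := z) p (a.γ t) i).trans hp
    have h5 := norm_add_le (p (z i) - a.γ t (z i)) (a.γ t (z i))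
    rw [sub_add_cancel] at h5
    have b' : ‖a.γ t (z i)‖ ≤ C := b
    linarith
  | algebraMap c =>
    simpa only [Algebra.algebraMap_eq_smul_one] using QAnn_smul (MK.rep_const c)
      (QAnn_of (a := a) (z := z) (F := fun _ => (1 : R)) (w := fun _ _ => 1) fun t p => by simp)
  | add x y _ _ hx hy => exact QAnn_add hx hy
  | mul x y _ _ hx hy => simpa only [mul_one] using QAnn_mul hx hy

theorem QAnn_rp (hz : Algebra.adjoin ℂ (Set.range z) = ⊤) {x : RK R} (h : Rp x F) :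
    QAnn_B a z F fun _ _ => 1 := by
  obtain ⟨l, b, f, u, h1, -, h2⟩ := h
  exact QAnn_congr (QAnn_sum Finset.univ (fun _ _ => zero_le_one)
    fun i _ => QAnn_smul (h1 i) (QAnn_const hz (u i))) (EventuallyEq.symm h2)

theorem QAnn_span (hz : Algebra.adjoin ℂ (Set.range z) = ⊤) {ι : Type} [Fintype ι]
    {g : ι → RK R} {Γ : ι → ℂ → R} (hg : ∀ i, Rp (g i) (Γ i)) (hw : ∀ t p, 0 ≤ w t p)
    (hΓ : ∀ i, QAnn_B a z (Γ i) w) {x : RK R} (h : Rp x F) (hx : x ∈ Ideal.span (Set.range g)) :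
    QAnn_B a z F w := by
  obtain ⟨c, rfl⟩ := Ideal.mem_span_range_iff_exists_fun.1 hx
  choose D hD using fun i => exists_rp (c i)
  refine QAnn_congr (QAnn_sum Finset.univ hw fun i _ => ?_)
    ((Rp.sum Finset.univ fun i _ => (hD i).mul (hg i)).unique h)
  simpa only [one_mul] using QAnn_mul (QAnn_rp hz (hD i)) (hΓ i)

theorem QAnn_m (hz : Algebra.adjoin ℂ (Set.range z) = ⊤) {x : RK R} (h : Rp x F) (hx : x ∈ a.m) :
    QAnn_B a z F fun t p => dst z p (a.γ t) := by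
  rw [a.m_eq hz, ← Set.range_comp] at hx
  refine QAnn_span hz (fun i => Rp.yq a (z i)) (fun _ _ => QAnn_dst_nonneg _ _)
    (fun i => QAnn_of fun t p => ?_) h hx
  rw [map_sub, AlgHomClass.commutes]
  exact QAnn_le_dst p (a.γ t) i

theorem QAnn_pow (hz : Algebra.adjoin ℂ (Set.range z) = ⊤) (N : ℕ) {x : RK R} (hx : x ∈ a.m ^ N) :
    ∀ F, Rp x F → QAnn_B a z F fun t p => dst z p (a.γ t) ^ N := by
  induction N generalizing x with
  | zero => exact fun F h => by simpa only [pow_zero] using QAnn_rp hz h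
  | succ N ih =>
    rw [pow_succ] at hx
    refine Submodule.mul_induction_on hx (fun y hy y' hy' F h => ?_) fun y y' hy hy' F h => ?_
    · obtain ⟨G, hG⟩ := exists_rp y
      obtain ⟨G', hG'⟩ := exists_rp y'
      simpa only [pow_succ] using
        QAnn_congr (QAnn_mul (ih hy G hG) (QAnn_m hz hG' hy')) ((hG.mul hG').unique h)
    · obtain ⟨G, hG⟩ := exists_rp y
      obtain ⟨G', hG'⟩ := exists_rp y'
      exact QAnn_congr (QAnn_add (hy G hG) (hy' G' hG')) ((hG.add hG').unique h)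

end Aux

omit [IsDomain R] [Algebra.FiniteType ℂ R] [IsIntegrallyClosed R] in
/-- families are bounded near the arc -/
theorem bd_rp (a : Arc R) {k : ℕ} {z : Fin k → R} (hz : Algebra.adjoin ℂ (Set.range z) = ⊤)
    {x : RK R} {F : ℂ → R} (h : Rp x F) :
    Ann fun C _ t => ∀ p : Pt R, dst z p (a.γ t) ≤ 1 → ‖p (F t)‖ ≤ C := by
  simpa only [QAnn_B, mul_one] using QAnn_rp (a := a) hz h

omit [IsDomain R] [Algebra.FiniteType ℂ R] [IsIntegrallyClosed R] in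
/-- ideal membership gives estimates -/
theorem bd_mem (a : Arc R) {k : ℕ} {z : Fin k → R} (hz : Algebra.adjoin ℂ (Set.range z) = ⊤)
    {ι : Type} [Fintype ι] {g : ι → RK R} {Γ : ι → ℂ → R} (hg : ∀ i, Rp (g i) (Γ i)) (N : ℕ)
    {x : RK R} {F : ℂ → R} (h : Rp x F) (hx : x ∈ Ideal.span (Set.range g) ⊔ a.m ^ N) :
    Ann fun C _ t => ∀ p : Pt R, dst z p (a.γ t) ≤ 1 →
      ‖p (F t)‖ ≤ C * (∑ i, ‖p (Γ i t)‖ + dst z p (a.γ t) ^ N) := by
  obtain ⟨y, hy, y', hy', rfl⟩ := Submodule.mem_sup.1 hx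
  obtain ⟨G, hG⟩ := exists_rp y
  obtain ⟨G', hG'⟩ := exists_rp y'
  have n1 : ∀ t (p : Pt R), 0 ≤ ∑ i, ‖p (Γ i t)‖ := fun t p =>
    Finset.sum_nonneg fun _ _ => norm_nonneg _
  have h1 := QAnn_span (a := a) (w := fun t p => ∑ i, ‖p (Γ i t)‖) hz hg n1
    (fun i => QAnn_of fun t p => Finset.single_le_sum (f := fun i => ‖p (Γ i t)‖)
      (fun _ _ => norm_nonneg _) (Finset.mem_univ i)) hG hy
  exact QAnn_congr (QAnn_add
    (QAnn_mono h1 fun t p => le_add_of_nonneg_right (pow_nonneg (QAnn_dst_nonneg _ _) N))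
    (QAnn_mono (QAnn_pow hz N hy' G' hG') fun t p => le_add_of_nonneg_left (n1 t p)))
    ((hG.add hG').unique h)

end Vale.Agent.P282
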