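import Vale.Agent.P282.SJac
import Vale.Agent.P271.HMain
import Vale.Agent.P271.HMV

set_option linter.unusedSectionVars false

open scoped ENNReal TensorProduct Topology ContDiff
open Filter MeasureTheory

noncomputable section

namespace Vale.Agent.P282

variable {R K : Type} [CommRing R] [IsDomain R] [Algebra ℂ R] [Algebra.FiniteType ℂ R]
  [IsIntegrallyClosed R] [Field K] [Algebra R K] [IsFractionRing R K] [Algebra ℂ K]
  [IsScalarTower ℂ R K] {n : ℕ}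

section

variable {X W : Type} [NormedAddCommGroup X] [NormedSpace ℝ X] [NormedSpace ℂ X]
  [MeasurableSpace X] [TopologicalSpace W] [MeasurableSpace W] {vol : Measure X}

/-- There is a plurisubharmonic exhaustion function with a gradient bound. -/
def Exh (S : Fuj.Sheets X W vol) : Prop :=
  ∃ (u : W → ℝ) (C₀ : ℝ), S.SmF u ∧
    (∀ i, ∀ z ∈ (S.e i).target, ∀ ξ, 0 ≤ Fuj.levi (S.loc i u) z ξ) ∧
    (∀ c, IsCompact {p | u p ≤ c}) ∧ ∀ i, ∀ z ∈ (S.e i).target, ∀ ξ,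
      ‖Fuj.dzr (S.loc i u) z ξ‖ ^ 2 ≤ C₀ * (1 + Real.exp (S.loc i u z)) * ‖ξ‖ ^ 2

/-- Local form of a function with a parameter. -/
def Lc {Y : Type} (S : Fuj.Sheets X W vol) (i : S.ι) (Φ : W → ℂ → Y) (q : X × ℂ) : Y :=
  Φ ((S.e i).symm q.1) q.2

/-- A chart times a disc. -/
def Tg (S : Fuj.Sheets X W vol) (i : S.ι) (r : ℝ) : Set (X × ℂ) :=
  (S.e i).target ×ˢ Metric.ball 0 r

/-- Smooth plurisubharmonic weights with a parameter. -/
def PshP (S : Fuj.Sheets X W vol) (r : ℝ) (Φ : W → ℂ → ℝ) : Prop :=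
  ∀ i, ContDiffOn ℝ ∞ (Lc S i Φ) (Tg S i r) ∧ ∀ q ∈ Tg S i r, ∀ ξ, 0 ≤ Fuj.levi (Lc S i Φ) q ξ

/-- Holomorphic functions with a parameter. -/
def HolP (S : Fuj.Sheets X W vol) (r : ℝ) (F : W → ℂ → ℂ) : Prop :=
  ∀ i, DifferentiableOn ℂ (Lc S i F) (Tg S i r)

end

/-- A finite reference measure. -/
def An.nu0 {π : Proj R n} {g : R} (A : An π g) : Measure (π.W A.Δ) :=
  A.S.μ.withDensity fun p => ENNReal.ofReal (gr (π.at p.1) ^ (-(2 * n + 1 : ℝ)))

/-- The weight. -/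
def Phi (G : WS R K n) (π : Proj R n) (j : ℕ → ℕ) (F : ℕ → ℂ → R) (L N D : ℕ) (ε c M : ℝ)
    (p : Pt R) (t : ℂ) : ℝ :=
  c / N * Real.log (rs π j (fun l => F l t) L N D ε p) +
    1 / G.ω.m * Real.log (‖p (G.ρ π.y)‖ ^ 2) + M * Real.log (gr (π.at p))

end Vale.Agent.P282
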