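import Vale.Agent.P282.QBas
import Vale.Agent.P282.SDefs

set_option linter.unusedSectionVars false

open scoped ENNReal TensorProduct Topology
open Filter MeasureTheory

noncomputable section

namespace Vale.Agent.P282

variable {R K : Type} [CommRing R] [IsDomain R] [Algebra ℂ R] [Algebra.FiniteType ℂ R]
  [IsIntegrallyClosed R] [Field K] [Algebra R K] [IsFractionRing R K] [Algebra ℂ K]
  [IsScalarTower ℂ R K] {n : ℕ}

/-- The distance of two points, measured by generators. -/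
def dst {k : ℕ} (z : Fin k → R) (p q : Pt R) : ℝ := ∑ i, ‖p (z i) - q (z i)‖

/-- Statements that hold uniformly on small annuli. -/
def Ann (P : ℝ → ℝ → ℂ → Prop) : Prop :=
  ∀ᶠ δ in 𝓝[>] (0 : ℝ), ∃ C ρ : ℝ, 0 < C ∧ 0 < ρ ∧ ρ ≤ 1 ∧ ∀ t : ℂ, δ ≤ ‖t‖ → ‖t‖ ≤ 2 * δ → P C ρ t

/-- The region of size `η` around the arc. -/
def Reg (a : WArc R n) {k : ℕ} (z : Fin k → R) (S : Fin n → ℂ → R) (t : ℂ) (η ρ : ℝ) :
    Set (Pt R) := {p | dst z p (a.γ t) ≤ ρ ∧ ∀ i, ‖p (S i t)‖ ≤ η ^ a.w i}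

/-- The family `F` is `O(η^j)` on the regions. -/
def Sm (a : WArc R n) {k : ℕ} (z : Fin k → R) (S : Fin n → ℂ → R) (F : ℂ → R) (j : ℕ) : Prop :=
  Ann fun C ρ t => ∀ η : ℝ, 0 < η → η ≤ 1 → ∀ p ∈ Reg a z S t η ρ, ‖p (F t)‖ ≤ C * η ^ j

/-- The polynomial change of coordinates. -/
def sf [NeZero n] (B : Matrix (Fin n) (Fin n) ℂ) (c : Fin n → ℂ) (v : E n) (i : Fin n) : ℂ :=
  if i = 0 then B.mulVec v 0 else B.mulVec v i + c i * B.mulVec v 0 ^ 2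

/-- The monomials of weight at least `j`. -/
def WArc.mon [NeZero n] (a : WArc R n) (π : Proj R n) (j : ℕ) : Ideal (RK R) :=
  Ideal.span {x | ∃ α : Fin n → ℕ, j ≤ ∑ k, a.w k * α k ∧ x = ∏ k, a.s π k ^ α k}

/-- The colength condition. -/
def WArc.Col [NeZero n] (a : WArc R n) (π : Proj R n) : Prop :=
  ∀ (N : ℕ) (x : RK R), ∃ b : Fin a.l → MK,
    x - ∑ i, b i • a.Z i ∈ Ideal.span (Set.range (a.s π)) ⊔ a.toArc.m ^ N

end Vale.Agent.P282
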