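import Vale.Agent.P282.SMv

set_option linter.unusedSectionVars false

open scoped ENNReal TensorProduct Topology
open Filter MeasureTheory

noncomputable section

namespace Vale.Agent.P282

variable {R K : Type} [CommRing R] [IsDomain R] [Algebra ℂ R] [Algebra.FiniteType ℂ R]
  [IsIntegrallyClosed R] [Field K] [Algebra R K] [IsFractionRing R K] [Algebra ℂ K]
  [IsScalarTower ℂ R K] {n : ℕ}

namespace An

variable {π : Proj R n} {g : R} (A : An π g)

theorem eval_span (V : Submodule ℂ R) [FiniteDimensional ℂ V] (l : R →ₗ[ℂ] ℂ) :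
    ∃ (k : ℕ) (p : Fin k → π.W A.Δ) (b : Fin k → ℂ), ∀ h ∈ V, l h = ∑ i, b i * (p i).1 h := by
  have h1 := FiniteDimensional.mem_span_of_iInf_ker_le_ker
    (L := fun p : π.W A.Δ => p.1.hom.toLinearMap.comp V.subtype) (K := l.comp V.subtype) (by
      intro x hx
      have : (x : R) = 0 := A.inj fun p => (Submodule.mem_iInf _).1 hx p
      rw [LinearMap.mem_ker, LinearMap.comp_apply, Submodule.subtype_apply, this, map_zero])
  obtain ⟨k, b, q, hq⟩ := Submodule.mem_span_set'.1 h1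
  choose p hp using fun i => (q i).2
  refine ⟨k, p, b, fun h hh => ?_⟩
  have := LinearMap.congr_fun hq ⟨h, hh⟩
  simp only [← hp, LinearMap.sum_apply, LinearMap.smul_apply, smul_eq_mul] at this
  exact this.symm

theorem coef (V : Submodule ℂ R) [FiniteDimensional ℂ V] {F : π.W A.Δ → ℂ → ℂ} {r δ : ℝ}
    (hδ : 0 < δ) (hr : 2 * δ < r) (hF : ∀ p, DifferentiableOn ℂ (F p) (Metric.ball 0 r))
    (h : ∀ᵐ t ∂(volume.restrict {t : ℂ | δ ≤ ‖t‖ ∧ ‖t‖ ≤ 2 * δ}), ∃ h ∈ V, ∀ p, F p t = p.1 h) :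
    ∃ H : ℂ → R, (∀ t, H t ∈ V) ∧ (∀ t, ‖t‖ < r → ∀ p, F p t = p.1 (H t)) ∧
      ∀ ξ : ℂ → R →ₗ[ℂ] ℂ, (∀ u ∈ V, DifferentiableOn ℂ (fun t => ξ t u) (Metric.ball 0 r)) →
        DifferentiableOn ℂ (fun t => ξ t (H t)) (Metric.ball 0 r) := by
  let v := Module.finBasis ℂ V
  choose l hl using fun i => LinearMap.exists_extend (v.coord i)
  choose k q b hb using fun i => A.eval_span V (l i)
  let a : Fin (Module.finrank ℂ V) → ℂ → ℂ := fun i t => ∑ j, b i j * F (q i j) t
  have ha : ∀ i, DifferentiableOn ℂ (a i) (Metric.ball 0 r) := fun i =>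
    DifferentiableOn.fun_sum fun j _ => (hF _).const_mul _
  have hξ : ∀ ξ : ℂ → R →ₗ[ℂ] ℂ,
      (∀ u ∈ V, DifferentiableOn ℂ (fun t => ξ t u) (Metric.ball 0 r)) →
      DifferentiableOn ℂ (fun t => ξ t (∑ i, a i t • (v i : R))) (Metric.ball 0 r) := by
    intro ξ hξ
    simp only [map_sum, map_smul, smul_eq_mul]
    exact DifferentiableOn.fun_sum fun i _ => (ha i).mul (hξ _ (v i).2)
  refine ⟨fun t => ∑ i, a i t • (v i : R), fun t => V.sum_mem fun i _ => V.smul_mem _ (v i).2,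
    fun t ht p => ?_, hξ⟩
  have hG : DifferentiableOn ℂ (fun t => p.1 (∑ i, a i t • (v i : R))) (Metric.ball 0 r) :=
    hξ (fun _ => p.1.hom.toLinearMap) fun u _ => differentiableOn_const _
  let U : Set ℂ := {t | δ < ‖t‖ ∧ ‖t‖ < 2 * δ}
  have hU : IsOpen U :=
    (isOpen_lt continuous_const continuous_norm).inter (isOpen_lt continuous_norm continuous_const)
  have hUb : U ⊆ Metric.ball 0 r := fun t ht => mem_ball_zero_iff.2 (ht.2.trans hr)
  have hae : F p =ᵐ[volume.restrict U] fun t => p.1 (∑ i, a i t • (v i : R)) := by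
    filter_upwards [ae_restrict_of_ae_restrict_of_subset
      (show U ⊆ {t : ℂ | δ ≤ ‖t‖ ∧ ‖t‖ ≤ 2 * δ} from fun t ht => ⟨ht.1.le, ht.2.le⟩) h]
      with t ⟨u, hu, hu'⟩
    have e : ∀ i, a i t = v.repr ⟨u, hu⟩ i := fun i => by
      have h1 := LinearMap.congr_fun (hl i) ⟨u, hu⟩
      have h2 := hb i u hu
      simp only [a, hu']
      exact h2.symm.trans h1
    have e2 : ∑ i, a i t • (v i : R) = u := by
      have := congrArg Subtype.val (v.sum_repr ⟨u, hu⟩)
      simp only [e]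
      simpa only [Submodule.coe_sum, Submodule.coe_smul] using this
    rw [e2, hu']
  have hE := Measure.eqOn_open_of_ae_eq hae hU ((hF p).continuousOn.mono hUb)
    (hG.continuousOn.mono hUb)
  have h0 : ((3 / 2 * δ : ℝ) : ℂ) ∈ U := by
    simp only [U, Set.mem_ofPred_eq, Complex.norm_real, Real.norm_eq_abs,
      abs_of_pos (show 0 < 3 / 2 * δ by positivity)]
    constructor <;> linarith
  exact AnalyticOnNhd.eqOn_of_preconnected_of_eventuallyEq
    ((hF p).analyticOnNhd Metric.isOpen_ball) (hG.analyticOnNhd Metric.isOpen_ball)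
    (convex_ball _ _).isPreconnected (hUb h0) (hE.eventuallyEq_of_mem (hU.mem_nhds h0))
    (mem_ball_zero_iff.2 ht)

end An

theorem xi_disc (V : Submodule ℂ R) [FiniteDimensional ℂ V] {ξ : ℂ → R →ₗ[ℂ] ℂ}
    (hξ : ∀ r, AnalyticAt ℂ (fun t => ξ t r) 0) : ∃ r : ℝ, 0 < r ∧
      ∀ u ∈ V, DifferentiableOn ℂ (fun t => ξ t u) (Metric.ball 0 r) := by
  let v := Module.finBasis ℂ V
  obtain ⟨r, hr, h⟩ := Metric.eventually_nhds_iff_ball.1
    (eventually_all.2 fun i => (hξ (v i)).eventually_analyticAt)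
  refine ⟨r, hr, fun u hu => ?_⟩
  have e : u = ∑ i, v.repr ⟨u, hu⟩ i • (v i : R) := by
    have := congrArg Subtype.val (v.sum_repr ⟨u, hu⟩)
    simpa only [Submodule.coe_sum, Submodule.coe_smul] using this.symm
  rw [e]
  simp only [map_sum, map_smul, smul_eq_mul]
  exact DifferentiableOn.fun_sum fun i _ t ht =>
    ((h t ht i).differentiableAt.const_mul _).differentiableWithinAt

end Vale.Agent.P282
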