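import Vale.Agent.P282.AProj

set_option linter.unusedSectionVars false

open scoped ENNReal TensorProduct Topology
open Filter MeasureTheory

noncomputable section

namespace Vale.Agent.P282

open Polynomial in
theorem SAn0_prim {A B : Type} [CommRing A] [IsDomain A] [IsIntegrallyClosed A] [CharZero A]
    [CommRing B] [IsDomain B] [Algebra A B] [Module.Finite A B] [FaithfulSMul A B] :
    ∃ θ : B, aeval θ (derivative (minpoly A θ)) ≠ 0 ∧
      ∀ r, ∃ H : A[X], aeval θ (derivative (minpoly A θ)) * r = aeval θ H := by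
  let K := FractionRing A
  let L := FractionRing B
  let : Algebra K L := FractionRing.liftAlgebra A L
  have : IsScalarTower A K L := FractionRing.isScalarTower_liftAlgebra A L
  have : FiniteDimensional K L := .of_isLocalization A B (nonZeroDivisors A)
  have : CharZero K := charZero_of_injective_algebraMap (IsFractionRing.injective A K)
  obtain ⟨α, hα⟩ := Field.exists_primitive_element K L
  obtain ⟨x, y, hy, hxy⟩ := IsFractionRing.div_surjective B α
  have hy0 := nonZeroDivisors.ne_zero hy
  obtain ⟨θ, d, hd, hdx⟩ := Algebra.IsAlgebraic.exists_smul_eq_mul A x hy0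
  have hinj := IsFractionRing.injective B L
  have hyL : algebraMap B L y ≠ 0 := (map_ne_zero_iff _ hinj).2 hy0
  have hdK : algebraMap A K d ≠ 0 := (map_ne_zero_iff _ (IsFractionRing.injective A K)).2 hd
  have e1 : α = (algebraMap A K d)⁻¹ • algebraMap B L θ := by
    rw [eq_inv_smul_iff₀ hdK, algebraMap_smul, ← hxy, Algebra.smul_def, ← mul_div_assoc,
      div_eq_iff hyL, IsScalarTower.algebraMap_apply A B L, ← map_mul, ← map_mul,
      ← Algebra.smul_def, hdx, mul_comm]
  have htop : Algebra.adjoin K {algebraMap B L θ} = ⊤ := by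
    have h1 : Algebra.adjoin K {α} = ⊤ := by
      rw [← IntermediateField.adjoin_simple_toSubalgebra_of_isAlgebraic
        (Algebra.IsAlgebraic.isAlgebraic α), hα]
      rfl
    rw [eq_top_iff, ← h1, Algebra.adjoin_le_iff, Set.singleton_subset_iff, e1]
    exact Subalgebra.smul_mem _ (Algebra.self_mem_adjoin_singleton K _) _
  have hint : ∀ r : B, IsIntegral A (algebraMap B L r) := fun r =>
    (Algebra.IsIntegral.isIntegral (R := A) r).algebraMap
  have hmin := minpoly.isIntegrallyClosed_eq_field_fractions K L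
    (Algebra.IsIntegral.isIntegral (R := A) θ)
  have e2 : aeval (algebraMap B L θ) (derivative (minpoly K (algebraMap B L θ))) =
      algebraMap B L (aeval θ (derivative (minpoly A θ))) := by
    rw [hmin, derivative_map, aeval_map_algebraMap, aeval_algebraMap_apply]
  have hne : algebraMap B L (aeval θ (derivative (minpoly A θ))) ≠ 0 := by
    rw [← e2]
    exact (Algebra.IsSeparable.isSeparable K (algebraMap B L θ)).aeval_derivative_ne_zero
      (minpoly.aeval _ _)
  refine ⟨θ, fun h => hne (by rw [h, map_zero]), fun r => ?_⟩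
  have hd := traceForm_dualSubmodule_adjoin A K htop (hint θ)
  have hr : algebraMap B L r ∈ (Algebra.traceForm K L).dualSubmodule
      (Subalgebra.toSubmodule (Algebra.adjoin A {algebraMap B L θ})) := by
    intro a ha
    have h1 : IsIntegral A a := IsIntegral.of_mem_of_fg _ (hint θ).fg_adjoin_singleton a ha
    obtain ⟨c, hc⟩ := IsIntegrallyClosed.isIntegral_iff.1
      (Algebra.isIntegral_trace (L := K) ((hint r).mul h1))
    exact Submodule.mem_one.2 ⟨c, hc⟩
  rw [hd, e2] at hr
  obtain ⟨a, ha, har⟩ := (Submodule.mem_smul_pointwise_iff_exists _ _ _).1 hr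
  have ha' : a ∈ Algebra.adjoin A {algebraMap B L θ} := ha
  rw [Algebra.adjoin_singleton_eq_range_aeval] at ha'
  obtain ⟨H, hH⟩ := ha'
  refine ⟨H, hinj ?_⟩
  rw [map_mul, ← har, smul_eq_mul, mul_inv_cancel_left₀ hne, ← aeval_algebraMap_apply]
  exact hH.symm

/-- Polynomial growth of a function on affine space. -/
def SAn0_PG {n : ℕ} (f : E n → ℝ) : Prop := ∃ (C : ℝ) (D : ℕ), 0 < C ∧ ∀ z, f z ≤ C * gr z ^ D

theorem SAn0_one_le {n : ℕ} (z : E n) : 1 ≤ gr z :=
  le_add_of_nonneg_right (Finset.sum_nonneg fun _ _ => sq_nonneg _)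

theorem SAn0_add {n : ℕ} {f g : E n → ℝ} (hf : SAn0_PG f) (hg : SAn0_PG g) :
    SAn0_PG fun z => f z + g z := by
  obtain ⟨C, D, hC, h⟩ := hf
  obtain ⟨C', D', hC', h'⟩ := hg
  refine ⟨C + C', D + D', by positivity, fun z => ?_⟩
  have h1 := mul_le_mul_of_nonneg_left
    (pow_le_pow_right₀ (SAn0_one_le z) (Nat.le_add_right D D')) hC.le
  have h2 := mul_le_mul_of_nonneg_left
    (pow_le_pow_right₀ (SAn0_one_le z) (Nat.le_add_left D' D)) hC'.le
  have := h z
  have := h' z
  show f z + g z ≤ _
  linarith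

theorem SAn0_const {n : ℕ} (c : ℝ) : SAn0_PG fun _ : E n => c :=
  ⟨|c| + 1, 0, by positivity, fun _ => by simp; linarith [le_abs_self c]⟩

theorem SAn0_sum {n : ℕ} {ι : Type} (s : Finset ι) {f : ι → E n → ℝ} (hf : ∀ i, SAn0_PG (f i)) :
    SAn0_PG fun z => ∑ i ∈ s, f i z := by
  classical
  induction s using Finset.induction_on with
  | empty => simpa using SAn0_const (n := n) 0
  | insert a s ha ih =>
    simp only [Finset.sum_insert ha]
    exact SAn0_add (hf a) ih

theorem SAn0_poly {n : ℕ} (Q : MvPolynomial (Fin n) ℂ) :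
    SAn0_PG fun z => ‖MvPolynomial.eval z Q‖ := by
  induction Q using MvPolynomial.induction_on with
  | C a => simpa using SAn0_const (n := n) ‖a‖
  | add p q hp hq =>
    obtain ⟨C, D, hC, h⟩ := SAn0_add hp hq
    refine ⟨C, D, hC, fun z => le_trans ?_ (h z)⟩
    simp only [map_add]
    exact norm_add_le _ _
  | mul_X p i hp =>
    obtain ⟨C, D, hC, h⟩ := hp
    refine ⟨C, D + 1, hC, fun z => ?_⟩
    have h1 : ‖z i‖ ≤ gr z := by
      have a1 : ‖z i‖ ^ 2 ≤ ∑ j, ‖z j‖ ^ 2 :=
        Finset.single_le_sum (f := fun j => ‖z j‖ ^ 2) (fun _ _ => sq_nonneg _) (Finset.mem_univ i)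
      unfold gr
      nlinarith [sq_nonneg (‖z i‖ - 1), sq_nonneg ‖z i‖]
    simp only [map_mul, MvPolynomial.eval_X, norm_mul]
    rw [pow_succ, ← mul_assoc]
    exact mul_le_mul (h z) h1 (norm_nonneg _) ((norm_nonneg _).trans (h z))

theorem SAn0_root {P : Polynomial ℂ} (hP : P.Monic) {x : ℂ} (hx : P.IsRoot x) :
    ‖x‖ ≤ 1 + ∑ i ∈ Finset.range P.natDegree, ‖P.coeff i‖ := by
  have h := hx.norm_lt_cauchyBound hP.ne_zero
  rw [Polynomial.cauchyBound, hP.leadingCoeff, nnnorm_one, div_one] at h
  have h1 : (Finset.range P.natDegree).sup (fun i => ‖P.coeff i‖₊) ≤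
      ∑ i ∈ Finset.range P.natDegree, ‖P.coeff i‖₊ :=
    Finset.sup_le fun i hi =>
      Finset.single_le_sum (f := fun i => ‖P.coeff i‖₊) (fun _ _ => zero_le) hi
  have h2 := NNReal.coe_le_coe.2 (h.le.trans (add_le_add h1 le_rfl))
  simp only [coe_nnnorm, NNReal.coe_add, NNReal.coe_sum, NNReal.coe_one] at h2
  linarith

variable {R K : Type} [CommRing R] [IsDomain R] [Algebra ℂ R] [Algebra.FiniteType ℂ R]
  [IsIntegrallyClosed R] [Field K] [Algebra R K] [IsFractionRing R K] [Algebra ℂ K]
  [IsScalarTower ℂ R K] {n : ℕ}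

omit [IsIntegrallyClosed R] in
theorem exists_etW (π : Proj R n) : ∃ θ P δ, π.EtW θ P δ ∧ δ ≠ 0 := by
  let : Algebra (MvPolynomial (Fin n) ℂ) R := (MvPolynomial.aeval π.y).toRingHom.toAlgebra
  have : Module.Finite (MvPolynomial (Fin n) ℂ) R := π.fin
  have : FaithfulSMul (MvPolynomial (Fin n) ℂ) R :=
    (faithfulSMul_iff_algebraMap_injective _ _).2 π.ind
  obtain ⟨θ, h1, h2⟩ := SAn0_prim (A := MvPolynomial (Fin n) ℂ) (B := R)
  exact ⟨θ, minpoly _ θ, _, ⟨minpoly.monic (Algebra.IsIntegral.isIntegral θ), minpoly.aeval _ θ,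
    rfl, h2⟩, h1⟩

omit [IsIntegrallyClosed R] in
/-- polynomial growth -/
theorem Proj.growth (π : Proj R n) (r : R) : ∃ (C : ℝ) (D : ℕ), 0 < C ∧ ∀ p : Pt R,
    ‖p r‖ ^ 2 ≤ C * gr (π.at p) ^ D := by
  obtain ⟨P, hP, hr⟩ := RingHom.Finite.to_isIntegral π.fin r
  obtain ⟨C, D, hC, h⟩ := SAn0_add (SAn0_const 1)
    (SAn0_sum (Finset.range P.natDegree) fun i => SAn0_poly (P.coeff i))
  refine ⟨C ^ 2, D * 2, by positivity, fun p => ?_⟩
  rw [pow_mul, ← mul_pow]
  refine pow_le_pow_left₀ (norm_nonneg _) (le_trans ?_ (h (π.at p))) 2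
  have e : (p.hom.toRingHom).comp (MvPolynomial.aeval π.y).toRingHom =
      MvPolynomial.eval (π.at p) := by
    refine MvPolynomial.ringHom_ext (fun c => ?_) (fun i => ?_)
    · simp
    · simp
      rfl
  have h1 : (P.map (MvPolynomial.eval (π.at p))).IsRoot (p r) := by
    have := congrArg p.hom.toRingHom hr
    rw [Polynomial.hom_eval₂, map_zero, e] at this
    rw [Polynomial.IsRoot, Polynomial.eval_map]
    exact this
  have h2 := SAn0_root (hP.map _) h1
  rw [hP.natDegree_map] at h2
  simpa only [Polynomial.coeff_map] using h2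

omit [IsDomain R] [Algebra.FiniteType ℂ R] [IsIntegrallyClosed R] in
theorem SAn0_closed : Topology.IsClosedEmbedding fun p : Pt R => (p : R → ℂ) := by
  refine ⟨⟨⟨rfl⟩, DFunLike.coe_injective⟩, ?_⟩
  have e : Set.range (fun p : Pt R => (p : R → ℂ)) =
      (⋂ a, ⋂ b, {f : R → ℂ | f (a * b) = f a * f b}) ∩
        ((⋂ a, ⋂ b, {f : R → ℂ | f (a + b) = f a + f b}) ∩
          ⋂ c, {f : R → ℂ | f (algebraMap ℂ R c) = c}) := by
    ext f
    simp only [Set.mem_range, Set.mem_inter_iff, Set.mem_iInter, Set.mem_ofPred_eq]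
    constructor
    · rintro ⟨p, rfl⟩
      exact ⟨map_mul p, map_add p, fun c => p.hom.commutes c⟩
    · rintro ⟨h1, h2, h3⟩
      exact ⟨(⟨⟨⟨⟨f, by simpa using h3 1⟩, h1⟩, by simpa using h3 0, h2⟩, h3⟩ : R →ₐ[ℂ] ℂ), rfl⟩
  rw [e]
  refine IsClosed.inter ?_ (IsClosed.inter ?_ ?_)
  · exact isClosed_iInter fun a => isClosed_iInter fun b =>
      isClosed_eq (continuous_apply _) ((continuous_apply a).mul (continuous_apply b))
  · exact isClosed_iInter fun a => isClosed_iInter fun b =>
      isClosed_eq (continuous_apply _) ((continuous_apply a).add (continuous_apply b))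
  · exact isClosed_iInter fun c => isClosed_eq (continuous_apply _) continuous_const

omit [IsIntegrallyClosed R] in
/-- properness -/
theorem Proj.compact (π : Proj R n) {Q : Set (E n)} (hQ : IsCompact Q) :
    IsCompact {p : Pt R | π.at p ∈ Q} := by
  have hc : Continuous (gr : E n → ℝ) := by unfold gr; fun_prop
  obtain ⟨M, hM⟩ := hQ.bddAbove_image hc.continuousOn
  choose C D hC h using π.growth
  have hK := (SAn0_closed (R := R)).isCompact_preimage
    (isCompact_univ_pi fun r : R => isCompact_closedBall (0 : ℂ) √(C r * M ^ D r))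
  have hπ : Continuous π.at := continuous_pi fun i => Pt.cont _
  refine hK.of_isClosed_subset (hQ.isClosed.preimage hπ) fun p hp r _ => ?_
  rw [mem_closedBall_zero_iff]
  refine Real.le_sqrt_of_sq_le ((h r p).trans (mul_le_mul_of_nonneg_left ?_ (hC r).le))
  exact pow_le_pow_left₀ (zero_le_one.trans (SAn0_one_le _)) (hM ⟨_, hp, rfl⟩) _

omit [IsIntegrallyClosed R] in
theorem Pt.secondCountable : SecondCountableTopology (Pt R) := by
  obtain ⟨s, hs⟩ := Algebra.FiniteType.out (R := ℂ) (A := R)
  have hi : Topology.IsInducing fun (p : Pt R) (i : s) => p i.1 := by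
    refine ⟨le_antisymm (continuous_iff_le_induced.1 (continuous_pi fun i => Pt.cont _)) ?_⟩
    let t : TopologicalSpace (Pt R) :=
      TopologicalSpace.induced (fun (p : Pt R) (i : s) => p i.1) inferInstance
    have h0 : Continuous fun (p : Pt R) (i : s) => p i.1 := continuous_induced_dom
    have h1 : ∀ r : R, Continuous fun p : Pt R => p r := by
      intro r
      have hr : r ∈ Algebra.adjoin ℂ (s : Set R) := hs ▸ Algebra.mem_top
      induction hr using Algebra.adjoin_induction with
      | mem x hx => exact (continuous_apply (⟨x, hx⟩ : s)).comp h0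
      | algebraMap c =>
        simp only [AlgHomClass.commutes]
        exact continuous_const
      | add x y _ _ hx hy =>
        simp only [map_add]
        exact hx.add hy
      | mul x y _ _ hx hy =>
        simp only [map_mul]
        exact hx.mul hy
    exact continuous_iff_le_induced.1 (continuous_pi h1)
  exact hi.secondCountableTopology

end Vale.Agent.P282
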