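import Vale.Agent.P282.SGr
import Vale.Agent.P282.SAn0

set_option linter.unusedSectionVars false

open scoped ENNReal TensorProduct Topology
open Filter MeasureTheory

noncomputable section

namespace Vale.Agent.P282

variable {R K : Type} [CommRing R] [IsDomain R] [Algebra ℂ R] [Algebra.FiniteType ℂ R]
  [IsIntegrallyClosed R] [Field K] [Algebra R K] [IsFractionRing R K] [Algebra ℂ K]
  [IsScalarTower ℂ R K] {n : ℕ}

section Aux

variable {P : Type} {g : P → ℝ}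

/-- polynomial growth together with a Lipschitz bound at the origin -/
def SWt0_Bd (g : P → ℝ) (φ : ℂ → P → ℂ) : Prop :=
  ∃ (C : ℝ) (D : ℕ), 0 ≤ C ∧ ∀ᶠ t in 𝓝 (0 : ℂ), ∀ p,
    ‖φ t p‖ ≤ C * g p ^ D ∧ ‖φ t p - φ 0 p‖ ≤ C * g p ^ D * ‖t‖

theorem SWt0_pow (hg : ∀ p, 1 ≤ g p) (p : P) (a b : ℕ) :
    0 ≤ g p ^ a ∧ g p ^ a ≤ g p ^ (a + b) ∧ g p ^ b ≤ g p ^ (a + b) :=
  ⟨pow_nonneg (zero_le_one.trans (hg p)) _, pow_le_pow_right₀ (hg p) (Nat.le_add_right _ _),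
    pow_le_pow_right₀ (hg p) (Nat.le_add_left _ _)⟩

theorem SWt0_add (hg : ∀ p, 1 ≤ g p) {φ ψ : ℂ → P → ℂ} (h : SWt0_Bd g φ) (h' : SWt0_Bd g ψ) :
    SWt0_Bd g fun t p => φ t p + ψ t p := by
  obtain ⟨C, D, hC, h⟩ := h
  obtain ⟨C', D', hC', h'⟩ := h'
  refine ⟨C + C', D + D', by positivity, ?_⟩
  filter_upwards [h, h'] with t h1 h2 p
  obtain ⟨-, a1, a2⟩ := SWt0_pow hg p D D'
  have b : C * g p ^ D + C' * g p ^ D' ≤ (C + C') * g p ^ (D + D') := by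
    linarith [mul_le_mul_of_nonneg_left a1 hC, mul_le_mul_of_nonneg_left a2 hC']
  refine ⟨(norm_add_le _ _).trans (by linarith [(h1 p).1, (h2 p).1]), ?_⟩
  rw [add_sub_add_comm]
  refine (norm_add_le _ _).trans ?_
  linarith [(h1 p).2, (h2 p).2, mul_le_mul_of_nonneg_right b (norm_nonneg t)]

theorem SWt0_mul (hg : ∀ p, 1 ≤ g p) {φ ψ : ℂ → P → ℂ} (h : SWt0_Bd g φ) (h' : SWt0_Bd g ψ) :
    SWt0_Bd g fun t p => φ t p * ψ t p := by
  obtain ⟨C, D, hC, h⟩ := h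
  obtain ⟨C', D', hC', h'⟩ := h'
  refine ⟨2 * (C * C'), D + D', by positivity, ?_⟩
  have h0 := h.self_of_nhds
  filter_upwards [h, h'] with t h1 h2 p
  have a1 : 0 ≤ C * g p ^ D := mul_nonneg hC (SWt0_pow hg p D 0).1
  have a2 : 0 ≤ C' * g p ^ D' := mul_nonneg hC' (SWt0_pow hg p D' 0).1
  have a3 := mul_nonneg a1 a2
  rw [pow_add]
  refine ⟨?_, ?_⟩
  · rw [norm_mul]
    linarith [mul_le_mul (h1 p).1 (h2 p).1 (norm_nonneg _) a1]
  · rw [show φ t p * ψ t p - φ 0 p * ψ 0 p =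
      (φ t p - φ 0 p) * ψ t p + φ 0 p * (ψ t p - ψ 0 p) by ring]
    refine (norm_add_le _ _).trans ?_
    rw [norm_mul, norm_mul]
    linarith [mul_le_mul (h1 p).2 (h2 p).1 (norm_nonneg _) (mul_nonneg a1 (norm_nonneg t)),
      mul_le_mul (h0 p).1 (h2 p).2 (norm_nonneg _) a1]

theorem SWt0_an {a : ℂ → ℂ} (ha : AnalyticAt ℂ a 0) : SWt0_Bd g fun t _ => a t := by
  obtain ⟨c, hc, h⟩ := ha.differentiableAt.hasFDerivAt.isBigO_sub.exists_nonneg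
  refine ⟨‖a 0‖ + c, 0, by positivity, ?_⟩
  filter_upwards [h.bound, Metric.ball_mem_nhds (0 : ℂ) one_pos] with t h1 h2 p
  rw [sub_zero] at h1
  rw [mem_ball_zero_iff] at h2
  rw [pow_zero, mul_one]
  have a1 := mul_le_mul_of_nonneg_left h2.le hc
  have a2 := mul_nonneg (norm_nonneg (a 0)) (norm_nonneg t)
  exact ⟨by linarith [norm_sub_norm_le (a t) (a 0)], by linarith⟩

theorem SWt0_sum (hg : ∀ p, 1 ≤ g p) {ι : Type} (s : Finset ι) {φ : ι → ℂ → P → ℂ}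
    (h : ∀ i, SWt0_Bd g (φ i)) : SWt0_Bd g fun t p => ∑ i ∈ s, φ i t p := by
  classical
  induction s using Finset.induction_on with
  | empty => simpa using SWt0_an (g := g) (a := fun _ => 0) analyticAt_const
  | insert i s hi ih => simpa only [Finset.sum_insert hi] using SWt0_add hg (h i) ih

theorem SWt0_npow (hg : ∀ p, 1 ≤ g p) {φ : ℂ → P → ℂ} (h : SWt0_Bd g φ) (k : ℕ) :
    SWt0_Bd g fun t p => φ t p ^ k := by
  induction k with
  | zero => simpa using SWt0_an (g := g) (a := fun _ => 1) analyticAt_const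
  | succ k ih => simpa only [pow_succ] using SWt0_mul hg ih h

theorem SWt0_sq (hg : ∀ p, 1 ≤ g p) {ι : Type} (s : Finset ι) {φ : ι → ℂ → P → ℂ}
    (h : ∀ i, SWt0_Bd g (φ i)) : ∃ (C : ℝ) (D : ℕ), 0 ≤ C ∧ ∀ᶠ t in 𝓝 (0 : ℂ), ∀ p,
      ∑ i ∈ s, ‖φ i t p‖ ^ 2 ≤ C * g p ^ D ∧
        ∑ i ∈ s, ‖φ i t p - φ i 0 p‖ ^ 2 ≤ C * g p ^ D * ‖t‖ ^ 2 := by
  classical
  induction s using Finset.induction_on with
  | empty => exact ⟨0, 0, le_rfl, .of_forall fun t p => by simp⟩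
  | insert i s hi ih =>
    obtain ⟨C, D, hC, h1⟩ := h i
    obtain ⟨C', D', hC', h2⟩ := ih
    refine ⟨C ^ 2 + C', D * 2 + D', by positivity, ?_⟩
    filter_upwards [h1, h2] with t h1 h2 p
    obtain ⟨-, a1, a2⟩ := SWt0_pow hg p (D * 2) D'
    have b : (C * g p ^ D) ^ 2 + C' * g p ^ D' ≤ (C ^ 2 + C') * g p ^ (D * 2 + D') := by
      rw [mul_pow, ← pow_mul]
      linarith [mul_le_mul_of_nonneg_left a1 (sq_nonneg C), mul_le_mul_of_nonneg_left a2 hC']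
    have c1 := pow_le_pow_left₀ (norm_nonneg _) (h1 p).1 2
    have c2 := pow_le_pow_left₀ (norm_nonneg _) (h1 p).2 2
    rw [mul_pow] at c2
    rw [Finset.sum_insert hi, Finset.sum_insert hi]
    exact ⟨by linarith [(h2 p).1],
      by linarith [(h2 p).2, mul_le_mul_of_nonneg_right b (sq_nonneg ‖t‖)]⟩

end Aux

theorem SWt0_pt (π : Proj R n) (u : R) : SWt0_Bd (fun p => gr (π.at p)) fun _ (p : Pt R) => p u := by
  obtain ⟨C, D, hC, h⟩ := π.growth u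
  refine ⟨C + 1, D, by positivity, .of_forall fun t p => ⟨?_, ?_⟩⟩
  · have h1 := one_le_pow₀ (n := D) (one_le_gr (π.at p))
    nlinarith [h p, sq_nonneg (‖p u‖ - 1), norm_nonneg (p u)]
  · have h1 := zero_le_one.trans (one_le_gr (π.at p))
    rw [sub_self, norm_zero]
    positivity

theorem SWt0_fam (π : Proj R n) {F : ℂ → R} (hF : AFam F) :
    SWt0_Bd (fun p => gr (π.at p)) fun t (p : Pt R) => p (F t) := by
  obtain ⟨k, a, u, ha, h⟩ := hF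
  have hg : ∀ p : Pt R, 1 ≤ gr (π.at p) := fun p => one_le_gr _
  simp only [h, map_sum, map_smul, smul_eq_mul]
  exact SWt0_sum hg _ fun i => SWt0_mul hg (SWt0_an (ha i)) (SWt0_pt π (u i))

/-- comparison of the regularized sums -/
theorem rs_cmp (π : Proj R n) (j : ℕ → ℕ) (F : ℕ → ℂ → R) (hF : ∀ l, AFam (F l)) (L N : ℕ) :
    ∃ (D : ℕ) (C r : ℝ), 0 < C ∧ 0 < r ∧ ∀ ε : ℝ, 0 < ε → ε ≤ 1 → ∀ t : ℂ, ‖t‖ < r → ∀ p : Pt R,
      rs π j (fun l => F l t) L N D ε p ≤ C * gr (π.at p) ^ D ∧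
      (‖t‖ ^ 2 ≤ ε → rs π j (fun l => F l 0) L N D ε p ≤ C * rs π j (fun l => F l t) L N D ε p) := by
  have hg : ∀ p : Pt R, 1 ≤ gr (π.at p) := fun p => one_le_gr _
  obtain ⟨C, D, hC, h⟩ := SWt0_sq hg (Finset.range L)
    fun l => SWt0_npow hg (SWt0_fam π (hF l)) (N / j l)
  obtain ⟨r, hr, h⟩ := Metric.eventually_nhds_iff.1 h
  refine ⟨D, 2 * C + 2, r, by positivity, hr, fun ε h0 h1 t ht p => ?_⟩
  obtain ⟨a1, a2⟩ := h (y := t) (by simpa using ht) p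
  have e : ∀ (x : ℂ) (k : ℕ), (‖x‖ ^ 2) ^ k = ‖x ^ k‖ ^ 2 := fun x k => by
    rw [norm_pow, ← pow_mul, ← pow_mul, mul_comm]
  have g0 := (SWt0_pow hg p D 0).1
  have g1 := mul_nonneg hC g0
  simp only [rs, e]
  refine ⟨by linarith [mul_le_mul_of_nonneg_right h1 g0], fun h2 => ?_⟩
  have b1 : ∑ l ∈ Finset.range L, ‖p (F l 0) ^ (N / j l)‖ ^ 2 ≤
      2 * ∑ l ∈ Finset.range L, ‖p (F l t) ^ (N / j l)‖ ^ 2 +
        2 * ∑ l ∈ Finset.range L, ‖p (F l t) ^ (N / j l) - p (F l 0) ^ (N / j l)‖ ^ 2 := by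
    rw [Finset.mul_sum, Finset.mul_sum, ← Finset.sum_add_distrib]
    refine Finset.sum_le_sum fun l _ => ?_
    have c1 := norm_sub_le (p (F l t) ^ (N / j l)) (p (F l t) ^ (N / j l) - p (F l 0) ^ (N / j l))
    rw [sub_sub_cancel] at c1
    nlinarith [pow_le_pow_left₀ (norm_nonneg _) c1 2, sq_nonneg (‖p (F l t) ^ (N / j l)‖ -
      ‖p (F l t) ^ (N / j l) - p (F l 0) ^ (N / j l)‖)]
  have b2 : 0 ≤ ∑ l ∈ Finset.range L, ‖p (F l t) ^ (N / j l)‖ ^ 2 :=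
    Finset.sum_nonneg fun _ _ => sq_nonneg _
  linarith [mul_le_mul_of_nonneg_left h2 g1, mul_nonneg hC b2, mul_nonneg h0.le g0]

end Vale.Agent.P282
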