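import Vale.Agent.P282.QAnn
import Vale.Agent.P282.SCoef
import Vale.Agent.P282.SWt0

set_option linter.unusedSectionVars false

open scoped ENNReal TensorProduct Topology
open Filter MeasureTheory

noncomputable section

namespace Vale.Agent.P282

variable {R K : Type} [CommRing R] [IsDomain R] [Algebra ℂ R] [Algebra.FiniteType ℂ R]
  [IsIntegrallyClosed R] [Field K] [Algebra R K] [IsFractionRing R K] [Algebra ℂ K]
  [IsScalarTower ℂ R K] {n : ℕ}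

theorem QNorm_sum {T ι : Type} (I : T → ℝ≥0∞) (s : Finset ι) (φ : ι → T → ℂ) (b : ι → ℂ)
    (h : ∀ i, ∃ C : ℝ, 0 < C ∧ ∀ x, ENNReal.ofReal (‖φ i x‖ ^ 2) ≤ ENNReal.ofReal C * I x) :
    ∃ C : ℝ, 0 < C ∧ ∀ x, ENNReal.ofReal (‖∑ i ∈ s, b i * φ i x‖ ^ 2) ≤ ENNReal.ofReal C * I x := by
  classical
  induction s using Finset.induction_on with
  | empty => exact ⟨1, one_pos, fun x => by simp⟩
  | insert i s hi ih =>
    obtain ⟨C, hC, h1⟩ := ih
    obtain ⟨C', hC', h2⟩ := h i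
    refine ⟨2 * ‖b i‖ ^ 2 * C' + 2 * C, by positivity, fun x => ?_⟩
    rw [Finset.sum_insert hi]
    have e : ‖b i * φ i x + ∑ i ∈ s, b i * φ i x‖ ^ 2 ≤
        2 * ‖b i‖ ^ 2 * ‖φ i x‖ ^ 2 + 2 * ‖∑ i ∈ s, b i * φ i x‖ ^ 2 := by
      have h3 := norm_add_le (b i * φ i x) (∑ i ∈ s, b i * φ i x)
      rw [norm_mul] at h3
      have h4 := pow_le_pow_left₀ (norm_nonneg _) h3 2
      nlinarith [sq_nonneg (‖b i‖ * ‖φ i x‖ - ‖∑ i ∈ s, b i * φ i x‖)]
    refine (ENNReal.ofReal_le_ofReal e).trans ?_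
    rw [ENNReal.ofReal_add (by positivity) (by positivity),
      ENNReal.ofReal_add (by positivity) (by positivity), add_mul,
      ENNReal.ofReal_mul (p := 2 * ‖b i‖ ^ 2) (by positivity),
      ENNReal.ofReal_mul (p := 2 * ‖b i‖ ^ 2) (by positivity),
      ENNReal.ofReal_mul (p := 2) (q := C) (by positivity),
      ENNReal.ofReal_mul (p := 2) (q := ‖∑ i ∈ s, b i * φ i x‖ ^ 2) (by positivity),
      mul_assoc (ENNReal.ofReal _) (ENNReal.ofReal C'),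
      mul_assoc (ENNReal.ofReal _) (ENNReal.ofReal C)]
    exact add_le_add (mul_le_mul_right (h2 x) _) (mul_le_mul_right (h1 x) _)

theorem QNorm_pt (G : WS R K n) (π : Proj R n) (A : An π (G.ρ π.y)) (M : ℝ) (p₀ : π.W A.Δ) :
    ∃ C : ℝ, 0 < C ∧ ∀ h : R, ENNReal.ofReal (‖p₀.1 h‖ ^ 2) ≤ ENNReal.ofReal C *
        ∫⁻ p, ENNReal.ofReal (‖p.1 h‖ ^ 2 * dens G π M p.1) ∂A.S.μ := by
  obtain ⟨i, hi⟩ := A.S.cover p₀
  have hn : ‖p₀.1 (G.ρ π.y)‖ ^ 2 ≠ 0 := pow_ne_zero _ (norm_ne_zero_iff.2 (A.g_ne p₀))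
  have hd : ContinuousAt (fun p : π.W A.Δ => dens G π M p.1) p₀ := by
    refine ContinuousAt.mul (ContinuousAt.rpow_const ?_ (Or.inl hn))
      (A.SGr_cont.continuousAt.rpow_const (Or.inl (SGr_pos _).ne'))
    exact (((Pt.cont _).comp continuous_subtype_val).norm.pow 2).continuousAt
  have hp : 0 < dens G π M p₀.1 :=
    mul_pos (Real.rpow_pos_of_pos (lt_of_le_of_ne (sq_nonneg _) hn.symm) _)
      (Real.rpow_pos_of_pos (SGr_pos _) _)
  have h1 : ∀ᶠ p in 𝓝 p₀, dens G π M p₀.1 / 2 < dens G π M p.1 :=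
    hd.eventually (lt_mem_nhds (half_lt_self hp))
  have h2 : Tendsto (A.S.e i).symm (𝓝 (A.S.e i p₀)) (𝓝 p₀) := (A.S.e i).tendsto_symm hi
  obtain ⟨ρ, hρ, hs⟩ := Metric.eventually_nhds_iff_ball.1
    ((h2.eventually h1).and ((A.S.e i).open_target.mem_nhds ((A.S.e i).map_source hi)))
  have v0 : volume (Metric.ball (0 : E n) ρ) ≠ 0 := (Metric.measure_ball_pos volume _ hρ).ne'
  have v1 : volume (Metric.ball (0 : E n) ρ) ≠ ⊤ := measure_ball_lt_top.ne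
  have w0 : 0 < (volume (Metric.ball (0 : E n) ρ))⁻¹.toReal :=
    ENNReal.toReal_pos (ENNReal.inv_ne_zero.2 v1) (ENNReal.inv_ne_top.2 v0)
  refine ⟨(dens G π M p₀.1 / 2)⁻¹ * (volume (Metric.ball (0 : E n) ρ))⁻¹.toReal, by positivity,
    fun h => ?_⟩
  have hb : Metric.ball (A.S.e i p₀) ρ ⊆ (A.S.e i).target := fun z hz => (hs z hz).2
  have h3 : DifferentiableOn ℂ (fun z => ((A.S.e i).symm z).1 h) (A.S.e i).target :=
    (A.hol h i).congr fun z _ => by simp only [Fuj.Sheets.rep, A.τ_eq, one_mul]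
  have h4 := Fuj.mv_ball (vol := volume) (A.S.e i).open_target h3 hb
  rw [(A.S.e i).left_inv hi] at h4
  have h5 := SMv_chart A.S i Metric.isOpen_ball hb
    (g := fun p => ENNReal.ofReal (‖p.1 h‖ ^ 2))
    (k := fun p => ENNReal.ofReal (dens G π M p₀.1 / 2)⁻¹ *
      ENNReal.ofReal (‖p.1 h‖ ^ 2 * dens G π M p.1))
    ((((Pt.cont h).comp continuous_subtype_val).norm.pow 2).measurable.ennreal_ofReal)
    fun z hz => by
      rw [← ENNReal.ofReal_mul (by positivity), mul_left_comm]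
      refine ENNReal.ofReal_le_ofReal (le_mul_of_one_le_right (by positivity) ?_)
      rw [inv_mul_eq_div, one_le_div (by positivity)]
      exact (hs z hz).1.le
  rw [lintegral_const_mul' _ _ ENNReal.ofReal_ne_top] at h5
  rw [ENNReal.ofReal_mul (by positivity), ENNReal.ofReal_toReal (ENNReal.inv_ne_top.2 v0)]
  calc ENNReal.ofReal (‖p₀.1 h‖ ^ 2)
      = ENNReal.ofReal (‖p₀.1 h‖ ^ 2) * volume (Metric.ball (0 : E n) ρ) *
        (volume (Metric.ball (0 : E n) ρ))⁻¹ := by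
        rw [mul_assoc, ENNReal.mul_inv_cancel v0 v1, mul_one]
    _ ≤ _ := (mul_le_mul_left (h4.trans h5) _).trans_eq (mul_right_comm _ _ _)

/-- all norms on a finite dimensional space are equivalent -/
theorem norm_le_int (G : WS R K n) (π : Proj R n) (A : An π (G.ρ π.y)) (V : Submodule ℂ R)
    [FiniteDimensional ℂ V] (l : R →ₗ[ℂ] ℂ) (M : ℝ) : ∃ C : ℝ, 0 < C ∧ ∀ h ∈ V,
      ENNReal.ofReal (‖l h‖ ^ 2) ≤ ENNReal.ofReal C *
        ∫⁻ p, ENNReal.ofReal (‖p.1 h‖ ^ 2 * dens G π M p.1) ∂A.S.μ := by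
  obtain ⟨k, p, b, hb⟩ := A.eval_span V l
  obtain ⟨C, hC, h⟩ := QNorm_sum
    (fun h : R => ∫⁻ p, ENNReal.ofReal (‖p.1 h‖ ^ 2 * dens G π M p.1) ∂A.S.μ) Finset.univ
    (fun i h => (p i).1 h) b fun i => QNorm_pt G π A M (p i)
  exact ⟨C, hC, fun u hu => by rw [hb u hu]; exact h u⟩

/-- the same with the weight -/
theorem norm_le_wt (G : WS R K n) (π : Proj R n) (A : An π (G.ρ π.y)) (V : Submodule ℂ R)
    [FiniteDimensional ℂ V] (l : R →ₗ[ℂ] ℂ) (j : ℕ → ℕ) (F : ℕ → ℂ → R) (hF : ∀ l, AFam (F l))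
    (L N D : ℕ) {c : ℝ} (hc : 0 ≤ c) (M : ℝ) :
    Ann fun C _ t => ∀ ε : ℝ, 0 < ε → ε ≤ 1 → ∀ h ∈ V,
      ENNReal.ofReal (‖l h‖ ^ 2) ≤ ENNReal.ofReal C * ∫⁻ p, ENNReal.ofReal (‖p.1 h‖ ^ 2 *
        rs π j (fun l => F l t) L N D ε p.1 ^ (-(c / N)) * dens G π M p.1) ∂A.S.μ := by
  obtain ⟨D₀, C₀, r, hC₀, hr, h0⟩ := rs_cmp π j F hF L N
  obtain ⟨C, hC, h⟩ := norm_le_int G π A V l (M + (D₀ + D : ℕ) * (c / N))
  have hcN : 0 ≤ c / N := div_nonneg hc (Nat.cast_nonneg _)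
  filter_upwards [Ioo_mem_nhdsGT (half_pos hr)] with δ hδ
  refine ⟨C * (C₀ + 1) ^ (c / N), 1, by positivity, one_pos, le_rfl,
    fun t _ ht ε hε hε' u hu => (h u hu).trans ?_⟩
  rw [ENNReal.ofReal_mul hC.le, mul_assoc,
    ← lintegral_const_mul' _ _ (ENNReal.ofReal_ne_top (r := (C₀ + 1) ^ (c / N)))]
  refine mul_le_mul_right (lintegral_mono fun p => ?_) _
  rw [← ENNReal.ofReal_mul (by positivity)]
  refine ENNReal.ofReal_le_ofReal ?_
  have hg := one_le_gr (π.at p.1)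
  have hg0 := SGr_pos (π.at p.1)
  have h1 := (h0 ε hε hε' t (by linarith [hδ.2]) p.1).1
  have hs : 0 ≤ ∑ l ∈ Finset.range L, (‖p.1 (F l t)‖ ^ 2) ^ (N / j l) :=
    Finset.sum_nonneg fun _ _ => by positivity
  have h2 : 0 < rs π j (fun l => F l t) L N D ε p.1 := by
    unfold rs
    positivity
  have h3 : rs π j (fun l => F l t) L N D ε p.1 ≤ (C₀ + 1) * gr (π.at p.1) ^ (D₀ + D) := by
    unfold rs at h1 ⊢
    have a1 : gr (π.at p.1) ^ D₀ ≤ gr (π.at p.1) ^ (D₀ + D) :=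
      pow_le_pow_right₀ hg (Nat.le_add_right _ _)
    have a2 : gr (π.at p.1) ^ D ≤ gr (π.at p.1) ^ (D₀ + D) :=
      pow_le_pow_right₀ hg (Nat.le_add_left _ _)
    have a3 : 0 ≤ ε * gr (π.at p.1) ^ D₀ := by positivity
    have a4 : ε * gr (π.at p.1) ^ D ≤ 1 * gr (π.at p.1) ^ D :=
      mul_le_mul_of_nonneg_right hε' (by positivity)
    have a5 := mul_le_mul_of_nonneg_left a1 hC₀.le
    linarith
  have h4 := Real.rpow_le_rpow_of_nonpos h2 h3 (neg_nonpos.2 hcN)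
  rw [Real.mul_rpow (by positivity) (by positivity), ← Real.rpow_natCast,
    ← Real.rpow_mul hg0.le] at h4
  have h5 : gr (π.at p.1) ^ (-(((D₀ + D : ℕ) : ℝ) * (c / N))) ≤
      (C₀ + 1) ^ (c / N) * rs π j (fun l => F l t) L N D ε p.1 ^ (-(c / N)) := by
    have h6 := mul_le_mul_of_nonneg_left h4 (show 0 ≤ (C₀ + 1) ^ (c / N) by positivity)
    rwa [← mul_assoc, ← Real.rpow_add (by positivity), add_neg_cancel, Real.rpow_zero, one_mul,
      mul_neg] at h6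
  rw [dens_add]
  have h7 := mul_le_mul_of_nonneg_left h5
    (mul_nonneg (sq_nonneg ‖p.1 u‖) (dens_nonneg G π M p.1))
  calc _ = ‖p.1 u‖ ^ 2 * dens G π M p.1 * gr (π.at p.1) ^ (-(((D₀ + D : ℕ) : ℝ) * (c / N))) := by
        ring
    _ ≤ _ := h7
    _ = _ := by ring

end Vale.Agent.P282
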