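import Vale.Agent.P282.QDefs
import Vale.Agent.P282.UArc0
import Vale.Agent.P282.SAn0

set_option linter.unusedSectionVars false

open scoped ENNReal TensorProduct Topology
open Filter MeasureTheory

noncomputable section

namespace Vale.Agent.P282

variable {R K : Type} [CommRing R] [IsDomain R] [Algebra ℂ R] [Algebra.FiniteType ℂ R]
  [IsIntegrallyClosed R] [Field K] [Algebra R K] [IsFractionRing R K] [Algebra ℂ K]
  [IsScalarTower ℂ R K] {n : ℕ}

omit [IsIntegrallyClosed R] in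
theorem QOpen_pt (π : Proj R n) (p : Pt R) (θ : R) (H : Polynomial (MvPolynomial (Fin n) ℂ)) :
    p (H.eval₂ (MvPolynomial.aeval π.y).toRingHom θ) =
      H.eval₂ (MvPolynomial.eval (π.at p)) (p θ) := by
  have h := Polynomial.hom_eval₂ H (MvPolynomial.aeval π.y).toRingHom p.hom.toRingHom θ
  refine h.trans ?_
  have e : p.hom.toRingHom.comp (MvPolynomial.aeval π.y).toRingHom =
      MvPolynomial.eval (π.at p) := RingHom.ext fun N => by
    rw [← MvPolynomial.coe_aeval_eq_eval]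
    exact MvPolynomial.comp_aeval_apply π.y p.hom N
  rw [e]
  rfl

omit [IsIntegrallyClosed R] in
theorem QOpen_root (π : Proj R n) {θ : R} {P : Polynomial (MvPolynomial (Fin n) ℂ)}
    (hmin : ∀ H : Polynomial (MvPolynomial (Fin n) ℂ),
      H.eval₂ (MvPolynomial.aeval π.y).toRingHom θ = 0 → P ∣ H) {z : E n} {c : ℂ}
    (h : P.eval₂ (MvPolynomial.eval z) c = 0) : ∃ p : Pt R, π.at p = z ∧ p θ = c := by
  let ψ : Polynomial (MvPolynomial (Fin n) ℂ) →+* R :=
    Polynomial.eval₂RingHom (MvPolynomial.aeval π.y).toRingHom θ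
  let χ : Polynomial (MvPolynomial (Fin n) ℂ) →+* ℂ :=
    Polynomial.eval₂RingHom (MvPolynomial.eval z) c
  have hψ : ψ.IsIntegral := by
    refine RingHom.IsIntegral.tower_top Polynomial.C ψ ?_
    have e : ψ.comp Polynomial.C = (MvPolynomial.aeval π.y).toRingHom :=
      RingHom.ext fun N => Polynomial.eval₂_C _ _
    rw [e]
    exact RingHom.Finite.to_isIntegral π.fin
  let := ψ.toAlgebra
  have : Algebra.IsIntegral (Polynomial (MvPolynomial (Fin n) ℂ)) R := ⟨hψ⟩
  have : (RingHom.ker χ).IsMaximal := RingHom.ker_isMaximal_of_surjective χ fun a =>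
    ⟨Polynomial.C (MvPolynomial.C a), by simp [χ]⟩
  obtain ⟨Q, hQ, hc⟩ := Ideal.exists_ideal_over_maximal_of_isIntegral (S := R) (RingHom.ker χ) (by
    intro H hH
    obtain ⟨G, rfl⟩ := hmin H hH
    rw [RingHom.mem_ker, map_mul]
    exact mul_eq_zero_of_left h _)
  obtain ⟨x, hx⟩ := exists_pt Q
  have key : ∀ H, χ H = 0 → x (ψ H) = 0 := fun H hH => by
    rw [← Pt.mem_m, hx]
    have : H ∈ Q.comap (algebraMap _ R) := hc ▸ hH
    exact this
  have h2 : ∀ H, χ H = 0 → H.eval₂ (MvPolynomial.eval (π.at x)) (x θ) = 0 := fun H hH =>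
    (QOpen_pt π x θ H).symm.trans (key H hH)
  refine ⟨x, funext fun i => ?_, ?_⟩
  · have := h2 (Polynomial.C (MvPolynomial.X i - MvPolynomial.C (z i))) (by simp [χ])
    simpa [sub_eq_zero] using this
  · have := h2 (Polynomial.X - Polynomial.C (MvPolynomial.C c)) (by simp [χ])
    simpa [sub_eq_zero] using this

omit [IsIntegrallyClosed R] in
theorem QOpen_min (π : Proj R n) (θ : R) : ∃ P : Polynomial (MvPolynomial (Fin n) ℂ), P.Monic ∧
    P.eval₂ (MvPolynomial.aeval π.y).toRingHom θ = 0 ∧ ∀ H : Polynomial (MvPolynomial (Fin n) ℂ),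
      H.eval₂ (MvPolynomial.aeval π.y).toRingHom θ = 0 → P ∣ H := by
  let : Algebra (MvPolynomial (Fin n) ℂ) R := (MvPolynomial.aeval π.y).toRingHom.toAlgebra
  have : Module.Finite (MvPolynomial (Fin n) ℂ) R := π.fin
  have : FaithfulSMul (MvPolynomial (Fin n) ℂ) R :=
    (faithfulSMul_iff_algebraMap_injective _ _).2 π.ind
  exact ⟨minpoly _ θ, minpoly.monic (Algebra.IsIntegral.isIntegral θ), minpoly.aeval _ θ,
    fun H hH => minpoly.isIntegrallyClosed_dvd (Algebra.IsIntegral.isIntegral θ) hH⟩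

omit [IsIntegrallyClosed R] in
theorem Proj.fib_fin (π : Proj R n) (v : E n) : {p : Pt R | π.at p = v}.Finite := by
  obtain ⟨s, hs⟩ := Algebra.FiniteType.out (R := ℂ) (A := R)
  choose P hP h0 _ using QOpen_min π
  refine Set.Finite.of_finite_image (f := fun (p : Pt R) (i : s) => p i.1) ?_ ?_
  · refine (Set.Finite.pi' fun i : s =>
      ((P i.1).map (MvPolynomial.eval v)).roots.finite_toSet).subset ?_
    rintro _ ⟨p, hp, rfl⟩ i
    have hp' : π.at p = v := hp
    have h1 := QOpen_pt π p i.1 (P i.1)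
    rw [h0, map_zero, hp'] at h1
    refine (Polynomial.mem_roots ((hP i.1).map _).ne_zero).2 ?_
    rw [Polynomial.IsRoot, Polynomial.eval_map]
    exact h1.symm
  · intro p _ q _ h
    exact AlgHom.ext_of_adjoin_eq_top (φ₁ := p.hom) (φ₂ := q.hom) hs fun x hx => congrFun h ⟨x, hx⟩

theorem QOpen_small {P : Polynomial ℂ} (hP : P.Monic) (h : ‖P.eval 0‖ < (1 / 2) ^ P.natDegree) :
    ∃ c, P.eval c = 0 ∧ ‖c‖ < 1 / 2 := by
  by_contra hc
  push Not at hc
  have h1 := Multiset.prod_map_le_prod_map₀ (s := P.roots) (fun _ => (1 / 2 : ℝ))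
    (fun c => ‖0 - c‖) (fun _ _ => by norm_num) fun c h => by
      rw [zero_sub, norm_neg]
      exact hc c (Polynomial.isRoot_of_mem_roots h)
  rw [Multiset.map_const', Multiset.prod_replicate, IsAlgClosed.card_roots_eq_natDegree] at h1
  have h2 := map_multiset_prod (normHom (α := ℂ)) (P.roots.map fun c => 0 - c)
  rw [← (IsAlgClosed.splits P).eval_eq_prod_roots_of_monic hP, Multiset.map_map] at h2
  exact absurd (h1.trans_eq h2.symm) (not_le.2 h)

omit [IsIntegrallyClosed R] in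
theorem QOpen_sep (x : Pt R) {S : Set (Pt R)} (hS : S.Finite) :
    ∃ g : R, x g = 0 ∧ ∀ p ∈ S, p ≠ x → p g = 1 := by
  have h : ∀ p : Pt R, ∃ r : R, x r = 1 ∧ (p ≠ x → p r = 0) := fun p => by
    by_cases hp : p = x
    · exact ⟨1, map_one x, fun h => absurd hp h⟩
    obtain ⟨r, hr⟩ := DFunLike.ne_iff.1 hp
    refine ⟨algebraMap ℂ R (x r - p r)⁻¹ * (r - algebraMap ℂ R (p r)), ?_, fun _ => ?_⟩
    · rw [map_mul, map_sub, AlgHomClass.commutes, AlgHomClass.commutes]
      exact inv_mul_cancel₀ (sub_ne_zero.2 hr.symm)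
    · rw [map_mul, map_sub, AlgHomClass.commutes, AlgHomClass.commutes]
      exact mul_eq_zero_of_right _ (sub_self _)
  choose r h1 h2 using h
  refine ⟨1 - ∏ p ∈ hS.toFinset, r p, by simp [map_prod, h1], fun p hp hne => ?_⟩
  rw [map_sub, map_one, map_prod, Finset.prod_eq_zero (hS.mem_toFinset.2 hp) (h2 p hne), sub_zero]

omit [IsIntegrallyClosed R] in
theorem QOpen_cont (π : Proj R n) : Continuous π.at := continuous_pi fun _ => Pt.cont _

omit [IsIntegrallyClosed R] in
theorem QOpen_near (π : Proj R n) {v : E n} {V : Set (Pt R)} (hV : IsOpen V)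
    (h : ∀ p, π.at p = v → p ∈ V) : ∀ᶠ z in 𝓝 v, ∀ p, π.at p = z → p ∈ V := by
  have hC := ((π.compact (isCompact_closedBall v 1)).diff hV).image (QOpen_cont π)
  have h0 : v ∈ (π.at '' ({p : Pt R | π.at p ∈ Metric.closedBall v 1} \ V))ᶜ := by
    rintro ⟨p, hp, e⟩
    exact hp.2 (h p e)
  filter_upwards [hC.isClosed.isOpen_compl.mem_nhds h0, Metric.closedBall_mem_nhds v one_pos]
    with z h1 h2 p hp
  by_contra h3
  exact h1 ⟨p, ⟨show π.at p ∈ Metric.closedBall v 1 from hp ▸ h2, h3⟩, hp⟩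

omit [IsIntegrallyClosed R] in
theorem Proj.isOpenMap (π : Proj R n) : IsOpenMap π.at := by
  intro U hU
  rw [isOpen_iff_mem_nhds]
  rintro _ ⟨x, hx, rfl⟩
  obtain ⟨g, hg0, hg1⟩ := QOpen_sep x (π.fib_fin (π.at x))
  obtain ⟨P, hP, h0, hmin⟩ := QOpen_min π g
  have hV : IsOpen (U ∪ {p : Pt R | ‖p g - 1‖ < 1 / 2}) :=
    hU.union (isOpen_lt ((Pt.cont g).sub continuous_const).norm continuous_const)
  have h1 := QOpen_near π (v := π.at x) hV fun p hp => by
    by_cases e : p = x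
    · exact Or.inl (e ▸ hx)
    · exact Or.inr (by simp [hg1 p hp e])
  have h2 : MvPolynomial.eval (π.at x) (P.coeff 0) = 0 := by
    have h3 := QOpen_pt π x g P
    rw [h0, map_zero, hg0, Polynomial.eval₂_at_zero] at h3
    exact h3.symm
  have h3 : ∀ᶠ z in 𝓝 (π.at x), ‖MvPolynomial.eval z (P.coeff 0)‖ < (1 / 2) ^ P.natDegree :=
    (MvPolynomial.continuous_eval (P.coeff 0)).norm.continuousAt.eventually_lt continuousAt_const
      (by rw [h2, norm_zero]; positivity)
  filter_upwards [h1, h3] with z a b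
  obtain ⟨c, hc, hc'⟩ := QOpen_small (hP.map (MvPolynomial.eval z)) (by
    rwa [hP.natDegree_map, Polynomial.eval_map, Polynomial.eval₂_at_zero])
  rw [Polynomial.eval_map] at hc
  obtain ⟨p, hp, e⟩ := QOpen_root π hmin hc
  refine ⟨p, (a p hp).resolve_right fun h4 => ?_, hp⟩
  have h5 : ‖p g - 1‖ < 1 / 2 := h4
  have h6 := norm_sub_le c (c - 1)
  rw [sub_sub_cancel, norm_one] at h6
  rw [e] at h5
  linarith

omit [IsIntegrallyClosed R] in
theorem QOpen_tri {k : ℕ} (z : Fin k → R) (p q r : Pt R) : dst z p q ≤ dst z p r + dst z q r := by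
  rw [dst, dst, dst, ← Finset.sum_add_distrib]
  refine Finset.sum_le_sum fun i _ => ?_
  rw [norm_sub_rev (q (z i))]
  exact norm_sub_le_norm_sub_add_norm_sub _ _ _

omit [IsIntegrallyClosed R] in
theorem Proj.open_unif (π : Proj R n) {k : ℕ} (z : Fin k → R) {Γ : Set (Pt R)} (hΓ : IsCompact Γ)
    {ρ : ℝ} (hρ : 0 < ρ) : ∃ σ : ℝ, 0 < σ ∧ ∀ q ∈ Γ, ∀ v : E n, ‖v - π.at q‖ ≤ σ →
      ∃ p : Pt R, π.at p = v ∧ dst z p q ≤ ρ := by
  have h := hΓ.eventually_forall_of_forall_eventually (x₀ := (0 : E n))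
    (P := fun w q => ∃ p : Pt R, π.at p = w + π.at q ∧ dst z p q ≤ ρ) fun q _ => by
    have hN : IsOpen {p : Pt R | dst z p q < ρ / 2} := isOpen_lt (continuous_finsetSum _ fun i _ =>
      ((Pt.cont (z i)).sub continuous_const).norm) continuous_const
    have hq : q ∈ {p : Pt R | dst z p q < ρ / 2} := by simpa [dst] using hρ
    have hc : Continuous fun u : E n × Pt R => u.1 + π.at u.2 :=
      continuous_fst.add ((QOpen_cont π).comp continuous_snd)
    filter_upwards [((π.isOpenMap _ hN).preimage hc).mem_nhds (x := (0, q)) ⟨q, hq, by simp⟩,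
      (hN.preimage continuous_snd).mem_nhds (x := ((0 : E n), q)) hq] with u h1 h2
    obtain ⟨p, hp, e⟩ := h1
    have h3 : dst z p q < ρ / 2 := hp
    have h4 : dst z u.2 q < ρ / 2 := h2
    exact ⟨p, e, by linarith [QOpen_tri z p u.2 q]⟩
  obtain ⟨σ, hσ, h1⟩ := Metric.nhds_basis_closedBall.eventually_iff.1 h
  refine ⟨σ, hσ, fun q hq v hv => ?_⟩
  simpa using h1 (mem_closedBall_zero_iff.2 hv) q hq

omit [IsIntegrallyClosed R] in
theorem Arc.cont (a : Arc R) : ∃ r : ℝ, 0 < r ∧ ContinuousOn a.γ (Metric.ball 0 r) := by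
  obtain ⟨s, hs⟩ := Algebra.FiniteType.out (R := ℂ) (A := R)
  have h : ∀ᶠ t in 𝓝 (0 : ℂ), ∀ x ∈ s, AnalyticAt ℂ (fun t => a.γ t x) t :=
    (eventually_all_finset s).2 fun x _ => (a.an x).eventually_analyticAt
  obtain ⟨r, hr, h1⟩ := Metric.nhds_basis_ball.eventually_iff.1 h
  refine ⟨r, hr, (SAn0_closed (R := R)).isInducing.continuousOn_iff.2
    (continuousOn_pi.2 fun x => ?_)⟩
  change ContinuousOn (fun t => a.γ t x) _
  have hx : x ∈ Algebra.adjoin ℂ (s : Set R) := hs ▸ Algebra.mem_top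
  induction hx using Algebra.adjoin_induction with
  | mem x hx => exact fun t ht => (h1 ht x hx).continuousAt.continuousWithinAt
  | algebraMap c =>
    simp only [AlgHomClass.commutes]
    exact continuousOn_const
  | add x y _ _ hx hy =>
    simp only [map_add]
    exact hx.add hy
  | mul x y _ _ hx hy =>
    simp only [map_mul]
    exact hx.mul hy

end Vale.Agent.P282
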