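import Vale.Agent.P282.QDefs
import Vale.Agent.P271.GCov

set_option linter.unusedSectionVars false

open scoped ENNReal TensorProduct Topology
open Filter MeasureTheory

noncomputable section

namespace Vale.Agent.P282

variable {R K : Type} [CommRing R] [IsDomain R] [Algebra ℂ R] [Algebra.FiniteType ℂ R]
  [IsIntegrallyClosed R] [Field K] [Algebra R K] [IsFractionRing R K] [Algebra ℂ K]
  [IsScalarTower ℂ R K] {n : ℕ}

theorem QVol_shear (m : ℕ) (c : Fin (m + 1) → ℂ) : MeasurePreserving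
    (fun (u : E (m + 1)) (i : Fin (m + 1)) => if i = 0 then u 0 else u i + c i * u 0 ^ 2)
    volume volume := by
  have e := volume_preserving_piFinSuccAbove (fun _ : Fin (m + 1) => ℂ) 0
  have h : MeasurePreserving
      (fun p : ℂ × (Fin m → ℂ) => (p.1, p.2 + fun j => c j.succ * p.1 ^ 2)) volume volume :=
    (MeasurePreserving.id volume).skew_product (μc := volume) (μd := volume)
      (g := fun (x : ℂ) (y : Fin m → ℂ) => y + fun j : Fin m => c j.succ * x ^ 2) (by fun_prop)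
      (ae_of_all _ fun x => map_add_right_eq_self _ _)
  have h1 := (e.symm _).comp (h.comp e)
  have h2 : (fun (u : E (m + 1)) (i : Fin (m + 1)) => if i = 0 then u 0 else u i + c i * u 0 ^ 2) =
      (MeasurableEquiv.piFinSuccAbove (fun _ : Fin (m + 1) => ℂ) 0).symm ∘
        (fun p : ℂ × (Fin m → ℂ) => (p.1, p.2 + fun j => c j.succ * p.1 ^ 2)) ∘
        MeasurableEquiv.piFinSuccAbove (fun _ : Fin (m + 1) => ℂ) 0 := by
    funext u i
    refine Fin.cases ?_ (fun j => ?_) i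
    · simp [MeasurableEquiv.piFinSuccAbove]
    · simp [MeasurableEquiv.piFinSuccAbove, Fin.tail]
  rw [h2]
  exact h1

theorem QVol_lin {B : Matrix (Fin n) (Fin n) ℂ} (hB : B.det ≠ 0) (s : Set (E n)) :
    volume (B.mulVec ⁻¹' s) = ENNReal.ofReal (‖B.det‖ ^ 2)⁻¹ * volume s := by
  have h := LinearMap.det_restrictScalars (R := ℝ) (f := Matrix.toLin' B)
  rw [Algebra.norm_complex_apply, Complex.normSq_eq_norm_sq, LinearMap.det_toLin'] at h
  have h0 : 0 < ‖B.det‖ ^ 2 := pow_pos (norm_pos_iff.2 hB) 2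
  have h1 := Measure.addHaar_preimage_linearMap (volume : Measure (E n))
    (f := (Matrix.toLin' B).restrictScalars ℝ) (by rw [h]; exact h0.ne') s
  rw [h, abs_of_pos (inv_pos.2 h0)] at h1
  exact h1

theorem QVol_disc (b : Fin n → ℂ) {r : Fin n → ℝ} (hr : ∀ i, 0 ≤ r i) :
    ENNReal.ofReal (∏ i, r i ^ 2) ≤
      volume (Set.pi Set.univ fun i => Metric.closedBall (b i) (r i)) := by
  rw [volume_pi_pi, ENNReal.ofReal_prod_of_nonneg fun i _ => sq_nonneg _]
  refine Finset.prod_le_prod' fun i _ => ?_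
  rw [Complex.volume_closedBall, ENNReal.ofReal_pow (hr i)]
  refine le_mul_of_one_le_right' ?_
  have h : (1 : NNReal) ≤ NNReal.pi := by
    rw [← NNReal.coe_le_coe, NNReal.coe_one, NNReal.coe_real_pi]
    linarith [Real.pi_gt_three]
  exact_mod_cast h

theorem sf_vol [NeZero n] {B : Matrix (Fin n) (Fin n) ℂ} (hB : B.det ≠ 0) (c q b : Fin n → ℂ)
    {r : Fin n → ℝ} (hr : ∀ i, 0 ≤ r i) :
    MeasurableSet {v : E n | ∀ i, ‖sf B c (v - q) i - b i‖ ≤ r i} ∧
    ENNReal.ofReal ((∏ i, r i ^ 2) / ‖B.det‖ ^ 2) ≤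
      volume {v : E n | ∀ i, ‖sf B c (v - q) i - b i‖ ≤ r i} := by
  obtain ⟨m, rfl⟩ := Nat.exists_eq_succ_of_ne_zero (NeZero.ne n)
  have hs := QVol_shear m c
  have hP : MeasurableSet (Set.pi Set.univ fun i => Metric.closedBall (b i) (r i)) :=
    MeasurableSet.univ_pi fun i => Metric.isClosed_closedBall.measurableSet
  have e : {v : E (m + 1) | ∀ i, ‖sf B c (v - q) i - b i‖ ≤ r i} =
      (fun v => v + -q) ⁻¹' (B.mulVec ⁻¹' ((fun (u : E (m + 1)) (i : Fin (m + 1)) =>
        if i = 0 then u 0 else u i + c i * u 0 ^ 2) ⁻¹'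
          Set.pi Set.univ fun i => Metric.closedBall (b i) (r i))) := by
    ext v
    simp only [Set.mem_ofPred_eq, Set.mem_preimage, Set.mem_pi, Set.mem_univ, true_imp_iff,
      mem_closedBall_iff_norm, sf, ← sub_eq_add_neg]
  have hB' : Measurable B.mulVec := (continuous_const.matrix_mulVec continuous_id).measurable
  refine ⟨?_, ?_⟩
  · rw [e]
    exact measurable_add_const _ (hB' (hs.measurable hP))
  · rw [e, measure_preimage_add_right, QVol_lin hB, hs.measure_preimage hP.nullMeasurableSet,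
      div_eq_inv_mul, ENNReal.ofReal_mul (by positivity)]
    exact mul_le_mul_right (QVol_disc b hr) _

theorem sf_norm [NeZero n] {B : Matrix (Fin n) (Fin n) ℂ} (hB : B.det ≠ 0) {c : Fin n → ℂ} {C η : ℝ}
    (h1 : ∀ i j, ‖B⁻¹ i j‖ ≤ C) (h2 : ∀ i, ‖c i‖ ≤ C) (hη : η ≤ 1) {v : E n}
    (h : ∀ i, ‖sf B c v i‖ ≤ η) : ‖v‖ ≤ n * C * (1 + C) * η := by
  have hC : 0 ≤ C := (norm_nonneg _).trans (h2 0)
  have hη0 : 0 ≤ η := (norm_nonneg _).trans (h 0)
  have h0 : ‖B.mulVec v 0‖ ≤ η := by simpa [sf] using h 0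
  have h3 : ∀ i, ‖B.mulVec v i‖ ≤ (1 + C) * η := fun i => by
    by_cases hi : i = 0
    · rw [hi]; nlinarith [mul_nonneg hC hη0]
    · have h4 := h i
      rw [sf, if_neg hi] at h4
      have h5 : ‖c i * B.mulVec v 0 ^ 2‖ ≤ C * η := by
        rw [norm_mul, norm_pow]
        refine mul_le_mul (h2 i) ?_ (by positivity) hC
        nlinarith [norm_nonneg (B.mulVec v 0)]
      have h6 := norm_sub_le (B.mulVec v i + c i * B.mulVec v 0 ^ 2) (c i * B.mulVec v 0 ^ 2)
      rw [add_sub_cancel_right] at h6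
      linarith
  have h4 : v = B⁻¹.mulVec (B.mulVec v) := by
    rw [Matrix.mulVec_mulVec, Matrix.nonsing_inv_mul _ (Ne.isUnit hB), Matrix.one_mulVec]
  refine (pi_norm_le_iff_of_nonneg (by positivity)).2 fun i => ?_
  have h5 : v i = ∑ j, B⁻¹ i j * B.mulVec v j := congrFun h4 i
  rw [h5]
  calc _ ≤ ∑ _j : Fin n, C * ((1 + C) * η) := norm_sum_le_of_le _ fun j _ => by
        rw [norm_mul]; exact mul_le_mul (h1 i j) (h3 j) (norm_nonneg _) hC
    _ = _ := by simp only [Finset.sum_const, Finset.card_univ, Fintype.card_fin, nsmul_eq_mul]; ring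

omit [IsDomain R] [Algebra.FiniteType ℂ R] [IsIntegrallyClosed R] in
theorem s_rep [NeZero n] {π : Proj R n} {a : WArc R n} {S : Fin n → ℂ → R}
    (hS : ∀ i, Rp (a.s π i) (S i)) {B : ℂ → Matrix (Fin n) (Fin n) ℂ} {c : ℂ → Fin n → ℂ}
    (hB : ∀ i j, (a.B i j).Rep fun t => B t i j) (hc : ∀ i, (a.c i).Rep fun t => c t i) :
    ∀ᶠ t in 𝓝[≠] (0 : ℂ), ∀ (p : Pt R) (i : Fin n),
      p (S i t) = sf (B t) (c t) (π.at p - π.at (a.γ t)) i := by
  have h1 : ∀ j, Rp (a.lin π j) fun t =>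
      ∑ k, B t j k • (π.y k - algebraMap ℂ R (a.γ t (π.y k))) := fun j =>
    Rp.sum Finset.univ fun k _ => (Rp.yq a.toArc (π.y k)).smul (hB j k)
  have h2 : ∀ (t : ℂ) (p : Pt R) (j : Fin n),
      p (∑ k, B t j k • (π.y k - algebraMap ℂ R (a.γ t (π.y k)))) =
        (B t).mulVec (π.at p - π.at (a.γ t)) j := fun t p j => by
    simp only [map_sum, map_smul, map_sub, AlgHomClass.commutes, smul_eq_mul]
    rfl
  have h3 : ∀ i, ∀ᶠ t in 𝓝[≠] (0 : ℂ), ∀ p : Pt R,
      p (S i t) = sf (B t) (c t) (π.at p - π.at (a.γ t)) i := fun i => by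
    have h4 := hS i
    unfold WArc.s at h4
    by_cases hi : i = 0
    · rw [if_pos hi] at h4
      filter_upwards [h4.unique (h1 0)] with t ht p
      rw [ht, sf, if_pos hi, h2]
    · rw [if_neg hi] at h4
      filter_upwards [h4.unique ((h1 i).add (((h1 0).pow 2).smul (hc i)))] with t ht p
      rw [ht, sf, if_neg hi, map_add, map_smul, map_pow, h2, h2, smul_eq_mul]
  filter_upwards [eventually_all.2 h3] with t ht p i using ht i p

end Vale.Agent.P282
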