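import Vale.Agent.P282.QAnn
import Vale.Agent.P282.QOpen
import Vale.Agent.P282.QVol

set_option linter.unusedSectionVars false

open scoped ENNReal TensorProduct Topology
open Filter MeasureTheory

noncomputable section

namespace Vale.Agent.P282

variable {R K : Type} [CommRing R] [IsDomain R] [Algebra ℂ R] [Algebra.FiniteType ℂ R]
  [IsIntegrallyClosed R] [Field K] [Algebra R K] [IsFractionRing R K] [Algebra ℂ K]
  [IsScalarTower ℂ R K] {n : ℕ}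

variable [NeZero n] {π : Proj R n} {a : WArc R n} {k : ℕ} {z : Fin k → R} {S : Fin n → ℂ → R}

theorem QReg_data (hS : ∀ i, Rp (a.s π i) (S i)) :
    ∃ (B : ℂ → Matrix (Fin n) (Fin n) ℂ) (c : ℂ → Fin n → ℂ), ∀ᶠ δ in 𝓝[>] (0 : ℝ), ∃ C : ℝ, 0 < C ∧
      ∀ t : ℂ, δ ≤ ‖t‖ → ‖t‖ ≤ 2 * δ → (B t).det ≠ 0 ∧ ‖(B t).det‖ ≤ C ∧
        (∀ i j, ‖(B t)⁻¹ i j‖ ≤ C) ∧ (∀ i, ‖c t i‖ ≤ C) ∧
        ∀ (p : Pt R) (i : Fin n), p (S i t) = sf (B t) (c t) (π.at p - π.at (a.γ t)) i := by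
  choose f _ hf using fun i j => (a.B i j).exists_rep
  choose g _ hg using fun i j => (a.B⁻¹ i j).exists_rep
  choose c _ hc using fun i => (a.c i).exists_rep
  let B : ℂ → Matrix (Fin n) (Fin n) ℂ := fun t => Matrix.of fun i j => f i j t
  let B' : ℂ → Matrix (Fin n) (Fin n) ℂ := fun t => Matrix.of fun i j => g i j t
  have h1 : ∀ᶠ t in 𝓝[≠] (0 : ℂ), B' t * B t = 1 := by
    have h2 : ∀ i j, ∀ᶠ t in 𝓝[≠] (0 : ℂ), (B' t * B t) i j = (1 : Matrix (Fin n) (Fin n) ℂ) i j := by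
      intro i j
      have h3 := MK.Rep.sum Finset.univ fun l _ => (hg i l).mul (hf l j)
      rw [← Matrix.mul_apply, Matrix.nonsing_inv_mul _ (Ne.isUnit a.B_det)] at h3
      have h4 : ((1 : Matrix (Fin n) (Fin n) MK) i j).Rep
          fun _ => (1 : Matrix (Fin n) (Fin n) ℂ) i j := by
        simp only [Matrix.one_apply]
        split_ifs
        exacts [MK.QBas_rep_one, MK.QBas_rep_zero]
      exact h3.unique h4
    filter_upwards [eventually_all.2 fun i => eventually_all.2 (h2 i)] with t ht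
    exact Matrix.ext ht
  have h2 := s_rep (B := B) (c := fun t i => c i t) hS hf hc
  have h3 : Ann fun C _ t => ∀ i : (Fin n × Fin n) ⊕ Fin n ⊕ Unit,
      ‖Sum.elim (fun x => g x.1 x.2 t) (Sum.elim (fun i => c i t) fun _ => (B t).det) i‖ ≤ C := by
    refine Ann.all (P := fun i C _ t => ‖Sum.elim (fun x : Fin n × Fin n => g x.1 x.2 t)
      (Sum.elim (fun i => c i t) fun _ : Unit => (B t).det) i‖ ≤ C) ?_
      fun i C C' _ _ t h _ _ h' => h'.trans h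
    rintro (x | i | _)
    · exact Ann.rep (hg x.1 x.2)
    · exact Ann.rep (hc i)
    · exact Ann.rep (MK.Rep.det (f := B) hf)
  refine ⟨B, fun t i => c i t, ?_⟩
  filter_upwards [h3, Ann.of_ev (h1.and h2)] with δ ⟨C, _, hC, _, _, h4⟩ ⟨_, _, _, _, _, h5⟩
  refine ⟨C, hC, fun t ht ht' => ?_⟩
  obtain ⟨h6, h7⟩ := h5 t ht ht'
  refine ⟨(Matrix.isUnit_det_of_left_inverse h6).ne_zero, h4 t ht ht' (.inr (.inr ())),
    fun i j => ?_, fun i => h4 t ht ht' (.inr (.inl i)), h7⟩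
  rw [Matrix.inv_eq_left_inv h6]
  exact h4 t ht ht' (.inl (i, j))

theorem QReg_gr {v : E n} {M : ℝ} (h : ‖v‖ ≤ M) : gr v ≤ 1 + n * M ^ 2 := by
  have : ∑ i, ‖v i‖ ^ 2 ≤ ∑ _ : Fin n, M ^ 2 := Finset.sum_le_sum fun i _ =>
    pow_le_pow_left₀ (norm_nonneg _) ((norm_le_pi_norm v i).trans h) 2
  simp only [Finset.sum_const, Finset.card_univ, Fintype.card_fin, nsmul_eq_mul] at this
  unfold gr
  linarith

/-- the regions are large -/
theorem reg_vol (hS : ∀ i, Rp (a.s π i) (S i)) : ∀ᶠ δ in 𝓝[>] (0 : ℝ), ∀ ρ : ℝ, 0 < ρ →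
    ∃ C η₀ : ℝ, 0 < C ∧ 0 < η₀ ∧ η₀ ≤ 1 ∧ ∀ t : ℂ, δ ≤ ‖t‖ → ‖t‖ ≤ 2 * δ → ∀ η : ℝ, 0 < η → η ≤ η₀ →
      ∀ b : ℂ, ‖b‖ ≤ η ^ a.w 0 / 2 → ∃ Q : Set (E n), MeasurableSet Q ∧
        ENNReal.ofReal (C⁻¹ * η ^ (2 * ∑ i, a.w i)) ≤ volume Q ∧
        ∀ v ∈ Q, gr v ≤ C ∧ ∃ p ∈ Reg a z S t η ρ, π.at p = v ∧
          ‖p (S 0 t) - b‖ ≤ η ^ a.w 0 / 8 := by
  obtain ⟨B, c, hd⟩ := QReg_data hS
  obtain ⟨r, hr, hγ⟩ := a.toArc.cont
  filter_upwards [hd, mem_nhdsWithin_of_mem_nhds (Iio_mem_nhds (half_pos hr))]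
    with δ ⟨C, hC, hd⟩ hδ ρ hρ
  have hΓ : IsCompact (a.γ '' Metric.closedBall 0 (2 * δ)) :=
    (isCompact_closedBall 0 (2 * δ)).image_of_continuousOn
      (hγ.mono (Metric.closedBall_subset_ball (by have : δ < r / 2 := hδ; linarith)))
  obtain ⟨σ, hσ, hop⟩ := π.open_unif z hΓ hρ
  obtain ⟨M, hM⟩ := hΓ.exists_bound_of_continuousOn (f := π.at)
    (continuous_pi fun i => Pt.cont _).continuousOn
  have hD : 0 < n * C * (1 + C) + 1 := by positivity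
  refine ⟨64 ^ n * C ^ 2 + (1 + n * (M + σ) ^ 2), min 1 (σ / (n * C * (1 + C) + 1)),
    by positivity, lt_min one_pos (div_pos hσ hD), min_le_left _ _,
    fun t ht ht' η hη hη' b hb => ?_⟩
  obtain ⟨h0, h1, h2, h3, h4⟩ := hd t ht ht'
  have hη1 : η ≤ 1 := hη'.trans (min_le_left _ _)
  have hη2 : (n * C * (1 + C) + 1) * η ≤ σ := by
    have := hη'.trans (min_le_right _ _)
    rwa [le_div_iff₀' hD] at this
  have hq : a.γ t ∈ a.γ '' Metric.closedBall 0 (2 * δ) :=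
    Set.mem_image_of_mem _ (mem_closedBall_zero_iff.2 ht')
  obtain ⟨hm, hv⟩ := sf_vol h0 (c t) (π.at (a.γ t)) (Pi.single 0 b)
    (r := fun i => η ^ a.w i / 8) fun i => by positivity
  refine ⟨_, hm, le_trans (ENNReal.ofReal_le_ofReal ?_) hv, fun v hv => ?_⟩
  · have e : ∏ i, (η ^ a.w i / 8) ^ 2 = η ^ (2 * ∑ i, a.w i) / 64 ^ n := by
      simp only [div_pow, Finset.prod_div_distrib, Finset.prod_const, Finset.card_univ,
        Fintype.card_fin, ← pow_mul, Finset.prod_pow_eq_pow_sum, ← Finset.sum_mul]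
      rw [mul_comm _ 2, pow_mul (8 : ℝ)]
      norm_num
    rw [e, div_div, ← div_eq_inv_mul]
    have h5 : 0 < ‖(B t).det‖ := norm_pos_iff.2 h0
    refine div_le_div_of_nonneg_left (by positivity) (by positivity) ?_
    have h6 : 64 ^ n * ‖(B t).det‖ ^ 2 ≤ 64 ^ n * C ^ 2 := by gcongr
    have h7 : 0 ≤ 1 + n * (M + σ) ^ 2 := by positivity
    linarith
  · have h5 : ∀ i, ‖sf (B t) (c t) (v - π.at (a.γ t)) i‖ ≤ η ^ a.w i := by
      intro i
      have h6 := hv i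
      have h7 : 0 < η ^ a.w i := by positivity
      have h8 : ‖(Pi.single 0 b : Fin n → ℂ) i‖ ≤ η ^ a.w i / 2 := by
        by_cases hi : i = 0
        · subst hi
          simpa using hb
        · rw [Pi.single_eq_of_ne hi, norm_zero]
          positivity
      have h9 := norm_le_norm_add_norm_sub' (sf (B t) (c t) (v - π.at (a.γ t)) i)
        ((Pi.single 0 b : Fin n → ℂ) i)
      linarith
    have h6 : ‖v - π.at (a.γ t)‖ ≤ σ := by
      have := sf_norm h0 h2 h3 hη1 fun i =>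
        (h5 i).trans (pow_le_of_le_one hη.le hη1 (a.w_pos i).ne')
      linarith
    obtain ⟨p, rfl, hp⟩ := hop _ hq v h6
    refine ⟨?_, p, ⟨hp, fun i => h4 p i ▸ h5 i⟩, rfl, ?_⟩
    · have h7 := norm_le_norm_add_norm_sub' (π.at p) (π.at (a.γ t))
      have h8 := QReg_gr (v := π.at p) (M := M + σ) (by linarith [hM _ hq])
      have h9 : 0 ≤ 64 ^ n * C ^ 2 := by positivity
      linarith
    · rw [h4]
      simpa using hv 0

end Vale.Agent.P282
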