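import Vale.Agent.P282.QWt
import Vale.Agent.P282.QReg
import Vale.Agent.P282.QNorm

set_option linter.unusedSectionVars false

open scoped ENNReal TensorProduct Topology
open Filter MeasureTheory

noncomputable section

namespace Vale.Agent.P282

variable {R K : Type} [CommRing R] [IsDomain R] [Algebra ℂ R] [Algebra.FiniteType ℂ R]
  [IsIntegrallyClosed R] [Field K] [Algebra R K] [IsFractionRing R K] [Algebra ℂ K]
  [IsScalarTower ℂ R K] {n : ℕ}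

theorem QOne_gen : ∃ (k : ℕ) (z : Fin k → R), Algebra.adjoin ℂ (Set.range z) = ⊤ := by
  obtain ⟨T, hT⟩ := Algebra.FiniteType.out (R := ℂ) (A := R)
  refine ⟨T.card, fun i => T.equivFin.symm i, ?_⟩
  rw [← hT]
  congr 1
  ext r
  exact ⟨fun ⟨i, hi⟩ => hi ▸ (T.equivFin.symm i).2, fun hr => ⟨T.equivFin ⟨r, hr⟩, by simp⟩⟩

theorem QOne_basis (V : Submodule ℂ R) [FiniteDimensional ℂ V] :
    ∃ (d : ℕ) (v : Fin d → R) (l : Fin d → R →ₗ[ℂ] ℂ), ∀ h ∈ V, h = ∑ i, l i h • v i := by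
  let b := Module.finBasis ℂ V
  choose l hl using fun i => LinearMap.exists_extend (b.coord i)
  refine ⟨_, fun i => b i, l, fun h hh => ?_⟩
  have h1 := congrArg V.subtype (b.sum_repr ⟨h, hh⟩)
  rw [map_sum] at h1
  refine h1.symm.trans (Finset.sum_congr rfl fun i _ => ?_)
  rw [map_smul]
  exact congrArg (· • (b i : R)) (LinearMap.congr_fun (hl i) ⟨h, hh⟩).symm

theorem QOne_lin {d : ℕ} {v : Fin d → R} {l : Fin d → R →ₗ[ℂ] ℂ} {h : R}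
    (hh : h = ∑ i, l i h • v i) (φ : R →ₗ[ℂ] ℂ) {A B : ℝ} (hA : ∀ i, ‖l i h‖ ≤ A)
    (hB : ∀ i, ‖φ (v i)‖ ≤ B) : ‖φ h‖ ≤ d * (A * B) := by
  rw [hh, map_sum]
  refine (norm_sum_le _ _).trans ((Finset.sum_le_card_nsmul _ _ (A * B) fun i _ => ?_).trans ?_)
  · rw [map_smul, norm_smul]
    exact mul_le_mul (hA i) (hB i) (norm_nonneg _) ((norm_nonneg _).trans (hA i))
  · simp

theorem QOne_l [NeZero n] {π : Proj R n} {a : WArc R n} (h : a.Col π) : a.l ≠ 0 := by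
  intro h0
  obtain ⟨b, hb⟩ := h 1 1
  have : IsEmpty (Fin a.l) := by rw [h0]; infer_instance
  rw [Finset.univ_eq_empty, Finset.sum_empty, sub_zero, pow_one] at hb
  have h1 : ∀ j, a.lin π j ∈ a.toArc.m := fun j => Ideal.sum_mem _ fun k _ =>
    Submodule.smul_of_tower_mem _ _ (a.toArc.yq_mem _)
  have h2 : Ideal.span (Set.range (a.s π)) ≤ a.toArc.m := by
    rw [Ideal.span_le]
    rintro _ ⟨j, rfl⟩
    unfold WArc.s
    split_ifs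
    · exact h1 0
    · exact Ideal.add_mem _ (h1 j)
        (Submodule.smul_of_tower_mem _ _ (Ideal.pow_mem_of_mem _ (h1 0) 2 two_pos))
  rw [sup_eq_right.2 h2] at hb
  exact a.toArc.m_max.ne_top ((Ideal.eq_top_iff_one _).2 hb)

theorem QOne_sq {x C s : ℝ} (hC : 0 ≤ C) (hs : 0 ≤ s) (h : x ^ 2 ≤ C * s ^ 2) : x ≤ √C * s :=
  (abs_le_of_sq_le_sq' (by rw [mul_pow, Real.sq_sqrt hC]; exact h) (by positivity)).2

theorem QOne_real {x C s : ℝ} (hC : 0 ≤ C) :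
    ENNReal.ofReal x ≤ ENNReal.ofReal C * ENNReal.ofReal (s ^ 2) ↔ x ≤ C * s ^ 2 := by
  rw [← ENNReal.ofReal_mul hC, ENNReal.ofReal_le_ofReal_iff (by positivity)]

theorem QOne_b (g x : ℂ) {r : ℝ} (hr : 0 ≤ r) :
    ∃ b : ℂ, ‖b‖ ≤ r / 2 ∧ ‖x‖ * (r / 2) ≤ ‖g + x * b‖ := by
  have h0 : ‖((r / 2 : ℝ) : ℂ)‖ = r / 2 := by
    rw [Complex.norm_real, Real.norm_eq_abs, abs_of_nonneg (by positivity)]
  have h1 := norm_sub_le (g + x * (r / 2 : ℝ)) (g + x * -(r / 2 : ℝ))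
  rw [show g + x * (r / 2 : ℝ) - (g + x * -(r / 2 : ℝ)) = 2 * (x * (r / 2 : ℝ)) by ring, norm_mul,
    norm_mul, h0, Complex.norm_two] at h1
  rcases le_total ‖g + x * (r / 2 : ℝ)‖ ‖g + x * -(r / 2 : ℝ)‖ with h | h
  · exact ⟨-(r / 2 : ℝ), by rw [norm_neg, h0], by linarith⟩
  · exact ⟨(r / 2 : ℝ), h0.le, by linarith⟩

theorem QOne_meas (G : WS R K n) (π : Proj R n) (Δ : MvPolynomial (Fin n) ℂ) (j : ℕ → ℕ)
    (s : ℕ → R) (L N D : ℕ) (ε e M : ℝ) (h : R) : Measurable fun p : π.W Δ =>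
      ENNReal.ofReal (‖p.1 h‖ ^ 2 * rs π j s L N D ε p.1 ^ e * dens G π M p.1) := by
  have h1 : Continuous (rs π j s L N D ε) :=
    (continuous_finsetSum _ fun l _ => ((Pt.cont (s l)).norm.pow 2).pow _).add
      (continuous_const.mul ((gr_cont.comp π.at_cont).pow D))
  exact ((((Pt.cont h).norm.pow 2).measurable.mul (h1.measurable.pow_const e)).mul
    (dens_meas G π M)).ennreal_ofReal.comp measurable_subtype_coe

/-- the lower bound on a part of the region -/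
theorem QOne_low [NeZero n] {a : WArc R n} {k d : ℕ} {z : Fin k → R} {S : Fin n → ℂ → R}
    {v : Fin d → R} {l : Fin d → R →ₗ[ℂ] ℂ} {h : R} (hh : h = ∑ i, l i h • v i) (ξ : R →ₗ[ℂ] ℂ)
    {t : ℂ} {η ρ A C κ : ℝ} (hη : 0 < η) (hη1 : η ≤ 1) (hA : ∀ i, ‖l i h‖ ≤ A) (hA0 : 0 ≤ A)
    (hC : 0 ≤ C) (h1 : κ ≤ 1) (h2 : κ ≤ 1 / a.l)
    (hT : ∀ i, ∀ p ∈ Reg a z S t η ρ,
      if a.der then ‖p (v i) - a.γ t (v i) - ξ (v i) * p (S 0 t)‖ ≤ C * η ^ (a.w 0 + 1)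
      else ‖p (v i) - ξ (v i)‖ ≤ C * η ^ (1 / a.l : ℝ)) :
    ∃ b : ℂ, ‖b‖ ≤ η ^ a.w 0 / 2 ∧ ∀ p ∈ Reg a z S t η ρ, ‖p (S 0 t) - b‖ ≤ η ^ a.w 0 / 8 →
      (3 / 8 * ‖ξ h‖ - d * A * C * η ^ κ) * η ^ a.mu ≤ ‖p h‖ := by
  have hr : 0 < η ^ a.w 0 := pow_pos hη _
  have hdA : (0 : ℝ) ≤ d * A * C := by positivity
  unfold WArc.mu
  cases hd : a.der
  · simp only [hd, Bool.false_eq_true, if_false] at hT ⊢
    refine ⟨0, by rw [norm_zero]; positivity, fun p hp _ => ?_⟩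
    have h3 : ‖p h - ξ h‖ ≤ _ := QOne_lin hh (p.hom.toLinearMap - ξ) hA fun i => hT i p hp
    have h4 := norm_sub_norm_le (ξ h) (p h)
    have h5 := mul_le_mul_of_nonneg_left (Real.rpow_le_rpow_of_exponent_ge hη hη1 h2) hdA
    rw [norm_sub_rev] at h4
    linarith [norm_nonneg (ξ h)]
  · simp only [hd, if_true] at hT ⊢
    obtain ⟨b, hb, h3⟩ := QOne_b (a.γ t h) (ξ h) hr.le
    refine ⟨b, hb, fun p hp h4 => ?_⟩
    have h5 : ‖p h - a.γ t h - p (S 0 t) * ξ h‖ ≤ _ :=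
      QOne_lin hh (p.hom.toLinearMap - (a.γ t).hom.toLinearMap - p (S 0 t) • ξ) hA
        (B := C * η ^ (a.w 0 + 1)) fun i => by
          have := hT i p hp
          rwa [mul_comm] at this
    have h6 := norm_add₃_le (a := p h) (b := -(p h - a.γ t h - p (S 0 t) * ξ h))
      (c := -(ξ h * (p (S 0 t) - b)))
    rw [show p h + -(p h - a.γ t h - p (S 0 t) * ξ h) + -(ξ h * (p (S 0 t) - b)) =
      a.γ t h + ξ h * b by ring, norm_neg, norm_neg, norm_mul] at h6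
    have h7 := mul_le_mul_of_nonneg_left h4 (norm_nonneg (ξ h))
    have h8 := Real.rpow_le_rpow_of_exponent_ge hη hη1 h1
    rw [Real.rpow_one] at h8
    have h9 := mul_le_mul_of_nonneg_left h8 (mul_nonneg hdA hr.le)
    rw [pow_succ] at h5
    linarith

theorem QOne_num {α β C₄ C₅ η c g κ s : ℝ} {W μ : ℕ} (hη : 0 < η) (hη1 : η ≤ 1) (h4 : 0 < C₄)
    (h5 : 0 < C₅) (hs : 0 ≤ s) (hκ : κ ≤ c + g - W - μ) (hα : α = β * η ^ μ)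
    (h : α ^ 2 * (C₄⁻¹ * η ^ (-(2 * (c + g)))) * (C₅⁻¹ * η ^ (2 * W)) ≤ s ^ 2) :
    β ≤ √(C₄ * C₅) * (η ^ κ * s) := by
  refine QOne_sq (by positivity) (by positivity) ?_
  have h1 : (η ^ μ) ^ 2 * η ^ (-(2 * (c + g))) * η ^ (2 * W) * η ^ (2 * (c + g - W - μ)) = 1 := by
    rw [← pow_mul, ← Real.rpow_natCast, ← Real.rpow_natCast, ← Real.rpow_add hη,
      ← Real.rpow_add hη, ← Real.rpow_add hη, ← Real.rpow_zero η]
    congr 1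
    push_cast
    ring
  have h2 : η ^ (2 * (c + g - W - μ)) ≤ (η ^ κ) ^ 2 := by
    rw [← Real.rpow_natCast, ← Real.rpow_mul hη.le]
    exact Real.rpow_le_rpow_of_exponent_ge hη hη1 (by push_cast; linarith)
  have h3 := mul_le_mul_of_nonneg_left h
    (show 0 ≤ C₄ * C₅ * η ^ (2 * (c + g - W - μ)) by positivity)
  have h6 := mul_le_mul_of_nonneg_left h2 (show 0 ≤ C₄ * C₅ * s ^ 2 by positivity)
  have h7 : C₄ * C₅ * η ^ (2 * (c + g - W - μ)) *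
      (α ^ 2 * (C₄⁻¹ * η ^ (-(2 * (c + g)))) * (C₅⁻¹ * η ^ (2 * W))) = β ^ 2 *
      ((η ^ μ) ^ 2 * η ^ (-(2 * (c + g))) * η ^ (2 * W) * η ^ (2 * (c + g - W - μ))) := by
    rw [hα]; field_simp
  rw [h7, h1] at h3
  linarith

/-- the estimate for one arc -/
theorem q_one [NeZero n] (G : WS R K n) (π : Proj R n) (A : An π (G.ρ π.y)) (a : WArc R n) {c₀ : ℝ}
    (hc : 0 ≤ c₀) (ha : a.Good π G c₀) (j : ℕ → ℕ) (F : ℕ → ℂ → R) (hA : ∀ l, AFam (F l))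
    (x : ℕ → RK R) (hx : ∀ l, x l ∈ a.lev π (j l)) (hF : ∀ l, Rp (x l) (F l))
    (ξ : ℂ → R →ₗ[ℂ] ℂ) (hξ : ∀ u, (a.ξ (1 ⊗ₜ u)).Rep fun t => ξ t u) {L N : ℕ} (D : ℕ) {c : ℝ}
    (M : ℝ) (V : Submodule ℂ R) [FiniteDimensional ℂ V] (hN : 0 < N) (hj : ∀ l < L, j l ∣ N)
    (hc' : c₀ < c) : ∀ᶠ δ in 𝓝[>] (0 : ℝ), ∃ κ C : ℝ, 0 < κ ∧ 0 < C ∧
      ∀ t : ℂ, δ ≤ ‖t‖ → ‖t‖ ≤ 2 * δ → ∀ ε : ℝ, 0 < ε → ε ≤ 1 → ∀ h ∈ V,
        ENNReal.ofReal (‖ξ t h‖ ^ 2) ≤ ENNReal.ofReal (C * ε ^ κ) *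
          ∫⁻ p, ENNReal.ofReal (‖p.1 h‖ ^ 2 *
            rs π j (fun l => F l t) L N D ε p.1 ^ (-(c / N)) * dens G π M p.1) ∂A.S.μ := by
  obtain ⟨k, z, hz⟩ := QOne_gen (R := R)
  choose S hS using fun i => exists_rp (a.s π i)
  obtain ⟨d, v, l, hv⟩ := QOne_basis V
  have hc0 : 0 ≤ c := hc.trans hc'.le
  have hl : (1 : ℝ) ≤ a.l := by exact_mod_cast Nat.one_le_iff_ne_zero.2 (QOne_l ha.col)
  obtain ⟨κ, hκ, hκ1, hκ2⟩ : ∃ κ : ℝ, 0 < κ ∧ κ ≤ 1 / a.l ∧ κ ≤ c - c₀ :=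
    ⟨min (1 / a.l) (c - c₀), lt_min (by positivity) (sub_pos.2 hc'), min_le_left _ _,
      min_le_right _ _⟩
  have hκ3 : κ ≤ 1 := hκ1.trans ((div_le_one (by positivity)).2 hl)
  have hκ4 : κ ≤ c + a.g - (∑ i, a.w i : ℕ) - a.mu := by linarith [ha.bd]
  have e1 := Ann.all (fun i => norm_le_wt G π A V (l i) j F hA L N D hc0 M)
    fun i C C' _ _ t hC _ _ H ε h1 h2 h hh => (H ε h1 h2 h hh).trans (by gcongr)
  have e2 := Ann.all (fun i => Ann.rep (hξ (v i))) fun i C C' _ _ t hC _ _ H => H.trans hC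
  have e3 := Ann.all (fun i => taylor_le G hz hS ha (hξ (v i)))
    fun i C C' ρ ρ' t hC _ hρ H η h1 h2 p hp => by
      have h3 := H η h1 h2 p ⟨hp.1.trans hρ, hp.2⟩
      split_ifs at h3 ⊢ <;> exact h3.trans (by gcongr)
  filter_upwards [e1, e2, e3, wt_ge G hz hS ha j F x hx hF D hN hj hc0 M, reg_vol (z := z) hS]
    with δ ⟨C₁, _, h1, _, _, H1⟩ ⟨C₂, _, h2, _, _, H2⟩ ⟨C₃, ρ₃, h3, hρ₃, _, H3⟩ ⟨ρ₄, hρ₄, H4⟩ H5
  obtain ⟨C₅, η₀, h5, hη₀, -, H5⟩ := H5 _ (lt_min hρ₃ hρ₄)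
  obtain ⟨C₄, h4, H4⟩ := H4 C₅
  have hN' : (0 : ℝ) < N := by exact_mod_cast hN
  obtain ⟨C, hC⟩ : ∃ C : ℝ, C = d * √C₁ * C₂ / η₀ ^ κ + 8 / 3 * (d * √C₁ * C₃ + √(C₄ * C₅)) :=
    ⟨_, rfl⟩
  refine ⟨κ / N, C ^ 2, by positivity, by rw [hC]; positivity, fun t t1 t2 ε hε hε1 h hh => ?_⟩
  obtain ⟨η, hη, hη1, rfl⟩ : ∃ η : ℝ, 0 < η ∧ η ≤ 1 ∧ ε = η ^ (2 * N) :=
    ⟨ε ^ ((2 * N : ℕ) : ℝ)⁻¹, by positivity, Real.rpow_le_one hε.le hε1 (by positivity),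
      (Real.rpow_inv_natCast_pow hε.le (by omega)).symm⟩
  have hm := QOne_meas G π A.Δ j (fun l => F l t) L N D (η ^ (2 * N)) (-(c / N)) M h
  have G1 := fun i => H1 t t1 t2 i _ hε hε1 h hh
  have G6 := fun Q hQ f => A.lint_ge hm (Q := Q) hQ (f := f)
  generalize (∫⁻ p, ENNReal.ofReal (‖p.1 h‖ ^ 2 * rs π j (fun l => F l t) L N D (η ^ (2 * N)) p.1 ^
    (-(c / N)) * dens G π M p.1) ∂A.S.μ) = I at G1 G6 ⊢
  have hC0 : 0 < C ^ 2 * (η ^ (2 * N)) ^ (κ / N) := by rw [hC]; positivity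
  rcases eq_or_ne I ⊤ with rfl | hI
  · rw [ENNReal.mul_top (ENNReal.ofReal_pos.2 hC0).ne']; exact le_top
  obtain ⟨s, hs, rfl⟩ : ∃ s : ℝ, 0 ≤ s ∧ I = ENNReal.ofReal (s ^ 2) :=
    ⟨√I.toReal, Real.sqrt_nonneg _, by
      rw [Real.sq_sqrt ENNReal.toReal_nonneg, ENNReal.ofReal_toReal hI]⟩
  have G2 : ∀ i, ‖l i h‖ ≤ √C₁ * s := fun i => QOne_sq h1.le hs ((QOne_real h1.le).1 (G1 i))
  have hk : 0 < η ^ κ := by positivity
  have G3 : ‖ξ t h‖ ≤ C * (η ^ κ * s) := by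
    have p1 : (0 : ℝ) ≤ d * √C₁ * C₂ / η₀ ^ κ * (η ^ κ * s) := by positivity
    have p2 : (0 : ℝ) ≤ d * √C₁ * C₃ * (η ^ κ * s) := by positivity
    have p3 : (0 : ℝ) ≤ √(C₄ * C₅) * (η ^ κ * s) := by positivity
    rw [hC]
    rcases le_total η₀ η with h6 | h6
    · have h7 := QOne_lin (hv h hh) (ξ t) G2 (H2 t t1 t2)
      have h8 : η₀ ^ κ * s ≤ η ^ κ * s := by gcongr
      have h9 := mul_le_mul_of_nonneg_left h8 (show 0 ≤ d * √C₁ * C₂ / η₀ ^ κ by positivity)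
      rw [← mul_assoc, div_mul_cancel₀ _ (by positivity)] at h9
      linarith
    obtain ⟨b, hb, G4⟩ := QOne_low (hv h hh) (ξ t) hη hη1 G2 (by positivity) h3.le hκ3 hκ1
      (ρ := min ρ₃ ρ₄) fun i p hp => H3 t t1 t2 i η hη hη1 p ⟨hp.1.trans (min_le_left _ _), hp.2⟩
    obtain ⟨Q, hQ, q1, q2⟩ := H5 t t1 t2 η hη h6 b hb
    obtain ⟨β, hβ⟩ : ∃ β, β = 3 / 8 * ‖ξ t h‖ - d * (√C₁ * s) * C₃ * η ^ κ := ⟨_, rfl⟩
    rw [← hβ] at G4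
    suffices β ≤ √(C₄ * C₅) * (η ^ κ * s) by linarith
    rcases le_total β 0 with h7 | h7
    · exact h7.trans p3
    have G5 := G6 Q hQ (fun _ => ENNReal.ofReal ((β * η ^ a.mu) ^ 2 *
        (C₄⁻¹ * η ^ (-(2 * (c + a.g)))))) fun y hy hΔ => by
      obtain ⟨q3, p, hp, rfl, q4⟩ := q2 y hy
      refine ⟨⟨p, hΔ⟩, rfl, ENNReal.ofReal_le_ofReal ?_⟩
      rw [mul_assoc]
      exact mul_le_mul (pow_le_pow_left₀ (by positivity) (G4 p hp q4) 2)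
        (H4 t t1 t2 η hη hη1 p ⟨hp.1.trans (min_le_right _ _), hp.2⟩ q3 (A.g_ne ⟨p, hΔ⟩))
        (by positivity) (by positivity)
    rw [setLIntegral_const] at G5
    have G7 := (mul_le_mul_right q1 _).trans G5
    rw [← ENNReal.ofReal_mul (by positivity), ENNReal.ofReal_le_ofReal_iff (by positivity)] at G7
    exact QOne_num hη hη1 h4 h5 hs hκ4 rfl G7
  rw [QOne_real hC0.le, ← Real.rpow_natCast η, ← Real.rpow_mul hη.le,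
    show ((2 * N : ℕ) : ℝ) * (κ / N) = κ * (2 : ℕ) by push_cast; field_simp,
    Real.rpow_mul hη.le, Real.rpow_natCast, ← mul_pow, ← mul_pow, mul_assoc]
  exact pow_le_pow_left₀ (norm_nonneg _) G3 2

end Vale.Agent.P282
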