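import Vale.Agent.P282.QAnn
import Vale.Agent.P282.QCol

set_option linter.unusedSectionVars false

open scoped ENNReal TensorProduct Topology
open Filter MeasureTheory

noncomputable section

namespace Vale.Agent.P282

variable {R K : Type} [CommRing R] [IsDomain R] [Algebra ℂ R] [Algebra.FiniteType ℂ R]
  [IsIntegrallyClosed R] [Field K] [Algebra R K] [IsFractionRing R K] [Algebra ℂ K]
  [IsScalarTower ℂ R K] {n : ℕ}

variable [NeZero n] {π : Proj R n} {a : WArc R n} {k : ℕ} {z : Fin k → R} {S : Fin n → ℂ → R}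


omit [IsDomain R] [Algebra.FiniteType ℂ R] [IsIntegrallyClosed R]

theorem QSm_and {P Q W : ℝ → ℝ → ℂ → Prop} (hP : Ann P) (hQ : Ann Q)
    (h : ∀ C ρ C' ρ' : ℝ, 0 < C → 0 < ρ → ρ ≤ 1 → 0 < C' → 0 < ρ' → ρ' ≤ 1 →
      ∃ D σ : ℝ, 0 < D ∧ 0 < σ ∧ σ ≤ 1 ∧ ∀ t, P C ρ t → Q C' ρ' t → W D σ t) : Ann W := by
  filter_upwards [hP, hQ] with δ ⟨C, ρ, h1, h2, h3, h4⟩ ⟨C', ρ', h5, h6, h7, h8⟩
  obtain ⟨D, σ, a1, a2, a3, a4⟩ := h C ρ C' ρ' h1 h2 h3 h5 h6 h7
  exact ⟨D, σ, a1, a2, a3, fun t b1 b2 => a4 t (h4 t b1 b2) (h8 t b1 b2)⟩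

theorem QSm_root {X C ε : ℝ} {k : ℕ} (hC : 0 < C) (hε : 0 < ε)
    (h : X ^ (k + 1) ≤ ∑ i : Fin (k + 1), C * ε ^ ((i : ℕ) + 1) * X ^ (k - (i : ℕ))) :
    X ≤ ((k + 1) * C + 1) * ε := by
  by_contra hX
  rw [not_le] at hX
  have hk : 0 < ((k : ℝ) + 1) * C := by positivity
  set D := ((k : ℝ) + 1) * C + 1 with hD
  have D1 : 1 ≤ D := by linarith
  have X0 : 0 < X := lt_trans (by positivity) hX
  have b : ∀ i : Fin (k + 1), D * (C * ε ^ ((i : ℕ) + 1) * X ^ (k - (i : ℕ))) ≤ C * X ^ (k + 1) :=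
    fun i => by
      have e : X ^ (k + 1) = X ^ ((i : ℕ) + 1) * X ^ (k - (i : ℕ)) := by
        rw [← pow_add]
        congr 1
        omega
      have c1 : D * ε ^ ((i : ℕ) + 1) ≤ X ^ ((i : ℕ) + 1) :=
        calc D * ε ^ ((i : ℕ) + 1) ≤ D ^ ((i : ℕ) + 1) * ε ^ ((i : ℕ) + 1) :=
              mul_le_mul_of_nonneg_right (le_self_pow₀ D1 (by omega)) (by positivity)
          _ = (D * ε) ^ ((i : ℕ) + 1) := (mul_pow _ _ _).symm
          _ ≤ _ := pow_le_pow_left₀ (by positivity) hX.le _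
      have c2 := mul_le_mul_of_nonneg_right c1 (show 0 ≤ C * X ^ (k - (i : ℕ)) by positivity)
      rw [e]
      linarith
  have s := Finset.sum_le_sum fun i (_ : i ∈ Finset.univ) => b i
  rw [← Finset.mul_sum, Finset.sum_const, Finset.card_univ, Fintype.card_fin, nsmul_eq_mul] at s
  have c3 := mul_le_mul_of_nonneg_left h (show 0 ≤ D by linarith)
  have c4 : 0 < X ^ (k + 1) := by positivity
  push_cast at s
  rw [hD] at c3 s
  nlinarith

theorem QSm_dst (z : Fin k → R) (p q : Pt R) : 0 ≤ dst z p q :=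
  Finset.sum_nonneg fun _ _ => norm_nonneg _

theorem QSm_reg {t : ℂ} {η ρ ρ' : ℝ} {p : Pt R} (h : p ∈ Reg a z S t η ρ) (hρ : ρ ≤ ρ') :
    p ∈ Reg a z S t η ρ' := ⟨h.1.trans hρ, h.2⟩

theorem QSm_congr {F G : ℂ → R} {j : ℕ} (h : Sm a z S F j) (e : G =ᶠ[𝓝[≠] 0] F) :
    Sm a z S G j :=
  QSm_and h (Ann.of_ev e) fun C ρ _ _ h1 h2 h3 _ _ _ =>
    ⟨C, ρ, h1, h2, h3, fun t a1 a2 => by rw [a2]; exact a1⟩

theorem QSm_zero (j : ℕ) : Sm a z S (fun _ => 0) j :=
  .of_forall fun _ => ⟨1, 1, one_pos, one_pos, le_rfl, fun t _ _ η h _ p _ => by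
    rw [map_zero, norm_zero]
    positivity⟩

theorem QSm_add {F G : ℂ → R} {j : ℕ} (h : Sm a z S F j) (h' : Sm a z S G j) :
    Sm a z S (fun t => F t + G t) j :=
  QSm_and h h' fun C ρ C' ρ' h1 h2 h3 h4 h5 _ =>
    ⟨C + C', min ρ ρ', add_pos h1 h4, lt_min h2 h5, (min_le_left _ _).trans h3,
      fun t a1 a2 η b1 b2 p hp => by
        rw [map_add, add_mul]
        exact (norm_add_le _ _).trans (add_le_add (a1 η b1 b2 p (QSm_reg hp (min_le_left _ _)))
          (a2 η b1 b2 p (QSm_reg hp (min_le_right _ _))))⟩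

theorem QSm_mul (hz : Algebra.adjoin ℂ (Set.range z) = ⊤) {c : RK R} {F G : ℂ → R} {j : ℕ}
    (hG : Rp c G) (h : Sm a z S F j) : Sm a z S (fun t => G t * F t) j :=
  QSm_and (bd_rp a.toArc hz hG) h fun C _ C' ρ' h1 _ _ h4 h5 h6 =>
    ⟨C * C', ρ', mul_pos h1 h4, h5, h6, fun t a1 a2 η b1 b2 p hp => by
      rw [map_mul, norm_mul, mul_assoc]
      exact mul_le_mul (a1 p (hp.1.trans h6)) (a2 η b1 b2 p hp) (norm_nonneg _) h1.le⟩

theorem sm_dst (hz : Algebra.adjoin ℂ (Set.range z) = ⊤) (hS : ∀ i, Rp (a.s π i) (S i))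
    (h : a.Col π) : Ann fun C ρ t => ∀ η : ℝ, 0 < η → η ≤ 1 → ∀ p ∈ Reg a z S t η ρ,
      dst z p (a.γ t) ^ a.l ≤ C * η := by
  have m1 : ∀ f : Fin a.l → Fin k, ∏ i, a.toArc.yq (z (f i)) ∈
      Ideal.span (Set.range (a.s π)) ⊔ a.toArc.m ^ (a.l + 1) := fun f => by
    refine h.pow _ ?_
    have := Ideal.prod_mem_prod (s := Finset.univ) (I := fun _ : Fin a.l => a.toArc.m)
      fun i _ => a.toArc.yq_mem (z (f i))
    rwa [Finset.prod_const, Finset.card_univ, Fintype.card_fin] at this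
  have b := Ann.all (fun f : Fin a.l → Fin k => bd_mem a.toArc hz hS _
    (Rp.prod Finset.univ fun i _ => Rp.yq a.toArc (z (f i))) (m1 f))
    fun f C C' _ _ t h1 _ _ h2 p hp => (h2 p hp).trans (mul_le_mul_of_nonneg_right h1
      (add_nonneg (Finset.sum_nonneg fun _ _ => norm_nonneg _) (pow_nonneg (QSm_dst _ _ _) _)))
  refine QSm_and b b fun C _ _ _ hC _ _ _ _ _ => ?_
  set M : ℝ := (Fintype.card (Fin a.l → Fin k) : ℝ) with hM
  have M0 : 0 ≤ M * C := by positivity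
  refine ⟨2 * (M * C) * n + 1, 1 / (2 * (M * C) + 1), by positivity, by positivity,
    (div_le_one (by positivity)).2 (by linarith), fun t H _ η h0 h1 p hp => ?_⟩
  have d0 := QSm_dst z p (a.γ t)
  have d1 : dst z p (a.γ t) * (2 * (M * C) + 1) ≤ 1 := (le_div_iff₀ (by positivity)).1 hp.1
  have s1 : ∑ i, ‖p (S i t)‖ ≤ n * η := by
    have := Finset.sum_le_sum fun i (_ : i ∈ Finset.univ) =>
      (hp.2 i).trans (pow_le_of_le_one h0.le h1 (a.w_pos i).ne')
    simpa using this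
  have s2 : dst z p (a.γ t) ^ a.l ≤ M * (C * (n * η + dst z p (a.γ t) ^ (a.l + 1))) := by
    conv_lhs => rw [dst, Fintype.sum_pow]
    rw [hM, ← nsmul_eq_mul, ← Finset.card_univ, ← Finset.sum_const]
    refine Finset.sum_le_sum fun f _ => ?_
    have := H f p (by nlinarith)
    simp only [map_prod, map_sub, AlgHomClass.commutes, norm_prod, Algebra.algebraMap_self,
      RingHom.id_apply] at this
    exact this.trans (mul_le_mul_of_nonneg_left (add_le_add_left s1 _) hC.le)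
  have d2 : 0 ≤ dst z p (a.γ t) ^ a.l := pow_nonneg d0 _
  have d3 := mul_le_mul_of_nonneg_left d1 d2
  have d4 := mul_nonneg d2 d0
  rw [pow_succ] at s2
  nlinarith

theorem sm_lev (hz : Algebra.adjoin ℂ (Set.range z) = ⊤) (hS : ∀ i, Rp (a.s π i) (S i))
    (h : a.Col π) {j : ℕ} {x : RK R} (hx : x ∈ a.lev π j) {F : ℂ → R} (hF : Rp x F) :
    Sm a z S F j := by
  classical
  obtain ⟨y, hy, w, hw, rfl⟩ := Submodule.mem_sup.1 (a.lev_le π j (a.l * j) hx)
  obtain ⟨T, hT, hy⟩ := Submodule.mem_span_finite_of_mem_span hy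
  choose α h1 h2 using fun g : T => hT g.2
  have hg : ∀ g : T, Rp g.1 fun t => ∏ i, S i t ^ α g i := fun g => by
    rw [h2 g]
    exact Rp.prod _ fun i _ => (hS i).pow _
  have b := bd_mem a.toArc hz hg (a.l * j) hF
    (Submodule.add_mem_sup (by rwa [Subtype.range_coe]) hw)
  refine QSm_and b (sm_dst hz hS h) fun C _ C' ρ c1 _ _ c2 c3 c4 =>
    ⟨C * (Fintype.card T + C' ^ j), ρ, by positivity, c3, c4, fun t H H' η h0 h3 p hp => ?_⟩
  refine (H p (hp.1.trans c4)).trans ?_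
  rw [mul_assoc, add_mul, ← mul_pow, pow_mul]
  refine mul_le_mul_of_nonneg_left (add_le_add ?_
    (pow_le_pow_left₀ (pow_nonneg (QSm_dst _ _ _) _) (H' η h0 h3 p hp) j)) c1.le
  rw [← nsmul_eq_mul, ← Finset.card_univ, ← Finset.sum_const]
  refine Finset.sum_le_sum fun g _ => ?_
  simp only [map_prod, map_pow, norm_prod, norm_pow]
  calc ∏ i, ‖p (S i t)‖ ^ α g i ≤ ∏ i, (η ^ a.w i) ^ α g i :=
        Finset.prod_le_prod (fun i _ => by positivity)
          fun i _ => pow_le_pow_left₀ (norm_nonneg _) (hp.2 i) _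
    _ = η ^ ∑ i, a.w i * α g i := by simp only [← pow_mul, Finset.prod_pow_eq_pow_sum]
    _ ≤ η ^ j := pow_le_pow_of_le_one h0.le h3 (h1 g)

theorem sm_IC (hz : Algebra.adjoin ℂ (Set.range z) = ⊤) (hS : ∀ i, Rp (a.s π i) (S i))
    (h : a.Col π) {j : ℕ} {x : RK R} (hx : x ∈ Ideal.span {x | a.IC π x j}) {F : ℂ → R}
    (hF : Rp x F) : Sm a z S F j := by
  induction hx using Submodule.span_induction generalizing F with
  | mem x hx =>
    obtain ⟨r, e, h1, h2⟩ := hx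
    choose E hE using fun i => exists_rp (e i)
    have b := Ann.all (fun i => sm_lev hz hS h (h1 i) (hE i))
      fun i C C' _ _ t c1 _ c2 H η h0 h3 p hp => (H η h0 h3 p (QSm_reg hp c2)).trans
        (mul_le_mul_of_nonneg_right c1 (pow_nonneg h0.le _))
    have q := hF.pow (r + 1)
    rw [h2] at q
    have u := q.unique (Rp.sum Finset.univ fun i _ => (hE i).mul (hF.pow (r - (i : ℕ))))
    refine QSm_and b (Ann.of_ev u) fun C ρ _ _ c1 c2 c3 _ _ _ =>
      ⟨(r + 1) * C + 1, ρ, by positivity, c2, c3, fun t H H' η h0 h3 p hp => ?_⟩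
    refine QSm_root c1 (pow_pos h0 j) ?_
    beta_reduce at H'
    rw [← norm_pow, ← map_pow, H', map_sum]
    refine (norm_sum_le _ _).trans (Finset.sum_le_sum fun i _ => ?_)
    rw [map_mul, map_pow, norm_mul, norm_pow, ← pow_mul, mul_comm j]
    exact mul_le_mul_of_nonneg_right (H i η h0 h3 p hp) (by positivity)
  | zero => exact QSm_congr (QSm_zero j) (hF.unique QBas_rp_zero)
  | add x y _ _ hx hy =>
    obtain ⟨X, hX⟩ := exists_rp x
    obtain ⟨Y, hY⟩ := exists_rp y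
    exact QSm_congr (QSm_add (hx hX) (hy hY)) (hF.unique (hX.add hY))
  | smul c x _ hx =>
    obtain ⟨X, hX⟩ := exists_rp x
    obtain ⟨G, hG⟩ := exists_rp c
    exact QSm_congr (QSm_mul hz hG (hx hX)) (hF.unique (hG.mul hX))

end Vale.Agent.P282
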