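import Vale.Agent.P282.SDefs

set_option linter.unusedSectionVars false

open scoped ENNReal TensorProduct Topology
open Filter MeasureTheory

noncomputable section

namespace Vale.Agent.P282

variable {R K : Type} [CommRing R] [IsDomain R] [Algebra ℂ R] [Algebra.FiniteType ℂ R]
  [IsIntegrallyClosed R] [Field K] [Algebra R K] [IsFractionRing R K] [Algebra ℂ K]
  [IsScalarTower ℂ R K] {n : ℕ}

theorem one_le_gr (z : E n) : 1 ≤ gr z := SAn0_one_le z

theorem SGr_pos (z : E n) : 0 < gr z := lt_of_lt_of_le one_pos (one_le_gr z)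

theorem gr_cont : Continuous (gr : E n → ℝ) := by
  unfold gr
  fun_prop

theorem SGr_norm (z : E n) : 1 + ‖z‖ ^ 2 ≤ gr z := by
  have h0 : 0 ≤ ∑ i, ‖z i‖ ^ 2 := Finset.sum_nonneg fun i _ => sq_nonneg _
  have h1 : ‖z‖ ≤ √(∑ i, ‖z i‖ ^ 2) := by
    refine (pi_norm_le_iff_of_nonneg (Real.sqrt_nonneg _)).2 fun i => ?_
    exact Real.le_sqrt_of_sq_le
      (Finset.single_le_sum (f := fun i => ‖z i‖ ^ 2) (fun j _ => sq_nonneg _) (Finset.mem_univ i))
  have h2 := pow_le_pow_left₀ (norm_nonneg _) h1 2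
  rw [Real.sq_sqrt h0] at h2
  unfold gr
  linarith

theorem SGr_meas (s : ℝ) : Measurable fun z : E n => ENNReal.ofReal (gr z ^ s) :=
  (gr_cont.measurable.pow_const s).ennreal_ofReal

theorem gr_int {s : ℝ} (hs : (n : ℝ) < s) : ∫⁻ z : E n, ENNReal.ofReal (gr z ^ (-s)) ≠ ⊤ := by
  have hr : (Module.finrank ℝ (E n) : ℝ) < 2 * s := by
    have : Module.finrank ℝ (E n) = n * 2 := by
      simp [Module.finrank_pi_fintype, Complex.finrank_real_complex]
    rw [this]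
    push_cast
    linarith
  have h1 := (integrable_rpow_neg_one_add_norm_sq (μ := (volume : Measure (E n))) hr).lintegral_lt_top
  refine ne_of_lt (lt_of_le_of_lt (lintegral_mono fun z => ENNReal.ofReal_le_ofReal ?_) h1)
  have e : -(2 * s) / 2 = -s := by ring
  rw [e]
  have h0 : (0 : ℝ) ≤ n := Nat.cast_nonneg n
  exact Real.rpow_le_rpow_of_nonpos (by positivity) (SGr_norm z) (by linarith)

omit [IsIntegrallyClosed R] in
theorem Proj.at_cont (π : Proj R n) : Continuous π.at :=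
  continuous_pi fun i => Pt.cont (π.y i)

theorem dens_nonneg (G : WS R K n) (π : Proj R n) (M : ℝ) (p : Pt R) : 0 ≤ dens G π M p :=
  mul_nonneg (Real.rpow_nonneg (sq_nonneg _) _) (Real.rpow_nonneg (SGr_pos _).le _)

theorem dens_meas (G : WS R K n) (π : Proj R n) (M : ℝ) : Measurable (dens G π M) :=
  (((Pt.cont _).norm.pow 2).measurable.pow_const _).mul
    ((gr_cont.comp π.at_cont).measurable.pow_const _)

theorem dens_add (G : WS R K n) (π : Proj R n) (M s : ℝ) (p : Pt R) :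
    dens G π (M + s) p = dens G π M p * gr (π.at p) ^ (-s) := by
  rw [dens, dens, neg_add, Real.rpow_add (SGr_pos _), mul_assoc]

theorem dens_anti (G : WS R K n) (π : Proj R n) {M M' : ℝ} (h : M ≤ M') (p : Pt R) :
    dens G π M' p ≤ dens G π M p :=
  mul_le_mul_of_nonneg_left (Real.rpow_le_rpow_of_exponent_le (one_le_gr _) (neg_le_neg h))
    (Real.rpow_nonneg (sq_nonneg _) _)

/-- the density is bounded below -/
theorem dens_ge (G : WS R K n) (π : Proj R n) : ∃ C s : ℝ, 0 < C ∧ ∀ (M : ℝ) (p : Pt R),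
    p (G.ρ π.y) ≠ 0 → gr (π.at p) ^ (-(M + s)) ≤ C * dens G π M p := by
  obtain ⟨C, D, hC, h⟩ := π.growth (G.ρ π.y)
  have hm : (0 : ℝ) < 1 / G.ω.m := by have := G.ω.m_pos; positivity
  refine ⟨C ^ (1 / G.ω.m : ℝ), D * (1 / G.ω.m), by positivity, fun M p hp => ?_⟩
  have hg := SGr_pos (π.at p)
  have h1 : 0 < ‖p (G.ρ π.y)‖ ^ 2 := by positivity
  have h2 := Real.rpow_le_rpow_of_nonpos h1 (h p) (neg_nonpos.2 hm.le)
  rw [Real.mul_rpow hC.le (by positivity), ← Real.rpow_natCast, ← Real.rpow_mul hg.le] at h2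
  have h3 : C ^ (1 / G.ω.m : ℝ) * C ^ (-(1 / G.ω.m : ℝ)) = 1 := by
    rw [← Real.rpow_add hC, add_neg_cancel, Real.rpow_zero]
  have h4 : gr (π.at p) ^ (-(M + D * (1 / G.ω.m : ℝ))) =
      C ^ (1 / G.ω.m : ℝ) * (C ^ (-(1 / G.ω.m : ℝ)) * gr (π.at p) ^ ((D : ℝ) * -(1 / G.ω.m : ℝ)) *
        gr (π.at p) ^ (-M)) := by
    rw [← mul_assoc, ← mul_assoc, h3, one_mul, ← Real.rpow_add hg]
    congr 1
    ring
  rw [h4, dens]
  gcongr

theorem exp_Phi (G : WS R K n) (π : Proj R n) (j : ℕ → ℕ) (F : ℕ → ℂ → R) (L N D : ℕ) {ε : ℝ}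
    (hε : 0 < ε) (c M : ℝ) {p : Pt R} (hp : p (G.ρ π.y) ≠ 0) (t : ℂ) :
    Real.exp (-Phi G π j F L N D ε c M p t) =
      rs π j (fun l => F l t) L N D ε p ^ (-(c / N)) * dens G π M p := by
  have hg := SGr_pos (π.at p)
  have h1 : 0 < ‖p (G.ρ π.y)‖ ^ 2 := by positivity
  have h2 : 0 < rs π j (fun l => F l t) L N D ε p := by
    unfold rs
    positivity
  rw [dens, Real.rpow_def_of_pos h2, Real.rpow_def_of_pos h1, Real.rpow_def_of_pos hg,
    ← Real.exp_add, ← Real.exp_add, Phi]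
  congr 1
  ring

namespace An

variable {π : Proj R n} {g : R} (A : An π g)

theorem SGr_cont : Continuous fun p : π.W A.Δ => gr (π.at p.1) :=
  gr_cont.comp (π.at_cont.comp continuous_subtype_val)

theorem SGr_meas (s : ℝ) : Measurable fun p : π.W A.Δ => ENNReal.ofReal (gr (π.at p.1) ^ s) :=
  (A.SGr_cont.measurable.pow_const s).ennreal_ofReal

theorem nu0_fin : IsFiniteMeasure A.nu0 := by
  refine isFiniteMeasure_withDensity (ne_top_of_le_ne_top ?_ (A.lint_le (P282.SGr_meas _)))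
  have h0 : (0 : ℝ) ≤ n := Nat.cast_nonneg n
  exact ENNReal.mul_ne_top (ENNReal.natCast_ne_top _) (gr_int (by linarith))

theorem nu0_le : A.nu0 ≤ A.S.μ := by
  conv_rhs => rw [← withDensity_one (μ := A.S.μ)]
  refine withDensity_mono (ae_of_all _ fun p => ?_)
  have h0 : (0 : ℝ) ≤ n := Nat.cast_nonneg n
  exact ENNReal.ofReal_le_one.2 (Real.rpow_le_one_of_one_le_of_nonpos (one_le_gr _) (by linarith))

theorem lint_nu0 {F : π.W A.Δ → ℝ} (hF : Measurable F) :
    ∫⁻ p, ENNReal.ofReal (F p * gr (π.at p.1) ^ (2 * n + 1 : ℝ)) ∂A.nu0 =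
      ∫⁻ p, ENNReal.ofReal (F p) ∂A.S.μ := by
  have hm : Measurable fun p : π.W A.Δ =>
      ENNReal.ofReal (F p * gr (π.at p.1) ^ (2 * n + 1 : ℝ)) :=
    (hF.mul (A.SGr_cont.measurable.pow_const _)).ennreal_ofReal
  rw [nu0, lintegral_withDensity_eq_lintegral_mul _ (A.SGr_meas _) hm]
  refine lintegral_congr fun p => ?_
  have hg := SGr_pos (π.at p.1)
  rw [Pi.mul_apply, ← ENNReal.ofReal_mul (Real.rpow_nonneg hg.le _), mul_left_comm,
    ← Real.rpow_add hg, neg_add_cancel, Real.rpow_zero, mul_one]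

theorem tail_gr : ∃ C : ℝ, ∀ s : ℝ,
    A.nu0 {p | Real.exp s ≤ gr (π.at p.1)} ≤ ENNReal.ofReal (C * Real.exp (-s)) := by
  have h1 : ∫⁻ z : E n, ENNReal.ofReal (gr z ^ (-(2 * n : ℝ))) ≠ ⊤ := by
    rcases Nat.eq_zero_or_pos n with rfl | hn
    · have e : ∀ z : E 0, gr z = 1 := fun z => by simp [gr]
      have := gr_int (n := 0) (s := 1) (by simp)
      simpa only [e, Real.one_rpow] using this
    · have : (0 : ℝ) < n := by exact_mod_cast hn
      exact gr_int (by linarith)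
  have h2 : ∫⁻ p, ENNReal.ofReal (gr (π.at p.1)) ∂A.nu0 ≠ ⊤ := by
    have h3 := A.lint_nu0 (F := fun p => gr (π.at p.1) ^ (-(2 * n : ℝ)))
      (A.SGr_cont.measurable.pow_const _)
    have e : ∀ p : π.W A.Δ, gr (π.at p.1) ^ (-(2 * n : ℝ)) * gr (π.at p.1) ^ (2 * n + 1 : ℝ) =
        gr (π.at p.1) := fun p => by
      rw [← Real.rpow_add (SGr_pos _), neg_add_cancel_left, Real.rpow_one]
    simp only [e] at h3
    rw [h3]
    exact ne_top_of_le_ne_top (ENNReal.mul_ne_top (ENNReal.natCast_ne_top _) h1)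
      (A.lint_le (P282.SGr_meas _))
  refine ⟨(∫⁻ p, ENNReal.ofReal (gr (π.at p.1)) ∂A.nu0).toReal, fun s => ?_⟩
  have h4 := mul_meas_ge_le_lintegral (μ := A.nu0) A.SGr_cont.measurable.ennreal_ofReal
    (ENNReal.ofReal (Real.exp s))
  have e : {p : π.W A.Δ | ENNReal.ofReal (Real.exp s) ≤ ENNReal.ofReal (gr (π.at p.1))} =
      {p | Real.exp s ≤ gr (π.at p.1)} := by
    ext p
    exact ENNReal.ofReal_le_ofReal_iff (SGr_pos _).le
  rw [e] at h4
  rw [ENNReal.ofReal_mul ENNReal.toReal_nonneg, ENNReal.ofReal_toReal h2]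
  calc A.nu0 {p | Real.exp s ≤ gr (π.at p.1)}
      = ENNReal.ofReal (Real.exp s) * A.nu0 {p | Real.exp s ≤ gr (π.at p.1)} *
          ENNReal.ofReal (Real.exp (-s)) := by
        rw [mul_right_comm, ← ENNReal.ofReal_mul (Real.exp_pos _).le, ← Real.exp_add,
          add_neg_cancel, Real.exp_zero, ENNReal.ofReal_one, one_mul]
    _ ≤ _ := by gcongr

end An

end Vale.Agent.P282
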