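import Vale.Agent.P282.QSm
import Vale.Agent.P282.SGr

set_option linter.unusedSectionVars false

open scoped ENNReal TensorProduct Topology
open Filter MeasureTheory

noncomputable section

namespace Vale.Agent.P282

variable {R K : Type} [CommRing R] [IsDomain R] [Algebra ℂ R] [Algebra.FiniteType ℂ R]
  [IsIntegrallyClosed R] [Field K] [Algebra R K] [IsFractionRing R K] [Algebra ℂ K]
  [IsScalarTower ℂ R K] {n : ℕ}

variable [NeZero n] {π : Proj R n} {a : WArc R n} {k : ℕ} {z : Fin k → R} {S : Fin n → ℂ → R}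

theorem QWt_mono {t : ℂ} {η ρ ρ' : ℝ} (h : ρ' ≤ ρ) {p : Pt R} (hp : p ∈ Reg a z S t η ρ') :
    p ∈ Reg a z S t η ρ := ⟨hp.1.trans h, hp.2⟩

theorem QWt_term {x C η : ℝ} {j N : ℕ} (hx : 0 ≤ x) (hη : 0 < η) (h : x ≤ C * η ^ j)
    (hj : j ∣ N) : (x ^ 2) ^ (N / j) ≤ max C 1 ^ (2 * N) * η ^ (2 * N) := by
  have h1 : x ≤ max C 1 * η ^ j := h.trans (by gcongr; exact le_max_left _ _)
  have h2 : (x ^ 2) ^ (N / j) ≤ ((max C 1 * η ^ j) ^ 2) ^ (N / j) := by gcongr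
  refine h2.trans ?_
  have e : j * 2 * (N / j) = 2 * N := by rw [mul_comm j, mul_assoc, Nat.mul_div_cancel' hj]
  rw [mul_pow, mul_pow, ← pow_mul, ← pow_mul, ← pow_mul, ← mul_assoc, e]
  refine mul_le_mul_of_nonneg_right (pow_le_pow_right₀ (le_max_right _ _) ?_) (by positivity)
  exact Nat.mul_le_mul_left 2 (Nat.div_le_self _ _)

theorem QWt_rpow {x C η s : ℝ} {k : ℕ} (hx : 0 < x) (hC : 0 < C) (hη : 0 < η) (hs : 0 ≤ s)
    (h : x ≤ C * η ^ k) : C ^ (-s) * η ^ (-(k * s)) ≤ x ^ (-s) := by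
  refine le_trans (le_of_eq ?_) (Real.rpow_le_rpow_of_nonpos hx h (neg_nonpos.2 hs))
  rw [Real.mul_rpow hC.le (by positivity), ← Real.rpow_natCast, ← Real.rpow_mul hη.le, mul_neg]

/-- the weight is large on the regions -/
theorem wt_ge (G : WS R K n) (hz : Algebra.adjoin ℂ (Set.range z) = ⊤)
    (hS : ∀ i, Rp (a.s π i) (S i)) {c₀ : ℝ} (ha : a.Good π G c₀) (j : ℕ → ℕ) (F : ℕ → ℂ → R)
    (x : ℕ → RK R) (hx : ∀ l, x l ∈ a.lev π (j l)) (hF : ∀ l, Rp (x l) (F l)) {L N : ℕ} (D : ℕ)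
    (hN : 0 < N) (hj : ∀ l < L, j l ∣ N) {c : ℝ} (hc : 0 ≤ c) (M : ℝ) :
    ∀ᶠ δ in 𝓝[>] (0 : ℝ), ∃ ρ : ℝ, 0 < ρ ∧ ∀ B : ℝ, ∃ C : ℝ, 0 < C ∧
      ∀ t : ℂ, δ ≤ ‖t‖ → ‖t‖ ≤ 2 * δ → ∀ η : ℝ, 0 < η → η ≤ 1 → ∀ p ∈ Reg a z S t η ρ,
        gr (π.at p) ≤ B → p (G.ρ π.y) ≠ 0 → C⁻¹ * η ^ (-(2 * (c + a.g))) ≤
          rs π j (fun l => F l t) L N D (η ^ (2 * N)) p ^ (-(c / N)) * dens G π M p := by
  have h1 := Ann.all (ι := Fin L) (fun l => sm_lev hz hS ha.col (hx l) (hF l))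
    fun l C C' ρ ρ' t hC _ hρ h η h0 h1 p hp =>
      (h η h0 h1 p (QWt_mono hρ hp)).trans (by gcongr)
  have h2 := sm_IC hz hS ha.col ha.gain (QBas_rp_one_tmul _)
  filter_upwards [h1, h2] with δ ⟨C, ρ, hC, hρ, _, k1⟩ ⟨C', ρ', hC', hρ', _, k2⟩
  refine ⟨min ρ ρ', lt_min hρ hρ', fun B => ?_⟩
  have hB : 0 < max B 1 := lt_max_of_lt_right one_pos
  have hC1 : 0 < L * max C 1 ^ (2 * N) + max B 1 ^ D := by positivity
  refine ⟨((L * max C 1 ^ (2 * N) + max B 1 ^ D) ^ (-(c / N)) *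
    ((C' ^ 2) ^ (-(1 / G.ω.m : ℝ)) * max B 1 ^ (-|M|)))⁻¹, by positivity,
    fun t t1 t2 η h0 h1 p hp hg hne => ?_⟩
  have g1 := one_le_gr (π.at p)
  have g2 : gr (π.at p) ≤ max B 1 := hg.trans (le_max_left _ _)
  have r0 : 0 < rs π j (fun l => F l t) L N D (η ^ (2 * N)) p := by
    unfold rs
    positivity
  have r1 : rs π j (fun l => F l t) L N D (η ^ (2 * N)) p ≤
      (L * max C 1 ^ (2 * N) + max B 1 ^ D) * η ^ (2 * N) := by
    have e := Finset.sum_le_card_nsmul (Finset.range L) (fun l => (‖p (F l t)‖ ^ 2) ^ (N / j l))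
      (max C 1 ^ (2 * N) * η ^ (2 * N)) fun l hl => QWt_term (norm_nonneg _) h0
        (k1 t t1 t2 ⟨l, Finset.mem_range.1 hl⟩ η h0 h1 p (QWt_mono (min_le_left _ _) hp))
        (hj l (Finset.mem_range.1 hl))
    rw [Finset.card_range, nsmul_eq_mul] at e
    have e2 : η ^ (2 * N) * gr (π.at p) ^ D ≤ η ^ (2 * N) * max B 1 ^ D := by gcongr
    unfold rs
    linarith
  have r2 := QWt_rpow r0 hC1 h0 (s := c / N) (by positivity) r1
  have d1 : ‖p (G.ρ π.y)‖ ^ 2 ≤ C' ^ 2 * η ^ (2 * (G.ω.m * a.g)) := by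
    rw [mul_comm 2, pow_mul, ← mul_pow]
    have := k2 t t1 t2 η h0 h1 p (QWt_mono (min_le_right _ _) hp)
    gcongr
  have d2 := QWt_rpow (pow_pos (norm_pos_iff.2 hne) 2) (pow_pos hC' 2) h0
    (s := 1 / G.ω.m) (by positivity) d1
  have d3 : max B 1 ^ (-|M|) ≤ gr (π.at p) ^ (-M) :=
    (Real.rpow_le_rpow_of_nonpos (one_pos.trans_le g1) g2 (neg_nonpos.2 (abs_nonneg M))).trans
      (Real.rpow_le_rpow_of_exponent_le g1 (neg_le_neg (le_abs_self M)))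
  have hm : (G.ω.m : ℝ) ≠ 0 := Nat.cast_ne_zero.2 G.ω.m_pos.ne'
  have hN' : (N : ℝ) ≠ 0 := Nat.cast_ne_zero.2 hN.ne'
  have e1 : -(2 * (c + a.g)) = -((2 * N : ℕ) * (c / N)) +
      -((2 * (G.ω.m * a.g) : ℕ) * (1 / G.ω.m : ℝ)) := by
    push_cast
    field_simp
    ring
  rw [inv_inv, e1, Real.rpow_add h0]
  refine le_trans (le_of_eq ?_) (mul_le_mul r2 (mul_le_mul d2 d3 (by positivity) (by positivity))
    (by positivity) (by positivity))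
  ring

/-- the Taylor expansion on the regions -/
theorem taylor_le (G : WS R K n) (hz : Algebra.adjoin ℂ (Set.range z) = ⊤)
    (hS : ∀ i, Rp (a.s π i) (S i)) {c₀ : ℝ} (ha : a.Good π G c₀) {u : R} {f : ℂ → ℂ}
    (hf : (a.ξ (1 ⊗ₜ u)).Rep f) :
    Ann fun C ρ t => ∀ η : ℝ, 0 < η → η ≤ 1 → ∀ p ∈ Reg a z S t η ρ,
      if a.der then ‖p u - a.γ t u - f t * p (S 0 t)‖ ≤ C * η ^ (a.w 0 + 1)
      else ‖p u - f t‖ ≤ C * η ^ (1 / a.l : ℝ) := by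
  have e0 : ∀ (p : Pt R) (c : ℂ), p (u - algebraMap ℂ R c) = p u - c := fun p c => by
    rw [map_sub, AlgHomClass.commutes]
    rfl
  cases hd : a.der with
  | true =>
    have h1 := ha.dr hd (1 ⊗ₜ u)
    rw [Arc.ev_tmul, one_mul] at h1
    have h2 := sm_lev hz hS ha.col h1 ((Rp.yq a.toArc u).sub ((hS 0).smul hf))
    filter_upwards [h2] with δ ⟨C, ρ, hC, hρ, hρ1, k1⟩
    refine ⟨C, ρ, hC, hρ, hρ1, fun t t1 t2 η h0 h1 p hp => ?_⟩
    have := k1 t t1 t2 η h0 h1 p hp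
    rw [map_sub, e0, map_smul, smul_eq_mul] at this
    exact this
  | false =>
    rw [ha.ev hd, Arc.ev_tmul, one_mul] at hf
    have h1 := Ann.of_ev (hf.unique (a.toArc.hom_rep u))
    have h2 := bd_mem a.toArc hz (ι := Empty) (g := fun _ => 0) (Γ := fun _ _ => 0)
      (fun i => i.elim) 1 (Rp.yq a.toArc u)
      (Ideal.mem_sup_right (by rw [pow_one]; exact a.toArc.yq_mem u))
    have h3 := sm_dst hz hS ha.col
    filter_upwards [h1, h2, h3] with δ ⟨_, _, _, _, _, k1⟩ ⟨C, _, hC, _, _, k2⟩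
      ⟨C', ρ, hC', hρ, hρ1, k3⟩
    refine ⟨C * C' ^ (1 / a.l : ℝ), ρ, by positivity, hρ, hρ1, fun t t1 t2 η h0 h1 p hp => ?_⟩
    have b1 := k2 t t1 t2 p (hp.1.trans hρ1)
    rw [e0, Finset.univ_eq_empty, Finset.sum_empty, zero_add, pow_one] at b1
    have b2 : dst z p (a.γ t) ≤ (C' * η) ^ (1 / a.l : ℝ) := by
      rcases Nat.eq_zero_or_pos a.l with hl | hl
      · rw [hl, Nat.cast_zero, div_zero, Real.rpow_zero]
        exact hp.1.trans hρ1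
      · have d0 : 0 ≤ dst z p (a.γ t) := Finset.sum_nonneg fun _ _ => norm_nonneg _
        rw [one_div, ← Real.pow_rpow_inv_natCast d0 hl.ne']
        exact Real.rpow_le_rpow (by positivity) (k3 t t1 t2 η h0 h1 p hp) (by positivity)
    rw [Real.mul_rpow hC'.le h0.le] at b2
    simp only [Bool.false_eq_true, if_false]
    rw [k1 t t1 t2, mul_assoc]
    exact b1.trans (by gcongr)

end Vale.Agent.P282
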