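import Vale.Agent.P282.SGr
import Vale.Agent.P271.HRS
import Vale.Agent.P271.GTay

set_option linter.unusedSectionVars false

open scoped ENNReal TensorProduct Topology
open Filter MeasureTheory

noncomputable section

namespace Vale.Agent.P282

variable {R K : Type} [CommRing R] [IsDomain R] [Algebra ℂ R] [Algebra.FiniteType ℂ R]
  [IsIntegrallyClosed R] [Field K] [Algebra R K] [IsFractionRing R K] [Algebra ℂ K]
  [IsScalarTower ℂ R K] {n : ℕ}

theorem SA2a_gr {r : ℝ} {w : E n} (hw : ‖w‖ ≤ r) : gr w ≤ (n + 1) * (1 + r) ^ 2 := by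
  have hr : 0 ≤ r := (norm_nonneg _).trans hw
  have h1 : ∑ i, ‖w i‖ ^ 2 ≤ ∑ _i : Fin n, (1 + r) ^ 2 := Finset.sum_le_sum fun i _ =>
    pow_le_pow_left₀ (norm_nonneg _) (by linarith [norm_le_pi_norm w i]) 2
  have h2 : (1 : ℝ) ≤ (1 + r) ^ 2 := by nlinarith
  simp only [Finset.sum_const, Finset.card_univ, Fintype.card_fin, nsmul_eq_mul] at h1
  show 1 + ∑ i, ‖w i‖ ^ 2 ≤ _
  linarith

theorem SA2a_loc {U : Set (E n)} (hU : MeasurableSet U) (T : E n → ℂ) {M : ℝ} {D : ℕ}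
    (hD : M ≤ D) {r : ℝ} {S : Set (E n)} (hS : S ⊆ Metric.closedBall 0 r) :
    ∫⁻ z in S ∩ U, ENNReal.ofReal (‖T z‖ ^ 2) ≤ ENNReal.ofReal (((n + 1) * (1 + r) ^ 2) ^ D) *
      ∫⁻ z in U, ENNReal.ofReal (‖T z‖ ^ 2 * gr z ^ (-M)) := by
  calc _ ≤ ∫⁻ z in Metric.closedBall 0 r ∩ U, ENNReal.ofReal (‖T z‖ ^ 2) :=
        lintegral_mono_set (Set.inter_subset_inter_left _ hS)
    _ ≤ ∫⁻ z in Metric.closedBall 0 r ∩ U, ENNReal.ofReal (((n + 1) * (1 + r) ^ 2) ^ D) *
          ENNReal.ofReal (‖T z‖ ^ 2 * gr z ^ (-M)) := by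
        refine setLIntegral_mono' (measurableSet_closedBall.inter hU) fun z hz => ?_
        rw [← ENNReal.ofReal_mul (by positivity)]
        refine ENNReal.ofReal_le_ofReal ?_
        have h1 := one_le_gr z
        have h2 : gr z ^ M ≤ ((n + 1) * (1 + r) ^ 2) ^ D := by
          refine (Real.rpow_le_rpow_of_exponent_le h1 hD).trans ?_
          rw [Real.rpow_natCast]
          exact pow_le_pow_left₀ (by linarith) (SA2a_gr (mem_closedBall_zero_iff.1 hz.1)) D
        have h3 : 0 < gr z ^ M := Real.rpow_pos_of_pos (by linarith) M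
        rw [Real.rpow_neg (by linarith), mul_left_comm, ← div_eq_mul_inv]
        exact le_mul_of_one_le_right (sq_nonneg _) ((one_le_div h3).2 h2)
    _ ≤ _ := by
        rw [lintegral_const_mul' _ _ ENNReal.ofReal_ne_top]
        exact mul_le_mul_right (lintegral_mono_set Set.inter_subset_right) _

/-- square integrable holomorphic functions off a hypersurface are polynomials -/
theorem l2_poly {Δ : MvPolynomial (Fin n) ℂ} (hΔ : Δ ≠ 0) {T : E n → ℂ}
    (hT : DifferentiableOn ℂ T {z | MvPolynomial.eval z Δ ≠ 0}) {M : ℝ} {D : ℕ} (hD : M ≤ D)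
    (h : ∫⁻ z in {z | MvPolynomial.eval z Δ ≠ 0}, ENNReal.ofReal (‖T z‖ ^ 2 * gr z ^ (-M)) ≠ ⊤) :
    ∃ Q : MvPolynomial (Fin n) ℂ, Q.totalDegree ≤ D ∧
      ∀ z, MvPolynomial.eval z Δ ≠ 0 → T z = MvPolynomial.eval z Q := by
  set U : Set (E n) := {z | MvPolynomial.eval z Δ ≠ 0} with hUd
  have hc : Differentiable ℂ fun z : E n => MvPolynomial.eval z Δ := by
    simp only [MvPolynomial.eval_eq']
    fun_prop
  have hU : MeasurableSet U := (isOpen_ne_fun hc.continuous continuous_const).measurableSet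
  obtain ⟨G, hG, hGT⟩ := Fuj.rs (vol := volume) (V := Set.univ) (F := T) isOpen_univ
    hc.differentiableOn (by rw [Set.univ_inter]; exact hT) (fun K hK _ => by
      obtain ⟨r, hr⟩ := hK.isBounded.subset_closedBall 0
      exact ne_top_of_le_ne_top (ENNReal.mul_ne_top ENNReal.ofReal_ne_top h)
        (SA2a_loc hU T hD hr))
  rw [Set.univ_inter] at hGT
  set I := ∫⁻ z in U, ENNReal.ofReal (‖T z‖ ^ 2 * gr z ^ (-M)) with hI
  set v : ℝ≥0∞ := volume (Metric.ball (0 : E n) 1) with hv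
  have hv0 : v ≠ 0 := (Metric.measure_ball_pos volume _ one_pos).ne'
  have hv1 : v ≠ ⊤ := measure_ball_lt_top.ne
  have hvp : 0 < v.toReal := ENNReal.toReal_pos hv0 hv1
  have hb : ∀ p : E n, ‖G p‖ ≤ Real.sqrt (((n + 1) * 4) ^ D * I.toReal / v.toReal) *
      (1 + ‖p‖) ^ D := by
    intro p
    have h1 := Fuj.mv_ball (vol := volume) isOpen_univ hG (p := p) (r := 1) (Set.subset_univ _)
    have h2 : ∫⁻ z in Metric.ball p 1, ENNReal.ofReal (‖G z‖ ^ 2) =
        ∫⁻ z in Metric.ball p 1 ∩ U, ENNReal.ofReal (‖T z‖ ^ 2) := by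
      have e : (Metric.ball p 1 ∩ U : Set (E n)) =ᵐ[volume] Metric.ball p 1 := by
        filter_upwards [SAn3_poly n Δ hΔ] with z hz
        exact propext ⟨fun h => h.1, fun h => ⟨h, hz⟩⟩
      rw [← setLIntegral_congr e]
      refine setLIntegral_congr_fun (measurableSet_ball.inter hU) fun z hz => ?_
      simp only [hGT hz.2]
    have h3 := SA2a_loc hU T hD (S := Metric.ball p 1) (r := ‖p‖ + 1) (fun z hz => by
      rw [mem_closedBall_zero_iff]
      have := norm_le_norm_add_norm_sub' z p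
      rw [Metric.mem_ball, dist_eq_norm] at hz
      linarith)
    have h4 := ENNReal.toReal_mono (ENNReal.mul_ne_top ENNReal.ofReal_ne_top h)
      ((h1.trans h2.le).trans h3)
    rw [ENNReal.toReal_mul, ENNReal.toReal_mul, ENNReal.toReal_ofReal (sq_nonneg _),
      ENNReal.toReal_ofReal (by positivity)] at h4
    have h5 : (((n : ℝ) + 1) * (1 + (‖p‖ + 1)) ^ 2) ^ D ≤
        ((n + 1) * 4) ^ D * ((1 + ‖p‖) ^ D) ^ 2 := by
      rw [← pow_mul, mul_comm D 2, pow_mul, ← mul_pow]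
      refine pow_le_pow_left₀ (by positivity) ?_ D
      rw [mul_assoc]
      refine mul_le_mul_of_nonneg_left ?_ (by positivity)
      nlinarith [norm_nonneg p]
    refine (sq_le_sq₀ (norm_nonneg _) (by positivity)).1 ?_
    rw [mul_pow, Real.sq_sqrt (by positivity), div_mul_eq_mul_div, le_div_iff₀ hvp]
    refine h4.trans ?_
    rw [mul_right_comm]
    exact mul_le_mul_of_nonneg_right h5 ENNReal.toReal_nonneg
  obtain ⟨Q, hQ, hQe⟩ := Fuj.liouville_poly (differentiableOn_univ.1 hG) hb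
  exact ⟨Q, hQ, fun z hz => (hGT hz).symm.trans (hQe z)⟩

/-- traces -/
theorem An.a2_poly {π : Proj R n} {g : R} (A : An π g) {F : π.W A.Δ → ℂ} (hF : A.S.HolS F)
    {M : ℝ} {D : ℕ} (hD : M ≤ D)
    (h : ∫⁻ p, ENNReal.ofReal (‖F p‖ ^ 2 * gr (π.at p.1) ^ (-M)) ∂A.S.μ ≠ ⊤) :
    ∃ Q : MvPolynomial (Fin n) ℂ, Q.totalDegree ≤ D ∧ ∀ z, MvPolynomial.eval z A.Δ ≠ 0 →
      ∑ p ∈ (A.fib_finite z).toFinset, F p = MvPolynomial.eval z Q := by
  refine l2_poly A.Δ_ne (A.trace_hol hF) hD ?_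
  have hm : Measurable fun p : π.W A.Δ => ENNReal.ofReal (‖F p‖ ^ 2 * gr (π.at p.1) ^ (-M)) := by
    have h1 : Measurable F := hF.smS.measurable
    have h2 : Measurable fun p : π.W A.Δ => gr (π.at p.1) :=
      (gr_cont.comp A.SAn4_cont).measurable
    exact ((h1.norm.pow_const 2).mul (h2.pow_const _)).ennreal_ofReal
  rw [(A.lint_fib hm).2] at h
  refine ne_top_of_le_ne_top (ENNReal.mul_ne_top (ENNReal.natCast_ne_top A.P.natDegree) h) ?_
  refine (setLIntegral_le_lintegral _ _).trans ?_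
  rw [← lintegral_const_mul' _ _ (ENNReal.natCast_ne_top _)]
  refine lintegral_mono fun z => ?_
  have hg : 0 ≤ gr z ^ (-M) := Real.rpow_nonneg (by linarith [one_le_gr z]) _
  have e : ∑ p ∈ (A.fib_finite z).toFinset, ENNReal.ofReal (‖F p‖ ^ 2 * gr (π.at p.1) ^ (-M)) =
      ENNReal.ofReal ((∑ p ∈ (A.fib_finite z).toFinset, ‖F p‖ ^ 2) * gr z ^ (-M)) := by
    rw [Finset.sum_mul, ENNReal.ofReal_sum_of_nonneg fun p _ => mul_nonneg (sq_nonneg _) hg]
    refine Finset.sum_congr rfl fun p hp => ?_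
    have hp' : π.at p.1 = z := (A.fib_finite z).mem_toFinset.1 hp
    rw [hp']
  show ENNReal.ofReal _ ≤ _ * ∑ p ∈ (A.fib_finite z).toFinset, _
  rw [e, ← ENNReal.ofReal_natCast, ← ENNReal.ofReal_mul (Nat.cast_nonneg _), ← mul_assoc]
  refine ENNReal.ofReal_le_ofReal (mul_le_mul_of_nonneg_right ?_ hg)
  have h1 : ‖∑ p ∈ (A.fib_finite z).toFinset, F p‖ ^ 2 ≤
      (∑ p ∈ (A.fib_finite z).toFinset, ‖F p‖) ^ 2 :=
    pow_le_pow_left₀ (norm_nonneg _) (norm_sum_le _ _) 2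
  refine h1.trans (sq_sum_le_card_mul_sum_sq.trans ?_)
  refine mul_le_mul_of_nonneg_right ?_ (Finset.sum_nonneg fun _ _ => sq_nonneg _)
  have := A.fib_card z
  rw [Set.ncard_eq_toFinset_card _ (A.fib_finite z)] at this
  exact_mod_cast this

end Vale.Agent.P282
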