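import Vale.Agent.P282.SA2a

set_option linter.unusedSectionVars false

open scoped ENNReal TensorProduct Topology
open Filter MeasureTheory

noncomputable section

namespace Vale.Agent.P282

variable {R K : Type} [CommRing R] [IsDomain R] [Algebra ℂ R] [Algebra.FiniteType ℂ R]
  [IsIntegrallyClosed R] [Field K] [Algebra R K] [IsFractionRing R K] [Algebra ℂ K]
  [IsScalarTower ℂ R K] {n : ℕ}

theorem SA2b_ne {P : Polynomial ℂ} {N : ℕ} (hN : P.natDegree < N) {c x : ℂ} (hc : P.eval c = 0)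
    (hx : P.eval x = 0) (h : c ≠ x) :
    ∑ k ∈ Finset.range N, P.coeff k * ∑ j ∈ Finset.range k, c ^ j * x ^ (k - 1 - j) = 0 := by
  refine (mul_eq_zero.1 ?_).resolve_right (sub_ne_zero.2 h)
  rw [Finset.sum_mul]
  simp only [mul_assoc, geom_sum₂_mul]
  simp only [mul_sub]
  rw [Finset.sum_sub_distrib, ← Polynomial.eval_eq_sum_range' hN,
    ← Polynomial.eval_eq_sum_range' hN, hc, hx, sub_zero]

theorem SA2b_eq {P : Polynomial ℂ} {N : ℕ} (hN : P.natDegree < N) (x : ℂ) :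
    ∑ k ∈ Finset.range N, P.coeff k * ∑ j ∈ Finset.range k, x ^ j * x ^ (k - 1 - j) =
      P.derivative.eval x := by
  rw [Polynomial.derivative_eval, Polynomial.sum_over_range' _ (by simp) N hN]
  simp only [geom_sum₂_self, mul_assoc]

theorem An.SA2b_tr {π : Proj R n} {g : R} (A : An π g) (M : ℝ) (r : R) : ∃ D : ℕ,
    ∀ F : π.W A.Δ → ℂ, A.S.HolS F →
      ∫⁻ p, ENNReal.ofReal (‖F p‖ ^ 2 * gr (π.at p.1) ^ (-M)) ∂A.S.μ ≠ ⊤ →
      ∃ Q : MvPolynomial (Fin n) ℂ, Q.totalDegree ≤ D ∧ ∀ z, MvPolynomial.eval z A.Δ ≠ 0 →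
        ∑ p ∈ (A.fib_finite z).toFinset, F p * p.1 r = MvPolynomial.eval z Q := by
  obtain ⟨C, D, hC, h⟩ := π.growth r
  refine ⟨⌈M⌉₊ + D, fun F hF hI => A.a2_poly (F := fun p => F p * p.1 r) (M := M + D)
    (fun i => ((hF i).mul (A.hol r i)).congr fun z _ => ?_) ?_ ?_⟩
  · simp only [Fuj.Sheets.rep, A.τ_eq, one_mul, Pi.mul_apply]
  · push_cast
    linarith [Nat.le_ceil M]
  · refine ne_top_of_le_ne_top (ENNReal.mul_ne_top (ENNReal.ofReal_ne_top (r := C)) hI) ?_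
    rw [← lintegral_const_mul' _ _ ENNReal.ofReal_ne_top]
    refine lintegral_mono fun p => ?_
    rw [← ENNReal.ofReal_mul hC.le]
    refine ENNReal.ofReal_le_ofReal ?_
    have g0 : 0 < gr (π.at p.1) := one_pos.trans_le (one_le_gr _)
    have e : gr (π.at p.1) ^ D * gr (π.at p.1) ^ (-(M + D)) = gr (π.at p.1) ^ (-M) := by
      rw [← Real.rpow_natCast, ← Real.rpow_add g0]
      congr 1
      ring
    have h1 := mul_le_mul_of_nonneg_left (h p.1)
      (show 0 ≤ ‖F p‖ ^ 2 * gr (π.at p.1) ^ (-(M + D)) by positivity)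
    rw [norm_mul, mul_pow, ← e]
    linarith

theorem An.a2_frac {π : Proj R n} {g : R} (A : An π g) (M : ℝ) : ∃ V : Submodule ℂ R,
    FiniteDimensional ℂ V ∧ ∀ F : π.W A.Δ → ℂ, A.S.HolS F →
      ∫⁻ p, ENNReal.ofReal (‖F p‖ ^ 2 * gr (π.at p.1) ^ (-M)) ∂A.S.μ ≠ ⊤ →
      ∃ h ∈ V, ∀ p, F p * p.1 A.δ = p.1 h := by
  choose D hD using fun j : ℕ => A.SA2b_tr M (A.θ ^ j)
  let N := A.P.natDegree + 1
  let W : ℕ → ℕ → Submodule ℂ R := fun k j =>
    (MvPolynomial.restrictTotalDegree (Fin n) ℂ (D j)).map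
      (LinearMap.mulLeft ℂ (MvPolynomial.aeval π.y (A.P.coeff k) * A.θ ^ (k - 1 - j)) ∘ₗ
        (MvPolynomial.aeval π.y).toLinearMap)
  refine ⟨⨆ u : Fin N × Fin N, W u.1 u.2, inferInstance, fun F hF hI => ?_⟩
  choose Q hQ hQ' using fun j => hD j F hF hI
  refine ⟨∑ k ∈ Finset.range N, ∑ j ∈ Finset.range k,
    MvPolynomial.aeval π.y (A.P.coeff k) * A.θ ^ (k - 1 - j) * MvPolynomial.aeval π.y (Q j),
    Submodule.sum_mem _ fun k hk => Submodule.sum_mem _ fun j hj => ?_, fun p => ?_⟩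
  · rw [Finset.mem_range] at hk hj
    exact Submodule.mem_iSup_of_mem ((⟨k, hk⟩, ⟨j, hj.trans hk⟩) : Fin N × Fin N)
      ⟨Q j, (MvPolynomial.mem_restrictTotalDegree _ _ _).2 (hQ j), rfl⟩
  · have hN : (A.P.map (MvPolynomial.eval (π.at p.1))).natDegree < N :=
      Nat.lt_succ_of_le Polynomial.natDegree_map_le
    have hr : ∀ q : π.W A.Δ, q ∈ A.fib (π.at p.1) →
        (A.P.map (MvPolynomial.eval (π.at p.1))).eval (q.1 A.θ) = 0 := fun q hq => by
      have hq' : π.at q.1 = π.at p.1 := hq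
      rw [Polynomial.eval_map, ← hq', ← SAn2_eval, A.et.root, map_zero]
    have hp : p ∈ A.fib (π.at p.1) := rfl
    have h1 : ∑ q ∈ (A.fib_finite (π.at p.1)).toFinset, F q * ∑ k ∈ Finset.range N,
        (A.P.map (MvPolynomial.eval (π.at p.1))).coeff k *
          ∑ j ∈ Finset.range k, q.1 A.θ ^ j * p.1 A.θ ^ (k - 1 - j) = F p * p.1 A.δ := by
      rw [Finset.sum_eq_single_of_mem p ((Set.Finite.mem_toFinset _).2 hp) fun q hq hne => ?_,
        SA2b_eq hN, Polynomial.derivative_map, Polynomial.eval_map, ← SAn2_eval, ← A.et.der]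
      have hq' := (Set.Finite.mem_toFinset _).1 hq
      rw [SA2b_ne hN (hr q hq') (hr p hp) fun e => hne (A.θ_inj _ hq' hp e), mul_zero]
    rw [← h1]
    simp only [map_sum, map_mul, map_pow, SAn2_aeval, Polynomial.coeff_map, ← hQ' _ _ p.2,
      Finset.mul_sum]
    rw [Finset.sum_comm]
    refine Finset.sum_congr rfl fun k _ => ?_
    rw [Finset.sum_comm]
    exact Finset.sum_congr rfl fun j _ => Finset.sum_congr rfl fun q _ => by ring

end Vale.Agent.P282
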