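import Vale.Agent.P282.SAn0
import Vale.Agent.P271.HSh1

set_option linter.unusedSectionVars false

open scoped ENNReal TensorProduct Topology
open Filter MeasureTheory

noncomputable section

namespace Vale.Agent.P282

variable {R K : Type} [CommRing R] [IsDomain R] [Algebra ℂ R] [Algebra.FiniteType ℂ R]
  [IsIntegrallyClosed R] [Field K] [Algebra R K] [IsFractionRing R K] [Algebra ℂ K]
  [IsScalarTower ℂ R K] {n : ℕ}

omit [IsDomain R] [Algebra.FiniteType ℂ R] [IsIntegrallyClosed R] in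
theorem SAn2_aeval (π : Proj R n) (p : Pt R) (N : MvPolynomial (Fin n) ℂ) :
    p (MvPolynomial.aeval π.y N) = MvPolynomial.eval (π.at p) N := by
  have h := MvPolynomial.comp_aeval_apply (f := π.y) p.hom N
  rw [← MvPolynomial.coe_aeval_eq_eval]
  exact h

omit [IsDomain R] [Algebra.FiniteType ℂ R] [IsIntegrallyClosed R] in
theorem SAn2_eval (π : Proj R n) (p : Pt R) (H : Polynomial (MvPolynomial (Fin n) ℂ)) (θ : R) :
    p (H.eval₂ (MvPolynomial.aeval π.y).toRingHom θ) =
      H.eval₂ (MvPolynomial.eval (π.at p)) (p θ) := by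
  have h := Polynomial.hom_eval₂ H (MvPolynomial.aeval π.y).toRingHom p.hom.toRingHom θ
  have e : p.hom.toRingHom.comp (MvPolynomial.aeval π.y).toRingHom =
      MvPolynomial.eval (π.at p) := RingHom.ext fun N => SAn2_aeval π p N
  rw [e] at h
  exact h

namespace An
variable {π : Proj R n} {g : R} (A : An π g)

/-- the fibres -/
def fib (z : E n) : Set (π.W A.Δ) := {p | π.at p.1 = z}

theorem SAn2_inj (z : E n) : Set.InjOn (fun p : π.W A.Δ => p.1 A.θ) (A.fib z) := by
  intro p hp q hq e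
  have hp' : π.at p.1 = z := hp
  have hq' : π.at q.1 = z := hq
  have e' : p.1 A.θ = q.1 A.θ := e
  have h1 : ∀ H : Polynomial (MvPolynomial (Fin n) ℂ),
      p.1 (H.eval₂ (MvPolynomial.aeval π.y).toRingHom A.θ) =
        q.1 (H.eval₂ (MvPolynomial.aeval π.y).toRingHom A.θ) := by
    intro H
    rw [SAn2_eval, SAn2_eval, hp', hq', e']
  have h2 : p.1 A.δ = q.1 A.δ := by
    rw [A.et.der]
    exact h1 _
  refine Subtype.ext (DFunLike.ext _ _ fun r => ?_)
  obtain ⟨H, hH⟩ := A.et.gen r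
  have h3 := h1 H
  rw [← hH, map_mul, map_mul, ← h2] at h3
  exact mul_left_cancel₀ (A.δ_ne p) h3

theorem SAn2_maps (z : E n) : Set.MapsTo (fun p : π.W A.Δ => p.1 A.θ) (A.fib z)
    ((A.P.map (MvPolynomial.eval z)).roots.toFinset : Set ℂ) := by
  intro p hp
  have hp' : π.at p.1 = z := hp
  have h1 := SAn2_eval π p.1 A.P A.θ
  rw [A.et.root, map_zero, hp'] at h1
  rw [Finset.mem_coe, Multiset.mem_toFinset, Polynomial.mem_roots (A.et.monic.map _).ne_zero,
    Polynomial.IsRoot.def, Polynomial.eval_map]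
  exact h1.symm

theorem fib_finite (z : E n) : (A.fib z).Finite :=
  Set.Finite.of_injOn (A.SAn2_maps z) (A.SAn2_inj z) (Finset.finite_toSet _)

theorem fib_card (z : E n) : (A.fib z).ncard ≤ A.P.natDegree := by
  refine (Set.ncard_le_ncard_of_injOn _ (A.SAn2_maps z) (A.SAn2_inj z)
    (Finset.finite_toSet _)).trans ?_
  rw [Set.ncard_coe_finset]
  exact (Multiset.toFinset_card_le _).trans ((Polynomial.card_roots' _).trans
    Polynomial.natDegree_map_le)

theorem θ_inj (z : E n) : Set.InjOn (fun p : π.W A.Δ => p.1 A.θ) (A.fib z) := A.SAn2_inj z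

theorem compact {Q : Set (E n)} (hQ : IsCompact Q) (h : ∀ z ∈ Q, MvPolynomial.eval z A.Δ ≠ 0) :
    IsCompact {p : π.W A.Δ | π.at p.1 ∈ Q} := by
  rw [Subtype.isCompact_iff]
  have e : (Subtype.val '' {p : π.W A.Δ | π.at p.1 ∈ Q}) = {p : Pt R | π.at p ∈ Q} := by
    ext p
    constructor
    · rintro ⟨q, hq, rfl⟩
      exact hq
    · intro hp
      exact ⟨⟨p, h _ hp⟩, hp, rfl⟩
  rw [e]
  exact π.compact hQ

/-- elements of `R` are determined by their values -/
theorem inj {r : R} (h : ∀ p : π.W A.Δ, p.1 r = 0) : r = 0 := by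
  by_contra hr
  obtain ⟨N, s, hN, hs⟩ := π.norm (⊥ : Ideal R) (r := r) (by simpa using hr)
  rw [Ideal.mem_bot] at hN hs
  have hN0 : N ≠ 0 := by
    rintro rfl
    exact hN (map_zero _)
  have hz : ∃ z : E n, MvPolynomial.eval z (A.Δ * N) ≠ 0 := by
    by_contra hc
    refine mul_ne_zero A.Δ_ne hN0 (MvPolynomial.funext fun z => ?_)
    by_contra h1
    exact hc ⟨z, by simpa using h1⟩
  obtain ⟨z, hz⟩ := hz
  rw [map_mul] at hz
  have hdeg : (A.P.map (MvPolynomial.eval z)).degree ≠ 0 := by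
    intro h0
    rw [A.et.monic.degree_map] at h0
    have h1 := A.et.root
    rw [A.et.monic.degree_le_zero_iff_eq_one.1 h0.le, Polynomial.eval₂_one] at h1
    exact one_ne_zero h1
  obtain ⟨c, hc⟩ := IsAlgClosed.exists_root _ hdeg
  rw [Polynomial.IsRoot.def, Polynomial.eval_map] at hc
  obtain ⟨p, hp, -⟩ := A.root z (left_ne_zero_of_mul hz) c hc
  have h1 := congrArg p.1 (sub_eq_zero.1 hs)
  rw [SAn2_aeval, map_mul, h p, zero_mul, hp] at h1
  exact right_ne_zero_of_mul hz h1

end An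

end Vale.Agent.P282
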