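import Vale.Agent.P282.SAn2
import Vale.Agent.P271.HMeas

set_option linter.unusedSectionVars false

open scoped ENNReal TensorProduct Topology
open Filter MeasureTheory

noncomputable section

namespace Vale.Agent.P282

variable {R K : Type} [CommRing R] [IsDomain R] [Algebra ℂ R] [Algebra.FiniteType ℂ R]
  [IsIntegrallyClosed R] [Field K] [Algebra R K] [IsFractionRing R K] [Algebra ℂ K]
  [IsScalarTower ℂ R K] {n : ℕ}

theorem SAn3_poly : ∀ (n : ℕ) (a : MvPolynomial (Fin n) ℂ), a ≠ 0 →
    ∀ᵐ z : E n, MvPolynomial.eval z a ≠ 0 := by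
  intro n
  induction n with
  | zero =>
    intro a ha
    obtain ⟨c, rfl⟩ := MvPolynomial.C_surjective (Fin 0) a
    exact ae_of_all _ fun z => by
      rw [MvPolynomial.eval_C]; rintro rfl; exact ha MvPolynomial.C_0
  | succ n ih =>
    intro a ha
    have hq : MvPolynomial.finSuccEquiv ℂ n a ≠ 0 := by simpa using ha
    have hm : MeasurableSet {x : ℂ × E n | MvPolynomial.eval (Fin.cons x.1 x.2) a ≠ 0} := by
      refine (isOpen_ne_fun ((MvPolynomial.continuous_eval a).comp ?_) continuous_const).measurableSet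
      exact continuous_pi fun i => Fin.cases (by simpa using continuous_fst)
        (fun j => by simp only [Fin.cons_succ]; fun_prop) i
    have h1 : ∀ᵐ x : ℂ × E n, MvPolynomial.eval (Fin.cons x.1 x.2) a ≠ 0 := by
      refine (Measure.ae_prod_iff_ae_ae hm).2 ((Measure.ae_ae_comm
        (p := fun x y => MvPolynomial.eval (Fin.cons x y) a ≠ 0) hm).2 ?_)
      filter_upwards [ih _ (Polynomial.leadingCoeff_ne_zero.2 hq)] with z hz
      have h2 : (MvPolynomial.finSuccEquiv ℂ n a).map (MvPolynomial.eval z) ≠ 0 := fun h =>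
        hz (by rw [Polynomial.leadingCoeff, ← Polynomial.coeff_map, h, Polynomial.coeff_zero])
      filter_upwards [(measure_eq_zero_iff_ae_notMem).1
        ((Polynomial.finite_setOfPred_isRoot h2).measure_zero volume)] with x hx
      rwa [MvPolynomial.eval_eq_eval_mv_eval']
    filter_upwards [(volume_preserving_piFinSuccAbove (fun _ : Fin (n + 1) => ℂ)
      0).quasiMeasurePreserving.ae h1] with z hz
    simpa using hz

namespace An
variable {π : Proj R n} {g : R} (A : An π g)

/-- integration along the fibres -/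
theorem lint_fib {F : π.W A.Δ → ℝ≥0∞} (hF : Measurable F) :
    Measurable (fun z => ∑ p ∈ (A.fib_finite z).toFinset, F p) ∧
    ∫⁻ p, F p ∂A.S.μ = ∫⁻ z, ∑ p ∈ (A.fib_finite z).toFinset, F p := by
  classical
  have := A.S.cnt
  obtain ⟨D, hD, hdis, hsub, hcov⟩ := Fuj.meas_exists_disj (fun i => (A.S.e i).source)
    fun i => (A.S.e i).open_source.measurableSet
  have mT := fun i => (A.S.e i).open_target.measurableSet
  have h1 : ∀ p, F p = ∑' i, (D i).indicator F p := fun p => by
    obtain ⟨i, hi⟩ := A.S.cover p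
    obtain ⟨j, hj⟩ := Set.mem_iUnion.1 (hcov i hi)
    rw [tsum_eq_single j fun k hk => Set.indicator_of_notMem
      (fun h => Set.disjoint_left.1 (hdis hk) h hj) _, Set.indicator_of_mem hj]
  have mG : ∀ i, Measurable ((A.S.e i).target.indicator
      fun z => (D i).indicator F ((A.S.e i).symm z)) := fun i => by
    have := ((hF.indicator (hD i)).comp ((A.S.e i).continuousOn_symm.measurable_piecewise
      (g := fun _ => (A.S.e i).symm 0) continuousOn_const (mT i))).indicator (mT i)
    convert this using 1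
    exact Set.indicator_congr fun z hz => by simp [Set.piecewise_eq_of_mem _ _ _ hz]
  have h2 : ∀ z, ∑ p ∈ (A.fib_finite z).toFinset, F p = ∑' i, (A.S.e i).target.indicator
      (fun z => (D i).indicator F ((A.S.e i).symm z)) z := fun z => by
    rw [Finset.sum_congr rfl fun p _ => h1 p, ← Summable.tsum_finsetSum fun _ _ => ENNReal.summable]
    refine tsum_congr fun i => ?_
    have he : ∀ p ∈ (A.fib_finite z).toFinset, p ∈ D i → A.S.e i p = z := fun p hp h => by
      rw [A.S.e_eq i p (hsub i h), A.π_eq]; exact (A.fib_finite z).mem_toFinset.1 hp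
    by_cases hz : z ∈ (A.S.e i).target
    · rw [Set.indicator_of_mem hz]
      refine Finset.sum_eq_single_of_mem _ ((Set.Finite.mem_toFinset _).2 ?_) fun p hp hne =>
        Set.indicator_of_notMem (fun h => hne ?_) _
      · show π.at _ = z
        rw [← A.π_eq, ← A.S.e_eq i _ ((A.S.e i).map_target hz), (A.S.e i).right_inv hz]
      · rw [← he p hp h, (A.S.e i).left_inv (hsub i h)]
    · rw [Set.indicator_of_notMem hz]
      exact Finset.sum_eq_zero fun p hp => Set.indicator_of_notMem
        (fun h => hz (he p hp h ▸ (A.S.e i).map_source (hsub i h))) _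
  simp only [h2]
  refine ⟨Measurable.tsum mG, ?_⟩
  rw [lintegral_congr h1, lintegral_tsum fun i => (hF.indicator (hD i)).aemeasurable,
    lintegral_tsum fun i => (mG i).aemeasurable]
  refine tsum_congr fun i => ?_
  rw [lintegral_indicator (mT i), ← lintegral_map' (hF.indicator (hD i)).aemeasurable
    ((A.S.e i).continuousOn_symm.aemeasurable (mT i)), A.S.μ_eq,
    ← lintegral_indicator (A.S.e i).open_source.measurableSet, Set.indicator_indicator,
    Set.inter_eq_right.2 (hsub i)]

/-- lower bounds for integrals -/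
theorem lint_ge {F : π.W A.Δ → ℝ≥0∞} (hF : Measurable F) {Q : Set (E n)} (hQ : MeasurableSet Q)
    {f : E n → ℝ≥0∞} (h : ∀ z ∈ Q, MvPolynomial.eval z A.Δ ≠ 0 → ∃ p ∈ A.fib z, f z ≤ F p) :
    ∫⁻ z in Q, f z ≤ ∫⁻ p, F p ∂A.S.μ := by
  rw [(A.lint_fib hF).2]
  refine le_trans (lintegral_mono_ae ?_) (setLIntegral_le_lintegral Q _)
  filter_upwards [ae_restrict_mem hQ, ae_restrict_of_ae (SAn3_poly n _ A.Δ_ne)] with z h1 h2
  obtain ⟨p, hp, h3⟩ := h z h1 h2
  exact h3.trans (Finset.single_le_sum (fun _ _ => zero_le) ((Set.Finite.mem_toFinset _).2 hp))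

/-- upper bounds for integrals -/
theorem lint_le {f : E n → ℝ≥0∞} (hf : Measurable f) :
    ∫⁻ p, f (π.at p.1) ∂A.S.μ ≤ A.P.natDegree * ∫⁻ z, f z := by
  have hc : Continuous fun p : π.W A.Δ => π.at p.1 :=
    continuous_pi fun i => (Pt.cont (π.y i)).comp continuous_subtype_val
  rw [(A.lint_fib (F := fun p => f (π.at p.1)) (hf.comp hc.measurable)).2, ← lintegral_const_mul _ hf]
  refine lintegral_mono fun z => ?_
  rw [Finset.sum_congr rfl (g := fun _ => f z) fun p hp =>
    congrArg f ((A.fib_finite z).mem_toFinset.1 hp), Finset.sum_const, nsmul_eq_mul,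
    ← Set.ncard_eq_toFinset_card _ (A.fib_finite z)]
  exact mul_le_mul_left (Nat.cast_le.2 (A.fib_card z)) _

/-- zero sets are null -/
theorem null_zero {r : R} (hr : r ≠ 0) : A.S.μ {p | p.1 r = 0} = 0 := by
  obtain ⟨P, hP, h0⟩ := RingHom.Finite.to_isIntegral π.fin r
  obtain ⟨i, h1, h2⟩ := Ideal.exists_coeff_ne_zero_mem_comap_of_root_mem hr
    (Ideal.mem_span_singleton_self r) hP.ne_zero h0
  obtain ⟨s, hs⟩ := Ideal.mem_span_singleton.1 (Ideal.mem_comap.1 h2)
  have hZ : MeasurableSet {z : E n | MvPolynomial.eval z (P.coeff i) = 0} :=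
    (isClosed_eq (MvPolynomial.continuous_eval _) continuous_const).measurableSet
  have h3 := A.lint_le (f := {z : E n | MvPolynomial.eval z (P.coeff i) = 0}.indicator 1)
    (measurable_one.indicator hZ)
  have hz : volume {z : E n | MvPolynomial.eval z (P.coeff i) = 0} = 0 := by
    simpa [ae_iff] using SAn3_poly n _ h1
  rw [lintegral_indicator_one hZ, hz, mul_zero] at h3
  have hm : MeasurableSet {p : π.W A.Δ | p.1 r = 0} :=
    (isClosed_eq ((Pt.cont r).comp continuous_subtype_val) continuous_const).measurableSet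
  refine le_antisymm (le_trans ?_ h3) zero_le
  rw [← lintegral_indicator_one hm]
  refine lintegral_mono fun p => Set.indicator_apply_le' (fun hp => ?_) fun _ => zero_le
  have h4 : MvPolynomial.eval (π.at p.1) (P.coeff i) = 0 := by
    have h5 := MvPolynomial.comp_aeval_apply π.y p.1.hom (P.coeff i)
    have h6 : MvPolynomial.aeval π.y (P.coeff i) = r * s := hs
    rw [h6, map_mul, show p.1.hom r = 0 from hp, zero_mul] at h5
    exact h5.symm
  rw [Set.indicator_of_mem (s := {z : E n | MvPolynomial.eval z (P.coeff i) = 0}) h4]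
  exact le_rfl

end An

end Vale.Agent.P282
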