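import Vale.Agent.P282.SAn2

set_option linter.unusedSectionVars false

open scoped ENNReal TensorProduct Topology
open Filter MeasureTheory

noncomputable section

namespace Vale.Agent.P282

variable {R K : Type} [CommRing R] [IsDomain R] [Algebra ℂ R] [Algebra.FiniteType ℂ R]
  [IsIntegrallyClosed R] [Field K] [Algebra R K] [IsFractionRing R K] [Algebra ℂ K]
  [IsScalarTower ℂ R K] {n : ℕ}

namespace An
variable {π : Proj R n} {g : R} (A : An π g)

theorem SAn4_cont : Continuous fun p : π.W A.Δ => π.at p.1 :=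
  continuous_pi fun i => (Pt.cont (π.y i)).comp continuous_subtype_val

theorem SAn4_e {i : A.S.ι} {p : π.W A.Δ} (hp : p ∈ (A.S.e i).source) :
    A.S.e i p = π.at p.1 := (A.S.e_eq i p hp).trans (A.π_eq p)

/-- Near `z₀` the fibres lie in any open set containing the fibre over `z₀`. -/
theorem SAn4_near {z₀ : E n} (hz : MvPolynomial.eval z₀ A.Δ ≠ 0) {V : Set (π.W A.Δ)}
    (hV : IsOpen V) (h : A.fib z₀ ⊆ V) : ∀ᶠ z in 𝓝 z₀, A.fib z ⊆ V := by
  have hU : IsOpen {z : E n | MvPolynomial.eval z A.Δ ≠ 0} :=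
    isOpen_ne_fun (MvPolynomial.continuous_eval A.Δ) continuous_const
  obtain ⟨Q, hQ1, hQ2, hQ3⟩ := local_compact_nhds (hU.mem_nhds hz)
  have hC := ((A.compact hQ3 fun z hz => hQ2 hz).diff hV).image A.SAn4_cont
  have h0 : z₀ ∈ ((fun p : π.W A.Δ => π.at p.1) '' ({p : π.W A.Δ | π.at p.1 ∈ Q} \ V))ᶜ := by
    rintro ⟨p, hp, e⟩
    exact hp.2 (h e)
  filter_upwards [hC.isClosed.isOpen_compl.mem_nhds h0, hQ1] with z h1 h2 p hp
  by_contra h3
  have hp' : π.at p.1 = z := hp
  exact h1 ⟨p, ⟨show π.at p.1 ∈ Q from hp' ▸ h2, h3⟩, hp'⟩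

/-- traces of holomorphic functions -/
theorem trace_hol {F : π.W A.Δ → ℂ} (hF : A.S.HolS F) :
    DifferentiableOn ℂ (fun z => ∑ p ∈ (A.fib_finite z).toFinset, F p)
      {z | MvPolynomial.eval z A.Δ ≠ 0} := by
  intro z₀ hz
  refine DifferentiableAt.differentiableWithinAt ?_
  choose ix hix using A.S.cover
  have ht : ∀ p ∈ A.fib z₀, z₀ ∈ (A.S.e (ix p)).target ∧ (A.S.e (ix p)).symm z₀ = p := by
    intro p hp
    have hp' : π.at p.1 = z₀ := hp
    rw [← hp', ← A.SAn4_e (hix p)]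
    exact ⟨(A.S.e (ix p)).map_source (hix p), (A.S.e (ix p)).left_inv (hix p)⟩
  have h1 : ∀ᶠ z in 𝓝 z₀, ∀ p ∈ A.fib z₀, z ∈ (A.S.e (ix p)).target :=
    (eventually_all_finite (A.fib_finite z₀)).2 fun p hp =>
      (A.S.e (ix p)).open_target.mem_nhds (ht p hp).1
  have h2 : ∀ᶠ z in 𝓝 z₀, ∀ p ∈ A.fib z₀, ∀ q ∈ A.fib z₀,
      (A.S.e (ix p)).symm z = (A.S.e (ix q)).symm z → p = q :=
    (eventually_all_finite (A.fib_finite z₀)).2 fun p hp =>
      (eventually_all_finite (A.fib_finite z₀)).2 fun q hq => by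
        by_cases e : p = q
        · exact Eventually.of_forall fun _ _ => e
        · have c := ((A.S.e (ix p)).continuousAt_symm (ht p hp).1).prodMk
            ((A.S.e (ix q)).continuousAt_symm (ht q hq).1)
          have o := (isOpen_ne_fun (continuous_fst (X := π.W A.Δ) (Y := π.W A.Δ))
            continuous_snd).mem_nhds
            (x := ((A.S.e (ix p)).symm z₀, (A.S.e (ix q)).symm z₀)) (by
              show _ ≠ _
              rw [(ht p hp).2, (ht q hq).2]
              exact e)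
          filter_upwards [c.eventually o] with z h3 h4
          exact absurd h4 h3
  have h3 := A.SAn4_near hz (V := ⋃ p ∈ A.fib z₀, (A.S.e (ix p)).source)
    (isOpen_biUnion fun p _ => (A.S.e (ix p)).open_source)
    fun p hp => Set.mem_biUnion hp (hix p)
  have h4 : DifferentiableAt ℂ
      (fun z => ∑ p ∈ (A.fib_finite z₀).toFinset, A.S.rep (ix p) F z) z₀ :=
    DifferentiableAt.fun_sum fun p hp => (hF (ix p)).differentiableAt
      ((A.S.e (ix p)).open_target.mem_nhds (ht p ((Set.Finite.mem_toFinset _).1 hp)).1)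
  refine h4.congr_of_eventuallyEq ?_
  filter_upwards [h1, h2, h3] with z a1 a2 a3
  symm
  refine Finset.sum_bij (fun p _ => (A.S.e (ix p)).symm z) (fun p hp => ?_)
    (fun p hp q hq e => ?_) (fun q hq => ?_) (fun p _ => ?_)
  · rw [Set.Finite.mem_toFinset] at hp ⊢
    show π.at _ = z
    rw [← A.SAn4_e ((A.S.e (ix p)).map_target (a1 p hp))]
    exact (A.S.e (ix p)).right_inv (a1 p hp)
  · rw [Set.Finite.mem_toFinset] at hp hq
    exact a2 p hp q hq e
  · rw [Set.Finite.mem_toFinset] at hq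
    obtain ⟨p, hp, hq2⟩ := Set.mem_iUnion₂.1 (a3 hq)
    refine ⟨p, (Set.Finite.mem_toFinset _).2 hp, ?_⟩
    have hq' : π.at q.1 = z := hq
    rw [← hq', ← A.SAn4_e hq2]
    exact (A.S.e (ix p)).left_inv hq2
  · unfold Fuj.Sheets.rep
    rw [A.τ_eq, one_mul]

end An

end Vale.Agent.P282
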