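import Vale.Agent.P282.SAn

set_option linter.unusedSectionVars false

open scoped ENNReal TensorProduct Topology
open Filter MeasureTheory

noncomputable section

namespace Vale.Agent.P282

variable {R K : Type} [CommRing R] [IsDomain R] [Algebra ℂ R] [Algebra.FiniteType ℂ R]
  [IsIntegrallyClosed R] [Field K] [Algebra R K] [IsFractionRing R K] [Algebra ℂ K]
  [IsScalarTower ℂ R K] {n : ℕ}

theorem SJac0_det (L : E n →L[ℂ] E n) : (L.restrictScalars ℝ).det = ‖L.det‖ ^ 2 := by
  have h := LinearMap.det_restrictScalars (R := ℝ) (f := (L : E n →ₗ[ℂ] E n))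
  rw [Algebra.norm_complex_apply, Complex.normSq_eq_norm_sq] at h
  exact h

theorem SJac0_meas {Y Z : Type*} [TopologicalSpace Y] [MeasurableSpace Y] [BorelSpace Y]
    [TopologicalSpace Z] [MeasurableSpace Z] [BorelSpace Z] (e : OpenPartialHomeomorph Y Z)
    {S : Set Y} (hS : MeasurableSet S) : MeasurableSet (e.target ∩ e.symm ⁻¹' S) := by
  have := (MeasurableEmbedding.subtype_coe e.open_target.measurableSet).measurableSet_image.2
    (e.continuousOn_symm.domRestrict.measurable hS)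
  rwa [show e.target.domRestrict e.symm ⁻¹' S = Subtype.val ⁻¹' (e.symm ⁻¹' S) from rfl,
    Subtype.image_preimage_coe] at this

namespace An
variable {π : Proj R n} {g : R} (A : An π g)

/-- the Jacobian determinant of `f` with respect to the coordinates `y` -/
def jd (f : Fin n → R) (p : π.W A.Δ) : ℂ :=
  (fderiv ℂ (fun z i => ((A.S.e (A.S.idx p)).symm z).1 (f i)) (π.at p.1)).det

theorem jd_eq (f : Fin n → R) {i : A.S.ι} {p : π.W A.Δ} (hp : p ∈ (A.S.e i).source) :
    A.jd f p = (fderiv ℂ (fun z j => ((A.S.e i).symm z).1 (f j)) (π.at p.1)).det := by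
  have h : (fun z j => ((A.S.e (A.S.idx p)).symm z).1 (f j)) =ᶠ[𝓝 (π.at p.1)]
      fun z j => ((A.S.e i).symm z).1 (f j) := by
    rw [← A.π_eq]
    filter_upwards [A.S.symm_eventuallyEq (A.S.idx_mem p) hp] with z hz
    rw [hz]
  rw [jd, h.fderiv_eq]

theorem SJac0_hol (f : Fin n → R) (i : A.S.ι) :
    DifferentiableOn ℂ (fun z j => ((A.S.e i).symm z).1 (f j)) (A.S.e i).target :=
  differentiableOn_pi.2 fun j => (A.hol (f j) i).congr fun z _ => by
    rw [Fuj.Sheets.rep, A.τ_eq, one_mul]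

theorem jd_cont (f : Fin n → R) : Continuous (A.jd f) := by
  rw [continuous_iff_continuousAt]
  intro p
  obtain ⟨i, hi⟩ := A.S.cover p
  have h1 := (P274.analyticOnNhd_of_differentiableOn (A.S.e i).open_target
    (A.SJac0_hol f i)).fderiv _ (A.S.π_mem hi)
  have h2 := ContinuousLinearMap.continuous_det.continuousAt.comp
    (h1.continuousAt.comp A.S.continuous_π.continuousAt)
  refine h2.congr ?_
  filter_upwards [(A.S.e i).open_source.mem_nhds hi] with q hq
  rw [A.jd_eq f hq, ← A.π_eq]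
  rfl

theorem SJac0_piece (f : Fin n → R) (i : A.S.ι) {Q : Set (π.W A.Δ)} (hQ : MeasurableSet Q)
    (h1 : Q ⊆ (A.S.e i).source) (hi : Set.InjOn (fun p : π.W A.Δ => fun j => p.1 (f j)) Q)
    {F : E n → ℝ≥0∞} (hF : Measurable F) :
    MeasurableSet ((fun p : π.W A.Δ => fun j => p.1 (f j)) '' Q) ∧
    ∫⁻ p in Q, F (fun j => p.1 (f j)) * ENNReal.ofReal (‖A.jd f p‖ ^ 2) ∂A.S.μ =
      ∫⁻ z in (fun p : π.W A.Δ => fun j => p.1 (f j)) '' Q, F z := by
  have m1 : Measurable fun p : π.W A.Δ =>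
      F (fun j => p.1 (f j)) * ENNReal.ofReal (‖A.jd f p‖ ^ 2) :=
    (hF.comp (continuous_pi fun j => (Pt.cont (f j)).comp continuous_subtype_val).measurable).mul
      ((A.jd_cont f).norm.pow 2).measurable.ennreal_ofReal
  have m2 := SJac0_meas (A.S.e i) hQ
  have m3 : AEMeasurable (A.S.e i).symm (volume.restrict (A.S.e i).target) :=
    (A.S.e i).continuousOn_symm.aemeasurable (A.S.e i).open_target.measurableSet
  have e2 : (fun z j => ((A.S.e i).symm z).1 (f j)) ''
      ((A.S.e i).target ∩ (A.S.e i).symm ⁻¹' Q) = (fun p : π.W A.Δ => fun j => p.1 (f j)) '' Q := by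
    ext u
    constructor
    · rintro ⟨z, hz, rfl⟩
      exact ⟨_, hz.2, rfl⟩
    · rintro ⟨p, hp, rfl⟩
      refine ⟨A.S.e i p, ⟨(A.S.e i).map_source (h1 hp), ?_⟩, ?_⟩
      · rw [Set.mem_preimage, (A.S.e i).left_inv (h1 hp)]
        exact hp
      · simp only [(A.S.e i).left_inv (h1 hp)]
  have d1 : ∀ z ∈ (A.S.e i).target ∩ (A.S.e i).symm ⁻¹' Q,
      HasFDerivWithinAt (fun z j => ((A.S.e i).symm z).1 (f j))
        ((fderiv ℂ (fun z j => ((A.S.e i).symm z).1 (f j)) z).restrictScalars ℝ)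
        ((A.S.e i).target ∩ (A.S.e i).symm ⁻¹' Q) z := fun z hz =>
    (((A.SJac0_hol f i).differentiableAt
      ((A.S.e i).open_target.mem_nhds hz.1)).hasFDerivAt.restrictScalars ℝ).hasFDerivWithinAt
  have d2 : Set.InjOn (fun z j => ((A.S.e i).symm z).1 (f j))
      ((A.S.e i).target ∩ (A.S.e i).symm ⁻¹' Q) := fun z hz z' hz' h =>
    (A.S.e i).symm.injOn hz.1 hz'.1 (hi hz.2 hz'.2 h)
  refine ⟨e2 ▸ measurable_image_of_fderivWithin m2 d1 d2, ?_⟩
  rw [← e2, lintegral_image_eq_lintegral_abs_det_fderiv_mul volume m2 d1 d2,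
    ← Measure.restrict_restrict_of_subset h1, ← A.S.μ_eq i, ← lintegral_indicator hQ,
    lintegral_map' (m1.indicator hQ).aemeasurable m3,
    ← Measure.restrict_restrict_of_subset (Set.inter_subset_left (s := (A.S.e i).target)),
    ← lintegral_indicator m2]
  refine setLIntegral_congr_fun (A.S.e i).open_target.measurableSet fun u hu => ?_
  by_cases h : (A.S.e i).symm u ∈ Q
  · simp only [Set.indicator_of_mem h, Set.indicator_of_mem
      (show u ∈ (A.S.e i).target ∩ (A.S.e i).symm ⁻¹' Q from ⟨hu, h⟩)]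
    rw [A.jd_eq f (h1 h), ← A.π_eq, A.S.π_symm hu, SJac0_det, abs_of_nonneg (sq_nonneg _),
      mul_comm]
  · simp only [Set.indicator_of_notMem h,
      Set.indicator_of_notMem fun h' : u ∈ (A.S.e i).target ∩ (A.S.e i).symm ⁻¹' Q => h h'.2]

/-- area formula, injective case -/
theorem area_inj (f : Fin n → R) {Q : Set (π.W A.Δ)} (hQ : MeasurableSet Q)
    (hi : Set.InjOn (fun p : π.W A.Δ => fun j => p.1 (f j)) Q) {F : E n → ℝ≥0∞}
    (hF : Measurable F) :
    ∫⁻ p in Q, F (fun j => p.1 (f j)) * ENNReal.ofReal (‖A.jd f p‖ ^ 2) ∂A.S.μ =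
      ∫⁻ z in (fun p : π.W A.Δ => fun j => p.1 (f j)) '' Q, F z := by
  have := A.S.cnt
  obtain ⟨D, h1, h2, h3, h4⟩ := Fuj.meas_exists_disj (fun k => (A.S.e k).source)
    fun k => (A.S.e k).open_source.measurableSet
  have e1 : Q = ⋃ k, Q ∩ D k := by
    rw [← Set.inter_iUnion]
    exact (Set.inter_eq_left.2 fun p _ => h4 _ (A.S.idx_mem p)).symm
  have key := fun k => A.SJac0_piece f k (hQ.inter (h1 k)) (Set.inter_subset_right.trans (h3 k))
    (hi.mono Set.inter_subset_left) hF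
  conv_lhs => rw [e1]
  conv_rhs => rw [e1, Set.image_iUnion]
  rw [lintegral_iUnion (fun k => hQ.inter (h1 k)) fun k l h =>
    (h2 h).mono Set.inter_subset_right Set.inter_subset_right,
    lintegral_iUnion (fun k => (key k).1) fun k l h => Set.disjoint_left.2
      fun z ⟨p, hp, e⟩ ⟨p', hp', e'⟩ =>
        Set.disjoint_left.1 (h2 h) hp.2 (hi hp'.1 hp.1 (e'.trans e.symm) ▸ hp'.2)]
  exact tsum_congr fun k => (key k).2

end An

end Vale.Agent.P282
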