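import Vale.Agent.P282.SJac0

set_option linter.unusedSectionVars false

open scoped ENNReal TensorProduct Topology
open Filter MeasureTheory

noncomputable section

namespace Vale.Agent.P282

section aux

variable {R : Type} [CommRing R] [Algebra ℂ R] {n : ℕ}

theorem SJac1_univ {π : Proj R n} {θ δ : R} {P : Polynomial (MvPolynomial (Fin n) ℂ)}
    (h : π.EtW θ P δ) (r : R) : ∃ e : Fin n → R,
      ∑ j, e j • KaehlerDifferential.D ℂ R (π.y j) = δ ^ 2 • KaehlerDifferential.D ℂ R r := by
  obtain ⟨D, hD⟩ : ∃ D, D = KaehlerDifferential.D ℂ R := ⟨_, rfl⟩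
  rw [← hD]
  obtain ⟨N, hN⟩ : ∃ N, N = Submodule.span R (Set.range fun j => D (π.y j)) := ⟨_, rfl⟩
  obtain ⟨φ, hφ⟩ : ∃ φ, φ = (MvPolynomial.aeval π.y : MvPolynomial (Fin n) ℂ →ₐ[ℂ] R).toRingHom :=
    ⟨_, rfl⟩
  have h1 : ∀ Q, D (φ Q) ∈ N := by
    intro Q
    induction Q using MvPolynomial.induction_on with
    | C a =>
      have : φ (MvPolynomial.C a) = algebraMap ℂ R a := by simp [hφ]
      rw [this, Derivation.map_algebraMap]
      exact N.zero_mem
    | add p q hp hq =>
      rw [map_add, map_add]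
      exact N.add_mem hp hq
    | mul_X p i hp =>
      have : φ (MvPolynomial.X i) = π.y i := by simp [hφ]
      rw [map_mul, Derivation.leibniz, this]
      exact N.add_mem (N.smul_mem _ (hN ▸ Submodule.subset_span ⟨i, rfl⟩)) (N.smul_mem _ hp)
  have h2 : ∀ H : Polynomial (MvPolynomial (Fin n) ℂ),
      D (H.eval₂ φ θ) - H.derivative.eval₂ φ θ • D θ ∈ N := by
    intro H
    induction H using Polynomial.induction_on with
    | C a => simpa using h1 a
    | add p q hp hq =>
      rw [Polynomial.eval₂_add, map_add, map_add, Polynomial.eval₂_add, add_smul,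
        add_sub_add_comm]
      exact N.add_mem hp hq
    | monomial k a hp =>
      rw [pow_succ, ← mul_assoc]
      generalize Polynomial.C a * Polynomial.X ^ k = q at hp
      have e : D ((q * Polynomial.X).eval₂ φ θ) -
          (q * Polynomial.X).derivative.eval₂ φ θ • D θ =
          θ • (D (q.eval₂ φ θ) - q.derivative.eval₂ φ θ • D θ) := by
        rw [Polynomial.derivative_mul, Polynomial.derivative_X, mul_one, Polynomial.eval₂_add,
          Polynomial.eval₂_mul_X, Polynomial.eval₂_mul_X, Derivation.leibniz, add_smul, smul_sub,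
          smul_smul, mul_comm θ]
        abel
      rw [e]
      exact N.smul_mem _ hp
  have h3 : δ • D θ ∈ N := by
    have := h2 P
    rw [hφ, h.root, ← h.der, map_zero, zero_sub] at this
    exact N.neg_mem_iff.1 this
  have h4 : ∀ H : Polynomial (MvPolynomial (Fin n) ℂ), δ • D (H.eval₂ φ θ) ∈ N := by
    intro H
    have := N.add_mem (N.smul_mem δ (h2 H)) (N.smul_mem (H.derivative.eval₂ φ θ) h3)
    rwa [smul_sub, smul_comm δ (H.derivative.eval₂ φ θ), sub_add_cancel] at this
  obtain ⟨H, hH⟩ := h.gen r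
  have h5 := h4 H
  have h6 := h4 P.derivative
  rw [hφ, ← hH, Derivation.leibniz] at h5
  rw [hφ, ← h.der] at h6
  have h7 := N.sub_mem h5 (N.smul_mem r h6)
  rw [smul_add, smul_comm δ r, add_sub_cancel_right, smul_smul, ← sq, hN] at h7
  exact (Submodule.mem_span_range_iff_exists_fun R).1 h7

theorem SJac1_pt (x : Pt R) (d : R →ₗ[ℂ] ℂ) (hd : ∀ a b, d (a * b) = x a * d b + x b * d a)
    {y e : Fin n → R} {c r : R}
    (h : ∑ j, e j • KaehlerDifferential.D ℂ R (y j) = c • KaehlerDifferential.D ℂ R r) :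
    ∑ j, x (e j) * d (y j) = x c * d r := by
  let : Algebra R ℂ := x.hom.toRingHom.toAlgebra
  have : IsScalarTower ℂ R ℂ := IsScalarTower.of_algebraMap_eq fun c => (x.hom.commutes c).symm
  have := congrArg (Derivation.mk' d hd : Derivation ℂ R ℂ).liftKaehlerDifferential h
  simp only [map_sum, map_smul, Derivation.liftKaehlerDifferential_comp_D] at this
  exact this

/-- The derivative along a holomorphic family of points. -/
def SJac1_d (s : E n → Pt R) (z : E n) (hs : ∀ r, DifferentiableAt ℂ (fun w => s w r) z)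
    (v : E n) : R →ₗ[ℂ] ℂ where
  toFun r := fderiv ℂ (fun w => s w r) z v
  map_add' a b := by
    simp only [map_add]
    rw [fderiv_fun_add (hs a) (hs b)]
    rfl
  map_smul' c a := by
    simp only [map_smul]
    rw [fderiv_fun_const_smul (hs a)]
    rfl

theorem SJac1_d_mul (s : E n → Pt R) (z : E n) (hs : ∀ r, DifferentiableAt ℂ (fun w => s w r) z)
    (v : E n) (a b : R) :
    SJac1_d s z hs v (a * b) = s z a * SJac1_d s z hs v b + s z b * SJac1_d s z hs v a := by
  show fderiv ℂ (fun w => s w (a * b)) z v = _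
  simp only [map_mul]
  rw [fderiv_fun_mul (hs a) (hs b)]
  rfl

theorem SJac1_det (s : E n → Pt R) (z : E n) (hs : ∀ r, DifferentiableAt ℂ (fun w => s w r) z)
    (f : Fin n → R) : (fderiv ℂ (fun w i => s w (f i)) z).det =
      (Matrix.of fun i j => SJac1_d s z hs (Pi.single j 1) (f i)).det := by
  rw [ContinuousLinearMap.det, ← LinearMap.det_toMatrix', fderiv_pi fun i => hs (f i)]
  congr 1

end aux

variable {R K : Type} [CommRing R] [IsDomain R] [Algebra ℂ R] [Algebra.FiniteType ℂ R]
  [IsIntegrallyClosed R] [Field K] [Algebra R K] [IsFractionRing R K] [Algebra ℂ K]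
  [IsScalarTower ℂ R K] {n : ℕ}

theorem SJac1_alg (G : WS R K n) (f y : Fin n → R) {c : R} (hc : c ≠ 0)
    (e : Matrix (Fin n) (Fin n) R) (h : ∀ i, ∑ j, e i j • KaehlerDifferential.D ℂ R (y j) =
      c • KaehlerDifferential.D ℂ R (f i)) :
    (c ^ n) ^ G.ω.m * G.ρ f = e.det ^ G.ω.m * G.ρ y := by
  have hc' : algebraMap R K c ≠ 0 := fun h0 => hc (IsFractionRing.injective R K (by simpa using h0))
  have h1 := G.ω.jac_of_eq (fun i => algebraMap R K (f i)) (fun i => algebraMap R K (y i))
    ((algebraMap R K c)⁻¹ • (algebraMap R K).mapMatrix e) fun i => by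
      have h2 := congrArg (KaehlerDifferential.map ℂ ℂ R K) (h i)
      simp only [map_sum, map_smul, KaehlerDifferential.map_D] at h2
      simp only [← algebraMap_smul K (e i _), ← algebraMap_smul K c] at h2
      rw [← inv_smul_eq_iff₀ hc', Finset.smul_sum] at h2
      rw [← h2]
      refine Finset.sum_congr rfl fun j _ => ?_
      rw [smul_smul]
      rfl
  rw [Matrix.det_smul, ← RingHom.map_det, Fintype.card_fin] at h1
  apply IsFractionRing.injective R K
  rw [map_mul, map_mul, map_pow, map_pow, map_pow, G.ρ_eq, G.ρ_eq, PForm.rho, PForm.rho, h1,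
    ← mul_div_assoc, ← mul_div_assoc, ← mul_pow, ← mul_pow, ← mul_assoc, ← mul_assoc, ← mul_pow,
    mul_inv_cancel₀ hc', one_pow, one_mul]

namespace An
variable {π : Proj R n} {g : R} (A : An π g)

/-- the analytic and the algebraic Jacobian agree -/
theorem jd_rho (G : WS R K n) (f : Fin n → R) (p : π.W A.Δ) :
    A.jd f p ^ G.ω.m * p.1 (G.ρ π.y) = p.1 (G.ρ f) := by
  have hp : p ∈ (A.S.e (A.S.idx p)).source := (A.S.cover p).choose_spec
  unfold jd
  generalize A.S.idx p = i at hp
  have h0 : A.S.e i p = π.at p.1 := by rw [A.S.e_eq i p hp, A.π_eq]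
  have ht : (A.S.e i).target ∈ 𝓝 (π.at p.1) :=
    (A.S.e i).open_target.mem_nhds (h0 ▸ (A.S.e i).map_source hp)
  have hz : (A.S.e i).symm (π.at p.1) = p := by rw [← h0, (A.S.e i).left_inv hp]
  have hs : ∀ r, DifferentiableAt ℂ (fun w => ((A.S.e i).symm w).1 r) (π.at p.1) := by
    intro r
    have h1 := (A.hol r i).differentiableAt ht
    have h2 : A.S.rep i (fun p => p.1 r) = fun w => ((A.S.e i).symm w).1 r := by
      funext w
      rw [Fuj.Sheets.rep, A.τ_eq, one_mul]
    rwa [h2] at h1
  have hy : ∀ v j, SJac1_d (fun w => ((A.S.e i).symm w).1) _ hs v (π.y j) = v j := by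
    intro v j
    have h1 : (fun w => ((A.S.e i).symm w).1 (π.y j)) =ᶠ[𝓝 (π.at p.1)] fun w => w j := by
      filter_upwards [ht] with w hw
      have h2 := A.S.e_eq i _ ((A.S.e i).map_target hw)
      rw [(A.S.e i).right_inv hw, A.π_eq] at h2
      exact (congrFun h2 j).symm
    show fderiv ℂ (fun w => ((A.S.e i).symm w).1 (π.y j)) _ v = _
    rw [h1.fderiv_eq, (hasFDerivAt_apply j _).fderiv]
    rfl
  rw [SJac1_det (fun w => ((A.S.e i).symm w).1) _ hs f]
  choose e he using fun k => SJac1_univ A.et (f k)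
  have hδ := A.δ_ne p
  have hc : A.δ ^ 2 ≠ 0 := pow_ne_zero 2 fun h => hδ (by rw [h, map_zero])
  have h1 := congrArg p.1 (SJac1_alg G f π.y hc (Matrix.of e) he)
  have h2 : (p.1.hom.toRingHom.mapMatrix (Matrix.of e) : Matrix (Fin n) (Fin n) ℂ) =
      p.1 (A.δ ^ 2) • Matrix.of fun k j =>
        SJac1_d (fun w => ((A.S.e i).symm w).1) _ hs (Pi.single j 1) (f k) := by
    ext k j
    have h3 := SJac1_pt _ _ (SJac1_d_mul (fun w => ((A.S.e i).symm w).1) _ hs (Pi.single j 1))
      (he k)
    simp only [hy, hz, Pi.single_apply, mul_ite, mul_one, mul_zero, Finset.sum_ite_eq',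
      Finset.mem_univ, if_true] at h3
    exact h3
  have h4 : p.1 (Matrix.of e).det = _ := (p.1.hom.toRingHom.map_det (Matrix.of e)).trans
    ((congrArg Matrix.det h2).trans (Matrix.det_smul _ _))
  rw [map_mul, map_mul, map_pow, map_pow, map_pow _ (Matrix.of e).det, h4, Fintype.card_fin,
    mul_pow, mul_assoc] at h1
  refine (mul_left_cancel₀ (pow_ne_zero _ (pow_ne_zero _ ?_)) h1).symm
  rw [map_pow]
  exact pow_ne_zero _ hδ

end An

end Vale.Agent.P282
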