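import Vale.Agent.P282.SJac0
import Vale.Agent.P271.HMeas

set_option linter.unusedSectionVars false

open scoped ENNReal TensorProduct Topology
open Filter MeasureTheory

noncomputable section

namespace Vale.Agent.P282

variable {R K : Type} [CommRing R] [IsDomain R] [Algebra ℂ R] [Algebra.FiniteType ℂ R]
  [IsIntegrallyClosed R] [Field K] [Algebra R K] [IsFractionRing R K] [Algebra ℂ K]
  [IsScalarTower ℂ R K] {n : ℕ}

theorem SJac2_fib (π : Proj R n) (f : Fin n → R) (hf : AlgebraicIndependent ℂ f) :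
    ∃ (a : R) (d : ℕ), a ≠ 0 ∧ ∀ (z : E n) (s : Finset (Pt R)),
      (∀ p ∈ s, p a ≠ 0 ∧ (fun j => p (f j)) = z) → s.card ≤ d := by
  classical
  have hb : IsTranscendenceBasis ℂ f :=
    hf.isTranscendenceBasis_of_trdeg_le_of_finite (by rw [π.trdeg]; simp)
  have hal := hb.isAlgebraic
  obtain ⟨T, hT⟩ := Algebra.FiniteType.out (R := ℂ) (A := R)
  choose P hP0 hP using fun r : R => hal.isAlgebraic r
  refine ⟨∏ r ∈ T, ((P r).leadingCoeff : R), ∏ r : T, (P r).natDegree, ?_, fun z s hs => ?_⟩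
  · refine Finset.prod_ne_zero_iff.2 fun r _ h => ?_
    exact Polynomial.leadingCoeff_ne_zero.2 (hP0 r) (Subtype.ext h)
  rcases s.eq_empty_or_nonempty with rfl | ⟨p0, hp0⟩
  · simp
  set φ : Algebra.adjoin ℂ (Set.range f) →+* ℂ :=
    (p0.hom.comp (Algebra.adjoin ℂ (Set.range f)).val).toRingHom with hφ
  have heq : ∀ p ∈ s, ∀ x : Algebra.adjoin ℂ (Set.range f), p (x : R) = φ x := by
    intro p hp x
    have h : Set.EqOn p.hom p0.hom (Set.range f) := by
      rintro _ ⟨j, rfl⟩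
      exact (congrFun (hs p hp).2 j).trans (congrFun (hs p0 hp0).2 j).symm
    exact AlgHom.eqOn_adjoin_iff.2 h x.2
  have hne : ∀ r ∈ T, (P r).map φ ≠ 0 := by
    intro r hr h
    have h1 := (hs p0 hp0).1
    rw [map_prod] at h1
    refine Finset.prod_ne_zero_iff.1 h1 r hr ?_
    rw [heq p0 hp0]
    have := congrArg (fun Q => Polynomial.coeff Q (P r).natDegree) h
    simpa using this
  have hroot : ∀ p ∈ s, ∀ r ∈ T, p r ∈ ((P r).map φ).roots.toFinset := by
    intro p hp r hr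
    rw [Multiset.mem_toFinset, Polynomial.mem_roots (hne r hr), Polynomial.IsRoot.def,
      Polynomial.eval_map]
    have h1 := congrArg p.hom (hP r)
    rw [map_zero, Polynomial.aeval_def] at h1
    have h2 := Polynomial.hom_eval₂ (P r) (algebraMap (Algebra.adjoin ℂ (Set.range f)) R)
      p.hom.toRingHom r
    have h3 : p.hom.toRingHom.comp (algebraMap (Algebra.adjoin ℂ (Set.range f)) R) = φ :=
      RingHom.ext fun x => heq p hp x
    rw [h3] at h2
    exact h2.symm.trans h1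
  have hc : s.card ≤ (Fintype.piFinset fun r : T => ((P r).map φ).roots.toFinset).card := by
    refine Finset.card_le_card_of_injOn (fun p r => p (r : R)) (fun p hp => ?_) ?_
    · exact Finset.mem_coe.2 (Fintype.mem_piFinset.2 fun r => hroot p hp r r.2)
    · intro p _ q _ h
      exact AlgHom.ext_of_adjoin_eq_top hT fun r hr => congrFun h ⟨r, hr⟩
  refine hc.trans ?_
  rw [Fintype.card_piFinset]
  exact Finset.prod_le_prod' fun r _ => (Multiset.toFinset_card_le _).trans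
    ((Polynomial.card_roots' _).trans Polynomial.natDegree_map_le)

namespace An
variable {π : Proj R n} {g : R} (A : An π g)

theorem SJac2_diff (f : Fin n → R) (i : A.S.ι) :
    DifferentiableOn ℂ (fun z j => ((A.S.e i).symm z).1 (f j)) (A.S.e i).target := by
  refine differentiableOn_pi.2 fun j => (A.hol (f j) i).congr fun z _ => ?_
  simp [Fuj.Sheets.rep, A.τ_eq]

theorem SJac2_loc (f : Fin n → R) (p : π.W A.Δ) (hp : A.jd f p ≠ 0) :
    ∃ O ∈ 𝓝 p, IsOpen O ∧ O ⊆ (A.S.e (A.S.idx p)).source ∧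
      Set.InjOn (fun q : π.W A.Δ => fun j => q.1 (f j)) O := by
  have hs : p ∈ (A.S.e (A.S.idx p)).source := (A.S.cover p).choose_spec
  have he : A.S.e (A.S.idx p) p = π.at p.1 := (A.S.e_eq _ p hs).trans (A.π_eq p)
  have ht : π.at p.1 ∈ (A.S.e (A.S.idx p)).target := he ▸ (A.S.e _).map_source hs
  have hc := (Vale.Agent.P274.SCV1Aux.cont_diff (A.S.e (A.S.idx p)).open_target 1
    (A.SJac2_diff f (A.S.idx p))).contDiffAt ((A.S.e _).open_target.mem_nhds ht)
  have hst := hc.hasStrictFDerivAt (by simp)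
  rw [← ContinuousLinearMap.coe_toContinuousLinearEquivOfDetNeZero _ hp] at hst
  have hl := hst.eventually_left_inverse
  generalize hst.localInverse _ _ _ = G at hl
  have h2 := (he ▸ ((A.S.e (A.S.idx p)).continuousAt hs).tendsto :
    Tendsto (A.S.e (A.S.idx p)) (𝓝 p) (𝓝 (π.at p.1))).eventually hl
  obtain ⟨O, h3, h4, h5⟩ := mem_nhds_iff.1 (h2.and ((A.S.e _).open_source.mem_nhds hs))
  refine ⟨O, h4.mem_nhds h5, h4, fun q hq => (h3 hq).2, fun q hq q' hq' h => ?_⟩
  have a1 := (h3 hq).1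
  have a2 := (h3 hq').1
  rw [(A.S.e _).left_inv (h3 hq).2] at a1
  rw [(A.S.e _).left_inv (h3 hq').2] at a2
  refine (A.S.e (A.S.idx p)).injOn (h3 hq).2 (h3 hq').2 ?_
  rw [← a1, ← a2]
  exact congrArg _ h

theorem SJac2_meas (f : Fin n → R) (i : A.S.ι) {Q : Set (π.W A.Δ)} (hQ : MeasurableSet Q)
    (hs : Q ⊆ (A.S.e i).source) (hi : Set.InjOn (fun q : π.W A.Δ => fun j => q.1 (f j)) Q) :
    MeasurableSet ((fun q : π.W A.Δ => fun j => q.1 (f j)) '' Q) := by
  have hm : MeasurableSet ((A.S.e i).target ∩ (A.S.e i).symm ⁻¹' Q) := by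
    have h1 : Measurable ((A.S.e i).target.domRestrict (A.S.e i).symm) :=
      (A.S.e i).continuousOn_symm.domRestrict.measurable
    have h2 := (A.S.e i).open_target.measurableSet.subtype_image (h1 hQ)
    convert h2 using 1
    ext z
    exact ⟨fun h => ⟨⟨z, h.1⟩, h.2, rfl⟩, fun ⟨w, h1, h2⟩ => h2 ▸ ⟨w.2, h1⟩⟩
  have e : (fun q : π.W A.Δ => fun j => q.1 (f j)) '' Q =
      (fun z j => ((A.S.e i).symm z).1 (f j)) '' ((A.S.e i).target ∩ (A.S.e i).symm ⁻¹' Q) := by
    ext z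
    constructor
    · rintro ⟨q, hq, rfl⟩
      refine ⟨A.S.e i q, ⟨(A.S.e i).map_source (hs hq), ?_⟩, ?_⟩
      · simpa [(A.S.e i).left_inv (hs hq)] using hq
      · simp only [(A.S.e i).left_inv (hs hq)]
    · rintro ⟨w, hw, rfl⟩
      exact ⟨_, hw.2, rfl⟩
  rw [e]
  refine hm.image_of_continuousOn_injOn
    ((A.SJac2_diff f i).continuousOn.mono Set.inter_subset_left) fun w hw w' hw' h => ?_
  exact (A.S.e i).symm.injOn hw.1 hw'.1 (hi hw.2 hw'.2 h)

/-- area formula, upper bound -/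
theorem area_le (f : Fin n → R) (hf : AlgebraicIndependent ℂ f) : ∃ d : ℕ, ∀ F : E n → ℝ≥0∞,
    Measurable F → ∫⁻ p, F (fun j => p.1 (f j)) * ENNReal.ofReal (‖A.jd f p‖ ^ 2) ∂A.S.μ ≤
      d * ∫⁻ z, F z := by
  classical
  obtain ⟨a, d, ha, hd⟩ := SJac2_fib π f hf
  refine ⟨d, fun F hF => ?_⟩
  have := Pt.secondCountable (R := R)
  have : SecondCountableTopology (π.W A.Δ) := TopologicalSpace.Subtype.secondCountableTopology _
  set U : Set (π.W A.Δ) := {p | A.jd f p ≠ 0 ∧ p.1 a ≠ 0} with hU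
  have hUo : IsOpen U := (isOpen_ne_fun (A.jd_cont f) continuous_const).inter
    (isOpen_ne_fun ((Pt.cont a).comp continuous_subtype_val) continuous_const)
  choose! O hO1 hO2 hO3 hO4 using A.SJac2_loc f
  obtain ⟨T, hT1, hT2, hT3⟩ := TopologicalSpace.countable_cover_nhdsWithin (f := O) (s := U)
    fun p hp => mem_nhdsWithin_of_mem_nhds (hO1 p hp.1)
  have : Countable T := hT2.to_subtype
  obtain ⟨D, d1, d2, d3, d4⟩ := Fuj.meas_exists_disj (fun i : T => O i ∩ U)
    fun i => ((hO2 i (hT1 i.2).1).inter hUo).measurableSet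
  have hinj : ∀ i : T, Set.InjOn (fun q : π.W A.Δ => fun j => q.1 (f j)) (D i) :=
    fun i => (hO4 i (hT1 i.2).1).mono ((d3 i).trans Set.inter_subset_left)
  have hmeas : ∀ i : T, MeasurableSet ((fun q : π.W A.Δ => fun j => q.1 (f j)) '' D i) :=
    fun i => A.SJac2_meas f _ (d1 i)
      (((d3 i).trans Set.inter_subset_left).trans (hO3 i (hT1 i.2).1)) (hinj i)
  have h1 : ∫⁻ p, F (fun j => p.1 (f j)) * ENNReal.ofReal (‖A.jd f p‖ ^ 2) ∂A.S.μ ≤
      ∫⁻ p in ⋃ i, D i, F (fun j => p.1 (f j)) * ENNReal.ofReal (‖A.jd f p‖ ^ 2) ∂A.S.μ := by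
    rw [← lintegral_indicator (MeasurableSet.iUnion d1)]
    refine lintegral_mono_ae ?_
    filter_upwards [measure_eq_zero_iff_ae_notMem.1 (A.null_zero ha)] with p hp
    by_cases h0 : A.jd f p = 0
    · simp [h0]
    · have hpU : p ∈ U := ⟨h0, hp⟩
      obtain ⟨i, hi, hpi⟩ := Set.mem_iUnion₂.1 (hT3 hpU)
      rw [Set.indicator_of_mem (d4 ⟨i, hi⟩ ⟨hpi, hpU⟩)]
  refine h1.trans ?_
  rw [lintegral_iUnion d1 d2]
  simp only [fun i => A.area_inj f (d1 i) (hinj i) hF, fun i => (lintegral_indicator (hmeas i)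
    (μ := volume) F).symm]
  rw [← lintegral_tsum fun i => (hF.indicator (hmeas i)).aemeasurable,
    ← lintegral_const_mul _ hF]
  refine lintegral_mono fun z => ?_
  rw [ENNReal.tsum_eq_iSup_sum]
  refine iSup_le fun t => ?_
  simp only [Set.indicator_apply]
  rw [← Finset.sum_filter, Finset.sum_const, nsmul_eq_mul]
  refine mul_le_mul_left (Nat.cast_le.2 ?_) _
  have hch : ∀ i : T, z ∈ (fun q : π.W A.Δ => fun j => q.1 (f j)) '' D i →
      ∃ q : π.W A.Δ, q ∈ D i ∧ (fun j => q.1 (f j)) = z := fun i h => h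
  choose q hq1 hq2 using hch
  set t' := t.filter fun i => z ∈ (fun q : π.W A.Δ => fun j => q.1 (f j)) '' D i with ht'
  have hm : ∀ i : t', z ∈ (fun q : π.W A.Δ => fun j => q.1 (f j)) '' D i :=
    fun i => (Finset.mem_filter.1 i.2).2
  have hi : Function.Injective fun i : t' => (q i (hm i)).1 := by
    intro i j h
    have h' : q i (hm i) = q j (hm j) := Subtype.ext h
    by_contra hij
    exact Set.disjoint_left.1 (d2 fun e => hij (Subtype.ext e)) (hq1 i (hm i)) (h' ▸ hq1 j (hm j))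
  rw [← Fintype.card_coe t', ← Finset.card_univ, ← Finset.card_image_of_injective _ hi]
  refine hd z _ fun p hp => ?_
  obtain ⟨i, -, rfl⟩ := Finset.mem_image.1 hp
  exact ⟨(d3 i (hq1 i (hm i))).2.2, hq2 i (hm i)⟩

end An

end Vale.Agent.P282
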