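import Vale.Agent.P282.SWot
import Vale.Agent.P282.SCoef
import Vale.Agent.P282.SWt0
import Vale.Agent.P282.SWt1
import Vale.Agent.P282.SA2
import Vale.Agent.P282.SExh

set_option linter.unusedSectionVars false

open scoped ENNReal TensorProduct Topology
open Filter MeasureTheory

noncomputable section

namespace Vale.Agent.P282

variable {R K : Type} [CommRing R] [IsDomain R] [Algebra ℂ R] [Algebra.FiniteType ℂ R]
  [IsIntegrallyClosed R] [Field K] [Algebra R K] [IsFractionRing R K] [Algebra ℂ K]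
  [IsScalarTower ℂ R K] {n : ℕ}

theorem SM1_lim {x y B a : ℝ} (ha : 0 < a) (h : ∀ᶠ η in 𝓝[>] (0 : ℝ), x ≤ y + B * η ^ a) :
    x ≤ y := by
  have h1 : Tendsto (fun η : ℝ => y + B * η ^ a) (𝓝[>] 0) (𝓝 (y + B * 0 ^ a)) :=
    (((Real.continuous_rpow_const ha.le).tendsto 0).const_mul B |>.const_add y).mono_left
      nhdsWithin_le_nhds
  rw [Real.zero_rpow ha.ne', mul_zero, add_zero] at h1
  exact ge_of_tendsto h1 h

theorem SM1_sq {x d B u : ℝ} (hd : 0 < d) (hB : 0 ≤ B) (hu : 0 ≤ u)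
    (h : ENNReal.ofReal (x ^ 2 * d ^ 2) ≤ ENNReal.ofReal (B * u ^ 2)) : x ≤ √B / d * u := by
  rw [ENNReal.ofReal_le_ofReal_iff (by positivity), ← mul_pow] at h
  rw [div_mul_eq_mul_div, le_div_iff₀ hd, ← Real.sqrt_sq hu, ← Real.sqrt_mul hB]
  exact Real.le_sqrt_of_sq_le h

theorem SM1_pw {x y C s : ℝ} (hx : 0 < x) (hC : 0 < C) (hy : 0 ≤ y) (hs : 0 ≤ s) (h : x ≤ C * y) :
    y ^ (-s) ≤ C ^ s * x ^ (-s) := by
  have h1 := Real.rpow_le_rpow_of_nonpos hx h (neg_nonpos.2 hs)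
  have h2 := Real.rpow_pos_of_pos hC s
  rw [Real.mul_rpow hC.le hy, Real.rpow_neg hC.le, inv_mul_le_iff₀ h2] at h1
  exact h1

theorem SM1_abs (C : ℝ) {u v : ℝ} (hu : 0 ≤ u) :
    ENNReal.ofReal (C * u) * ENNReal.ofReal v ≤ ENNReal.ofReal (|C| * u * v) := by
  rw [ENNReal.ofReal_mul (p := |C| * u) (by positivity)]
  exact mul_le_mul_left (ENNReal.ofReal_le_ofReal (mul_le_mul_of_nonneg_right (le_abs_self C) hu)) _

section

variable {X W : Type} [NormedAddCommGroup X] [NormedSpace ℝ X] [NormedSpace ℂ X]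
  [IsScalarTower ℝ ℂ X] [FiniteDimensional ℂ X] [MeasurableSpace X] [BorelSpace X]
  [TopologicalSpace W] [T2Space W] [MeasurableSpace W] [BorelSpace W]
  {vol : Measure X} [vol.IsAddHaarMeasure]

theorem SM1_sfin [SFinite vol] (S : Fuj.Sheets X W vol) : SFinite S.μ := by
  have := S.cnt
  have h : ∀ i, SFinite (S.μ.restrict (S.e i).source) := fun i => S.μ_eq i ▸ inferInstance
  refine sFinite_of_absolutelyContinuous (ν := Measure.sum fun i => S.μ.restrict (S.e i).source)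
    (Measure.absolutelyContinuous_of_le (le_trans (le_of_eq ?_) Measure.restrict_iUnion_le))
  rw [Set.iUnion_eq_univ_iff.2 S.cover, Measure.restrict_univ]

theorem SM1_near (S : Fuj.Sheets X W vol) {r : ℝ} (hr : 0 < r) {Φ : W → ℂ → ℝ} (hΦ : PshP S r Φ)
    {k : ℕ} (p : Fin k → W) (b : Fin k → ℂ) (a : ℝ) {Q : ℝ} (hQ : 0 ≤ Q) :
    ∃ B : ℝ, ∀ᶠ η in 𝓝[>] (0 : ℝ), ∀ F : W → ℂ → ℂ, HolP S η F →
      (Measurable fun q : W × ℂ => F q.1 q.2) →
      ∫⁻ t in Metric.ball (0 : ℂ) η, ∫⁻ p, ENNReal.ofReal (‖F p t‖ ^ 2 * Real.exp (-Φ p t)) ∂S.μ ≤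
        ENNReal.ofReal (Q * η ^ (2 + 2 * a)) → ‖∑ i, b i * F (p i) 0‖ ≤ B * η ^ a := by
  choose C η₀ h0 h using fun i => mv_prod S hr (fun i => (hΦ i).1.continuousOn) (p i)
  refine ⟨∑ i, ‖b i‖ * √(|C i| * Q), ?_⟩
  filter_upwards [eventually_all.2 fun i => Ioc_mem_nhdsGT (h0 i), self_mem_nhdsWithin]
    with η hη hη0 F hF hm hb
  have h1 : 0 < η := hη0
  rw [Finset.sum_mul]
  refine (norm_sum_le _ _).trans (Finset.sum_le_sum fun i _ => ?_)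
  rw [norm_mul, mul_assoc]
  refine mul_le_mul_of_nonneg_left ?_ (norm_nonneg _)
  have h2 := (h i η h1 (hη i).2 F hF hm).trans (mul_le_mul_right hb _)
  rw [← mul_one (C i)] at h2
  have h3 := SM1_sq (B := |C i| * Q) (u := η * η ^ a) h1 (by positivity) (by positivity)
    (h2.trans ((SM1_abs _ zero_le_one).trans (le_of_eq ?_)))
  · refine h3.trans (le_of_eq ?_)
    field_simp
  · rw [Real.rpow_add h1, mul_comm 2 a, Real.rpow_mul h1.le, Real.rpow_two, Real.rpow_two]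
    ring_nf

end

theorem SM1_pos (π : Proj R n) (j : ℕ → ℕ) (s : ℕ → R) (L N D : ℕ) {ε : ℝ} (hε : 0 < ε)
    (p : Pt R) : 0 < rs π j s L N D ε p := by
  have := one_le_gr (π.at p)
  unfold rs
  positivity

theorem SM1_J (G : WS R K n) (π : Proj R n) (A : An π (G.ρ π.y)) (f : R) (j : ℕ → ℕ) {s : ℕ → R}
    (h0 : s 0 ≠ 0) {L : ℕ} (hL : 0 < L) (N D : ℕ) {ε e Q : ℝ} (hε : 0 < ε) (he : 0 ≤ e)
    (hQ : 0 ≤ Q) (M : ℝ) :
    ∫⁻ p, ENNReal.ofReal (‖p.1 f‖ ^ 2 * (Q * rs π j s L N D ε p.1 ^ (-e) * dens G π M p.1))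
      ∂A.S.μ ≤ ENNReal.ofReal Q *
      ∫⁻ p, ENNReal.ofReal (‖p.1 f‖ ^ 2 * rs π j s L N 0 0 p.1 ^ (-e) * dens G π M p.1) ∂A.S.μ := by
  rw [← lintegral_const_mul' _ _ ENNReal.ofReal_ne_top]
  refine lintegral_mono_ae ?_
  filter_upwards [measure_eq_zero_iff_ae_notMem.1 (A.null_zero h0)] with p hp
  rw [← ENNReal.ofReal_mul hQ]
  refine ENNReal.ofReal_le_ofReal ?_
  have h1 : 0 < ‖p.1 (s 0)‖ := norm_pos_iff.2 hp
  have h2 : 0 < rs π j s L N 0 0 p.1 := by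
    rw [rs, zero_mul, add_zero]
    exact Finset.sum_pos' (fun _ _ => by positivity) ⟨0, Finset.mem_range.2 hL, by positivity⟩
  have h3 : rs π j s L N 0 0 p.1 ≤ rs π j s L N D ε p.1 := by
    have := one_le_gr (π.at p.1)
    rw [rs, rs, zero_mul]
    exact add_le_add le_rfl (by positivity)
  have h4 := Real.rpow_le_rpow_of_nonpos h2 h3 (neg_nonpos.2 he)
  have h5 := dens_nonneg G π M p.1
  calc _ = Q * (‖p.1 f‖ ^ 2 * rs π j s L N D ε p.1 ^ (-e) * dens G π M p.1) := by ring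
    _ ≤ _ := by gcongr

theorem SM1_ae (G : WS R K n) (π : Proj R n) (A : An π (G.ρ π.y)) (M : ℝ)
    {F : π.W A.Δ → ℂ → ℂ} (hm : Measurable fun q : π.W A.Δ × ℂ => F q.1 q.2)
    {w : π.W A.Δ → ℂ → ℝ} {T : Set ℂ} (hT : MeasurableSet T) {Q : ℝ} (hQ : 0 ≤ Q)
    (hw : ∀ t ∈ T, ∀ p, dens G π M p.1 ≤ Q * w p t)
    (h : ∫⁻ t in T, ∫⁻ p, ENNReal.ofReal (‖F p t‖ ^ 2 * w p t) ∂A.S.μ ≠ ⊤) :
    ∀ᵐ t ∂volume.restrict T, ∫⁻ p, ENNReal.ofReal (‖F p t‖ ^ 2 * dens G π M p.1) ∂A.S.μ < ⊤ := by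
  have := SM1_sfin A.S
  refine ae_lt_top (Measurable.lintegral_prod_left' (f := fun q : π.W A.Δ × ℂ =>
    ENNReal.ofReal (‖F q.1 q.2‖ ^ 2 * dens G π M q.1.1)) ((hm.norm.pow_const 2).mul
      ((dens_meas G π M).comp (measurable_subtype_coe.comp measurable_fst))).ennreal_ofReal) ?_
  refine ne_top_of_le_ne_top (ENNReal.mul_ne_top (a := ENNReal.ofReal Q) ENNReal.ofReal_ne_top h) ?_
  rw [← lintegral_const_mul' _ _ ENNReal.ofReal_ne_top]
  refine setLIntegral_mono' hT fun t ht => ?_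
  rw [← lintegral_const_mul' _ _ ENNReal.ofReal_ne_top]
  refine lintegral_mono fun p => ?_
  rw [← ENNReal.ofReal_mul hQ, mul_left_comm]
  exact ENNReal.ofReal_le_ofReal (mul_le_mul_of_nonneg_left (hw t ht p) (by positivity))

/-- the integral at the origin is infinite -/
theorem m1 (G : WS R K n) (π : Proj R n) (A : An π (G.ρ π.y)) {f : R} {c₀ : ℝ} (hc : 0 ≤ c₀)
    (j : ℕ → ℕ) (F : ℕ → ℂ → R) (hF : ∀ l, AFam (F l)) (h0 : F 0 0 ≠ 0)
    (ξ : ℂ → R →ₗ[ℂ] ℂ) (hξ : ∀ r, AnalyticAt ℂ (fun t => ξ t r) 0) (hf : ξ 0 f ≠ 0)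
    (hQ : QHyp G π A c₀ j F ξ) {L N : ℕ} (hL : 0 < L) (hN : 0 < N) (hj : ∀ l < L, j l ∣ N) {c M : ℝ}
    (hc' : c₀ < c) (hM : 0 ≤ M) :
    ∫⁻ p, ENNReal.ofReal (‖p.1 f‖ ^ 2 * rs π j (fun l => F l 0) L N 0 0 p.1 ^ (-(c / N)) *
      dens G π M p.1) ∂A.S.μ = ⊤ := by
  by_contra hI
  obtain ⟨I, hI0, hIe⟩ : ∃ I : ℝ, 0 ≤ I ∧ ENNReal.ofReal I = _ :=
    ⟨_, ENNReal.toReal_nonneg, ENNReal.ofReal_toReal hI⟩
  have hc0 : 0 ≤ c := hc.trans hc'.le
  have hs : 0 ≤ c / N := by positivity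
  obtain ⟨D, C, r1, hC, hr1, hcmp⟩ := rs_cmp π j F hF L N
  obtain ⟨r2, hr2, hpsh⟩ := phi_psh G π A j F hF L
  obtain ⟨V₀, hV₀, hA2⟩ := a2 G π A (M + D * (c / N))
  have hfV : f ∈ V₀ ⊔ Submodule.span ℂ {f} :=
    Submodule.mem_sup_right (Submodule.mem_span_singleton_self f)
  obtain ⟨r3, hr3, hxi⟩ := xi_disc (V₀ ⊔ Submodule.span ℂ {f}) hξ
  have hm : (0 : ℝ) < min (min r1 r2) (min r3 1) / 3 := by positivity
  obtain ⟨δ, ⟨κ, C1, hκ, hQ'⟩, hδ, hδ'⟩ := ((hQ L N D c M (V₀ ⊔ Submodule.span ℂ {f})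
    inferInstance hN hj hc').and_eventually (Ioo_mem_nhdsGT hm)).exists
  rw [lt_div_iff₀' three_pos, lt_min_iff, lt_min_iff, lt_min_iff] at hδ'
  obtain ⟨⟨d1, d2⟩, d3, d4⟩ := hδ'
  have ha : 0 < min (κ / 4) 1 := by positivity
  have hb : 0 < κ - 2 * min (κ / 4) 1 := by linarith [min_le_left (κ / 4) 1]
  obtain ⟨C2, hC2, hw⟩ := wot A.S A.τ_eq A.exh ha (min_le_right _ _)
  set a := min (κ / 4) 1
  obtain ⟨k, p, b, hev⟩ := A.eval_span (V₀ ⊔ Submodule.span ℂ {f}) (ξ 0)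
  have hCs := Real.rpow_pos_of_pos hC (c / N)
  have hT : MeasurableSet {t : ℂ | δ ≤ ‖t‖ ∧ ‖t‖ ≤ 2 * δ} :=
    (measurableSet_le measurable_const measurable_norm).inter
      (measurableSet_le measurable_norm measurable_const)
  refine hf (norm_le_zero_iff.1 (SM1_lim (B := √(2 * |C1| * C2 * C ^ (c / N) * I) / δ) hb ?_))
  filter_upwards [Ioc_mem_nhdsGT hδ] with r ⟨hr, hrδ⟩
  have hε : 0 < r ^ 2 := by positivity
  have hε1 : r ^ 2 ≤ 1 := by nlinarith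
  have hΦ := (hpsh N D (r ^ 2) c M hε hc0 hM).mono d2.le
  have hE := fun (q : π.W A.Δ) t => exp_Phi G π j F L N D hε c M (A.g_ne q) t
  have hJ := SM1_J G π A f j (s := fun l => F l 0) h0 hL N D hε hs hCs.le M
  rw [← hIe, ← ENNReal.ofReal_mul hCs.le] at hJ
  have hr4 := Real.rpow_pos_of_pos hr (-(4 * a))
  obtain ⟨B, hB⟩ := SM1_near A.S (by positivity) hΦ p b a
    (Q := C2 * r ^ (-(4 * a)) * (C ^ (c / N) * I)) (by positivity)
  rw [zero_add]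
  refine SM1_lim (B := B) ha ?_
  filter_upwards [hB, Ioc_mem_nhdsGT (half_pos hr)] with η hB ⟨hη, hηr⟩
  obtain ⟨Fn, hFn, hFm, b1, b2⟩ := hw (3 * δ) r η hη (by linarith) (by linarith) d4.le _ hΦ _
    (A.hol f) (fun q => C ^ (c / N) * rs π j (fun l => F l 0) L N D (r ^ 2) q.1 ^ (-(c / N)) *
      dens G π M q.1) (fun q t ht => by
        rw [hE]
        exact mul_le_mul_of_nonneg_right (SM1_pw (SM1_pos _ _ _ _ _ _ hε _) hC
          (SM1_pos _ _ _ _ _ _ hε _).le hs ((hcmp _ hε hε1 t (by linarith) q.1).2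
            (pow_le_pow_left₀ (norm_nonneg t) ht 2))) (dens_nonneg G π M q.1))
    (ne_top_of_le_ne_top ENNReal.ofReal_ne_top hJ)
  have hsub : {t : ℂ | δ ≤ ‖t‖ ∧ ‖t‖ ≤ 2 * δ} ⊆ Metric.ball 0 (3 * δ) \ Metric.ball 0 r :=
    fun t ht => ⟨mem_ball_zero_iff.2 (by linarith [ht.2]), fun h => by
      linarith [mem_ball_zero_iff.1 h, ht.1]⟩
  replace b1 := (lintegral_mono_set hsub).trans (b1.trans (mul_le_mul_right hJ _))
  replace b2 := b2.trans (mul_le_mul_right hJ _)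
  rw [← ENNReal.ofReal_mul (by positivity)] at b1 b2
  have hae := SM1_ae G π A (M + D * (c / N)) hFm hT hCs.le (fun t ht q => by
    have h1 := one_le_gr (π.at q.1)
    rw [hE, dens_add, ← mul_assoc, mul_comm, ← mul_neg, Real.rpow_natCast_mul (by linarith)]
    exact mul_le_mul_of_nonneg_right (SM1_pw (SM1_pos _ _ _ _ _ _ hε _) hC (by positivity) hs
      (hcmp _ hε hε1 t (by linarith [ht.2]) q.1).1) (dens_nonneg G π M q.1))
    (ne_top_of_le_ne_top ENNReal.ofReal_ne_top b1)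
  obtain ⟨H, hHV, hH, hd⟩ := A.coef (V₀ ⊔ Submodule.span ℂ {f}) (r := 3 * δ) hδ (by linarith)
    hFn.param (by
      filter_upwards [hae, ae_restrict_mem hT] with t h1 h2
      obtain ⟨h, h3, h4⟩ := hA2 _ (hFn.slice A.τ_eq (by linarith [h2.2])) h1.ne
      exact ⟨h, Submodule.mem_sup_left h3, h4⟩)
  have h1 := mv_ann hδ (r := 3 * δ) (by linarith)
    (hd ξ fun u hu => (hxi u hu).mono (Metric.ball_subset_ball d3.le))
  have h2 : ∫⁻ t in {t : ℂ | δ ≤ ‖t‖ ∧ ‖t‖ ≤ 2 * δ}, ENNReal.ofReal (‖ξ t (H t)‖ ^ 2) ≤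
      ENNReal.ofReal (C1 * (r ^ 2) ^ κ) *
        ENNReal.ofReal (C2 * r ^ (-(4 * a)) * (C ^ (c / N) * I)) := by
    refine le_trans ?_ (mul_le_mul_right b1 _)
    rw [← lintegral_const_mul' _ _ ENNReal.ofReal_ne_top]
    refine setLIntegral_mono' hT fun t ht => (hQ' t ht.1 ht.2 _ hε hε1 _ (hHV t)).trans
      (le_of_eq ?_)
    simp only [hE, hH t (by linarith [ht.2]), mul_assoc]
  have h3 : ‖ξ 0 (H 0)‖ ≤ √(2 * |C1| * C2 * C ^ (c / N) * I) / δ * r ^ (κ - 2 * a) := by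
    refine SM1_sq hδ (by positivity) (by positivity) (h1.trans ((mul_le_mul_right
      (h2.trans (SM1_abs _ (by positivity))) _).trans (le_of_eq ?_)))
    have h4 : (r ^ (κ - 2 * a)) ^ 2 = (r ^ 2) ^ κ * r ^ (-(4 * a)) := by
      rw [← Real.rpow_natCast_mul hr.le, ← Real.rpow_mul_natCast hr.le, ← Real.rpow_add hr]
      congr 1
      push_cast
      ring
    rw [h4, ← ENNReal.ofReal_ofNat, ← ENNReal.ofReal_mul zero_le_two]
    congr 1
    ring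
  have h4 := hB (fun q t => Fn q t - q.1 f) ((hFn.sub_hol A.τ_eq (A.hol f)).mono (by linarith))
    (hFm.sub (((Pt.cont f).comp continuous_subtype_val).measurable.comp measurable_fst))
    (b2.trans (le_of_eq (by congr 1; ring)))
  have h5 : ∑ i, b i * (Fn (p i) 0 - (p i).1 f) = ξ 0 (H 0) - ξ 0 f := by
    rw [← map_sub, hev _ (Submodule.sub_mem _ (hHV 0) hfV)]
    simp only [hH 0 (by simpa using hδ), map_sub]
  rw [h5] at h4
  linarith [norm_sub_norm_le (ξ 0 f) (ξ 0 (H 0)), norm_sub_rev (ξ 0 f) (ξ 0 (H 0))]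

end Vale.Agent.P282
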