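import Vale.Agent.P282.SDefs

set_option linter.unusedSectionVars false

open scoped ENNReal TensorProduct Topology ContDiff
open Filter MeasureTheory

noncomputable section

namespace Vale.Agent.P282

variable {X W : Type} [NormedAddCommGroup X] [NormedSpace ℝ X] [NormedSpace ℂ X]
  [IsScalarTower ℝ ℂ X] [FiniteDimensional ℂ X] [MeasurableSpace X] [BorelSpace X]
  [TopologicalSpace W] [T2Space W] [MeasurableSpace W] [BorelSpace W]
  {vol : Measure X} [vol.IsAddHaarMeasure]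

theorem SMv_param {S : Fuj.Sheets X W vol} {r : ℝ} {F : W → ℂ → ℂ} (h : HolP S r F) (p : W) :
    DifferentiableOn ℂ (F p) (Metric.ball 0 r) := by
  obtain ⟨i, hi⟩ := S.cover p
  have h1 : DifferentiableOn ℂ (fun t : ℂ => Lc S i F (S.e i p, t)) (Metric.ball 0 r) :=
    (h i).comp (by fun_prop) fun t ht => ⟨(S.e i).map_source hi, ht⟩
  refine h1.congr fun t _ => ?_
  simp only [Lc, (S.e i).left_inv hi]

theorem SMv_slice {S : Fuj.Sheets X W vol} {r : ℝ} {F : W → ℂ → ℂ} (h : HolP S r F) (i : S.ι)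
    {t : ℂ} (ht : t ∈ Metric.ball (0 : ℂ) r) :
    DifferentiableOn ℂ (fun z => F ((S.e i).symm z) t) (S.e i).target :=
  (h i).comp (f := fun z : X => (z, t)) (by fun_prop) fun _ hz => ⟨hz, ht⟩

theorem SMv_chart (S : Fuj.Sheets X W vol) (i : S.ι) {U : Set X} (hU : IsOpen U)
    (hs : U ⊆ (S.e i).target) {g k : W → ℝ≥0∞} (hg : Measurable g)
    (h : ∀ z ∈ U, g ((S.e i).symm z) ≤ k ((S.e i).symm z)) :
    ∫⁻ z in U, g ((S.e i).symm z) ∂vol ≤ ∫⁻ p, k p ∂S.μ := by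
  have hA : IsOpen ((S.e i).source ∩ S.e i ⁻¹' U) := (S.e i).isOpen_inter_preimage hU
  calc ∫⁻ z in U, g ((S.e i).symm z) ∂vol
      = ∫⁻ z in U, ((S.e i).source ∩ S.e i ⁻¹' U).indicator g ((S.e i).symm z) ∂vol := by
        refine setLIntegral_congr_fun hU.measurableSet fun z hz => ?_
        have h1 : (S.e i).symm z ∈ (S.e i).source ∩ S.e i ⁻¹' U := by
          refine ⟨(S.e i).map_target (hs hz), ?_⟩
          rw [Set.mem_preimage, (S.e i).right_inv (hs hz)]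
          exact hz
        exact (Set.indicator_of_mem h1 g).symm
    _ ≤ ∫⁻ z in (S.e i).target, ((S.e i).source ∩ S.e i ⁻¹' U).indicator g ((S.e i).symm z) ∂vol :=
        lintegral_mono_set hs
    _ = ∫⁻ p in (S.e i).source, ((S.e i).source ∩ S.e i ⁻¹' U).indicator g p ∂S.μ :=
        (S.lintegral_source i (hg.indicator hA.measurableSet)).symm
    _ ≤ ∫⁻ p, ((S.e i).source ∩ S.e i ⁻¹' U).indicator g p ∂S.μ :=
        setLIntegral_le_lintegral _ _
    _ ≤ ∫⁻ p, k p ∂S.μ := by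
        refine lintegral_mono fun p => Set.indicator_le' (fun p hp => ?_) (fun _ _ => zero_le) p
        have := h _ hp.2
        rwa [(S.e i).left_inv hp.1] at this

theorem mv_ann {ψ : ℂ → ℂ} {r δ : ℝ} (hδ : 0 < δ) (hr : 2 * δ < r)
    (h : DifferentiableOn ℂ ψ (Metric.ball 0 r)) : ENNReal.ofReal (‖ψ 0‖ ^ 2 * δ ^ 2) ≤
      2 * ∫⁻ t in {t : ℂ | δ ≤ ‖t‖ ∧ ‖t‖ ≤ 2 * δ}, ENNReal.ofReal (‖ψ t‖ ^ 2) := by
  have h1 : Metric.closedBall (0 : ℂ) (3 * δ / 2) ⊆ Metric.ball 0 r :=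
    Metric.closedBall_subset_ball (by linarith)
  have h0 : 0 < 3 * δ / 2 := by positivity
  obtain ⟨z, hz, hm⟩ := Complex.exists_mem_frontier_isMaxOn_norm (f := ψ)
    (U := Metric.ball (0 : ℂ) (3 * δ / 2)) Metric.isBounded_ball ⟨0, Metric.mem_ball_self h0⟩
    (DifferentiableOn.diffContOnCl (by rw [closure_ball _ h0.ne']; exact h.mono h1))
  rw [frontier_ball _ h0.ne', mem_sphere_zero_iff_norm] at hz
  have h2 : ‖ψ 0‖ ≤ ‖ψ z‖ := hm (subset_closure (Metric.mem_ball_self h0))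
  have h3 : ∀ t ∈ Metric.ball z (δ / 2), δ ≤ ‖t‖ ∧ ‖t‖ ≤ 2 * δ := fun t ht => by
    rw [Metric.mem_ball, dist_eq_norm] at ht
    have := abs_le.1 (abs_norm_sub_norm_le t z)
    constructor <;> linarith [this.1, this.2]
  have h4 := Fuj.mv_ball (vol := volume) Metric.isOpen_ball h (p := z) (r := δ / 2)
    fun t ht => mem_ball_zero_iff.2 (by linarith [(h3 t ht).2])
  refine le_trans ?_ (mul_le_mul_right (h4.trans (lintegral_mono_set h3)) 2)
  rw [Complex.volume_ball, ← ENNReal.ofReal_pow (by positivity), ← ENNReal.ofReal_coe_nnreal,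
    ← ENNReal.ofReal_mul (by positivity), ← ENNReal.ofReal_mul (by positivity),
    ← ENNReal.ofReal_ofNat 2, ← ENNReal.ofReal_mul (by positivity)]
  refine ENNReal.ofReal_le_ofReal ?_
  have h5 : ‖ψ 0‖ ^ 2 ≤ ‖ψ z‖ ^ 2 := pow_le_pow_left₀ (norm_nonneg _) h2 2
  have h6 : ‖ψ 0‖ ^ 2 * δ ^ 2 ≤ ‖ψ z‖ ^ 2 * δ ^ 2 := mul_le_mul_of_nonneg_right h5 (by positivity)
  have h7 := mul_le_mul_of_nonneg_left Real.two_le_pi
    (show 0 ≤ ‖ψ z‖ ^ 2 * δ ^ 2 by positivity)
  rw [NNReal.coe_real_pi]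
  linarith

theorem mv_prod (S : Fuj.Sheets X W vol) {r : ℝ} (hr : 0 < r) {Φ : W → ℂ → ℝ}
    (hΦ : ∀ i, ContinuousOn (Lc S i Φ) (Tg S i r)) (p₀ : W) : ∃ C η₀ : ℝ, 0 < η₀ ∧
      ∀ η : ℝ, 0 < η → η ≤ η₀ → ∀ F : W → ℂ → ℂ, HolP S η F →
        (Measurable fun q : W × ℂ => F q.1 q.2) → ENNReal.ofReal (‖F p₀ 0‖ ^ 2 * η ^ 2) ≤
          ENNReal.ofReal C * ∫⁻ t in Metric.ball (0 : ℂ) η, ∫⁻ p,
            ENNReal.ofReal (‖F p t‖ ^ 2 * Real.exp (-Φ p t)) ∂S.μ := by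
  haveI : ProperSpace X := FiniteDimensional.proper ℂ X
  obtain ⟨i, hi⟩ := S.cover p₀
  obtain ⟨ρ, hρ, hs⟩ := Metric.nhds_basis_closedBall.mem_iff.1
    ((S.e i).open_target.mem_nhds ((S.e i).map_source hi))
  obtain ⟨B, hB⟩ := ((isCompact_closedBall (S.e i p₀) ρ).prod
    (isCompact_closedBall (0 : ℂ) (r / 2))).exists_bound_of_continuousOn
    ((hΦ i).mono (Set.prod_mono hs (Metric.closedBall_subset_ball (half_lt_self hr))))
  have v0 : vol (Metric.ball 0 ρ) ≠ 0 := (Metric.measure_ball_pos vol (0 : X) hρ).ne'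
  have v1 : vol (Metric.ball 0 ρ) ≠ ⊤ := measure_ball_lt_top.ne
  have hC : ENNReal.ofReal (Real.exp B) * (vol (Metric.ball 0 ρ))⁻¹ ≠ ⊤ :=
    ENNReal.mul_ne_top ENNReal.ofReal_ne_top (ENNReal.inv_ne_top.2 v0)
  refine ⟨(ENNReal.ofReal (Real.exp B) * (vol (Metric.ball 0 ρ))⁻¹).toReal, r / 2, half_pos hr,
    fun η hη hη' F hF hm => ?_⟩
  rw [ENNReal.ofReal_toReal hC, ← lintegral_const_mul' _ _ hC]
  have h1 := Fuj.mv_ball (vol := volume) Metric.isOpen_ball (SMv_param hF p₀) (p := 0) (r := η)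
    subset_rfl
  refine le_trans ?_ (h1.trans (setLIntegral_mono' measurableSet_ball fun t ht => ?_))
  · rw [Complex.volume_ball, ← ENNReal.ofReal_pow hη.le, ← ENNReal.ofReal_coe_nnreal,
      ← ENNReal.ofReal_mul (by positivity), ← ENNReal.ofReal_mul (by positivity)]
    refine ENNReal.ofReal_le_ofReal (mul_le_mul_of_nonneg_left ?_ (by positivity))
    rw [NNReal.coe_real_pi]
    exact le_mul_of_one_le_right (by positivity) (by linarith [Real.two_le_pi])
  · have hb : Metric.ball (S.e i p₀) ρ ⊆ (S.e i).target := Metric.ball_subset_closedBall.trans hs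
    have h2 := Fuj.mv_ball (vol := vol) (S.e i).open_target (SMv_slice hF i ht) hb
    rw [(S.e i).left_inv hi] at h2
    have h3 := SMv_chart S i Metric.isOpen_ball hb (g := fun p => ENNReal.ofReal (‖F p t‖ ^ 2))
      (k := fun p => ENNReal.ofReal (Real.exp B) *
        ENNReal.ofReal (‖F p t‖ ^ 2 * Real.exp (-Φ p t)))
      (((hm.comp measurable_prodMk_right).norm.pow_const 2).ennreal_ofReal) fun z hz => by
        have h4 := hB (z, t) ⟨Metric.ball_subset_closedBall hz,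
          Metric.ball_subset_closedBall (Metric.ball_subset_ball hη' ht)⟩
        have h5 : Φ ((S.e i).symm z) t ≤ B := (le_abs_self _).trans h4
        rw [← ENNReal.ofReal_mul (Real.exp_pos _).le, mul_left_comm, ← Real.exp_add]
        exact ENNReal.ofReal_le_ofReal
          (le_mul_of_one_le_right (by positivity) (Real.one_le_exp (by linarith)))
    rw [lintegral_const_mul' _ _ ENNReal.ofReal_ne_top] at h3
    calc ENNReal.ofReal (‖F p₀ t‖ ^ 2)
        = ENNReal.ofReal (‖F p₀ t‖ ^ 2) * vol (Metric.ball 0 ρ) * (vol (Metric.ball 0 ρ))⁻¹ := by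
          rw [mul_assoc, ENNReal.mul_inv_cancel v0 v1, mul_one]
      _ ≤ _ := (mul_le_mul_left (h2.trans h3) _).trans_eq (mul_right_comm _ _ _)

theorem HolP.mono {S : Fuj.Sheets X W vol} {r r' : ℝ} {F : W → ℂ → ℂ} (h : HolP S r F)
    (hr : r' ≤ r) : HolP S r' F :=
  fun i => (h i).mono (Set.prod_mono subset_rfl (Metric.ball_subset_ball hr))

theorem PshP.mono {S : Fuj.Sheets X W vol} {r r' : ℝ} {F : W → ℂ → ℝ} (h : PshP S r F)
    (hr : r' ≤ r) : PshP S r' F := fun i =>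
  ⟨(h i).1.mono (Set.prod_mono subset_rfl (Metric.ball_subset_ball hr)),
    fun q hq => (h i).2 q (Set.prod_mono subset_rfl (Metric.ball_subset_ball hr) hq)⟩

theorem HolP.slice {S : Fuj.Sheets X W vol} (hτ : ∀ i p, S.τ i p = 1) {r : ℝ} {F : W → ℂ → ℂ}
    (h : HolP S r F) {t : ℂ} (ht : ‖t‖ < r) : S.HolS fun p => F p t := fun i =>
  (SMv_slice h i (mem_ball_zero_iff.2 ht)).congr fun z _ => by
    simp only [Fuj.Sheets.rep, hτ, one_mul]

theorem HolP.param {S : Fuj.Sheets X W vol} {r : ℝ} {F : W → ℂ → ℂ} (h : HolP S r F) (p : W) :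
    DifferentiableOn ℂ (F p) (Metric.ball 0 r) := SMv_param h p

theorem HolP.sub_hol {S : Fuj.Sheets X W vol} (hτ : ∀ i p, S.τ i p = 1) {r : ℝ} {F : W → ℂ → ℂ}
    (h : HolP S r F) {f : W → ℂ} (hf : S.HolS f) : HolP S r fun p t => F p t - f p := fun i => by
  have h1 : DifferentiableOn ℂ (fun q : X × ℂ => S.rep i f q.1) (Tg S i r) :=
    (hf i).comp differentiableOn_fst fun q hq => hq.1
  refine ((h i).sub h1).congr fun q _ => ?_
  simp only [Lc, Fuj.Sheets.rep, hτ, one_mul, Pi.sub_apply]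

end Vale.Agent.P282
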