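import Vale.Agent.P282.SGr

set_option linter.unusedSectionVars false

open scoped ENNReal TensorProduct Topology
open Filter MeasureTheory

noncomputable section

namespace Vale.Agent.P282

variable {R K : Type} [CommRing R] [IsDomain R] [Algebra ℂ R] [Algebra.FiniteType ℂ R]
  [IsIntegrallyClosed R] [Field K] [Algebra R K] [IsFractionRing R K] [Algebra ℂ K]
  [IsScalarTower ℂ R K] {n : ℕ}

theorem STail_fub {f : E (n + 1) → ℝ≥0∞} (hf : Measurable f) :
    ∫⁻ z, f z = ∫⁻ y : E n, ∫⁻ x : ℂ, f (Fin.cons x y) := by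
  have h := (volume_preserving_piFinSuccAbove (fun _ : Fin (n + 1) => ℂ) 0).symm
  rw [← h.lintegral_comp hf, Measure.volume_eq_prod,
    lintegral_prod_symm (fun a => f ((MeasurableEquiv.piFinSuccAbove _ 0).symm a))
      (hf.comp h.measurable).aemeasurable]
  simp [MeasurableEquiv.piFinSuccAbove_symm_apply, Fin.insertNthEquiv]

theorem STail_prod (x : ℂ) {ρ : ℝ} (h0 : 0 ≤ ρ) (m : Multiset ℂ) (h : ∀ r ∈ m, ρ ≤ ‖x - r‖) :
    ρ ^ m.card ≤ ‖(m.map (x - ·)).prod‖ := by
  induction m using Multiset.induction_on with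
  | empty => simp
  | cons a m ih =>
    rw [Multiset.card_cons, Multiset.map_cons, Multiset.prod_cons, norm_mul, pow_succ']
    exact mul_le_mul (h a (Multiset.mem_cons_self _ _))
      (ih fun r hr => h r (Multiset.mem_cons_of_mem hr)) (by positivity) (norm_nonneg _)

theorem STail_fib (q : Polynomial ℂ) {e : ℕ} (he : q.natDegree ≤ e) {ρ : ℝ} (h0 : 0 < ρ)
    (h1 : ρ ≤ 1) (hq : ρ ^ (e + 1) < ‖q.leadingCoeff‖) :
    volume {x : ℂ | ‖q.eval x‖ ≤ ρ ^ (e + 1) * ρ ^ (e + 1)} ≤
      ENNReal.ofReal (e * (ρ ^ 2 * Real.pi)) := by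
  classical
  have hc : q.roots.card ≤ e := (Polynomial.card_roots' q).trans he
  have hs : {x : ℂ | ‖q.eval x‖ ≤ ρ ^ (e + 1) * ρ ^ (e + 1)} ⊆
      ⋃ r ∈ q.roots.toFinset, Metric.closedBall r ρ := by
    intro x hx
    by_contra hn
    simp only [Set.mem_iUnion, Multiset.mem_toFinset, Metric.mem_closedBall, dist_eq_norm,
      exists_prop, not_exists, not_and, not_le] at hn
    have h2 := STail_prod x h0.le q.roots fun r hr => (hn r hr).le
    have h3 : ρ ^ (e + 1) ≤ ρ ^ q.roots.card := pow_le_pow_of_le_one h0.le h1 (by omega)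
    rw [Set.mem_ofPred_eq, (IsAlgClosed.splits q).eval_eq_prod_roots, norm_mul] at hx
    have h4 : 0 < ρ ^ (e + 1) := by positivity
    have h5 := mul_lt_mul hq (h3.trans h2) h4 (norm_nonneg _)
    linarith
  refine (measure_mono hs).trans ((measure_biUnion_finset_le _ _).trans ?_)
  simp only [Complex.volume_closedBall, Finset.sum_const, nsmul_eq_mul]
  rw [ENNReal.ofReal_mul (Nat.cast_nonneg e), ENNReal.ofReal_natCast,
    ENNReal.ofReal_mul (by positivity), ENNReal.ofReal_pow h0.le, ← NNReal.coe_real_pi,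
    ENNReal.ofReal_coe_nnreal]
  gcongr
  exact (Multiset.toFinset_card_le _).trans hc

/-- the weight -/
def STail_V (n : ℕ) (z : E n) : ℝ≥0∞ := ENNReal.ofReal (gr z ^ (-(2 * n : ℝ)))

/-- the weight in one variable -/
def STail_w (x : ℂ) : ℝ≥0∞ := ENNReal.ofReal ((1 + ‖x‖ ^ 2) ^ (-4 / 2 : ℝ))

theorem STail_Vm : Measurable (STail_V n) := SGr_meas _

theorem STail_Vf : ∫⁻ z, STail_V n z ≠ ⊤ := by
  unfold STail_V
  rcases Nat.eq_zero_or_pos n with rfl | hn
  · have e : ∀ z : E 0, gr z = 1 := fun z => by simp [gr]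
    have := gr_int (n := 0) (s := 1) (by simp)
    simpa only [e, Real.one_rpow] using this
  · have : (0 : ℝ) < n := by exact_mod_cast hn
    exact gr_int (by linarith)

theorem STail_wf : ∫⁻ x, STail_w x ≠ ⊤ :=
  (integrable_rpow_neg_one_add_norm_sq (μ := (volume : Measure ℂ)) (r := 4)
    (by rw [Complex.finrank_real_complex]; norm_num)).lintegral_lt_top.ne

theorem STail_wm : Measurable STail_w := by
  unfold STail_w
  fun_prop

theorem STail_w1 (x : ℂ) : STail_w x ≤ 1 :=
  ENNReal.ofReal_le_one.2 (Real.rpow_le_one_of_one_le_of_nonpos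
    (le_add_of_nonneg_right (sq_nonneg _)) (by norm_num))

theorem STail_cons (x : ℂ) (y : E n) :
    STail_V (n + 1) (Fin.cons x y) ≤ STail_w x * STail_V n y := by
  have h0 : 0 ≤ ∑ i, ‖y i‖ ^ 2 := Finset.sum_nonneg fun i _ => sq_nonneg _
  have e : gr (Fin.cons x y : E (n + 1)) = 1 + (‖x‖ ^ 2 + ∑ i, ‖y i‖ ^ 2) := by
    simp [gr, Fin.sum_univ_succ]
  have hn : (0 : ℝ) ≤ n := Nat.cast_nonneg n
  have e2 : (-(2 * ((n + 1 : ℕ) : ℝ))) = -4 / 2 + -(2 * n) := by
    push_cast
    ring
  rw [STail_V, STail_w, STail_V, ← ENNReal.ofReal_mul (by positivity), e2,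
    Real.rpow_add (SGr_pos _)]
  refine ENNReal.ofReal_le_ofReal (mul_le_mul ?_ ?_ (Real.rpow_nonneg (SGr_pos _).le _)
    (by positivity))
  · exact Real.rpow_le_rpow_of_nonpos (by positivity) (by rw [e]; linarith) (by norm_num)
  · refine Real.rpow_le_rpow_of_nonpos (SGr_pos _) ?_ (by linarith)
    rw [e, gr]
    linarith [sq_nonneg ‖x‖]

theorem STail_meas (P : MvPolynomial (Fin n) ℂ) (t : ℝ) :
    MeasurableSet {z : E n | ‖MvPolynomial.eval z P‖ ≤ t} :=
  (isClosed_le (MvPolynomial.continuous_eval P).norm continuous_const).measurableSet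

theorem STail_main : ∀ (n : ℕ) (P : MvPolynomial (Fin n) ℂ), P ≠ 0 → ∃ C ε : ℝ, 0 ≤ C ∧ 0 < ε ∧
    ∀ s : ℝ, 0 ≤ s → ∫⁻ z in {z : E n | ‖MvPolynomial.eval z P‖ ≤ Real.exp (-s)}, STail_V n z ≤
      ENNReal.ofReal (C * Real.exp (-ε * s)) := by
  intro n
  induction n with
  | zero =>
    intro P hP
    obtain ⟨c, rfl⟩ := MvPolynomial.C_surjective (Fin 0) P
    have hc : 0 < ‖c‖ := norm_pos_iff.2 (by rintro rfl; exact hP MvPolynomial.C_0)
    refine ⟨(∫⁻ z, STail_V 0 z).toReal / ‖c‖, 1, by positivity, one_pos, fun s _ => ?_⟩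
    simp only [MvPolynomial.eval_C]
    by_cases h : ‖c‖ ≤ Real.exp (-s)
    · refine (setLIntegral_le_lintegral _ _).trans ?_
      conv_lhs => rw [← ENNReal.ofReal_toReal (STail_Vf (n := 0))]
      refine ENNReal.ofReal_le_ofReal ?_
      rw [neg_one_mul, div_mul_eq_mul_div, le_div_iff₀ hc]
      exact mul_le_mul_of_nonneg_left h ENNReal.toReal_nonneg
    · simp [h]
  | succ n ih =>
    intro P hP
    set q := MvPolynomial.finSuccEquiv ℂ n P with hqdef
    have hq : q ≠ 0 := by simpa [hqdef] using hP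
    obtain ⟨C, ε, hC, hε, h⟩ := ih _ (Polynomial.leadingCoeff_ne_zero.2 hq)
    set e := q.natDegree with he
    set c := (∫⁻ x, STail_w x).toReal with hc
    set M := (∫⁻ z, STail_V n z).toReal with hM
    have hc0 : 0 ≤ c := ENNReal.toReal_nonneg
    have hM0 : 0 ≤ M := ENNReal.toReal_nonneg
    have hpi := Real.pi_pos
    refine ⟨C * c + e * Real.pi * M, min (ε / 2) (1 / (e + 1)), by positivity, by positivity,
      fun s hs => ?_⟩
    set ρ := Real.exp (-(s / (2 * (e + 1)))) with hρ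
    have hρ0 : 0 < ρ := Real.exp_pos _
    have hρ1 : ρ ≤ 1 := Real.exp_le_one_iff.2 (neg_nonpos.2 (by positivity))
    have hρe : ρ ^ (e + 1) = Real.exp (-(s / 2)) := by
      rw [hρ, ← Real.exp_nat_mul]
      congr 1
      push_cast
      field_simp
    have hρ2 : ρ ^ 2 = Real.exp (-(1 / (e + 1)) * s) := by
      rw [hρ, ← Real.exp_nat_mul]
      congr 1
      push_cast
      field_simp
    have hss : Real.exp (-s) = ρ ^ (e + 1) * ρ ^ (e + 1) := by
      rw [hρe, ← Real.exp_add]
      congr 1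
      ring
    set S := {z : E (n + 1) | ‖MvPolynomial.eval z P‖ ≤ Real.exp (-s)} with hS
    set S' := {y : E n | ‖MvPolynomial.eval y q.leadingCoeff‖ ≤ Real.exp (-(s / 2))} with hS'
    have hSm : MeasurableSet S := STail_meas P _
    have hSm' : MeasurableSet S' := STail_meas _ _
    have key : ∀ y : E n, ∫⁻ x : ℂ, S.indicator (STail_V (n + 1)) (Fin.cons x y) ≤
        S'.indicator (STail_V n) y * ENNReal.ofReal c +
          ENNReal.ofReal (e * (ρ ^ 2 * Real.pi)) * STail_V n y := by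
      intro y
      by_cases hy : y ∈ S'
      · refine le_trans ?_ le_self_add
        rw [Set.indicator_of_mem hy, hc, ENNReal.ofReal_toReal STail_wf, mul_comm,
          ← lintegral_mul_const _ STail_wm]
        exact lintegral_mono fun x => (Set.indicator_le_self _ _ _).trans (STail_cons x y)
      · refine le_trans ?_ le_add_self
        have hy1 : ρ ^ (e + 1) < ‖MvPolynomial.eval y q.leadingCoeff‖ := by
          rw [hρe]
          exact not_le.1 hy
        have hy2 : MvPolynomial.eval y q.leadingCoeff ≠ 0 :=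
          norm_pos_iff.1 (lt_trans (by positivity) hy1)
        have h1 := STail_fib (q.map (MvPolynomial.eval y)) (e := e) Polynomial.natDegree_map_le hρ0
          hρ1 (by rwa [Polynomial.leadingCoeff_map_of_leadingCoeff_ne_zero _ hy2])
        have hm : MeasurableSet {x : ℂ | ‖(q.map (MvPolynomial.eval y)).eval x‖ ≤
            ρ ^ (e + 1) * ρ ^ (e + 1)} :=
          (isClosed_le (Polynomial.continuous _).norm continuous_const).measurableSet
        refine le_trans ?_ (mul_le_mul_left h1 _)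
        rw [mul_comm, ← lintegral_indicator_const hm]
        refine lintegral_mono fun x => ?_
        by_cases hx : (Fin.cons x y : E (n + 1)) ∈ S
        · rw [Set.indicator_of_mem hx, Set.indicator_of_mem]
          · exact (STail_cons x y).trans (mul_le_of_le_one_left' (STail_w1 x))
          · rw [Set.mem_ofPred_eq, ← hss, hqdef, ← MvPolynomial.eval_eq_eval_mv_eval']
            exact hx
        · rw [Set.indicator_of_notMem hx]
          exact zero_le
    rw [← lintegral_indicator hSm, STail_fub (STail_Vm.indicator hSm)]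
    refine (lintegral_mono key).trans ?_
    rw [lintegral_add_left ((STail_Vm.indicator hSm').mul_const _),
      lintegral_mul_const _ (STail_Vm.indicator hSm'), lintegral_const_mul _ STail_Vm,
      lintegral_indicator hSm', ← ENNReal.ofReal_toReal (STail_Vf (n := n)), ← hM,
      ← ENNReal.ofReal_mul (by positivity), add_mul, ENNReal.ofReal_add (by positivity)
      (by positivity)]
    refine add_le_add ((mul_le_mul_left (h (s / 2) (by positivity)) _).trans ?_)
      (ENNReal.ofReal_le_ofReal ?_)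
    · rw [← ENNReal.ofReal_mul (by positivity), mul_right_comm]
      refine ENNReal.ofReal_le_ofReal (mul_le_mul_of_nonneg_left (Real.exp_le_exp.2 ?_)
        (by positivity))
      have := mul_le_mul_of_nonneg_right (min_le_left (ε / 2) (1 / (e + 1 : ℝ))) hs
      linarith
    · have h2 : ρ ^ 2 ≤ Real.exp (-min (ε / 2) (1 / (e + 1 : ℝ)) * s) := by
        rw [hρ2]
        refine Real.exp_le_exp.2 ?_
        have := mul_le_mul_of_nonneg_right (min_le_right (ε / 2) (1 / (e + 1 : ℝ))) hs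
        linarith
      calc e * (ρ ^ 2 * Real.pi) * M = e * Real.pi * M * ρ ^ 2 := by ring
        _ ≤ _ := by gcongr

/-- sublevel sets of polynomials -/
theorem poly_tail {P : MvPolynomial (Fin n) ℂ} (hP : P ≠ 0) : ∃ C ε : ℝ, 0 < ε ∧ ∀ s : ℝ,
    ∫⁻ z in {z : E n | ‖MvPolynomial.eval z P‖ ^ 2 ≤ Real.exp (-s)},
      ENNReal.ofReal (gr z ^ (-(2 * n + 1 : ℝ))) ≤ ENNReal.ofReal (C * Real.exp (-ε * s)) := by
  obtain ⟨C, ε, hC, hε, h⟩ := STail_main n P hP
  have hM : 0 ≤ (∫⁻ z, STail_V n z).toReal := ENNReal.toReal_nonneg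
  refine ⟨C + (∫⁻ z, STail_V n z).toReal, ε / 2, by positivity, fun s => ?_⟩
  have h1 : ∀ z : E n, ENNReal.ofReal (gr z ^ (-(2 * n + 1 : ℝ))) ≤ STail_V n z := fun z =>
    ENNReal.ofReal_le_ofReal (Real.rpow_le_rpow_of_exponent_le (one_le_gr z) (by linarith))
  refine (lintegral_mono h1).trans ?_
  rcases le_total 0 s with hs | hs
  · refine le_trans (lintegral_mono_set fun z hz => ?_) ((h (s / 2) (by positivity)).trans
      (ENNReal.ofReal_le_ofReal ?_))
    · refine (pow_le_pow_iff_left₀ (norm_nonneg _) (Real.exp_pos _).le two_ne_zero).1 ?_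
      refine le_trans hz (le_of_eq ?_)
      rw [← Real.exp_nat_mul]
      congr 1
      push_cast
      ring
    · have e : -ε * (s / 2) = -(ε / 2) * s := by ring
      rw [e]
      gcongr
      linarith
  · refine (setLIntegral_le_lintegral _ _).trans ?_
    conv_lhs => rw [← ENNReal.ofReal_toReal (STail_Vf (n := n))]
    refine ENNReal.ofReal_le_ofReal ?_
    have h2 : 1 ≤ Real.exp (-(ε / 2) * s) := Real.one_le_exp (by nlinarith)
    nlinarith

theorem An.tail_r {π : Proj R n} {g : R} (A : An π g) {r : R} (hr : r ≠ 0) : ∃ C ε : ℝ, 0 < ε ∧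
    ∀ s : ℝ, A.nu0 {p | ‖p.1 r‖ ^ 2 ≤ Real.exp (-s)} ≤ ENNReal.ofReal (C * Real.exp (-ε * s)) := by
  obtain ⟨N, u, hN, hu⟩ := π.norm ⊥ (r := r) (by simpa using hr)
  have hN0 : N ≠ 0 := by
    rintro rfl
    simp at hN
  rw [Ideal.mem_bot, sub_eq_zero] at hu
  obtain ⟨C, D, hC, hg⟩ := π.growth u
  obtain ⟨C1, h1⟩ := A.tail_gr
  obtain ⟨C2, ε, hε, h2⟩ := poly_tail hN0
  have := A.nu0_fin
  set M := (A.nu0 Set.univ).toReal with hM
  have hM0 : 0 ≤ M := ENNReal.toReal_nonneg
  set C3 := A.P.natDegree * (|C2| * Real.exp (ε * Real.log C)) with hC3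
  have hC30 : 0 ≤ C3 := by positivity
  refine ⟨|C1| + C3 + M, min (1 / (2 * (D + 1))) (ε / 2), by positivity, fun s => ?_⟩
  set η := min (1 / (2 * (D + 1) : ℝ)) (ε / 2) with hη
  have hη0 : 0 < η := by positivity
  rcases le_total s 0 with hs | hs
  · refine (measure_mono (Set.subset_univ _)).trans ?_
    rw [← ENNReal.ofReal_toReal (measure_ne_top A.nu0 Set.univ), ← hM]
    refine ENNReal.ofReal_le_ofReal ?_
    have h3 : 1 ≤ Real.exp (-η * s) := Real.one_le_exp (by nlinarith)
    nlinarith [abs_nonneg C1]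
  set S := {z : E n | ‖MvPolynomial.eval z N‖ ^ 2 ≤ Real.exp (-(s / 2 - Real.log C))} with hS
  have hSm : MeasurableSet S :=
    (isClosed_le ((MvPolynomial.continuous_eval N).norm.pow 2) continuous_const).measurableSet
  have hsub : {p : π.W A.Δ | ‖p.1 r‖ ^ 2 ≤ Real.exp (-s)} ⊆
      {p | Real.exp (s / (2 * (D + 1))) ≤ gr (π.at p.1)} ∪ {p | π.at p.1 ∈ S} := by
    intro p hp
    rcases le_total (Real.exp (s / (2 * (D + 1)))) (gr (π.at p.1)) with h3 | h3
    · exact Or.inl h3
    refine Or.inr ?_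
    have h4 : gr (π.at p.1) ^ D ≤ Real.exp (s / 2) := by
      refine (pow_le_pow_right₀ (one_le_gr _) D.le_succ).trans
        ((pow_le_pow_left₀ (SGr_pos _).le h3 _).trans (le_of_eq ?_))
      rw [← Real.exp_nat_mul]
      congr 1
      push_cast
      field_simp
    change ‖MvPolynomial.eval (π.at p.1) N‖ ^ 2 ≤ Real.exp (-(s / 2 - Real.log C))
    rw [← SAn2_aeval, hu, map_mul, norm_mul, mul_pow]
    have e : Real.exp (-(s / 2 - Real.log C)) = Real.exp (-s) * (C * Real.exp (s / 2)) := by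
      conv_rhs => rw [← Real.exp_log hC, ← Real.exp_add, ← Real.exp_add]
      congr 1
      ring
    rw [e]
    exact mul_le_mul hp ((hg p.1).trans (mul_le_mul_of_nonneg_left h4 hC.le)) (sq_nonneg _)
      (Real.exp_pos _).le
  have hc : Continuous fun p : π.W A.Δ => π.at p.1 := π.at_cont.comp continuous_subtype_val
  have h5 : A.nu0 {p | π.at p.1 ∈ S} ≤ ENNReal.ofReal (C3 * Real.exp (-η * s)) := by
    have hm : MeasurableSet {p : π.W A.Δ | π.at p.1 ∈ S} := hc.measurable hSm
    have h6 := A.lint_le ((P282.SGr_meas (-(2 * n + 1 : ℝ))).indicator hSm)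
    rw [lintegral_indicator hSm] at h6
    rw [An.nu0, withDensity_apply _ hm, ← lintegral_indicator hm]
    refine le_trans (le_of_eq (lintegral_congr fun p => ?_))
      (h6.trans ((mul_le_mul_right (h2 _) _).trans ?_))
    · rfl
    · rw [← ENNReal.ofReal_natCast, ← ENNReal.ofReal_mul (Nat.cast_nonneg _), hC3, mul_assoc,
        mul_assoc, ← Real.exp_add]
      refine ENNReal.ofReal_le_ofReal (mul_le_mul_of_nonneg_left (mul_le_mul (le_abs_self _)
        (Real.exp_le_exp.2 ?_) (Real.exp_pos _).le (abs_nonneg _)) (Nat.cast_nonneg _))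
      have := mul_le_mul_of_nonneg_right (min_le_right (1 / (2 * (D + 1) : ℝ)) (ε / 2)) hs
      linarith
  have h7 : C1 * Real.exp (-(s / (2 * (D + 1)))) ≤ |C1| * Real.exp (-η * s) := by
    refine mul_le_mul (le_abs_self _) (Real.exp_le_exp.2 ?_) (Real.exp_pos _).le (abs_nonneg _)
    have := mul_le_mul_of_nonneg_right (min_le_left (1 / (2 * (D + 1) : ℝ)) (ε / 2)) hs
    rw [one_div_mul_eq_div] at this
    linarith
  refine (measure_mono hsub).trans ((measure_union_le _ _).trans
    ((add_le_add ((h1 _).trans (ENNReal.ofReal_le_ofReal h7)) h5).trans ?_))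
  rw [← ENNReal.ofReal_add (by positivity) (by positivity), ← add_mul]
  exact ENNReal.ofReal_le_ofReal
    (mul_le_mul_of_nonneg_right (le_add_of_nonneg_right hM0) (Real.exp_pos _).le)

end Vale.Agent.P282
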