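import Vale.Agent.P282.SVs1
import Vale.Agent.P282.STail

set_option linter.unusedSectionVars false

open scoped ENNReal TensorProduct Topology
open Filter MeasureTheory

noncomputable section

namespace Vale.Agent.P282

variable {R K : Type} [CommRing R] [IsDomain R] [Algebra ℂ R] [Algebra.FiniteType ℂ R]
  [IsIntegrallyClosed R] [Field K] [Algebra R K] [IsFractionRing R K] [Algebra ℂ K]
  [IsScalarTower ℂ R K] {n : ℕ}

theorem SVs_small {W : Type} [MeasurableSpace W] (ν : Measure W) (Ω : ℕ → Set W) (t : ℕ → ℝ)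
    (ht : Tendsto t atTop atTop) (hΩ : ∀ η : ℝ, 0 < η → ∀ᶠ k in atTop,
      ENNReal.ofReal (Real.exp (-(1 + η) * t k)) ≤ ν (Ω k)) (S : Set (ℕ × W)) {C η : ℝ}
    (hη : 0 < η) (h : ∀ᶠ k in atTop, ν {p | (k, p) ∈ S} ≤
      ENNReal.ofReal (C * Real.exp (-(1 + 2 * η) * t k))) :
    Tendsto (fun k => ν {p | p ∈ Ω k ∧ (k, p) ∈ S} / ν (Ω k)) atTop (𝓝 0) := by
  have h1 : Tendsto (fun k => ENNReal.ofReal (C * Real.exp (-(η * t k)))) atTop (𝓝 0) := by
    have h2 : Tendsto (fun k => Real.exp (-(η * t k))) atTop (𝓝 0) :=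
      Real.tendsto_exp_neg_atTop_nhds_zero.comp (ht.const_mul_atTop hη)
    have h3 := ENNReal.tendsto_ofReal (h2.const_mul C)
    rwa [mul_zero, ENNReal.ofReal_zero] at h3
  refine tendsto_of_tendsto_of_tendsto_of_le_of_le' tendsto_const_nhds h1
    (Eventually.of_forall fun _ => zero_le) ?_
  filter_upwards [h, hΩ η hη] with k h2 h3
  have h4 : ν {p | p ∈ Ω k ∧ (k, p) ∈ S} ≤ ν {p | (k, p) ∈ S} := measure_mono fun _ hp => hp.2
  refine (ENNReal.div_le_div (h4.trans h2) h3).trans (le_of_eq ?_)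
  rw [← ENNReal.ofReal_div_of_pos (Real.exp_pos _), mul_div_assoc, ← Real.exp_sub]
  congr 3
  ring

theorem SVs_up {x t a : ℝ} (hx : 0 < x) (ht : 0 < t) (h : a < -Real.log x / t) :
    x ≤ Real.exp (-(a * t)) := by
  rw [lt_div_iff₀ ht] at h
  rw [← Real.log_le_iff_le_exp hx]
  linarith

theorem SVs_lo {x t a : ℝ} (hx : 0 < x) (ht : 0 < t) (h : -Real.log x / t < a) :
    Real.exp (-(a * t)) ≤ x := by
  rw [div_lt_iff₀ ht] at h
  rw [← Real.le_log_iff_exp_le hx]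
  linarith

theorem SVs_log {x g C : ℝ} {D : ℕ} (hx : 0 < x) (hC : 0 < C) (hg : 1 ≤ g) (h : x ≤ C * g ^ D) :
    Real.log x ≤ Real.log C + D * Real.log g := by
  have h0 : 0 < g := lt_of_lt_of_le one_pos hg
  rw [← Real.log_pow, ← Real.log_mul hC.ne' (pow_pos h0 D).ne']
  exact Real.log_le_log hx h

theorem SVs_abs {x g C t B : ℝ} {D : ℕ} (hC : 0 < C) (hg : 1 ≤ g) (h : x ≤ C * g ^ D)
    (ht : 1 ≤ t) (h1 : g < Real.exp (3 * t)) (h2 : Real.exp (-(B * t)) < x) :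
    |Real.log x / t| ≤ |B| + |Real.log C| + 3 * D := by
  have hx : 0 < x := (Real.exp_pos _).trans h2
  have h0 : 0 < g := lt_of_lt_of_le one_pos hg
  have ht0 : 0 < t := lt_of_lt_of_le one_pos ht
  have h3 := SVs_log hx hC hg h
  have h4 := (Real.log_lt_iff_lt_exp h0).2 h1
  have h5 := (Real.lt_log_iff_exp_lt hx).2 h2
  have h6 : (D : ℝ) * Real.log g ≤ D * (3 * t) :=
    mul_le_mul_of_nonneg_left h4.le (Nat.cast_nonneg D)
  have h7 : B * t ≤ |B| * t := mul_le_mul_of_nonneg_right (le_abs_self B) ht0.le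
  have h8 : Real.log C ≤ |Real.log C| * t :=
    (le_abs_self _).trans (le_mul_of_one_le_right (abs_nonneg _) ht)
  have h9 : 0 ≤ |B| * t := by positivity
  have h10 : 0 ≤ |Real.log C| * t := by positivity
  have h11 : 0 ≤ (D : ℝ) * t := by positivity
  rw [abs_le, le_div_iff₀ ht0, div_le_iff₀ ht0]
  constructor <;> nlinarith

/-- valuations from large sets -/
theorem vs (G : WS R K n) (π : Proj R n) (A : An π (G.ρ π.y)) (Ω : ℕ → Set (π.W A.Δ)) (t : ℕ → ℝ)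
    (ht : Tendsto t atTop atTop) (hΩ : ∀ η : ℝ, 0 < η → ∀ᶠ k in atTop,
      ENNReal.ofReal (Real.exp (-(1 + η) * t k)) ≤ A.nu0 (Ω k)) :
    ∃ (U : Ultrafilter (ℕ × π.W A.Δ)) (w : RVal K) (b : ℝ),
      Tendsto Prod.fst (U : Filter (ℕ × π.W A.Δ)) atTop ∧
      (∀ᶠ q in (U : Filter (ℕ × π.W A.Δ)), q.2 ∈ Ω q.1) ∧
      (∀ r : R, r ≠ 0 → (∀ᶠ q in (U : Filter (ℕ × π.W A.Δ)), q.2.1 r ≠ 0) ∧
        Tendsto (fun q : ℕ × π.W A.Δ => -Real.log (‖q.2.1 r‖ ^ 2) / t q.1) U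
          (𝓝 (w.v (algebraMap R K r)))) ∧
      Tendsto (fun q : ℕ × π.W A.Δ => Real.log (gr (π.at q.2.1)) / t q.1) U (𝓝 b) ∧
      G.ω.A w ≤ ((1 - w.v (algebraMap R K (G.ρ π.y)) / G.ω.m : ℝ) : EReal) ∧
      (b = 0 → w.OnSpec R) := by
  haveI := A.nu0_fin
  obtain ⟨U, hU1, hU2, hU3⟩ := vs_ultra A.nu0 Ω ((hΩ 1 one_pos).mono fun k hk =>
    lt_of_lt_of_le (ENNReal.ofReal_pos.2 (Real.exp_pos _)) hk)
  have key : ∀ (S : Set (ℕ × π.W A.Δ)) (C η : ℝ), 0 < η → (∀ k, A.nu0 {p | (k, p) ∈ S} ≤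
      ENNReal.ofReal (C * Real.exp (-(1 + 2 * η) * t k))) →
      ∀ᶠ q in (U : Filter (ℕ × π.W A.Δ)), q ∉ S := fun S C η hη h =>
    Ultrafilter.compl_mem_iff_notMem.2
      (hU3 S (SVs_small A.nu0 Ω t ht hΩ S hη (Eventually.of_forall h)))
  have htU : Tendsto (fun q : ℕ × π.W A.Δ => t q.1) (U : Filter (ℕ × π.W A.Δ)) atTop :=
    ht.comp hU1
  have hpos := htU.eventually (eventually_ge_atTop 1)
  have hgr : ∀ᶠ q in (U : Filter (ℕ × π.W A.Δ)), gr (π.at q.2.1) < Real.exp (3 * t q.1) := by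
    obtain ⟨C, hC⟩ := A.tail_gr
    refine (key {q | Real.exp (3 * t q.1) ≤ gr (π.at q.2.1)} C 1 one_pos fun k => ?_).mono
      fun q hq => not_le.1 hq
    have e : -(1 + 2 * 1) * t k = -(3 * t k) := by ring
    rw [e]
    exact hC (3 * t k)
  have hlow : ∀ r : R, r ≠ 0 → ∃ B : ℝ, ∀ᶠ q in (U : Filter (ℕ × π.W A.Δ)),
      Real.exp (-(B * t q.1)) < ‖q.2.1 r‖ ^ 2 := by
    intro r hr
    obtain ⟨C, ε, hε, hC⟩ := A.tail_r hr
    refine ⟨3 / ε, (key {q | ‖q.2.1 r‖ ^ 2 ≤ Real.exp (-(3 / ε * t q.1))} C 1 one_pos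
      fun k => ?_).mono fun q hq => not_le.1 hq⟩
    have e : -(1 + 2 * 1) * t k = -ε * (3 / ε * t k) := by
      field_simp
      ring
    rw [e]
    exact hC (3 / ε * t k)
  have hne : ∀ r : R, r ≠ 0 → ∀ᶠ q in (U : Filter (ℕ × π.W A.Δ)), 0 < ‖q.2.1 r‖ ^ 2 := by
    intro r hr
    obtain ⟨B, hB⟩ := hlow r hr
    exact hB.mono fun q hq => (Real.exp_pos _).trans hq
  have hne' : ∀ r : R, r ≠ 0 → ∀ᶠ q in (U : Filter (ℕ × π.W A.Δ)), q.2.1 r ≠ 0 := by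
    intro r hr
    refine (hne r hr).mono fun q hq h0 => ?_
    rw [h0, norm_zero] at hq
    simp at hq
  obtain ⟨w, hw⟩ := vs_val (K := K) U (fun q => q.2.1) (fun q => t q.1) htU fun r hr => by
    obtain ⟨B, hB⟩ := hlow r hr
    obtain ⟨C, D, hC, hD⟩ := π.growth r
    refine ⟨|B| + |Real.log C| + 3 * D, ?_⟩
    filter_upwards [hB, hpos, hgr, hne' r hr] with q h1 h2 h3 h4
    exact ⟨h4, SVs_abs hC (one_le_gr _) (hD q.2.1) h2 h3 h1⟩
  obtain ⟨b, -, hb⟩ := (isCompact_Icc (a := (0 : ℝ)) (b := 3)).ultrafilter_le_nhds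
    (U.map fun q : ℕ × π.W A.Δ => Real.log (gr (π.at q.2.1)) / t q.1) (by
      rw [Ultrafilter.coe_map, le_principal_iff, mem_map]
      filter_upwards [hpos, hgr] with q h1 h2
      have h0 : 0 < t q.1 := lt_of_lt_of_le one_pos h1
      have h3 := one_le_gr (π.at q.2.1)
      exact ⟨div_nonneg (Real.log_nonneg h3) h0.le, (div_le_iff₀ h0).2
        ((Real.log_lt_iff_lt_exp (lt_of_lt_of_le one_pos h3)).2 h2).le⟩)
  have hb' : Tendsto (fun q : ℕ × π.W A.Δ => Real.log (gr (π.at q.2.1)) / t q.1) U (𝓝 b) := hb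
  refine ⟨U, w, b, hU1, hU2, fun r hr => ⟨hne' r hr, hw r hr⟩, hb', ?_, fun hb0 r => ?_⟩
  · refine G.ω.A_le w (R := R) fun f hf hj => ?_
    have hρ : G.ρ f ≠ 0 := fun h => G.ω.rho_ne hj (by rw [← G.ρ_eq, h, map_zero])
    rw [PForm.wt, ← G.ρ_eq]
    by_contra hlt
    rw [not_le] at hlt
    obtain ⟨C, hC⟩ := vs_area G π A f hj
    have hm : (0 : ℝ) < G.ω.m := Nat.cast_pos.2 G.ω.m_pos
    obtain ⟨η, hη, e⟩ : ∃ η : ℝ, 0 < η ∧ η * (n + 2 / G.ω.m + 2) =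
        ∑ i, w.v (algebraMap R K (f i)) - w.v (algebraMap R K (G.ρ f)) / G.ω.m -
          (1 - w.v (algebraMap R K (G.ρ π.y)) / G.ω.m) :=
      ⟨_, div_pos (sub_pos.2 hlt) (by positivity), div_mul_cancel₀ _ (by positivity)⟩
    have h1 := key {q | (∀ i, ‖q.2.1 (f i)‖ ^ 2 ≤
        Real.exp (-((w.v (algebraMap R K (f i)) - η) * t q.1))) ∧
        Real.exp (-((w.v (algebraMap R K (G.ρ f)) + η) * t q.1)) ≤ ‖q.2.1 (G.ρ f)‖ ^ 2 ∧
        ‖q.2.1 (G.ρ π.y)‖ ^ 2 ≤ Real.exp (-((w.v (algebraMap R K (G.ρ π.y)) - η) * t q.1))}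
      C η hη fun k => by
        refine (A.nu0_le _).trans ((hC (fun i => (w.v (algebraMap R K (f i)) - η) * t k)
          ((w.v (algebraMap R K (G.ρ f)) + η) * t k)
          ((w.v (algebraMap R K (G.ρ π.y)) - η) * t k)).trans (le_of_eq ?_))
        congr 3
        rw [← Finset.sum_mul, Finset.sum_sub_distrib, Finset.sum_const, Finset.card_univ,
          Fintype.card_fin, nsmul_eq_mul]
        linear_combination (t k) * e
    have h2 : ∀ᶠ q in (U : Filter (ℕ × π.W A.Δ)), ∀ i, ‖q.2.1 (f i)‖ ^ 2 ≤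
        Real.exp (-((w.v (algebraMap R K (f i)) - η) * t q.1)) := by
      refine eventually_all.2 fun i => ?_
      filter_upwards [hne _ (hf i), hpos, (hw _ (hf i)).eventually
        (lt_mem_nhds (sub_lt_self _ hη))] with q a1 a2 a3
      exact SVs_up a1 (lt_of_lt_of_le one_pos a2) a3
    obtain ⟨q, a1, a2, a3, a4, a5, a6, a7⟩ := (h1.and (h2.and ((hne _ hρ).and
      ((hne _ (G.ρ_ne π)).and (hpos.and (((hw _ hρ).eventually
        (gt_mem_nhds (lt_add_of_pos_right _ hη))).and ((hw _ (G.ρ_ne π)).eventually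
          (lt_mem_nhds (sub_lt_self _ hη))))))))).exists
    have a0 : 0 < t q.1 := lt_of_lt_of_le one_pos a5
    exact a1 ⟨a2, SVs_lo a3 a0 a6, SVs_up a4 a0 a7⟩
  · by_cases hr : r = 0
    · exact Or.inl (by rw [hr, map_zero])
    obtain ⟨C, D, hC, hD⟩ := π.growth r
    have h1 := ((htU.const_div_atTop (-Real.log C)).sub (hb'.const_mul (D : ℝ)))
    rw [hb0, mul_zero, sub_zero] at h1
    refine Or.inr (le_of_tendsto_of_tendsto h1 (hw r hr) ?_)
    filter_upwards [hne r hr, hpos] with q a1 a2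
    have a0 : 0 < t q.1 := lt_of_lt_of_le one_pos a2
    have a3 := SVs_log a1 hC (one_le_gr _) (hD q.2.1)
    rw [← mul_div_assoc, ← sub_div]
    exact div_le_div_of_nonneg_right (by linarith) a0.le

end Vale.Agent.P282
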