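import Vale.Agent.P282.SM1
import Vale.Agent.P282.SVs

set_option linter.unusedSectionVars false

open scoped ENNReal TensorProduct Topology
open Filter MeasureTheory

noncomputable section

namespace Vale.Agent.P282

variable {R K : Type} [CommRing R] [IsDomain R] [Algebra ℂ R] [Algebra.FiniteType ℂ R]
  [IsIntegrallyClosed R] [Field K] [Algebra R K] [IsFractionRing R K] [Algebra ℂ K]
  [IsScalarTower ℂ R K] {n : ℕ}

theorem SNiv_pt {x y z g S T c M s m : ℝ} {j e : ℕ} (hx : 0 < x) (hy : 0 < y) (hz : 0 < z)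
    (hg : 0 < g) (hS : y ^ e ≤ S) (hT : 0 < T) (hc : 0 ≤ c) (hj : 0 < j) (he : 0 < j * e)
    (h : Real.exp T ≤ x * S ^ (-(c / (j * e : ℕ))) * (z ^ (-(1 / m)) * g ^ (-M)) * g ^ s) :
    (M - s) * (Real.log g / T) ≤ c * (-Real.log y / T) / j - 1 - -Real.log x / T +
      -Real.log z / T / m := by
  have S0 : 0 < S := (pow_pos hy e).trans_le hS
  have h1 := (Real.le_log_iff_exp_le (by positivity)).2 h
  rw [Real.log_mul (by positivity) (by positivity), Real.log_mul (by positivity) (by positivity),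
    Real.log_mul (by positivity) (by positivity), Real.log_mul (by positivity) (by positivity),
    Real.log_rpow S0, Real.log_rpow hz, Real.log_rpow hg, Real.log_rpow hg] at h1
  have h2 := Real.log_le_log (pow_pos hy e) hS
  rw [Real.log_pow] at h2
  have h3 := mul_le_mul_of_nonneg_left h2 (show 0 ≤ c / (j * e : ℕ) by positivity)
  have e0 : (e : ℝ) ≠ 0 := Nat.cast_ne_zero.2 (Nat.pos_of_mul_pos_left he).ne'
  have h4 : c / (j * e : ℕ) * (e * Real.log y) = c * Real.log y / j := by push_cast; field_simp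
  have h5 : (M - s) * Real.log g ≤ -(c * Real.log y / j) - T + Real.log x - Real.log z / m := by
    have : 1 / m * Real.log z = Real.log z / m := by ring
    linarith
  calc _ = (M - s) * Real.log g / T := by ring
    _ ≤ _ := div_le_div_of_nonneg_right h5 hT.le
    _ = _ := by field_simp; ring

/-- the main analytic theorem -/
theorem niv (G : WS R K n) (π : Proj R n) (A : An π (G.ρ π.y)) {f : R} {c₀ : ℝ} (hc : 0 ≤ c₀)
    (j : ℕ → ℕ) (hj : ∀ l, 0 < j l) (F : ℕ → ℂ → R) (hF : ∀ l, AFam (F l)) (h0 : F 0 0 ≠ 0)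
    (ξ : ℂ → R →ₗ[ℂ] ℂ) (hξ : ∀ r, AnalyticAt ℂ (fun t => ξ t r) 0) (hf : ξ 0 f ≠ 0)
    (hQ : QHyp G π A c₀ j F ξ) :
    ∃ (w : RVal K) (τ : ℝ), 0 < τ ∧ w.OnSpec R ∧
      (∀ l, w.Ge (algebraMap R K (F l 0)) (j l * τ)) ∧
      G.ω.A w ≤ ((c₀ * τ - w.v (algebraMap R K f) : ℝ) : EReal) := by
  have inj : ∀ {r : R}, r ≠ 0 → algebraMap R K r ≠ 0 :=
    (map_ne_zero_iff _ (IsFractionRing.injective R K)).2
  have f0 : f ≠ 0 := fun e => hf (by rw [e, map_zero])
  obtain ⟨N, hN⟩ : ∃ N : ℕ → ℕ, ∀ k, 0 < N k ∧ ∀ l < k + 1, j l ∣ N k :=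
    ⟨fun k => ∏ l ∈ Finset.range (k + 1), j l, fun k => ⟨Finset.prod_pos fun l _ => hj l,
      fun l hl => Finset.dvd_prod_of_mem _ (Finset.mem_range.2 hl)⟩⟩
  have hk : ∀ k : ℕ, (0 : ℝ) < 1 / (k + 1) := fun k => Nat.one_div_pos_of_nat
  have cg : Continuous fun p : Pt R => gr (π.at p) := gr_cont.comp π.at_cont
  have hm : ∀ k : ℕ, Measurable fun p : π.W A.Δ => ‖p.1 f‖ ^ 2 * rs π j (fun l => F l 0) (k + 1)
      (N k) 0 0 p.1 ^ (-((c₀ + 1 / (k + 1)) / N k)) * dens G π k p.1 := fun k => by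
    have h1 : Continuous (rs π j (fun l => F l 0) (k + 1) (N k) 0 0) :=
      (continuous_finsetSum _ fun l _ => ((Pt.cont _).norm.pow 2).pow _).add
        ((cg.pow 0).const_mul 0)
    exact ((((Pt.cont f).norm.pow 2).measurable.mul (h1.measurable.pow_const _)).mul
      (dens_meas G π k)).comp measurable_subtype_coe
  have := A.nu0_fin
  obtain ⟨t, ht, hΩ⟩ := vs_seq' A.nu0 (fun k => (hm k).mul
    ((cg.measurable.pow_const (2 * n + 1 : ℝ)).comp measurable_subtype_coe)) fun k =>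
      (A.lint_nu0 (hm k)).trans (m1 G π A hc j F hF h0 ξ hξ hf hQ k.succ_pos (hN k).1 (hN k).2
        (lt_add_of_pos_right _ (hk k)) k.cast_nonneg)
  obtain ⟨U, w, b, u1, u2, u3, u4, u5, u6⟩ := vs G π A _ t ht hΩ
  have hT := (ht.comp u1).eventually_gt_atTop 0
  have key : ∀ l, F l 0 ≠ 0 → ∃ Y : ℕ × π.W A.Δ → ℝ, Tendsto Y U (𝓝 (c₀ * w.v (algebraMap R K
      (F l 0)) / j l - 1 - w.v (algebraMap R K f) + w.v (algebraMap R K (G.ρ π.y)) / G.ω.m)) ∧
      ∀ᶠ q in (U : Filter (ℕ × π.W A.Δ)),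
        ((q.1 : ℝ) - (2 * n + 1)) * (Real.log (gr (π.at q.2.1)) / t q.1) ≤ Y q := fun l hl => by
    have h1 := (tendsto_one_div_add_atTop_nhds_zero_nat.comp u1).const_add c₀
    rw [add_zero] at h1
    refine ⟨_, ((((h1.mul (u3 _ hl).2).div_const _).sub_const 1).sub (u3 f f0).2).add
      ((u3 _ (G.ρ_ne π)).2.div_const _), ?_⟩
    filter_upwards [hT, u2, (u3 _ hl).1, (u3 f f0).1, u1.eventually_ge_atTop l] with q a1 a2 a3 a4 a5
    obtain ⟨e, he⟩ := (hN q.1).2 l (Nat.lt_succ_of_le a5)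
    refine SNiv_pt (e := e) (S := rs π j (fun l => F l 0) (q.1 + 1) (N q.1) 0 0 q.2.1)
      (by positivity) (by positivity) (pow_pos (norm_pos_iff.2 (A.g_ne q.2)) 2)
      (one_pos.trans_le (one_le_gr _)) ?_ a1 (add_nonneg hc (hk _).le) (hj l) (he ▸ (hN q.1).1)
      (he ▸ a2)
    rw [rs, zero_mul, add_zero]
    refine le_trans (le_of_eq ?_) (Finset.single_le_sum (f := fun l => (‖q.2.1 (F l 0)‖ ^ 2) ^
      (N q.1 / j l)) (fun _ _ => by positivity) (Finset.mem_range.2 (Nat.lt_succ_of_le a5)))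
    rw [he, Nat.mul_div_cancel_left _ (hj l)]
  have hκ : Tendsto (fun q : ℕ × π.W A.Δ => (q.1 : ℝ) - (2 * n + 1)) U atTop :=
    tendsto_atTop_add_const_right _ _ (tendsto_natCast_atTop_atTop.comp u1)
  have hγ : ∀ᶠ q in (U : Filter (ℕ × π.W A.Δ)), 0 ≤ Real.log (gr (π.at q.2.1)) / t q.1 :=
    hT.mono fun q h => div_nonneg (Real.log_nonneg (one_le_gr _)) h.le
  have hw : w.OnSpec R := u6 ((ge_of_tendsto u4 hγ).antisymm' (not_lt.1 fun h => by
    obtain ⟨Y, h1, h2⟩ := key 0 h0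
    exact not_tendsto_atTop_of_tendsto_nhds h1 (tendsto_atTop_mono' _ h2 (hκ.atTop_mul_pos h u4))))
  have hY : ∀ l, F l 0 ≠ 0 → 1 + w.v (algebraMap R K f) - w.v (algebraMap R K (G.ρ π.y)) / G.ω.m ≤
      c₀ * w.v (algebraMap R K (F l 0)) / j l := fun l hl => by
    obtain ⟨Y, h1, h2⟩ := key l hl
    have := ge_of_tendsto h1 (b := 0) (by
      filter_upwards [h2, hγ, hκ.eventually_ge_atTop 0] with q a1 a2 a3
      exact (mul_nonneg a3 a2).trans a1)
    linarith
  have h1 := EReal.coe_pos.1 ((G.klt w (by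
    by_contra h
    push Not at h
    have := hY 0 h0
    rw [h _ (inj f0), h _ (inj (G.ρ_ne π)), h _ (inj h0)] at this
    norm_num at this) hw).trans_le u5)
  have h2 := (hw f).resolve_left (inj f0)
  generalize w.v (algebraMap R K (G.ρ π.y)) / G.ω.m = a at *
  have c0 : 0 < c₀ := hc.lt_of_ne fun e => by
    have := hY 0 h0
    rw [← e, zero_mul, zero_div] at this
    linarith
  refine ⟨w, (1 + w.v (algebraMap R K f) - a) / c₀, div_pos (by linarith) c0, hw, fun l => ?_,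
    u5.trans_eq (congrArg _ (by field_simp; ring))⟩
  by_cases hl : F l 0 = 0
  · exact Or.inl (by rw [hl, map_zero])
  · have := hY l hl
    rw [le_div_iff₀ (Nat.cast_pos.2 (hj l))] at this
    exact Or.inr (by rw [← mul_div_assoc, div_le_iff₀ c0]; linarith)

end Vale.Agent.P282
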