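import Vale.Agent.P282.SDefs
import Vale.Agent.P271.HOpen
import Vale.Agent.P271.HKLa0

set_option linter.unusedSectionVars false

open scoped ENNReal TensorProduct Topology ContDiff
open Filter MeasureTheory

noncomputable section

namespace Vale.Agent.P282

variable {X W : Type} [NormedAddCommGroup X] [NormedSpace ℝ X] [NormedSpace ℂ X]
  [IsScalarTower ℝ ℂ X] [FiniteDimensional ℂ X] [MeasurableSpace X] [BorelSpace X]
  [TopologicalSpace W] [T2Space W] [MeasurableSpace W] [BorelSpace W]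
  {vol : Measure X} [vol.IsAddHaarMeasure]

theorem SPr_map {α β γ δ : Type} [MeasurableSpace α] [MeasurableSpace β] [MeasurableSpace γ]
    [MeasurableSpace δ] {μ : Measure α} {ν : Measure β} [SFinite μ] [SFinite ν] {f : α → γ}
    {g : β → δ} (hf : AEMeasurable f μ) (hg : AEMeasurable g ν) :
    (μ.prod ν).map (Prod.map f g) = (μ.map f).prod (ν.map g) := by
  rw [Measure.map_congr hf.ae_eq_mk, Measure.map_congr hg.ae_eq_mk,
    Measure.map_prod_map _ _ hf.measurable_mk hg.measurable_mk]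
  refine Measure.map_congr ?_
  filter_upwards [Measure.quasiMeasurePreserving_fst.ae hf.ae_eq_mk,
    Measure.quasiMeasurePreserving_snd.ae hg.ae_eq_mk] with p h1 h2
  exact Prod.ext h1 h2

theorem SPr_sf (S : Fuj.Sheets X W vol) (hS : Exh S) : SigmaFinite S.μ := by
  obtain ⟨u, C₀, -, -, hc, -⟩ := hS
  have := S.finiteOnCompacts
  refine Measure.sigmaFinite_of_countable
    (Set.countable_range fun n : ℕ => {p | u p ≤ n}) ?_ ?_
  · rintro _ ⟨n, rfl⟩
    exact (hc n).measure_lt_top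
  · refine Set.eq_univ_of_forall fun p => ?_
    obtain ⟨n, hn⟩ := exists_nat_ge (u p)
    exact ⟨_, ⟨n, rfl⟩, hn⟩

theorem SPr_vol : SFinite vol := by
  have := FiniteDimensional.proper ℂ X
  infer_instance

theorem SPr_fin (r : ℝ) :
    IsFiniteMeasure (Measure.comap (Subtype.val : Metric.ball (0 : ℂ) r → ℂ) volume) := by
  refine ⟨?_⟩
  rw [(MeasurableEmbedding.subtype_coe Metric.isOpen_ball.measurableSet).comap_apply,
    Set.image_univ, Subtype.range_coe]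
  exact measure_ball_lt_top

theorem SPr_haar : (vol.prod (volume : Measure ℂ)).IsAddHaarMeasure := by
  have : FiniteDimensional ℝ X := Module.Finite.trans ℂ X
  have := FiniteDimensional.proper_real X
  exact Measure.prod.instIsAddHaarMeasure _ _

/-- The product of the sheets with a disc. -/
def SPr_S (S : Fuj.Sheets X W vol) [SFinite S.μ] (r : ℝ) [Nonempty (Metric.ball (0 : ℂ) r)] :
    Fuj.Sheets (X × ℂ) (W × Metric.ball (0 : ℂ) r) (vol.prod volume) where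
  ι := S.ι
  cnt := S.cnt
  π q := (S.π q.1, q.2)
  e i := (S.e i).prod (Fuj.hoE Metric.isOpen_ball)
  e_eq i p hp := Prod.ext (S.e_eq i p.1 hp.1) rfl
  cover p := (S.cover p.1).imp fun _ hi => ⟨hi, Set.mem_univ _⟩
  τ _ _ := 1
  τ_meas _ := measurable_const
  τ_ne _ _ _ := one_ne_zero
  hol _ _ := differentiableOn_const _
  μ := S.μ.prod (Measure.comap Subtype.val volume)
  μ_eq i := by
    have := SPr_vol (vol := vol)
    have := SPr_fin r
    have h2 := (Fuj.hoS (Metric.isOpen_ball (x := (0 : ℂ)) (ε := r)) volume).μ_eq ()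
    have h3 := (Fuj.hoS (Metric.isOpen_ball (x := (0 : ℂ)) (ε := r)) volume).aemeasurable_symm ()
    rw [OpenPartialHomeomorph.prod_target, OpenPartialHomeomorph.prod_source,
      ← Measure.prod_restrict, ← Measure.prod_restrict, ← S.μ_eq i]
    exact (SPr_map (S.aemeasurable_symm i) h3).trans (congrArg _ h2)

section

variable (S : Fuj.Sheets X W vol) [SFinite S.μ] (r : ℝ) [Nonempty (Metric.ball (0 : ℂ) r)]

theorem SPr_tg (i : S.ι) : ((SPr_S S r).e i).target = Tg S i r := by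
  change (S.e i).target ×ˢ (Fuj.hoE Metric.isOpen_ball).target = _
  rw [Fuj.hoE_target]; rfl

theorem SPr_open (i : S.ι) : IsOpen (Tg S i r) := (S.e i).open_target.prod Metric.isOpen_ball

theorem SPr_symm {i : S.ι} {q : X × ℂ} (hq : q ∈ Tg S i r) :
    ((SPr_S S r).e i).symm q = ((S.e i).symm q.1, ⟨q.2, hq.2⟩) :=
  Prod.ext rfl (Fuj.hoE_left Metric.isOpen_ball ⟨q.2, hq.2⟩)

theorem SPr_loc (g : W → ℂ → ℝ) {i : S.ι} {q : X × ℂ} (hq : q ∈ Tg S i r) :
    (SPr_S S r).loc i (fun p => g p.1 p.2) q = Lc S i g q := by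
  exact congrArg (fun p : W × Metric.ball (0 : ℂ) r => g p.1 p.2) (SPr_symm S r hq)

theorem SPr_wt (g : W → ℂ → ℝ) {i : S.ι} {q : X × ℂ} (hq : q ∈ Tg S i r) :
    (SPr_S S r).wt i (fun p => g p.1 p.2) q = Lc S i g q := by
  rw [← SPr_loc S r g hq]
  change _ + Real.log (‖(1 : ℂ)‖ ^ 2) = _
  simp only [norm_one, one_pow, Real.log_one, add_zero]
  rfl

theorem SPr_rep (g : W → ℂ → ℂ) {i : S.ι} {q : X × ℂ} (hq : q ∈ Tg S i r) :
    (SPr_S S r).rep i (fun p => g p.1 p.2) q = Lc S i g q := by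
  exact (one_mul _).trans
    (congrArg (fun p : W × Metric.ball (0 : ℂ) r => g p.1 p.2) (SPr_symm S r hq))

theorem SPr_int {g : W → ℂ → ℝ≥0∞}
    (hg : Measurable fun p : W × Metric.ball (0 : ℂ) r => g p.1 p.2) :
    ∫⁻ p, g p.1 p.2 ∂(SPr_S S r).μ = ∫⁻ t in Metric.ball (0 : ℂ) r, ∫⁻ p, g p t ∂S.μ := by
  have := SPr_fin r
  rw [← lintegral_subtype_comap Metric.isOpen_ball.measurableSet]
  exact lintegral_prod_symm' _ hg

theorem SPr_exh (hS : Exh S) (hr : 0 < r) : Exh (SPr_S S r) := by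
  obtain ⟨u, C₀, hu, hup, huc, hug⟩ := hS
  have := SPr_haar (vol := vol)
  have := FiniteDimensional.proper ℂ X
  obtain ⟨K, hK⟩ := (huc 0).exists_bound_of_continuousOn
    (Fuj.Sheets.SmF.continuous S hu).continuousOn
  have hK' : ∀ p, -|K| ≤ u p := fun p => by
    rcases le_total (u p) 0 with h | h
    · have h1 := hK p h
      rw [Real.norm_eq_abs] at h1
      linarith [neg_abs_le (u p), le_abs_self K]
    · linarith [abs_nonneg K]
  let L : X × ℂ →L[ℂ] ℂ := ContinuousLinearMap.snd ℂ X ℂ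
  let P : X × ℂ →L[ℂ] X := ContinuousLinearMap.fst ℂ X ℂ
  have t := fun (q : X × ℂ) (hq : q.2 ∈ Metric.ball (0 : ℂ) r) =>
    Fuj.HKLa0_term L (fun ξ => norm_snd_le ξ) (r := r) (q := q) (mem_ball_zero_iff.1 hq)
  set w : X × ℂ → ℝ := fun y => -2 * Real.log (r ^ 2 - ‖L y‖ ^ 2) with hw
  set K' := |2 * Real.log (r ^ 2)| with hK'd
  let g : W → ℂ → ℝ := fun p s => u p + -2 * Real.log (r ^ 2 - ‖s‖ ^ 2)
  have ev : ∀ i, ∀ q ∈ Tg S i r, (SPr_S S r).loc i (fun p => g p.1 p.2) =ᶠ[𝓝 q]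
      fun y => S.loc i u (P y) + w y := fun i q hq =>
    eventually_of_mem ((SPr_open S r i).mem_nhds hq) fun y hy => SPr_loc S r g hy
  have cu : ∀ i, ∀ q ∈ Tg S i r, ContDiffAt ℝ ∞ (S.loc i u) (P q) := fun i q hq =>
    (hu i).contDiffAt ((S.e i).open_target.mem_nhds hq.1)
  have cP : ContDiff ℝ ∞ P := P.contDiff.restrict_scalars ℝ
  have cu' : ∀ i, ∀ q ∈ Tg S i r, ContDiffAt ℝ ∞ (fun y => S.loc i u (P y)) q := fun i q hq =>
    (cu i q hq).comp q cP.contDiffAt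
  have hs : (SPr_S S r).SmF fun p => g p.1 p.2 := fun i q hq => by
    replace hq : q ∈ Tg S i r := (SPr_tg S r i).le hq
    exact (((cu' i q hq).add (t q hq.2).1).congr_of_eventuallyEq (ev i q hq)).contDiffWithinAt
  refine ⟨fun p => g p.1 p.2, 2 * |C₀| * Real.exp K' + 8 * r ^ 2 * Real.exp |K|, hs,
    fun i q hq ξ => ?_, fun c => ?_, fun i q hq ξ => ?_⟩
  · replace hq : q ∈ Tg S i r := (SPr_tg S r i).le hq
    rw [Fuj.levi_congr (ev i q hq), Fuj.levi_add ((cu' i q hq).of_le Fuj.HKLa_two)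
      ((t q hq.2).1.of_le Fuj.HKLa_two), Fuj.levi_comp_hol ((cu i q hq).of_le Fuj.HKLa_two)
      (Eventually.of_forall fun _ => P.differentiableAt)]
    exact add_nonneg (hup i _ hq.1 _) ((t q hq.2).2.1 ξ)
  · set δ := Real.exp (-abs (c + |K|)) with hδ
    have hδ0 : 0 < δ := Real.exp_pos _
    have h1 : IsCompact {s : ℂ | δ ≤ r ^ 2 - ‖s‖ ^ 2} := by
      refine Metric.isCompact_of_isClosed_isBounded
        (isClosed_le continuous_const (by fun_prop))
        ((Metric.isBounded_ball (x := (0 : ℂ)) (r := r)).subset fun s hs => ?_)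
      exact mem_ball_zero_iff.2 (lt_of_pow_lt_pow_left₀ 2 hr.le (by
        have : δ ≤ r ^ 2 - ‖s‖ ^ 2 := hs
        linarith))
    have h2 : IsCompact ((Subtype.val : Metric.ball (0 : ℂ) r → ℂ) ⁻¹'
        {s : ℂ | δ ≤ r ^ 2 - ‖s‖ ^ 2}) := by
      refine (Topology.IsInducing.subtypeVal.isCompact_preimage_iff fun s hs => ?_).2 h1
      rw [Subtype.range_coe]
      exact mem_ball_zero_iff.2 (lt_of_pow_lt_pow_left₀ 2 hr.le (by
        have : δ ≤ r ^ 2 - ‖s‖ ^ 2 := hs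
        linarith))
    refine ((huc (c + K')).prod h2).of_isClosed_subset
      (isClosed_le (Fuj.Sheets.SmF.continuous _ hs) continuous_const) fun p hp => ?_
    have h3 : u p.1 + -2 * Real.log (r ^ 2 - ‖(p.2 : ℂ)‖ ^ 2) ≤ c := hp
    have h4 : -K' ≤ -2 * Real.log (r ^ 2 - ‖(p.2 : ℂ)‖ ^ 2) := (t (0, p.2) p.2.2).2.2.2
    have h5 := hK' p.1
    refine ⟨show u p.1 ≤ c + K' by linarith, ?_⟩
    exact Fuj.HKLa0_le (c := c + |K|) (sub_pos.2 (pow_lt_pow_left₀ (mem_ball_zero_iff.1 p.2.2)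
      (norm_nonneg _) two_ne_zero)) one_le_two (by linarith) le_rfl
  · replace hq : q ∈ Tg S i r := (SPr_tg S r i).le hq
    have d1 := (cu' i q hq).differentiableAt (by simp)
    have d2 := (t q hq.2).1.differentiableAt (by simp)
    have e1 : Fuj.dzr (fun y => S.loc i u (P y)) q ξ = Fuj.dzr (S.loc i u) (P q) (P ξ) := by
      have h1 := Fuj.dz_comp_hol (f := fun y => ((S.loc i u y : ℝ) : ℂ)) (Φ := P) (z := q)
        (Fuj.hCalc1_re ((cu i q hq).differentiableAt (by simp))).differentiableAt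
        P.differentiableAt ξ
      rw [P.fderiv] at h1
      exact h1
    rw [Fuj.dzr_congr (ev i q hq), Fuj.dzr_add d1 d2, e1, (ev i q hq).eq_of_nhds]
    have b1 := hug i _ hq.1 (P ξ)
    have b2 := (t q hq.2).2.2.1 ξ
    have b3 : -K' ≤ w q := (t q hq.2).2.2.2
    have b4 : -|K| ≤ S.loc i u (P q) := hK' _
    have b5 : ‖P ξ‖ ^ 2 ≤ ‖ξ‖ ^ 2 := pow_le_pow_left₀ (norm_nonneg _) (norm_fst_le ξ) 2
    change ‖Fuj.dzr (S.loc i u) (P q) (P ξ)‖ ^ 2 ≤
      C₀ * (1 + Real.exp (S.loc i u (P q))) * ‖P ξ‖ ^ 2 at b1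
    change ‖Fuj.dzr w q ξ‖ ^ 2 ≤ 4 * r ^ 2 * Real.exp (w q) * ‖ξ‖ ^ 2 at b2
    set E := Real.exp (S.loc i u (P q) + w q) with hE
    have hE0 : 0 < E := Real.exp_pos _
    have k0 : 1 ≤ Real.exp K' := Real.one_le_exp (abs_nonneg _)
    have k1 : Real.exp (S.loc i u (P q)) ≤ Real.exp K' * E := by
      rw [hE, ← Real.exp_add]; exact Real.exp_le_exp.2 (by linarith)
    have k2 : Real.exp (w q) ≤ Real.exp |K| * (1 + E) := by
      refine le_trans ?_ (mul_le_mul_of_nonneg_left (le_add_of_nonneg_left zero_le_one)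
        (Real.exp_pos _).le)
      rw [hE, ← Real.exp_add]; exact Real.exp_le_exp.2 (by linarith)
    have c1 : ‖Fuj.dzr (S.loc i u) (P q) (P ξ)‖ ^ 2 ≤ |C₀| * (Real.exp K' * (1 + E)) * ‖ξ‖ ^ 2 := by
      refine b1.trans (mul_le_mul (mul_le_mul (le_abs_self _) (by linarith) (by positivity)
        (abs_nonneg _)) b5 (sq_nonneg _) (by positivity))
    have c2 : ‖Fuj.dzr w q ξ‖ ^ 2 ≤ 4 * r ^ 2 * (Real.exp |K| * (1 + E)) * ‖ξ‖ ^ 2 :=
      b2.trans (mul_le_mul_of_nonneg_right (mul_le_mul_of_nonneg_left k2 (by positivity))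
        (sq_nonneg _))
    refine (pow_le_pow_left₀ (norm_nonneg _) (norm_add_le _ _) 2).trans ?_
    generalize ‖Fuj.dzr (S.loc i u) (P q) (P ξ)‖ = x₁ at *
    generalize ‖Fuj.dzr w q ξ‖ = x₂ at *
    nlinarith [sq_nonneg (x₁ - x₂)]

end

/-- the existence theorem on the product with a disc -/
theorem prod_horm (S : Fuj.Sheets X W vol) (hτ : ∀ i p, S.τ i p = 1) (hS : Exh S) {r : ℝ}
    (hr : 0 < r) (hr1 : r ≤ 1) {Φ : W → ℂ → ℝ} (hΦ : PshP S r Φ) {f : W → ℂ → ℂ}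
    (hf : ∀ i, ContDiffOn ℝ ∞ (Lc S i f) (Tg S i r))
    (hf2 : ∫⁻ t in Metric.ball (0 : ℂ) r, ∫⁻ p,
      ENNReal.ofReal (‖f p t‖ ^ 2 * Real.exp (-Φ p t)) ∂S.μ ≠ ⊤)
    {a : W → ℂ → ℝ} (ha : Measurable fun q : W × ℂ => a q.1 q.2) (ha0 : ∀ p t, 0 ≤ a p t)
    (hfa : ∀ i, ∀ q ∈ Tg S i r, ∀ ξ,
      ‖Fuj.db (Lc S i f) q ξ‖ ^ 2 ≤ Lc S i a q * Fuj.levi (Lc S i Φ) q ξ) :
    ∃ F : W → ℂ → ℂ, HolP S r F ∧ (Measurable fun q : W × ℂ => F q.1 q.2) ∧
      ∫⁻ t in Metric.ball (0 : ℂ) r, ∫⁻ p,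
        ENNReal.ofReal (‖F p t - f p t‖ ^ 2 * Real.exp (-Φ p t)) ∂S.μ ≤
      2 * ∫⁻ t in Metric.ball (0 : ℂ) r, ∫⁻ p,
        ENNReal.ofReal (a p t * Real.exp (-Φ p t)) ∂S.μ := by
  classical
  have _h1 := hτ
  have _h2 := hr1
  have := SPr_sf S hS
  have : Nonempty (Metric.ball (0 : ℂ) r) := ⟨⟨0, Metric.mem_ball_self hr⟩⟩
  have := SPr_haar (vol := vol)
  have := FiniteDimensional.proper ℂ X
  have ev : ∀ {Y : Type} {g g' : X × ℂ → Y} {i : S.ι}, (∀ q ∈ Tg S i r, g q = g' q) →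
      ∀ q ∈ Tg S i r, g =ᶠ[𝓝 q] g' :=
    fun h q hq => eventually_of_mem ((SPr_open S r _).mem_nhds hq) h
  obtain ⟨u, C₀, hu, hup, huc, hug⟩ := SPr_exh S r hS hr
  have sΦ : (SPr_S S r).SmW fun p => Φ p.1 p.2 := fun i =>
    ((hΦ i).1.congr fun q hq => SPr_wt S r Φ hq).mono (SPr_tg S r i).le
  have sf : (SPr_S S r).SmS fun p => f p.1 p.2 := fun i =>
    ((hf i).congr fun q hq => SPr_rep S r f hq).mono (SPr_tg S r i).le
  have mΦ := Fuj.Sheets.SmW.measurable _ sΦ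
  have mf := Fuj.Sheets.SmS.measurable _ sf
  have ma : Measurable fun p : W × Metric.ball (0 : ℂ) r => a p.1 p.2 :=
    ha.comp (measurable_fst.prodMk (measurable_subtype_coe.comp measurable_snd))
  obtain ⟨F, hF, hle⟩ := (SPr_S S r).hormander hu hup huc hug sΦ
    (fun i q hq ξ => by
      replace hq : q ∈ Tg S i r := (SPr_tg S r i).le hq
      rw [Fuj.levi_congr (ev (fun q hq => SPr_wt S r Φ hq) q hq)]
      exact (hΦ i).2 q hq ξ) sf
    (by
      rw [← SPr_int S r (g := fun p t => ENNReal.ofReal (‖f p t‖ ^ 2 * Real.exp (-Φ p t)))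
        ((SPr_S S r).hsh3_meas sΦ mf)] at hf2
      exact hf2) ma (fun p => ha0 _ _)
    (fun i q hq ξ => by
      replace hq : q ∈ Tg S i r := (SPr_tg S r i).le hq
      rw [Fuj.levi_congr (ev (fun q hq => SPr_wt S r Φ hq) q hq),
        Fuj.db_congr (ev (fun q hq => SPr_rep S r f hq) q hq), SPr_loc S r a hq]
      change _ ≤ ‖(1 : ℂ)‖ ^ 2 * _ * _
      simpa using hfa i q hq ξ)
  have mF := Fuj.Sheets.SmS.measurable _ (Fuj.Sheets.HolS.smS _ hF)
  let G : W → ℂ → ℂ := fun p t => if h : t ∈ Metric.ball (0 : ℂ) r then F (p, ⟨t, h⟩) else 0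
  have eG : (fun p : W × Metric.ball (0 : ℂ) r => G p.1 p.2) = F :=
    funext fun p => dif_pos p.2.2
  refine ⟨G, fun i => ?_, ?_, ?_⟩
  · have h1 := (hF i).mono (SPr_tg S r i).ge
    rw [← eG] at h1
    exact h1.congr fun q hq => (SPr_rep S r G hq).symm
  · exact Measurable.dite (s := Prod.snd ⁻¹' Metric.ball (0 : ℂ) r)
      (f := fun q => F (q.1.1, ⟨q.1.2, q.2⟩)) (g := fun _ => 0)
      (mF.comp (measurable_subtype_coe.fst.prodMk measurable_subtype_coe.snd.subtype_mk))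
      measurable_const (measurable_snd Metric.isOpen_ball.measurableSet)
  · rw [← eG] at hle mF
    rw [← SPr_int S r (g := fun p t => ENNReal.ofReal (‖G p t - f p t‖ ^ 2 * Real.exp (-Φ p t)))
        ((SPr_S S r).hsh3_meas sΦ (mF.sub mf)),
      ← SPr_int S r (g := fun p t => ENNReal.ofReal (a p t * Real.exp (-Φ p t)))
        (ma.mul mΦ.neg.exp).ennreal_ofReal]
    exact hle

end Vale.Agent.P282
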