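import Vale.Agent.P282.AVal

set_option linter.unusedSectionVars false

open scoped ENNReal TensorProduct Topology
open Filter MeasureTheory

noncomputable section

namespace Vale.Agent.P282

variable {R K : Type} [CommRing R] [IsDomain R] [Algebra ℂ R] [Algebra.FiniteType ℂ R]
  [IsIntegrallyClosed R] [Field K] [Algebra R K] [IsFractionRing R K] [Algebra ℂ K]
  [IsScalarTower ℂ R K] {n : ℕ}

theorem vs_seq {W : Type} [MeasurableSpace W] (ν : Measure W) [IsFiniteMeasure ν] {g : W → ℝ}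
    (hg : Measurable g) (h : ∫⁻ p, ENNReal.ofReal (g p) ∂ν = ⊤) {η : ℝ} (hη : 0 < η) (T : ℝ) :
    ∃ t ≥ T, ENNReal.ofReal (Real.exp (-(1 + η) * t)) ≤ ν {p | Real.exp t ≤ g p} := by
  by_contra hc
  push Not at hc
  have hm : ∀ j : ℕ, MeasurableSet {p | Real.exp (T + j) ≤ g p} := fun j =>
    measurableSet_le measurable_const hg
  have h1 : ∀ p, ENNReal.ofReal (g p) ≤ ENNReal.ofReal (Real.exp T) +
      ∑' j : ℕ, {p | Real.exp (T + j) ≤ g p}.indicator
        (fun _ => ENNReal.ofReal (Real.exp (T + j + 1))) p := by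
    intro p
    rcases lt_or_ge (g p) (Real.exp T) with hp | hp
    · exact (ENNReal.ofReal_le_ofReal hp.le).trans le_self_add
    · have hpos : 0 < g p := (Real.exp_pos T).trans_le hp
      have h0 : 0 ≤ Real.log (g p) - T := sub_nonneg.2 ((Real.le_log_iff_exp_le hpos).2 hp)
      refine le_trans ?_ le_add_self
      refine le_trans ?_ (ENNReal.le_tsum ⌊Real.log (g p) - T⌋₊)
      rw [Set.indicator_of_mem]
      · refine ENNReal.ofReal_le_ofReal ((Real.log_le_iff_le_exp hpos).1 ?_)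
        have := Nat.lt_floor_add_one (Real.log (g p) - T)
        linarith
      · refine (Real.le_log_iff_exp_le hpos).1 ?_
        have := Nat.floor_le h0
        linarith
  have h2 := lintegral_mono (μ := ν) h1
  rw [h, lintegral_add_left measurable_const, lintegral_tsum fun j =>
    (measurable_const.indicator (hm j)).aemeasurable, lintegral_const] at h2
  simp only [lintegral_indicator_const (hm _)] at h2
  have h3 : ∀ j : ℕ, ENNReal.ofReal (Real.exp (T + j + 1)) * ν {p | Real.exp (T + j) ≤ g p} ≤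
      ENNReal.ofReal (Real.exp (1 - η * T) * Real.exp (-η) ^ j) := by
    intro j
    have h0 : (0 : ℝ) ≤ j := Nat.cast_nonneg j
    refine le_trans (mul_le_mul_right (hc (T + j) (by linarith)).le _) (le_of_eq ?_)
    rw [← ENNReal.ofReal_mul (Real.exp_pos _).le, ← Real.exp_add, ← Real.exp_nat_mul,
      ← Real.exp_add]
    congr 2
    ring
  have h4 : Summable fun j : ℕ => Real.exp (1 - η * T) * Real.exp (-η) ^ j :=
    (summable_geometric_of_lt_one (Real.exp_pos _).le
      (Real.exp_lt_one_iff.2 (by linarith))).mul_left _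
  have h5 := ENNReal.tsum_le_tsum h3
  rw [← ENNReal.ofReal_tsum_of_nonneg (fun j => by positivity) h4] at h5
  exact absurd (top_le_iff.1 h2) (ENNReal.add_ne_top.2 ⟨ENNReal.mul_ne_top ENNReal.ofReal_ne_top
    (measure_ne_top _ _), ne_top_of_le_ne_top ENNReal.ofReal_ne_top h5⟩)

theorem vs_seq' {W : Type} [MeasurableSpace W] (ν : Measure W) [IsFiniteMeasure ν] {g : ℕ → W → ℝ}
    (hg : ∀ k, Measurable (g k)) (h : ∀ k, ∫⁻ p, ENNReal.ofReal (g k p) ∂ν = ⊤) :
    ∃ t : ℕ → ℝ, Tendsto t atTop atTop ∧ ∀ η : ℝ, 0 < η → ∀ᶠ k in atTop,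
      ENNReal.ofReal (Real.exp (-(1 + η) * t k)) ≤ ν {p | Real.exp (t k) ≤ g k p} := by
  choose t ht ht' using fun k : ℕ => vs_seq ν (hg k) (h k) (Nat.one_div_pos_of_nat (n := k)) k
  refine ⟨t, tendsto_atTop_mono ht tendsto_natCast_atTop_atTop, fun η hη => ?_⟩
  filter_upwards [(tendsto_one_div_add_atTop_nhds_zero_nat (𝕜 := ℝ)).eventually
    (ge_mem_nhds hη)] with k hk
  refine le_trans (ENNReal.ofReal_le_ofReal (Real.exp_le_exp.2 ?_)) (ht' k)
  have h0 : (0 : ℝ) ≤ t k := (Nat.cast_nonneg k).trans (ht k)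
  nlinarith

theorem vs_ultra {W : Type} [MeasurableSpace W] (ν : Measure W) [IsFiniteMeasure ν]
    (Ω : ℕ → Set W) (h : ∀ᶠ k in atTop, 0 < ν (Ω k)) : ∃ U : Ultrafilter (ℕ × W),
      Tendsto Prod.fst (U : Filter (ℕ × W)) atTop ∧ (∀ᶠ q in (U : Filter (ℕ × W)), q.2 ∈ Ω q.1) ∧
      ∀ S : Set (ℕ × W), Tendsto (fun k => ν {p | p ∈ Ω k ∧ (k, p) ∈ S} / ν (Ω k)) atTop (𝓝 0) →
        S ∉ U := by
  let F : Filter (ℕ × W) :=
    { sets := {S | Tendsto (fun k => ν {p | p ∈ Ω k ∧ (k, p) ∉ S} / ν (Ω k)) atTop (𝓝 0)}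
      univ_sets := by simp
      sets_of_superset := fun {S S'} hS hSS => by
        refine tendsto_of_tendsto_of_tendsto_of_le_of_le tendsto_const_nhds hS
          (fun _ => zero_le) fun k => ?_
        refine ENNReal.div_le_div_right (measure_mono fun p hp => ?_) _
        exact ⟨hp.1, fun h' => hp.2 (hSS h')⟩
      inter_sets := fun {S S'} hS hS' => by
        have h1 := Tendsto.add hS hS'
        rw [add_zero] at h1
        refine tendsto_of_tendsto_of_tendsto_of_le_of_le tendsto_const_nhds h1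
          (fun _ => zero_le) fun k => ?_
        simp only
        rw [← ENNReal.add_div]
        refine ENNReal.div_le_div_right (le_trans (measure_mono fun p hp => ?_)
          (measure_union_le _ _)) _
        by_cases h2 : (k, p) ∈ S
        · exact Or.inr ⟨hp.1, fun h' => hp.2 ⟨h2, h'⟩⟩
        · exact Or.inl ⟨hp.1, h2⟩ }
  have hF : ∀ S, S ∈ F ↔
      Tendsto (fun k => ν {p | p ∈ Ω k ∧ (k, p) ∉ S} / ν (Ω k)) atTop (𝓝 0) := fun S => Iff.rfl
  have hev : ∀ S : Set (ℕ × W), (∀ᶠ k in atTop, ∀ p ∈ Ω k, (k, p) ∈ S) → S ∈ F := by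
    intro S hS
    refine (hF S).2 (tendsto_const_nhds.congr' ?_)
    filter_upwards [hS] with k hk
    have : {p | p ∈ Ω k ∧ (k, p) ∉ S} = ∅ :=
      Set.eq_empty_of_forall_notMem fun p hp => hp.2 (hk p hp.1)
    simp [this]
  have : F.NeBot := by
    refine ⟨fun h0 => ?_⟩
    have h1 : (∅ : Set (ℕ × W)) ∈ F := by rw [h0]; exact mem_bot
    have h2 : Tendsto (fun k => ν {p | p ∈ Ω k ∧ (k, p) ∉ (∅ : Set (ℕ × W))} / ν (Ω k)) atTop
        (𝓝 1) := by
      refine tendsto_const_nhds.congr' ?_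
      filter_upwards [h] with k hk
      simp [ENNReal.div_self hk.ne' (measure_ne_top _ _)]
    exact zero_ne_one (tendsto_nhds_unique ((hF _).1 h1) h2)
  refine ⟨Ultrafilter.of F, fun B hB => Ultrafilter.of_le F (hev _ ?_),
    Ultrafilter.of_le F (hev _ (Eventually.of_forall fun k p hp => hp)), fun S hS => ?_⟩
  · filter_upwards [hB] with k hk p _ using hk
  · refine Ultrafilter.compl_mem_iff_notMem.1 (Ultrafilter.of_le F ((hF _).2 ?_))
    simpa using hS

theorem SVs0_ext (v : R → ℝ) (hmul : ∀ r s, r ≠ 0 → s ≠ 0 → v (r * s) = v r + v s)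
    (hadd : ∀ r s, r ≠ 0 → s ≠ 0 → r + s ≠ 0 → min (v r) (v s) ≤ v (r + s))
    (hc : ∀ c : ℂ, c ≠ 0 → v (algebraMap ℂ R c) = 0) :
    ∃ w : RVal K, ∀ r : R, r ≠ 0 → w.v (algebraMap R K r) = v r := by
  have hinj : Function.Injective (algebraMap R K) := IsFractionRing.injective R K
  choose x y hy hxy using fun a : K => IsFractionRing.div_surjective (A := R) a
  have hy0 : ∀ a, y a ≠ 0 := fun a => nonZeroDivisors.ne_zero (hy a)
  have hK : ∀ r : R, r ≠ 0 → algebraMap R K r ≠ 0 := fun r hr => (map_ne_zero_iff _ hinj).2 hr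
  have hx0 : ∀ a, a ≠ 0 → x a ≠ 0 := fun a ha h0 => ha (by rw [← hxy a, h0, map_zero, zero_div])
  have key : ∀ r s : R, r ≠ 0 → s ≠ 0 → ∀ a, a = algebraMap R K r / algebraMap R K s →
      v (x a) - v (y a) = v r - v s := by
    intro r s hr hs a ha
    have ha0 : a ≠ 0 := ha ▸ div_ne_zero (hK r hr) (hK s hs)
    have e : x a * s = r * y a := by
      apply hinj
      rw [map_mul, map_mul]
      exact (div_eq_div_iff (hK _ (hy0 a)) (hK s hs)).1 ((hxy a).trans ha)
    have h1 := hmul _ _ (hx0 a ha0) hs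
    rw [e, hmul _ _ hr (hy0 a)] at h1
    linarith
  have h1 : v 1 = 0 := by simpa using hc 1 one_ne_zero
  have hR : ∀ r : R, r ≠ 0 → v (x (algebraMap R K r)) - v (y (algebraMap R K r)) = v r := by
    intro r hr
    rw [key r 1 hr one_ne_zero _ (by simp), h1, sub_zero]
  refine ⟨⟨fun a => v (x a) - v (y a), fun a b ha hb => ?_, fun a b ha hb hab => ?_,
    fun c hc0 => ?_⟩, hR⟩
  · rw [key (x a * x b) (y a * y b) (mul_ne_zero (hx0 a ha) (hx0 b hb))
      (mul_ne_zero (hy0 a) (hy0 b)) _ (by rw [map_mul, map_mul, mul_div_mul_comm, hxy, hxy]),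
      hmul _ _ (hx0 a ha) (hx0 b hb), hmul _ _ (hy0 a) (hy0 b)]
    ring
  · have e : a + b = algebraMap R K (x a * y b + y a * x b) / algebraMap R K (y a * y b) := by
      rw [map_add, map_mul, map_mul, map_mul, ← div_add_div _ _ (hK _ (hy0 a)) (hK _ (hy0 b)),
        hxy, hxy]
    have hn : x a * y b + y a * x b ≠ 0 := fun h0 => hab (by rw [e, h0, map_zero, zero_div])
    have h2 := hadd _ _ (mul_ne_zero (hx0 a ha) (hy0 b)) (mul_ne_zero (hy0 a) (hx0 b hb)) hn
    rw [hmul _ _ (hx0 a ha) (hy0 b), hmul _ _ (hy0 a) (hx0 b hb)] at h2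
    rw [key _ (y a * y b) hn (mul_ne_zero (hy0 a) (hy0 b)) _ e, hmul _ _ (hy0 a) (hy0 b)]
    rcases min_le_iff.1 h2 with h3 | h3
    · exact min_le_iff.2 (Or.inl (by linarith))
    · exact min_le_iff.2 (Or.inr (by linarith))
  · rw [IsScalarTower.algebraMap_apply ℂ R K, hR _ ((map_ne_zero _).2 hc0), hc c hc0]

theorem SVs0_log {a b : ℂ} (ha : a ≠ 0) (hb : b ≠ 0) (hab : a + b ≠ 0) {t : ℝ} (ht : 0 < t) :
    min (-Real.log (‖a‖ ^ 2) / t) (-Real.log (‖b‖ ^ 2) / t) - Real.log 4 / t ≤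
      -Real.log (‖a + b‖ ^ 2) / t := by
  have key : ∀ c : ℂ, c ≠ 0 → ‖a + b‖ ≤ 2 * ‖c‖ →
      -Real.log (‖c‖ ^ 2) / t - Real.log 4 / t ≤ -Real.log (‖a + b‖ ^ 2) / t := by
    intro c hc h
    rw [← sub_div]
    refine div_le_div_of_nonneg_right ?_ ht.le
    have h1 : ‖a + b‖ ^ 2 ≤ 4 * ‖c‖ ^ 2 := by nlinarith [norm_nonneg (a + b)]
    have h2 := Real.log_le_log (by positivity) h1
    rw [Real.log_mul (by norm_num) (by positivity)] at h2
    linarith
  have h0 := norm_add_le a b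
  rcases le_total ‖a‖ ‖b‖ with h | h
  · exact le_trans (sub_le_sub_right (min_le_right _ _) _) (key b hb (by linarith))
  · exact le_trans (sub_le_sub_right (min_le_left _ _) _) (key a ha (by linarith))

/-- the valuation of an ultralimit of points -/
theorem vs_val {ι : Type} (U : Ultrafilter ι) (p : ι → Pt R) (t : ι → ℝ)
    (ht : Tendsto t (U : Filter ι) atTop) (h : ∀ r : R, r ≠ 0 → ∃ B : ℝ, ∀ᶠ q in (U : Filter ι),
      p q r ≠ 0 ∧ |Real.log (‖p q r‖ ^ 2) / t q| ≤ B) : ∃ w : RVal K, ∀ r : R, r ≠ 0 →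
      Tendsto (fun q => -Real.log (‖p q r‖ ^ 2) / t q) (U : Filter ι)
        (𝓝 (w.v (algebraMap R K r))) := by
  have hex : ∀ r : R, ∃ a : ℝ, r ≠ 0 →
      Tendsto (fun q => -Real.log (‖p q r‖ ^ 2) / t q) (U : Filter ι) (𝓝 a) := by
    intro r
    by_cases hr : r = 0
    · exact ⟨0, fun h' => (h' hr).elim⟩
    obtain ⟨B, hB⟩ := h r hr
    obtain ⟨a, -, ha⟩ := (isCompact_Icc (a := -B) (b := B)).ultrafilter_le_nhds
      (U.map fun q => -Real.log (‖p q r‖ ^ 2) / t q) (by
        rw [le_principal_iff, Ultrafilter.coe_map, mem_map]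
        filter_upwards [hB] with q hq
        have := abs_le.1 hq.2
        rw [Set.mem_preimage, neg_div]
        constructor <;> linarith [this.1, this.2])
    exact ⟨a, fun _ => ha⟩
  choose v hv using hex
  have hne : ∀ r : R, r ≠ 0 → ∀ᶠ q in (U : Filter ι), p q r ≠ 0 := fun r hr => by
    obtain ⟨B, hB⟩ := h r hr
    exact hB.mono fun q hq => hq.1
  suffices hw : ∃ w : RVal K, ∀ r : R, r ≠ 0 → w.v (algebraMap R K r) = v r by
    obtain ⟨w, hw⟩ := hw
    exact ⟨w, fun r hr => (hw r hr).symm ▸ hv r hr⟩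
  refine SVs0_ext (K := K) v (fun r s hr hs => ?_) (fun r s hr hs hrs => ?_) (fun c hc => ?_)
  · refine tendsto_nhds_unique (hv _ (mul_ne_zero hr hs)) (((hv r hr).add (hv s hs)).congr' ?_)
    filter_upwards [hne r hr, hne s hs] with q h1 h2
    rw [map_mul, norm_mul, mul_pow, Real.log_mul (by positivity) (by positivity)]
    ring
  · have h1 := ((hv r hr).min (hv s hs)).sub (ht.const_div_atTop (Real.log 4))
    rw [sub_zero] at h1
    refine le_of_tendsto_of_tendsto h1 (hv _ hrs) ?_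
    filter_upwards [hne r hr, hne s hs, hne _ hrs, ht.eventually_gt_atTop 0] with q h1 h2 h3 h4
    rw [map_add] at h3 ⊢
    exact SVs0_log h1 h2 h3 h4
  · refine tendsto_nhds_unique (hv _ ((map_ne_zero _).2 hc)) ?_
    refine (ht.const_div_atTop (-Real.log (‖c‖ ^ 2))).congr fun q => ?_
    rw [AlgHomClass.commutes]
    rfl

end Vale.Agent.P282
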