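import Vale.Agent.P282.SVs0
import Vale.Agent.P282.SGr
import Vale.Agent.P282.AJac

set_option linter.unusedSectionVars false

open scoped ENNReal TensorProduct Topology
open Filter MeasureTheory

noncomputable section

namespace Vale.Agent.P282

variable {R K : Type} [CommRing R] [IsDomain R] [Algebra ℂ R] [Algebra.FiniteType ℂ R]
  [IsIntegrallyClosed R] [Field K] [Algebra R K] [IsFractionRing R K] [Algebra ℂ K]
  [IsScalarTower ℂ R K] {n : ℕ}

theorem SVs1_vol (a : Fin n → ℝ) :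
    volume (Set.univ.pi fun i => Metric.closedBall (0 : ℂ) (Real.exp (-a i / 2))) =
      ENNReal.ofReal (Real.pi ^ n * Real.exp (-∑ i, a i)) := by
  have e : ∀ i, volume (Metric.closedBall (0 : ℂ) (Real.exp (-a i / 2))) =
      ENNReal.ofReal (Real.pi * Real.exp (-a i)) := fun i => by
    rw [Complex.volume_closedBall, ← ENNReal.ofReal_pow (Real.exp_pos _).le, ← Real.exp_nat_mul,
      ← ENNReal.ofReal_coe_nnreal, ← ENNReal.ofReal_mul (Real.exp_pos _).le, NNReal.coe_real_pi,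
      mul_comm, show ((2 : ℕ) : ℝ) * (-a i / 2) = -a i by push_cast; ring]
  rw [volume_pi_pi]
  simp only [e]
  rw [← ENNReal.ofReal_prod_of_nonneg fun i _ => by positivity, Finset.prod_mul_distrib,
    ← Real.exp_sum, Finset.sum_neg_distrib]
  simp

theorem SVs1_low {m : ℕ} (hm : 0 < m) {j y r : ℂ} {b c : ℝ} (h : j ^ m * y = r)
    (h1 : Real.exp (-b) ≤ ‖r‖ ^ 2) (h2 : ‖y‖ ^ 2 ≤ Real.exp (-c)) :
    Real.exp ((c - b) / m) ≤ ‖j‖ ^ 2 := by
  refine le_of_pow_le_pow_left₀ hm.ne' (by positivity) ?_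
  have h3 : ‖r‖ ^ 2 = (‖j‖ ^ 2) ^ m * ‖y‖ ^ 2 := by rw [← h, norm_mul, norm_pow]; ring
  have h4 := mul_le_mul_of_nonneg_left h2 (show 0 ≤ (‖j‖ ^ 2) ^ m by positivity)
  rw [← Real.exp_nat_mul, mul_div_cancel₀ _ (by positivity)]
  refine le_of_mul_le_mul_right ?_ (Real.exp_pos (-c))
  rw [← Real.exp_add, show c - b + -c = -b by ring]
  linarith

/-- the area bound -/
theorem vs_area (G : WS R K n) (π : Proj R n) (A : An π (G.ρ π.y)) (f : Fin n → R)
    (hf : (G.ω.jac fun i => algebraMap R K (f i)) ≠ 0) : ∃ C : ℝ, ∀ (a : Fin n → ℝ) (b c : ℝ),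
      A.S.μ {p | (∀ i, ‖p.1 (f i)‖ ^ 2 ≤ Real.exp (-a i)) ∧ Real.exp (-b) ≤ ‖p.1 (G.ρ f)‖ ^ 2 ∧
        ‖p.1 (G.ρ π.y)‖ ^ 2 ≤ Real.exp (-c)} ≤
        ENNReal.ofReal (C * Real.exp (-(∑ i, a i - b / G.ω.m + c / G.ω.m))) := by
  have : Algebra.EssFiniteType R K := .of_isLocalization K (nonZeroDivisors R)
  have : Algebra.EssFiniteType ℂ K := .comp ℂ R K
  obtain ⟨d, hd⟩ := A.area_le f (AlgebraicIndependent.of_comp
    (IsScalarTower.toAlgHom ℂ R K) ((G.ω.jac_ne_iff _).1 hf))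
  refine ⟨d * Real.pi ^ n, fun a b c => ?_⟩
  have mP : MeasurableSet (Set.univ.pi fun i => Metric.closedBall (0 : ℂ) (Real.exp (-a i / 2))) :=
    MeasurableSet.univ_pi fun i => measurableSet_closedBall
  have h1 := hd _ (measurable_one.indicator mP)
  rw [lintegral_indicator_one mP, SVs1_vol] at h1
  have ct : ∀ r : R, Continuous fun p : π.W A.Δ => ‖p.1 r‖ ^ 2 := fun r =>
    ((Pt.cont r).comp continuous_subtype_val).norm.pow 2
  generalize hS : {p : π.W A.Δ | (∀ i, ‖p.1 (f i)‖ ^ 2 ≤ Real.exp (-a i)) ∧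
    Real.exp (-b) ≤ ‖p.1 (G.ρ f)‖ ^ 2 ∧ ‖p.1 (G.ρ π.y)‖ ^ 2 ≤ Real.exp (-c)} = S
  have mS : MeasurableSet S := by
    rw [← hS]
    refine IsClosed.measurableSet (IsClosed.and ?_ ((isClosed_le continuous_const (ct _)).and
      (isClosed_le (ct _) continuous_const)))
    rw [Set.ofPred_forall]
    exact isClosed_iInter fun i => isClosed_le (ct _) continuous_const
  have h2 : ENNReal.ofReal (Real.exp ((c - b) / G.ω.m)) * A.S.μ S ≤
      d * ENNReal.ofReal (Real.pi ^ n * Real.exp (-∑ i, a i)) := by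
    rw [← lintegral_indicator_const mS]
    refine (lintegral_mono fun p => ?_).trans h1
    by_cases hp : p ∈ S
    swap
    · simp [hp]
    rw [Set.indicator_of_mem hp]
    rw [← hS] at hp
    rw [Set.indicator_of_mem, Pi.one_apply, one_mul]
    · exact ENNReal.ofReal_le_ofReal (SVs1_low G.ω.m_pos (A.jd_rho G f p) hp.2.1 hp.2.2)
    · intro i _
      rw [mem_closedBall_zero_iff]
      refine le_of_pow_le_pow_left₀ two_ne_zero (Real.exp_pos _).le ((hp.1 i).trans_eq ?_)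
      rw [← Real.exp_nat_mul, show ((2 : ℕ) : ℝ) * (-a i / 2) = -a i by push_cast; ring]
  have h0 := Real.exp_pos ((c - b) / G.ω.m)
  refine (ENNReal.mul_le_mul_iff_right (ENNReal.ofReal_pos.2 h0).ne' ENNReal.ofReal_ne_top).1
    (h2.trans_eq ?_)
  rw [← ENNReal.ofReal_mul h0.le, ← ENNReal.ofReal_natCast,
    ← ENNReal.ofReal_mul (Nat.cast_nonneg d), mul_left_comm (Real.exp _), ← Real.exp_add,
    show (c - b) / G.ω.m + -(∑ i, a i - b / G.ω.m + c / G.ω.m) = -∑ i, a i by ring, mul_assoc]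

end Vale.Agent.P282
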