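import Vale.Agent.P282.SPr
import Vale.Agent.P271.HKLc0_a

set_option linter.unusedSectionVars false

open scoped ENNReal TensorProduct Topology ContDiff
open Filter MeasureTheory

noncomputable section

namespace Vale.Agent.P282

variable {X W : Type} [NormedAddCommGroup X] [NormedSpace ℝ X] [NormedSpace ℂ X]
  [IsScalarTower ℝ ℂ X] [FiniteDimensional ℂ X] [MeasurableSpace X] [BorelSpace X]
  [TopologicalSpace W] [T2Space W] [MeasurableSpace W] [BorelSpace W]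
  {vol : Measure X} [vol.IsAddHaarMeasure]

theorem SWot_sm : ContDiff ℝ ∞ (fun q : X × ℂ => ‖q.2‖ ^ 2) :=
  Fuj.contDiff_normSq.comp contDiff_snd

theorem SWot_dzr (q ξ : X × ℂ) :
    ‖Fuj.dzr (fun q : X × ℂ => ‖q.2‖ ^ 2) q ξ‖ ^ 2 ≤ ‖q.2‖ ^ 2 * ‖ξ.2‖ ^ 2 := by
  have h := Fuj.HKLa_dzr (ContinuousLinearMap.snd ℂ X ℂ) 0 q ξ
  simp only [ContinuousLinearMap.coe_snd', sub_zero] at h
  rw [← mul_pow]
  exact pow_le_pow_left₀ (norm_nonneg _) h 2

theorem SWot_log {e : ℝ} (he : 0 < e) :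
    ContDiff ℝ ∞ (fun q : X × ℂ => Real.log (‖q.2‖ ^ 2 + e)) :=
  (SWot_sm.add contDiff_const).log fun q => by positivity

theorem SWot_levi {e : ℝ} (he : 0 < e) (q ξ : X × ℂ) :
    e * ‖ξ.2‖ ^ 2 / (‖q.2‖ ^ 2 + e) ^ 2 ≤
      Fuj.levi (fun q : X × ℂ => Real.log (‖q.2‖ ^ 2 + e)) q ξ := by
  have h := Fuj.levi_log_sum_ge (J := Unit) (f := fun _ (q : X × ℂ) => q.2) (z := q) (c := e)
    (fun _ => Eventually.of_forall fun _ => differentiableAt_snd) he.le (by positivity) ξ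
  simp only [Finset.univ_unique, Finset.sum_singleton] at h
  rwa [fderiv_snd] at h

/-- The cutoff. -/
def SWot_cut (r : ℝ) (t : ℂ) : ℝ := Real.smoothTransition (2 - 2 / r ^ 2 * ‖t‖ ^ 2)

theorem SWot_cut_sm (r : ℝ) : ContDiff ℝ ∞ (fun q : X × ℂ => SWot_cut r q.2) :=
  Real.smoothTransition.contDiff.comp (contDiff_const.sub (contDiff_const.mul SWot_sm))

theorem SWot_cut_one {r : ℝ} (hr : 0 < r) {t : ℂ} (h : ‖t‖ ^ 2 ≤ r ^ 2 / 2) :
    SWot_cut r t = 1 := by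
  apply Real.smoothTransition.one_of_one_le
  have : 2 / r ^ 2 * ‖t‖ ^ 2 ≤ 1 := by
    rw [div_mul_eq_mul_div, div_le_one (by positivity)]; linarith
  linarith

theorem SWot_cut_zero {r : ℝ} (hr : 0 < r) {t : ℂ} (h : r ≤ ‖t‖) : SWot_cut r t = 0 := by
  apply Real.smoothTransition.zero_of_nonpos
  have h2 : r ^ 2 ≤ ‖t‖ ^ 2 := pow_le_pow_left₀ hr.le h 2
  have : 2 ≤ 2 / r ^ 2 * ‖t‖ ^ 2 := by
    rw [div_mul_eq_mul_div, le_div_iff₀ (by positivity)]; linarith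
  linarith

theorem SWot_cut_le (r : ℝ) (t : ℂ) : ‖(SWot_cut r t : ℂ)‖ ^ 2 ≤ 1 := by
  rw [Complex.norm_real, Real.norm_eq_abs, sq_abs]
  exact pow_le_one₀ (Real.smoothTransition.nonneg _) (Real.smoothTransition.le_one _)

theorem SWot_cut_db (r : ℝ) (q ξ : X × ℂ) :
    ‖Fuj.db (fun y : X × ℂ => (SWot_cut r y.2 : ℂ)) q ξ‖ ^ 2 =
      (deriv Real.smoothTransition (2 - 2 / r ^ 2 * ‖q.2‖ ^ 2)) ^ 2 * (2 / r ^ 2) ^ 2 *
        ‖Fuj.dzr (fun q : X × ℂ => ‖q.2‖ ^ 2) q ξ‖ ^ 2 := by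
  have hd : DifferentiableAt ℝ (fun q : X × ℂ => ‖q.2‖ ^ 2) q :=
    SWot_sm.differentiable (by simp) q
  have h1 : HasDerivAt (fun s : ℝ => Real.smoothTransition (2 - 2 / r ^ 2 * s))
      (deriv Real.smoothTransition (2 - 2 / r ^ 2 * ‖q.2‖ ^ 2) * (-(2 / r ^ 2)))
      (‖q.2‖ ^ 2) := by
    have h2 : HasDerivAt (fun s : ℝ => 2 - 2 / r ^ 2 * s) (-(2 / r ^ 2)) (‖q.2‖ ^ 2) := by
      simpa using ((hasDerivAt_id (‖q.2‖ ^ 2)).const_mul (2 / r ^ 2)).const_sub 2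
    exact (Fuj.st_hasDerivAt _).comp _ h2
  have h3 := Fuj.dzr_comp hd h1 ξ
  rw [Fuj.db_ofReal (fun y : X × ℂ => SWot_cut r y.2), Complex.norm_conj]
  have h4 : Fuj.dzr (fun y : X × ℂ => SWot_cut r y.2) q ξ = _ := h3
  rw [h4, norm_mul, mul_pow, Complex.norm_real, Real.norm_eq_abs, sq_abs]
  ring

/-- The weight. -/
def SWot_w (Φ : W → ℂ → ℝ) (a r η : ℝ) (p : W) (t : ℂ) : ℝ :=
  Φ p t + (a * Real.log (‖t‖ ^ 2 + r ^ 2) + (1 + a) * Real.log (‖t‖ ^ 2 + η ^ 2))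

theorem SWot_exp (Φ : W → ℂ → ℝ) (a : ℝ) {r η : ℝ} (hr : 0 < r) (hη : 0 < η) (p : W) (t : ℂ) :
    Real.exp (-SWot_w Φ a r η p t) =
      Real.exp (-Φ p t) * ((‖t‖ ^ 2 + r ^ 2) ^ (-a) * (‖t‖ ^ 2 + η ^ 2) ^ (-(1 + a))) := by
  rw [Real.rpow_def_of_pos (by positivity), Real.rpow_def_of_pos (by positivity), ← Real.exp_add,
    ← Real.exp_add]
  unfold SWot_w
  congr 1; ring

theorem SWot_exp' (Φ : W → ℂ → ℝ) (a : ℝ) {r η : ℝ} (hr : 0 < r) (hη : 0 < η) (p : W) (t : ℂ) :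
    Real.exp (-Φ p t) =
      ((‖t‖ ^ 2 + r ^ 2) ^ a * (‖t‖ ^ 2 + η ^ 2) ^ (1 + a)) * Real.exp (-SWot_w Φ a r η p t) := by
  rw [Real.rpow_def_of_pos (by positivity), Real.rpow_def_of_pos (by positivity), ← Real.exp_add,
    ← Real.exp_add]
  unfold SWot_w
  congr 1; ring

theorem SWot_open (S : Fuj.Sheets X W vol) (i : S.ι) (r : ℝ) : IsOpen (Tg S i r) :=
  (S.e i).open_target.prod Metric.isOpen_ball

theorem SWot_w_levi (S : Fuj.Sheets X W vol) {r₀ : ℝ} {Φ : W → ℂ → ℝ} (hΦ : PshP S r₀ Φ)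
    {a r η : ℝ} (ha : 0 ≤ a) (hr : 0 < r) (hη : 0 < η) (i : S.ι) {q : X × ℂ} (hq : q ∈ Tg S i r₀)
    (ξ : X × ℂ) :
    a * (r ^ 2 * ‖ξ.2‖ ^ 2 / (‖q.2‖ ^ 2 + r ^ 2) ^ 2) ≤
      Fuj.levi (Lc S i (SWot_w Φ a r η)) q ξ := by
  have c0 : ContDiffAt ℝ 2 (Lc S i Φ) q :=
    ((hΦ i).1.contDiffAt ((SWot_open S i r₀).mem_nhds hq)).of_le Fuj.HKLa_two
  have c1 : ContDiffAt ℝ 2 (fun q : X × ℂ => Real.log (‖q.2‖ ^ 2 + r ^ 2)) q :=
    (SWot_log (by positivity)).contDiffAt.of_le Fuj.HKLa_two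
  have c2 : ContDiffAt ℝ 2 (fun q : X × ℂ => Real.log (‖q.2‖ ^ 2 + η ^ 2)) q :=
    (SWot_log (by positivity)).contDiffAt.of_le Fuj.HKLa_two
  have h1 := Fuj.levi_add c0
    ((contDiffAt_const (c := a).mul c1).add (contDiffAt_const (c := 1 + a).mul c2)) ξ
  have h2 := Fuj.levi_add (contDiffAt_const (c := a).mul c1)
    (contDiffAt_const (c := 1 + a).mul c2) ξ
  have h3 := Fuj.levi_const_mul c1 a ξ
  have h4 := Fuj.levi_const_mul c2 (1 + a) ξ
  have h5 : Fuj.levi (Lc S i (SWot_w Φ a r η)) q ξ = _ := h1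
  rw [h5, h2, h3, h4]
  have h6 := SWot_levi (X := X) (e := r ^ 2) (by positivity) q ξ
  have h7 : 0 ≤ Fuj.levi (fun q : X × ℂ => Real.log (‖q.2‖ ^ 2 + η ^ 2)) q ξ :=
    le_trans (by positivity) (SWot_levi (X := X) (e := η ^ 2) (by positivity) q ξ)
  have h8 := (hΦ i).2 q hq ξ
  have := mul_le_mul_of_nonneg_left h6 ha
  have := mul_nonneg (by linarith : 0 ≤ 1 + a) h7
  linarith

theorem SWot_psh (S : Fuj.Sheets X W vol) {r₀ : ℝ} {Φ : W → ℂ → ℝ} (hΦ : PshP S r₀ Φ)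
    {a r η : ℝ} (ha : 0 ≤ a) (hr : 0 < r) (hη : 0 < η) : PshP S r₀ (SWot_w Φ a r η) := by
  intro i
  refine ⟨(hΦ i).1.add ((contDiff_const.mul (SWot_log (X := X) (e := r ^ 2) (by positivity))).add
    (contDiff_const.mul (SWot_log (X := X) (e := η ^ 2) (by positivity)))).contDiffOn,
    fun q hq ξ => le_trans (by positivity) (SWot_w_levi S hΦ ha hr hη i hq ξ)⟩

theorem SWot_hol (S : Fuj.Sheets X W vol) (hτ : ∀ i p, S.τ i p = 1) {f : W → ℂ} (hf : S.HolS f)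
    (i : S.ι) (r : ℝ) :
    DifferentiableOn ℂ (fun q : X × ℂ => f ((S.e i).symm q.1)) (Tg S i r) := by
  have h : DifferentiableOn ℂ (fun z => f ((S.e i).symm z)) (S.e i).target := by
    refine (hf i).congr fun z _ => ?_
    simp only [Fuj.Sheets.rep, hτ, one_mul]
  exact h.comp differentiableOn_fst fun q hq => hq.1

/-- The annulus. -/
def SWot_ann (r : ℝ) : Set ℂ := {t | r ^ 2 / 2 ≤ ‖t‖ ^ 2 ∧ ‖t‖ ^ 2 ≤ r ^ 2}

theorem SWot_ann_meas (r : ℝ) : MeasurableSet (SWot_ann r) :=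
  ((isClosed_le continuous_const (continuous_norm.pow 2)).inter
    (isClosed_le (continuous_norm.pow 2) continuous_const)).measurableSet

theorem SWot_cut_bd (S : Fuj.Sheets X W vol) {r₀ : ℝ} {Φ : W → ℂ → ℝ} (hΦ : PshP S r₀ Φ)
    {a r η L : ℝ} (ha : 0 < a) (hr : 0 < r) (hη : 0 < η)
    (hL : ∀ x, |deriv Real.smoothTransition x| ≤ L) (i : S.ι) {q : X × ℂ} (hq : q ∈ Tg S i r₀)
    (ξ : X × ℂ) :
    ‖Fuj.db (fun y : X × ℂ => (SWot_cut r y.2 : ℂ)) q ξ‖ ^ 2 ≤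
      (SWot_ann r).indicator (fun _ => 16 * L ^ 2 / a) q.2 *
        Fuj.levi (Lc S i (SWot_w Φ a r η)) q ξ := by
  rw [SWot_cut_db]
  by_cases h : q.2 ∈ SWot_ann r
  · rw [Set.indicator_of_mem h]
    obtain ⟨h1, h2⟩ := h
    have h3 := SWot_w_levi S hΦ ha.le hr hη i hq ξ
    have h4 := SWot_dzr q ξ
    set N := ‖ξ.2‖ ^ 2 with hN
    have hN0 : 0 ≤ N := by positivity
    have hs : 0 ≤ ‖q.2‖ ^ 2 := by positivity
    set s := ‖q.2‖ ^ 2
    have h5 : (deriv Real.smoothTransition (2 - 2 / r ^ 2 * s)) ^ 2 ≤ L ^ 2 := by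
      rw [← sq_abs]; exact pow_le_pow_left₀ (abs_nonneg _) (hL _) 2
    have h6 : r ^ 2 * N / (2 * r ^ 2) ^ 2 ≤ r ^ 2 * N / (s + r ^ 2) ^ 2 := by
      apply div_le_div_of_nonneg_left (by positivity) (by positivity)
      exact pow_le_pow_left₀ (by positivity) (by linarith) 2
    calc _ ≤ L ^ 2 * (2 / r ^ 2) ^ 2 * (r ^ 2 * N) := by
          apply mul_le_mul (mul_le_mul_of_nonneg_right h5 (by positivity))
            (h4.trans (mul_le_mul_of_nonneg_right h2 hN0)) (by positivity) (by positivity)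
      _ = 16 * L ^ 2 / a * (a * (r ^ 2 * N / (2 * r ^ 2) ^ 2)) := by field_simp; ring
      _ ≤ _ := by
          apply mul_le_mul_of_nonneg_left _ (by positivity)
          exact (mul_le_mul_of_nonneg_left h6 ha.le).trans h3
  · rw [Set.indicator_of_notMem h, zero_mul]
    have : deriv Real.smoothTransition (2 - 2 / r ^ 2 * ‖q.2‖ ^ 2) = 0 := by
      simp only [SWot_ann, Set.mem_setOf_eq, not_and_or, not_le] at h
      rcases h with h | h
      · apply Fuj.st_deriv_gt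
        have : 2 / r ^ 2 * ‖q.2‖ ^ 2 < 1 := by
          rw [div_mul_eq_mul_div, div_lt_one (by positivity)]; linarith
        linarith
      · apply Fuj.st_deriv_neg
        have : 2 < 2 / r ^ 2 * ‖q.2‖ ^ 2 := by
          rw [div_mul_eq_mul_div, lt_div_iff₀ (by positivity)]; linarith
        linarith
    rw [this]; simp

theorem SWot_tube (μ : Measure W) (A : Set ℂ) {r K : ℝ} (hr : 0 < r) (hK : 0 ≤ K)
    {h : W → ℂ → ℝ} {G : W → ℝ} (h1 : ∀ p t, ‖t‖ ≤ r → h p t ≤ K * G p)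
    (h0 : ∀ p t, r < ‖t‖ → h p t ≤ 0) :
    ∫⁻ t in A, ∫⁻ p, ENNReal.ofReal (h p t) ∂μ ≤
      ENNReal.ofReal (K * (Real.pi * r ^ 2)) * ∫⁻ p, ENNReal.ofReal (G p) ∂μ := by
  refine (setLIntegral_le_lintegral _ _).trans ?_
  calc _ ≤ ∫⁻ t, (Metric.closedBall (0 : ℂ) r).indicator
        (fun _ => ENNReal.ofReal K * ∫⁻ p, ENNReal.ofReal (G p) ∂μ) t := by
        apply lintegral_mono
        intro t
        by_cases ht : t ∈ Metric.closedBall (0 : ℂ) r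
        · rw [Set.indicator_of_mem ht, ← lintegral_const_mul' _ _ ENNReal.ofReal_ne_top]
          apply lintegral_mono
          intro p
          simp only
          rw [← ENNReal.ofReal_mul hK]
          exact ENNReal.ofReal_le_ofReal (h1 p t (mem_closedBall_zero_iff.1 ht))
        · rw [Set.indicator_of_notMem ht]
          have ht' : r < ‖t‖ := not_le.1 fun h => ht (mem_closedBall_zero_iff.2 h)
          simp only [ENNReal.ofReal_of_nonpos (h0 _ t ht'), lintegral_zero, le_refl]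
    _ = _ := by
        rw [lintegral_indicator measurableSet_closedBall, setLIntegral_const,
          Complex.volume_closedBall, ENNReal.ofReal_mul hK,
          ENNReal.ofReal_mul Real.pi_pos.le, ENNReal.ofReal_pow hr.le]
        have : ENNReal.ofReal Real.pi = (NNReal.pi : ℝ≥0∞) := by
          rw [← NNReal.coe_real_pi, ENNReal.ofReal_coe_nnreal]
        rw [this]
        ring

theorem SWot_cmp (μ : Measure W) {A B : Set ℂ} (hB : MeasurableSet B) (hBA : B ⊆ A) {K : ℝ}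
    (hK : 0 ≤ K) {h₁ h₂ : W → ℂ → ℝ} (h : ∀ p, ∀ t ∈ B, h₁ p t ≤ K * h₂ p t) :
    ∫⁻ t in B, ∫⁻ p, ENNReal.ofReal (h₁ p t) ∂μ ≤
      ENNReal.ofReal K * ∫⁻ t in A, ∫⁻ p, ENNReal.ofReal (h₂ p t) ∂μ := by
  refine le_trans ?_ (mul_le_mul_right (lintegral_mono_set hBA) _)
  rw [← lintegral_const_mul' _ _ ENNReal.ofReal_ne_top]
  apply setLIntegral_mono' hB
  intro t ht
  rw [← lintegral_const_mul' _ _ ENNReal.ofReal_ne_top]
  apply lintegral_mono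
  intro p
  simp only
  rw [← ENNReal.ofReal_mul hK]
  exact ENNReal.ofReal_le_ofReal (h p t ht)

theorem SWot_pow {r a : ℝ} (hr : 0 < r) :
    (r ^ 2) ^ (-a) * (r ^ 2 / 2) ^ (-(1 + a)) * r ^ 2 = 2 ^ (1 + a) * r ^ (-(4 * a)) := by
  have h2 : (0 : ℝ) < 2 := two_pos
  rw [Real.rpow_def_of_pos (by positivity), Real.rpow_def_of_pos (by positivity),
    Real.rpow_def_of_pos h2, Real.rpow_def_of_pos hr, ← Real.rpow_natCast r 2,
    Real.rpow_def_of_pos hr, ← Real.exp_add, ← Real.exp_add, ← Real.exp_add,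
    Real.log_div (by positivity) (by positivity), Real.log_exp]
  congr 1; push_cast; ring

theorem SWot_solve (S : Fuj.Sheets X W vol) (hτ : ∀ i p, S.τ i p = 1) (hS : Exh S) {a L : ℝ}
    (ha : 0 < a) (hL : ∀ x, |deriv Real.smoothTransition x| ≤ L) {r₀ r η : ℝ} (hη : 0 < η)
    (hr : 0 < r) (hr₀ : 0 < r₀) (hr1 : r₀ ≤ 1) {Φ : W → ℂ → ℝ} (hΦ : PshP S r₀ Φ) {f : W → ℂ}
    (hf : S.HolS f) {g : W → ℝ} (hg : ∀ p t, ‖t‖ ≤ r → Real.exp (-Φ p t) ≤ g p)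
    (hG : ∫⁻ p, ENNReal.ofReal (‖f p‖ ^ 2 * g p) ∂S.μ ≠ ⊤) :
    ∃ F : W → ℂ → ℂ, HolP S r₀ F ∧ (Measurable fun q : W × ℂ => F q.1 q.2) ∧
      ∫⁻ t in Metric.ball (0 : ℂ) r₀, ∫⁻ p, ENNReal.ofReal
        (‖F p t - SWot_cut r t * f p‖ ^ 2 * Real.exp (-SWot_w Φ a r η p t)) ∂S.μ ≤
      ENNReal.ofReal (2 * (16 * L ^ 2 / a * 2 ^ (1 + a) * Real.pi) * r ^ (-(4 * a))) *
        ∫⁻ p, ENNReal.ofReal (‖f p‖ ^ 2 * g p) ∂S.μ := by
  have hfm : Measurable f := (Fuj.Sheets.HolS.smS S hf).measurable S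
  have hg0 : ∀ p, 0 ≤ g p := fun p =>
    (Real.exp_pos _).le.trans (hg p 0 (by rw [norm_zero]; exact hr.le))
  have hf2 : ∫⁻ t in Metric.ball (0 : ℂ) r₀, ∫⁻ p, ENNReal.ofReal
      (‖(SWot_cut r t : ℂ) * f p‖ ^ 2 * Real.exp (-SWot_w Φ a r η p t)) ∂S.μ ≠ ⊤ := by
    refine ne_top_of_le_ne_top (ENNReal.mul_ne_top ENNReal.ofReal_ne_top hG)
      (SWot_tube S.μ _ (K := (r ^ 2) ^ (-a) * (η ^ 2) ^ (-(1 + a))) hr (by positivity) ?_ ?_)
    · intro p t ht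
      have s0 : 0 ≤ ‖t‖ ^ 2 := by positivity
      rw [SWot_exp Φ a hr hη, norm_mul, mul_pow]
      have b1 : (‖t‖ ^ 2 + r ^ 2) ^ (-a) ≤ (r ^ 2) ^ (-a) :=
        Real.rpow_le_rpow_of_nonpos (by positivity) (by linarith) (by linarith)
      have b2 : (‖t‖ ^ 2 + η ^ 2) ^ (-(1 + a)) ≤ (η ^ 2) ^ (-(1 + a)) :=
        Real.rpow_le_rpow_of_nonpos (by positivity) (by linarith) (by linarith)
      calc _ ≤ (1 * ‖f p‖ ^ 2) * (g p * ((r ^ 2) ^ (-a) * (η ^ 2) ^ (-(1 + a)))) := by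
            apply mul_le_mul (mul_le_mul_of_nonneg_right (SWot_cut_le r t) (by positivity)) _
              (by positivity) (by positivity)
            exact mul_le_mul (hg p t ht) (mul_le_mul b1 b2 (by positivity) (by positivity))
              (by positivity) (hg0 p)
        _ = _ := by ring
    · intro p t ht
      rw [SWot_cut_zero hr ht.le]; simp
  obtain ⟨F, F1, F2, F3⟩ := prod_horm S hτ hS hr₀ hr1 (SWot_psh S hΦ ha.le hr hη)
    (f := fun p t => (SWot_cut r t : ℂ) * f p)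
    (fun i => (Complex.ofRealCLM.contDiff.comp (SWot_cut_sm r)).contDiffOn.mul
      (Fuj.contDiffOn_of_hol (SWot_open S i r₀) (SWot_hol S hτ hf i r₀))) hf2
    (a := fun p t => (SWot_ann r).indicator (fun _ => 16 * L ^ 2 / a) t * ‖f p‖ ^ 2)
    (((measurable_const.indicator (SWot_ann_meas r)).comp measurable_snd).mul
      ((hfm.comp measurable_fst).norm.pow_const 2))
    (fun p t => mul_nonneg (Set.indicator_nonneg (fun _ _ => by positivity) t) (by positivity))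
    (by
      intro i q hq ξ
      have d1 : DifferentiableAt ℝ (fun y : X × ℂ => (SWot_cut r y.2 : ℂ)) q :=
        (Complex.ofRealCLM.contDiff.comp (SWot_cut_sm r)).differentiable (by simp) q
      have d2 : DifferentiableAt ℂ (fun q : X × ℂ => f ((S.e i).symm q.1)) q :=
        (SWot_hol S hτ hf i r₀).differentiableAt ((SWot_open S i r₀).mem_nhds hq)
      have e := Fuj.db_mul d1 (d2.restrictScalars ℝ) ξ
      rw [Fuj.db_hol d2, mul_zero, add_zero] at e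
      have e' : Fuj.db (Lc S i fun p t => (SWot_cut r t : ℂ) * f p) q ξ = _ := e
      rw [e', norm_mul, mul_pow]
      have b := mul_le_mul_of_nonneg_right (SWot_cut_bd S hΦ ha hr hη hL i hq ξ)
        (sq_nonneg ‖f ((S.e i).symm q.1)‖)
      refine b.trans (le_of_eq ?_)
      simp only [Lc]
      ring)
  refine ⟨F, F1, F2, F3.trans ?_⟩
  have h3 := SWot_tube S.μ (Metric.ball (0 : ℂ) r₀)
    (K := 16 * L ^ 2 / a * ((r ^ 2) ^ (-a) * (r ^ 2 / 2) ^ (-(1 + a)))) hr (by positivity)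
    (h := fun p t => (SWot_ann r).indicator (fun _ => 16 * L ^ 2 / a) t * ‖f p‖ ^ 2 *
      Real.exp (-SWot_w Φ a r η p t)) (G := fun p => ‖f p‖ ^ 2 * g p)
    (by
      intro p t ht
      have := hg0 p
      by_cases h : t ∈ SWot_ann r
      · rw [Set.indicator_of_mem h, SWot_exp Φ a hr hη]
        have s0 : 0 ≤ ‖t‖ ^ 2 := by positivity
        have b1 : (‖t‖ ^ 2 + r ^ 2) ^ (-a) ≤ (r ^ 2) ^ (-a) :=
          Real.rpow_le_rpow_of_nonpos (by positivity) (by linarith) (by linarith)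
        have b2 : (‖t‖ ^ 2 + η ^ 2) ^ (-(1 + a)) ≤ (r ^ 2 / 2) ^ (-(1 + a)) :=
          Real.rpow_le_rpow_of_nonpos (by positivity) (by linarith [h.1, sq_nonneg η])
            (by linarith)
        calc _ ≤ 16 * L ^ 2 / a * ‖f p‖ ^ 2 *
              (g p * ((r ^ 2) ^ (-a) * (r ^ 2 / 2) ^ (-(1 + a)))) := by
              apply mul_le_mul_of_nonneg_left _ (by positivity)
              exact mul_le_mul (hg p t ht) (mul_le_mul b1 b2 (by positivity) (by positivity))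
                (by positivity) (hg0 p)
          _ = _ := by ring
      · rw [Set.indicator_of_notMem h, zero_mul, zero_mul]; positivity)
    (by
      intro p t ht
      have : t ∉ SWot_ann r := fun h => absurd h.2 (not_le.2 (pow_lt_pow_left₀ ht hr.le two_ne_zero))
      rw [Set.indicator_of_notMem this, zero_mul, zero_mul])
  refine (mul_le_mul_right h3 2).trans (le_of_eq ?_)
  rw [← mul_assoc, ← ENNReal.ofReal_ofNat 2, ← ENNReal.ofReal_mul (by norm_num)]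
  congr 2
  have h4 := SWot_pow (a := a) hr
  calc _ = 2 * (16 * L ^ 2 / a * ((r ^ 2) ^ (-a) * (r ^ 2 / 2) ^ (-(1 + a)) * r ^ 2) *
        Real.pi) := by ring
    _ = _ := by rw [h4]; ring

/-- extension with a small loss -/
theorem wot (S : Fuj.Sheets X W vol) (hτ : ∀ i p, S.τ i p = 1) (hS : Exh S) {a : ℝ} (ha : 0 < a)
    (ha1 : a ≤ 1) : ∃ C : ℝ, 0 < C ∧ ∀ r₀ r η : ℝ, 0 < η → 2 * η ≤ r → r < r₀ → r₀ ≤ 1 →
      ∀ Φ : W → ℂ → ℝ, PshP S r₀ Φ → ∀ f : W → ℂ, S.HolS f → ∀ g : W → ℝ,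
      (∀ p t, ‖t‖ ≤ r → Real.exp (-Φ p t) ≤ g p) →
      ∫⁻ p, ENNReal.ofReal (‖f p‖ ^ 2 * g p) ∂S.μ ≠ ⊤ →
      ∃ F : W → ℂ → ℂ, HolP S r₀ F ∧ (Measurable fun q : W × ℂ => F q.1 q.2) ∧
        ∫⁻ t in Metric.ball (0 : ℂ) r₀ \ Metric.ball 0 r, ∫⁻ p,
          ENNReal.ofReal (‖F p t‖ ^ 2 * Real.exp (-Φ p t)) ∂S.μ ≤
          ENNReal.ofReal (C * r ^ (-(4 * a))) * ∫⁻ p, ENNReal.ofReal (‖f p‖ ^ 2 * g p) ∂S.μ ∧
        ∫⁻ t in Metric.ball (0 : ℂ) η, ∫⁻ p,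
          ENNReal.ofReal (‖F p t - f p‖ ^ 2 * Real.exp (-Φ p t)) ∂S.μ ≤
          ENNReal.ofReal (C * η ^ (2 + 2 * a) * r ^ (-(4 * a))) *
            ∫⁻ p, ENNReal.ofReal (‖f p‖ ^ 2 * g p) ∂S.μ := by
  obtain ⟨L, L0, hL⟩ := Fuj.st_deriv_bdd
  have hpi := Real.pi_pos
  set C₁ : ℝ := 2 * (16 * L ^ 2 / a * 2 ^ (1 + a) * Real.pi) with hC₁
  have C₁0 : 0 < C₁ := by positivity
  refine ⟨2 ^ a * 2 ^ (1 + a) * C₁, by positivity, ?_⟩
  intro r₀ r η hη h2 hr hr1 Φ hΦ f hf g hg hG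
  have r0 : 0 < r := by linarith
  obtain ⟨F, F1, F2, F3⟩ := SWot_solve S hτ hS ha hL hη r0 (by linarith) hr1 hΦ hf hg hG
  have rr : r ^ 2 ≤ 1 := pow_le_one₀ r0.le (by linarith)
  have ηη : η ^ 2 ≤ 1 := pow_le_one₀ hη.le (by linarith)
  refine ⟨F, F1, F2, ?_, ?_⟩
  · have h := SWot_cmp S.μ (A := Metric.ball (0 : ℂ) r₀)
      (B := Metric.ball (0 : ℂ) r₀ \ Metric.ball 0 r) (measurableSet_ball.diff measurableSet_ball)
      Set.diff_subset (K := 2 ^ a * 2 ^ (1 + a)) (by positivity)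
      (h₁ := fun p t => ‖F p t‖ ^ 2 * Real.exp (-Φ p t))
      (h₂ := fun p t => ‖F p t - SWot_cut r t * f p‖ ^ 2 * Real.exp (-SWot_w Φ a r η p t))
      (by
        intro p t ht
        have t1 : ‖t‖ < r₀ := mem_ball_zero_iff.1 ht.1
        have t2 : r ≤ ‖t‖ := not_lt.1 fun h => ht.2 (mem_ball_zero_iff.2 h)
        have tt : ‖t‖ ^ 2 ≤ 1 := pow_le_one₀ (norm_nonneg _) (by linarith)
        rw [SWot_cut_zero r0 t2, Complex.ofReal_zero, zero_mul, sub_zero, SWot_exp' Φ a r0 hη]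
        have b1 : (‖t‖ ^ 2 + r ^ 2) ^ a ≤ 2 ^ a :=
          Real.rpow_le_rpow (by positivity) (by linarith) ha.le
        have b2 : (‖t‖ ^ 2 + η ^ 2) ^ (1 + a) ≤ 2 ^ (1 + a) :=
          Real.rpow_le_rpow (by positivity) (by linarith) (by linarith)
        calc _ ≤ ‖F p t‖ ^ 2 * (2 ^ a * 2 ^ (1 + a) * Real.exp (-SWot_w Φ a r η p t)) := by
              gcongr
          _ = _ := by ring)
    refine h.trans ((mul_le_mul_right F3 _).trans (le_of_eq ?_))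
    rw [← mul_assoc, ← ENNReal.ofReal_mul (by positivity)]
    congr 2
    ring
  · have h := SWot_cmp S.μ (A := Metric.ball (0 : ℂ) r₀)
      (B := Metric.ball (0 : ℂ) η) measurableSet_ball
      (Metric.ball_subset_ball (by linarith)) (K := 2 ^ a * (2 * η ^ 2) ^ (1 + a)) (by positivity)
      (h₁ := fun p t => ‖F p t - f p‖ ^ 2 * Real.exp (-Φ p t))
      (h₂ := fun p t => ‖F p t - SWot_cut r t * f p‖ ^ 2 * Real.exp (-SWot_w Φ a r η p t))
      (by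
        intro p t ht
        have t1 : ‖t‖ < η := mem_ball_zero_iff.1 ht
        have tt : ‖t‖ ^ 2 ≤ η ^ 2 := pow_le_pow_left₀ (norm_nonneg _) t1.le 2
        have t2 : ‖t‖ ^ 2 ≤ r ^ 2 / 2 := by nlinarith
        rw [SWot_cut_one r0 t2, Complex.ofReal_one, one_mul, SWot_exp' Φ a r0 hη]
        have b1 : (‖t‖ ^ 2 + r ^ 2) ^ a ≤ 2 ^ a :=
          Real.rpow_le_rpow (by positivity) (by linarith) ha.le
        have b2 : (‖t‖ ^ 2 + η ^ 2) ^ (1 + a) ≤ (2 * η ^ 2) ^ (1 + a) :=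
          Real.rpow_le_rpow (by positivity) (by linarith) (by linarith)
        calc _ ≤ ‖F p t - f p‖ ^ 2 *
              (2 ^ a * (2 * η ^ 2) ^ (1 + a) * Real.exp (-SWot_w Φ a r η p t)) := by
              gcongr
          _ = _ := by ring)
    refine h.trans ((mul_le_mul_right F3 _).trans (le_of_eq ?_))
    rw [← mul_assoc, ← ENNReal.ofReal_mul (by positivity)]
    congr 2
    have e : (2 * η ^ 2) ^ (1 + a) = 2 ^ (1 + a) * η ^ (2 + 2 * a) := by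
      rw [Real.mul_rpow (by norm_num) (by positivity), ← Real.rpow_natCast η 2,
        ← Real.rpow_mul hη.le]
      congr 2
      push_cast; ring
    rw [e]
    ring

end Vale.Agent.P282
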