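import Vale.Agent.P282.UExt
import Vale.Agent.P282.AEmb0

set_option linter.unusedSectionVars false

open scoped ENNReal TensorProduct Topology
open Filter MeasureTheory

noncomputable section

namespace Vale.Agent.P282

variable {R K : Type} [CommRing R] [IsDomain R] [Algebra ℂ R] [Algebra.FiniteType ℂ R]
  [IsIntegrallyClosed R] [Field K] [Algebra R K] [IsFractionRing R K] [Algebra ℂ K]
  [IsScalarTower ℂ R K] {n : ℕ}

/-- `w` is the monomial valuation with weights `c` on the polynomials in `y` -/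
def IsMon (w : RVal K) (y : Fin n → K) (c : Fin n → ℝ) : Prop :=
  ∀ P : MvPolynomial (Fin n) ℂ, P ≠ 0 → MvPolynomial.aeval y P ≠ 0 ∧
    (∃ α ∈ P.support, w.v (MvPolynomial.aeval y P) = ∑ i, c i * α i) ∧
    ∀ α ∈ P.support, w.v (MvPolynomial.aeval y P) ≤ ∑ i, c i * α i

section Mon

variable (F : Type) [Field F] [Algebra (MvPolynomial (Fin n) ℂ) F]
  [IsFractionRing (MvPolynomial (Fin n) ℂ) F] [Algebra ℂ F]
  [IsScalarTower ℂ (MvPolynomial (Fin n) ℂ) F]

/-- the map of the polynomial ring to Hahn series recording the weights -/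
def UMon0_phi (c : Fin n → ℝ) :
    MvPolynomial (Fin n) ℂ →+* HahnSeries ℝ F :=
  MvPolynomial.eval₂Hom
    (HahnSeries.C.comp ((algebraMap (MvPolynomial (Fin n) ℂ) _).comp MvPolynomial.C))
    fun i => HahnSeries.single (c i) (algebraMap (MvPolynomial (Fin n) ℂ) _ (MvPolynomial.X i))

theorem UMon0_prod {A : Type} [CommRing A] {ι : Type} (s : Finset ι) (a : ι → ℝ) (b : ι → A) :
    ∏ i ∈ s, (HahnSeries.single (a i) (b i) : HahnSeries ℝ A) =
      HahnSeries.single (∑ i ∈ s, a i) (∏ i ∈ s, b i) := by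
  classical
  induction s using Finset.induction_on with
  | empty => simp
  | insert i s hi ih =>
    rw [Finset.prod_insert hi, Finset.prod_insert hi, Finset.sum_insert hi, ih,
      HahnSeries.single_mul_single]

theorem UMon0_mon (c : Fin n → ℝ) (α : Fin n →₀ ℕ) (a : ℂ) :
    UMon0_phi F c (MvPolynomial.monomial α a) = HahnSeries.single (∑ i, c i * α i)
      (algebraMap (MvPolynomial (Fin n) ℂ) _ (MvPolynomial.monomial α a)) := by
  rw [UMon0_phi, MvPolynomial.eval₂Hom_monomial, Finsupp.prod_fintype _ _ (by simp)]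
  simp only [HahnSeries.single_pow, UMon0_prod, RingHom.comp_apply, HahnSeries.C_apply,
    HahnSeries.single_mul_single, zero_add]
  rw [MvPolynomial.monomial_eq, Finsupp.prod_fintype _ _ (by simp),
    map_mul (algebraMap (MvPolynomial (Fin n) ℂ) F), map_prod (algebraMap (MvPolynomial (Fin n) ℂ) F)]
  simp only [map_pow, nsmul_eq_mul, mul_comm]

open Classical in
theorem UMon0_coeff (c : Fin n → ℝ) (P : MvPolynomial (Fin n) ℂ) (t : ℝ) :
    ∃ Q : MvPolynomial (Fin n) ℂ, (UMon0_phi F c P).coeff t = algebraMap _ _ Q ∧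
      ∀ α, Q.coeff α = if ∑ i, c i * α i = t then P.coeff α else 0 := by
  induction P using MvPolynomial.induction_on' with
  | monomial β a =>
    by_cases h : ∑ i, c i * β i = t
    · refine ⟨MvPolynomial.monomial β a, ?_, fun α => ?_⟩
      · rw [UMon0_mon, h, HahnSeries.coeff_single_same]
      · by_cases h' : β = α
        · subst h'
          rw [if_pos h]
        · simp [MvPolynomial.coeff_monomial, h']
    · refine ⟨0, ?_, fun α => ?_⟩
      · rw [UMon0_mon, HahnSeries.coeff_single_of_ne (Ne.symm h), map_zero]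
      · by_cases h' : β = α
        · subst h'
          rw [if_neg h, MvPolynomial.coeff_zero]
        · simp [MvPolynomial.coeff_monomial, h']
  | add P P' h h' =>
    obtain ⟨Q, hQ, hQ'⟩ := h
    obtain ⟨Q', hR, hR'⟩ := h'
    refine ⟨Q + Q', ?_, fun α => ?_⟩
    · rw [map_add, HahnSeries.coeff_add, hQ, hR, map_add]
    · rw [MvPolynomial.coeff_add, hQ', hR', MvPolynomial.coeff_add]
      split_ifs <;> simp

theorem UMon0_coeff_ne (c : Fin n → ℝ) (P : MvPolynomial (Fin n) ℂ) (t : ℝ) :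
    (UMon0_phi F c P).coeff t ≠ 0 ↔ ∃ α ∈ P.support, ∑ i, c i * α i = t := by
  obtain ⟨Q, hQ, hQ'⟩ := UMon0_coeff F c P t
  rw [hQ, Ne, FaithfulSMul.algebraMap_eq_zero_iff]
  constructor
  · intro h
    obtain ⟨α, hα⟩ := MvPolynomial.ne_zero_iff.1 h
    rw [hQ'] at hα
    split_ifs at hα with h1
    · exact ⟨α, MvPolynomial.mem_support_iff.2 hα, h1⟩
    · exact absurd rfl hα
  · rintro ⟨α, hα, h1⟩ h0
    have := hQ' α
    rw [h0, if_pos h1, MvPolynomial.coeff_zero] at this
    exact MvPolynomial.mem_support_iff.1 hα this.symm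

theorem UMon0_ne (c : Fin n → ℝ) {P : MvPolynomial (Fin n) ℂ} (hP : P ≠ 0) :
    UMon0_phi F c P ≠ 0 := by
  obtain ⟨α, hα⟩ := MvPolynomial.ne_zero_iff.1 hP
  exact HahnSeries.ne_zero_of_coeff_ne_zero
    ((UMon0_coeff_ne F c P _).2 ⟨α, MvPolynomial.mem_support_iff.2 hα, rfl⟩)

theorem UMon0_inj (c : Fin n → ℝ) : Function.Injective (UMon0_phi F c) :=
  (injective_iff_map_eq_zero _).2 fun _ h => by_contra fun h' => UMon0_ne F c h' h

/-- the extension to the fraction field -/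
def UMon0_lift (c : Fin n → ℝ) : F →+* HahnSeries ℝ F :=
  IsFractionRing.lift (g := UMon0_phi F c) (UMon0_inj F c)

theorem UMon0_lift_apply (c : Fin n → ℝ) (P : MvPolynomial (Fin n) ℂ) :
    UMon0_lift F c (algebraMap _ _ P) = UMon0_phi F c P :=
  IsFractionRing.lift_algebraMap _ _

/-- the monomial valuation -/
def UMon0_val (c : Fin n → ℝ) : RVal F where
  v a := (UMon0_lift F c a).order
  mul a b ha hb := by
    rw [map_mul, HahnSeries.order_mul ((map_ne_zero _).2 ha) ((map_ne_zero _).2 hb)]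
  add a b _ _ h := by
    rw [map_add]
    refine HahnSeries.min_order_le_order_add ?_
    rw [← map_add]
    exact (map_ne_zero _).2 h
  const a _ := by
    rw [IsScalarTower.algebraMap_apply ℂ (MvPolynomial (Fin n) ℂ), UMon0_lift_apply,
      MvPolynomial.algebraMap_eq, UMon0_phi, MvPolynomial.eval₂Hom_C, RingHom.comp_apply,
      HahnSeries.order_C]

theorem UMon0_val_apply (c : Fin n → ℝ) (P : MvPolynomial (Fin n) ℂ) :
    (UMon0_val F c).v (algebraMap _ _ P) = (UMon0_phi F c P).order := by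
  show (UMon0_lift F c _).order = _
  rw [UMon0_lift_apply]

theorem UMon0_ex (c : Fin n → ℝ) {P : MvPolynomial (Fin n) ℂ} (hP : P ≠ 0) :
    ∃ α ∈ P.support, (UMon0_val F c).v (algebraMap _ _ P) = ∑ i, c i * α i := by
  obtain ⟨α, hα, h⟩ := (UMon0_coeff_ne F c P _).1
    (mt HahnSeries.coeff_order_eq_zero.1 (UMon0_ne F c hP))
  exact ⟨α, hα, by rw [UMon0_val_apply, h]⟩

theorem UMon0_le (c : Fin n → ℝ) {P : MvPolynomial (Fin n) ℂ} {α : Fin n →₀ ℕ}
    (hα : α ∈ P.support) : (UMon0_val F c).v (algebraMap _ _ P) ≤ ∑ i, c i * α i := by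
  rw [UMon0_val_apply]
  exact HahnSeries.order_le_of_coeff_ne_zero ((UMon0_coeff_ne F c P _).2 ⟨α, hα, rfl⟩)

theorem UMon0_center (c : Fin n → ℝ) (hc : ∀ i, 0 ≤ c i) :
    (UMon0_val F c).CenteredAt
      (Ideal.span {P : MvPolynomial (Fin n) ℂ | ∃ i, 0 < c i ∧ P = MvPolynomial.X i}) := by
  have hs : {P : MvPolynomial (Fin n) ℂ | ∃ i, 0 < c i ∧ P = MvPolynomial.X i} =
      MvPolynomial.X '' {i | 0 < c i} := by
    ext P
    constructor
    · rintro ⟨i, hi, rfl⟩
      exact ⟨i, hi, rfl⟩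
    · rintro ⟨i, hi, rfl⟩
      exact ⟨i, hi, rfl⟩
  refine ⟨fun P => ?_, fun P hP => ?_⟩
  · by_cases hP : P = 0
    · left
      rw [hP, map_zero]
    · right
      obtain ⟨α, -, h⟩ := UMon0_ex F c hP
      rw [h]
      exact Finset.sum_nonneg fun i _ => mul_nonneg (hc i) (Nat.cast_nonneg _)
  · have hP' : P ≠ 0 := fun h => hP (by rw [h, map_zero])
    rw [hs, MvPolynomial.mem_ideal_span_X_image]
    constructor
    · intro h α hα
      by_contra hn
      have h0 : ∑ i, c i * α i = 0 := Finset.sum_eq_zero fun i _ => by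
        rcases (hc i).eq_or_lt with h1 | h1
        · rw [← h1, zero_mul]
        · have : α i = 0 := by_contra fun h2 => hn ⟨i, h1, h2⟩
          rw [this, Nat.cast_zero, mul_zero]
      have := UMon0_le F c hα
      linarith
    · intro h
      obtain ⟨α, hα, h1⟩ := UMon0_ex F c hP'
      obtain ⟨i, hi, h2⟩ := h α hα
      rw [h1]
      refine Finset.sum_pos' (fun i _ => mul_nonneg (hc i) (Nat.cast_nonneg _))
        ⟨i, Finset.mem_univ _, mul_pos hi ?_⟩
      exact Nat.cast_pos.2 (Nat.pos_of_ne_zero h2)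

end Mon

theorem UMon0_gen {B L : Type} [CommRing B] [IsDomain B] [Field L] [Algebra ℂ L]
    [Algebra (MvPolynomial (Fin n) ℂ) B] [Algebra.IsIntegral (MvPolynomial (Fin n) ℂ) B]
    [Algebra B L] [FaithfulSMul B L] [Algebra (MvPolynomial (Fin n) ℂ) L]
    [IsScalarTower (MvPolynomial (Fin n) ℂ) B L] [IsScalarTower ℂ (MvPolynomial (Fin n) ℂ) L]
    [FaithfulSMul (MvPolynomial (Fin n) ℂ) L] [Algebra.IsAlgebraic (MvPolynomial (Fin n) ℂ) L]
    (c : Fin n → ℝ) (hc : ∀ i, 0 ≤ c i) (q : Ideal B) [q.IsPrime]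
    (hq : q.comap (algebraMap (MvPolynomial (Fin n) ℂ) B) =
      Ideal.span {P | ∃ i, 0 < c i ∧ P = MvPolynomial.X i}) :
    ∃ w : RVal L, w.CenteredAt q ∧
      IsMon w (fun i => algebraMap (MvPolynomial (Fin n) ℂ) L (MvPolynomial.X i)) c := by
  letI : Algebra (FractionRing (MvPolynomial (Fin n) ℂ)) L := FractionRing.liftAlgebra _ L
  haveI : IsScalarTower (MvPolynomial (Fin n) ℂ) (FractionRing (MvPolynomial (Fin n) ℂ)) L :=
    FractionRing.isScalarTower_liftAlgebra _ L
  haveI : IsScalarTower ℂ (FractionRing (MvPolynomial (Fin n) ℂ)) L :=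
    IsScalarTower.of_algebraMap_eq fun a => by
      rw [IsScalarTower.algebraMap_apply ℂ (MvPolynomial (Fin n) ℂ)
        (FractionRing (MvPolynomial (Fin n) ℂ)), ← IsScalarTower.algebraMap_apply,
        ← IsScalarTower.algebraMap_apply]
  haveI : Algebra.IsAlgebraic (FractionRing (MvPolynomial (Fin n) ℂ)) L :=
    Algebra.IsAlgebraic.extendScalars
      (IsFractionRing.injective (MvPolynomial (Fin n) ℂ) (FractionRing (MvPolynomial (Fin n) ℂ)))
  obtain ⟨w, hw, hw'⟩ := ext_val_center (R := MvPolynomial (Fin n) ℂ)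
    (K := FractionRing (MvPolynomial (Fin n) ℂ)) (L := L) q (UMon0_val (FractionRing (MvPolynomial (Fin n) ℂ)) c)
    (by rw [hq]; exact UMon0_center _ c hc)
  refine ⟨w, hw, fun P hP => ?_⟩
  have h1 : MvPolynomial.aeval
      (fun i => algebraMap (MvPolynomial (Fin n) ℂ) L (MvPolynomial.X i)) P =
      algebraMap (MvPolynomial (Fin n) ℂ) L P := by
    have : (MvPolynomial.aeval
      (fun i => algebraMap (MvPolynomial (Fin n) ℂ) L (MvPolynomial.X i)) :
        MvPolynomial (Fin n) ℂ →ₐ[ℂ] L) = IsScalarTower.toAlgHom ℂ (MvPolynomial (Fin n) ℂ) L :=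
      MvPolynomial.algHom_ext fun i => by simp
    rw [this]
    rfl
  have h2 : w.v (algebraMap (MvPolynomial (Fin n) ℂ) L P) = (UMon0_val (FractionRing (MvPolynomial (Fin n) ℂ)) c).v (algebraMap _ _ P) := by
    rw [IsScalarTower.algebraMap_apply _ (FractionRing (MvPolynomial (Fin n) ℂ)) L]
    exact hw' _ ((FaithfulSMul.algebraMap_eq_zero_iff _ _).not.2 hP)
  rw [h1, h2]
  exact ⟨(FaithfulSMul.algebraMap_eq_zero_iff _ _).not.2 hP, UMon0_ex _ c hP,
    fun α hα => UMon0_le _ c hα⟩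

/-- extensions of monomial valuations with a prescribed centre -/
theorem exists_mon (K : Type) [Field K] [Algebra R K] [IsFractionRing R K] [Algebra ℂ K]
    [IsScalarTower ℂ R K] (π : Proj R n) (c : Fin n → ℝ) (hc : ∀ i, 0 ≤ c i) (q : Ideal R)
    [q.IsPrime] (hq : q.comap (MvPolynomial.aeval π.y : MvPolynomial (Fin n) ℂ →ₐ[ℂ] R) =
      Ideal.span {P | ∃ i, 0 < c i ∧ P = MvPolynomial.X i}) :
    ∃ w : RVal K, w.CenteredAt q ∧ IsMon w (fun i => algebraMap R K (π.y i)) c := by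
  letI : Algebra (MvPolynomial (Fin n) ℂ) R :=
    (MvPolynomial.aeval π.y : MvPolynomial (Fin n) ℂ →ₐ[ℂ] R).toRingHom.toAlgebra
  letI : Algebra (MvPolynomial (Fin n) ℂ) K :=
    ((algebraMap R K).comp (algebraMap (MvPolynomial (Fin n) ℂ) R)).toAlgebra
  haveI : Algebra.IsIntegral (MvPolynomial (Fin n) ℂ) R := ⟨π.fin.to_isIntegral⟩
  haveI : IsScalarTower (MvPolynomial (Fin n) ℂ) R K := IsScalarTower.of_algebraMap_eq fun _ => rfl
  haveI : IsScalarTower ℂ (MvPolynomial (Fin n) ℂ) K := IsScalarTower.of_algebraMap_eq fun a => by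
    show _ = algebraMap R K (MvPolynomial.aeval π.y (algebraMap ℂ _ a))
    rw [AlgHom.commutes, ← IsScalarTower.algebraMap_apply]
  haveI : FaithfulSMul (MvPolynomial (Fin n) ℂ) R :=
    (faithfulSMul_iff_algebraMap_injective _ _).2 π.ind
  haveI : FaithfulSMul (MvPolynomial (Fin n) ℂ) K :=
    (faithfulSMul_iff_algebraMap_injective _ _).2 ((IsFractionRing.injective R K).comp π.ind)
  haveI : Algebra.IsAlgebraic R K := IsLocalization.isAlgebraic K (nonZeroDivisors R)
  haveI : Algebra.IsAlgebraic (MvPolynomial (Fin n) ℂ) K :=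
    Algebra.IsAlgebraic.trans _ R K
  obtain ⟨w, hw, hw'⟩ := UMon0_gen (B := R) (L := K) c hc q hq
  refine ⟨w, hw, ?_⟩
  have : (fun i => algebraMap R K (π.y i)) =
      fun i => algebraMap (MvPolynomial (Fin n) ℂ) K (MvPolynomial.X i) := by
    funext i
    show _ = algebraMap R K (MvPolynomial.aeval π.y (MvPolynomial.X i))
    rw [MvPolynomial.aeval_X]
  rw [this]
  exact hw'

/-- the same on the algebraic closure, for any domain `B` inside it that is integral over `ℂ[y]` -/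
theorem exists_mon_cl (π : Proj R n) (c : Fin n → ℝ) (hc : ∀ i, 0 ≤ c i)
    (q : Ideal (π.Rt K)) [q.IsPrime]
    (hq : ∀ P : MvPolynomial (Fin n) ℂ, ∀ u : π.Rt K, (u : Cl K) = io K (MvPolynomial.aeval π.y P) →
      (u ∈ q ↔ P ∈ Ideal.span {P | ∃ i, 0 < c i ∧ P = MvPolynomial.X i})) :
    ∃ w : RVal (Cl K), w.CenteredAt q ∧ IsMon w (fun i => io K (π.y i)) c := by
  letI : Algebra (MvPolynomial (Fin n) ℂ) R :=
    (MvPolynomial.aeval π.y : MvPolynomial (Fin n) ℂ →ₐ[ℂ] R).toRingHom.toAlgebra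
  letI : Algebra (MvPolynomial (Fin n) ℂ) (π.Rt K) :=
    ((π.em K ⟨io K, π.io_mem⟩).toRingHom.comp (algebraMap (MvPolynomial (Fin n) ℂ) R)).toAlgebra
  letI : Algebra (MvPolynomial (Fin n) ℂ) (Cl K) :=
    ((io K : R →ₐ[ℂ] Cl K).toRingHom.comp (algebraMap (MvPolynomial (Fin n) ℂ) R)).toAlgebra
  haveI : Algebra.IsIntegral (MvPolynomial (Fin n) ℂ) R := ⟨π.fin.to_isIntegral⟩
  haveI : Algebra.IsIntegral (MvPolynomial (Fin n) ℂ) (π.Rt K) :=
    ⟨RingHom.IsIntegral.trans _ _ π.fin.to_isIntegral (π.em_integral ⟨io K, π.io_mem⟩)⟩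
  haveI : IsScalarTower (MvPolynomial (Fin n) ℂ) (π.Rt K) (Cl K) :=
    IsScalarTower.of_algebraMap_eq fun _ => rfl
  haveI : IsScalarTower (MvPolynomial (Fin n) ℂ) R (Cl K) :=
    IsScalarTower.of_algebraMap_eq fun _ => rfl
  haveI : IsScalarTower ℂ (MvPolynomial (Fin n) ℂ) (Cl K) :=
    IsScalarTower.of_algebraMap_eq fun a => by
      show _ = io K (MvPolynomial.aeval π.y (algebraMap ℂ _ a))
      rw [AlgHom.commutes, AlgHom.commutes]
  haveI : FaithfulSMul (MvPolynomial (Fin n) ℂ) R :=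
    (faithfulSMul_iff_algebraMap_injective _ _).2 π.ind
  haveI : FaithfulSMul (MvPolynomial (Fin n) ℂ) (Cl K) :=
    (faithfulSMul_iff_algebraMap_injective _ _).2
      (((algebraMap K (Cl K)).injective.comp (IsFractionRing.injective R K)).comp π.ind)
  haveI : Algebra.IsAlgebraic R K := IsLocalization.isAlgebraic K (nonZeroDivisors R)
  haveI : Algebra.IsAlgebraic R (Cl K) := Algebra.IsAlgebraic.trans R K (Cl K)
  haveI : Algebra.IsAlgebraic (MvPolynomial (Fin n) ℂ) (Cl K) :=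
    Algebra.IsAlgebraic.trans _ R (Cl K)
  obtain ⟨w, hw, hw'⟩ := UMon0_gen (B := π.Rt K) (L := Cl K) c hc q (by
    ext P
    exact hq P _ rfl)
  refine ⟨w, hw, ?_⟩
  have : (fun i => io K (π.y i)) =
      fun i => algebraMap (MvPolynomial (Fin n) ℂ) (Cl K) (MvPolynomial.X i) := by
    funext i
    show _ = io K (MvPolynomial.aeval π.y (MvPolynomial.X i))
    rw [MvPolynomial.aeval_X]
  rw [this]
  exact hw'

end Vale.Agent.P282
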