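import Vale.Agent.P282.UMon0
import Vale.Agent.P282.UTame

set_option linter.unusedSectionVars false

open scoped ENNReal TensorProduct Topology
open Filter MeasureTheory

noncomputable section

namespace Vale.Agent.P282

variable {F : Type} [Field F] [Algebra ℂ F]

/-- Places of a field with values in `ℂ`. -/
structure Plc (F : Type) [Field F] [Algebra ℂ F] where
  V : Subalgebra ℂ F
  φ : V →ₐ[ℂ] ℂ
  val : ∀ a, a ∈ V ∨ ∃ h : a⁻¹ ∈ V, φ ⟨a⁻¹, h⟩ = 0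

open Classical in
/-- The value of a function at a place. -/
def Plc.ev (P : Plc F) (a : F) : ℂ := if h : a ∈ P.V then P.φ ⟨a, h⟩ else 0

/-- `|a|² ≍ exp (-τ w(a))` at the place. -/
def Plc.Bd (P : Plc F) (w : RVal F) (C τ : ℝ) (a : F) : Prop :=
  a ∈ P.V ∧ C⁻¹ * Real.exp (-τ * w.v a) ≤ ‖P.ev a‖ ^ 2 ∧ ‖P.ev a‖ ^ 2 ≤ C * Real.exp (-τ * w.v a)

/-- `P'` extends the restriction of `P` to `K₀`. -/
def Plc.Agr (P P' : Plc F) (K₀ : IntermediateField ℂ F) : Prop :=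
  ∀ a ∈ K₀, a ∈ P.V → a ∈ P'.V ∧ P'.ev a = P.ev a

/-- `df = M dy`. -/
def DRel {k : ℕ} (f y : Fin k → F) (M : Matrix (Fin k) (Fin k) F) : Prop :=
  ∀ i, KaehlerDifferential.D ℂ F (f i) = ∑ j, M i j • KaehlerDifferential.D ℂ F (y j)

/-- `l` keeps the positive elements of `S` positive. -/
def SgP (l : ℝ →+ ℝ) (S : Finset ℝ) : Prop := ∀ x ∈ S, 0 < x → 0 < l x

end Vale.Agent.P282
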