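import Vale.Agent.P282.VPl

set_option linter.unusedSectionVars false

open scoped ENNReal TensorProduct Topology
open Filter MeasureTheory

noncomputable section

namespace Vale.Agent.P282

variable {F : Type} [Field F] [Algebra ℂ F]

/-- Graphs of homomorphisms. -/
def VExt_Fn (G : Subalgebra ℂ (F × ℂ)) : Prop := ∀ g ∈ G, g.1 = 0 → g.2 = 0

/-- First projection of a graph. -/
def VExt_p1 (G : Subalgebra ℂ (F × ℂ)) : G →ₐ[ℂ] F := (AlgHom.fst ℂ F ℂ).comp G.val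

/-- Second projection of a graph. -/
def VExt_p2 (G : Subalgebra ℂ (F × ℂ)) : G →ₐ[ℂ] ℂ := (AlgHom.snd ℂ F ℂ).comp G.val

theorem VExt_p1_apply (G : Subalgebra ℂ (F × ℂ)) (g : G) : VExt_p1 G g = g.1.1 := rfl

theorem VExt_p2_apply (G : Subalgebra ℂ (F × ℂ)) (g : G) : VExt_p2 G g = g.1.2 := rfl

theorem VExt_step (G : Subalgebra ℂ (F × ℂ)) (s : F) (c : ℂ)
    (h : ∀ q : Polynomial G, q.eval₂ (VExt_p1 G).toRingHom s = 0 →
      q.eval₂ (VExt_p2 G).toRingHom c = 0) :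
    ∃ G' : Subalgebra ℂ (F × ℂ), VExt_Fn G' ∧ G ≤ G' ∧ (s, c) ∈ G' := by
  refine ⟨(Polynomial.aeval (R := G) ((s, c) : F × ℂ)).range.restrictScalars ℂ, ?_, ?_, ?_⟩
  · rintro _ ⟨q, rfl⟩ h0
    have h1 := Polynomial.hom_eval₂ q (algebraMap G (F × ℂ)) (RingHom.fst F ℂ) (s, c)
    have h2 := Polynomial.hom_eval₂ q (algebraMap G (F × ℂ)) (RingHom.snd F ℂ) (s, c)
    exact h2.trans (h q (h1.symm.trans h0))
  · intro g hg
    exact ⟨Polynomial.C ⟨g, hg⟩, Polynomial.aeval_C _ _⟩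
  · exact ⟨Polynomial.X, Polynomial.aeval_X _⟩

theorem VExt_root (J : Ideal (Polynomial ℂ)) (hJ : J ≠ ⊤) : ∃ c : ℂ, ∀ p ∈ J, p.eval c = 0 := by
  obtain ⟨g, rfl⟩ := (IsPrincipalIdealRing.principal J).principal
  have hc : ∃ c : ℂ, g.eval c = 0 := by
    by_cases hd : g.degree = 0
    · refine (hJ ?_).elim
      exact Ideal.span_singleton_eq_top.mpr (Polynomial.isUnit_iff_degree_eq_zero.mpr hd)
    · exact IsAlgClosed.exists_root g hd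
  obtain ⟨c, hc⟩ := hc
  refine ⟨c, fun p hp => ?_⟩
  obtain ⟨a, rfl⟩ := Ideal.mem_span_singleton'.mp hp
  rw [Polynomial.eval_mul, hc, mul_zero]

theorem VExt_p2_surj (G : Subalgebra ℂ (F × ℂ)) : Function.Surjective (VExt_p2 G).toRingHom :=
  fun c => ⟨algebraMap ℂ G c, (VExt_p2 G).commutes c⟩

theorem VExt_val_lt {R : Type*} [CommRing R] (V : ValuationSubring F) (f : R →+* F) (y : F)
    (hy : y ∈ V) (q : Polynomial R) (hq : ∀ i, V.valuation (f (q.coeff i)) < 1) :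
    V.valuation (q.eval₂ f y) < 1 := by
  rw [Polynomial.eval₂_eq_sum_range]
  refine Valuation.map_sum_lt _ one_ne_zero fun i _ => ?_
  rw [map_mul, map_pow]
  exact mul_lt_one_of_lt_of_le (hq i) (pow_le_one' ((V.valuation_le_one_iff y).mpr hy) i)

theorem VExt_ext (G : Subalgebra ℂ (F × ℂ)) (V : ValuationSubring F)
    (hV : ∀ g ∈ G, g.2 = 0 → V.valuation g.1 < 1) (y : F) (hy : y ∈ V) :
    ∃ c : ℂ, ∃ G' : Subalgebra ℂ (F × ℂ), VExt_Fn G' ∧ G ≤ G' ∧ (y, c) ∈ G' := by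
  obtain ⟨J, hJ⟩ : ∃ J : Ideal (Polynomial ℂ), J = Ideal.map
      (Polynomial.mapRingHom (VExt_p2 G).toRingHom)
      (RingHom.ker (Polynomial.eval₂RingHom (VExt_p1 G).toRingHom y)) := ⟨_, rfl⟩
  have hne : J ≠ ⊤ := by
    intro ht
    have h1 : (1 : Polynomial ℂ) ∈ J := by rw [ht]; trivial
    rw [hJ, Ideal.mem_map_iff_of_surjective _
      (Polynomial.map_surjective _ (VExt_p2_surj G))] at h1
    obtain ⟨q, hq, hq1⟩ := h1
    have hq0 : q.eval₂ (VExt_p1 G).toRingHom y = 0 := hq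
    have hq2 : (1 - q).map (VExt_p2 G).toRingHom = 0 := by
      rw [Polynomial.map_sub, Polynomial.map_one, sub_eq_zero]
      exact hq1.symm
    have h3 := VExt_val_lt V (VExt_p1 G).toRingHom y hy (1 - q) fun i => by
      refine hV _ ((1 - q).coeff i).2 ?_
      have h4 := congrArg (fun p => Polynomial.coeff p i) hq2
      simp only [Polynomial.coeff_map, Polynomial.coeff_zero] at h4
      exact h4
    rw [Polynomial.eval₂_sub, Polynomial.eval₂_one, hq0, sub_zero, map_one] at h3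
    exact lt_irrefl _ h3
  obtain ⟨c, hc⟩ := VExt_root J hne
  refine ⟨c, VExt_step G y c fun q hq => ?_⟩
  rw [← Polynomial.eval_map]
  refine hc _ ?_
  rw [hJ]
  exact Ideal.mem_map_of_mem _ hq

theorem VExt_inj {G : Subalgebra ℂ (F × ℂ)} (hG : VExt_Fn G) : Function.Injective (VExt_p1 G) := by
  rw [injective_iff_map_eq_zero]
  intro g hg
  exact Subtype.ext (Prod.ext hg (hG g.1 g.2 hg))

theorem VExt_dom {G : Subalgebra ℂ (F × ℂ)} (hG : VExt_Fn G) :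
    ∃ V : ValuationSubring F, (∀ g ∈ G, g.1 ∈ V) ∧ ∀ g ∈ G, g.2 = 0 → V.valuation g.1 < 1 := by
  obtain ⟨e, he⟩ : ∃ e : G ≃+* (VExt_p1 G).toRingHom.range, ∀ g : G, (e g : F) = g.1.1 :=
    ⟨RingEquiv.ofBijective (VExt_p1 G).toRingHom.rangeRestrict
      ⟨fun a b hab => VExt_inj hG (congrArg Subtype.val hab), RingHom.rangeRestrict_surjective _⟩,
      fun g => rfl⟩
  obtain ⟨V, hV, hV'⟩ := Ideal.image_subset_nonunits_valuationSubring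
    (RingHom.ker ((VExt_p2 G).toRingHom.comp e.symm.toRingHom)) (RingHom.ker_ne_top _)
  refine ⟨V, fun g hg => hV ⟨⟨g, hg⟩, rfl⟩, fun g hg h0 => ?_⟩
  refine V.mem_nonunits_iff.mp (hV' ⟨e ⟨g, hg⟩, ?_, he _⟩)
  change VExt_p2 G (e.symm (e ⟨g, hg⟩)) = 0
  rw [RingEquiv.symm_apply_apply]
  exact h0

theorem VExt_max (G₀ : Subalgebra ℂ (F × ℂ)) (h₀ : VExt_Fn G₀) :
    ∃ G : Subalgebra ℂ (F × ℂ), G₀ ≤ G ∧ VExt_Fn G ∧ ∀ G', VExt_Fn G' → G ≤ G' → G' ≤ G := by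
  obtain ⟨G, h1, h2⟩ := zorn_le_nonempty₀ {G : Subalgebra ℂ (F × ℂ) | VExt_Fn G}
    (fun c hc hch y hy => by
      have : Nonempty c := ⟨⟨y, hy⟩⟩
      refine ⟨⨆ i : c, i.1, fun g hg => ?_, fun z hz => le_iSup (fun i : c => i.1) ⟨z, hz⟩⟩
      have h3 : g ∈ ((⨆ i : c, i.1 : Subalgebra ℂ (F × ℂ)) : Set (F × ℂ)) := hg
      rw [Subalgebra.coe_iSup_of_directed hch.directed] at h3
      obtain ⟨i, hi⟩ := Set.mem_iUnion.mp h3
      exact hc i.2 g hi) G₀ h₀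
  exact ⟨G, h1, h2.1, fun G' h3 h4 => h2.2 h3 h4⟩

theorem VExt_val (G : Subalgebra ℂ (F × ℂ)) (hG : VExt_Fn G)
    (hm : ∀ G', VExt_Fn G' → G ≤ G' → G' ≤ G) (a : F) :
    (∃ c, (a, c) ∈ G) ∨ (a⁻¹, (0 : ℂ)) ∈ G := by
  obtain ⟨V, hV, hV'⟩ := VExt_dom hG
  have key : ∀ y ∈ V, ∃ c, (y, c) ∈ G := fun y hy => by
    obtain ⟨c, G', h1, h2, h3⟩ := VExt_ext G V hV' y hy
    exact ⟨c, hm G' h1 h2 h3⟩
  by_cases ha : a ∈ V
  · exact Or.inl (key a ha)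
  right
  obtain ⟨c, hc⟩ := key _ ((V.mem_or_inv_mem a).resolve_left ha)
  by_cases h0 : c = 0
  · exact h0 ▸ hc
  exfalso
  have h1 : V.valuation (a⁻¹ - algebraMap ℂ F c) < 1 :=
    hV' _ (G.sub_mem hc (G.algebraMap_mem c)) (sub_self c)
  have h2 : V.valuation a⁻¹ < 1 :=
    V.mem_nonunits_iff.mp (V.inv_mem_nonunits_iff.mpr (Or.inr ha))
  have h3 : V.valuation (algebraMap ℂ F c) < 1 := by
    have h4 := Valuation.map_sub_lt _ h2 h1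
    rwa [sub_sub_cancel] at h4
  have h4 : V.valuation (algebraMap ℂ F c⁻¹) ≤ 1 :=
    (V.valuation_le_one_iff _).mpr (hV _ (G.algebraMap_mem c⁻¹))
  have h5 := mul_lt_one_of_lt_of_le h3 h4
  rw [← map_mul, ← map_mul, mul_inv_cancel₀ h0, map_one, map_one] at h5
  exact lt_irrefl _ h5

theorem VExt_ev (P : Plc F) {a : F} (h : a ∈ P.V) : P.ev a = P.φ ⟨a, h⟩ := by
  rw [Plc.ev, dif_pos h]

theorem VExt_main (G₀ : Subalgebra ℂ (F × ℂ)) (h₀ : VExt_Fn G₀) :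
    ∃ P : Plc F, ∀ g ∈ G₀, g.1 ∈ P.V ∧ P.ev g.1 = g.2 := by
  obtain ⟨G, hle, hG, hm⟩ := VExt_max G₀ h₀
  obtain ⟨φ, hφ⟩ : ∃ φ : (VExt_p1 G).range →ₐ[ℂ] ℂ, ∀ g (hg : g ∈ G),
      φ ⟨g.1, ⟨g, hg⟩, rfl⟩ = g.2 := by
    refine ⟨(VExt_p2 G).comp (AlgEquiv.ofInjective _ (VExt_inj hG)).symm.toAlgHom,
      fun g hg => ?_⟩
    have h1 : (⟨g.1, ⟨g, hg⟩, rfl⟩ : (VExt_p1 G).range) =
        AlgEquiv.ofInjective _ (VExt_inj hG) ⟨g, hg⟩ := rfl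
    rw [h1]
    change VExt_p2 G ((AlgEquiv.ofInjective _ (VExt_inj hG)).symm _) = _
    rw [AlgEquiv.symm_apply_apply]
    rfl
  refine ⟨⟨(VExt_p1 G).range, φ, fun a => ?_⟩, fun g hg => ?_⟩
  · rcases VExt_val G hG hm a with ⟨c, hc⟩ | hc
    · exact Or.inl ⟨⟨_, hc⟩, rfl⟩
    · exact Or.inr ⟨⟨⟨_, hc⟩, rfl⟩, hφ _ hc⟩
  · refine ⟨⟨⟨g, hle hg⟩, rfl⟩, ?_⟩
    rw [VExt_ev _ (by exact ⟨⟨g, hle hg⟩, rfl⟩)]
    exact hφ g (hle hg)

theorem VExt_graph (A : Subalgebra ℂ F) (φ : A →ₐ[ℂ] ℂ) : VExt_Fn (A.val.prod φ).range := by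
  rintro _ ⟨a, rfl⟩ h
  have h1 : a = 0 := Subtype.ext h
  rw [h1, map_zero]
  rfl

/-- extension of homomorphisms to places -/
theorem plc_ext (A : Subalgebra ℂ F) (φ : A →ₐ[ℂ] ℂ) :
    ∃ P : Plc F, ∀ a : A, (a : F) ∈ P.V ∧ P.ev a = φ a := by
  obtain ⟨P, hP⟩ := VExt_main _ (VExt_graph A φ)
  exact ⟨P, fun a => hP _ ⟨a, rfl⟩⟩

/-- prescribing the value at one more element -/
theorem plc_ext1 (P : Plc F) (K₀ : IntermediateField ℂ F) (s : F) (c : ℂ)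
    (h : ∀ p : Polynomial F, (∀ i, p.coeff i ∈ K₀ ∧ p.coeff i ∈ P.V) → p.eval s = 0 →
      (p.sum fun i a => P.ev a * c ^ i) = 0) :
    ∃ P' : Plc F, P.Agr P' K₀ ∧ s ∈ P'.V ∧ P'.ev s = c := by
  obtain ⟨G, hG⟩ : ∃ G : Subalgebra ℂ (F × ℂ),
      ∀ g, g ∈ G ↔ g.1 ∈ K₀ ∧ g.1 ∈ P.V ∧ P.ev g.1 = g.2 := by
    refine ⟨((K₀.toSubalgebra ⊓ P.V).val.prod
      (P.φ.comp (Subalgebra.inclusion inf_le_right))).range, fun g => ⟨?_, fun hg => ?_⟩⟩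
    · rintro ⟨a, rfl⟩
      exact ⟨a.2.1, a.2.2, VExt_ev P a.2.2⟩
    · exact ⟨⟨g.1, hg.1, hg.2.1⟩, Prod.ext rfl ((VExt_ev P hg.2.1).symm.trans hg.2.2)⟩
  have hz : P.ev 0 = 0 := by
    rw [VExt_ev P P.V.zero_mem]
    exact map_zero P.φ
  obtain ⟨G', h1, h2, h3⟩ := VExt_step G s c fun q hq => by
    have h4 : ∀ i, (q.map (VExt_p1 G).toRingHom).coeff i = (q.coeff i).1.1 := fun i =>
      Polynomial.coeff_map _ _
    have h5 := h (q.map (VExt_p1 G).toRingHom) (fun i => by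
      rw [h4]
      exact ⟨((hG _).mp (q.coeff i).2).1, ((hG _).mp (q.coeff i).2).2.1⟩)
      (by rw [Polynomial.eval_map, hq])
    rw [Polynomial.sum_eq_of_subset _ (fun i => by rw [hz, zero_mul])
      (Polynomial.support_map_subset _ q)] at h5
    rw [Polynomial.eval₂_eq_sum, Polynomial.sum_def, ← h5]
    refine Finset.sum_congr rfl fun i _ => ?_
    rw [h4, ((hG _).mp (q.coeff i).2).2.2]
    rfl
  obtain ⟨P', hP'⟩ := VExt_main G' h1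
  exact ⟨P', fun a ha hb => hP' (a, P.ev a) (h2 ((hG _).mpr ⟨ha, hb, rfl⟩)), hP' _ h3⟩

end Vale.Agent.P282
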