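import Vale.Agent.P282.VExt
import Vale.Agent.P282.VAlg

open scoped ENNReal TensorProduct Topology
open Filter MeasureTheory

noncomputable section

namespace Vale.Agent.P282

variable {F : Type} [Field F] [Algebra ℂ F]

/-- uniform two-sided bound at the extended places -/
def VStB_G (F' : IntermediateField ℂ F) (w : RVal F) (t c : F) (H : Finset F) (b : F) : Prop :=
  ∀ C : ℝ, 0 < C → ∃ C' : ℝ, 0 < C' ∧ ∀ᶠ τ : ℝ in atTop, ∀ P P' : Plc F,
    (∀ h ∈ H, P.Bd w C τ h) → P.Agr P' F' → t ∈ P'.V →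
    2 * √(C * Real.exp (-τ * w.v (t - c))) ≤ ‖P'.ev t - P.ev c‖ →
    ‖P'.ev t - P.ev c‖ ≤ 4 * √(C * Real.exp (-τ * w.v (t - c))) → P'.Bd w C' τ b

theorem VStB_mul {F' : IntermediateField ℂ F} {w : RVal F} {t c : F} {H : Finset F} {a b : F}
    (ha : VStB_G F' w t c H a) (hb : VStB_G F' w t c H b) : VStB_G F' w t c H (a * b) := by
  intro C hC
  obtain ⟨C₁, h₁, e₁⟩ := ha C hC
  obtain ⟨C₂, h₂, e₂⟩ := hb C hC
  refine ⟨C₁ * C₂, mul_pos h₁ h₂, ?_⟩
  filter_upwards [e₁, e₂] with τ f₁ f₂ P P' hH hA ht hl hu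
  exact (f₁ P P' hH hA ht hl hu).mul (f₂ P P' hH hA ht hl hu) h₁ h₂

theorem VStB_inv {F' : IntermediateField ℂ F} {w : RVal F} {t c : F} {H : Finset F} {a : F}
    (ha : VStB_G F' w t c H a) : VStB_G F' w t c H a⁻¹ := by
  intro C hC
  obtain ⟨C₁, h₁, e₁⟩ := ha C hC
  refine ⟨C₁, h₁, ?_⟩
  filter_upwards [e₁] with τ f₁ P P' hH hA ht hl hu
  exact (f₁ P P' hH hA ht hl hu).inv h₁

theorem VStB_mem {F' : IntermediateField ℂ F} {w : RVal F} {t c : F} {H : Finset F} {a : F}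
    (ha : a ∈ H) (ha' : a ∈ F') : VStB_G F' w t c H a := fun C hC =>
  ⟨C, hC, Eventually.of_forall fun _ _ _ hH hA _ _ _ => (hH a ha).agr hA ha'⟩

theorem VStB_one {F' : IntermediateField ℂ F} {w : RVal F} {t c : F} {H : Finset F} :
    VStB_G F' w t c H 1 := by
  intro C _
  refine ⟨1, one_pos, Eventually.of_forall fun τ P P' _ _ _ _ _ => ⟨one_mem _, ?_⟩⟩
  have e2 := w.const 1 one_ne_zero
  rw [map_one] at e2
  rw [e2, P'.ev_one]
  simp

theorem VStB_prod {F' : IntermediateField ℂ F} {w : RVal F} {t c : F} {H : Finset F}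
    (s : Multiset F) (hs : ∀ a ∈ s, VStB_G F' w t c H a) : VStB_G F' w t c H s.prod :=
  Multiset.prod_induction _ s (fun _ _ => VStB_mul) VStB_one hs

theorem VStB_lin {F' : IntermediateField ℂ F} {w : RVal F} {t c d : F} {H : Finset F}
    (hd' : d ∈ F') (hc : t - c ≠ 0) (hd : t - d ≠ 0)
    (h : w.v (t - d) ≤ w.v (t - c)) (h0 : c = 0 ∨ c ∈ H) (h1 : c = d ∨ c - d ∈ H) :
    VStB_G F' w t c H (t - d) := by
  intro C hC
  have key : ∀ (τ : ℝ) (P P' : Plc F), (∀ h ∈ H, P.Bd w C τ h) → P.Agr P' F' → t ∈ P'.V →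
      t - d ∈ P'.V ∧ P'.ev (t - d) = (P'.ev t - P.ev c) + P.ev (c - d) := by
    intro τ P P' hH hA ht
    have a1 : c ∈ P.V := by
      rcases h0 with e | e
      · exact e ▸ zero_mem _
      · exact (hH c e).1
    have a2 : c - d ∈ P.V := by
      rcases h1 with e | e
      · rw [e, sub_self]
        exact zero_mem _
      · exact (hH _ e).1
    have a3 : d ∈ P.V := by
      have := sub_mem a1 a2
      rwa [sub_sub_cancel] at this
    obtain ⟨b1, b2⟩ := hA d hd' a3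
    refine ⟨sub_mem ht b1, ?_⟩
    rw [P'.ev_sub ht b1, b2, P.ev_sub a1 a3]
    ring
  rcases v_lin w hc hd h with ⟨h2, h3⟩ | ⟨h2, h3, h4⟩
  · refine ⟨C⁻¹ + 25 * C, by positivity, ?_⟩
    filter_upwards [eventually_ge_atTop 0] with τ hτ P P' hH hA ht hl hu
    obtain ⟨k1, k2⟩ := key τ P P' hH hA ht
    refine ⟨k1, ?_⟩
    rw [k2, h3]
    set E := Real.exp (-τ * w.v (t - c)) with hE
    have hE0 : 0 < E := Real.exp_pos _
    have hρ : √(C * E) ^ 2 = C * E := Real.sq_sqrt (by positivity)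
    have hρ0 : 0 ≤ √(C * E) := Real.sqrt_nonneg _
    have k3 : ‖P.ev (c - d)‖ ≤ √(C * E) := by
      by_cases e : c = d
      · rw [e, sub_self, P.ev_zero, norm_zero]
        exact hρ0
      · apply Real.le_sqrt_of_sq_le
        refine (hH _ (h1.resolve_left e)).2.2.trans (mul_le_mul_of_nonneg_left ?_ hC.le)
        apply Real.exp_le_exp.2
        have := h2.resolve_left e
        nlinarith
    have k4 : ‖P'.ev t - P.ev c + P.ev (c - d)‖ ≤ 5 * √(C * E) :=
      (norm_add_le _ _).trans (by linarith)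
    have k5 : √(C * E) ≤ ‖P'.ev t - P.ev c + P.ev (c - d)‖ := by
      have := norm_sub_le (P'.ev t - P.ev c + P.ev (c - d)) (P.ev (c - d))
      rw [add_sub_cancel_right] at this
      linarith
    constructor
    · have k6 : (C⁻¹ + 25 * C)⁻¹ ≤ C := by
        rw [inv_le_comm₀ (by positivity) hC]
        linarith
      calc (C⁻¹ + 25 * C)⁻¹ * E ≤ C * E := mul_le_mul_of_nonneg_right k6 hE0.le
        _ = √(C * E) ^ 2 := hρ.symm
        _ ≤ _ := pow_le_pow_left₀ hρ0 k5 2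
    · calc _ ≤ (5 * √(C * E)) ^ 2 := pow_le_pow_left₀ (norm_nonneg _) k4 2
        _ = 25 * C * E := by rw [mul_pow, hρ]; ring
        _ ≤ (C⁻¹ + 25 * C) * E :=
          mul_le_mul_of_nonneg_right (le_add_of_nonneg_left (by positivity)) hE0.le
  · refine ⟨4 * C, by positivity, ?_⟩
    have hlim : Tendsto (fun τ : ℝ => Real.exp (τ * (w.v (t - c) - w.v (c - d)))) atTop atTop :=
      Real.tendsto_exp_atTop.comp (tendsto_id.atTop_mul_const (sub_pos.2 h3))
    filter_upwards [hlim.eventually_ge_atTop (64 * C ^ 2)] with τ hτ P P' hH hA ht hl hu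
    obtain ⟨k1, k2⟩ := key τ P P' hH hA ht
    refine ⟨k1, ?_⟩
    rw [k2, h4]
    obtain ⟨-, b1, b2⟩ := hH _ (h1.resolve_left h2)
    set E := Real.exp (-τ * w.v (t - c)) with hE
    set E' := Real.exp (-τ * w.v (c - d)) with hE'
    have hE0 : 0 < E := Real.exp_pos _
    have hE1 : 0 < E' := Real.exp_pos _
    have hEE : E' = E * Real.exp (τ * (w.v (t - c) - w.v (c - d))) := by
      rw [hE, hE', ← Real.exp_add]
      congr 1
      ring
    have k3 : √(C * E) ≤ ‖P.ev (c - d)‖ / 8 := by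
      apply Real.sqrt_le_iff.2
      refine ⟨by positivity, ?_⟩
      have k4 : 64 * (C * E) ≤ C⁻¹ * E' := by
        rw [hEE, le_inv_mul_iff₀ hC]
        nlinarith
      rw [div_pow]
      linarith
    have k4 : ‖P'.ev t - P.ev c + P.ev (c - d)‖ ≤ 2 * ‖P.ev (c - d)‖ :=
      (norm_add_le _ _).trans (by linarith [norm_nonneg (P.ev (c - d))])
    have k5 : ‖P.ev (c - d)‖ / 2 ≤ ‖P'.ev t - P.ev c + P.ev (c - d)‖ := by
      have := norm_sub_le (P'.ev t - P.ev c + P.ev (c - d)) (P'.ev t - P.ev c)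
      rw [add_sub_cancel_left] at this
      linarith
    constructor
    · calc (4 * C)⁻¹ * E' = C⁻¹ * E' / 4 := by rw [mul_inv]; ring
        _ ≤ (‖P.ev (c - d)‖ / 2) ^ 2 := by rw [div_pow]; linarith
        _ ≤ _ := pow_le_pow_left₀ (by positivity) k5 2
    · calc _ ≤ (2 * ‖P.ev (c - d)‖) ^ 2 := pow_le_pow_left₀ (norm_nonneg _) k4 2
        _ ≤ 4 * C * E' := by rw [mul_pow]; linarith

theorem VStB_poly {F' : IntermediateField ℂ F} [IsAlgClosed F'] {w : RVal F} {t c : F}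
    {H : Finset F} (p : Polynomial F') (h1 : ((p.leadingCoeff : F') : F) ∈ H)
    (h2 : ∀ d ∈ p.roots, VStB_G F' w t c H (t - d)) :
    VStB_G F' w t c H (Polynomial.aeval t p) := by
  have e := Polynomial.C_leadingCoeff_mul_prod_multiset_X_sub_C
    (IsAlgClosed.card_roots_eq_natDegree (p := p))
  rw [← e, map_mul, Polynomial.aeval_C, map_multiset_prod, Multiset.map_map]
  refine VStB_mul (VStB_mem h1 p.leadingCoeff.2) (VStB_prod _ ?_)
  intro a ha
  obtain ⟨d, hd, rfl⟩ := Multiset.mem_map.1 ha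
  simpa using h2 d hd

theorem VStB_fin {F' : IntermediateField ℂ F} {w : RVal F} {t c : F} {H : Finset F}
    (B : Finset F) (hB : ∀ b ∈ B, VStB_G F' w t c H b) {C : ℝ} (hC : 0 < C) :
    ∃ C' : ℝ, C⁻¹ ≤ C' ∧ ∀ᶠ τ : ℝ in atTop, ∀ P P' : Plc F,
    (∀ h ∈ H, P.Bd w C τ h) → P.Agr P' F' → t ∈ P'.V →
    2 * √(C * Real.exp (-τ * w.v (t - c))) ≤ ‖P'.ev t - P.ev c‖ →
    ‖P'.ev t - P.ev c‖ ≤ 4 * √(C * Real.exp (-τ * w.v (t - c))) → ∀ b ∈ B, P'.Bd w C' τ b := by
  classical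
  induction B using Finset.induction_on with
  | empty => exact ⟨C⁻¹, le_rfl, Eventually.of_forall fun _ _ _ _ _ _ _ _ b hb => by simp at hb⟩
  | insert a s _ ih =>
    obtain ⟨C₁, h₁, e₁⟩ := ih fun b hb => hB b (Finset.mem_insert_of_mem hb)
    obtain ⟨C₂, h₂, e₂⟩ := hB a (Finset.mem_insert_self _ _) C hC
    refine ⟨max C₁ C₂, h₁.trans (le_max_left _ _), ?_⟩
    filter_upwards [e₁, e₂] with τ f₁ f₂ P P' hH hA ht hl hu b hb
    rcases Finset.mem_insert.1 hb with rfl | hb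
    · exact (f₂ P P' hH hA ht hl hu).mono h₂ (le_max_right _ _)
    · exact (f₁ P P' hH hA ht hl hu b hb).mono ((inv_pos.2 hC).trans_le h₁) (le_max_left _ _)

theorem VStB_ext {F' : IntermediateField ℂ F} {t : F} (ht : Transcendental F' t) (P : Plc F)
    (z : ℂ) : ∃ P' : Plc F, P.Agr P' F' ∧ t ∈ P'.V ∧ P'.ev t = z := by
  refine plc_ext1 P F' t z fun p hp h0 => ?_
  have h1 : p ∈ Polynomial.lifts (algebraMap F' F) :=
    (Polynomial.lifts_iff_coeff_lifts _).2 fun n => ⟨⟨_, (hp n).1⟩, rfl⟩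
  obtain ⟨q, rfl⟩ := (Polynomial.mem_lifts _).1 h1
  rw [Polynomial.eval_map_algebraMap] at h0
  rw [transcendental_iff.1 ht q h0]
  simp

/-- rational functions of one more variable -/
theorem stB (F' : IntermediateField ℂ F) [IsAlgClosed F'] (w : RVal F) {t : F}
    (ht : Transcendental F' t) (B : Finset F) (hB : ∀ b ∈ B, ∃ p q : Polynomial F', p ≠ 0 ∧ q ≠ 0 ∧
      b = Polynomial.aeval t p / Polynomial.aeval t q) :
    ∃ c ∈ F', ∃ H : Finset F, (∀ h ∈ H, h ≠ 0 ∧ h ∈ F') ∧ ∀ C : ℝ, 0 < C → ∃ C' : ℝ, 0 < C' ∧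
      ∀ᶠ τ : ℝ in atTop, ∀ P : Plc F, (∀ h ∈ H, P.Bd w C τ h) → ∃ Z : Set ℂ,
        ENNReal.ofReal (C'⁻¹ * Real.exp (-τ * w.v (t - c))) ≤ volume Z ∧
        ∀ z ∈ Z, ∃ P' : Plc F, P.Agr P' F' ∧ t ∈ P'.V ∧ P'.ev t = z ∧ ∀ b ∈ B, P'.Bd w C' τ b := by
  classical
  choose! p q hp hq hb using hB
  set D : Finset F' :=
    insert 0 (B.biUnion fun b => (p b).roots.toFinset ∪ (q b).roots.toFinset) with hD
  obtain ⟨c, -, hc⟩ := Finset.exists_max_image D (fun d => w.v (t - d))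
    ⟨0, Finset.mem_insert_self _ _⟩
  set H : Finset F := (B.image fun b => (((p b).leadingCoeff : F') : F)) ∪
    (B.image fun b => (((q b).leadingCoeff : F') : F)) ∪
    ((D.filter fun d => c ≠ d).image fun d : F' => (c : F) - d) with hH
  have hne : ∀ d : F', t - d ≠ 0 := fun d e =>
    ht (sub_eq_zero.1 e ▸ isAlgebraic_algebraMap (A := F) d)
  have hcd : ∀ d ∈ D, (c : F) = d ∨ (c : F) - d ∈ H := by
    intro d hd
    by_cases e : c = d
    · exact Or.inl (congrArg _ e)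
    · exact Or.inr (Finset.mem_union_right _
        (Finset.mem_image_of_mem _ (Finset.mem_filter.2 ⟨hd, e⟩)))
  have hlin : ∀ d ∈ D, VStB_G F' w t c H (t - d) := fun d hd =>
    VStB_lin d.2 (hne c) (hne d) (hc d hd)
      (by simpa using hcd 0 (Finset.mem_insert_self _ _)) (hcd d hd)
  have hG : ∀ b ∈ B, VStB_G F' w t c H b := by
    intro b hb'
    rw [hb b hb', div_eq_mul_inv]
    refine VStB_mul (VStB_poly _ ?_ fun d hd => hlin d ?_)
      (VStB_inv (VStB_poly _ ?_ fun d hd => hlin d ?_))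
    · exact Finset.mem_union_left _ (Finset.mem_union_left _ (Finset.mem_image_of_mem _ hb'))
    · exact Finset.mem_insert_of_mem (Finset.mem_biUnion.2
        ⟨b, hb', Finset.mem_union_left _ (Multiset.mem_toFinset.2 hd)⟩)
    · exact Finset.mem_union_left _ (Finset.mem_union_right _ (Finset.mem_image_of_mem _ hb'))
    · exact Finset.mem_insert_of_mem (Finset.mem_biUnion.2
        ⟨b, hb', Finset.mem_union_right _ (Multiset.mem_toFinset.2 hd)⟩)
  refine ⟨c, c.2, H, ?_, fun C hC => ?_⟩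
  · intro h hh
    rcases Finset.mem_union.1 hh with hh | hh
    · rcases Finset.mem_union.1 hh with hh | hh
      · obtain ⟨b, hb', rfl⟩ := Finset.mem_image.1 hh
        exact ⟨fun e => Polynomial.leadingCoeff_ne_zero.2 (hp b hb') (Subtype.ext e),
          Subtype.prop _⟩
      · obtain ⟨b, hb', rfl⟩ := Finset.mem_image.1 hh
        exact ⟨fun e => Polynomial.leadingCoeff_ne_zero.2 (hq b hb') (Subtype.ext e),
          Subtype.prop _⟩
    · obtain ⟨d, hd, rfl⟩ := Finset.mem_image.1 hh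
      exact ⟨fun e => (Finset.mem_filter.1 hd).2 (Subtype.ext (sub_eq_zero.1 e)), sub_mem c.2 d.2⟩
  obtain ⟨C', h1, h2⟩ := VStB_fin B hG hC
  have h3 : 0 < C' := (inv_pos.2 hC).trans_le h1
  refine ⟨C', h3, ?_⟩
  filter_upwards [h2] with τ hτ P hP
  set E := Real.exp (-τ * w.v (t - c)) with hE
  have hE0 : 0 < E := Real.exp_pos _
  have hρ : √(C * E) ^ 2 = C * E := Real.sq_sqrt (by positivity)
  have hρ0 : 0 ≤ √(C * E) := Real.sqrt_nonneg _
  refine ⟨Metric.closedBall (P.ev c + ((3 * √(C * E) : ℝ) : ℂ)) √(C * E), ?_, fun z hz => ?_⟩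
  · rw [Complex.volume_closedBall, ← ENNReal.ofReal_pow hρ0, hρ]
    have h4 : (1 : ℝ≥0∞) ≤ (NNReal.pi : ℝ≥0∞) := by
      rw [← ENNReal.coe_one, ENNReal.coe_le_coe, ← NNReal.coe_le_coe]
      simpa using (by linarith [Real.pi_gt_three] : (1 : ℝ) ≤ Real.pi)
    calc ENNReal.ofReal (C'⁻¹ * E) ≤ ENNReal.ofReal (C * E) :=
          ENNReal.ofReal_le_ofReal
            (mul_le_mul_of_nonneg_right ((inv_le_comm₀ h3 hC).2 h1) hE0.le)
      _ ≤ _ := le_mul_of_one_le_right' h4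
  · obtain ⟨P', a1, a2, a3⟩ := VStB_ext ht P z
    refine ⟨P', a1, a2, a3, hτ P P' hP a1 a2 ?_ ?_⟩
    all_goals
      rw [a3]
      rw [Metric.mem_closedBall, dist_eq_norm] at hz
      have a4 : ‖((3 * √(C * E) : ℝ) : ℂ)‖ = 3 * √(C * E) := by
        rw [Complex.norm_real, Real.norm_of_nonneg (by positivity)]
    · have := norm_sub_le (z - P.ev c) (z - (P.ev c + ((3 * √(C * E) : ℝ) : ℂ)))
      rw [show z - P.ev c - (z - (P.ev c + ((3 * √(C * E) : ℝ) : ℂ))) =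
        ((3 * √(C * E) : ℝ) : ℂ) by ring, a4] at this
      linarith
    · have := norm_add_le (z - (P.ev c + ((3 * √(C * E) : ℝ) : ℂ))) ((3 * √(C * E) : ℝ) : ℂ)
      rw [show z - (P.ev c + ((3 * √(C * E) : ℝ) : ℂ)) + ((3 * √(C * E) : ℝ) : ℂ) =
        z - P.ev c by ring, a4] at this
      linarith

end Vale.Agent.P282
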