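import Vale.Agent.P282.VStA
import Vale.Agent.P282.VStB

set_option linter.unusedSectionVars false

open scoped ENNReal TensorProduct Topology
open Filter MeasureTheory

noncomputable section

namespace Vale.Agent.P282

variable {F : Type} [Field F] [Algebra ℂ F]

/-- Fubini for arbitrary sets -/
theorem vol_cons {k : ℕ} {Q : Set (E (k + 1))} {Q' : Set (E k)} {a : ℝ≥0∞}
    (h : ∀ z ∈ Q', a ≤ volume {c : ℂ | (Fin.cons c z : E (k + 1)) ∈ Q}) :
    a * volume Q' ≤ volume Q := by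
  let e := MeasurableEquiv.piFinSuccAbove (fun _ : Fin (k + 1) => ℂ) 0
  have he : MeasurePreserving e.symm volume volume :=
    (volume_preserving_piFinSuccAbove (fun _ : Fin (k + 1) => ℂ) 0).symm
  have hT : MeasurableSet (toMeasurable volume Q) := measurableSet_toMeasurable _ _
  have hS : MeasurableSet (e.symm ⁻¹' toMeasurable volume Q) := e.symm.measurable hT
  rw [← measure_toMeasurable Q, ← he.measure_preimage hT.nullMeasurableSet,
    Measure.volume_eq_prod, Measure.prod_apply_symm hS]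
  refine le_trans (mul_le_mul_right (measure_mono fun z hz => ?_) a)
    (mul_meas_ge_le_lintegral (measurable_measure_prodMk_right hS) a)
  refine (h z hz).trans (measure_mono fun c hc => ?_)
  have h1 : e.symm (c, z) = (Fin.cons c z : E (k + 1)) := Fin.insertNth_zero' c z
  change e.symm (c, z) ∈ toMeasurable volume Q
  rw [h1]
  exact subset_toMeasurable _ _ hc

theorem VInd_alg {K K' : IntermediateField ℂ F} (h : K ≤ K') {a : F} (ha : IsAlgebraic K a) :
    IsAlgebraic K' a :=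
  ha.ringHom_of_comp_eq (IntermediateField.inclusion h).toRingHom (RingHom.id F)
    (IntermediateField.inclusion h).injective rfl

theorem VInd_const (w : RVal F) {h : F} (h0 : h ≠ 0)
    (ha : IsAlgebraic (⊥ : IntermediateField ℂ F) h) :
    ∃ C : ℝ, 0 < C ∧ ∀ (P : Plc F) (τ : ℝ), P.Bd w C τ h := by
  have h1 : IsAlgebraic ℂ h :=
    ha.ringHom_of_comp_eq (IntermediateField.botEquiv ℂ F).toRingHom (RingHom.id F)
      (IntermediateField.botEquiv ℂ F).injective (by
        ext x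
        obtain ⟨c, rfl⟩ := (IntermediateField.botEquiv ℂ F).symm.surjective x
        simp)
  obtain ⟨c, rfl⟩ := minpoly.mem_range_of_degree_eq_one ℂ h
    (IsAlgClosed.degree_eq_one_of_irreducible ℂ (minpoly.irreducible h1.isIntegral))
  have hc : c ≠ 0 := fun e => h0 (by rw [e, map_zero])
  have hp : 0 < ‖c‖ ^ 2 := pow_pos (norm_pos_iff.2 hc) 2
  refine ⟨‖c‖ ^ 2 + (‖c‖ ^ 2)⁻¹, by positivity, fun P τ => ⟨P.V.algebraMap_mem c, ?_⟩⟩
  rw [P.ev_const, w.const c hc, mul_zero, Real.exp_zero, mul_one, mul_one]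
  refine ⟨?_, le_add_of_nonneg_right (by positivity)⟩
  rw [inv_le_comm₀ (by positivity) hp]
  exact le_add_of_nonneg_left hp.le

theorem VInd_cons {k : ℕ} {f y : Fin k → F} {M : Matrix (Fin k) (Fin k) F} (h : DRel f y M)
    {c : F} (hc : IsAlgebraic (IntermediateField.adjoin ℂ (Set.range y)) c) (t : F) :
    ∃ N, DRel (Fin.cons (t - c) f) (Fin.cons t y) N ∧ N.det = M.det := by
  obtain ⟨α, hα⟩ := D_alg y hc
  refine ⟨Matrix.of (Fin.cons (Fin.cons 1 fun j => -α j) fun i => Fin.cons 0 fun j => M i j),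
    Fin.forall_fin_succ.2 ⟨?_, fun i => ?_⟩, ?_⟩
  · simp only [Fin.sum_univ_succ, Fin.cons_zero, Fin.cons_succ, Matrix.of_apply, map_sub, hα,
      one_smul, neg_smul, Finset.sum_neg_distrib, ← sub_eq_add_neg]
  · simp only [Fin.sum_univ_succ, Fin.cons_zero, Fin.cons_succ, Matrix.of_apply, zero_smul,
      zero_add, h i]
  · rw [Matrix.det_succ_column_zero, Fin.sum_univ_succ]
    simp only [Fin.cons_zero, Fin.cons_succ, Matrix.of_apply, mul_zero, zero_mul,
      Finset.sum_const_zero, add_zero, Fin.val_zero, pow_zero, one_mul]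
    rfl

open IntermediateField in
theorem VInd_tower [IsAlgClosed F] {k : ℕ} {t : F} {y : Fin k → F}
    (hy : AlgebraicIndependent ℂ (Fin.cons t y : Fin (k + 1) → F)) :
    AlgebraicIndependent ℂ y ∧ ∃ F₁ : IntermediateField ℂ F, IsAlgClosed F₁ ∧
      Transcendental F₁ t ∧ (∀ i, y i ∈ F₁) ∧
      ∀ a ∈ F₁, IsAlgebraic (adjoin ℂ (Set.range y)) a := by
  have h1 := hy.comp _ (finSuccEquiv k).symm.injective
  rw [show (Fin.cons t y : Fin (k + 1) → F) ∘ (finSuccEquiv k).symm =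
    fun o : Option (Fin k) => o.elim t y from funext fun o => by cases o <;> simp,
    AlgebraicIndependent.option_iff] at h1
  refine ⟨h1.1, (algebraicClosure (adjoin ℂ (Set.range y)) F).restrictScalars ℂ,
    (algebraicClosure.isAlgClosure (adjoin ℂ (Set.range y)) F).isAlgClosed,
    (transcendental_adjoin_iff.2 h1.2).algebraicClosure, fun i => ?_,
    fun a ha => mem_algebraicClosure_iff.1 ha⟩
  exact mem_algebraicClosure_iff.2 (isAlgebraic_algebraMap
    (⟨y i, subset_adjoin _ _ ⟨i, rfl⟩⟩ : adjoin ℂ (Set.range y)))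

/-- the measure of the places close to a valuation -/
theorem vind [IsAlgClosed F] (w : RVal F) {k : ℕ} (y : Fin k → F) (hy : AlgebraicIndependent ℂ y)
    (H : Finset F)
    (hH : ∀ h ∈ H, h ≠ 0 ∧ IsAlgebraic (IntermediateField.adjoin ℂ (Set.range y)) h) :
    ∃ (f : Fin k → F) (M : Matrix (Fin k) (Fin k) F) (C : ℝ), (∀ i, f i ≠ 0) ∧ DRel f y M ∧
      M.det = 1 ∧ 0 < C ∧ ∀ᶠ τ : ℝ in atTop,
        ENNReal.ofReal (C⁻¹ * Real.exp (-τ * ∑ i, w.v (f i))) ≤
          volume {z : E k | ∃ P : Plc F, (∀ i, y i ∈ P.V ∧ P.ev (y i) = z i) ∧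
            ∀ h ∈ H, P.Bd w C τ h} := by
  induction k generalizing H with
  | zero =>
    rw [Set.range_eq_empty, IntermediateField.adjoin_empty] at hH
    choose! C hC hB using fun h hh => VInd_const w (hH h hh).1 (hH h hh).2
    have h0 : 0 ≤ ∑ h ∈ H, C h := Finset.sum_nonneg fun h hh => (hC h hh).le
    obtain ⟨P, -⟩ := plc_ext (⊥ : Subalgebra ℂ F) (Algebra.botEquiv ℂ F).toAlgHom
    refine ⟨y, 1, 1 + ∑ h ∈ H, C h, fun i => i.elim0, fun i => i.elim0, Matrix.det_one,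
      by linarith, .of_forall fun τ => ?_⟩
    have h1 : {z : E 0 | ∃ P : Plc F, (∀ i, y i ∈ P.V ∧ P.ev (y i) = z i) ∧
        ∀ h ∈ H, P.Bd w (1 + ∑ h ∈ H, C h) τ h} = Set.univ := by
      refine Set.eq_univ_of_forall fun z => ⟨P, fun i => i.elim0, fun h hh => ?_⟩
      refine (hB h hh P τ).mono (hC h hh) ?_
      have := Finset.single_le_sum (fun h hh => (hC h hh).le) hh
      linarith
    rw [h1, volume_pi, Measure.pi_univ, Finset.univ_eq_empty, Finset.prod_empty,
      Finset.sum_empty, mul_zero, Real.exp_zero, mul_one, ENNReal.ofReal_le_one]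
    exact inv_le_one_of_one_le₀ (by linarith)
  | succ k ih =>
    obtain ⟨t, y, rfl⟩ : ∃ (t : F) (y' : Fin k → F), y = Fin.cons t y' :=
      ⟨y 0, Fin.tail y, (Fin.cons_self_tail y).symm⟩
    obtain ⟨hy₁, F₁, hcl, ht, hyF, hFa⟩ := VInd_tower hy
    let K₀ := (IntermediateField.adjoin F₁ {t}).restrictScalars ℂ
    have hK₁ : ∀ a ∈ F₁, a ∈ K₀ := fun a ha =>
      (IntermediateField.adjoin F₁ {t}).algebraMap_mem ⟨a, ha⟩
    have hKt : t ∈ K₀ := IntermediateField.mem_adjoin_simple_self F₁ t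
    have hK : IntermediateField.adjoin ℂ (Set.range (Fin.cons t y : Fin (k + 1) → F)) ≤ K₀ := by
      rw [IntermediateField.adjoin_le_iff]
      rintro _ ⟨i, rfl⟩
      exact Fin.cases hKt (fun i => hK₁ _ (hyF i)) i
    obtain ⟨B, hB, hA⟩ := stA K₀ w H fun h hh => ⟨(hH h hh).1, VInd_alg hK (hH h hh).2⟩
    obtain ⟨c, hc, H₁, hH₁, hS⟩ := stB F₁ w ht B fun b hb => by
      obtain ⟨p, q, h⟩ := (IntermediateField.mem_adjoin_simple_iff F₁ b).1 (hB b hb).2
      refine ⟨p, q, fun e => (hB b hb).1 ?_, fun e => (hB b hb).1 ?_, h⟩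
      · rw [h, e, map_zero, zero_div]
      · rw [h, e, map_zero, div_zero]
    obtain ⟨f, M, C₁, hf, hM, hdet, hC₁, hv⟩ :=
      ih y hy₁ H₁ fun h hh => ⟨(hH₁ h hh).1, hFa h (hH₁ h hh).2⟩
    obtain ⟨C₂, hC₂, hS'⟩ := hS C₁ hC₁
    obtain ⟨C₃, hC₃, hA'⟩ := hA C₂ hC₂
    obtain ⟨N, hN, hN'⟩ := VInd_cons hM (hFa c hc) t
    have s0 : t - c ≠ 0 := fun e =>
      ht (sub_eq_zero.1 e ▸ isAlgebraic_algebraMap (⟨c, hc⟩ : F₁))
    have hC₁₂ : 0 < C₂ * C₁ := mul_pos hC₂ hC₁
    refine ⟨Fin.cons (t - c) f, N, C₂ * C₁ + C₃, Fin.forall_fin_succ.2 ⟨s0, hf⟩, hN,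
      hN'.trans hdet, by positivity, ?_⟩
    filter_upwards [hv, hS', eventually_ge_atTop 0] with τ h1 h2 h3
    refine le_trans ?_ (le_trans (mul_le_mul_right h1
      (ENNReal.ofReal (C₂⁻¹ * Real.exp (-τ * w.v (t - c))))) (vol_cons ?_))
    · rw [← ENNReal.ofReal_mul (by positivity)]
      refine ENNReal.ofReal_le_ofReal ?_
      rw [Fin.sum_univ_succ, Fin.cons_zero, mul_add, Real.exp_add, mul_mul_mul_comm, ← mul_inv]
      simp only [Fin.cons_succ]
      exact mul_le_mul_of_nonneg_right (inv_anti₀ hC₁₂ (by linarith)) (by positivity)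
    · rintro z ⟨P, hP, hP'⟩
      obtain ⟨Z, hZ, hZ'⟩ := h2 P hP'
      refine hZ.trans (measure_mono fun u hu => ?_)
      obtain ⟨P', a1, a2, a3, a4⟩ := hZ' u hu
      obtain ⟨P'', b1, b2⟩ := hA' τ h3 P' a4
      refine ⟨P'', Fin.forall_fin_succ.2 ⟨?_, fun i => ?_⟩,
        fun h hh => (b2 h hh).mono hC₃ (by linarith)⟩
      · obtain ⟨c1, c2⟩ := b1 t hKt a2
        exact ⟨c1, c2.trans a3⟩
      · obtain ⟨c1, c2⟩ := a1 (y i) (hyF i) (hP i).1
        obtain ⟨d1, d2⟩ := b1 (y i) (hK₁ _ (hyF i)) c1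
        exact ⟨d1, d2.trans (c2.trans (hP i).2)⟩

end Vale.Agent.P282
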