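import Vale.Agent.P282.VDefs

set_option linter.unusedSectionVars false

open scoped ENNReal TensorProduct Topology
open Filter MeasureTheory

noncomputable section

namespace Vale.Agent.P282

variable {F : Type} [Field F] [Algebra ℂ F]

namespace Plc

variable (P : Plc F)

theorem VPl_ev {a : F} (ha : a ∈ P.V) : P.ev a = P.φ ⟨a, ha⟩ := dif_pos ha

theorem ev_add {a b : F} (ha : a ∈ P.V) (hb : b ∈ P.V) : P.ev (a + b) = P.ev a + P.ev b := by
  rw [P.VPl_ev ha, P.VPl_ev hb, P.VPl_ev (add_mem ha hb), ← map_add]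
  rfl

theorem ev_sub {a b : F} (ha : a ∈ P.V) (hb : b ∈ P.V) : P.ev (a - b) = P.ev a - P.ev b := by
  rw [P.VPl_ev ha, P.VPl_ev hb, P.VPl_ev (sub_mem ha hb), ← map_sub]
  rfl

theorem ev_mul {a b : F} (ha : a ∈ P.V) (hb : b ∈ P.V) : P.ev (a * b) = P.ev a * P.ev b := by
  rw [P.VPl_ev ha, P.VPl_ev hb, P.VPl_ev (mul_mem ha hb), ← map_mul]
  rfl

theorem ev_neg (a : F) : P.ev (-a) = -P.ev a := by
  by_cases ha : a ∈ P.V
  · rw [P.VPl_ev ha, P.VPl_ev (neg_mem ha), ← map_neg]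
    rfl
  · rw [ev, ev, dif_neg ha, dif_neg fun h => ha (neg_mem_iff.1 h), neg_zero]

theorem ev_pow {a : F} (ha : a ∈ P.V) (k : ℕ) : P.ev (a ^ k) = P.ev a ^ k := by
  rw [P.VPl_ev ha, P.VPl_ev (pow_mem ha k), ← map_pow]
  rfl

theorem ev_const (c : ℂ) : P.ev (algebraMap ℂ F c) = c := by
  rw [P.VPl_ev (P.V.algebraMap_mem c)]
  exact P.φ.commutes c

theorem ev_one : P.ev 1 = 1 := by simpa using P.ev_const 1

theorem ev_zero : P.ev 0 = 0 := by simpa using P.ev_const 0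

theorem ev_sum {ι : Type*} (s : Finset ι) {f : ι → F} (h : ∀ i ∈ s, f i ∈ P.V) :
    P.ev (∑ i ∈ s, f i) = ∑ i ∈ s, P.ev (f i) := by
  classical
  induction s using Finset.induction_on with
  | empty => simpa using P.ev_zero
  | insert a s ha ih =>
    have h' : ∀ i ∈ s, f i ∈ P.V := fun i hi => h i (Finset.mem_insert_of_mem hi)
    rw [Finset.sum_insert ha, Finset.sum_insert ha,
      P.ev_add (h a (Finset.mem_insert_self _ _)) (sum_mem h'), ih h']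

theorem ev_prod {ι : Type*} (s : Finset ι) {f : ι → F} (h : ∀ i ∈ s, f i ∈ P.V) :
    P.ev (∏ i ∈ s, f i) = ∏ i ∈ s, P.ev (f i) := by
  classical
  induction s using Finset.induction_on with
  | empty => simpa using P.ev_one
  | insert a s ha ih =>
    have h' : ∀ i ∈ s, f i ∈ P.V := fun i hi => h i (Finset.mem_insert_of_mem hi)
    rw [Finset.prod_insert ha, Finset.prod_insert ha,
      P.ev_mul (h a (Finset.mem_insert_self _ _)) (prod_mem h'), ih h']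

theorem inv_mem {a : F} (ha : a ∈ P.V) (h : P.ev a ≠ 0) : a⁻¹ ∈ P.V ∧ P.ev a⁻¹ = (P.ev a)⁻¹ := by
  have h0 : a ≠ 0 := fun e => h (e ▸ P.ev_zero)
  have hi : a⁻¹ ∈ P.V := by
    rcases P.val a⁻¹ with h1 | ⟨h1, h2⟩
    · exact h1
    · rw [← P.VPl_ev h1, inv_inv] at h2
      exact absurd h2 h
  refine ⟨hi, eq_inv_of_mul_eq_one_right ?_⟩
  rw [← P.ev_mul ha hi, mul_inv_cancel₀ h0, P.ev_one]

theorem le_one_or (a : F) : (a ∈ P.V ∧ ‖P.ev a‖ ≤ 1) ∨ (a⁻¹ ∈ P.V ∧ ‖P.ev a⁻¹‖ ≤ 1) := by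
  rcases P.val a with h1 | ⟨h1, h2⟩
  · by_cases h : ‖P.ev a‖ ≤ 1
    · exact Or.inl ⟨h1, h⟩
    · have h3 : 1 < ‖P.ev a‖ := not_le.1 h
      have h4 := P.inv_mem h1 (norm_pos_iff.1 (one_pos.trans h3))
      refine Or.inr ⟨h4.1, ?_⟩
      rw [h4.2, norm_inv]
      exact inv_le_one_of_one_le₀ h3.le
  · refine Or.inr ⟨h1, ?_⟩
    rw [P.VPl_ev h1, h2, norm_zero]
    exact zero_le_one

theorem mem_of_integral {a : F} (h : IsIntegral P.V a) : a ∈ P.V := by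
  rcases P.val a with h1 | ⟨h1, h2⟩
  · exact h1
  by_cases h0 : a = 0
  · exact h0 ▸ zero_mem _
  obtain ⟨p, hp, hpa⟩ := h
  let _ : Invertible a := invertibleOfNonzero h0
  have h3 := (Polynomial.eval₂_reverse_eq_zero_iff (algebraMap P.V F) a p).2 hpa
  rw [invOf_eq_inv] at h3
  have h4 : p.reverse.eval (⟨a⁻¹, h1⟩ : P.V) = 0 := by
    apply Subtype.val_injective
    rw [← Polynomial.eval₂_id]
    exact (Polynomial.hom_eval₂ p.reverse (RingHom.id _) (algebraMap P.V F) ⟨a⁻¹, h1⟩).trans h3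
  have h5 := Polynomial.hom_eval₂ p.reverse (RingHom.id _) P.φ.toRingHom ⟨a⁻¹, h1⟩
  rw [Polynomial.eval₂_id, h4, map_zero] at h5
  have h6 : P.φ.toRingHom ⟨a⁻¹, h1⟩ = 0 := h2
  rw [h6, Polynomial.eval₂_at_zero, Polynomial.coeff_zero_reverse, hp.leadingCoeff, map_one] at h5
  exact absurd h5 zero_ne_one

theorem mem_of_pow {a : F} {k : ℕ} (hk : 0 < k) (h : a ^ k ∈ P.V) : a ∈ P.V :=
  P.mem_of_integral (IsIntegral.of_pow hk (isIntegral_algebraMap (x := (⟨a ^ k, h⟩ : P.V))))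

theorem Bd.mono {P : Plc F} {w : RVal F} {C C' τ : ℝ} {a : F} (h : P.Bd w C τ a) (hC : 0 < C)
    (h' : C ≤ C') : P.Bd w C' τ a :=
  ⟨h.1, le_trans (mul_le_mul_of_nonneg_right (inv_anti₀ hC h') (Real.exp_pos _).le) h.2.1,
    h.2.2.trans (mul_le_mul_of_nonneg_right h' (Real.exp_pos _).le)⟩

theorem Bd.agr {P P' : Plc F} {w : RVal F} {C τ : ℝ} {a : F} (h : P.Bd w C τ a)
    {K₀ : IntermediateField ℂ F} (h' : P.Agr P' K₀) (ha : a ∈ K₀) : P'.Bd w C τ a := by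
  obtain ⟨h1, h2⟩ := h' a ha h.1
  exact ⟨h1, h2 ▸ h.2⟩

theorem VPl_ne {P : Plc F} {w : RVal F} {C τ : ℝ} {a : F} (h : P.Bd w C τ a) (hC : 0 < C) :
    P.ev a ≠ 0 ∧ a ≠ 0 := by
  have h1 : P.ev a ≠ 0 := fun e => by
    have h2 := h.2.1
    rw [e, norm_zero, zero_pow two_ne_zero] at h2
    exact absurd h2 (not_le.2 (mul_pos (inv_pos.2 hC) (Real.exp_pos _)))
  exact ⟨h1, fun e => h1 (e ▸ P.ev_zero)⟩

theorem Bd.mul {P : Plc F} {w : RVal F} {C C' τ : ℝ} {a b : F} (h : P.Bd w C τ a)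
    (h' : P.Bd w C' τ b) (hC : 0 < C) (hC' : 0 < C') : P.Bd w (C * C') τ (a * b) := by
  refine ⟨mul_mem h.1 h'.1, ?_⟩
  rw [P.ev_mul h.1 h'.1, w.mul a b (VPl_ne h hC).2 (VPl_ne h' hC').2, mul_add, Real.exp_add,
    norm_mul, mul_pow, mul_inv, mul_mul_mul_comm, mul_mul_mul_comm C]
  exact ⟨mul_le_mul h.2.1 h'.2.1 (by positivity) (by positivity),
    mul_le_mul h.2.2 h'.2.2 (by positivity) (by positivity)⟩

theorem Bd.inv {P : Plc F} {w : RVal F} {C τ : ℝ} {a : F} (h : P.Bd w C τ a) (hC : 0 < C) :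
    P.Bd w C τ a⁻¹ := by
  obtain ⟨h1, h0⟩ := VPl_ne h hC
  obtain ⟨h2, h3⟩ := P.inv_mem h.1 h1
  have h4 : w.v a⁻¹ = -w.v a := by
    have e1 := w.mul a a⁻¹ h0 (inv_ne_zero h0)
    have e2 := w.const 1 one_ne_zero
    rw [map_one] at e2
    rw [mul_inv_cancel₀ h0, e2] at e1
    linarith
  refine ⟨h2, ?_⟩
  rw [h3, h4, mul_neg, Real.exp_neg, norm_inv, inv_pow]
  have hp : 0 < ‖P.ev a‖ ^ 2 := pow_pos (norm_pos_iff.2 h1) 2
  constructor
  · rw [← mul_inv]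
    exact inv_anti₀ hp h.2.2
  · have := inv_anti₀ (mul_pos (inv_pos.2 hC) (Real.exp_pos _)) h.2.1
    rwa [mul_inv, inv_inv] at this

end Plc

end Vale.Agent.P282
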