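import Vale.Agent.P282.VExt
import Vale.Agent.P282.VAlg

set_option linter.unusedSectionVars false

open scoped ENNReal TensorProduct Topology
open Filter MeasureTheory

noncomputable section

namespace Vale.Agent.P282

variable {F : Type} [Field F] [Algebra ℂ F]

theorem VStA_ext (P : Plc F) (K₀ : IntermediateField ℂ F) {s : F} (hs : IsIntegral K₀ s)
    (hμ : ∀ j, (((minpoly K₀ s).coeff j : K₀) : F) ∈ P.V) : ∃ m : Polynomial ℂ, m.Monic ∧
      m.natDegree = (minpoly K₀ s).natDegree ∧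
      (∀ j, m.coeff j = P.ev (((minpoly K₀ s).coeff j : K₀) : F)) ∧
      ∀ z, m.eval z = 0 → ∃ P' : Plc F, P.Agr P' K₀ ∧ s ∈ P'.V ∧ P'.ev s = z := by
  let A : Subring K₀ := P.V.toSubring.comap (algebraMap K₀ F)
  let κ : A →+* F := (algebraMap K₀ F).comp A.subtype
  let ψ : A →+* ℂ := P.φ.toRingHom.comp (κ.codRestrict P.V fun a => a.2)
  have hψ : ∀ a : A, ψ a = P.ev (κ a) := fun a => (P.VPl_ev a.2).symm
  have hA : (↑(minpoly K₀ s).coeffs : Set K₀) ⊆ A := by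
    intro a ha
    obtain ⟨j, -, rfl⟩ := Polynomial.mem_coeffs_iff.1 ha
    exact hμ j
  have hm : ((minpoly K₀ s).toSubring A hA).Monic :=
    (Polynomial.monic_toSubring _ _ _).2 (minpoly.monic hs)
  refine ⟨((minpoly K₀ s).toSubring A hA).map ψ, hm.map ψ, ?_, fun j => ?_, fun z hz => ?_⟩
  · rw [hm.natDegree_map, Polynomial.natDegree_toSubring]
  · rw [Polynomial.coeff_map, hψ]
    congr 1
    exact congrArg (algebraMap K₀ F) (Polynomial.coeff_toSubring _ A hA)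
  · refine plc_ext1 P K₀ s z fun p hp h0 => ?_
    have hl : p ∈ Polynomial.lifts κ :=
      (Polynomial.lifts_iff_coeff_lifts p).2 fun i => ⟨⟨⟨p.coeff i, (hp i).1⟩, (hp i).2⟩, rfl⟩
    obtain ⟨r, rfl⟩ := (Polynomial.mem_lifts p).1 hl
    have h1 : minpoly K₀ s ∣ r.map A.subtype := by
      refine minpoly.dvd K₀ s ?_
      rw [Polynomial.aeval_def, Polynomial.eval₂_map, ← Polynomial.eval_map]
      exact h0
    rw [← Polynomial.map_toSubring (minpoly K₀ s) A hA] at h1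
    obtain ⟨t, ht⟩ := (Polynomial.map_dvd_map _ A.subtype_injective hm).1 h1
    have h2 : (r.map ψ).eval z = 0 := by
      rw [ht, Polynomial.map_mul, Polynomial.eval_mul, hz, zero_mul]
    rw [Polynomial.eval_eq_sum_range' (Nat.lt_succ_of_le Polynomial.natDegree_map_le)] at h2
    rw [Polynomial.sum_over_range' _ (fun i => by rw [P.ev_zero, zero_mul]) _
      (Nat.lt_succ_of_le Polynomial.natDegree_map_le), ← h2]
    refine Finset.sum_congr rfl fun i _ => ?_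
    rw [Polynomial.coeff_map, Polynomial.coeff_map, hψ]

theorem VStA_eval (P : Plc F) (p : Polynomial F) {A : ℝ}
    (hp : ∀ j, p.coeff j ∈ P.V ∧ ‖P.ev (p.coeff j)‖ ≤ A) {a : F} (ha : a ∈ P.V)
    (h1 : ‖P.ev a‖ ≤ 1) : p.eval a ∈ P.V ∧ ‖P.ev (p.eval a)‖ ≤ (p.natDegree + 1 : ℕ) * A := by
  have hm : ∀ i ∈ Finset.range (p.natDegree + 1), p.coeff i * a ^ i ∈ P.V :=
    fun i _ => mul_mem (hp i).1 (pow_mem ha i)
  rw [Polynomial.eval_eq_sum_range, P.ev_sum _ hm]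
  refine ⟨sum_mem hm, (norm_sum_le _ _).trans ?_⟩
  refine (Finset.sum_le_card_nsmul _ _ A fun i _ => ?_).trans (by simp)
  rw [P.ev_mul (hp i).1 (pow_mem ha i), P.ev_pow ha, norm_mul, norm_pow]
  exact (mul_le_of_le_one_right (norm_nonneg _) (pow_le_one₀ (norm_nonneg _) h1)).trans (hp i).2

theorem VStA_coef {P : Plc F} {w : RVal F} {C τ : ℝ} (hC : 0 < C) (hτ : 0 ≤ τ) {a : F}
    (h0 : w.Ge a 0) (h : a ≠ 0 → P.Bd w C τ a) : a ∈ P.V ∧ ‖P.ev a‖ ≤ 1 + C := by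
  by_cases ha : a = 0
  · rw [ha, P.ev_zero, norm_zero]
    exact ⟨zero_mem _, by linarith⟩
  have h1 := h ha
  have h2 : Real.exp (-τ * w.v a) ≤ 1 :=
    Real.exp_le_one_iff.2 (by nlinarith [mul_nonneg hτ (h0.resolve_left ha)])
  have h3 : ‖P.ev a‖ ^ 2 ≤ C := h1.2.2.trans (mul_le_of_le_one_right hC.le h2)
  exact ⟨h1.1, by nlinarith [sq_nonneg (‖P.ev a‖ - 1)]⟩

theorem VStA_core (K₀ : IntermediateField ℂ F) (w : RVal F) (G : Finset F)
    (hG : ∀ g ∈ G, g ≠ 0 ∧ IsAlgebraic K₀ g ∧ 0 ≤ w.v g) :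
    ∃ B : Finset F, (∀ b ∈ B, b ≠ 0 ∧ b ∈ K₀) ∧
      ∀ C : ℝ, 0 < C → ∃ C' : ℝ, 0 < C' ∧ ∀ τ : ℝ, 0 ≤ τ → ∀ P : Plc F, (∀ b ∈ B, P.Bd w C τ b) →
        ∃ P' : Plc F, P.Agr P' K₀ ∧ ∀ g ∈ G, g ∈ P'.V ∧ ‖P'.ev g‖ ≤ C' := by
  classical
  choose! p q hp hq h0 hv he using fun g (hg : g ∈ G) =>
    sa_eq K₀ w (hG g hg).1 (hG g hg).2.1 (hG g hg).2.2
  set s : F := ∏ g ∈ G, (p g).eval g with hs
  have hs0 : s ≠ 0 := Finset.prod_ne_zero_iff.2 h0
  have hsv : w.v s = 0 := by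
    rw [hs, w.v_prod _ _ h0]
    exact Finset.sum_eq_zero hv
  have hsi : IsIntegral K₀ s := by
    refine IsIntegral.prod _ fun g hg => ?_
    rw [Polynomial.eval_eq_sum_range]
    exact IsIntegral.sum _ fun i _ => (isIntegral_algebraMap
      (x := (⟨_, (hp g hg i).1⟩ : K₀))).mul ((hG g hg).2.1.isIntegral.pow i)
  obtain ⟨j, hj, hj0, hjv⟩ := sa_min K₀ w hs0 hsi.isAlgebraic hsv
  have hco : ∀ (r : Polynomial F) (i : ℕ), r.coeff i ≠ 0 → r.coeff i ∈ r.coeffs :=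
    fun r i h => Polynomial.coeff_mem_coeffs h
  refine ⟨(G.biUnion fun g => (p g).coeffs ∪ (q g).coeffs) ∪
    ((minpoly K₀ s).map (algebraMap K₀ F)).coeffs, fun b hb => ?_, fun C hC => ?_⟩
  · rcases Finset.mem_union.1 hb with hb | hb
    · obtain ⟨g, hg, hb⟩ := Finset.mem_biUnion.1 hb
      rcases Finset.mem_union.1 hb with hb | hb
      · obtain ⟨i, hi, rfl⟩ := Polynomial.mem_coeffs_iff.1 hb
        exact ⟨Polynomial.mem_support_iff.1 hi, (hp g hg i).1⟩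
      · obtain ⟨i, hi, rfl⟩ := Polynomial.mem_coeffs_iff.1 hb
        exact ⟨Polynomial.mem_support_iff.1 hi, (hq g hg i).1⟩
    · obtain ⟨i, hi, rfl⟩ := Polynomial.mem_coeffs_iff.1 hb
      refine ⟨Polynomial.mem_support_iff.1 hi, ?_⟩
      rw [Polynomial.coeff_map]
      exact ((minpoly K₀ s).coeff i).2
  obtain ⟨c', hc', hr⟩ := big_root (minpoly K₀ s).natDegree (c := min 1 C⁻¹)
    (lt_min one_pos (inv_pos.2 hC))
  obtain ⟨D, hD1, hD⟩ : ∃ D : ℝ, 1 ≤ D ∧ ∀ g ∈ G, ((p g).natDegree + 1 : ℕ) * (1 + C) ≤ D ∧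
      ((q g).natDegree + 1 : ℕ) * (1 + C) ≤ D := by
    obtain ⟨D1, h1⟩ := (G.finite_toSet.image fun g => ((p g).natDegree + 1 : ℕ) * (1 + C)).bddAbove
    obtain ⟨D2, h2⟩ := (G.finite_toSet.image fun g => ((q g).natDegree + 1 : ℕ) * (1 + C)).bddAbove
    exact ⟨max 1 (max D1 D2), le_max_left _ _, fun g hg =>
      ⟨(h1 ⟨g, hg, rfl⟩).trans ((le_max_left _ _).trans (le_max_right _ _)),
        (h2 ⟨g, hg, rfl⟩).trans ((le_max_right _ _).trans (le_max_right _ _))⟩⟩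
  have hD0 : 0 < D := one_pos.trans_le hD1
  refine ⟨D * D ^ G.card / c', by positivity, fun τ hτ P hP => ?_⟩
  have hμ : ∀ i, (minpoly K₀ s).coeff i ≠ 0 → P.Bd w C τ (((minpoly K₀ s).coeff i : K₀) : F) := by
    intro i hi
    refine hP _ (Finset.mem_union_right _ ?_)
    have := hco ((minpoly K₀ s).map (algebraMap K₀ F)) i (by
      rw [Polynomial.coeff_map]
      exact (map_ne_zero _).2 hi)
    rwa [Polynomial.coeff_map] at this
  obtain ⟨m, hm1, hm2, hm3, hm4⟩ := VStA_ext P K₀ hsi fun i => by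
    by_cases hi : (minpoly K₀ s).coeff i = 0
    · rw [hi]
      exact zero_mem _
    · exact (hμ i hi).1
  obtain ⟨z, hz, hzc⟩ := hr m hm1 hm2 j hj (by
    rw [hm3]
    have h1 := (hμ j hj0).2.1
    have h2 : 1 ≤ Real.exp (-τ * w.v ((minpoly K₀ s).coeff j : F)) :=
      Real.one_le_exp (by nlinarith)
    have h3 := (le_mul_of_one_le_right (inv_pos.2 hC).le h2).trans h1
    by_contra h4
    rw [not_le, lt_min_iff] at h4
    nlinarith [h4.1, h4.2, norm_nonneg (P.ev ((minpoly K₀ s).coeff j : F))])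
  obtain ⟨Q, hQ, hsQ, hsz⟩ := hm4 z hz
  refine ⟨Q, hQ, ?_⟩
  have key : ∀ g ∈ G, ((p g).eval g ∈ Q.V ∧ ‖Q.ev ((p g).eval g)‖ ≤ D) ∧
      (p g).eval g * g ∈ Q.V ∧ ‖Q.ev ((p g).eval g * g)‖ ≤ D := by
    intro g hg
    have cp : ∀ i, (p g).coeff i ∈ Q.V ∧ ‖Q.ev ((p g).coeff i)‖ ≤ 1 + C := fun i =>
      VStA_coef hC hτ (hp g hg i).2 fun h => (hP _ (Finset.mem_union_left _
        (Finset.mem_biUnion.2 ⟨g, hg, Finset.mem_union_left _ (hco _ i h)⟩))).agr hQ (hp g hg i).1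
    have cq : ∀ i, (q g).coeff i ∈ Q.V ∧ ‖Q.ev ((q g).coeff i)‖ ≤ 1 + C := fun i =>
      VStA_coef hC hτ (hq g hg i).2 fun h => (hP _ (Finset.mem_union_left _
        (Finset.mem_biUnion.2 ⟨g, hg, Finset.mem_union_right _ (hco _ i h)⟩))).agr hQ (hq g hg i).1
    rcases Q.le_one_or g with ⟨a1, a2⟩ | ⟨a1, a2⟩
    · obtain ⟨b1, b2⟩ := VStA_eval Q _ cp a1 a2
      have b3 := b2.trans (hD g hg).1
      refine ⟨⟨b1, b3⟩, mul_mem b1 a1, ?_⟩
      rw [Q.ev_mul b1 a1, norm_mul]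
      exact (mul_le_of_le_one_right (norm_nonneg _) a2).trans b3
    · obtain ⟨b1, b2⟩ := VStA_eval Q _ cq a1 a2
      have b3 := b2.trans (hD g hg).2
      rw [← he g hg] at b1 b3
      refine ⟨?_, b1, b3⟩
      rw [← mul_inv_cancel_right₀ (hG g hg).1 ((p g).eval g)]
      refine ⟨mul_mem b1 a1, ?_⟩
      rw [Q.ev_mul b1 a1, norm_mul]
      exact (mul_le_of_le_one_right (norm_nonneg _) a2).trans b3
  intro g hg
  have e1 : c' ≤ ‖Q.ev ((p g).eval g)‖ * D ^ G.card := by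
    rw [← hsz, hs, Q.ev_prod _ fun g hg => (key g hg).1.1, norm_prod,
      ← Finset.mul_prod_erase G _ hg] at hzc
    refine hzc.trans (mul_le_mul_of_nonneg_left ?_ (norm_nonneg _))
    refine (Finset.prod_le_prod (fun _ _ => norm_nonneg _)
      fun a ha => (key a (Finset.mem_of_mem_erase ha)).1.2).trans ?_
    rw [Finset.prod_const]
    exact pow_le_pow_right₀ hD1 Finset.card_erase_le
  have e2 : Q.ev ((p g).eval g) ≠ 0 := fun h => by
    rw [h, norm_zero, zero_mul] at e1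
    exact absurd e1 (not_le.2 hc')
  have e3 : g ∈ Q.V := by
    have := mul_mem (Q.inv_mem (key g hg).1.1 e2).1 (key g hg).2.1
    rwa [inv_mul_cancel_left₀ (h0 g hg)] at this
  refine ⟨e3, ?_⟩
  have e4 := (key g hg).2.2
  rw [Q.ev_mul (key g hg).1.1 e3, norm_mul] at e4
  rw [le_div_iff₀ hc']
  calc ‖Q.ev g‖ * c' ≤ ‖Q.ev g‖ * (‖Q.ev ((p g).eval g)‖ * D ^ G.card) :=
        mul_le_mul_of_nonneg_left e1 (norm_nonneg _)
    _ = ‖Q.ev ((p g).eval g)‖ * ‖Q.ev g‖ * D ^ G.card := by ring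
    _ ≤ D * D ^ G.card := mul_le_mul_of_nonneg_right e4 (by positivity)

/-- algebraic functions -/
theorem stA (K₀ : IntermediateField ℂ F) (w : RVal F) (H : Finset F)
    (hH : ∀ h ∈ H, h ≠ 0 ∧ IsAlgebraic K₀ h) : ∃ B : Finset F, (∀ b ∈ B, b ≠ 0 ∧ b ∈ K₀) ∧
      ∀ C : ℝ, 0 < C → ∃ C' : ℝ, 0 < C' ∧ ∀ τ : ℝ, 0 ≤ τ → ∀ P : Plc F, (∀ b ∈ B, P.Bd w C τ b) →
        ∃ P' : Plc F, P.Agr P' K₀ ∧ ∀ h ∈ H, P'.Bd w C' τ h := by
  classical
  choose! N b hN hbK hb0 hbv using fun h (hh : h ∈ H) => sa_norm K₀ w (hH h hh).1 (hH h hh).2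
  have hg : ∀ h ∈ H, h ^ N h / b h ≠ 0 ∧ IsAlgebraic K₀ (h ^ N h / b h) ∧
      w.v (h ^ N h / b h) = 0 := by
    intro h hh
    have h1 := pow_ne_zero (N h) (hH h hh).1
    refine ⟨div_ne_zero h1 (hb0 h hh), ?_, ?_⟩
    · rw [div_eq_mul_inv]
      exact (((hH h hh).2.isIntegral.pow _).mul (isIntegral_algebraMap
        (x := (⟨_, inv_mem (hbK h hh)⟩ : K₀)))).isAlgebraic
    · rw [w.v_div _ _ h1 (hb0 h hh), w.v_pow _ (hH h hh).1, hbv h hh, sub_self]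
  obtain ⟨B, hB, hcore⟩ := VStA_core K₀ w ((H.image fun h => h ^ N h / b h) ∪
      H.image fun h => (h ^ N h / b h)⁻¹) (by
    intro g hg'
    rcases Finset.mem_union.1 hg' with h1 | h1
    · obtain ⟨h, hh, rfl⟩ := Finset.mem_image.1 h1
      exact ⟨(hg h hh).1, (hg h hh).2.1, (hg h hh).2.2.ge⟩
    · obtain ⟨h, hh, rfl⟩ := Finset.mem_image.1 h1
      refine ⟨inv_ne_zero (hg h hh).1, (hg h hh).2.1.inv, ?_⟩
      rw [w.v_inv _ (hg h hh).1, (hg h hh).2.2, neg_zero])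
  refine ⟨B ∪ H.image b, fun a ha => ?_, fun C hC => ?_⟩
  · rcases Finset.mem_union.1 ha with h1 | h1
    · exact hB a h1
    · obtain ⟨h, hh, rfl⟩ := Finset.mem_image.1 h1
      exact ⟨hb0 h hh, hbK h hh⟩
  obtain ⟨C1, hC1, hc⟩ := hcore C hC
  refine ⟨max 1 (C1 ^ 2 * C), lt_max_of_lt_left one_pos, fun τ hτ P hP => ?_⟩
  obtain ⟨Q, hQ, hG⟩ := hc τ hτ P fun a ha => hP a (Finset.mem_union_left _ ha)
  refine ⟨Q, hQ, fun h hh => ?_⟩
  obtain ⟨a1, a2⟩ := hG _ (Finset.mem_union_left _ (Finset.mem_image_of_mem _ hh))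
  obtain ⟨a3, a4⟩ := hG _ (Finset.mem_union_right _ (Finset.mem_image_of_mem _ hh))
  have hb := (hP _ (Finset.mem_union_right _ (Finset.mem_image_of_mem b hh))).agr hQ (hbK h hh)
  have e1 : ‖Q.ev (h ^ N h / b h)‖ * ‖Q.ev (h ^ N h / b h)⁻¹‖ = 1 := by
    rw [← norm_mul, ← Q.ev_mul a1 a3, mul_inv_cancel₀ (hg h hh).1, Q.ev_one, norm_one]
  have a5 : C1⁻¹ ≤ ‖Q.ev (h ^ N h / b h)‖ := by
    rw [inv_le_iff_one_le_mul₀ hC1, ← e1]
    exact mul_le_mul_of_nonneg_left a4 (norm_nonneg _)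
  have hgb : Q.Bd w (C1 ^ 2) τ (h ^ N h / b h) := by
    refine ⟨a1, ?_⟩
    rw [(hg h hh).2.2, mul_zero, Real.exp_zero, mul_one, mul_one, ← inv_pow]
    exact ⟨pow_le_pow_left₀ (inv_pos.2 hC1).le a5 2, pow_le_pow_left₀ (norm_nonneg _) a2 2⟩
  have h2 := hgb.mul hb (by positivity) hC
  rw [div_mul_cancel₀ _ (hb0 h hh)] at h2
  set D := max 1 (C1 ^ 2 * C) with hD
  have hD1 : 1 ≤ D := le_max_left _ _
  have h3 := h2.mono (by positivity) ((le_max_right 1 _).trans (le_self_pow₀ hD1 (hN h hh).ne'))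
  have h4 : h ∈ Q.V := Q.mem_of_pow (hN h hh) h3.1
  obtain ⟨-, h5, h6⟩ := h3
  have e2 : Real.exp (-τ * w.v (h ^ N h)) = Real.exp (-τ * w.v h) ^ N h := by
    rw [w.v_pow _ (hH h hh).1, ← Real.exp_nat_mul]
    congr 1
    ring
  rw [e2, Q.ev_pow h4, norm_pow, ← pow_mul, mul_comm (N h) 2, pow_mul] at h5 h6
  rw [← inv_pow, ← mul_pow] at h5
  rw [← mul_pow] at h6
  exact ⟨h4, le_of_pow_le_pow_left₀ (hN h hh).ne' (by positivity) h5,
    le_of_pow_le_pow_left₀ (hN h hh).ne' (by positivity) h6⟩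

end Vale.Agent.P282
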