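import Vale.Agent.P282.WLam

set_option linter.unusedSectionVars false

open scoped ENNReal TensorProduct Topology
open Filter MeasureTheory

noncomputable section

namespace Vale.Agent.P282

variable {F : Type} [Field F] [Algebra ℂ F]

theorem WStB_C {L : Type} [Field L] [Algebra ℂ L] [Algebra F L] {s : L} {w₁ : RVal F}
    {w' : RVal L} {γ : ℝ} (h : ∀ p : Polynomial F, p ≠ 0 →
      (∃ j ∈ p.support, w'.v (Polynomial.aeval s p) = w₁.v (p.coeff j) + j * γ) ∧
      ∀ j ∈ p.support, w'.v (Polynomial.aeval s p) ≤ w₁.v (p.coeff j) + j * γ)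
    {x : F} (hx : x ≠ 0) : w'.v (algebraMap F L x) = w₁.v x := by
  obtain ⟨⟨j, hj, e⟩, -⟩ := h (Polynomial.C x) (Polynomial.C_ne_zero.2 hx)
  rw [Polynomial.support_C hx, Finset.mem_singleton] at hj
  simpa [hj] using e

theorem WStB_X {L : Type} [Field L] [Algebra ℂ L] [Algebra F L] {s : L} {w₁ : RVal F}
    {w' : RVal L} {γ : ℝ} (h : ∀ p : Polynomial F, p ≠ 0 →
      (∃ j ∈ p.support, w'.v (Polynomial.aeval s p) = w₁.v (p.coeff j) + j * γ) ∧
      ∀ j ∈ p.support, w'.v (Polynomial.aeval s p) ≤ w₁.v (p.coeff j) + j * γ) : w'.v s = γ := by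
  obtain ⟨⟨j, hj, e⟩, -⟩ := h Polynomial.X Polynomial.X_ne_zero
  rw [Polynomial.support_X, Finset.mem_singleton] at hj
  simpa [hj, w₁.v_one] using e

theorem WStB_lin {L : Type} [Field L] [Algebra ℂ L] [Algebra F L] {s : L} {w₁ : RVal F}
    {w' : RVal L} {γ : ℝ} (h : ∀ p : Polynomial F, p ≠ 0 →
      (∃ j ∈ p.support, w'.v (Polynomial.aeval s p) = w₁.v (p.coeff j) + j * γ) ∧
      ∀ j ∈ p.support, w'.v (Polynomial.aeval s p) ≤ w₁.v (p.coeff j) + j * γ)
    {x : F} (hx : x ≠ 0) : w'.v (s + algebraMap F L x) = min γ (w₁.v x) := by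
  obtain ⟨⟨j, hj, e⟩, h2⟩ := h (Polynomial.X + Polynomial.C x) (Polynomial.X_add_C_ne_zero x)
  have h0 := h2 0 (by simp [hx])
  have h1 := h2 1 (by simp [Polynomial.coeff_C])
  have hj1 := Polynomial.le_natDegree_of_mem_supp j hj
  rw [Polynomial.natDegree_X_add_C] at hj1
  simp only [map_add, Polynomial.aeval_X, Polynomial.aeval_C] at e h0 h1
  have c0 : (Polynomial.X + Polynomial.C x).coeff 0 = x := by simp
  have c1 : (Polynomial.X + Polynomial.C x).coeff 1 = 1 := by simp [Polynomial.coeff_C]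
  rw [c0, Nat.cast_zero, zero_mul, add_zero] at h0
  rw [c1, w₁.v_one, Nat.cast_one, one_mul, zero_add] at h1
  refine le_antisymm (le_min h1 h0) ?_
  interval_cases j
  · rw [c0, Nat.cast_zero, zero_mul, add_zero] at e
    exact e ▸ min_le_right _ _
  · rw [c1, w₁.v_one, Nat.cast_one, one_mul, zero_add] at e
    exact e ▸ min_le_left _ _

theorem WStB_mono {l : ℝ →+ ℝ} {S : Finset ℝ} (hl : SgP l S) {x y : ℝ} (h : y - x ∈ S)
    (hxy : x ≤ y) : l x ≤ l y := by
  rcases hxy.eq_or_lt with rfl | h1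
  · exact le_rfl
  · have := hl _ h (sub_pos.2 h1)
    rw [map_sub] at this
    linarith

theorem WStB_aeval {L : Type} [Field L] [Algebra ℂ L] [Algebra F L] [IsScalarTower ℂ F L]
    (s : L) {k : ℕ} (u : Fin k → F) (e : F) (P : MvPolynomial (Fin (k + 1)) ℂ) :
    MvPolynomial.aeval (Fin.cons (s / algebraMap F L e) fun i => algebraMap F L (u i) :
      Fin (k + 1) → L) P = Polynomial.aeval s (((MvPolynomial.finSuccEquiv ℂ k P).map
        (MvPolynomial.aeval u : MvPolynomial (Fin k) ℂ →ₐ[ℂ] F).toRingHom).comp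
        (Polynomial.C e⁻¹ * Polynomial.X)) := by
  induction P using MvPolynomial.induction_on with
  | C c =>
    simp [MvPolynomial.finSuccEquiv_apply, ← IsScalarTower.algebraMap_apply]
  | add p q hp hq => simp only [map_add, hp, hq, Polynomial.map_add, Polynomial.add_comp]
  | mul_X p i hp =>
    simp only [map_mul, hp, Polynomial.map_mul, Polynomial.mul_comp]
    congr 1
    refine Fin.cases ?_ (fun j => ?_) i
    · simp [MvPolynomial.finSuccEquiv_X_zero, div_eq_inv_mul]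
    · simp [MvPolynomial.finSuccEquiv_X_succ]

/-- one more variable -/
theorem wstB [IsAlgClosed F] {L : Type} [Field L] [Algebra ℂ L] [Algebra F L] [IsScalarTower ℂ F L]
    {t : L} (ht : Transcendental F t) (hL : ∀ a : L, ∃ p q : Polynomial F, q ≠ 0 ∧
      a = Polynomial.aeval t p / Polynomial.aeval t q) (w : RVal L) (B : Finset L)
    (hB : ∀ b ∈ B, b ≠ 0) : ∃ (c : F) (H : Finset F) (S : Finset ℝ), (∀ h ∈ H, h ≠ 0) ∧
      ∀ l : ℝ →+ ℝ, SgP l S → ∀ w₁ : RVal F, (∀ h ∈ H, w₁.v h = l (w.v (algebraMap F L h))) →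
        ∃ w₀ : RVal L, (∀ b ∈ B, w₀.v b = l (w.v b)) ∧ ∀ p : Polynomial F, p ≠ 0 →
          (∃ j ∈ p.support, w₀.v (Polynomial.aeval (t - algebraMap F L c) p) =
            w₁.v (p.coeff j) + j * l (w.v (t - algebraMap F L c))) ∧
          ∀ j ∈ p.support, w₀.v (Polynomial.aeval (t - algebraMap F L c) p) ≤
            w₁.v (p.coeff j) + j * l (w.v (t - algebraMap F L c)) := by
  classical
  choose P Q hQ hPQ using hL
  have hne : ∀ p : Polynomial F, p ≠ 0 → Polynomial.aeval t p ≠ 0 := fun p hp e =>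
    hp (transcendental_iff.1 ht p e)
  have hd0 : ∀ d : F, t - algebraMap F L d ≠ 0 := fun d => by
    simpa using hne _ (Polynomial.X_sub_C_ne_zero d)
  let T : Finset (Polynomial F) := B.image P ∪ B.image Q
  have hT : ∀ p ∈ T, p ≠ 0 := by
    intro p hp
    rcases Finset.mem_union.1 hp with hp | hp <;> obtain ⟨b, hb, rfl⟩ := Finset.mem_image.1 hp
    · intro e
      exact hB b hb (by rw [hPQ b, e, map_zero, zero_div])
    · exact hQ b
  let D : Finset F := insert 0 (T.biUnion fun p => p.roots.toFinset)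
  obtain ⟨c, -, hc⟩ := D.exists_max_image (fun d => w.v (t - algebraMap F L d))
    (Finset.insert_nonempty _ _)
  refine ⟨c, T.image Polynomial.leadingCoeff ∪ (D.erase c).image (c - ·),
    D.image (fun d => w.v (t - algebraMap F L c) - w.v (algebraMap F L (c - d))) ∪
    D.image (fun d => w.v (algebraMap F L (c - d)) - w.v (t - algebraMap F L c)), ?_, ?_⟩
  · intro h hh
    rcases Finset.mem_union.1 hh with hh | hh <;> obtain ⟨p, hp, rfl⟩ := Finset.mem_image.1 hh
    · exact Polynomial.leadingCoeff_ne_zero.2 (hT p hp)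
    · exact sub_ne_zero.2 (Finset.ne_of_mem_erase hp).symm
  intro l hl w₁ hw₁
  have hcomp : ∀ p : Polynomial F, Polynomial.aeval (t - algebraMap F L c)
      (p.comp (Polynomial.X + Polynomial.C c)) = Polynomial.aeval t p := fun p => by
    simp [Polynomial.aeval_comp]
  have hs : Transcendental F (t - algebraMap F L c) := by
    have := ht.aeval (Polynomial.X - Polynomial.C c) (by simp) (by simp)
    rwa [map_sub, Polynomial.aeval_X, Polynomial.aeval_C] at this
  obtain ⟨w₀, hw₀⟩ := gauss hs (fun a => ⟨(P a).comp (Polynomial.X + Polynomial.C c),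
    (Q a).comp (Polynomial.X + Polynomial.C c), fun e => hne _ (hQ a) (by
      rw [← hcomp, e, map_zero]), by rw [hcomp, hcomp]; exact hPQ a⟩) w₁
    (l (w.v (t - algebraMap F L c)))
  refine ⟨w₀, ?_, hw₀⟩
  have hlin : ∀ d ∈ D, w₀.v (t - algebraMap F L d) = l (w.v (t - algebraMap F L d)) := by
    intro d hd
    by_cases hdc : d = c
    · rw [hdc]
      exact WStB_X hw₀
    have h1 := WStB_lin hw₀ (sub_ne_zero.2 (Ne.symm hdc))
    rw [hw₁ _ (Finset.mem_union_right _ (Finset.mem_image_of_mem _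
      (Finset.mem_erase.2 ⟨hdc, hd⟩))), show t - algebraMap F L c + algebraMap F L (c - d) =
        t - algebraMap F L d by rw [map_sub]; ring] at h1
    rw [h1]
    rcases v_lin w (hd0 c) (hd0 d) (hc d hd) with ⟨h2, h3⟩ | ⟨-, h2, h3⟩
    · rw [h3]
      refine min_eq_left (WStB_mono hl (Finset.mem_union_right _
        (Finset.mem_image_of_mem _ hd)) ?_)
      rw [map_sub]
      exact h2.resolve_left fun e => hdc ((algebraMap F L).injective e).symm
    · rw [h3, ← map_sub]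
      refine min_eq_right (WStB_mono hl (Finset.mem_union_left _
        (Finset.mem_image_of_mem _ hd)) ?_)
      rw [map_sub]
      exact h2.le
  have hmul : ∀ x y : L, (x ≠ 0 ∧ w₀.v x = l (w.v x)) → (y ≠ 0 ∧ w₀.v y = l (w.v y)) →
      x * y ≠ 0 ∧ w₀.v (x * y) = l (w.v (x * y)) := fun x y hx hy =>
    ⟨mul_ne_zero hx.1 hy.1, by
      rw [w₀.mul _ _ hx.1 hy.1, w.mul _ _ hx.1 hy.1, map_add, hx.2, hy.2]⟩
  have hpol : ∀ p ∈ T, w₀.v (Polynomial.aeval t p) = l (w.v (Polynomial.aeval t p)) := by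
    intro p hp
    have h0 := Polynomial.leadingCoeff_ne_zero.2 (hT p hp)
    rw [(IsAlgClosed.splits p).eq_prod_roots, map_mul, Polynomial.aeval_C, map_multiset_prod,
      Multiset.map_map]
    refine (hmul _ _ ⟨(map_ne_zero _).2 h0, ?_⟩ (Multiset.prod_induction
      (fun x => x ≠ 0 ∧ w₀.v x = l (w.v x)) _ hmul ⟨one_ne_zero, ?_⟩ ?_)).2
    · rw [WStB_C hw₀ h0]
      exact hw₁ _ (Finset.mem_union_left _ (Finset.mem_image_of_mem _ hp))
    · rw [w₀.v_one, w.v_one, map_zero]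
    · intro x hx
      obtain ⟨d, hd, rfl⟩ := Multiset.mem_map.1 hx
      simp only [Function.comp_apply, map_sub, Polynomial.aeval_X, Polynomial.aeval_C]
      exact ⟨hd0 d, hlin d (Finset.mem_insert_of_mem (Finset.mem_biUnion.2
        ⟨p, hp, Multiset.mem_toFinset.2 hd⟩))⟩
  intro b hb
  have h1 : P b ∈ T := Finset.mem_union_left _ (Finset.mem_image_of_mem _ hb)
  have h2 : Q b ∈ T := Finset.mem_union_right _ (Finset.mem_image_of_mem _ hb)
  rw [hPQ b, w₀.v_div _ _ (hne _ (hT _ h1)) (hne _ (hT _ h2)),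
    w.v_div _ _ (hne _ (hT _ h1)) (hne _ (hT _ h2)), map_sub, hpol _ h1, hpol _ h2]

/-- monomial valuations in a tower -/
theorem isMon_cons {L : Type} [Field L] [Algebra ℂ L] [Algebra F L] [IsScalarTower ℂ F L]
    {s : L} (hs : Transcendental F s) {w₁ : RVal F} {w' : RVal L} {γ : ℝ}
    (h : ∀ p : Polynomial F, p ≠ 0 →
      (∃ j ∈ p.support, w'.v (Polynomial.aeval s p) = w₁.v (p.coeff j) + j * γ) ∧
      ∀ j ∈ p.support, w'.v (Polynomial.aeval s p) ≤ w₁.v (p.coeff j) + j * γ)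
    {k : ℕ} {u : Fin k → F} {δ : Fin k → ℝ} (hu : IsMon w₁ u δ) {e : F} (he : e ≠ 0) :
    IsMon w' (Fin.cons (s / algebraMap F L e) fun i => algebraMap F L (u i))
      (Fin.cons (γ - w₁.v e) δ) := by
  intro P hP
  rw [WStB_aeval]
  set Q := MvPolynomial.finSuccEquiv ℂ k P with hQ
  set p := (Q.map (MvPolynomial.aeval u : MvPolynomial (Fin k) ℂ →ₐ[ℂ] F).toRingHom).comp
    (Polynomial.C e⁻¹ * Polynomial.X) with hp
  have hc : ∀ j, p.coeff j = MvPolynomial.aeval u (Q.coeff j) * e⁻¹ ^ j := fun j => by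
    rw [hp, Polynomial.comp_C_mul_X_coeff, Polynomial.coeff_map]
    rfl
  have he' : ∀ j : ℕ, e⁻¹ ^ j ≠ 0 := fun j => pow_ne_zero _ (inv_ne_zero he)
  have hs1 : ∀ j, j ∈ p.support ↔ Q.coeff j ≠ 0 := fun j => by
    rw [Polynomial.mem_support_iff, hc]
    exact ⟨fun h1 h2 => h1 (by rw [h2, map_zero, zero_mul]),
      fun h1 => mul_ne_zero (hu _ h1).1 (he' j)⟩
  have hv : ∀ j, Q.coeff j ≠ 0 →
      w₁.v (p.coeff j) = w₁.v (MvPolynomial.aeval u (Q.coeff j)) - j * w₁.v e := fun j hj => by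
    rw [hc, w₁.mul _ _ (hu _ hj).1 (he' j), w₁.v_pow _ (inv_ne_zero he), w₁.v_inv _ he]
    ring
  have hQ0 : Q ≠ 0 := (map_ne_zero_iff _ (MvPolynomial.finSuccEquiv ℂ k).injective).2 hP
  have hp0 : p ≠ 0 := by
    rw [← Polynomial.support_nonempty]
    exact ⟨_, (hs1 _).2 (Polynomial.leadingCoeff_ne_zero.2 hQ0)⟩
  obtain ⟨⟨j, hj, e1⟩, h2⟩ := h p hp0
  refine ⟨fun e0 => hp0 (transcendental_iff.1 hs p e0), ?_, fun α hα => ?_⟩
  · obtain ⟨-, ⟨β, hβ, e2⟩, -⟩ := hu _ ((hs1 j).1 hj)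
    refine ⟨β.cons j, MvPolynomial.mem_support_coeff_finSuccEquiv.1 hβ, ?_⟩
    rw [e1, hv j ((hs1 j).1 hj), e2, Fin.sum_univ_succ]
    simp only [Fin.cons_zero, Fin.cons_succ, Finsupp.cons_zero, Finsupp.cons_succ]
    ring
  · have hβ : α.tail ∈ (Q.coeff (α 0)).support :=
      MvPolynomial.mem_support_coeff_finSuccEquiv.2 (by rwa [Finsupp.cons_tail])
    have hj' : Q.coeff (α 0) ≠ 0 := fun e0 => by simp [e0] at hβ
    have h3 := (hu _ hj').2.2 _ hβ
    have h4 := h2 _ ((hs1 _).2 hj')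
    rw [hv _ hj'] at h4
    rw [Fin.sum_univ_succ]
    simp only [Fin.cons_zero, Fin.cons_succ, Finsupp.tail_apply] at h3 ⊢
    linarith

end Vale.Agent.P282
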