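import Vale.Agent.P282.WStA
import Vale.Agent.P282.WStB

set_option linter.unusedSectionVars false

open scoped ENNReal TensorProduct Topology
open Filter MeasureTheory

noncomputable section

namespace Vale.Agent.P282

open IntermediateField in
theorem WInd_alg {K E K₀ F : Type} [Field K] [Field E] [Field K₀] [Field F] [Algebra K E]
    [Algebra K₀ F] (g : E →+* F) (h : ∀ c : K, IsAlgebraic K₀ (g (algebraMap K E c))) {a : E}
    (ha : IsAlgebraic K a) : IsAlgebraic K₀ (g a) := by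
  let f : K →+* algebraicClosure K₀ F := (g.comp (algebraMap K E)).codRestrict _
    fun c => mem_algebraicClosure_iff.2 (h c)
  exact (ha.ringHom_of_comp_eq f g f.injective rfl).restrictScalars K₀

open IntermediateField in
theorem WInd_adj {k K₀ E F : Type} [Field k] [Field E] [Field K₀] [Field F] [Algebra k E]
    [Algebra K₀ F] (g : E →+* F) (S : Set E) [Algebra.IsAlgebraic (adjoin k S) E]
    (h : ∀ c : k, IsAlgebraic K₀ (g (algebraMap k E c))) (hS : ∀ s ∈ S, IsAlgebraic K₀ (g s))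
    (a : E) : IsAlgebraic K₀ (g a) :=
  WInd_alg g (fun c => mem_algebraicClosure_iff.1 ((adjoin_le_iff (T := Subfield.toIntermediateField
    ((algebraicClosure K₀ F).toSubfield.comap g) fun c => mem_algebraicClosure_iff.2 (h c))).2
      (fun s hs => mem_algebraicClosure_iff.2 (hS s hs)) c.2))
    (Algebra.IsAlgebraic.isAlgebraic (R := adjoin k S) a)

section Step

variable {F₁ F : Type} [Field F₁] [Field F] [Algebra ℂ F₁] [Algebra ℂ F] [Algebra F₁ F]
  [IsScalarTower ℂ F₁ F]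

theorem WInd_tr {t : F} (ht : Transcendental F₁ t) (c : F₁) :
    Transcendental F₁ (t - algebraMap F₁ F c) := fun h =>
  ht (by simpa using h.add (isAlgebraic_algebraMap c))

theorem WInd_step [IsAlgClosed F₁] [IsAlgClosed F] (w : RVal F) {t : F} (ht : Transcendental F₁ t)
    [ha : Algebra.IsAlgebraic (IntermediateField.adjoin F₁ {t}) F] (H : Finset F)
    (hH : ∀ h ∈ H, h ≠ 0) : ∃ (c : F₁) (H₁ : Finset F₁) (S : Finset ℝ), (∀ h ∈ H₁, h ≠ 0) ∧
      ∀ l : ℝ →+ ℝ, SgP l S → ∀ w₁ : RVal F₁, (∀ h ∈ H₁, w₁.v h = l (w.v (algebraMap F₁ F h))) →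
        ∃ w' : RVal F, (∀ h ∈ H, w'.v h = l (w.v h)) ∧ ∀ p : Polynomial F₁, p ≠ 0 →
          (∃ j ∈ p.support, w'.v (Polynomial.aeval (t - algebraMap F₁ F c) p) =
            w₁.v (p.coeff j) + j * l (w.v (t - algebraMap F₁ F c))) ∧
          ∀ j ∈ p.support, w'.v (Polynomial.aeval (t - algebraMap F₁ F c) p) ≤
            w₁.v (p.coeff j) + j * l (w.v (t - algebraMap F₁ F c)) := by
  classical
  let K₀ := (IntermediateField.adjoin F₁ {t}).restrictScalars ℂ
  have : Algebra.IsAlgebraic K₀ F := ha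
  let _ : Algebra F₁ K₀ := ((algebraMap F₁ F).codRestrict K₀
    (IntermediateField.adjoin F₁ {t}).algebraMap_mem).toAlgebra
  have : IsScalarTower F₁ K₀ F := .of_algebraMap_eq fun _ => rfl
  have : IsScalarTower ℂ F₁ K₀ := .of_algebraMap_eq fun x =>
    Subtype.ext (IsScalarTower.algebraMap_apply ℂ F₁ F x)
  let t' : K₀ := ⟨t, IntermediateField.mem_adjoin_simple_self F₁ t⟩
  have ht' : Transcendental F₁ t' := (transcendental_algebraMap_iff Subtype.val_injective).1 ht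
  have ev : ∀ (x : K₀) (p : Polynomial F₁), ((Polynomial.aeval x p : K₀) : F) =
      Polynomial.aeval (x : F) p := fun x p => (Polynomial.aeval_algebraMap_apply F x p).symm
  obtain ⟨B, S, hB, h1⟩ := wstA K₀ w H hH
  obtain ⟨c, H₁, S', h2, h3⟩ := wstB ht' (fun a => by
    obtain ⟨p, q, h⟩ := (IntermediateField.mem_adjoin_simple_iff F₁ (a : F)).1 a.2
    by_cases hq : q = 0
    · exact ⟨0, 1, one_ne_zero, Subtype.ext (by simp [h, hq])⟩
    · exact ⟨p, q, hq, Subtype.ext (by rw [h, IntermediateField.coe_div, ev, ev])⟩)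
    (w.comap K₀.val) B hB
  refine ⟨c, H₁, S ∪ S', h2, fun l hl w₁ h4 => ?_⟩
  obtain ⟨w₀, h5, h6⟩ := h3 l (fun x hx => hl x (Finset.mem_union_right _ hx)) w₁ h4
  obtain ⟨w', h7, h8⟩ := h1 l (fun x hx => hl x (Finset.mem_union_left _ hx)) w₀ h5
  refine ⟨w', h8, fun p hp => ?_⟩
  have h9 := h7 _ fun h => hp (transcendental_iff.1 (WInd_tr ht' c) p h)
  rw [ev] at h9
  have := h6 p hp
  rw [← h9] at this
  exact this

theorem WInd_map {k : ℕ} {x : F₁} {a y : Fin k → F₁}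
    (h : KaehlerDifferential.D ℂ F₁ x = ∑ j, a j • KaehlerDifferential.D ℂ F₁ (y j)) :
    KaehlerDifferential.D ℂ F (algebraMap F₁ F x) =
      ∑ j, algebraMap F₁ F (a j) • KaehlerDifferential.D ℂ F (algebraMap F₁ F (y j)) := by
  simpa only [map_sum, map_smul, KaehlerDifferential.map_D, algebraMap_smul] using
    congrArg (KaehlerDifferential.map ℂ ℂ F₁ F) h

theorem WInd_cons {k : ℕ} {f y : Fin k → F₁} {M : Matrix (Fin k) (Fin k) F₁} (h : DRel f y M)
    [Algebra.IsAlgebraic (IntermediateField.adjoin ℂ (Set.range y)) F₁] (a b : F₁) {t s : F}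
    (hs : s = algebraMap F₁ F a * t + algebraMap F₁ F b) :
    ∃ N, DRel (Fin.cons s fun i => algebraMap F₁ F (f i)) (Fin.cons t fun i => algebraMap F₁ F (y i))
      N ∧ N.det = algebraMap F₁ F (a * M.det) := by
  obtain ⟨α, hα⟩ := D_alg y (Algebra.IsAlgebraic.isAlgebraic a)
  obtain ⟨β, hβ⟩ := D_alg y (Algebra.IsAlgebraic.isAlgebraic b)
  refine ⟨Matrix.of (Fin.cons (Fin.cons (algebraMap F₁ F a) fun j =>
    t * algebraMap F₁ F (α j) + algebraMap F₁ F (β j)) fun i => Fin.cons 0 fun j =>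
      algebraMap F₁ F (M i j)), Fin.forall_fin_succ.2 ⟨?_, fun i => ?_⟩, ?_⟩
  · simp only [Fin.sum_univ_succ, Fin.cons_zero, Fin.cons_succ, Matrix.of_apply, hs, map_add,
      Derivation.leibniz, WInd_map hα, WInd_map hβ, add_smul, Finset.sum_add_distrib, mul_smul,
      Finset.smul_sum, add_assoc]
  · simp only [Fin.sum_univ_succ, Fin.cons_zero, Fin.cons_succ, Matrix.of_apply, zero_smul,
      zero_add, WInd_map (h i)]
  · rw [Matrix.det_succ_column_zero, Fin.sum_univ_succ, map_mul, RingHom.map_det]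
    simp only [Fin.cons_zero, Fin.cons_succ, Matrix.of_apply, mul_zero, zero_mul,
      Finset.sum_const_zero, add_zero, Fin.val_zero, pow_zero, one_mul]
    rfl

theorem WInd_root [IsAlgClosed F₁] {k : ℕ} {w : RVal F₁} {u : Fin k → F₁} {δ : Fin k → ℝ}
    (h : IsMon w u δ) (hδ : ∀ i, ∃ q : ℚ, δ i = q) (q : ℚ) :
    ∃ e, e ≠ 0 ∧ (∃ r : ℚ, q - w.v e = r) ∧ ∀ i, δ i ≠ 0 → q - w.v e = 0 := by
  by_cases h0 : ∀ i, δ i = 0
  · exact ⟨1, one_ne_zero, ⟨q, by rw [w.v_one, sub_zero]⟩, fun i hi => absurd (h0 i) hi⟩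
  obtain ⟨i, hi⟩ := not_forall.1 h0
  obtain ⟨h1, ⟨α, h2, h3⟩, -⟩ := h (MvPolynomial.X i) (MvPolynomial.X_ne_zero i)
  rw [MvPolynomial.support_X, Finset.mem_singleton] at h2
  rw [MvPolynomial.aeval_X] at h1 h3
  obtain ⟨r, hr⟩ := hδ i
  have h4 : w.v (u i) = r := by simpa [h2, Finsupp.single_apply, hr] using h3
  obtain ⟨e, he⟩ := IsAlgClosed.exists_pow_nat_eq (u i ^ (q / r).num) (q / r).den_pos
  have e0 : e ≠ 0 := fun h => zpow_ne_zero _ h1 (by rw [← he, h, zero_pow (q / r).den_nz])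
  have h5 := congrArg w.v he
  rw [w.v_pow e e0, w.v_zpow _ h1, h4] at h5
  have h6 : (q : ℝ) - w.v e = 0 := by
    have h7 : ((q / r : ℚ) : ℝ) = (q / r).num / (q / r).den := Rat.cast_def _
    have h8 : ((q / r).den : ℝ) ≠ 0 := Nat.cast_ne_zero.2 (q / r).den_nz
    rw [Rat.cast_div, div_eq_div_iff (hr ▸ hi) h8] at h7
    exact mul_left_cancel₀ h8 (by linear_combination h7 - h5)
  exact ⟨e, e0, ⟨0, by rw [h6, Rat.cast_zero]⟩, fun _ _ => h6⟩

end Step

variable {F : Type} [Field F] [Algebra ℂ F]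

open IntermediateField in
theorem WInd_tower [IsAlgClosed F] {k : ℕ} (y : Fin (k + 1) → F) (hy : AlgebraicIndependent ℂ y)
    [Algebra.IsAlgebraic (adjoin ℂ (Set.range y)) F] :
    ∃ (F₁ : Type) (_ : Field F₁) (_ : Algebra ℂ F₁) (_ : Algebra F₁ F) (_ : IsScalarTower ℂ F₁ F)
      (_ : IsAlgClosed F₁) (y₁ : Fin k → F₁), y = (Fin.cons (y 0) fun i => algebraMap F₁ F (y₁ i)) ∧
      AlgebraicIndependent ℂ y₁ ∧ Algebra.IsAlgebraic (adjoin ℂ (Set.range y₁)) F₁ ∧
      Transcendental F₁ (y 0) ∧ Algebra.IsAlgebraic (adjoin F₁ {y 0}) F := by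
  let K := adjoin ℂ (Set.range fun i : Fin k => y i.succ)
  let F₁ := algebraicClosure K F
  let y₁ : Fin k → F₁ := fun i => algebraMap K F₁ ⟨y i.succ, subset_adjoin _ _ ⟨i, rfl⟩⟩
  have h1 := hy.comp _ (finSuccEquiv k).symm.injective
  rw [show y ∘ (finSuccEquiv k).symm = fun o : Option (Fin k) => o.elim (y 0) fun i => y i.succ from
    funext fun o => by cases o <;> simp, AlgebraicIndependent.option_iff] at h1
  have : IsScalarTower ℂ F₁ F := .of_algebraMap_eq fun _ => rfl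
  refine ⟨F₁, inferInstance, inferInstance, inferInstance, inferInstance,
    (algebraicClosure.isAlgClosure K F).isAlgClosed, y₁, (Fin.cons_self_tail y).symm,
    .of_comp (IsScalarTower.toAlgHom ℂ F₁ F) h1.1, ⟨fun a => WInd_alg (K := K) (RingHom.id F₁)
      (fun c => ?_) (Algebra.IsAlgebraic.isAlgebraic a)⟩,
    (transcendental_adjoin_iff.2 h1.2).algebraicClosure, ⟨fun a => WInd_adj (k := ℂ)
      (RingHom.id F) (Set.range y) (fun c => ?_) ?_ a⟩⟩
  · have h2 : (c : F) ∈ (adjoin ℂ (Set.range y₁)).map (IsScalarTower.toAlgHom ℂ F₁ F) := by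
      rw [adjoin_map, ← Set.range_comp]; exact c.2
    obtain ⟨d, h3, h4⟩ := h2
    rw [show RingHom.id F₁ (algebraMap K F₁ c) = d from Subtype.ext h4.symm]
    exact isAlgebraic_algebraMap (⟨d, h3⟩ : adjoin ℂ (Set.range y₁))
  · exact isAlgebraic_algebraMap (algebraMap ℂ (adjoin F₁ {y 0}) c)
  · rintro _ ⟨i, rfl⟩
    refine Fin.cases ?_ (fun i => ?_) i
    · exact isAlgebraic_algebraMap (⟨y 0, mem_adjoin_simple_self F₁ _⟩ : adjoin F₁ {y 0})
    · exact isAlgebraic_algebraMap (algebraMap F₁ (adjoin F₁ {y 0}) (y₁ i))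

/-- approximation by divisorial valuations -/
theorem wind {k : ℕ} : ∀ {F : Type} [Field F] [Algebra ℂ F] [IsAlgClosed F] (w : RVal F)
    (y : Fin k → F) (_ : AlgebraicIndependent ℂ y)
    [Algebra.IsAlgebraic (IntermediateField.adjoin ℂ (Set.range y)) F] (H : Finset F)
    (_ : ∀ h ∈ H, h ≠ 0), ∃ (f : Fin k → F) (M : Matrix (Fin k) (Fin k) F) (S : Finset ℝ),
      (∀ i, f i ≠ 0) ∧ DRel f y M ∧ M.det = 1 ∧
      ∀ l : ℝ →+ ℝ, (∀ x, ∃ q : ℚ, l x = q) → SgP l S → ∃ (w' : RVal F) (u : Fin k → F)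
        (δ : Fin k → ℝ) (N : Matrix (Fin k) (Fin k) F), (∀ h ∈ H, w'.v h = l (w.v h)) ∧
        IsMon w' u δ ∧ (∀ i, ∃ q : ℚ, δ i = q) ∧ (∀ i j, δ i ≠ 0 → δ j ≠ 0 → i = j) ∧
        Algebra.IsAlgebraic (IntermediateField.adjoin ℂ (Set.range u)) F ∧ DRel u y N ∧
        N.det ≠ 0 ∧ ∑ i, δ i - w'.v N.det = l (∑ i, w.v (f i)) := by
  induction k with
  | zero =>
    intro F _ _ _ w y hy _ H hH
    have : Algebra.IsAlgebraic ℂ F := ⟨WInd_adj (k := ℂ) (RingHom.id F) (Set.range y)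
      isAlgebraic_algebraMap fun _ ⟨i, _⟩ => i.elim0⟩
    have h0 : ∀ a, a ≠ 0 → w.v a = 0 := fun a ha => by
      obtain ⟨c, rfl⟩ := (IsAlgClosed.algebraMap_bijective_of_isIntegral (k := ℂ)).2 a
      exact w.const c fun h => ha (by rw [h, map_zero])
    refine ⟨y, 1, ∅, fun i => i.elim0, fun i => i.elim0, Matrix.det_one, fun l _ _ =>
      ⟨w, y, 0, 1, fun h hh => by rw [h0 h (hH h hh), map_zero], fun P hP => ?_,
        fun i => i.elim0, fun i => i.elim0, inferInstance, fun i => i.elim0, by simp,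
        by simp [w.v_one]⟩⟩
    have h1 : MvPolynomial.aeval y P ≠ 0 := fun h => hP (algebraicIndependent_iff.1 hy P h)
    obtain ⟨α, hα⟩ := MvPolynomial.support_nonempty.2 hP
    exact ⟨h1, ⟨α, hα, by simp [h0 _ h1]⟩, fun α _ => by simp [h0 _ h1]⟩
  | succ k ih =>
    classical
    intro F _ _ _ w y hy _ H hH
    obtain ⟨F₁, _, _, _, _, _, y₁, e1, h1, h2, ht, h3⟩ := WInd_tower y hy
    rw [e1]
    generalize y 0 = t at ht h3 ⊢
    obtain ⟨c, H₁, S₁, h4, h5⟩ := WInd_step w ht H hH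
    obtain ⟨f, M, S₂, h6, h7, h8, h9⟩ := ih (w.comap (IsScalarTower.toAlgHom ℂ F₁ F)) y₁ h1 H₁ h4
    have hs := WInd_tr ht c
    obtain ⟨M', a1, a2⟩ := WInd_cons h7 1 (-c) (t := t) (s := t - algebraMap F₁ F c) (by
      simp [sub_eq_add_neg])
    have s0 : t - algebraMap F₁ F c ≠ 0 := fun h => hs (h ▸ isAlgebraic_zero)
    refine ⟨Fin.cons (t - algebraMap F₁ F c) fun i => algebraMap F₁ F (f i), M', S₁ ∪ S₂,
      Fin.forall_fin_succ.2 ⟨s0, fun i => (map_ne_zero _).2 (h6 i)⟩, a1, by simp [a2, h8], fun l hl hS => ?_⟩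
    obtain ⟨w₁, u, δ, N, b1, b2, b3, b4, b5, b6, b7, b8⟩ :=
      h9 l hl fun x hx => hS x (Finset.mem_union_right _ hx)
    obtain ⟨w', c1, c2⟩ := h5 l (fun x hx => hS x (Finset.mem_union_left _ hx)) w₁ b1
    obtain ⟨q, hq⟩ := hl (w.v (t - algebraMap F₁ F c))
    obtain ⟨e, e0, d1, d2⟩ := WInd_root b2 b3 q
    have e0' : algebraMap F₁ F e ≠ 0 := (map_ne_zero _).2 e0
    obtain ⟨N', d3, d4⟩ := WInd_cons b6 e⁻¹ (-(c / e)) (t := t)
      (s := (t - algebraMap F₁ F c) / algebraMap F₁ F e) (by simp; ring)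
    have n0 := mul_ne_zero (inv_ne_zero e0) b7
    refine ⟨w', _, _, N', c1, isMon_cons hs c2 b2 e0, fun i => Fin.cases (hq ▸ d1) b3 i,
      fun i j => Fin.cases (Fin.cases (fun _ _ => rfl) (fun j h h' => absurd (hq ▸ d2 j h') h) j)
        (fun i => Fin.cases (fun h h' => absurd (hq ▸ d2 i h) h')
          (fun j h h' => congrArg _ (b4 i j h h')) j) i, ?_, d3, d4 ▸ (map_ne_zero _).2 n0, ?_⟩
    · generalize hu : (Fin.cons ((t - algebraMap F₁ F c) / algebraMap F₁ F e)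
        fun i => algebraMap F₁ F (u i) : Fin (k + 1) → F) = U
      have m : ∀ i, IsAlgebraic (IntermediateField.adjoin ℂ (Set.range U)) (U i) := fun i =>
        isAlgebraic_algebraMap (⟨U i, IntermediateField.subset_adjoin _ _ ⟨i, rfl⟩⟩ :
          IntermediateField.adjoin ℂ (Set.range U))
      have m1 := WInd_adj (k := ℂ) (K₀ := IntermediateField.adjoin ℂ (Set.range U))
        (algebraMap F₁ F) (Set.range u) (fun c => by
          rw [← IsScalarTower.algebraMap_apply]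
          exact isAlgebraic_algebraMap (algebraMap ℂ (IntermediateField.adjoin ℂ (Set.range U)) c))
        (by rintro _ ⟨i, rfl⟩; simpa [← hu] using m i.succ)
      refine ⟨WInd_adj (k := F₁) (RingHom.id F) {t} m1 ?_⟩
      rintro _ rfl
      have := ((m 0).mul (m1 e)).add (m1 c)
      rwa [show U 0 = _ from congrFun hu.symm 0, Fin.cons_zero, div_mul_cancel₀ _ e0',
        sub_add_cancel] at this
    · obtain ⟨⟨j, d5, d6⟩, -⟩ := c2 (Polynomial.C (e⁻¹ * N.det)) (Polynomial.C_ne_zero.2 n0)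
      rw [Polynomial.support_C n0, Finset.mem_singleton] at d5
      rw [d5, Polynomial.aeval_C, Polynomial.coeff_C_zero, w₁.mul _ _ (inv_ne_zero e0) b7,
        w₁.v_inv e e0] at d6
      rw [d4, d6, Fin.sum_univ_succ, Fin.sum_univ_succ, map_add]
      simp only [Fin.cons_zero, Fin.cons_succ, Nat.cast_zero, zero_mul]
      exact Eq.trans (by ring) (congrArg (l (w.v (t - algebraMap F₁ F c)) + ·) b8)

end Vale.Agent.P282
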