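import Vale.Agent.P282.VAlg
import Vale.Agent.P282.UMon

set_option linter.unusedSectionVars false

open scoped ENNReal TensorProduct Topology
open Filter MeasureTheory

noncomputable section

namespace Vale.Agent.P282

variable {F : Type} [Field F] [Algebra ℂ F]

theorem exists_lam (S : Finset ℝ) : ∃ l : ℝ →+ ℝ, (∀ x, ∃ q : ℚ, l x = q) ∧ SgP l S := by
  let b := Module.Basis.ofVectorSpace ℚ ℝ
  have hc : ∀ x : ℝ, Continuous fun g : Module.Basis.ofVectorSpaceIndex ℚ ℝ → ℝ =>
      b.constr ℚ g x := fun x => by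
    simp only [Module.Basis.constr_apply, Finsupp.sum]
    refine continuous_finsetSum _ fun i _ => ?_
    simp only [Rat.smul_def]
    exact continuous_const.mul (continuous_apply i)
  have ho : IsOpen (⋂ x ∈ S.filter (0 < ·),
      {g : Module.Basis.ofVectorSpaceIndex ℚ ℝ → ℝ | 0 < b.constr ℚ g x}) :=
    isOpen_biInter_finset fun x _ => isOpen_lt continuous_const (hc x)
  have hd : DenseRange (Pi.map fun (_ : Module.Basis.ofVectorSpaceIndex ℚ ℝ) (q : ℚ) => (q : ℝ)) :=
    DenseRange.piMap fun _ => Rat.denseRange_cast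
  obtain ⟨q, hq⟩ := hd.exists_mem_open ho ⟨b, Set.mem_iInter₂.2 fun x hx => by
    show 0 < b.constr ℚ b x
    rw [b.constr_eq ℚ (g := b) (f := LinearMap.id) fun _ => rfl, LinearMap.id_apply]
    exact (Finset.mem_filter.1 hx).2⟩
  refine ⟨(b.constr ℚ fun i => (q i : ℝ)).toAddMonoidHom, fun x => ?_, fun x hx h0 => ?_⟩
  · refine ⟨(b.repr x).sum fun i c => c * q i, ?_⟩
    show b.constr ℚ (fun i => (q i : ℝ)) x = _
    simp [Module.Basis.constr_apply, Finsupp.sum, Rat.smul_def]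
  · exact Set.mem_iInter₂.1 hq x (Finset.mem_filter.2 ⟨hx, h0⟩)

theorem lam_rat (l : ℝ →+ ℝ) (q : ℚ) (x : ℝ) : l (q * x) = q * l x := by
  simpa [Rat.smul_def] using map_rat_smul l q x

open Classical in
theorem WLam_na (w : RVal F) (a b : F) : (if a + b = 0 then 0 else Real.exp (-w.v (a + b))) ≤
    max (if a = 0 then 0 else Real.exp (-w.v a)) (if b = 0 then 0 else Real.exp (-w.v b)) := by
  by_cases ha : a = 0
  · simp [ha]
  by_cases hb : b = 0
  · simp [hb]
  rw [if_neg ha, if_neg hb]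
  split_ifs with h
  · exact le_max_of_le_left (Real.exp_pos _).le
  · rcases min_le_iff.1 (w.add a b ha hb h) with h1 | h1
    · exact le_max_of_le_left (Real.exp_le_exp.2 (neg_le_neg h1))
    · exact le_max_of_le_right (Real.exp_le_exp.2 (neg_le_neg h1))

open Classical in
/-- the absolute value of a valuation -/
def WLam_abs (w : RVal F) : AbsoluteValue F ℝ where
  toFun a := if a = 0 then 0 else Real.exp (-w.v a)
  map_mul' a b := by
    by_cases ha : a = 0
    · simp [ha]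
    by_cases hb : b = 0
    · simp [hb]
    simp only [if_neg ha, if_neg hb, if_neg (mul_ne_zero ha hb), w.mul a b ha hb, neg_add,
      Real.exp_add]
  nonneg' a := by
    show 0 ≤ if a = 0 then 0 else Real.exp (-w.v a)
    split_ifs
    · exact le_rfl
    · exact (Real.exp_pos _).le
  eq_zero' a := by
    show (if a = 0 then 0 else Real.exp (-w.v a)) = 0 ↔ _
    by_cases ha : a = 0 <;> simp [ha]
  add_le' a b := by
    refine (WLam_na w a b).trans (max_le (le_add_of_nonneg_right ?_) (le_add_of_nonneg_left ?_))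
    · show 0 ≤ if b = 0 then 0 else Real.exp (-w.v b)
      split_ifs
      · exact le_rfl
      · exact (Real.exp_pos _).le
    · show 0 ≤ if a = 0 then 0 else Real.exp (-w.v a)
      split_ifs
      · exact le_rfl
      · exact (Real.exp_pos _).le

theorem WLam_abs_ne (w : RVal F) {a : F} (ha : a ≠ 0) : WLam_abs w a = Real.exp (-w.v a) :=
  if_neg ha

theorem WLam_poly (w : RVal F) (γ : ℝ) : ∃ G : Polynomial F → ℝ,
    (∀ p q, p ≠ 0 → q ≠ 0 → G (p * q) = G p + G q) ∧
    (∀ p q, p ≠ 0 → q ≠ 0 → p + q ≠ 0 → min (G p) (G q) ≤ G (p + q)) ∧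
    ∀ p, p ≠ 0 → (∃ j ∈ p.support, G p = w.v (p.coeff j) + j * γ) ∧
      ∀ j ∈ p.support, G p ≤ w.v (p.coeff j) + j * γ := by
  have hna : IsNonarchimedean (WLam_abs w) := WLam_na w
  have hc : 0 < Real.exp (-γ) := Real.exp_pos _
  have hpos : ∀ p : Polynomial F, p ≠ 0 → 0 < p.gaussNorm (WLam_abs w) (Real.exp (-γ)) :=
    fun p hp => lt_of_le_of_ne (p.gaussNorm_nonneg _ hc.le) fun h => hp
      ((Polynomial.gaussNorm_eq_zero_iff _ p (fun _ hx => (WLam_abs w).eq_zero.1 hx) hc).1 h.symm)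
  have hl : ∀ (a : F) (j : ℕ), a ≠ 0 →
      -Real.log (WLam_abs w a * Real.exp (-γ) ^ j) = w.v a + j * γ := fun a j ha => by
    rw [WLam_abs_ne w ha, ← Real.exp_nat_mul, ← Real.exp_add, Real.log_exp]
    ring
  refine ⟨fun p => -Real.log (p.gaussNorm (WLam_abs w) (Real.exp (-γ))), fun p q hp hq => ?_,
    fun p q hp hq hpq => ?_, fun p hp => ⟨?_, fun j hj => ?_⟩⟩
  · simp only [Polynomial.gaussNorm_mul hna hc, Real.log_mul (hpos p hp).ne' (hpos q hq).ne',
      neg_add]
  · rcases le_max_iff.1 (Polynomial.isNonarchimedean_gaussNorm _ hna hc.le p q) with h | h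
    · exact min_le_of_left_le (neg_le_neg (Real.log_le_log (hpos _ hpq) h))
    · exact min_le_of_right_le (neg_le_neg (Real.log_le_log (hpos _ hpq) h))
  · obtain ⟨j, hj⟩ := p.exists_eq_gaussNorm (WLam_abs w) (Real.exp (-γ))
    have h0 : p.coeff j ≠ 0 := fun h => by
      have := hpos p hp
      rw [hj, h, map_zero, zero_mul] at this
      exact lt_irrefl _ this
    exact ⟨j, Polynomial.mem_support_iff.2 h0, by simp only [hj, hl _ j h0]⟩
  · have h0 := Polynomial.mem_support_iff.1 hj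
    rw [← hl _ j h0]
    exact neg_le_neg (Real.log_le_log (mul_pos ((WLam_abs w).pos h0) (pow_pos hc _))
      (p.le_gaussNorm _ hc.le j))

/-- Gauss extensions -/
theorem gauss {L : Type} [Field L] [Algebra ℂ L] [Algebra F L] [IsScalarTower ℂ F L] {t : L}
    (ht : Transcendental F t) (hL : ∀ a : L, ∃ p q : Polynomial F, q ≠ 0 ∧
      a = Polynomial.aeval t p / Polynomial.aeval t q) (w : RVal F) (γ : ℝ) :
    ∃ w' : RVal L, ∀ p : Polynomial F, p ≠ 0 →
      (∃ j ∈ p.support, w'.v (Polynomial.aeval t p) = w.v (p.coeff j) + j * γ) ∧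
      ∀ j ∈ p.support, w'.v (Polynomial.aeval t p) ≤ w.v (p.coeff j) + j * γ := by
  obtain ⟨G, g1, g2, g3⟩ := WLam_poly w γ
  choose P Q hQ hPQ using hL
  have hinj := transcendental_iff_injective.1 ht
  have hne : ∀ p : Polynomial F, p ≠ 0 → Polynomial.aeval t p ≠ 0 := fun p hp =>
    (map_ne_zero_iff _ hinj).2 hp
  have hP : ∀ a, a ≠ 0 → P a ≠ 0 := fun a ha h => ha (by rw [hPQ a, h, map_zero, zero_div])
  have key : ∀ (a : L) (p q : Polynomial F), p ≠ 0 → q ≠ 0 →
      a = Polynomial.aeval t p / Polynomial.aeval t q → G (P a) - G (Q a) = G p - G q := by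
    intro a p q hp hq e
    have ha : a ≠ 0 := by rw [e]; exact div_ne_zero (hne p hp) (hne q hq)
    have e1 := (div_eq_div_iff (hne _ (hQ a)) (hne q hq)).1 ((hPQ a).symm.trans e)
    rw [← map_mul, ← map_mul] at e1
    have e2 := congrArg G (hinj e1)
    rw [g1 _ _ (hP a ha) hq, g1 _ _ hp (hQ a)] at e2
    linarith
  have h1 : G 1 = 0 := by
    have := g1 1 1 one_ne_zero one_ne_zero
    rw [mul_one] at this
    linarith
  have hp1 : ∀ p : Polynomial F, p ≠ 0 →
      G (P (Polynomial.aeval t p)) - G (Q (Polynomial.aeval t p)) = G p := fun p hp => by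
    rw [key _ p 1 hp one_ne_zero (by simp), h1, sub_zero]
  refine ⟨⟨fun a => G (P a) - G (Q a), fun a b ha hb => ?_, fun a b ha hb hab => ?_,
    fun c hc => ?_⟩, fun p hp => ?_⟩
  · rw [key (a * b) (P a * P b) (Q a * Q b) (mul_ne_zero (hP a ha) (hP b hb))
      (mul_ne_zero (hQ a) (hQ b)) (by rw [map_mul, map_mul, ← div_mul_div_comm, ← hPQ, ← hPQ]),
      g1 _ _ (hP a ha) (hP b hb), g1 _ _ (hQ a) (hQ b)]
    ring
  · have e : a + b = Polynomial.aeval t (P a * Q b + Q a * P b) / Polynomial.aeval t (Q a * Q b) := by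
      rw [map_add, map_mul, map_mul, map_mul, ← div_add_div _ _ (hne _ (hQ a)) (hne _ (hQ b)),
        ← hPQ, ← hPQ]
    have h0 : P a * Q b + Q a * P b ≠ 0 := fun h => hab (by rw [e, h, map_zero, zero_div])
    have h2 := g2 _ _ (mul_ne_zero (hP a ha) (hQ b)) (mul_ne_zero (hQ a) (hP b hb)) h0
    rw [g1 _ _ (hP a ha) (hQ b), g1 _ _ (hQ a) (hP b hb)] at h2
    rw [key (a + b) _ _ h0 (mul_ne_zero (hQ a) (hQ b)) e, g1 _ _ (hQ a) (hQ b)]
    rcases min_le_iff.1 h2 with h | h
    · exact min_le_of_left_le (by linarith)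
    · exact min_le_of_right_le (by linarith)
  · have h0 : algebraMap ℂ F c ≠ 0 := (map_ne_zero _).2 hc
    have h3 : (Polynomial.C (algebraMap ℂ F c) : Polynomial F) ≠ 0 := Polynomial.C_ne_zero.2 h0
    have e := hp1 _ h3
    rw [Polynomial.aeval_C, ← IsScalarTower.algebraMap_apply] at e
    obtain ⟨j, hj, e2⟩ := (g3 _ h3).1
    rw [Polynomial.support_C h0, Finset.mem_singleton] at hj
    rw [e, e2, hj, Polynomial.coeff_C_zero, w.const c hc]
    simp
  · simp only [hp1 p hp]
    exact g3 p hp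

theorem WLam_le {n : ℕ} (ω : PForm F n) (y : Fin n → F) (hy : ω.jac y ≠ 0)
    [Algebra.IsAlgebraic (IntermediateField.adjoin ℂ (Set.range y)) F] (w : RVal F) (s : ℝ)
    (h : ∀ P : Fin n → MvPolynomial (Fin n) ℂ, (∀ i, P i ≠ 0) →
      w.Ge (UMon_J y P).det (∑ i, w.v (MvPolynomial.aeval y (P i)) - s)) :
    ω.A w ≤ ((s - w.v (ω.rho y) / ω.m : ℝ) : EReal) := by
  refine iSup_le fun g => ?_
  obtain ⟨f, f1, f2, f3⟩ := tame (IntermediateField.adjoin ℂ (Set.range y)) ω w g.1 g.2.1 g.2.2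
  let _ : Algebra (MvPolynomial (Fin n) ℂ) F :=
    (MvPolynomial.aeval y : MvPolynomial (Fin n) ℂ →ₐ[ℂ] F).toRingHom.toAlgebra
  obtain ⟨P, p1, p2, p3⟩ := ω.exists_wt_R w f (fun i => (f1 i).2) f2
    (S := MvPolynomial (Fin n) ℂ) fun i =>
      (IntermediateField.mem_adjoin_range_iff ℂ y (f i)).1 (f1 i).1
  have p1' : ∀ i, MvPolynomial.aeval y (P i) ≠ 0 := p1
  have p2' : (ω.jac fun i => MvPolynomial.aeval y (P i)) ≠ 0 := p2
  have p3' : ω.wt w f ≤ ω.wt w fun i => MvPolynomial.aeval y (P i) := p3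
  have e := ω.jac_of_eq (fun i => MvPolynomial.aeval y (P i)) y (UMon_J y P)
    fun i => UMon_D y (P i)
  have hd : (UMon_J y P).det ≠ 0 := fun h0 => p2' (by rw [e, h0, zero_mul])
  have h1 := (h P fun i h0 => p1' i (by rw [h0, map_zero])).resolve_left hd
  have e2 : (ω.rho fun i => MvPolynomial.aeval y (P i)) = (UMon_J y P).det ^ ω.m * ω.rho y := by
    unfold PForm.rho
    rw [e, mul_pow, mul_div_assoc]
  have hm : (0 : ℝ) < ω.m := by exact_mod_cast ω.m_pos
  refine EReal.coe_le_coe_iff.2 (f3.trans (p3'.trans ?_))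
  unfold PForm.wt
  rw [e2, w.mul _ _ (pow_ne_zero _ hd) (ω.rho_ne hy), w.v_pow _ hd, add_div,
    mul_div_cancel_left₀ _ hm.ne']
  linarith

/-- `A_mon` for any field that is algebraic over `ℂ(y)` -/
theorem A_mon' {n : ℕ} (ω : PForm F n) (y : Fin n → F) (hy : ω.jac y ≠ 0)
    [Algebra.IsAlgebraic (IntermediateField.adjoin ℂ (Set.range y)) F]
    {w : RVal F} {c : Fin n → ℝ} (h : IsMon w y c) :
    ω.A w = ((∑ i, c i - w.v (ω.rho y) / ω.m : ℝ) : EReal) := by
  refine le_antisymm (WLam_le ω y hy w _ fun P hP => UMon_det w _ _ _ fun i j => ?_) ?_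
  · show w.Ge (MvPolynomial.aeval y (MvPolynomial.pderiv j (P i))) _
    by_cases h0 : MvPolynomial.pderiv j (P i) = 0
    · rw [h0, map_zero]
      exact RVal.Ge.zero _
    · obtain ⟨-, ⟨α, hα, e⟩, -⟩ := h _ h0
      have hm : α + Finsupp.single j 1 ∈ (P i).support := by
        rw [MvPolynomial.mem_support_iff] at hα ⊢
        rw [MvPolynomial.coeff_pderiv] at hα
        exact left_ne_zero_of_mul hα
      have h2 := (h _ (hP i)).2.2 _ hm
      have e2 : ∑ l, c l * ((α + Finsupp.single j 1 : Fin n →₀ ℕ) l : ℝ) =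
          ∑ l, c l * (α l : ℝ) + c j := by
        simp [mul_add, Finset.sum_add_distrib, Finsupp.single_apply]
      rw [e2] at h2
      exact Or.inr (by linarith)
  · have hX : ∀ i, y i ≠ 0 ∧ w.v (y i) = c i := by
      intro i
      obtain ⟨h1, ⟨α, hα, e⟩, -⟩ := h (MvPolynomial.X i) (MvPolynomial.X_ne_zero i)
      rw [MvPolynomial.aeval_X] at h1 e
      rw [MvPolynomial.support_X, Finset.mem_singleton] at hα
      refine ⟨h1, ?_⟩
      rw [e, hα]
      simp [Finsupp.single_apply]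
    have := ω.le_A w y (fun i => (hX i).1) hy
    unfold PForm.wt at this
    simpa only [(hX _).2] using this

end Vale.Agent.P282
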