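import Vale.Agent.P282.WLam

set_option linter.unusedSectionVars false

open scoped ENNReal TensorProduct Topology
open Filter MeasureTheory

noncomputable section

namespace Vale.Agent.P282

variable {F : Type} [Field F] [Algebra ℂ F]

open Polynomial in
theorem WStA_eval (w : RVal F) {p : F[X]} (hp : ∀ j, w.Ge (p.coeff j) 0) {x : F}
    (hx : w.Ge x 0) : w.Ge (p.eval x) 0 := by
  rw [eval_eq_sum_range]
  exact RVal.Ge.sum fun j _ => by simpa using (hp j).mul (hx.pow j)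

open Polynomial in
theorem WStA_roots (w : RVal F) (R : Multiset F) (h : ∀ r ∈ R, r = 0 ∨ 0 < w.v r) :
    ∃ t : ℝ, 0 < t ∧ ∀ j, w.Ge ((R.map (X - C ·)).prod.coeff j) 0 ∧
      (j < R.card → w.Ge ((R.map (X - C ·)).prod.coeff j) t) := by
  induction R using Multiset.induction_on with
  | empty =>
    refine ⟨1, one_pos, fun j => ⟨?_, by simp⟩⟩
    rw [Multiset.map_zero, Multiset.prod_zero, coeff_one]
    split_ifs
    · exact Or.inr w.v_one.ge
    · exact Or.inl rfl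
  | cons r R ih =>
    obtain ⟨t, ht, ih⟩ := ih fun r hr => h r (Multiset.mem_cons_of_mem hr)
    obtain ⟨u, hu, hr⟩ : ∃ u : ℝ, 0 < u ∧ w.Ge r u :=
      (h r (Multiset.mem_cons_self _ _)).elim (fun e => ⟨1, one_pos, Or.inl e⟩)
        fun e => ⟨_, e, Or.inr le_rfl⟩
    have h1 : ∀ j, w.Ge (r * (R.map (X - C ·)).prod.coeff j) (min t u) := fun j =>
      (hr.mul (ih j).1).mono (by rw [add_zero]; exact min_le_right _ _)
    have h2 := (lt_min ht hu).le
    refine ⟨min t u, lt_min ht hu, fun j => ?_⟩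
    rw [Multiset.map_cons, Multiset.prod_cons, sub_mul, coeff_sub, coeff_C_mul, Multiset.card_cons]
    cases j with
    | zero =>
      rw [coeff_X_mul_zero]
      exact ⟨(RVal.Ge.zero _).sub ((h1 0).mono h2), fun _ => (RVal.Ge.zero _).sub (h1 0)⟩
    | succ j =>
      rw [coeff_X_mul]
      exact ⟨(ih j).1.sub ((h1 _).mono h2),
        fun hj => (((ih j).2 (by omega)).mono (min_le_left _ _)).sub (h1 _)⟩

open Polynomial in
theorem WStA_conj [IsAlgClosed F] (K₀ : IntermediateField ℂ F) [Algebra.IsAlgebraic K₀ F]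
    (w₀ : RVal K₀) {s : F} {j : ℕ} (hj : j < (minpoly K₀ s).natDegree)
    (h0 : (minpoly K₀ s).coeff j ≠ 0) (h1 : w₀.v ((minpoly K₀ s).coeff j) ≤ 0) :
    ∃ w' : RVal F, (∀ a : K₀, a ≠ 0 → w'.v a = w₀.v a) ∧ w'.v s ≤ 0 := by
  obtain ⟨w₁, hw⟩ := ext_val (L := F) w₀
  have ha : IsAlgebraic K₀ s := Algebra.IsAlgebraic.isAlgebraic s
  have hm := (minpoly.monic ha.isIntegral).map (algebraMap K₀ F)
  have hsp := IsAlgClosed.splits ((minpoly K₀ s).map (algebraMap K₀ F))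
  obtain ⟨r, hr, hr0, hr1⟩ : ∃ r ∈ ((minpoly K₀ s).map (algebraMap K₀ F)).roots,
      r ≠ 0 ∧ w₁.v r ≤ 0 := by
    by_contra hc
    obtain ⟨t, ht, h⟩ := WStA_roots w₁ ((minpoly K₀ s).map (algebraMap K₀ F)).roots fun r hr => by
      by_contra hd
      rw [not_or, not_lt] at hd
      exact hc ⟨r, hr, hd⟩
    have h2 := (h j).2 (by rw [← hsp.natDegree_eq_card_roots, natDegree_map]; exact hj)
    rw [← hsp.eq_prod_roots_of_monic hm, coeff_map] at h2
    have h3 := h2.resolve_left ((_root_.map_ne_zero _).2 h0)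
    rw [hw _ h0] at h3
    linarith
  have : IsAlgClosure K₀ F := ⟨inferInstance, inferInstance⟩
  obtain ⟨σ, hσ⟩ := minpoly.exists_algEquiv_of_root' (x := r) ha
    (by rw [← eval_map_algebraMap]; exact (mem_roots hm.ne_zero).1 hr)
  refine ⟨w₁.comap (σ.toAlgHom.restrictScalars ℂ), fun a ha => ?_, ?_⟩
  · exact (congrArg w₁.v (σ.commutes a)).trans (hw a ha)
  · exact (congrArg w₁.v hσ).trans_le hr1

theorem WStA_core [IsAlgClosed F] (K₀ : IntermediateField ℂ F) [Algebra.IsAlgebraic K₀ F]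
    (w : RVal F) (G : Finset F) (hG : ∀ g ∈ G, g ≠ 0 ∧ 0 ≤ w.v g) :
    ∃ T : Finset K₀, (∀ c ∈ T, c ≠ 0 ∧ 0 ≤ w.v c) ∧ ∀ w₀ : RVal K₀, (∀ c ∈ T, 0 ≤ w₀.v c) →
      ∃ w' : RVal F, (∀ a : K₀, a ≠ 0 → w'.v a = w₀.v a) ∧ ∀ g ∈ G, 0 ≤ w'.v g := by
  classical
  choose! p q hp hq h1 h2 h3 using fun g (hg : g ∈ G) =>
    sa_eq K₀ w (hG g hg).1 (Algebra.IsAlgebraic.isAlgebraic g) (hG g hg).2
  have hs : ∏ g ∈ G, (p g).eval g ≠ 0 := Finset.prod_ne_zero_iff.2 h1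
  obtain ⟨j, hj, h4, h5⟩ := sa_min K₀ w hs (Algebra.IsAlgebraic.isAlgebraic _)
    (by rw [w.v_prod _ _ h1]; exact Finset.sum_eq_zero h2)
  refine ⟨insert ((minpoly K₀ (∏ g ∈ G, (p g).eval g)).coeff j)⁻¹
    ((G.biUnion fun g => (p g).coeffs ∪ (q g).coeffs).subtype (· ∈ K₀)), fun c hc => ?_,
    fun w₀ h₀ => ?_⟩
  · rcases Finset.mem_insert.1 hc with rfl | hc
    · refine ⟨inv_ne_zero h4, ?_⟩
      rw [IntermediateField.coe_inv, w.v_inv _ (by simpa using h4)]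
      linarith
    · obtain ⟨g, hg, hc⟩ := Finset.mem_biUnion.1 (Finset.mem_subtype.1 hc)
      have key : ∀ r : Polynomial F, (∀ j, w.Ge (r.coeff j) 0) → (c : F) ∈ r.coeffs →
          c ≠ 0 ∧ 0 ≤ w.v c := fun r hr hc => by
        obtain ⟨i, hi, e⟩ := Polynomial.mem_coeffs_iff.1 hc
        have h6 := Polynomial.mem_support_iff.1 hi
        exact ⟨fun e' => h6 (by rw [← e, e']; rfl), e ▸ (hr i).resolve_left h6⟩
      exact (Finset.mem_union.1 hc).elim (key _ fun j => (hp g hg j).2)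
        (key _ fun j => (hq g hg j).2)
  have h6 := h₀ _ (Finset.mem_insert_self _ _)
  rw [w₀.v_inv _ h4] at h6
  obtain ⟨w', hw, h7⟩ := WStA_conj K₀ w₀ hj h4 (by linarith)
  refine ⟨w', hw, ?_⟩
  have key : ∀ g ∈ G, ∀ r : Polynomial F, (∀ j, r.coeff j ∈ K₀) →
      r.coeffs ⊆ (p g).coeffs ∪ (q g).coeffs → ∀ j, w'.Ge (r.coeff j) 0 := fun g hg r hr hc i => by
    by_cases e : r.coeff i = 0
    · exact Or.inl e
    refine Or.inr ((h₀ ⟨_, hr i⟩ (Finset.mem_insert_of_mem (Finset.mem_subtype.2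
      (Finset.mem_biUnion.2 ⟨g, hg, hc (Polynomial.coeff_mem_coeffs e)⟩)))).trans_eq ?_)
    exact (hw ⟨_, hr i⟩ fun e' => e (congrArg Subtype.val e')).symm
  have h8 : ∀ g ∈ G, 0 ≤ w'.v ((p g).eval g) ∧ 0 ≤ w'.v ((p g).eval g) + w'.v g := fun g hg => by
    have g0 := (hG g hg).1
    rcases le_total 0 (w'.v g) with e | e
    · have := (WStA_eval w' (key g hg _ (fun j => (hp g hg j).1) Finset.subset_union_left)
        (Or.inr e)).resolve_left (h1 g hg)
      exact ⟨this, by linarith⟩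
    · have h9 := WStA_eval w' (key g hg _ (fun j => (hq g hg j).1) Finset.subset_union_right)
        (x := g⁻¹) (Or.inr (by rw [w'.v_inv _ g0]; linarith))
      rw [← h3 g hg] at h9
      have := h9.resolve_left (mul_ne_zero (h1 g hg) g0)
      rw [w'.mul _ _ (h1 g hg) g0] at this
      exact ⟨by linarith, this⟩
  rw [w'.v_prod _ _ h1] at h7
  intro g hg
  have := Finset.single_le_sum (f := fun g => w'.v ((p g).eval g)) (fun g hg => (h8 g hg).1) hg
  linarith [(h8 g hg).2]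

/-- choice of an extension -/
theorem wstA [IsAlgClosed F] (K₀ : IntermediateField ℂ F) [Algebra.IsAlgebraic K₀ F] (w : RVal F)
    (H : Finset F) (hH : ∀ h ∈ H, h ≠ 0) : ∃ (B : Finset K₀) (S : Finset ℝ), (∀ b ∈ B, b ≠ 0) ∧
      ∀ l : ℝ →+ ℝ, SgP l S → ∀ w₀ : RVal K₀, (∀ b ∈ B, w₀.v b = l (w.v b)) →
        ∃ w' : RVal F, (∀ a : K₀, a ≠ 0 → w'.v a = w₀.v a) ∧ ∀ h ∈ H, w'.v h = l (w.v h) := by
  classical
  choose! N b hN hb hb0 hv using fun h (hh : h ∈ H) =>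
    sa_norm K₀ w (hH h hh) (Algebra.IsAlgebraic.isAlgebraic h)
  have h0 : ∀ h ∈ H, h ^ N h / b h ≠ 0 := fun h hh =>
    div_ne_zero (pow_ne_zero _ (hH h hh)) (hb0 h hh)
  have h1 : ∀ (u : RVal F), ∀ h ∈ H, u.v (h ^ N h / b h) = N h * u.v h - u.v (b h) :=
    fun u h hh => by rw [u.v_div _ _ (pow_ne_zero _ (hH h hh)) (hb0 h hh), u.v_pow _ (hH h hh)]
  obtain ⟨T, hT, key⟩ := WStA_core K₀ w
    (H.image (fun h => h ^ N h / b h) ∪ H.image fun h => (h ^ N h / b h)⁻¹) fun g hg => by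
      rcases Finset.mem_union.1 hg with hg | hg <;> obtain ⟨h, hh, rfl⟩ := Finset.mem_image.1 hg
      · exact ⟨h0 h hh, by rw [h1 w h hh, hv h hh, sub_self]⟩
      · exact ⟨inv_ne_zero (h0 h hh), by
          rw [w.v_inv _ (h0 h hh), h1 w h hh, hv h hh, sub_self, neg_zero]⟩
  refine ⟨T ∪ (H.image b).subtype (· ∈ K₀), T.image fun c : K₀ => w.v c, fun c hc => ?_,
    fun l hl w₀ h₀ => ?_⟩
  · rcases Finset.mem_union.1 hc with hc | hc
    · exact (hT c hc).1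
    · obtain ⟨h, hh, e⟩ := Finset.mem_image.1 (Finset.mem_subtype.1 hc)
      exact fun e' => hb0 h hh (by rw [e, e']; rfl)
  obtain ⟨w', hw, h2⟩ := key w₀ fun c hc => by
    rw [h₀ c (Finset.mem_union_left _ hc)]
    rcases (hT c hc).2.eq_or_lt with e | e
    · rw [← e, map_zero]
    · exact (hl _ (Finset.mem_image_of_mem _ hc) e).le
  refine ⟨w', hw, fun h hh => ?_⟩
  have h3 := h2 _ (Finset.mem_union_left _ (Finset.mem_image_of_mem _ hh))
  have h4 := h2 _ (Finset.mem_union_right _ (Finset.mem_image_of_mem _ hh))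
  rw [w'.v_inv _ (h0 h hh)] at h4
  rw [h1 w' h hh] at h3 h4
  have h5 : w'.v (b h) = l (w.v (b h)) :=
    (hw ⟨_, hb h hh⟩ fun e => hb0 h hh (congrArg Subtype.val e)).trans
      (h₀ ⟨_, hb h hh⟩ (Finset.mem_union_right _
        (Finset.mem_subtype.2 (Finset.mem_image_of_mem _ hh))))
  rw [hv h hh, ← nsmul_eq_mul, map_nsmul, nsmul_eq_mul] at h5
  exact mul_left_cancel₀ (Nat.cast_ne_zero.2 (hN h hh).ne' : (N h : ℝ) ≠ 0) (by linarith)

end Vale.Agent.P282
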