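import Vale.Agent.P282.UKlt

set_option linter.unusedSectionVars false

open scoped ENNReal TensorProduct Topology
open Filter MeasureTheory

noncomputable section

namespace Vale.Agent.P282

variable {R K : Type} [CommRing R] [IsDomain R] [Algebra ℂ R] [Algebra.FiniteType ℂ R]
  [IsIntegrallyClosed R] [Field K] [Algebra R K] [IsFractionRing R K] [Algebra ℂ K]
  [IsScalarTower ℂ R K] {n : ℕ}

theorem exists_lam' (S T : Finset ℝ) {ε : ℝ} (ε0 : 0 < ε) : ∃ l : ℝ →+ ℝ, (∀ x, ∃ q : ℚ, l x = q) ∧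
    SgP l S ∧ ∀ t ∈ T, |l t - t| < ε := by
  let b := Module.Basis.ofVectorSpace ℚ ℝ
  have hc : ∀ x : ℝ, Continuous fun g : Module.Basis.ofVectorSpaceIndex ℚ ℝ → ℝ =>
      b.constr ℚ g x := fun x => by
    simp only [Module.Basis.constr_apply, Finsupp.sum]
    refine continuous_finsetSum _ fun i _ => ?_
    simp only [Rat.smul_def]
    exact continuous_const.mul (continuous_apply i)
  have ho : IsOpen ((⋂ x ∈ S.filter (0 < ·),
      {g : Module.Basis.ofVectorSpaceIndex ℚ ℝ → ℝ | 0 < b.constr ℚ g x}) ∩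
      ⋂ t ∈ T, {g : Module.Basis.ofVectorSpaceIndex ℚ ℝ → ℝ | |b.constr ℚ g t - t| < ε}) :=
    (isOpen_biInter_finset fun x _ => isOpen_lt continuous_const (hc x)).inter
      (isOpen_biInter_finset fun x _ =>
        isOpen_lt ((hc x).sub continuous_const).abs continuous_const)
  have hd : DenseRange (Pi.map fun (_ : Module.Basis.ofVectorSpaceIndex ℚ ℝ) (q : ℚ) => (q : ℝ)) :=
    DenseRange.piMap fun _ => Rat.denseRange_cast
  have hb : ∀ x, b.constr ℚ b x = x := fun x => by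
    rw [b.constr_eq ℚ (g := b) (f := LinearMap.id) fun _ => rfl, LinearMap.id_apply]
  obtain ⟨q, hq, hq'⟩ := hd.exists_mem_open ho ⟨b, Set.mem_iInter₂.2 fun x hx => by
    show 0 < b.constr ℚ b x
    rw [hb]
    exact (Finset.mem_filter.1 hx).2, Set.mem_iInter₂.2 fun x hx => by
    show |b.constr ℚ b x - x| < ε
    rw [hb, sub_self, abs_zero]
    exact ε0⟩
  refine ⟨(b.constr ℚ fun i => (q i : ℝ)).toAddMonoidHom, fun x => ?_, fun x hx h0 => ?_,
    fun x hx => ?_⟩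
  · refine ⟨(b.repr x).sum fun i c => c * q i, ?_⟩
    show b.constr ℚ (fun i => (q i : ℝ)) x = _
    simp [Module.Basis.constr_apply, Finsupp.sum, Rat.smul_def]
  · exact Set.mem_iInter₂.1 hq x (Finset.mem_filter.2 ⟨hx, h0⟩)
  · exact Set.mem_iInter₂.1 hq' x hx

/-- approximation of a real valuation by divisorial ones with nearly no larger log discrepancy -/
theorem exists_approx (ω : PForm K n) (w : RVal K) (h : ∃ a, a ≠ 0 ∧ w.v a ≠ 0)
    (hw : w.OnSpec R) (T : Finset K) (hT : ∀ a ∈ T, a ≠ 0) {ε : ℝ} (ε0 : 0 < ε) :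
    ∃ (w' : RVal K) (x : ℝ), w'.Divisorial n ∧ w'.OnSpec R ∧ (∀ a ∈ T, |w'.v a - w.v a| < ε) ∧
      (x : EReal) ≤ ω.A w ∧ ω.A w' ≤ ((x + ε : ℝ) : EReal) := by
  classical
  have : Algebra.EssFiniteType R K := Algebra.EssFiniteType.of_isLocalization K (nonZeroDivisors R)
  have : Algebra.EssFiniteType ℂ K := Algebra.EssFiniteType.comp ℂ R K
  obtain ⟨a, a0, a1⟩ := h
  obtain ⟨w1, hw1⟩ := ext_val (L := Cl K) w
  obtain ⟨π⟩ := exists_proj' (trdeg_eq ω R)
  obtain ⟨ω1, e1, e2, e3⟩ := exists_pull (L := Cl K) ω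
  have pull : ∀ (v : RVal K) (v' : RVal (Cl K)),
      (∀ a, a ≠ 0 → v'.v (algebraMap K (Cl K) a) = v.v a) → ω1.A v' = ω.A v := fun v v' hv =>
    A_pull ω ω1 (fun f hf => by rw [e3]; exact (map_ne_zero _).2 hf)
      (fun f hf h0 => hf (by rw [e3, h0, map_zero])) v v' hv fun f hf => by
        rw [← hv _ (ω.rho_ne hf), PForm.rho, PForm.rho, e1, e2, e3, map_div₀, map_pow]
  set y : Fin n → Cl K := fun i => algebraMap K (Cl K) (algebraMap R K (π.y i)) with hy
  have y1 : AlgebraicIndependent ℂ y := π.ind.map' (f := io K) AEmb0_io_inj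
  have y2 : ω1.jac y ≠ 0 := by
    rw [hy, e3]
    exact (map_ne_zero _).2 (π.jac_ne ω)
  have y3 := ω1.rho_ne y2
  have : Algebra.IsAlgebraic (IntermediateField.adjoin ℂ (Set.range y)) (Cl K) :=
    (y1.isTranscendenceBasis_of_trdeg_le_of_finite
      (by rw [AJac_trdeg ω1.b]; simp)).isAlgebraic_field
  obtain ⟨f, M, S, f0, f1, f2, H⟩ := wind w1 y y1
    (insert (ω1.rho y) (insert (algebraMap K (Cl K) a)
      (Finset.univ.image y ∪ T.image (algebraMap K (Cl K))))) (by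
      simp only [Finset.forall_mem_insert, Finset.forall_mem_union, Finset.forall_mem_image]
      exact ⟨y3, (map_ne_zero _).2 a0, fun i _ => y1.ne_zero i,
        fun b hb => (map_ne_zero _).2 (hT b hb)⟩)
  have j1 : ω1.jac f = ω1.jac y := by rw [ω1.jac_of_eq f y M f1, f2, one_mul]
  set x := ∑ i, w1.v (f i) - w1.v (ω1.rho y) / ω1.m with hx
  have x0 : (x : EReal) ≤ ω.A w := by
    have h1 := ω1.le_A w1 f f0 (j1 ▸ y2)
    rw [pull w w1 hw1, PForm.wt, PForm.rho, j1] at h1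
    exact h1
  obtain ⟨l, l1, l2, l3⟩ := exists_lam' (insert (w.v a) (insert (-w.v a)
    (S ∪ Finset.univ.image fun i => w1.v (y i)))) (insert x (T.image w.v)) ε0
  obtain ⟨w2, u, δ, N, b1, b2, -, b3, b4, b5, b6, b7⟩ :=
    H l l1 fun t ht => l2 t (by simp [ht])
  simp only [Finset.forall_mem_insert, Finset.forall_mem_union, Finset.forall_mem_image] at b1 l3
  obtain ⟨c1, c2, c3, c4⟩ := b1
  obtain ⟨i, hi⟩ : ∃ i, δ i ≠ 0 := by
    by_contra hn
    rw [UKlt_triv b2 (fun i => not_not.1 fun h => hn ⟨i, h⟩) ((map_ne_zero _).2 a0),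
      hw1 a a0] at c2
    rcases lt_or_gt_of_ne a1 with h | h
    · have := l2 (-w.v a) (by simp) (neg_pos.2 h)
      rw [map_neg] at this
      linarith
    · exact (l2 _ (by simp) h).ne c2
  refine ⟨_, x, divisorial_comap (K := K) b2 hi fun j hj => not_not.1 fun h => hj (b3 j i h hi),
    RVal.onSpec_of_proj π fun j => Or.inr (by
      refine (UKlt_sg l2 (x := w1.v (y j)) (by simp) ?_).trans (c3 (Finset.mem_univ j)).ge
      have h2 := (map_ne_zero _).1 (y1.ne_zero j)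
      rw [hy, hw1 _ h2]
      exact (hw _).resolve_left h2), fun b hb => ?_, x0, ?_⟩
  · have h1 := c4 hb
    rw [hw1 b (hT b hb)] at h1
    have h2 := l3.2 hb
    rw [← h1] at h2
    exact h2
  have j2 := ω1.jac_of_eq u y N b5
  have m0 : (ω1.m : ℝ) ≠ 0 := Nat.cast_ne_zero.2 ω1.m_pos.ne'
  have j3 : ω1.rho u = N.det ^ ω1.m * ω1.rho y := by
    rw [PForm.rho, PForm.rho, j2, mul_pow, mul_div_assoc]
  rw [← pull _ w2 fun _ _ => rfl, A_mon' ω1 u (j2 ▸ mul_ne_zero b6 y2) b2, j3,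
    w2.mul _ _ (pow_ne_zero _ b6) y3, w2.v_pow _ b6, add_div, mul_div_cancel_left₀ _ m0,
    ← sub_sub, b7, c1, EReal.coe_le_coe_iff]
  have h2 := (abs_lt.1 l3.1).2
  have h3 := lam_rat l (ω1.m : ℚ)⁻¹ (w1.v (ω1.rho y))
  push_cast at h3
  rw [hx, map_sub, div_eq_inv_mul, h3, ← div_eq_inv_mul, ← div_eq_inv_mul, ← hx] at h2
  linarith

end Vale.Agent.P282
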