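import Vale.Agent.P282.UKlt
import Vale.Agent.P282.DefsS

set_option linter.unusedSectionVars false

open scoped ENNReal TensorProduct Topology
open Filter

noncomputable section

namespace Vale.Agent.P282

variable {K : Type} [Field K] [Algebra ℂ K]

theorem XDiv_mon {k : ℕ} (w : RVal K) {t : K} (t0 : t ≠ 0) (tc : 0 < w.v t) {g : Fin k → K}
    (hg : ∀ P : MvPolynomial (Fin k) ℂ, P ≠ 0 →
      MvPolynomial.aeval g P ≠ 0 ∧ w.v (MvPolynomial.aeval g P) = 0) :
    IsMon w (Fin.cons t g : Fin (k + 1) → K) (Fin.cons (w.v t) 0) := by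
  classical
  intro P hP
  set Q := MvPolynomial.finSuccEquiv ℂ k P with hQ
  have Q0 : Q ≠ 0 := fun h => hP ((MvPolynomial.finSuccEquiv ℂ k).injective (by rw [← hQ, h, map_zero]))
  have e : MvPolynomial.aeval (Fin.cons t g : Fin (k + 1) → K) P =
      Q.eval₂ (MvPolynomial.aeval g : MvPolynomial (Fin k) ℂ →ₐ[ℂ] K).toRingHom t := by
    rw [hQ]
    clear hQ Q0 hP Q
    induction P using MvPolynomial.induction_on with
    | C a =>
      have : MvPolynomial.finSuccEquiv ℂ k (MvPolynomial.C a) =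
          Polynomial.C (MvPolynomial.C a) := (MvPolynomial.finSuccEquiv ℂ k).commutes a
      rw [this]
      simp
    | add p q hp hq => rw [map_add, map_add, Polynomial.eval₂_add, hp, hq]
    | mul_X p i hp =>
      rw [map_mul, map_mul, Polynomial.eval₂_mul, hp]
      congr 1
      refine Fin.cases ?_ (fun i => ?_) i
      · rw [MvPolynomial.finSuccEquiv_X_zero]
        simp
      · rw [MvPolynomial.finSuccEquiv_X_succ]
        simp
  set j := Q.natTrailingDegree with hj
  have jm : j ∈ Q.support := Polynomial.natTrailingDegree_mem_support_of_nonzero Q0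
  have hterm : ∀ i ∈ Q.support, MvPolynomial.aeval g (Q.coeff i) * t ^ i ≠ 0 ∧
      w.v (MvPolynomial.aeval g (Q.coeff i) * t ^ i) = i * w.v t := fun i hi => by
    obtain ⟨h1, h2⟩ := hg _ (Polynomial.mem_support_iff.1 hi)
    exact ⟨mul_ne_zero h1 (pow_ne_zero _ t0), by
      rw [w.mul _ _ h1 (pow_ne_zero _ t0), h2, w.v_pow _ t0, zero_add]⟩
  have hv := w.v_add_of_lt (hterm j jm).1 (t := (j + 1) * w.v t)
    (b := ∑ i ∈ Q.support.erase j, MvPolynomial.aeval g (Q.coeff i) * t ^ i)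
    (RVal.Ge.sum fun i hi => Or.inr (by
      obtain ⟨h1, h2⟩ := Finset.mem_erase.1 hi
      rw [(hterm i h2).2]
      have h3 : j + 1 ≤ i := lt_of_le_of_ne (Polynomial.natTrailingDegree_le_of_mem_supp i h2) h1.symm
      have h4 : ((j : ℝ) + 1) ≤ i := by exact_mod_cast h3
      exact mul_le_mul_of_nonneg_right h4 tc.le)) (by rw [(hterm j jm).2]; linarith)
  rw [Finset.add_sum_erase _ (fun i => MvPolynomial.aeval g (Q.coeff i) * t ^ i) jm,
    (hterm j jm).2] at hv
  have e2 : MvPolynomial.aeval (Fin.cons t g : Fin (k + 1) → K) P =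
      ∑ i ∈ Q.support, MvPolynomial.aeval g (Q.coeff i) * t ^ i := by
    rw [e, Polynomial.eval₂_eq_sum]
    rfl
  have hs : ∀ α : Fin (k + 1) →₀ ℕ,
      ∑ i, (Fin.cons (w.v t) 0 : Fin (k + 1) → ℝ) i * α i = α 0 * w.v t := fun α => by
    simp [Fin.sum_univ_succ, mul_comm]
  have hsup : Q.support = P.support.image fun α => α 0 := MvPolynomial.support_finSuccEquiv P
  rw [e2]
  refine ⟨hv.1, ?_, fun α hα => ?_⟩
  · obtain ⟨α, h1, h2⟩ := Finset.mem_image.1 (hsup ▸ jm)
    exact ⟨α, h1, by rw [hv.2, hs, h2]⟩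
  · rw [hv.2, hs]
    have h3 : j ≤ α 0 := Polynomial.natTrailingDegree_le_of_mem_supp _
      (hsup ▸ Finset.mem_image_of_mem _ hα)
    exact mul_le_mul_of_nonneg_right (by exact_mod_cast h3) tc.le

theorem XDiv_ind {n : ℕ} (p : MvPolynomial (Fin n) ℂ → Prop)
    (h : ∀ P, p P → ∀ i, p (MvPolynomial.pderiv i P)) (h0 : ∀ a, p (MvPolynomial.C a) → a = 0)
    (d : ℕ) (P : MvPolynomial (Fin n) ℂ) (hP : p P) (hd : ∀ m ∈ P.support, m.degree ≤ d) :
    P = 0 := by
  have key : ∀ P : MvPolynomial (Fin n) ℂ, p P → (∀ m, m ≠ 0 → P.coeff m = 0) → P = 0 :=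
    fun P hP hm => by
      have e : P = MvPolynomial.C (P.coeff 0) := by
        ext m
        rw [MvPolynomial.coeff_C]
        split_ifs with hh
        · rw [hh]
        · exact hm m (Ne.symm hh)
      rw [e] at hP
      rw [e, h0 _ hP, map_zero]
  induction d generalizing P with
  | zero =>
    refine key P hP fun m hm => by_contra fun hc => hm ?_
    have := hd m (MvPolynomial.mem_support_iff.2 hc)
    exact (Finsupp.degree_eq_zero_iff m).1 (by omega)
  | succ d ih =>
    refine key P hP fun m hm => ?_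
    obtain ⟨i, hi⟩ := Finsupp.ne_iff.1 hm
    have h2 : m - Finsupp.single i 1 + Finsupp.single i 1 = m :=
      tsub_add_cancel_of_le (Finsupp.single_le_iff.2 (Nat.pos_of_ne_zero hi))
    have h3 := congrArg (MvPolynomial.coeff (m - Finsupp.single i 1))
      (ih (MvPolynomial.pderiv i P) (h P hP i) fun m' hm' => by
        have h4 := MvPolynomial.mem_support_iff.1 hm'
        rw [MvPolynomial.coeff_pderiv] at h4
        have := hd _ (MvPolynomial.mem_support_iff.2 (left_ne_zero_of_mul h4))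
        rw [map_add, Finsupp.degree_single] at this
        omega)
    rw [MvPolynomial.coeff_pderiv, h2, MvPolynomial.coeff_zero] at h3
    exact (mul_eq_zero.1 h3).resolve_right (Nat.cast_add_one_ne_zero _)

theorem XDiv_ge {n : ℕ} (w : RVal K) {f : Fin n → K} (hf : ∀ i, w.Ge (f i) 0)
    (P : MvPolynomial (Fin n) ℂ) : w.Ge (MvPolynomial.aeval f P) 0 := by
  induction P using MvPolynomial.induction_on with
  | C a => rw [MvPolynomial.aeval_C]; exact RVal.Ge.const a
  | add p q hp hq => rw [map_add]; exact hp.add hq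
  | mul_X p i hp =>
    rw [map_mul, MvPolynomial.aeval_X]
    simpa using hp.mul (hf i)

theorem XDiv_le {n : ℕ} [Algebra.EssFiniteType ℂ K] (ω : PForm K n) (w : RVal K) {c : ℝ}
    (hc : ∀ a, a ≠ 0 → 0 < w.v a → c ≤ w.v a) {t : K} (t0 : t ≠ 0) (tc : w.v t ≠ 0)
    {f : Fin n → K} (hf : ∀ i, w.Ge (f i) 0) (hj : ω.jac f ≠ 0) :
    ((c - w.v (ω.rho f) / ω.m : ℝ) : EReal) ≤ ω.A w := by
  classical
  have hi := (ω.jac_ne_iff f).1 hj
  have hne : ∀ P : MvPolynomial (Fin n) ℂ, P ≠ 0 → MvPolynomial.aeval f P ≠ 0 := fun P hP h =>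
    hP (hi (by rw [h, map_zero]))
  obtain ⟨P, hP, i, hPi⟩ : ∃ P : MvPolynomial (Fin n) ℂ,
      (P = 0 ∨ 0 < w.v (MvPolynomial.aeval f P)) ∧ ∃ i, ¬ (MvPolynomial.pderiv i P = 0 ∨
        0 < w.v (MvPolynomial.aeval f (MvPolynomial.pderiv i P))) := by
    by_contra hn
    have h1 : ∀ P : MvPolynomial (Fin n) ℂ, (P = 0 ∨ 0 < w.v (MvPolynomial.aeval f P)) → P = 0 :=
      fun P hP => XDiv_ind (fun P => P = 0 ∨ 0 < w.v (MvPolynomial.aeval f P))
        (fun P hP i => by_contra fun h => hn ⟨P, hP, i, h⟩)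
        (fun a ha => by_contra fun h => by
          rcases ha with ha | ha
          · exact h (MvPolynomial.C_eq_zero.1 ha)
          · rw [MvPolynomial.aeval_C, w.const a h] at ha
            exact lt_irrefl _ ha)
        (P.support.sup fun m => m.degree) P hP fun m hm =>
          Finset.le_sup (f := fun m : Fin n →₀ ℕ => m.degree) hm
    have := UMon_alg ω f hj
    refine tc (UKlt_triv (w := w) (u := f) (δ := fun _ => 0) (fun P hP => ?_) (fun _ => rfl) t0)
    have h2 : w.v (MvPolynomial.aeval f P) = 0 :=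
      le_antisymm (not_lt.1 fun h => hP (h1 P (Or.inr h)))
        ((XDiv_ge w hf P).resolve_left (hne P hP))
    obtain ⟨α, hα⟩ := MvPolynomial.support_nonempty.2 hP
    exact ⟨hne P hP, ⟨α, hα, by simp [h2]⟩, fun α _ => by simp [h2]⟩
  obtain ⟨d0, d1⟩ := not_or.1 hPi
  have P0 : P ≠ 0 := fun h => d0 (by rw [h, map_zero])
  have P1 := hc _ (hne P P0) (hP.resolve_left P0)
  have d2 : w.v (MvPolynomial.aeval f (MvPolynomial.pderiv i P)) = 0 :=
    le_antisymm (not_lt.1 d1) ((XDiv_ge w hf _).resolve_left (hne _ d0))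
  have f0 : ∀ j, f j ≠ 0 := hi.ne_zero
  set g := Function.update f i (MvPolynomial.aeval f P) with hg
  have e : ω.jac g = MvPolynomial.aeval f (MvPolynomial.pderiv i P) * ω.jac f := by
    rw [ω.jac_of_eq g f ((1 : Matrix (Fin n) (Fin n) K).updateRow i
      fun j => MvPolynomial.aeval f (MvPolynomial.pderiv j P)) fun j => ?_]
    · congr 1
      have := Matrix.det_updateRow_sum (1 : Matrix (Fin n) (Fin n) K) i
        fun j => MvPolynomial.aeval f (MvPolynomial.pderiv j P)
      rw [Matrix.det_one, smul_eq_mul, mul_one] at this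
      rw [← this]
      congr 2
      ext j
      simp [Finset.sum_apply, Matrix.one_apply]
    · by_cases h : j = i
      · subst h
        rw [hg, Function.update_self, UMon_D]
        simp
      · rw [hg, Function.update_of_ne h]
        simp [Matrix.updateRow_ne h, Matrix.one_apply]
  have g0 : ∀ j, g j ≠ 0 := fun j => by
    by_cases h : j = i
    · subst h
      rw [hg, Function.update_self]
      exact hne P P0
    · rw [hg, Function.update_of_ne h]
      exact f0 j
  refine le_trans (EReal.coe_le_coe_iff.2 ?_)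
    (ω.le_A w g g0 (e ▸ mul_ne_zero (hne _ d0) hj))
  have e2 : ω.rho g = MvPolynomial.aeval f (MvPolynomial.pderiv i P) ^ ω.m * ω.rho f := by
    rw [PForm.rho, PForm.rho, e, mul_pow, mul_div_assoc]
  rw [PForm.wt, e2, w.mul _ _ (pow_ne_zero _ (hne _ d0)) (ω.rho_ne hj), w.v_pow _ (hne _ d0), d2,
    mul_zero, zero_add]
  have h3 := Finset.single_le_sum (f := fun j => w.v (g j)) (s := Finset.univ) (fun j _ => by
    by_cases h : j = i
    · subst h
      rw [hg, Function.update_self]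
      exact (hP.resolve_left P0).le
    · rw [hg, Function.update_of_ne h]
      exact (hf j).resolve_left (f0 j)) (Finset.mem_univ i)
  simp only [hg, Function.update_self] at h3
  linarith

/-- the classical log discrepancy of a divisor agrees with the supremum over logarithmic forms -/
theorem adiv_eq {n : ℕ} (hn : 1 ≤ n) [Algebra.EssFiniteType ℂ K] (ω : PForm K n) {E : RVal K}
    (hE : E.IsDivisor n) : ∃ α : ℝ, ω.Adiv E = α ∧ ∀ (c : ℝ) (w : RVal K), 0 < c →
      (∀ a, a ≠ 0 → w.v a = c * E.v a) → ω.A w = ((c * α : ℝ) : EReal) := by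
  obtain ⟨k, rfl⟩ : ∃ k, n = k + 1 := ⟨n - 1, by omega⟩
  obtain ⟨⟨t, t0, t1⟩, hz, g, hg⟩ := hE
  have hg' : ∀ P : MvPolynomial (Fin k) ℂ, P ≠ 0 →
      MvPolynomial.aeval (show Fin k → K from g) P ≠ 0 ∧
        E.v (MvPolynomial.aeval (show Fin k → K from g) P) = 0 := hg
  set y : Fin (k + 1) → K := Fin.cons t g with hy
  have m1 := XDiv_mon E t0 (by rw [t1]; exact one_pos) hg'
  have hj : ω.jac y ≠ 0 := (ω.jac_ne_iff y).2 (by
    rw [algebraicIndependent_iff]
    exact fun P hP => by_contra fun h => (m1 P h).1 hP)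
  have key : ∀ (c : ℝ) (w : RVal K), 0 < c → (∀ a, a ≠ 0 → w.v a = c * E.v a) →
      ω.A w = ((c * (1 - E.v (ω.rho y) / ω.m) : ℝ) : EReal) := fun c w c0 hw => by
    have h1 : w.v t = c := by rw [hw t t0, t1, mul_one]
    have m2 := XDiv_mon w t0 (h1 ▸ c0) (g := g) fun P hP =>
      ⟨(hg' P hP).1, by rw [hw _ (hg' P hP).1, (hg' P hP).2, mul_zero]⟩
    rw [A_mon ω y hj m2, hw _ (ω.rho_ne hj), h1]
    congr 1
    simp only [Fin.sum_univ_succ, Fin.cons_zero, Fin.cons_succ, Pi.zero_apply,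
      Finset.sum_const_zero]
    ring
  refine ⟨1 - E.v (ω.rho y) / ω.m, le_antisymm (iSup_le fun f => ?_) ?_, key⟩
  · have h1 := key 1 E one_pos fun a _ => (one_mul _).symm
    rw [one_mul] at h1
    rw [← h1]
    refine XDiv_le ω E (fun a a0 h => ?_) t0 (by rw [t1]; exact one_ne_zero) f.2.1 f.2.2
    obtain ⟨z, e⟩ := hz a a0
    rw [e] at h ⊢
    exact_mod_cast (show 0 < z by exact_mod_cast h)
  · refine le_iSup (fun f : {f : Fin (k + 1) → K // (∀ i, E.Ge (f i) 0) ∧ ω.jac f ≠ 0} =>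
      ((1 - E.v (ω.rho f.1) / ω.m : ℝ) : EReal)) ⟨y, fun i => Or.inr ?_, hj⟩
    refine Fin.cases ?_ (fun i => ?_) i
    · rw [hy, Fin.cons_zero, t1]
      exact zero_le_one
    · have := (hg' (MvPolynomial.X i) (MvPolynomial.X_ne_zero i)).2
      rw [MvPolynomial.aeval_X] at this
      rw [hy, Fin.cons_succ]
      exact this.ge

/-- rescaling a valuation -/
def RVal.scale (w : RVal K) (c : ℝ) (hc : 0 < c) : RVal K where
  v a := w.v a / c
  mul a b ha hb := by rw [w.mul a b ha hb, add_div]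
  add a b ha hb h := by
    rw [min_div_div_right hc.le]
    exact div_le_div_of_nonneg_right (w.add a b ha hb h) hc.le
  const a ha := by rw [w.const a ha, zero_div]

theorem RVal.Divisorial.exists_div {n : ℕ} {w : RVal K} (h : w.Divisorial n) :
    ∃ (c : ℝ) (hc : 0 < c), (w.scale c hc).IsDivisor n := by
  obtain ⟨⟨c, c0, ⟨a, a0, a1⟩, hz⟩, g, hg⟩ := h
  refine ⟨c, c0, ⟨a, a0, ?_⟩, fun b b0 => ?_, g, fun P hP => ⟨(hg P hP).1, ?_⟩⟩
  · show w.v a / c = 1
    rw [a1, div_self c0.ne']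
  · obtain ⟨k, hk⟩ := hz b b0
    exact ⟨k, show w.v b / c = k by rw [hk, mul_div_cancel_right₀ _ c0.ne']⟩
  · show w.v _ / c = 0
    rw [(hg P hP).2, zero_div]

theorem RVal.OnSpec.scale {R : Type} [CommRing R] [Algebra R K] {w : RVal K} (h : w.OnSpec R)
    (c : ℝ) (hc : 0 < c) : (w.scale c hc).OnSpec R := fun r =>
  (h r).imp id fun h => div_nonneg h hc.le

theorem klt_of_kltS {n : ℕ} (hn : 1 ≤ n) [Algebra.EssFiniteType ℂ K] (ω : PForm K n) {R : Type}
    [CommRing R] [Algebra R K] (h : ω.KltS R) : ω.Klt R := fun w hw ho => by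
  obtain ⟨c, c0, hE⟩ := hw.exists_div
  obtain ⟨α, h1, h2⟩ := adiv_eq hn ω hE
  have h3 := h _ hE (ho.scale c c0)
  rw [h1, EReal.coe_pos] at h3
  rw [h2 c w c0 fun a _ => (mul_div_cancel₀ _ c0.ne').symm, EReal.coe_pos]
  exact mul_pos c0 h3

end Vale.Agent.P282
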