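import Vale.Agent.P282.XDiv
import Vale.Agent.P282.XApx

set_option linter.unusedSectionVars false

open scoped ENNReal TensorProduct Topology
open Filter MeasureTheory

noncomputable section

namespace Vale.Agent.P282

variable {R K : Type} [CommRing R] [IsDomain R] [Algebra ℂ R] [Algebra.FiniteType ℂ R]
  [IsIntegrallyClosed R] [Field K] [Algebra R K] [IsFractionRing R K] [Algebra ℂ K]
  [IsScalarTower ℂ R K] {n : ℕ}

theorem XLsc_mul (hn : 1 ≤ n) [Algebra.EssFiniteType ℂ K] (ω : PForm K n) {E : RVal K}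
    (hE : E.IsDivisor n) {c : ℝ} (c0 : 0 < c) (w : RVal K)
    (hw : ∀ a, a ≠ 0 → w.v a = c * E.v a) : (c : EReal) * ω.Adiv E = ω.A w := by
  obtain ⟨α, h1, h2⟩ := adiv_eq hn ω hE
  rw [h1, h2 c w c0 hw, EReal.coe_mul]

theorem A_le_AS (hn : 1 ≤ n) (ω : PForm K n) (v : RVal K) : ω.A v ≤ ω.AS R v := by
  have : Algebra.EssFiniteType R K := Algebra.EssFiniteType.of_isLocalization K (nonZeroDivisors R)
  have : Algebra.EssFiniteType ℂ K := Algebra.EssFiniteType.comp ℂ R K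
  refine iSup_le fun f => ?_
  obtain ⟨f, f0, hj⟩ := f
  refine EReal.ge_of_forall_gt_iff_ge.1 fun z hz => ?_
  refine le_liminf_of_le (by isBoundedDefault) ?_
  set F := comap (fun (p : {p : ℝ × RVal K // 0 < p.1 ∧ p.2.IsDivisor n ∧ p.2.OnSpec R})
    (a : Kˣ) => p.1.1 * p.1.2.v a) (𝓝 fun a : Kˣ => v.v a) with hF
  have h1 : ∀ a : K, a ≠ 0 → Tendsto (fun p : {p : ℝ × RVal K //
      0 < p.1 ∧ p.2.IsDivisor n ∧ p.2.OnSpec R} => p.1.1 * p.1.2.v a) F (𝓝 (v.v a)) :=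
    fun a ha => tendsto_pi_nhds.1 (tendsto_comap (f := fun (p : {p : ℝ × RVal K //
      0 < p.1 ∧ p.2.IsDivisor n ∧ p.2.OnSpec R}) (a : Kˣ) => p.1.1 * p.1.2.v a)
      (x := 𝓝 fun a : Kˣ => v.v a)) (Units.mk0 a ha)
  have h2 := (tendsto_finsetSum Finset.univ fun i _ => h1 _ (f0 i)).sub
    ((h1 _ (ω.rho_ne hj)).div_const (ω.m : ℝ))
  filter_upwards [h2.eventually (lt_mem_nhds (EReal.coe_lt_coe_iff.1 hz))] with p hp
  have e : ∀ a, (p.1.2.scale p.1.1⁻¹ (inv_pos.2 p.2.1)).v a = p.1.1 * p.1.2.v a := fun a => by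
    show p.1.2.v a / p.1.1⁻¹ = _
    rw [div_inv_eq_mul, mul_comm]
  rw [XLsc_mul hn ω p.2.2.1 p.2.1 _ fun a _ => e a]
  refine le_trans (EReal.coe_le_coe_iff.2 ?_) (ω.le_A _ f f0 hj)
  simp only [PForm.wt, e]
  exact hp.le

theorem AS_le_A (hn : 1 ≤ n) (ω : PForm K n) (v : RVal K) (h : ∃ a, a ≠ 0 ∧ v.v a ≠ 0)
    (hv : v.OnSpec R) : ω.AS R v ≤ ω.A v := by
  classical
  have : Algebra.EssFiniteType R K := Algebra.EssFiniteType.of_isLocalization K (nonZeroDivisors R)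
  have : Algebra.EssFiniteType ℂ K := Algebra.EssFiniteType.comp ℂ R K
  refine EReal.le_of_forall_lt_iff_le.1 fun z hz => ?_
  obtain ⟨z', z1, z2⟩ := EReal.lt_iff_exists_real_btwn.1 hz
  refine liminf_le_of_frequently_le (frequently_iff.2 fun {U} hU => ?_) (by isBoundedDefault)
  obtain ⟨V, hV, hVU⟩ := mem_comap.1 hU
  rw [nhds_pi, mem_pi] at hV
  obtain ⟨I, If, t, ht, hI⟩ := hV
  choose r r0 hr using fun i => Metric.mem_nhds_iff.1 (ht i)
  obtain ⟨ε, ⟨ε1, ε2⟩, ε0⟩ := ((((eventually_all_finite If).2 fun i _ =>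
    nhdsWithin_le_nhds (ge_mem_nhds (r0 i))).and (nhdsWithin_le_nhds (ge_mem_nhds
      (sub_pos.2 (EReal.coe_lt_coe_iff.1 z2))))).and
        (self_mem_nhdsWithin (s := Set.Ioi (0 : ℝ)) (a := 0))).exists
  obtain ⟨w, x, w1, w2, w3, w4, w5⟩ := exists_approx ω v h hv
    (If.toFinset.image fun a : Kˣ => (a : K))
    (fun a ha => by
      obtain ⟨b, -, rfl⟩ := Finset.mem_image.1 ha
      exact b.ne_zero) (ε := ε) ε0
  obtain ⟨c, c0, hE⟩ := w1.exists_div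
  have e : ∀ a, w.v a = c * (w.scale c c0).v a := fun a => (mul_div_cancel₀ _ c0.ne').symm
  refine ⟨⟨(c, w.scale c c0), c0, hE, w2.scale c c0⟩, hVU (hI fun a ha => hr a ?_), ?_⟩
  · rw [Metric.mem_ball, Real.dist_eq]
    show |c * (w.scale c c0).v a - v.v a| < _
    rw [← e]
    exact (w3 _ (Finset.mem_image_of_mem _ (If.mem_toFinset.2 ha))).trans_le (ε1 a ha)
  · show (c : EReal) * ω.Adiv (w.scale c c0) ≤ z
    rw [XLsc_mul hn ω hE c0 w fun a _ => e a]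
    refine w5.trans (EReal.coe_le_coe_iff.2 ?_)
    have := EReal.coe_lt_coe_iff.1 (w4.trans_lt z1)
    linarith

theorem nvolS_eq (hn : 1 ≤ n) (ω : PForm K n) (m : Ideal R) [m.IsPrime] (hm : m ≠ ⊥) :
    nvolS m ω = nvol m ω := by
  unfold nvolS nvol
  refine iInf_congr fun v => ?_
  obtain ⟨r, r1, r2⟩ := m.ne_bot_iff.1 hm
  have r3 : algebraMap R K r ≠ 0 := fun h =>
    r2 (IsFractionRing.injective R K (by rw [h, map_zero]))
  rw [le_antisymm (AS_le_A hn ω v.1 ⟨_, r3, ((v.2.2 r r3).2 r1).ne'⟩ v.2.1) (A_le_AS hn ω v.1)]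

end Vale.Agent.P282
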